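import Mathlib

/-!
# Integer polynomials in two variables as lists, with a Boolean positivity check

`UP`: coefficient lists, constant term first. `BP`: lists of `UP`, a polynomial in `d` whose
coefficients are polynomials in `t`. `certCheck` tests an identity
`k P = e + Sum_(i,j) b_ij U1^i U2^(D-i) V1^j V2^(E-j)` with `k, e > 0`, `b_ij >= 0`, which gives `P > 0`
wherever `U1, U2, V1, V2 >= 0`.
-/

namespace Vale.Agent.Lib.P100.BP

/-- polynomials in one variable -/
abbrev UP := List ℤ

/-- polynomials in two variables -/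
abbrev BPol := List (List ℤ)

def uadd : UP → UP → UP
  | [], q => q
  | a :: p, [] => a :: p
  | a :: p, b :: q => (a + b) :: uadd p q

def uscale (c : ℤ) : UP → UP
  | [] => []
  | a :: p => (c * a) :: uscale c p

def umul : UP → UP → UP
  | [], _ => []
  | a :: p, q => uadd (uscale a q) (0 :: umul p q)

def upow (V : UP) : ℕ → UP
  | 0 => [1]
  | n + 1 => umul V (upow V n)

noncomputable def ueval : UP → ℝ → ℝ
  | [], _ => 0
  | a :: p, t => (a : ℝ) + t * ueval p t

@[simp] lemma ueval_nil (t : ℝ) : ueval [] t = 0 := rfl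
@[simp] lemma ueval_cons (a : ℤ) (p : UP) (t : ℝ) : ueval (a :: p) t = (a : ℝ) + t * ueval p t := rfl

lemma ueval_uadd (p q : UP) (t : ℝ) : ueval (uadd p q) t = ueval p t + ueval q t := by
  induction p generalizing q with
  | nil => simp [uadd]
  | cons a p ih =>
    cases q with
    | nil => simp [uadd]
    | cons b q =>
      simp [uadd, ih]
      ring

lemma ueval_uscale (c : ℤ) (p : UP) (t : ℝ) : ueval (uscale c p) t = (c : ℝ) * ueval p t := by
  induction p with
  | nil => simp [uscale]
  | cons a p ih =>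
    simp [uscale, ih]
    ring

lemma ueval_umul (p q : UP) (t : ℝ) : ueval (umul p q) t = ueval p t * ueval q t := by
  induction p with
  | nil => simp [umul]
  | cons a p ih =>
    simp [umul, ueval_uadd, ueval_uscale, ih]
    ring

lemma ueval_upow (V : UP) (n : ℕ) (t : ℝ) : ueval (upow V n) t = ueval V t ^ n := by
  induction n with
  | zero => simp [upow]
  | succ n ih =>
    simp [upow, ueval_umul, ih]
    ring

def badd : BPol → BPol → BPol
  | [], Q => Q
  | r :: P, [] => r :: P
  | r :: P, s :: Q => uadd r s :: badd P Q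

def bscale (c : ℤ) : BPol → BPol
  | [] => []
  | r :: P => uscale c r :: bscale c P

def bmapU (r : UP) : BPol → BPol
  | [] => []
  | s :: Q => umul r s :: bmapU r Q

def bmul : BPol → BPol → BPol
  | [], _ => []
  | r :: P, Q => badd (bmapU r Q) ([] :: bmul P Q)

noncomputable def beval : BPol → ℝ → ℝ → ℝ
  | [], _, _ => 0
  | r :: P, d, t => ueval r t + d * beval P d t

@[simp] lemma beval_nil (d t : ℝ) : beval [] d t = 0 := rfl
@[simp] lemma beval_cons (r : UP) (P : BPol) (d t : ℝ) :
    beval (r :: P) d t = ueval r t + d * beval P d t := rfl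

lemma beval_badd (P Q : BPol) (d t : ℝ) : beval (badd P Q) d t = beval P d t + beval Q d t := by
  induction P generalizing Q with
  | nil => simp [badd]
  | cons r P ih =>
    cases Q with
    | nil => simp [badd]
    | cons s Q =>
      simp [badd, ih, ueval_uadd]
      ring

lemma beval_bscale (c : ℤ) (P : BPol) (d t : ℝ) : beval (bscale c P) d t = (c : ℝ) * beval P d t := by
  induction P with
  | nil => simp [bscale]
  | cons r P ih =>
    simp [bscale, ih, ueval_uscale]
    ring

lemma beval_bmapU (r : UP) (Q : BPol) (d t : ℝ) : beval (bmapU r Q) d t = ueval r t * beval Q d t := by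
  induction Q with
  | nil => simp [bmapU]
  | cons s Q ih =>
    simp [bmapU, ih, ueval_umul]
    ring

lemma beval_bmul (P Q : BPol) (d t : ℝ) : beval (bmul P Q) d t = beval P d t * beval Q d t := by
  induction P with
  | nil => simp [bmul]
  | cons r P ih =>
    simp [bmul, beval_badd, beval_bmapU, ih]
    ring

/-- the constant polynomial -/
def bcst (c : ℤ) : BPol := [[c]]

/-- the variable `d` -/
def bvd : BPol := [[], [1]]

/-- the variable `t` -/
def bvt : BPol := [[0, 1]]

@[simp] lemma beval_bcst (c : ℤ) (d t : ℝ) : beval (bcst c) d t = (c : ℝ) := by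
  simp [bcst]

@[simp] lemma beval_bvd (d t : ℝ) : beval bvd d t = d := by
  simp [bvd]

@[simp] lemma beval_bvt (d t : ℝ) : beval bvt d t = t := by
  simp [bvt]

/-- zero test -/
def uzero : UP → Bool
  | [] => true
  | a :: p => decide (a = 0) && uzero p

def bzero : BPol → Bool
  | [] => true
  | r :: P => uzero r && bzero P

lemma ueval_of_uzero {p : UP} (h : uzero p = true) (t : ℝ) : ueval p t = 0 := by
  induction p with
  | nil => simp
  | cons a p ih =>
    simp only [uzero, Bool.and_eq_true, decide_eq_true_eq] at h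
    simp [h.1, ih h.2]

lemma beval_of_bzero {P : BPol} (h : bzero P = true) (d t : ℝ) : beval P d t = 0 := by
  induction P with
  | nil => simp
  | cons r P ih =>
    simp only [bzero, Bool.and_eq_true] at h
    simp [ueval_of_uzero h.1, ih h.2]

/-- division by `t^l`: the part that is kept -/
def udiv : ℕ → UP → UP
  | 0, p => p
  | _ + 1, [] => []
  | l + 1, _ :: p => udiv l p

/-- division by `t^l`: the part that has to vanish -/
def uchk : ℕ → UP → Bool
  | 0, _ => true
  | _ + 1, [] => true
  | l + 1, a :: p => decide (a = 0) && uchk l p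

lemma ueval_udiv {l : ℕ} {p : UP} (h : uchk l p = true) (t : ℝ) :
    ueval p t = t ^ l * ueval (udiv l p) t := by
  induction l generalizing p with
  | zero => simp [udiv]
  | succ l ih =>
    cases p with
    | nil => simp [udiv]
    | cons a p =>
      simp only [uchk, Bool.and_eq_true, decide_eq_true_eq] at h
      simp only [udiv, ueval_cons, h.1]
      rw [ih h.2]
      simp
      ring

/-- division by `t^l` of every row -/
def bdivT (l : ℕ) : BPol → BPol
  | [] => []
  | r :: P => udiv l r :: bdivT l P

def bchkT (l : ℕ) : BPol → Bool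
  | [] => true
  | r :: P => uchk l r && bchkT l P

lemma beval_bdivT {l : ℕ} {P : BPol} (h : bchkT l P = true) (d t : ℝ) :
    beval P d t = t ^ l * beval (bdivT l P) d t := by
  induction P with
  | nil => simp [bdivT]
  | cons r P ih =>
    simp only [bchkT, Bool.and_eq_true] at h
    simp only [bdivT, beval_cons]
    rw [ih h.2, ueval_udiv h.1]
    ring

/-- division by `d^k` -/
def bdivD : ℕ → BPol → BPol
  | 0, P => P
  | _ + 1, [] => []
  | k + 1, _ :: P => bdivD k P

def bchkD : ℕ → BPol → Bool
  | 0, _ => true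
  | _ + 1, [] => true
  | k + 1, r :: P => uzero r && bchkD k P

lemma beval_bdivD {k : ℕ} {P : BPol} (h : bchkD k P = true) (d t : ℝ) :
    beval P d t = d ^ k * beval (bdivD k P) d t := by
  induction k generalizing P with
  | zero => simp [bdivD]
  | succ k ih =>
    cases P with
    | nil => simp [bdivD]
    | cons r P =>
      simp only [bchkD, Bool.and_eq_true] at h
      simp only [bdivD, beval_cons, ueval_of_uzero h.1]
      rw [ih h.2]
      ring

/-- division by `d^k t^l` -/
def bdiv (k l : ℕ) (P : BPol) : BPol := bdivT l (bdivD k P)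

def bchk (k l : ℕ) (P : BPol) : Bool := bchkD k P && bchkT l (bdivD k P)

lemma beval_bdiv {k l : ℕ} {P : BPol} (h : bchk k l P = true) (d t : ℝ) :
    beval P d t = d ^ k * t ^ l * beval (bdiv k l P) d t := by
  simp only [bchk, Bool.and_eq_true] at h
  rw [beval_bdivD h.1, beval_bdivT h.2, bdiv]
  ring

/-- `Sum_j b_j V1^j V2^(E-j)` -/
def uhomog : List ℤ → UP → UP → UP
  | [], _, _ => []
  | b :: bs, V1, V2 => uadd (uscale b (upow V2 bs.length)) (umul V1 (uhomog bs V1 V2))

lemma uhomog_nonneg {bs : List ℤ} {V1 V2 : UP} {t : ℝ} (hb : ∀ b ∈ bs, 0 ≤ b) (h1 : 0 ≤ ueval V1 t)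
    (h2 : 0 ≤ ueval V2 t) : 0 ≤ ueval (uhomog bs V1 V2) t := by
  induction bs with
  | nil => simp [uhomog]
  | cons b bs ih =>
    simp only [uhomog, ueval_uadd, ueval_uscale, ueval_upow, ueval_umul]
    have hb0 : (0 : ℝ) ≤ (b : ℝ) := by exact_mod_cast hb b (by simp)
    have := ih (fun x hx => hb x (by simp [hx]))
    positivity

/-- the product `a(d) S(t)` -/
def tens : UP → UP → BPol
  | [], _ => []
  | x :: a, S => uscale x S :: tens a S

lemma beval_tens (a S : UP) (d t : ℝ) : beval (tens a S) d t = ueval a d * ueval S t := by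
  induction a with
  | nil => simp [tens]
  | cons x a ih =>
    simp [tens, ih, ueval_uscale]
    ring

/-- the product `a(d) P(d,t)` -/
def bmulD : UP → BPol → BPol
  | [], _ => []
  | a :: as, P => badd (bscale a P) ([] :: bmulD as P)

lemma beval_bmulD (a : UP) (P : BPol) (d t : ℝ) : beval (bmulD a P) d t = ueval a d * beval P d t := by
  induction a with
  | nil => simp [bmulD]
  | cons x a ih =>
    simp [bmulD, beval_badd, beval_bscale, ih]
    ring

/-- `Sum_i S_i(t) U1^i U2^(D-i)` -/
def bhomog : List UP → UP → UP → BPol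
  | [], _, _ => []
  | S :: Ss, U1, U2 => badd (tens (upow U2 Ss.length) S) (bmulD U1 (bhomog Ss U1 U2))

lemma bhomog_nonneg {Ss : List UP} {U1 U2 : UP} {d t : ℝ} (hS : ∀ S ∈ Ss, 0 ≤ ueval S t)
    (h1 : 0 ≤ ueval U1 d) (h2 : 0 ≤ ueval U2 d) : 0 ≤ beval (bhomog Ss U1 U2) d t := by
  induction Ss with
  | nil => simp [bhomog]
  | cons S Ss ih =>
    simp only [bhomog, beval_badd, beval_tens, beval_bmulD, ueval_upow]
    have hb0 := hS S (by simp)
    have := ih (fun x hx => hS x (by simp [hx]))
    positivity

/-- the Boolean check -/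
def certCheck (P : BPol) (k e : ℤ) (B : List (List ℤ)) (U1 U2 V1 V2 : UP) : Bool :=
  decide (0 < k) && decide (0 < e) && B.all (fun r => r.all (fun x => decide (0 ≤ x))) &&
    bzero (badd (bscale k P)
      (badd (bcst (-e)) (bscale (-1) (bhomog (B.map (fun r => uhomog r V1 V2)) U1 U2))))

theorem cert_pos {P : BPol} {k e : ℤ} {B : List (List ℤ)} {U1 U2 V1 V2 : UP}
    (h : certCheck P k e B U1 U2 V1 V2 = true) {d t : ℝ}
    (h1 : 0 ≤ ueval U1 d) (h2 : 0 ≤ ueval U2 d) (h3 : 0 ≤ ueval V1 t) (h4 : 0 ≤ ueval V2 t) :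
    0 < beval P d t := by
  simp only [certCheck, Bool.and_eq_true, decide_eq_true_eq, List.all_eq_true] at h
  obtain ⟨⟨⟨hk, he⟩, hB⟩, hz⟩ := h
  have hz' := beval_of_bzero hz d t
  simp only [beval_badd, beval_bscale, beval_bcst] at hz'
  have hH : 0 ≤ beval (bhomog (B.map (fun r => uhomog r V1 V2)) U1 U2) d t := by
    apply bhomog_nonneg _ h1 h2
    intro S hS
    obtain ⟨r, hr, rfl⟩ := List.mem_map.mp hS
    exact uhomog_nonneg (fun b hb => hB r hr b hb) h3 h4
  have hk' : (0 : ℝ) < (k : ℝ) := by exact_mod_cast hk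
  have he' : (0 : ℝ) < (e : ℝ) := by exact_mod_cast he
  have hkP : (0 : ℝ) < (k : ℝ) * beval P d t := by
    push_cast at hz'
    linarith
  exact (pos_iff_pos_of_mul_pos hkP).mp hk'

end Vale.Agent.Lib.P100.BP
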