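import Vale.Agent.Lib.P100.Design

/-!
# P100: certificates with unequal exponents `a`, `b`, reduction to scalar inequalities.

Write `a = 1 - ab`, `b = 1 - bb`, `E1 = 1/2 + X1`, `E2 = 1/2 + X2`, `F1 = 1/2 - Y1`, `F2 = 1/2 - Y2`.
The remainder of the design lemma is the binary quadratic `R1 x^2 + R2 x z + R3 x y + R4 z^2 + R5 y z + R6 y^2`.
-/

noncomputable section

namespace Vale.Agent.Lib.P100.AB

open Vale.Agent.Lib.P100 Vale.Agent.Lib.P100.Design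

/-- coefficient of `x^2` (and, swapped, of `y^2`) -/
def R1 (h ab X1 : ℝ) : ℝ := h * (1 + X1 + ab / 2) ^ 2 - ab / 2 - X1 ^ 2 - ab ^ 2 / 4

/-- coefficient of `x z` (and, swapped, of `y z`) -/
def R2 (h ab bb X1 Y1 : ℝ) : ℝ :=
  (1 / 2 - Y1) * (1 + ab) - (1 / 2 + X1) * (1 - bb)
    + 2 * (1 - h) * (1 + X1 + ab / 2) * (Y1 - bb / 2)

/-- coefficient of `x y` -/
def R3 (ab bb Y1 Y2 : ℝ) : ℝ :=
  (1 / 2 - Y1) * bb + (1 / 2 - Y2) * ab - ((Y1 - bb / 2) ^ 2 + (Y2 - ab / 2) ^ 2) / 2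

/-- coefficient of `z^2` -/
def R4 (h ab bb Y1 Y2 : ℝ) : ℝ := -(1 / 2 - h) * ((Y1 - bb / 2) ^ 2 + (Y2 - ab / 2) ^ 2)

lemma Rf_eq (n ab bb X1 X2 Y1 Y2 x z y : ℝ) :
    Rf n (1 - ab) (1 - bb) 1 (1 / 2 + X1) (1 / 2 - Y1) (1 / 2 + X2) (1 / 2 - Y2) x z y =
      R1 (1 / n) ab X1 * x ^ 2 + R2 (1 / n) ab bb X1 Y1 * (x * z) + R3 ab bb Y1 Y2 * (x * y)
        + R4 (1 / n) ab bb Y1 Y2 * z ^ 2 + R2 (1 / n) bb ab X2 Y2 * (y * z)
        + R1 (1 / n) bb X2 * y ^ 2 := by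
  simp only [Rf, R1, R2, R3, R4]
  ring

/-- A ternary form with the cone constraint `z^2 <= x y`. -/
lemma form_margin3 {r1 r2 r3 r4 r5 r6 : ℝ} (h1 : 0 < r1) (h6 : 0 < r6) (h3 : 0 ≤ r3)
    (hD : r2 ^ 2 * r6 + r5 ^ 2 * r1 < 4 * (r3 + r4) * r1 * r6) :
    ∃ m : ℝ, 0 < m ∧ ∀ x z y : ℝ, z ^ 2 ≤ x * y →
      m * (x ^ 2 + y ^ 2) ≤ r1 * x ^ 2 + r2 * (x * z) + r3 * (x * y) + r4 * z ^ 2 + r5 * (y * z)
        + r6 * y ^ 2 := by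
  obtain ⟨b1, hb1⟩ : ∃ b1 : ℝ, b1 = r2 / (2 * r1) := ⟨_, rfl⟩
  obtain ⟨b2, hb2⟩ : ∃ b2 : ℝ, b2 = r5 / (2 * r6) := ⟨_, rfl⟩
  have e1 : r2 = 2 * r1 * b1 := by rw [hb1]; field_simp
  have e2 : r5 = 2 * r6 * b2 := by rw [hb2]; field_simp
  obtain ⟨dl, hdl⟩ : ∃ dl : ℝ, dl = (r3 + r4) - r1 * b1 ^ 2 - r6 * b2 ^ 2 := ⟨_, rfl⟩
  have hdl0 : 0 < dl := by
    have hp : 0 < r1 * r6 := mul_pos h1 h6
    have : 4 * (r1 * r6) * dl = 4 * (r3 + r4) * r1 * r6 - (r2 ^ 2 * r6 + r5 ^ 2 * r1) := by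
      rw [hdl, e1, e2]; ring
    have h4 : 0 < 4 * (r1 * r6) * dl := by rw [this]; linarith
    exact (pos_iff_pos_of_mul_pos h4).mp (by positivity)
  obtain ⟨K, hK⟩ : ∃ K : ℝ, K = 2 * (b1 ^ 2 + b2 ^ 2) + 1 := ⟨_, rfl⟩
  have hK0 : 0 < K := by rw [hK]; positivity
  obtain ⟨m, hm⟩ : ∃ m : ℝ, m = min (r1 / 2) (min (r6 / 2) (dl / K)) := ⟨_, rfl⟩
  have hm0 : 0 < m := by
    rw [hm]
    exact lt_min (by positivity) (lt_min (by positivity) (by positivity))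
  have m1 : m ≤ r1 / 2 := by rw [hm]; exact min_le_left _ _
  have m2 : m ≤ r6 / 2 := by rw [hm]; exact le_trans (min_le_right _ _) (min_le_left _ _)
  have m3 : m * K ≤ dl := by
    have : m ≤ dl / K := by rw [hm]; exact le_trans (min_le_right _ _) (min_le_right _ _)
    rwa [le_div_iff₀ hK0] at this
  refine ⟨m, hm0, ?_⟩
  intro x z y hz
  have key : r1 * x ^ 2 + r2 * (x * z) + r3 * (x * y) + r4 * z ^ 2 + r5 * (y * z) + r6 * y ^ 2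
      = r1 * (x + b1 * z) ^ 2 + r6 * (y + b2 * z) ^ 2 + dl * z ^ 2 + r3 * (x * y - z ^ 2) := by
    rw [hdl, e1, e2]; ring
  have s1 : x ^ 2 ≤ 2 * (x + b1 * z) ^ 2 + 2 * b1 ^ 2 * z ^ 2 := by
    nlinarith [sq_nonneg (x + 2 * b1 * z)]
  have s2 : y ^ 2 ≤ 2 * (y + b2 * z) ^ 2 + 2 * b2 ^ 2 * z ^ 2 := by
    nlinarith [sq_nonneg (y + 2 * b2 * z)]
  have hz2 : 0 ≤ z ^ 2 := sq_nonneg z
  have t1 : m * (x ^ 2 + y ^ 2) ≤ m * (2 * (x + b1 * z) ^ 2 + 2 * (y + b2 * z) ^ 2 + K * z ^ 2) := by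
    apply mul_le_mul_of_nonneg_left _ hm0.le
    rw [hK]
    nlinarith
  have t2 : m * (2 * (x + b1 * z) ^ 2 + 2 * (y + b2 * z) ^ 2 + K * z ^ 2)
      ≤ r1 * (x + b1 * z) ^ 2 + r6 * (y + b2 * z) ^ 2 + dl * z ^ 2 := by
    have a1 : m * 2 * (x + b1 * z) ^ 2 ≤ r1 * (x + b1 * z) ^ 2 :=
      mul_le_mul_of_nonneg_right (by linarith) (sq_nonneg _)
    have a2 : m * 2 * (y + b2 * z) ^ 2 ≤ r6 * (y + b2 * z) ^ 2 :=
      mul_le_mul_of_nonneg_right (by linarith) (sq_nonneg _)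
    have a3 : m * K * z ^ 2 ≤ dl * z ^ 2 := mul_le_mul_of_nonneg_right m3 hz2
    nlinarith
  have t3 : 0 ≤ r3 * (x * y - z ^ 2) := mul_nonneg h3 (by linarith)
  rw [key]
  linarith

/-- Certificates with `a = 1 - ab`, `b = 1 - bb` from scalar inequalities. -/
theorem cert_of_params {n p q ab bb X1 X2 Y1 Y2 f : ℝ} (hn : 2 ≤ n)
    (h1 : 0 < R1 (1 / n) ab X1) (h6 : 0 < R1 (1 / n) bb X2) (h3 : 0 ≤ R3 ab bb Y1 Y2)
    (hD : R2 (1 / n) ab bb X1 Y1 ^ 2 * R1 (1 / n) bb X2 + R2 (1 / n) bb ab X2 Y2 ^ 2 * R1 (1 / n) ab X1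
      < 4 * (R3 ab bb Y1 Y2 + R4 (1 / n) ab bb Y1 Y2) * R1 (1 / n) ab X1 * R1 (1 / n) bb X2)
    (hE1 : 0 < 1 / 2 + X1) (hE2 : 0 < 1 / 2 + X2)
    (hL1 : ((2 / n * (1 / 2 - Y1) - (1 - 1 / n) * p - f * ab) / 2) ^ 2
      < ((1 + 2 / n) * (1 / 2 + X1)) * ((1 / 2 - Y2) + f * (p - bb)))
    (hL2 : ((2 / n * (1 / 2 - Y2) - (1 - 1 / n) * q + f * bb) / 2) ^ 2
      < ((1 + 2 / n) * (1 / 2 + X2)) * ((1 / 2 - Y1) - f * (q - ab))) :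
    ∃ (c : Fin 14 → ℝ) (c0 : ℝ), 0 < c0 ∧ Cert n p q (1 - ab) (1 - bb) c c0 := by
  have hn0 : 0 < n := by linarith
  have hθ : 0 < 1 + 2 / n := by positivity
  obtain ⟨m, hm, hmf⟩ := form_margin3 h1 h6 h3 hD
  have hR : ∀ x z y : ℝ, 0 ≤ x → 0 ≤ y → z ^ 2 ≤ x * y →
      m * (x ^ 2 + y ^ 2) ≤ Rf n (1 - ab) (1 - bb) 1 (1 / 2 + X1) (1 / 2 - Y1) (1 / 2 + X2) (1 / 2 - Y2)
        x z y := by
    intro x z y _ _ hz
    rw [Rf_eq]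
    exact hmf x z y hz
  have ht0 : 0 < (1 / 2 - Y1) + (-f) * ((1 - ab) + q - 1) := by
    have hpos : 0 < ((1 + 2 / n) * (1 / 2 + X2)) * ((1 / 2 - Y1) - f * (q - ab)) :=
      lt_of_le_of_lt (sq_nonneg _) hL2
    have := (pos_iff_pos_of_mul_pos hpos).mp (mul_pos hθ hE2)
    have e : (1 / 2 - Y1) + (-f) * ((1 - ab) + q - 1) = (1 / 2 - Y1) - f * (q - ab) := by ring
    rw [e]
    exact this
  obtain ⟨h, c0, hc0, hc⟩ := cert_general (n := n) (p := p) (q := q) (a := 1 - ab) (b := 1 - bb)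
    (g := 1) (E1 := 1 / 2 + X1) (F1 := 1 / 2 - Y1) (E2 := 1 / 2 + X2) (F2 := 1 / 2 - Y2)
    (f1 := f) (f2 := -f) (m := m) hn one_pos hm hR (mul_pos hθ hE1)
    (by
      have e1 : (2 / n * (1 / 2 - Y1) - (1 - 1 / n) * p + f * ((1 - ab) - 1)) / 2
          = (2 / n * (1 / 2 - Y1) - (1 - 1 / n) * p - f * ab) / 2 := by ring
      have e2 : 1 * (1 / 2 - Y2) + f * ((1 - bb) + p - 1) = (1 / 2 - Y2) + f * (p - bb) := by ring
      rw [e1, e2]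
      exact hL1)
    ht0
    (by
      have e1 : (1 * (2 / n * (1 / 2 - Y2) - (1 - 1 / n) * q) + (-f) * ((1 - bb) - 1)) / 2
          = (2 / n * (1 / 2 - Y2) - (1 - 1 / n) * q + f * bb) / 2 := by ring
      have e2 : ((1 / 2 - Y1) + (-f) * ((1 - ab) + q - 1)) * (1 * (1 + 2 / n) * (1 / 2 + X2))
          = ((1 + 2 / n) * (1 / 2 + X2)) * ((1 / 2 - Y1) - f * (q - ab)) := by ring
      rw [e1, e2]
      exact hL2)
    (by linarith)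
  exact ⟨_, c0, hc0, hc⟩

/-- A concave quadratic positive at the two ends of an interval. -/
lemma quad_between {A B C E p p0 p1 : ℝ} (h0 : p0 ≤ p) (h1 : p ≤ p1)
    (hp0 : (A + B * p0) ^ 2 < C + E * p0) (hp1 : (A + B * p1) ^ 2 < C + E * p1) :
    (A + B * p) ^ 2 < C + E * p := by
  rcases eq_or_lt_of_le h0 with e | h0'
  · rw [← e]; exact hp0
  · have hd : 0 < p1 - p0 := by linarith
    have i1 : (p1 - p0) * (A + B * p) ^ 2 = (p1 - p) * (A + B * p0) ^ 2 + (p - p0) * (A + B * p1) ^ 2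
        - B ^ 2 * ((p - p0) * (p1 - p) * (p1 - p0)) := by ring
    have i2 : (p1 - p0) * (C + E * p) = (p1 - p) * (C + E * p0) + (p - p0) * (C + E * p1) := by ring
    have s1 : (p1 - p) * (A + B * p0) ^ 2 ≤ (p1 - p) * (C + E * p0) :=
      mul_le_mul_of_nonneg_left hp0.le (by linarith)
    have s2 : (p - p0) * (A + B * p1) ^ 2 < (p - p0) * (C + E * p1) :=
      mul_lt_mul_of_pos_left hp1 (by linarith)
    have s3 : 0 ≤ B ^ 2 * ((p - p0) * (p1 - p) * (p1 - p0)) := by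
      apply mul_nonneg (sq_nonneg _)
      apply mul_nonneg (mul_nonneg (by linarith) (by linarith)) hd.le
    have : (p1 - p0) * (A + B * p) ^ 2 < (p1 - p0) * (C + E * p) := by
      rw [i1, i2]; linarith
    exact lt_of_mul_lt_mul_left this hd.le

end Vale.Agent.Lib.P100.AB
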