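import Mathlib

/-!
# P100: polynomial inequalities of the unequal-exponent family (Bernstein coefficients).
-/

namespace Vale.Agent.Lib.P100.AB.V1

lemma pos_r1_b0 (t : ℝ) (h3 : 0 ≤ t) (h4 : t ≤ 1) :
    0 ≤ (9/10) + 1*t^(2:ℕ) := by
  have e : (9/10) + 1*t^(2:ℕ) = (9/10)*(1 - t)^(2:ℕ) + (9/5)*(t - 0)*(1 - t) + (19/10)*(t - 0)^(2:ℕ) := by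
    ring
  rw [e]
  have a3 : 0 ≤ t - 0 := by linarith
  have a4 : 0 ≤ 1 - t := by linarith
  generalize t - 0 = t1 at a3 ⊢
  generalize 1 - t = t2 at a4 ⊢
  positivity

lemma pos_r1_b1 (t : ℝ) (h3 : 0 ≤ t) (h4 : t ≤ 1) :
    0 ≤ (73/70) + (11/14)*t^(2:ℕ) := by
  have e : (73/70) + (11/14)*t^(2:ℕ) = (73/70)*(1 - t)^(2:ℕ) + (73/35)*(t - 0)*(1 - t) + (64/35)*(t - 0)^(2:ℕ) := by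
    ring
  rw [e]
  have a3 : 0 ≤ t - 0 := by linarith
  have a4 : 0 ≤ 1 - t := by linarith
  generalize t - 0 = t1 at a3 ⊢
  generalize 1 - t = t2 at a4 ⊢
  positivity

lemma pos_r1_b2 (t : ℝ) (h3 : 0 ≤ t) (h4 : t ≤ 1) :
    0 ≤ (83/70) + (27/49)*t^(2:ℕ) := by
  have e : (83/70) + (27/49)*t^(2:ℕ) = (83/70)*(1 - t)^(2:ℕ) + (83/35)*(t - 0)*(1 - t) + (851/490)*(t - 0)^(2:ℕ) := by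
    ring
  rw [e]
  have a3 : 0 ≤ t - 0 := by linarith
  have a4 : 0 ≤ 1 - t := by linarith
  generalize t - 0 = t1 at a3 ⊢
  generalize 1 - t = t2 at a4 ⊢
  positivity

lemma pos_r1_id (d : ℝ) (C0 C1 C2 : ℝ) :
    C0 + d*C1 + d^(2:ℕ)*C2 = (1/10) + (49*((1/7)-d)^(2:ℕ)*(1*C0 - (1/10)) + 98*d*((1/7)-d)*(1*C0 + (1/14)*C1 - (1/10)) + 49*d^(2:ℕ)*(1*C0 + (1/7)*C1 + (1/49)*C2 - (1/10))) := by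
  ring

lemma pos_r1 (d t : ℝ) (h1 : 0 ≤ d) (h2 : d ≤ (1/7)) (h3 : 0 ≤ t) (h4 : t ≤ 1) :
    0 < 1 + 1*t^(2:ℕ) + 2*d + (-3)*d*t^(2:ℕ) + (-1)*d^(2:ℕ)*t^(2:ℕ) := by
  have e0 : 1 + 1*t^(2:ℕ) + 2*d + (-3)*d*t^(2:ℕ) + (-1)*d^(2:ℕ)*t^(2:ℕ) = (1 + 1*t^(2:ℕ)) + d*(2 + (-3)*t^(2:ℕ)) + d^(2:ℕ)*((-1)*t^(2:ℕ)) := by
    ring
  rw [e0, pos_r1_id]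
  have a2 : 0 ≤ (1/7) - d := by linarith
  have b0 : 0 ≤ 1*(1 + 1*t^(2:ℕ)) - (1/10) := by
    have h := pos_r1_b0 t h3 h4
    have e : 1*(1 + 1*t^(2:ℕ)) - (1/10) = (9/10) + 1*t^(2:ℕ) := by ring
    rw [e]; exact h
  have b1 : 0 ≤ 1*(1 + 1*t^(2:ℕ)) + (1/14)*(2 + (-3)*t^(2:ℕ)) - (1/10) := by
    have h := pos_r1_b1 t h3 h4
    have e : 1*(1 + 1*t^(2:ℕ)) + (1/14)*(2 + (-3)*t^(2:ℕ)) - (1/10) = (73/70) + (11/14)*t^(2:ℕ) := by ring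
    rw [e]; exact h
  have b2 : 0 ≤ 1*(1 + 1*t^(2:ℕ)) + (1/7)*(2 + (-3)*t^(2:ℕ)) + (1/49)*((-1)*t^(2:ℕ)) - (1/10) := by
    have h := pos_r1_b2 t h3 h4
    have e : 1*(1 + 1*t^(2:ℕ)) + (1/7)*(2 + (-3)*t^(2:ℕ)) + (1/49)*((-1)*t^(2:ℕ)) - (1/10) = (83/70) + (27/49)*t^(2:ℕ) := by ring
    rw [e]; exact h
  generalize 1*(1 + 1*t^(2:ℕ)) - (1/10) = B0 at b0 ⊢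
  generalize 1*(1 + 1*t^(2:ℕ)) + (1/14)*(2 + (-3)*t^(2:ℕ)) - (1/10) = B1 at b1 ⊢
  generalize 1*(1 + 1*t^(2:ℕ)) + (1/7)*(2 + (-3)*t^(2:ℕ)) + (1/49)*((-1)*t^(2:ℕ)) - (1/10) = B2 at b2 ⊢
  generalize (1/7) - d = d2 at a2 ⊢
  positivity

lemma pos_r6_b0 (t : ℝ) (h3 : 0 ≤ t) (h4 : t ≤ 1) :
    0 ≤ (9/10) + 1*t^(2:ℕ) := by
  have e : (9/10) + 1*t^(2:ℕ) = (9/10)*(1 - t)^(2:ℕ) + (9/5)*(t - 0)*(1 - t) + (19/10)*(t - 0)^(2:ℕ) := by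
    ring
  rw [e]
  have a3 : 0 ≤ t - 0 := by linarith
  have a4 : 0 ≤ 1 - t := by linarith
  generalize t - 0 = t1 at a3 ⊢
  generalize 1 - t = t2 at a4 ⊢
  positivity

lemma pos_r6_b1 (t : ℝ) (h3 : 0 ≤ t) (h4 : t ≤ 1) :
    0 ≤ (24/35) + (8/7)*t^(2:ℕ) := by
  have e : (24/35) + (8/7)*t^(2:ℕ) = (24/35)*(1 - t)^(2:ℕ) + (48/35)*(t - 0)*(1 - t) + (64/35)*(t - 0)^(2:ℕ) := by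
    ring
  rw [e]
  have a3 : 0 ≤ t - 0 := by linarith
  have a4 : 0 ≤ 1 - t := by linarith
  generalize t - 0 = t1 at a3 ⊢
  generalize 1 - t = t2 at a4 ⊢
  positivity

lemma pos_r6_b2 (t : ℝ) (h3 : 0 ≤ t) (h4 : t ≤ 1) :
    0 ≤ (221/490) + (9/7)*t^(2:ℕ) := by
  have e : (221/490) + (9/7)*t^(2:ℕ) = (221/490)*(1 - t)^(2:ℕ) + (221/245)*(t - 0)*(1 - t) + (851/490)*(t - 0)^(2:ℕ) := by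
    ring
  rw [e]
  have a3 : 0 ≤ t - 0 := by linarith
  have a4 : 0 ≤ 1 - t := by linarith
  generalize t - 0 = t1 at a3 ⊢
  generalize 1 - t = t2 at a4 ⊢
  positivity

lemma pos_r6_id (d : ℝ) (C0 C1 C2 : ℝ) :
    C0 + d*C1 + d^(2:ℕ)*C2 = (1/10) + (49*((1/7)-d)^(2:ℕ)*(1*C0 - (1/10)) + 98*d*((1/7)-d)*(1*C0 + (1/14)*C1 - (1/10)) + 49*d^(2:ℕ)*(1*C0 + (1/7)*C1 + (1/49)*C2 - (1/10))) := by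
  ring

lemma pos_r6 (d t : ℝ) (h1 : 0 ≤ d) (h2 : d ≤ (1/7)) (h3 : 0 ≤ t) (h4 : t ≤ 1) :
    0 < 1 + 1*t^(2:ℕ) + (-3)*d + 2*d*t^(2:ℕ) + (-1)*d^(2:ℕ) := by
  have e0 : 1 + 1*t^(2:ℕ) + (-3)*d + 2*d*t^(2:ℕ) + (-1)*d^(2:ℕ) = (1 + 1*t^(2:ℕ)) + d*((-3) + 2*t^(2:ℕ)) + d^(2:ℕ)*((-1)) := by
    ring
  rw [e0, pos_r6_id]
  have a2 : 0 ≤ (1/7) - d := by linarith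
  have b0 : 0 ≤ 1*(1 + 1*t^(2:ℕ)) - (1/10) := by
    have h := pos_r6_b0 t h3 h4
    have e : 1*(1 + 1*t^(2:ℕ)) - (1/10) = (9/10) + 1*t^(2:ℕ) := by ring
    rw [e]; exact h
  have b1 : 0 ≤ 1*(1 + 1*t^(2:ℕ)) + (1/14)*((-3) + 2*t^(2:ℕ)) - (1/10) := by
    have h := pos_r6_b1 t h3 h4
    have e : 1*(1 + 1*t^(2:ℕ)) + (1/14)*((-3) + 2*t^(2:ℕ)) - (1/10) = (24/35) + (8/7)*t^(2:ℕ) := by ring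
    rw [e]; exact h
  have b2 : 0 ≤ 1*(1 + 1*t^(2:ℕ)) + (1/7)*((-3) + 2*t^(2:ℕ)) + (1/49)*((-1)) - (1/10) := by
    have h := pos_r6_b2 t h3 h4
    have e : 1*(1 + 1*t^(2:ℕ)) + (1/7)*((-3) + 2*t^(2:ℕ)) + (1/49)*((-1)) - (1/10) = (221/490) + (9/7)*t^(2:ℕ) := by ring
    rw [e]; exact h
  generalize 1*(1 + 1*t^(2:ℕ)) - (1/10) = B0 at b0 ⊢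
  generalize 1*(1 + 1*t^(2:ℕ)) + (1/14)*((-3) + 2*t^(2:ℕ)) - (1/10) = B1 at b1 ⊢
  generalize 1*(1 + 1*t^(2:ℕ)) + (1/7)*((-3) + 2*t^(2:ℕ)) + (1/49)*((-1)) - (1/10) = B2 at b2 ⊢
  generalize (1/7) - d = d2 at a2 ⊢
  positivity

lemma pos_r3_b0 (t : ℝ) (h3 : 0 ≤ t) (h4 : t ≤ 1) :
    0 ≤ (9/10) + 4*t^(2:ℕ) + 6*t^(4:ℕ) + 4*t^(6:ℕ) + 1*t^(8:ℕ) := by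
  have e : (9/10) + 4*t^(2:ℕ) + 6*t^(4:ℕ) + 4*t^(6:ℕ) + 1*t^(8:ℕ) = (9/10)*(1 - t)^(8:ℕ) + (36/5)*(t - 0)*(1 - t)^(7:ℕ) + (146/5)*(t - 0)^(2:ℕ)*(1 - t)^(6:ℕ) + (372/5)*(t - 0)^(3:ℕ)*(1 - t)^(5:ℕ) + 129*(t - 0)^(4:ℕ)*(1 - t)^(4:ℕ) + (772/5)*(t - 0)^(5:ℕ)*(1 - t)^(3:ℕ) + (626/5)*(t - 0)^(6:ℕ)*(1 - t)^(2:ℕ) + (316/5)*(t - 0)^(7:ℕ)*(1 - t) + (159/10)*(t - 0)^(8:ℕ) := by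
    ring
  rw [e]
  have a3 : 0 ≤ t - 0 := by linarith
  have a4 : 0 ≤ 1 - t := by linarith
  generalize t - 0 = t1 at a3 ⊢
  generalize 1 - t = t2 at a4 ⊢
  positivity

lemma pos_r3_b1 (t : ℝ) (h3 : 0 ≤ t) (h4 : t ≤ 1) :
    0 ≤ (92/105) + (2/21)*t + (79/21)*t^(2:ℕ) + (2/7)*t^(3:ℕ) + (39/7)*t^(4:ℕ) + (2/7)*t^(5:ℕ) + (79/21)*t^(6:ℕ) + (2/21)*t^(7:ℕ) + (41/42)*t^(8:ℕ) := by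
  have e : (92/105) + (2/21)*t + (79/21)*t^(2:ℕ) + (2/7)*t^(3:ℕ) + (39/7)*t^(4:ℕ) + (2/7)*t^(5:ℕ) + (79/21)*t^(6:ℕ) + (2/21)*t^(7:ℕ) + (41/42)*t^(8:ℕ) = (92/105)*(1 - t)^(8:ℕ) + (746/105)*(t - 0)*(1 - t)^(7:ℕ) + (3041/105)*(t - 0)^(2:ℕ)*(1 - t)^(6:ℕ) + (7762/105)*(t - 0)^(3:ℕ)*(1 - t)^(5:ℕ) + (2690/21)*(t - 0)^(4:ℕ)*(1 - t)^(4:ℕ) + (2296/15)*(t - 0)^(5:ℕ)*(1 - t)^(3:ℕ) + (1858/15)*(t - 0)^(6:ℕ)*(1 - t)^(2:ℕ) + (6556/105)*(t - 0)^(7:ℕ)*(1 - t) + (3299/210)*(t - 0)^(8:ℕ) := by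
    ring
  rw [e]
  have a3 : 0 ≤ t - 0 := by linarith
  have a4 : 0 ≤ 1 - t := by linarith
  generalize t - 0 = t1 at a3 ⊢
  generalize 1 - t = t2 at a4 ⊢
  positivity

lemma pos_r3_b2 (t : ℝ) (h3 : 0 ≤ t) (h4 : t ≤ 1) :
    0 ≤ (179/210) + (107/588)*t + (25/7)*t^(2:ℕ) + (289/588)*t^(3:ℕ) + (110/21)*t^(4:ℕ) + (289/588)*t^(5:ℕ) + (25/7)*t^(6:ℕ) + (107/588)*t^(7:ℕ) + (20/21)*t^(8:ℕ) := by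
  have e : (179/210) + (107/588)*t + (25/7)*t^(2:ℕ) + (289/588)*t^(3:ℕ) + (110/21)*t^(4:ℕ) + (289/588)*t^(5:ℕ) + (25/7)*t^(6:ℕ) + (107/588)*t^(7:ℕ) + (20/21)*t^(8:ℕ) = (179/210)*(1 - t)^(8:ℕ) + (6861/980)*(t - 0)*(1 - t)^(7:ℕ) + (12059/420)*(t - 0)^(2:ℕ)*(1 - t)^(6:ℕ) + (54004/735)*(t - 0)^(3:ℕ)*(1 - t)^(5:ℕ) + (37427/294)*(t - 0)^(4:ℕ)*(1 - t)^(4:ℕ) + (37213/245)*(t - 0)^(5:ℕ)*(1 - t)^(3:ℕ) + (30049/245)*(t - 0)^(6:ℕ)*(1 - t)^(2:ℕ) + (15124/245)*(t - 0)^(7:ℕ)*(1 - t) + (7611/490)*(t - 0)^(8:ℕ) := by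
    ring
  rw [e]
  have a3 : 0 ≤ t - 0 := by linarith
  have a4 : 0 ≤ 1 - t := by linarith
  generalize t - 0 = t1 at a3 ⊢
  generalize 1 - t = t2 at a4 ⊢
  positivity

lemma pos_r3_b3 (t : ℝ) (h3 : 0 ≤ t) (h4 : t ≤ 1) :
    0 ≤ (29/35) + (51/196)*t + (18791/5488)*t^(2:ℕ) + (867/1372)*t^(3:ℕ) + (13663/2744)*t^(4:ℕ) + (867/1372)*t^(5:ℕ) + (18791/5488)*t^(6:ℕ) + (51/196)*t^(7:ℕ) + (13/14)*t^(8:ℕ) := by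
  have e : (29/35) + (51/196)*t + (18791/5488)*t^(2:ℕ) + (867/1372)*t^(3:ℕ) + (13663/2744)*t^(4:ℕ) + (867/1372)*t^(5:ℕ) + (18791/5488)*t^(6:ℕ) + (51/196)*t^(7:ℕ) + (13/14)*t^(8:ℕ) = (29/35)*(1 - t)^(8:ℕ) + (6751/980)*(t - 0)*(1 - t)^(7:ℕ) + (780543/27440)*(t - 0)^(2:ℕ)*(1 - t)^(6:ℕ) + (143159/1960)*(t - 0)^(3:ℕ)*(1 - t)^(5:ℕ) + (694815/5488)*(t - 0)^(4:ℕ)*(1 - t)^(4:ℕ) + (1034869/6860)*(t - 0)^(5:ℕ)*(1 - t)^(3:ℕ) + (833757/6860)*(t - 0)^(6:ℕ)*(1 - t)^(2:ℕ) + (104743/1715)*(t - 0)^(7:ℕ)*(1 - t) + (105429/6860)*(t - 0)^(8:ℕ) := by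
    ring
  rw [e]
  have a3 : 0 ≤ t - 0 := by linarith
  have a4 : 0 ≤ 1 - t := by linarith
  generalize t - 0 = t1 at a3 ⊢
  generalize 1 - t = t2 at a4 ⊢
  positivity

lemma pos_r3_id (d : ℝ) (C0 C1 C2 C3 : ℝ) :
    C0 + d*C1 + d^(2:ℕ)*C2 + d^(3:ℕ)*C3 = (1/10) + (343*((1/7)-d)^(3:ℕ)*(1*C0 - (1/10)) + 1029*d*((1/7)-d)^(2:ℕ)*(1*C0 + (1/21)*C1 - (1/10)) + 1029*d^(2:ℕ)*((1/7)-d)*(1*C0 + (2/21)*C1 + (1/147)*C2 - (1/10)) + 343*d^(3:ℕ)*(1*C0 + (1/7)*C1 + (1/49)*C2 + (1/343)*C3 - (1/10))) := by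
  ring

lemma pos_r3 (d t : ℝ) (h1 : 0 ≤ d) (h2 : d ≤ (1/7)) (h3 : 0 ≤ t) (h4 : t ≤ 1) :
    0 < 1 + 4*t^(2:ℕ) + 6*t^(4:ℕ) + 4*t^(6:ℕ) + 1*t^(8:ℕ) + (-1/2)*d + 2*d*t + (-5)*d*t^(2:ℕ) + 6*d*t^(3:ℕ) + (-9)*d*t^(4:ℕ) + 6*d*t^(5:ℕ) + (-5)*d*t^(6:ℕ) + 2*d*t^(7:ℕ) + (-1/2)*d*t^(8:ℕ) + (-5/4)*d^(2:ℕ)*t + 7*d^(2:ℕ)*t^(2:ℕ) + (-47/4)*d^(2:ℕ)*t^(3:ℕ) + 14*d^(2:ℕ)*t^(4:ℕ) + (-47/4)*d^(2:ℕ)*t^(5:ℕ) + 7*d^(2:ℕ)*t^(6:ℕ) + (-5/4)*d^(2:ℕ)*t^(7:ℕ) + (-25/16)*d^(3:ℕ)*t^(2:ℕ) + 5*d^(3:ℕ)*t^(3:ℕ) + (-57/8)*d^(3:ℕ)*t^(4:ℕ) + 5*d^(3:ℕ)*t^(5:ℕ) + (-25/16)*d^(3:ℕ)*t^(6:ℕ) := by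
  have e0 : 1 + 4*t^(2:ℕ) + 6*t^(4:ℕ) + 4*t^(6:ℕ) + 1*t^(8:ℕ) + (-1/2)*d + 2*d*t + (-5)*d*t^(2:ℕ) + 6*d*t^(3:ℕ) + (-9)*d*t^(4:ℕ) + 6*d*t^(5:ℕ) + (-5)*d*t^(6:ℕ) + 2*d*t^(7:ℕ) + (-1/2)*d*t^(8:ℕ) + (-5/4)*d^(2:ℕ)*t + 7*d^(2:ℕ)*t^(2:ℕ) + (-47/4)*d^(2:ℕ)*t^(3:ℕ) + 14*d^(2:ℕ)*t^(4:ℕ) + (-47/4)*d^(2:ℕ)*t^(5:ℕ) + 7*d^(2:ℕ)*t^(6:ℕ) + (-5/4)*d^(2:ℕ)*t^(7:ℕ) + (-25/16)*d^(3:ℕ)*t^(2:ℕ) + 5*d^(3:ℕ)*t^(3:ℕ) + (-57/8)*d^(3:ℕ)*t^(4:ℕ) + 5*d^(3:ℕ)*t^(5:ℕ) + (-25/16)*d^(3:ℕ)*t^(6:ℕ) = (1 + 4*t^(2:ℕ) + 6*t^(4:ℕ) + 4*t^(6:ℕ) + 1*t^(8:ℕ)) + d*((-1/2) + 2*t + (-5)*t^(2:ℕ) + 6*t^(3:ℕ) + (-9)*t^(4:ℕ) + 6*t^(5:ℕ) + (-5)*t^(6:ℕ) + 2*t^(7:ℕ) + (-1/2)*t^(8:ℕ)) + d^(2:ℕ)*((-5/4)*t + 7*t^(2:ℕ) +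 (-47/4)*t^(3:ℕ) + 14*t^(4:ℕ) + (-47/4)*t^(5:ℕ) + 7*t^(6:ℕ) + (-5/4)*t^(7:ℕ)) + d^(3:ℕ)*((-25/16)*t^(2:ℕ) + 5*t^(3:ℕ) + (-57/8)*t^(4:ℕ) + 5*t^(5:ℕ) + (-25/16)*t^(6:ℕ)) := by
    ring
  rw [e0, pos_r3_id]
  have a2 : 0 ≤ (1/7) - d := by linarith
  have b0 : 0 ≤ 1*(1 + 4*t^(2:ℕ) + 6*t^(4:ℕ) + 4*t^(6:ℕ) + 1*t^(8:ℕ)) - (1/10) := by
    have h := pos_r3_b0 t h3 h4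
    have e : 1*(1 + 4*t^(2:ℕ) + 6*t^(4:ℕ) + 4*t^(6:ℕ) + 1*t^(8:ℕ)) - (1/10) = (9/10) + 4*t^(2:ℕ) + 6*t^(4:ℕ) + 4*t^(6:ℕ) + 1*t^(8:ℕ) := by ring
    rw [e]; exact h
  have b1 : 0 ≤ 1*(1 + 4*t^(2:ℕ) + 6*t^(4:ℕ) + 4*t^(6:ℕ) + 1*t^(8:ℕ)) + (1/21)*((-1/2) + 2*t + (-5)*t^(2:ℕ) + 6*t^(3:ℕ) + (-9)*t^(4:ℕ) + 6*t^(5:ℕ) + (-5)*t^(6:ℕ) + 2*t^(7:ℕ) + (-1/2)*t^(8:ℕ)) - (1/10) := by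
    have h := pos_r3_b1 t h3 h4
    have e : 1*(1 + 4*t^(2:ℕ) + 6*t^(4:ℕ) + 4*t^(6:ℕ) + 1*t^(8:ℕ)) + (1/21)*((-1/2) + 2*t + (-5)*t^(2:ℕ) + 6*t^(3:ℕ) + (-9)*t^(4:ℕ) + 6*t^(5:ℕ) + (-5)*t^(6:ℕ) + 2*t^(7:ℕ) + (-1/2)*t^(8:ℕ)) - (1/10) = (92/105) + (2/21)*t + (79/21)*t^(2:ℕ) + (2/7)*t^(3:ℕ) + (39/7)*t^(4:ℕ) + (2/7)*t^(5:ℕ) + (79/21)*t^(6:ℕ) + (2/21)*t^(7:ℕ) + (41/42)*t^(8:ℕ) := by ring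
    rw [e]; exact h
  have b2 : 0 ≤ 1*(1 + 4*t^(2:ℕ) + 6*t^(4:ℕ) + 4*t^(6:ℕ) + 1*t^(8:ℕ)) + (2/21)*((-1/2) + 2*t + (-5)*t^(2:ℕ) + 6*t^(3:ℕ) + (-9)*t^(4:ℕ) + 6*t^(5:ℕ) + (-5)*t^(6:ℕ) + 2*t^(7:ℕ) + (-1/2)*t^(8:ℕ)) + (1/147)*((-5/4)*t + 7*t^(2:ℕ) + (-47/4)*t^(3:ℕ) + 14*t^(4:ℕ) + (-47/4)*t^(5:ℕ) + 7*t^(6:ℕ) + (-5/4)*t^(7:ℕ)) - (1/10) := by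
    have h := pos_r3_b2 t h3 h4
    have e : 1*(1 + 4*t^(2:ℕ) + 6*t^(4:ℕ) + 4*t^(6:ℕ) + 1*t^(8:ℕ)) + (2/21)*((-1/2) + 2*t + (-5)*t^(2:ℕ) + 6*t^(3:ℕ) + (-9)*t^(4:ℕ) + 6*t^(5:ℕ) + (-5)*t^(6:ℕ) + 2*t^(7:ℕ) + (-1/2)*t^(8:ℕ)) + (1/147)*((-5/4)*t + 7*t^(2:ℕ) + (-47/4)*t^(3:ℕ) + 14*t^(4:ℕ) + (-47/4)*t^(5:ℕ) + 7*t^(6:ℕ) + (-5/4)*t^(7:ℕ)) - (1/10) = (179/210) + (107/588)*t + (25/7)*t^(2:ℕ) + (289/588)*t^(3:ℕ) + (110/21)*t^(4:ℕ) + (289/588)*t^(5:ℕ) + (25/7)*t^(6:ℕ) + (107/588)*t^(7:ℕ) + (20/21)*t^(8:ℕ) := by ring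
    rw [e]; exact h
  have b3 : 0 ≤ 1*(1 + 4*t^(2:ℕ) + 6*t^(4:ℕ) + 4*t^(6:ℕ) + 1*t^(8:ℕ)) + (1/7)*((-1/2) + 2*t + (-5)*t^(2:ℕ) + 6*t^(3:ℕ) + (-9)*t^(4:ℕ) + 6*t^(5:ℕ) + (-5)*t^(6:ℕ) + 2*t^(7:ℕ) + (-1/2)*t^(8:ℕ)) + (1/49)*((-5/4)*t + 7*t^(2:ℕ) + (-47/4)*t^(3:ℕ) + 14*t^(4:ℕ) + (-47/4)*t^(5:ℕ) + 7*t^(6:ℕ) + (-5/4)*t^(7:ℕ)) + (1/343)*((-25/16)*t^(2:ℕ) + 5*t^(3:ℕ) + (-57/8)*t^(4:ℕ) + 5*t^(5:ℕ) + (-25/16)*t^(6:ℕ)) - (1/10) := by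
    have h := pos_r3_b3 t h3 h4
    have e : 1*(1 + 4*t^(2:ℕ) + 6*t^(4:ℕ) + 4*t^(6:ℕ) + 1*t^(8:ℕ)) + (1/7)*((-1/2) + 2*t + (-5)*t^(2:ℕ) + 6*t^(3:ℕ) + (-9)*t^(4:ℕ) + 6*t^(5:ℕ) + (-5)*t^(6:ℕ) + 2*t^(7:ℕ) + (-1/2)*t^(8:ℕ)) + (1/49)*((-5/4)*t + 7*t^(2:ℕ) + (-47/4)*t^(3:ℕ) + 14*t^(4:ℕ) + (-47/4)*t^(5:ℕ) + 7*t^(6:ℕ) + (-5/4)*t^(7:ℕ)) + (1/343)*((-25/16)*t^(2:ℕ) + 5*t^(3:ℕ) + (-57/8)*t^(4:ℕ) + 5*t^(5:ℕ) + (-25/16)*t^(6:ℕ)) - (1/10) = (29/35) + (51/196)*t + (18791/5488)*t^(2:ℕ) + (867/1372)*t^(3:ℕ) + (13663/2744)*t^(4:ℕ) + (867/1372)*t^(5:ℕ) + (18791/5488)*t^(6:ℕ) + (51/196)*t^(7:ℕ) + (13/14)*t^(8:ℕ) := by ring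
    rw [e]; exact h
  generalize 1*(1 + 4*t^(2:ℕ) + 6*t^(4:ℕ) + 4*t^(6:ℕ) + 1*t^(8:ℕ)) - (1/10) = B0 at b0 ⊢
  generalize 1*(1 + 4*t^(2:ℕ) + 6*t^(4:ℕ) + 4*t^(6:ℕ) + 1*t^(8:ℕ)) + (1/21)*((-1/2) + 2*t + (-5)*t^(2:ℕ) + 6*t^(3:ℕ) + (-9)*t^(4:ℕ) + 6*t^(5:ℕ) + (-5)*t^(6:ℕ) + 2*t^(7:ℕ) + (-1/2)*t^(8:ℕ)) - (1/10) = B1 at b1 ⊢
  generalize 1*(1 + 4*t^(2:ℕ) + 6*t^(4:ℕ) + 4*t^(6:ℕ) + 1*t^(8:ℕ)) + (2/21)*((-1/2) + 2*t + (-5)*t^(2:ℕ) + 6*t^(3:ℕ) + (-9)*t^(4:ℕ) + 6*t^(5:ℕ) + (-5)*t^(6:ℕ) + 2*t^(7:ℕ) + (-1/2)*t^(8:ℕ)) + (1/147)*((-5/4)*t + 7*t^(2:ℕ) + (-47/4)*t^(3:ℕ) + 14*t^(4:ℕ) + (-47/4)*t^(5:ℕ) + 7*t^(6:ℕ) + (-5/4)*t^(7:ℕ)) - (1/10) = B2 at b2 ⊢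
  generalize 1*(1 + 4*t^(2:ℕ) + 6*t^(4:ℕ) + 4*t^(6:ℕ) + 1*t^(8:ℕ)) + (1/7)*((-1/2) + 2*t + (-5)*t^(2:ℕ) + 6*t^(3:ℕ) + (-9)*t^(4:ℕ) + 6*t^(5:ℕ) + (-5)*t^(6:ℕ) + 2*t^(7:ℕ) + (-1/2)*t^(8:ℕ)) + (1/49)*((-5/4)*t + 7*t^(2:ℕ) + (-47/4)*t^(3:ℕ) + 14*t^(4:ℕ) + (-47/4)*t^(5:ℕ) + 7*t^(6:ℕ) + (-5/4)*t^(7:ℕ)) + (1/343)*((-25/16)*t^(2:ℕ) + 5*t^(3:ℕ) + (-57/8)*t^(4:ℕ) + 5*t^(5:ℕ) + (-25/16)*t^(6:ℕ)) - (1/10) = B3 at b3 ⊢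
  generalize (1/7) - d = d2 at a2 ⊢
  positivity

lemma pos_DP_b0 (t : ℝ) (h3 : 0 ≤ t) (h4 : t ≤ 1) :
    0 ≤ (9/10) + 6*t^(2:ℕ) + 15*t^(4:ℕ) + 20*t^(6:ℕ) + 15*t^(8:ℕ) + 6*t^(10:ℕ) + 1*t^(12:ℕ) := by
  have e : (9/10) + 6*t^(2:ℕ) + 15*t^(4:ℕ) + 20*t^(6:ℕ) + 15*t^(8:ℕ) + 6*t^(10:ℕ) + 1*t^(12:ℕ) = (9/10)*(1 - t)^(12:ℕ) + (54/5)*(t - 0)*(1 - t)^(11:ℕ) + (327/5)*(t - 0)^(2:ℕ)*(1 - t)^(10:ℕ) + 258*(t - 0)^(3:ℕ)*(1 - t)^(9:ℕ) + (1461/2)*(t - 0)^(4:ℕ)*(1 - t)^(8:ℕ) + (7764/5)*(t - 0)^(5:ℕ)*(1 - t)^(7:ℕ) + (12658/5)*(t - 0)^(6:ℕ)*(1 - t)^(6:ℕ) + (15924/5)*(t - 0)^(7:ℕ)*(1 - t)^(5:ℕ) + (6141/2)*(t - 0)^(8:ℕ)*(1 - t)^(4:ℕ) + 2218*(t - 0)^(9:ℕ)*(1 - t)^(3:ℕ) + (5727/5)*(t - 0)^(10:ℕ)*(1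 - t)^(2:ℕ) + (1914/5)*(t - 0)^(11:ℕ)*(1 - t) + (639/10)*(t - 0)^(12:ℕ) := by
    ring
  rw [e]
  have a3 : 0 ≤ t - 0 := by linarith
  have a4 : 0 ≤ 1 - t := by linarith
  generalize t - 0 = t1 at a3 ⊢
  generalize 1 - t = t2 at a4 ⊢
  positivity

lemma pos_DP_b1 (t : ℝ) (h3 : 0 ≤ t) (h4 : t ≤ 1) :
    0 ≤ (993/1120) + (2165/336)*t^(2:ℕ) + (-16/21)*t^(3:ℕ) + (11353/672)*t^(4:ℕ) + (-16/7)*t^(5:ℕ) + (183/8)*t^(6:ℕ) + (-16/7)*t^(7:ℕ) + (11353/672)*t^(8:ℕ) + (-16/21)*t^(9:ℕ) + (2165/336)*t^(10:ℕ) + (221/224)*t^(12:ℕ) := by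
  have e : (993/1120) + (2165/336)*t^(2:ℕ) + (-16/21)*t^(3:ℕ) + (11353/672)*t^(4:ℕ) + (-16/7)*t^(5:ℕ) + (183/8)*t^(6:ℕ) + (-16/7)*t^(7:ℕ) + (11353/672)*t^(8:ℕ) + (-16/21)*t^(9:ℕ) + (2165/336)*t^(10:ℕ) + (221/224)*t^(12:ℕ) = (993/1120)*(1 - t)^(12:ℕ) + (2979/280)*(t - 0)*(1 - t)^(11:ℕ) + (27283/420)*(t - 0)^(2:ℕ)*(1 - t)^(10:ℕ) + (21733/84)*(t - 0)^(3:ℕ)*(1 - t)^(9:ℕ) + (124129/168)*(t - 0)^(4:ℕ)*(1 - t)^(8:ℕ) + (165989/105)*(t - 0)^(5:ℕ)*(1 - t)^(7:ℕ) + (38824/15)*(t - 0)^(6:ℕ)*(1 - t)^(6:ℕ) + (342614/105)*(t - 0)^(7:ℕ)*(1 - t)^(5:ℕ) + (66091/21)*(t - 0)^(8:ℕ)*(1 - t)^(4:ℕ) + (47708/21)*(t - 0)^(9:ℕ)*(1 - t)^(3:ℕ) + (123047/105)*(t - 0)^(10:ℕ)*(1 - t)^(2:ℕ) + (13698/35)*(t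 - 0)^(11:ℕ)*(1 - t) + (4573/70)*(t - 0)^(12:ℕ) := by
    ring
  rw [e]
  have a3 : 0 ≤ t - 0 := by linarith
  have a4 : 0 ≤ 1 - t := by linarith
  generalize t - 0 = t1 at a3 ⊢
  generalize 1 - t = t2 at a4 ⊢
  positivity

lemma pos_DP_b2 (t : ℝ) (h3 : 0 ≤ t) (h4 : t ≤ 1) :
    0 ≤ (2509/2940) + (8/735)*t + (13401/1960)*t^(2:ℕ) + (-1108/735)*t^(3:ℕ) + (2623/140)*t^(4:ℕ) + (-3364/735)*t^(5:ℕ) + (75569/2940)*t^(6:ℕ) + (-3364/735)*t^(7:ℕ) + (2623/140)*t^(8:ℕ) + (-1108/735)*t^(9:ℕ) + (13401/1960)*t^(10:ℕ) + (8/735)*t^(11:ℕ) + (2803/2940)*t^(12:ℕ) := by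
  have e : (2509/2940) + (8/735)*t + (13401/1960)*t^(2:ℕ) + (-1108/735)*t^(3:ℕ) + (2623/140)*t^(4:ℕ) + (-3364/735)*t^(5:ℕ) + (75569/2940)*t^(6:ℕ) + (-3364/735)*t^(7:ℕ) + (2623/140)*t^(8:ℕ) + (-1108/735)*t^(9:ℕ) + (13401/1960)*t^(10:ℕ) + (8/735)*t^(11:ℕ) + (2803/2940)*t^(12:ℕ) = (2509/2940)*(1 - t)^(12:ℕ) + (1507/147)*(t - 0)*(1 - t)^(11:ℕ) + (74419/1176)*(t - 0)^(2:ℕ)*(1 - t)^(10:ℕ) + (107189/420)*(t - 0)^(3:ℕ)*(1 - t)^(9:ℕ) + (288933/392)*(t - 0)^(4:ℕ)*(1 - t)^(8:ℕ) + (1169381/735)*(t - 0)^(5:ℕ)*(1 - t)^(7:ℕ) + (1926457/735)*(t - 0)^(6:ℕ)*(1 - t)^(6:ℕ) + (2437772/735)*(t - 0)^(7:ℕ)*(1 - t)^(5:ℕ) + (4710793/1470)*(t - 0)^(8:ℕ)*(1 - t)^(4:ℕ) + (340178/147)*(t - 0)^(9:ℕ)*(1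 - t)^(3:ℕ) + (877099/735)*(t - 0)^(10:ℕ)*(1 - t)^(2:ℕ) + (13946/35)*(t - 0)^(11:ℕ)*(1 - t) + (13967/210)*(t - 0)^(12:ℕ) := by
    ring
  rw [e]
  have a3 : 0 ≤ t - 0 := by linarith
  have a4 : 0 ≤ 1 - t := by linarith
  generalize t - 0 = t1 at a3 ⊢
  generalize 1 - t = t2 at a4 ⊢
  positivity

lemma pos_DP_b3 (t : ℝ) (h3 : 0 ≤ t) (h4 : t ≤ 1) :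
    0 ≤ (1787/2240) + (251/6860)*t + (12277/1715)*t^(2:ℕ) + (-15131/6860)*t^(3:ℕ) + (449881/21952)*t^(4:ℕ) + (-11742/1715)*t^(5:ℕ) + (195277/6860)*t^(6:ℕ) + (-11742/1715)*t^(7:ℕ) + (449881/21952)*t^(8:ℕ) + (-15131/6860)*t^(9:ℕ) + (12277/1715)*t^(10:ℕ) + (251/6860)*t^(11:ℕ) + (2011/2240)*t^(12:ℕ) := by
  have e : (1787/2240) + (251/6860)*t + (12277/1715)*t^(2:ℕ) + (-15131/6860)*t^(3:ℕ) + (449881/21952)*t^(4:ℕ) + (-11742/1715)*t^(5:ℕ) + (195277/6860)*t^(6:ℕ) + (-11742/1715)*t^(7:ℕ) + (449881/21952)*t^(8:ℕ) + (-15131/6860)*t^(9:ℕ) + (12277/1715)*t^(10:ℕ) + (251/6860)*t^(11:ℕ) + (2011/2240)*t^(12:ℕ) = (1787/2240)*(1 - t)^(12:ℕ) + (263693/27440)*(t - 0)*(1 - t)^(11:ℕ) +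 (3304531/54880)*(t - 0)^(2:ℕ)*(1 - t)^(10:ℕ) + (6774981/27440)*(t - 0)^(3:ℕ)*(1 - t)^(9:ℕ) + (39717313/54880)*(t - 0)^(4:ℕ)*(1 - t)^(8:ℕ) + (10843177/6860)*(t - 0)^(5:ℕ)*(1 - t)^(7:ℕ) + (18017361/6860)*(t - 0)^(6:ℕ)*(1 - t)^(6:ℕ) + (5732581/1715)*(t - 0)^(7:ℕ)*(1 - t)^(5:ℕ) + (11115077/3430)*(t - 0)^(8:ℕ)*(1 - t)^(4:ℕ) + (803974/343)*(t - 0)^(9:ℕ)*(1 - t)^(3:ℕ) + (4148497/3430)*(t - 0)^(10:ℕ)*(1 - t)^(2:ℕ) + (692877/1715)*(t - 0)^(11:ℕ)*(1 - t) + (115651/1715)*(t - 0)^(12:ℕ) := by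
    ring
  rw [e]
  have a3 : 0 ≤ t - 0 := by linarith
  have a4 : 0 ≤ 1 - t := by linarith
  generalize t - 0 = t1 at a3 ⊢
  generalize 1 - t = t2 at a4 ⊢
  positivity

lemma pos_DP_b4 (t : ℝ) (h3 : 0 ≤ t) (h4 : t ≤ 1) :
    0 ≤ (413297/576240) + (977/12005)*t + (1063499/144060)*t^(2:ℕ) + (-33899/12005)*t^(3:ℕ) + (12760439/576240)*t^(4:ℕ) + (-3114/343)*t^(5:ℕ) + (748007/24010)*t^(6:ℕ) + (-3114/343)*t^(7:ℕ) + (12760439/576240)*t^(8:ℕ) + (-33899/12005)*t^(9:ℕ) + (1063499/144060)*t^(10:ℕ) + (977/12005)*t^(11:ℕ) + (470921/576240)*t^(12:ℕ) := by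
  have e : (413297/576240) + (977/12005)*t + (1063499/144060)*t^(2:ℕ) + (-33899/12005)*t^(3:ℕ) + (12760439/576240)*t^(4:ℕ) + (-3114/343)*t^(5:ℕ) + (748007/24010)*t^(6:ℕ) + (-3114/343)*t^(7:ℕ) + (12760439/576240)*t^(8:ℕ) + (-33899/12005)*t^(9:ℕ) + (1063499/144060)*t^(10:ℕ) + (977/12005)*t^(11:ℕ) + (470921/576240)*t^(12:ℕ) = (413297/576240)*(1 - t)^(12:ℕ) + (83441/9604)*(t - 0)*(1 - t)^(11:ℕ) + (16023727/288120)*(t - 0)^(2:ℕ)*(1 - t)^(10:ℕ) + (33604357/144060)*(t - 0)^(3:ℕ)*(1 - t)^(9:ℕ) + (200932873/288120)*(t - 0)^(4:ℕ)*(1 - t)^(8:ℕ) + (55722559/36015)*(t - 0)^(5:ℕ)*(1 - t)^(7:ℕ) + (93677162/36015)*(t - 0)^(6:ℕ)*(1 - t)^(6:ℕ) + (17171314/5145)*(t - 0)^(7:ℕ)*(1 - t)^(5:ℕ)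 + (117149287/36015)*(t - 0)^(8:ℕ)*(1 - t)^(4:ℕ) + (17001076/7203)*(t - 0)^(9:ℕ)*(1 - t)^(3:ℕ) + (43940131/36015)*(t - 0)^(10:ℕ)*(1 - t)^(2:ℕ) + (979602/2401)*(t - 0)^(11:ℕ)*(1 - t) + (1635071/24010)*(t - 0)^(12:ℕ) := by
    ring
  rw [e]
  have a3 : 0 ≤ t - 0 := by linarith
  have a4 : 0 ≤ 1 - t := by linarith
  generalize t - 0 = t1 at a3 ⊢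
  generalize 1 - t = t2 at a4 ⊢
  positivity

lemma pos_DP_b5 (t : ℝ) (h3 : 0 ≤ t) (h4 : t ≤ 1) :
    0 ≤ (819529/1344560) + (5031/33614)*t + (2011833/268912)*t^(2:ℕ) + (-111879/33614)*t^(3:ℕ) + (6365091/268912)*t^(4:ℕ) + (-189360/16807)*t^(5:ℕ) + (648657/19208)*t^(6:ℕ) + (-189360/16807)*t^(7:ℕ) + (6365091/268912)*t^(8:ℕ) + (-111879/33614)*t^(9:ℕ) + (2011833/268912)*t^(10:ℕ) + (5031/33614)*t^(11:ℕ) + (190797/268912)*t^(12:ℕ) := by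
  have e : (819529/1344560) + (5031/33614)*t + (2011833/268912)*t^(2:ℕ) + (-111879/33614)*t^(3:ℕ) + (6365091/268912)*t^(4:ℕ) + (-189360/16807)*t^(5:ℕ) + (648657/19208)*t^(6:ℕ) + (-189360/16807)*t^(7:ℕ) + (6365091/268912)*t^(8:ℕ) + (-111879/33614)*t^(9:ℕ) + (2011833/268912)*t^(10:ℕ) + (5031/33614)*t^(11:ℕ) + (190797/268912)*t^(12:ℕ) = (819529/1344560)*(1 - t)^(12:ℕ) + (2508897/336140)*(t - 0)*(1 - t)^(11:ℕ) + (66361719/1344560)*(t - 0)^(2:ℕ)*(1 - t)^(10:ℕ) + (28748107/134456)*(t - 0)^(3:ℕ)*(1 - t)^(9:ℕ) + (176616579/268912)*(t - 0)^(4:ℕ)*(1 - t)^(8:ℕ) + (250115631/168070)*(t - 0)^(5:ℕ)*(1 - t)^(7:ℕ) + (30510768/12005)*(t - 0)^(6:ℕ)*(1 - t)^(6:ℕ) + (277154193/84035)*(t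 - 0)^(7:ℕ)*(1 - t)^(5:ℕ) + (217768785/67228)*(t - 0)^(8:ℕ)*(1 - t)^(4:ℕ) + (39702041/16807)*(t - 0)^(9:ℕ)*(1 - t)^(3:ℕ) + (102930624/84035)*(t - 0)^(10:ℕ)*(1 - t)^(2:ℕ) + (34488318/84035)*(t - 0)^(11:ℕ)*(1 - t) + (11512913/168070)*(t - 0)^(12:ℕ) := by
    ring
  rw [e]
  have a3 : 0 ≤ t - 0 := by linarith
  have a4 : 0 ≤ 1 - t := by linarith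
  generalize t - 0 = t1 at a3 ⊢
  generalize 1 - t = t2 at a4 ⊢
  positivity

lemma pos_DP_b6 (t : ℝ) (h3 : 0 ≤ t) (h4 : t ≤ 1) :
    0 ≤ (635449/1344560) + (4131/16807)*t + (998649/134456)*t^(2:ℕ) + (-61965/16807)*t^(3:ℕ) + (47174805/1882384)*t^(4:ℕ) + (-1578042/117649)*t^(5:ℕ) + (17094321/470596)*t^(6:ℕ) + (-1578042/117649)*t^(7:ℕ) + (47174805/1882384)*t^(8:ℕ) + (-61965/16807)*t^(9:ℕ) + (998649/134456)*t^(10:ℕ) + (4131/16807)*t^(11:ℕ) + (153981/268912)*t^(12:ℕ) := by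
  have e : (635449/1344560) + (4131/16807)*t + (998649/134456)*t^(2:ℕ) + (-61965/16807)*t^(3:ℕ) + (47174805/1882384)*t^(4:ℕ) + (-1578042/117649)*t^(5:ℕ) + (17094321/470596)*t^(6:ℕ) + (-1578042/117649)*t^(7:ℕ) + (47174805/1882384)*t^(8:ℕ) + (-61965/16807)*t^(9:ℕ) + (998649/134456)*t^(10:ℕ) + (4131/16807)*t^(11:ℕ) + (153981/268912)*t^(12:ℕ) = (635449/1344560)*(1 - t)^(12:ℕ) + (1988967/336140)*(t - 0)*(1 - t)^(11:ℕ) + (13890351/336140)*(t - 0)^(2:ℕ)*(1 - t)^(10:ℕ) + (3161036/16807)*(t - 0)^(3:ℕ)*(1 - t)^(9:ℕ) + (141321249/235298)*(t - 0)^(4:ℕ)*(1 - t)^(8:ℕ) + (824157756/588245)*(t - 0)^(5:ℕ)*(1 - t)^(7:ℕ) + (1437926172/588245)*(t - 0)^(6:ℕ)*(1 - t)^(6:ℕ) + (1894908096/588245)*(t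 - 0)^(7:ℕ)*(1 - t)^(5:ℕ) + (752468679/235298)*(t - 0)^(8:ℕ)*(1 - t)^(4:ℕ) + (276357902/117649)*(t - 0)^(9:ℕ)*(1 - t)^(3:ℕ) + (719850963/588245)*(t - 0)^(10:ℕ)*(1 - t)^(2:ℕ) + (241905306/588245)*(t - 0)^(11:ℕ)*(1 - t) + (80752751/1176490)*(t - 0)^(12:ℕ) := by
    ring
  rw [e]
  have a3 : 0 ≤ t - 0 := by linarith
  have a4 : 0 ≤ 1 - t := by linarith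
  generalize t - 0 = t1 at a3 ⊢
  generalize 1 - t = t2 at a4 ⊢
  positivity

lemma pos_DP_id (d : ℝ) (C0 C1 C2 C3 C4 C5 C6 : ℝ) :
    C0 + d*C1 + d^(2:ℕ)*C2 + d^(3:ℕ)*C3 + d^(4:ℕ)*C4 + d^(5:ℕ)*C5 + d^(6:ℕ)*C6 = (1/10) + (117649*((1/7)-d)^(6:ℕ)*(1*C0 - (1/10)) + 705894*d*((1/7)-d)^(5:ℕ)*(1*C0 + (1/42)*C1 - (1/10)) + 1764735*d^(2:ℕ)*((1/7)-d)^(4:ℕ)*(1*C0 + (1/21)*C1 + (1/735)*C2 - (1/10)) + 2352980*d^(3:ℕ)*((1/7)-d)^(3:ℕ)*(1*C0 + (1/14)*C1 + (1/245)*C2 + (1/6860)*C3 - (1/10)) + 1764735*d^(4:ℕ)*((1/7)-d)^(2:ℕ)*(1*C0 + (2/21)*C1 + (2/245)*C2 + (1/1715)*C3 + (1/36015)*C4 - (1/10)) + 705894*d^(5:ℕ)*((1/7)-d)*(1*C0 + (5/42)*C1 + (2/147)*C2 + (1/686)*C3 + (1/7203)*C4 + (1/100842)*C5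 - (1/10)) + 117649*d^(6:ℕ)*(1*C0 + (1/7)*C1 + (1/49)*C2 + (1/343)*C3 + (1/2401)*C4 + (1/16807)*C5 + (1/117649)*C6 - (1/10))) := by
  ring

lemma pos_DP (d t : ℝ) (h1 : 0 ≤ d) (h2 : d ≤ (1/7)) (h3 : 0 ≤ t) (h4 : t ≤ 1) :
    0 < 1 + 6*t^(2:ℕ) + 15*t^(4:ℕ) + 20*t^(6:ℕ) + 15*t^(8:ℕ) + 6*t^(10:ℕ) + 1*t^(12:ℕ) + (-9/16)*d + (149/8)*d*t^(2:ℕ) + (-32)*d*t^(3:ℕ) + (1273/16)*d*t^(4:ℕ) + (-96)*d*t^(5:ℕ) + (483/4)*d*t^(6:ℕ) + (-96)*d*t^(7:ℕ) + (1273/16)*d*t^(8:ℕ) + (-32)*d*t^(9:ℕ) + (149/8)*d*t^(10:ℕ) + (-9/16)*d*t^(12:ℕ) + (-233/16)*d^(2:ℕ) + 8*d^(2:ℕ)*t + (-73/2)*d^(2:ℕ)*t^(2:ℕ) + 12*d^(2:ℕ)*t^(3:ℕ) + (-623/16)*d^(2:ℕ)*t^(4:ℕ) + (-4)*d^(2:ℕ)*t^(5:ℕ) + (-34)*d^(2:ℕ)*t^(6:ℕ) +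 (-4)*d^(2:ℕ)*t^(7:ℕ) + (-623/16)*d^(2:ℕ)*t^(8:ℕ) + 12*d^(2:ℕ)*t^(9:ℕ) + (-73/2)*d^(2:ℕ)*t^(10:ℕ) + 8*d^(2:ℕ)*t^(11:ℕ) + (-233/16)*d^(2:ℕ)*t^(12:ℕ) + (-287/16)*d^(3:ℕ) + 27*d^(3:ℕ)*t + (-625/4)*d^(3:ℕ)*t^(2:ℕ) + 213*d^(3:ℕ)*t^(3:ℕ) + (-3321/16)*d^(3:ℕ)*t^(4:ℕ) + 184*d^(3:ℕ)*t^(5:ℕ) + (-277/2)*d^(3:ℕ)*t^(6:ℕ) + 184*d^(3:ℕ)*t^(7:ℕ) + (-3321/16)*d^(3:ℕ)*t^(8:ℕ) + 213*d^(3:ℕ)*t^(9:ℕ) + (-625/4)*d^(3:ℕ)*t^(10:ℕ) + 27*d^(3:ℕ)*t^(11:ℕ) + (-287/16)*d^(3:ℕ)*t^(12:ℕ) + 5*d^(4:ℕ) + 12*d^(4:ℕ)*t + (-347/4)*d^(4:ℕ)*t^(2:ℕ) + 62*d^(4:ℕ)*t^(3:ℕ) + (419/2)*d^(4:ℕ)*t^(4:ℕ) + (-378)*d^(4:ℕ)*t^(5:ℕ) + (885/2)*d^(4:ℕ)*t^(6:ℕ) + (-378)*d^(4:ℕ)*t^(7:ℕ) + (419/2)*d^(4:ℕ)*t^(8:ℕ) + 62*d^(4:ℕ)*t^(9:ℕ)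 + (-347/4)*d^(4:ℕ)*t^(10:ℕ) + 12*d^(4:ℕ)*t^(11:ℕ) + 5*d^(4:ℕ)*t^(12:ℕ) + (25/4)*d^(5:ℕ) + (-20)*d^(5:ℕ)*t + (107/2)*d^(5:ℕ)*t^(2:ℕ) + (-120)*d^(5:ℕ)*t^(3:ℕ) + (529/4)*d^(5:ℕ)*t^(4:ℕ) + 52*d^(5:ℕ)*t^(5:ℕ) + (-182)*d^(5:ℕ)*t^(6:ℕ) + 52*d^(5:ℕ)*t^(7:ℕ) + (529/4)*d^(5:ℕ)*t^(8:ℕ) + (-120)*d^(5:ℕ)*t^(9:ℕ) + (107/2)*d^(5:ℕ)*t^(10:ℕ) + (-20)*d^(5:ℕ)*t^(11:ℕ) + (25/4)*d^(5:ℕ)*t^(12:ℕ) + (-25)*d^(6:ℕ)*t^(4:ℕ) + 80*d^(6:ℕ)*t^(5:ℕ) + (-114)*d^(6:ℕ)*t^(6:ℕ) + 80*d^(6:ℕ)*t^(7:ℕ) + (-25)*d^(6:ℕ)*t^(8:ℕ) := by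
  have e0 : 1 + 6*t^(2:ℕ) + 15*t^(4:ℕ) + 20*t^(6:ℕ) + 15*t^(8:ℕ) + 6*t^(10:ℕ) + 1*t^(12:ℕ) + (-9/16)*d + (149/8)*d*t^(2:ℕ) + (-32)*d*t^(3:ℕ) + (1273/16)*d*t^(4:ℕ) + (-96)*d*t^(5:ℕ) + (483/4)*d*t^(6:ℕ) + (-96)*d*t^(7:ℕ) + (1273/16)*d*t^(8:ℕ) + (-32)*d*t^(9:ℕ) + (149/8)*d*t^(10:ℕ) + (-9/16)*d*t^(12:ℕ) + (-233/16)*d^(2:ℕ) + 8*d^(2:ℕ)*t + (-73/2)*d^(2:ℕ)*t^(2:ℕ) + 12*d^(2:ℕ)*t^(3:ℕ) + (-623/16)*d^(2:ℕ)*t^(4:ℕ) + (-4)*d^(2:ℕ)*t^(5:ℕ) + (-34)*d^(2:ℕ)*t^(6:ℕ) + (-4)*d^(2:ℕ)*t^(7:ℕ) + (-623/16)*d^(2:ℕ)*t^(8:ℕ) + 12*d^(2:ℕ)*t^(9:ℕ) + (-73/2)*d^(2:ℕ)*t^(10:ℕ) + 8*d^(2:ℕ)*t^(11:ℕ) + (-233/16)*d^(2:ℕ)*t^(12:ℕ) + (-287/16)*d^(3:ℕ) + 27*d^(3:ℕ)*t + (-625/4)*d^(3:ℕ)*t^(2:ℕ) + 213*d^(3:ℕ)*t^(3:ℕ)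 + (-3321/16)*d^(3:ℕ)*t^(4:ℕ) + 184*d^(3:ℕ)*t^(5:ℕ) + (-277/2)*d^(3:ℕ)*t^(6:ℕ) + 184*d^(3:ℕ)*t^(7:ℕ) + (-3321/16)*d^(3:ℕ)*t^(8:ℕ) + 213*d^(3:ℕ)*t^(9:ℕ) + (-625/4)*d^(3:ℕ)*t^(10:ℕ) + 27*d^(3:ℕ)*t^(11:ℕ) + (-287/16)*d^(3:ℕ)*t^(12:ℕ) + 5*d^(4:ℕ) + 12*d^(4:ℕ)*t + (-347/4)*d^(4:ℕ)*t^(2:ℕ) + 62*d^(4:ℕ)*t^(3:ℕ) + (419/2)*d^(4:ℕ)*t^(4:ℕ) + (-378)*d^(4:ℕ)*t^(5:ℕ) + (885/2)*d^(4:ℕ)*t^(6:ℕ) + (-378)*d^(4:ℕ)*t^(7:ℕ) + (419/2)*d^(4:ℕ)*t^(8:ℕ) + 62*d^(4:ℕ)*t^(9:ℕ) + (-347/4)*d^(4:ℕ)*t^(10:ℕ) + 12*d^(4:ℕ)*t^(11:ℕ) + 5*d^(4:ℕ)*t^(12:ℕ) + (25/4)*d^(5:ℕ) + (-20)*d^(5:ℕ)*t + (107/2)*d^(5:ℕ)*t^(2:ℕ) + (-120)*d^(5:ℕ)*t^(3:ℕ) + (529/4)*d^(5:ℕ)*t^(4:ℕ) + 52*d^(5:ℕ)*t^(5:ℕ) + (-182)*d^(5:ℕ)*t^(6:ℕ)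 + 52*d^(5:ℕ)*t^(7:ℕ) + (529/4)*d^(5:ℕ)*t^(8:ℕ) + (-120)*d^(5:ℕ)*t^(9:ℕ) + (107/2)*d^(5:ℕ)*t^(10:ℕ) + (-20)*d^(5:ℕ)*t^(11:ℕ) + (25/4)*d^(5:ℕ)*t^(12:ℕ) + (-25)*d^(6:ℕ)*t^(4:ℕ) + 80*d^(6:ℕ)*t^(5:ℕ) + (-114)*d^(6:ℕ)*t^(6:ℕ) + 80*d^(6:ℕ)*t^(7:ℕ) + (-25)*d^(6:ℕ)*t^(8:ℕ) = (1 + 6*t^(2:ℕ) + 15*t^(4:ℕ) + 20*t^(6:ℕ) + 15*t^(8:ℕ) + 6*t^(10:ℕ) + 1*t^(12:ℕ)) + d*((-9/16) + (149/8)*t^(2:ℕ) + (-32)*t^(3:ℕ) + (1273/16)*t^(4:ℕ) + (-96)*t^(5:ℕ) + (483/4)*t^(6:ℕ) + (-96)*t^(7:ℕ) + (1273/16)*t^(8:ℕ) + (-32)*t^(9:ℕ) + (149/8)*t^(10:ℕ) + (-9/16)*t^(12:ℕ)) + d^(2:ℕ)*((-233/16) + 8*t + (-73/2)*t^(2:ℕ) + 12*t^(3:ℕ) + (-623/16)*t^(4:ℕ) + (-4)*t^(5:ℕ) + (-34)*t^(6:ℕ) + (-4)*t^(7:ℕ) + (-623/16)*t^(8:ℕ)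 + 12*t^(9:ℕ) + (-73/2)*t^(10:ℕ) + 8*t^(11:ℕ) + (-233/16)*t^(12:ℕ)) + d^(3:ℕ)*((-287/16) + 27*t + (-625/4)*t^(2:ℕ) + 213*t^(3:ℕ) + (-3321/16)*t^(4:ℕ) + 184*t^(5:ℕ) + (-277/2)*t^(6:ℕ) + 184*t^(7:ℕ) + (-3321/16)*t^(8:ℕ) + 213*t^(9:ℕ) + (-625/4)*t^(10:ℕ) + 27*t^(11:ℕ) + (-287/16)*t^(12:ℕ)) + d^(4:ℕ)*(5 + 12*t + (-347/4)*t^(2:ℕ) + 62*t^(3:ℕ) + (419/2)*t^(4:ℕ) + (-378)*t^(5:ℕ) + (885/2)*t^(6:ℕ) + (-378)*t^(7:ℕ) + (419/2)*t^(8:ℕ) + 62*t^(9:ℕ) + (-347/4)*t^(10:ℕ) + 12*t^(11:ℕ) + 5*t^(12:ℕ)) + d^(5:ℕ)*((25/4) + (-20)*t + (107/2)*t^(2:ℕ) + (-120)*t^(3:ℕ) + (529/4)*t^(4:ℕ) + 52*t^(5:ℕ) + (-182)*t^(6:ℕ) + 52*t^(7:ℕ) + (529/4)*t^(8:ℕ) + (-120)*t^(9:ℕ) + (107/2)*t^(10:ℕ) + (-20)*t^(11:ℕ)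 + (25/4)*t^(12:ℕ)) + d^(6:ℕ)*((-25)*t^(4:ℕ) + 80*t^(5:ℕ) + (-114)*t^(6:ℕ) + 80*t^(7:ℕ) + (-25)*t^(8:ℕ)) := by
    ring
  rw [e0, pos_DP_id]
  have a2 : 0 ≤ (1/7) - d := by linarith
  have b0 : 0 ≤ 1*(1 + 6*t^(2:ℕ) + 15*t^(4:ℕ) + 20*t^(6:ℕ) + 15*t^(8:ℕ) + 6*t^(10:ℕ) + 1*t^(12:ℕ)) - (1/10) := by
    have h := pos_DP_b0 t h3 h4
    have e : 1*(1 + 6*t^(2:ℕ) + 15*t^(4:ℕ) + 20*t^(6:ℕ) + 15*t^(8:ℕ) + 6*t^(10:ℕ) + 1*t^(12:ℕ)) - (1/10) = (9/10) + 6*t^(2:ℕ) + 15*t^(4:ℕ) + 20*t^(6:ℕ) + 15*t^(8:ℕ) + 6*t^(10:ℕ) + 1*t^(12:ℕ) := by ring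
    rw [e]; exact h
  have b1 : 0 ≤ 1*(1 + 6*t^(2:ℕ) + 15*t^(4:ℕ) + 20*t^(6:ℕ) + 15*t^(8:ℕ) + 6*t^(10:ℕ) + 1*t^(12:ℕ)) + (1/42)*((-9/16) + (149/8)*t^(2:ℕ) + (-32)*t^(3:ℕ) + (1273/16)*t^(4:ℕ) + (-96)*t^(5:ℕ) + (483/4)*t^(6:ℕ) + (-96)*t^(7:ℕ) + (1273/16)*t^(8:ℕ) + (-32)*t^(9:ℕ) + (149/8)*t^(10:ℕ) + (-9/16)*t^(12:ℕ)) - (1/10) := by
    have h := pos_DP_b1 t h3 h4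
    have e : 1*(1 + 6*t^(2:ℕ) + 15*t^(4:ℕ) + 20*t^(6:ℕ) + 15*t^(8:ℕ) + 6*t^(10:ℕ) + 1*t^(12:ℕ)) + (1/42)*((-9/16) + (149/8)*t^(2:ℕ) + (-32)*t^(3:ℕ) + (1273/16)*t^(4:ℕ) + (-96)*t^(5:ℕ) + (483/4)*t^(6:ℕ) + (-96)*t^(7:ℕ) + (1273/16)*t^(8:ℕ) + (-32)*t^(9:ℕ) + (149/8)*t^(10:ℕ) + (-9/16)*t^(12:ℕ)) - (1/10) = (993/1120) + (2165/336)*t^(2:ℕ) + (-16/21)*t^(3:ℕ) + (11353/672)*t^(4:ℕ) + (-16/7)*t^(5:ℕ) + (183/8)*t^(6:ℕ) + (-16/7)*t^(7:ℕ) + (11353/672)*t^(8:ℕ) + (-16/21)*t^(9:ℕ) + (2165/336)*t^(10:ℕ) + (221/224)*t^(12:ℕ) := by ring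
    rw [e]; exact h
  have b2 : 0 ≤ 1*(1 + 6*t^(2:ℕ) + 15*t^(4:ℕ) + 20*t^(6:ℕ) + 15*t^(8:ℕ) + 6*t^(10:ℕ) + 1*t^(12:ℕ)) + (1/21)*((-9/16) + (149/8)*t^(2:ℕ) + (-32)*t^(3:ℕ) + (1273/16)*t^(4:ℕ) + (-96)*t^(5:ℕ) + (483/4)*t^(6:ℕ) + (-96)*t^(7:ℕ) + (1273/16)*t^(8:ℕ) + (-32)*t^(9:ℕ) + (149/8)*t^(10:ℕ) + (-9/16)*t^(12:ℕ)) + (1/735)*((-233/16) + 8*t + (-73/2)*t^(2:ℕ) + 12*t^(3:ℕ) + (-623/16)*t^(4:ℕ) + (-4)*t^(5:ℕ) + (-34)*t^(6:ℕ) + (-4)*t^(7:ℕ) + (-623/16)*t^(8:ℕ) + 12*t^(9:ℕ) + (-73/2)*t^(10:ℕ) + 8*t^(11:ℕ) + (-233/16)*t^(12:ℕ)) - (1/10) := by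
    have h := pos_DP_b2 t h3 h4
    have e : 1*(1 + 6*t^(2:ℕ) + 15*t^(4:ℕ) + 20*t^(6:ℕ) + 15*t^(8:ℕ) + 6*t^(10:ℕ) + 1*t^(12:ℕ)) + (1/21)*((-9/16) + (149/8)*t^(2:ℕ) + (-32)*t^(3:ℕ) + (1273/16)*t^(4:ℕ) + (-96)*t^(5:ℕ) + (483/4)*t^(6:ℕ) + (-96)*t^(7:ℕ) + (1273/16)*t^(8:ℕ) + (-32)*t^(9:ℕ) + (149/8)*t^(10:ℕ) + (-9/16)*t^(12:ℕ)) + (1/735)*((-233/16) + 8*t + (-73/2)*t^(2:ℕ) + 12*t^(3:ℕ) + (-623/16)*t^(4:ℕ) + (-4)*t^(5:ℕ) + (-34)*t^(6:ℕ) + (-4)*t^(7:ℕ) + (-623/16)*t^(8:ℕ) + 12*t^(9:ℕ) + (-73/2)*t^(10:ℕ) + 8*t^(11:ℕ) + (-233/16)*t^(12:ℕ)) - (1/10) = (2509/2940) + (8/735)*t + (13401/1960)*t^(2:ℕ) + (-1108/735)*t^(3:ℕ) + (2623/140)*t^(4:ℕ) + (-3364/735)*t^(5:ℕ) + (75569/2940)*t^(6:ℕ)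 + (-3364/735)*t^(7:ℕ) + (2623/140)*t^(8:ℕ) + (-1108/735)*t^(9:ℕ) + (13401/1960)*t^(10:ℕ) + (8/735)*t^(11:ℕ) + (2803/2940)*t^(12:ℕ) := by ring
    rw [e]; exact h
  have b3 : 0 ≤ 1*(1 + 6*t^(2:ℕ) + 15*t^(4:ℕ) + 20*t^(6:ℕ) + 15*t^(8:ℕ) + 6*t^(10:ℕ) + 1*t^(12:ℕ)) + (1/14)*((-9/16) + (149/8)*t^(2:ℕ) + (-32)*t^(3:ℕ) + (1273/16)*t^(4:ℕ) + (-96)*t^(5:ℕ) + (483/4)*t^(6:ℕ) + (-96)*t^(7:ℕ) + (1273/16)*t^(8:ℕ) + (-32)*t^(9:ℕ) + (149/8)*t^(10:ℕ) + (-9/16)*t^(12:ℕ)) + (1/245)*((-233/16) + 8*t + (-73/2)*t^(2:ℕ) + 12*t^(3:ℕ) + (-623/16)*t^(4:ℕ) + (-4)*t^(5:ℕ) + (-34)*t^(6:ℕ) + (-4)*t^(7:ℕ) + (-623/16)*t^(8:ℕ) + 12*t^(9:ℕ) + (-73/2)*t^(10:ℕ) + 8*t^(11:ℕ) + (-233/16)*t^(12:ℕ)) + (1/6860)*((-287/16)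 + 27*t + (-625/4)*t^(2:ℕ) + 213*t^(3:ℕ) + (-3321/16)*t^(4:ℕ) + 184*t^(5:ℕ) + (-277/2)*t^(6:ℕ) + 184*t^(7:ℕ) + (-3321/16)*t^(8:ℕ) + 213*t^(9:ℕ) + (-625/4)*t^(10:ℕ) + 27*t^(11:ℕ) + (-287/16)*t^(12:ℕ)) - (1/10) := by
    have h := pos_DP_b3 t h3 h4
    have e : 1*(1 + 6*t^(2:ℕ) + 15*t^(4:ℕ) + 20*t^(6:ℕ) + 15*t^(8:ℕ) + 6*t^(10:ℕ) + 1*t^(12:ℕ)) + (1/14)*((-9/16) + (149/8)*t^(2:ℕ) + (-32)*t^(3:ℕ) + (1273/16)*t^(4:ℕ) + (-96)*t^(5:ℕ) + (483/4)*t^(6:ℕ) + (-96)*t^(7:ℕ) + (1273/16)*t^(8:ℕ) + (-32)*t^(9:ℕ) + (149/8)*t^(10:ℕ) + (-9/16)*t^(12:ℕ)) + (1/245)*((-233/16) + 8*t + (-73/2)*t^(2:ℕ) + 12*t^(3:ℕ) + (-623/16)*t^(4:ℕ) + (-4)*t^(5:ℕ) + (-34)*t^(6:ℕ) + (-4)*t^(7:ℕ) + (-623/16)*t^(8:ℕ)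 + 12*t^(9:ℕ) + (-73/2)*t^(10:ℕ) + 8*t^(11:ℕ) + (-233/16)*t^(12:ℕ)) + (1/6860)*((-287/16) + 27*t + (-625/4)*t^(2:ℕ) + 213*t^(3:ℕ) + (-3321/16)*t^(4:ℕ) + 184*t^(5:ℕ) + (-277/2)*t^(6:ℕ) + 184*t^(7:ℕ) + (-3321/16)*t^(8:ℕ) + 213*t^(9:ℕ) + (-625/4)*t^(10:ℕ) + 27*t^(11:ℕ) + (-287/16)*t^(12:ℕ)) - (1/10) = (1787/2240) + (251/6860)*t + (12277/1715)*t^(2:ℕ) + (-15131/6860)*t^(3:ℕ) + (449881/21952)*t^(4:ℕ) + (-11742/1715)*t^(5:ℕ) + (195277/6860)*t^(6:ℕ) + (-11742/1715)*t^(7:ℕ) + (449881/21952)*t^(8:ℕ) + (-15131/6860)*t^(9:ℕ) + (12277/1715)*t^(10:ℕ) + (251/6860)*t^(11:ℕ) + (2011/2240)*t^(12:ℕ) := by ring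
    rw [e]; exact h
  have b4 : 0 ≤ 1*(1 + 6*t^(2:ℕ) + 15*t^(4:ℕ) + 20*t^(6:ℕ) + 15*t^(8:ℕ) + 6*t^(10:ℕ) + 1*t^(12:ℕ)) + (2/21)*((-9/16) + (149/8)*t^(2:ℕ) + (-32)*t^(3:ℕ) + (1273/16)*t^(4:ℕ) + (-96)*t^(5:ℕ) + (483/4)*t^(6:ℕ) + (-96)*t^(7:ℕ) + (1273/16)*t^(8:ℕ) + (-32)*t^(9:ℕ) + (149/8)*t^(10:ℕ) + (-9/16)*t^(12:ℕ)) + (2/245)*((-233/16) + 8*t + (-73/2)*t^(2:ℕ) + 12*t^(3:ℕ) + (-623/16)*t^(4:ℕ) + (-4)*t^(5:ℕ) + (-34)*t^(6:ℕ) + (-4)*t^(7:ℕ) + (-623/16)*t^(8:ℕ) + 12*t^(9:ℕ) + (-73/2)*t^(10:ℕ) + 8*t^(11:ℕ) + (-233/16)*t^(12:ℕ)) + (1/1715)*((-287/16) + 27*t + (-625/4)*t^(2:ℕ) + 213*t^(3:ℕ) + (-3321/16)*t^(4:ℕ) + 184*t^(5:ℕ) + (-277/2)*t^(6:ℕ) + 184*t^(7:ℕ) + (-3321/16)*t^(8:ℕ)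 + 213*t^(9:ℕ) + (-625/4)*t^(10:ℕ) + 27*t^(11:ℕ) + (-287/16)*t^(12:ℕ)) + (1/36015)*(5 + 12*t + (-347/4)*t^(2:ℕ) + 62*t^(3:ℕ) + (419/2)*t^(4:ℕ) + (-378)*t^(5:ℕ) + (885/2)*t^(6:ℕ) + (-378)*t^(7:ℕ) + (419/2)*t^(8:ℕ) + 62*t^(9:ℕ) + (-347/4)*t^(10:ℕ) + 12*t^(11:ℕ) + 5*t^(12:ℕ)) - (1/10) := by
    have h := pos_DP_b4 t h3 h4
    have e : 1*(1 + 6*t^(2:ℕ) + 15*t^(4:ℕ) + 20*t^(6:ℕ) + 15*t^(8:ℕ) + 6*t^(10:ℕ) + 1*t^(12:ℕ)) + (2/21)*((-9/16) + (149/8)*t^(2:ℕ) + (-32)*t^(3:ℕ) + (1273/16)*t^(4:ℕ) + (-96)*t^(5:ℕ) + (483/4)*t^(6:ℕ) + (-96)*t^(7:ℕ) + (1273/16)*t^(8:ℕ) + (-32)*t^(9:ℕ) + (149/8)*t^(10:ℕ) + (-9/16)*t^(12:ℕ)) + (2/245)*((-233/16) + 8*t + (-73/2)*t^(2:ℕ) + 12*t^(3:ℕ) + (-623/16)*t^(4:ℕ)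 + (-4)*t^(5:ℕ) + (-34)*t^(6:ℕ) + (-4)*t^(7:ℕ) + (-623/16)*t^(8:ℕ) + 12*t^(9:ℕ) + (-73/2)*t^(10:ℕ) + 8*t^(11:ℕ) + (-233/16)*t^(12:ℕ)) + (1/1715)*((-287/16) + 27*t + (-625/4)*t^(2:ℕ) + 213*t^(3:ℕ) + (-3321/16)*t^(4:ℕ) + 184*t^(5:ℕ) + (-277/2)*t^(6:ℕ) + 184*t^(7:ℕ) + (-3321/16)*t^(8:ℕ) + 213*t^(9:ℕ) + (-625/4)*t^(10:ℕ) + 27*t^(11:ℕ) + (-287/16)*t^(12:ℕ)) + (1/36015)*(5 + 12*t + (-347/4)*t^(2:ℕ) + 62*t^(3:ℕ) + (419/2)*t^(4:ℕ) + (-378)*t^(5:ℕ) + (885/2)*t^(6:ℕ) + (-378)*t^(7:ℕ) + (419/2)*t^(8:ℕ) + 62*t^(9:ℕ) + (-347/4)*t^(10:ℕ) + 12*t^(11:ℕ) + 5*t^(12:ℕ)) - (1/10) = (413297/576240) + (977/12005)*t + (1063499/144060)*t^(2:ℕ) + (-33899/12005)*t^(3:ℕ) + (12760439/576240)*t^(4:ℕ)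 + (-3114/343)*t^(5:ℕ) + (748007/24010)*t^(6:ℕ) + (-3114/343)*t^(7:ℕ) + (12760439/576240)*t^(8:ℕ) + (-33899/12005)*t^(9:ℕ) + (1063499/144060)*t^(10:ℕ) + (977/12005)*t^(11:ℕ) + (470921/576240)*t^(12:ℕ) := by ring
    rw [e]; exact h
  have b5 : 0 ≤ 1*(1 + 6*t^(2:ℕ) + 15*t^(4:ℕ) + 20*t^(6:ℕ) + 15*t^(8:ℕ) + 6*t^(10:ℕ) + 1*t^(12:ℕ)) + (5/42)*((-9/16) + (149/8)*t^(2:ℕ) + (-32)*t^(3:ℕ) + (1273/16)*t^(4:ℕ) + (-96)*t^(5:ℕ) + (483/4)*t^(6:ℕ) + (-96)*t^(7:ℕ) + (1273/16)*t^(8:ℕ) + (-32)*t^(9:ℕ) + (149/8)*t^(10:ℕ) + (-9/16)*t^(12:ℕ)) + (2/147)*((-233/16) + 8*t + (-73/2)*t^(2:ℕ) + 12*t^(3:ℕ) + (-623/16)*t^(4:ℕ) + (-4)*t^(5:ℕ) + (-34)*t^(6:ℕ) + (-4)*t^(7:ℕ) + (-623/16)*t^(8:ℕ) + 12*t^(9:ℕ)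 + (-73/2)*t^(10:ℕ) + 8*t^(11:ℕ) + (-233/16)*t^(12:ℕ)) + (1/686)*((-287/16) + 27*t + (-625/4)*t^(2:ℕ) + 213*t^(3:ℕ) + (-3321/16)*t^(4:ℕ) + 184*t^(5:ℕ) + (-277/2)*t^(6:ℕ) + 184*t^(7:ℕ) + (-3321/16)*t^(8:ℕ) + 213*t^(9:ℕ) + (-625/4)*t^(10:ℕ) + 27*t^(11:ℕ) + (-287/16)*t^(12:ℕ)) + (1/7203)*(5 + 12*t + (-347/4)*t^(2:ℕ) + 62*t^(3:ℕ) + (419/2)*t^(4:ℕ) + (-378)*t^(5:ℕ) + (885/2)*t^(6:ℕ) + (-378)*t^(7:ℕ) + (419/2)*t^(8:ℕ) + 62*t^(9:ℕ) + (-347/4)*t^(10:ℕ) + 12*t^(11:ℕ) + 5*t^(12:ℕ)) + (1/100842)*((25/4) + (-20)*t + (107/2)*t^(2:ℕ) + (-120)*t^(3:ℕ) + (529/4)*t^(4:ℕ) + 52*t^(5:ℕ) + (-182)*t^(6:ℕ) + 52*t^(7:ℕ) + (529/4)*t^(8:ℕ) + (-120)*t^(9:ℕ) + (107/2)*t^(10:ℕ) + (-20)*t^(11:ℕ)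 + (25/4)*t^(12:ℕ)) - (1/10) := by
    have h := pos_DP_b5 t h3 h4
    have e : 1*(1 + 6*t^(2:ℕ) + 15*t^(4:ℕ) + 20*t^(6:ℕ) + 15*t^(8:ℕ) + 6*t^(10:ℕ) + 1*t^(12:ℕ)) + (5/42)*((-9/16) + (149/8)*t^(2:ℕ) + (-32)*t^(3:ℕ) + (1273/16)*t^(4:ℕ) + (-96)*t^(5:ℕ) + (483/4)*t^(6:ℕ) + (-96)*t^(7:ℕ) + (1273/16)*t^(8:ℕ) + (-32)*t^(9:ℕ) + (149/8)*t^(10:ℕ) + (-9/16)*t^(12:ℕ)) + (2/147)*((-233/16) + 8*t + (-73/2)*t^(2:ℕ) + 12*t^(3:ℕ) + (-623/16)*t^(4:ℕ) + (-4)*t^(5:ℕ) + (-34)*t^(6:ℕ) + (-4)*t^(7:ℕ) + (-623/16)*t^(8:ℕ) + 12*t^(9:ℕ) + (-73/2)*t^(10:ℕ) + 8*t^(11:ℕ) + (-233/16)*t^(12:ℕ)) + (1/686)*((-287/16) + 27*t + (-625/4)*t^(2:ℕ) + 213*t^(3:ℕ) + (-3321/16)*t^(4:ℕ) + 184*t^(5:ℕ) + (-277/2)*t^(6:ℕ)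 + 184*t^(7:ℕ) + (-3321/16)*t^(8:ℕ) + 213*t^(9:ℕ) + (-625/4)*t^(10:ℕ) + 27*t^(11:ℕ) + (-287/16)*t^(12:ℕ)) + (1/7203)*(5 + 12*t + (-347/4)*t^(2:ℕ) + 62*t^(3:ℕ) + (419/2)*t^(4:ℕ) + (-378)*t^(5:ℕ) + (885/2)*t^(6:ℕ) + (-378)*t^(7:ℕ) + (419/2)*t^(8:ℕ) + 62*t^(9:ℕ) + (-347/4)*t^(10:ℕ) + 12*t^(11:ℕ) + 5*t^(12:ℕ)) + (1/100842)*((25/4) + (-20)*t + (107/2)*t^(2:ℕ) + (-120)*t^(3:ℕ) + (529/4)*t^(4:ℕ) + 52*t^(5:ℕ) + (-182)*t^(6:ℕ) + 52*t^(7:ℕ) + (529/4)*t^(8:ℕ) + (-120)*t^(9:ℕ) + (107/2)*t^(10:ℕ) + (-20)*t^(11:ℕ) + (25/4)*t^(12:ℕ)) - (1/10) = (819529/1344560) + (5031/33614)*t + (2011833/268912)*t^(2:ℕ) + (-111879/33614)*t^(3:ℕ) + (6365091/268912)*t^(4:ℕ) + (-189360/16807)*t^(5:ℕ)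 + (648657/19208)*t^(6:ℕ) + (-189360/16807)*t^(7:ℕ) + (6365091/268912)*t^(8:ℕ) + (-111879/33614)*t^(9:ℕ) + (2011833/268912)*t^(10:ℕ) + (5031/33614)*t^(11:ℕ) + (190797/268912)*t^(12:ℕ) := by ring
    rw [e]; exact h
  have b6 : 0 ≤ 1*(1 + 6*t^(2:ℕ) + 15*t^(4:ℕ) + 20*t^(6:ℕ) + 15*t^(8:ℕ) + 6*t^(10:ℕ) + 1*t^(12:ℕ)) + (1/7)*((-9/16) + (149/8)*t^(2:ℕ) + (-32)*t^(3:ℕ) + (1273/16)*t^(4:ℕ) + (-96)*t^(5:ℕ) + (483/4)*t^(6:ℕ) + (-96)*t^(7:ℕ) + (1273/16)*t^(8:ℕ) + (-32)*t^(9:ℕ) + (149/8)*t^(10:ℕ) + (-9/16)*t^(12:ℕ)) + (1/49)*((-233/16) + 8*t + (-73/2)*t^(2:ℕ) + 12*t^(3:ℕ) + (-623/16)*t^(4:ℕ) + (-4)*t^(5:ℕ) + (-34)*t^(6:ℕ) + (-4)*t^(7:ℕ) + (-623/16)*t^(8:ℕ) + 12*t^(9:ℕ) + (-73/2)*t^(10:ℕ)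 + 8*t^(11:ℕ) + (-233/16)*t^(12:ℕ)) + (1/343)*((-287/16) + 27*t + (-625/4)*t^(2:ℕ) + 213*t^(3:ℕ) + (-3321/16)*t^(4:ℕ) + 184*t^(5:ℕ) + (-277/2)*t^(6:ℕ) + 184*t^(7:ℕ) + (-3321/16)*t^(8:ℕ) + 213*t^(9:ℕ) + (-625/4)*t^(10:ℕ) + 27*t^(11:ℕ) + (-287/16)*t^(12:ℕ)) + (1/2401)*(5 + 12*t + (-347/4)*t^(2:ℕ) + 62*t^(3:ℕ) + (419/2)*t^(4:ℕ) + (-378)*t^(5:ℕ) + (885/2)*t^(6:ℕ) + (-378)*t^(7:ℕ) + (419/2)*t^(8:ℕ) + 62*t^(9:ℕ) + (-347/4)*t^(10:ℕ) + 12*t^(11:ℕ) + 5*t^(12:ℕ)) + (1/16807)*((25/4) + (-20)*t + (107/2)*t^(2:ℕ) + (-120)*t^(3:ℕ) + (529/4)*t^(4:ℕ) + 52*t^(5:ℕ) + (-182)*t^(6:ℕ) + 52*t^(7:ℕ) + (529/4)*t^(8:ℕ) + (-120)*t^(9:ℕ) + (107/2)*t^(10:ℕ) + (-20)*t^(11:ℕ) + (25/4)*t^(12:ℕ)) +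 (1/117649)*((-25)*t^(4:ℕ) + 80*t^(5:ℕ) + (-114)*t^(6:ℕ) + 80*t^(7:ℕ) + (-25)*t^(8:ℕ)) - (1/10) := by
    have h := pos_DP_b6 t h3 h4
    have e : 1*(1 + 6*t^(2:ℕ) + 15*t^(4:ℕ) + 20*t^(6:ℕ) + 15*t^(8:ℕ) + 6*t^(10:ℕ) + 1*t^(12:ℕ)) + (1/7)*((-9/16) + (149/8)*t^(2:ℕ) + (-32)*t^(3:ℕ) + (1273/16)*t^(4:ℕ) + (-96)*t^(5:ℕ) + (483/4)*t^(6:ℕ) + (-96)*t^(7:ℕ) + (1273/16)*t^(8:ℕ) + (-32)*t^(9:ℕ) + (149/8)*t^(10:ℕ) + (-9/16)*t^(12:ℕ)) + (1/49)*((-233/16) + 8*t + (-73/2)*t^(2:ℕ) + 12*t^(3:ℕ) + (-623/16)*t^(4:ℕ) + (-4)*t^(5:ℕ) + (-34)*t^(6:ℕ) + (-4)*t^(7:ℕ) + (-623/16)*t^(8:ℕ) + 12*t^(9:ℕ) + (-73/2)*t^(10:ℕ) + 8*t^(11:ℕ) + (-233/16)*t^(12:ℕ)) + (1/343)*((-287/16) + 27*t + (-625/4)*t^(2:ℕ)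 + 213*t^(3:ℕ) + (-3321/16)*t^(4:ℕ) + 184*t^(5:ℕ) + (-277/2)*t^(6:ℕ) + 184*t^(7:ℕ) + (-3321/16)*t^(8:ℕ) + 213*t^(9:ℕ) + (-625/4)*t^(10:ℕ) + 27*t^(11:ℕ) + (-287/16)*t^(12:ℕ)) + (1/2401)*(5 + 12*t + (-347/4)*t^(2:ℕ) + 62*t^(3:ℕ) + (419/2)*t^(4:ℕ) + (-378)*t^(5:ℕ) + (885/2)*t^(6:ℕ) + (-378)*t^(7:ℕ) + (419/2)*t^(8:ℕ) + 62*t^(9:ℕ) + (-347/4)*t^(10:ℕ) + 12*t^(11:ℕ) + 5*t^(12:ℕ)) + (1/16807)*((25/4) + (-20)*t + (107/2)*t^(2:ℕ) + (-120)*t^(3:ℕ) + (529/4)*t^(4:ℕ) + 52*t^(5:ℕ) + (-182)*t^(6:ℕ) + 52*t^(7:ℕ) + (529/4)*t^(8:ℕ) + (-120)*t^(9:ℕ) + (107/2)*t^(10:ℕ) + (-20)*t^(11:ℕ) + (25/4)*t^(12:ℕ)) + (1/117649)*((-25)*t^(4:ℕ) + 80*t^(5:ℕ) + (-114)*t^(6:ℕ) + 80*t^(7:ℕ) + (-25)*t^(8:ℕ))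 - (1/10) = (635449/1344560) + (4131/16807)*t + (998649/134456)*t^(2:ℕ) + (-61965/16807)*t^(3:ℕ) + (47174805/1882384)*t^(4:ℕ) + (-1578042/117649)*t^(5:ℕ) + (17094321/470596)*t^(6:ℕ) + (-1578042/117649)*t^(7:ℕ) + (47174805/1882384)*t^(8:ℕ) + (-61965/16807)*t^(9:ℕ) + (998649/134456)*t^(10:ℕ) + (4131/16807)*t^(11:ℕ) + (153981/268912)*t^(12:ℕ) := by ring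
    rw [e]; exact h
  generalize 1*(1 + 6*t^(2:ℕ) + 15*t^(4:ℕ) + 20*t^(6:ℕ) + 15*t^(8:ℕ) + 6*t^(10:ℕ) + 1*t^(12:ℕ)) - (1/10) = B0 at b0 ⊢
  generalize 1*(1 + 6*t^(2:ℕ) + 15*t^(4:ℕ) + 20*t^(6:ℕ) + 15*t^(8:ℕ) + 6*t^(10:ℕ) + 1*t^(12:ℕ)) + (1/42)*((-9/16) + (149/8)*t^(2:ℕ) + (-32)*t^(3:ℕ) + (1273/16)*t^(4:ℕ) + (-96)*t^(5:ℕ) + (483/4)*t^(6:ℕ) + (-96)*t^(7:ℕ) + (1273/16)*t^(8:ℕ) + (-32)*t^(9:ℕ) + (149/8)*t^(10:ℕ) + (-9/16)*t^(12:ℕ)) - (1/10) = B1 at b1 ⊢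
  generalize 1*(1 + 6*t^(2:ℕ) + 15*t^(4:ℕ) + 20*t^(6:ℕ) + 15*t^(8:ℕ) + 6*t^(10:ℕ) + 1*t^(12:ℕ)) + (1/21)*((-9/16) + (149/8)*t^(2:ℕ) + (-32)*t^(3:ℕ) + (1273/16)*t^(4:ℕ) + (-96)*t^(5:ℕ) + (483/4)*t^(6:ℕ) + (-96)*t^(7:ℕ) + (1273/16)*t^(8:ℕ) + (-32)*t^(9:ℕ) + (149/8)*t^(10:ℕ) + (-9/16)*t^(12:ℕ)) + (1/735)*((-233/16) + 8*t + (-73/2)*t^(2:ℕ) + 12*t^(3:ℕ) + (-623/16)*t^(4:ℕ) + (-4)*t^(5:ℕ) + (-34)*t^(6:ℕ) + (-4)*t^(7:ℕ) + (-623/16)*t^(8:ℕ) + 12*t^(9:ℕ) + (-73/2)*t^(10:ℕ) + 8*t^(11:ℕ) + (-233/16)*t^(12:ℕ)) - (1/10) = B2 at b2 ⊢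
  generalize 1*(1 + 6*t^(2:ℕ) + 15*t^(4:ℕ) + 20*t^(6:ℕ) + 15*t^(8:ℕ) + 6*t^(10:ℕ) + 1*t^(12:ℕ)) + (1/14)*((-9/16) + (149/8)*t^(2:ℕ) + (-32)*t^(3:ℕ) + (1273/16)*t^(4:ℕ) + (-96)*t^(5:ℕ) + (483/4)*t^(6:ℕ) + (-96)*t^(7:ℕ) + (1273/16)*t^(8:ℕ) + (-32)*t^(9:ℕ) + (149/8)*t^(10:ℕ) + (-9/16)*t^(12:ℕ)) + (1/245)*((-233/16) + 8*t + (-73/2)*t^(2:ℕ) + 12*t^(3:ℕ) + (-623/16)*t^(4:ℕ) + (-4)*t^(5:ℕ) + (-34)*t^(6:ℕ) + (-4)*t^(7:ℕ) + (-623/16)*t^(8:ℕ) + 12*t^(9:ℕ) + (-73/2)*t^(10:ℕ) + 8*t^(11:ℕ) + (-233/16)*t^(12:ℕ)) + (1/6860)*((-287/16) + 27*t + (-625/4)*t^(2:ℕ) + 213*t^(3:ℕ) + (-3321/16)*t^(4:ℕ) + 184*t^(5:ℕ) + (-277/2)*t^(6:ℕ) + 184*t^(7:ℕ) + (-3321/16)*t^(8:ℕ) + 213*t^(9:ℕ) + (-625/4)*t^(10:ℕ)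 + 27*t^(11:ℕ) + (-287/16)*t^(12:ℕ)) - (1/10) = B3 at b3 ⊢
  generalize 1*(1 + 6*t^(2:ℕ) + 15*t^(4:ℕ) + 20*t^(6:ℕ) + 15*t^(8:ℕ) + 6*t^(10:ℕ) + 1*t^(12:ℕ)) + (2/21)*((-9/16) + (149/8)*t^(2:ℕ) + (-32)*t^(3:ℕ) + (1273/16)*t^(4:ℕ) + (-96)*t^(5:ℕ) + (483/4)*t^(6:ℕ) + (-96)*t^(7:ℕ) + (1273/16)*t^(8:ℕ) + (-32)*t^(9:ℕ) + (149/8)*t^(10:ℕ) + (-9/16)*t^(12:ℕ)) + (2/245)*((-233/16) + 8*t + (-73/2)*t^(2:ℕ) + 12*t^(3:ℕ) + (-623/16)*t^(4:ℕ) + (-4)*t^(5:ℕ) + (-34)*t^(6:ℕ) + (-4)*t^(7:ℕ) + (-623/16)*t^(8:ℕ) + 12*t^(9:ℕ) + (-73/2)*t^(10:ℕ) + 8*t^(11:ℕ) + (-233/16)*t^(12:ℕ)) + (1/1715)*((-287/16) + 27*t + (-625/4)*t^(2:ℕ) + 213*t^(3:ℕ) + (-3321/16)*t^(4:ℕ) + 184*t^(5:ℕ) + (-277/2)*t^(6:ℕ)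 + 184*t^(7:ℕ) + (-3321/16)*t^(8:ℕ) + 213*t^(9:ℕ) + (-625/4)*t^(10:ℕ) + 27*t^(11:ℕ) + (-287/16)*t^(12:ℕ)) + (1/36015)*(5 + 12*t + (-347/4)*t^(2:ℕ) + 62*t^(3:ℕ) + (419/2)*t^(4:ℕ) + (-378)*t^(5:ℕ) + (885/2)*t^(6:ℕ) + (-378)*t^(7:ℕ) + (419/2)*t^(8:ℕ) + 62*t^(9:ℕ) + (-347/4)*t^(10:ℕ) + 12*t^(11:ℕ) + 5*t^(12:ℕ)) - (1/10) = B4 at b4 ⊢
  generalize 1*(1 + 6*t^(2:ℕ) + 15*t^(4:ℕ) + 20*t^(6:ℕ) + 15*t^(8:ℕ) + 6*t^(10:ℕ) + 1*t^(12:ℕ)) + (5/42)*((-9/16) + (149/8)*t^(2:ℕ) + (-32)*t^(3:ℕ) + (1273/16)*t^(4:ℕ) + (-96)*t^(5:ℕ) + (483/4)*t^(6:ℕ) + (-96)*t^(7:ℕ) + (1273/16)*t^(8:ℕ) + (-32)*t^(9:ℕ) + (149/8)*t^(10:ℕ) + (-9/16)*t^(12:ℕ)) + (2/147)*((-233/16) + 8*t + (-73/2)*t^(2:ℕ) + 12*t^(3:ℕ)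 + (-623/16)*t^(4:ℕ) + (-4)*t^(5:ℕ) + (-34)*t^(6:ℕ) + (-4)*t^(7:ℕ) + (-623/16)*t^(8:ℕ) + 12*t^(9:ℕ) + (-73/2)*t^(10:ℕ) + 8*t^(11:ℕ) + (-233/16)*t^(12:ℕ)) + (1/686)*((-287/16) + 27*t + (-625/4)*t^(2:ℕ) + 213*t^(3:ℕ) + (-3321/16)*t^(4:ℕ) + 184*t^(5:ℕ) + (-277/2)*t^(6:ℕ) + 184*t^(7:ℕ) + (-3321/16)*t^(8:ℕ) + 213*t^(9:ℕ) + (-625/4)*t^(10:ℕ) + 27*t^(11:ℕ) + (-287/16)*t^(12:ℕ)) + (1/7203)*(5 + 12*t + (-347/4)*t^(2:ℕ) + 62*t^(3:ℕ) + (419/2)*t^(4:ℕ) + (-378)*t^(5:ℕ) + (885/2)*t^(6:ℕ) + (-378)*t^(7:ℕ) + (419/2)*t^(8:ℕ) + 62*t^(9:ℕ) + (-347/4)*t^(10:ℕ) + 12*t^(11:ℕ) + 5*t^(12:ℕ)) + (1/100842)*((25/4) + (-20)*t + (107/2)*t^(2:ℕ) + (-120)*t^(3:ℕ) + (529/4)*t^(4:ℕ) + 52*t^(5:ℕ) +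 (-182)*t^(6:ℕ) + 52*t^(7:ℕ) + (529/4)*t^(8:ℕ) + (-120)*t^(9:ℕ) + (107/2)*t^(10:ℕ) + (-20)*t^(11:ℕ) + (25/4)*t^(12:ℕ)) - (1/10) = B5 at b5 ⊢
  generalize 1*(1 + 6*t^(2:ℕ) + 15*t^(4:ℕ) + 20*t^(6:ℕ) + 15*t^(8:ℕ) + 6*t^(10:ℕ) + 1*t^(12:ℕ)) + (1/7)*((-9/16) + (149/8)*t^(2:ℕ) + (-32)*t^(3:ℕ) + (1273/16)*t^(4:ℕ) + (-96)*t^(5:ℕ) + (483/4)*t^(6:ℕ) + (-96)*t^(7:ℕ) + (1273/16)*t^(8:ℕ) + (-32)*t^(9:ℕ) + (149/8)*t^(10:ℕ) + (-9/16)*t^(12:ℕ)) + (1/49)*((-233/16) + 8*t + (-73/2)*t^(2:ℕ) + 12*t^(3:ℕ) + (-623/16)*t^(4:ℕ) + (-4)*t^(5:ℕ) + (-34)*t^(6:ℕ) + (-4)*t^(7:ℕ) + (-623/16)*t^(8:ℕ) + 12*t^(9:ℕ) + (-73/2)*t^(10:ℕ) + 8*t^(11:ℕ) + (-233/16)*t^(12:ℕ)) + (1/343)*((-287/16) + 27*t + (-625/4)*t^(2:ℕ)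 + 213*t^(3:ℕ) + (-3321/16)*t^(4:ℕ) + 184*t^(5:ℕ) + (-277/2)*t^(6:ℕ) + 184*t^(7:ℕ) + (-3321/16)*t^(8:ℕ) + 213*t^(9:ℕ) + (-625/4)*t^(10:ℕ) + 27*t^(11:ℕ) + (-287/16)*t^(12:ℕ)) + (1/2401)*(5 + 12*t + (-347/4)*t^(2:ℕ) + 62*t^(3:ℕ) + (419/2)*t^(4:ℕ) + (-378)*t^(5:ℕ) + (885/2)*t^(6:ℕ) + (-378)*t^(7:ℕ) + (419/2)*t^(8:ℕ) + 62*t^(9:ℕ) + (-347/4)*t^(10:ℕ) + 12*t^(11:ℕ) + 5*t^(12:ℕ)) + (1/16807)*((25/4) + (-20)*t + (107/2)*t^(2:ℕ) + (-120)*t^(3:ℕ) + (529/4)*t^(4:ℕ) + 52*t^(5:ℕ) + (-182)*t^(6:ℕ) + 52*t^(7:ℕ) + (529/4)*t^(8:ℕ) + (-120)*t^(9:ℕ) + (107/2)*t^(10:ℕ) + (-20)*t^(11:ℕ) + (25/4)*t^(12:ℕ)) + (1/117649)*((-25)*t^(4:ℕ) + 80*t^(5:ℕ) + (-114)*t^(6:ℕ) + 80*t^(7:ℕ) + (-25)*t^(8:ℕ))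 - (1/10) = B6 at b6 ⊢
  generalize (1/7) - d = d2 at a2 ⊢
  positivity

lemma pos_L10_b0 (t : ℝ) (h3 : 0 ≤ t) (h4 : t ≤ 1) :
    0 ≤ (19/10) + 2*t + 10*t^(2:ℕ) + 10*t^(3:ℕ) + 20*t^(4:ℕ) + 20*t^(5:ℕ) + 20*t^(6:ℕ) + 20*t^(7:ℕ) + 10*t^(8:ℕ) + 10*t^(9:ℕ) + 2*t^(10:ℕ) + 2*t^(11:ℕ) := by
  have e : (19/10) + 2*t + 10*t^(2:ℕ) + 10*t^(3:ℕ) + 20*t^(4:ℕ) + 20*t^(5:ℕ) + 20*t^(6:ℕ) + 20*t^(7:ℕ) + 10*t^(8:ℕ) + 10*t^(9:ℕ) + 2*t^(10:ℕ) + 2*t^(11:ℕ) = (19/10)*(1 - t)^(11:ℕ) + (229/10)*(t - 0)*(1 - t)^(10:ℕ) + (269/2)*(t - 0)^(2:ℕ)*(1 - t)^(9:ℕ) + (1007/2)*(t - 0)^(3:ℕ)*(1 - t)^(8:ℕ) + 1327*(t - 0)^(4:ℕ)*(1 - t)^(7:ℕ) + (12889/5)*(t - 0)^(5:ℕ)*(1 - t)^(6:ℕ) + (18809/5)*(t - 0)^(6:ℕ)*(1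 - t)^(5:ℕ) + 4127*(t - 0)^(7:ℕ)*(1 - t)^(4:ℕ) + (6687/2)*(t - 0)^(8:ℕ)*(1 - t)^(3:ℕ) + (3829/2)*(t - 0)^(9:ℕ)*(1 - t)^(2:ℕ) + (7029/10)*(t - 0)^(10:ℕ)*(1 - t) + (1279/10)*(t - 0)^(11:ℕ) := by
    ring
  rw [e]
  have a3 : 0 ≤ t - 0 := by linarith
  have a4 : 0 ≤ 1 - t := by linarith
  generalize t - 0 = t1 at a3 ⊢
  generalize 1 - t = t2 at a4 ⊢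
  positivity

lemma pos_L10_b1 (t : ℝ) (h3 : 0 ≤ t) (h4 : t ≤ 1) :
    0 ≤ (971/490) + (102/49)*t + (74/7)*t^(2:ℕ) + (74/7)*t^(3:ℕ) + (1044/49)*t^(4:ℕ) + (1044/49)*t^(5:ℕ) + (1044/49)*t^(6:ℕ) + (1044/49)*t^(7:ℕ) + (74/7)*t^(8:ℕ) + (74/7)*t^(9:ℕ) + (102/49)*t^(10:ℕ) + (102/49)*t^(11:ℕ) := by
  have e : (971/490) + (102/49)*t + (74/7)*t^(2:ℕ) + (74/7)*t^(3:ℕ) + (1044/49)*t^(4:ℕ) + (1044/49)*t^(5:ℕ) + (1044/49)*t^(6:ℕ) + (1044/49)*t^(7:ℕ) + (74/7)*t^(8:ℕ) + (74/7)*t^(9:ℕ) + (102/49)*t^(10:ℕ) + (102/49)*t^(11:ℕ) = (971/490)*(1 - t)^(11:ℕ) + (11701/490)*(t - 0)*(1 - t)^(10:ℕ) + (13757/98)*(t - 0)^(2:ℕ)*(1 - t)^(9:ℕ) + (7369/14)*(t - 0)^(3:ℕ)*(1 - t)^(8:ℕ) + (68119/49)*(t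 - 0)^(4:ℕ)*(1 - t)^(7:ℕ) + (663241/245)*(t - 0)^(5:ℕ)*(1 - t)^(6:ℕ) + (138623/35)*(t - 0)^(6:ℕ)*(1 - t)^(5:ℕ) + (213455/49)*(t - 0)^(7:ℕ)*(1 - t)^(4:ℕ) + (346671/98)*(t - 0)^(8:ℕ)*(1 - t)^(3:ℕ) + (198885/98)*(t - 0)^(9:ℕ)*(1 - t)^(2:ℕ) + (365541/490)*(t - 0)^(10:ℕ)*(1 - t) + (66511/490)*(t - 0)^(11:ℕ) := by
    ring
  rw [e]
  have a3 : 0 ≤ t - 0 := by linarith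
  have a4 : 0 ≤ 1 - t := by linarith
  generalize t - 0 = t1 at a3 ⊢
  generalize 1 - t = t2 at a4 ⊢
  positivity

lemma pos_L10_b2 (t : ℝ) (h3 : 0 ≤ t) (h4 : t ≤ 1) :
    0 ≤ (1011/490) + (106/49)*t + (3833/343)*t^(2:ℕ) + (1643/147)*t^(3:ℕ) + (23371/1029)*t^(4:ℕ) + (7776/343)*t^(5:ℕ) + (23350/1029)*t^(6:ℕ) + (7755/343)*t^(7:ℕ) + (3823/343)*t^(8:ℕ) + (11420/1029)*t^(9:ℕ) + (739/343)*t^(10:ℕ) + (736/343)*t^(11:ℕ) := by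
  have e : (1011/490) + (106/49)*t + (3833/343)*t^(2:ℕ) + (1643/147)*t^(3:ℕ) + (23371/1029)*t^(4:ℕ) + (7776/343)*t^(5:ℕ) + (23350/1029)*t^(6:ℕ) + (7755/343)*t^(7:ℕ) + (3823/343)*t^(8:ℕ) + (11420/1029)*t^(9:ℕ) + (739/343)*t^(10:ℕ) + (736/343)*t^(11:ℕ) = (1011/490)*(1 - t)^(11:ℕ) + (12181/490)*(t - 0)*(1 - t)^(10:ℕ) + (100353/686)*(t - 0)^(2:ℕ)*(1 - t)^(9:ℕ) + (1130947/2058)*(t - 0)^(3:ℕ)*(1 - t)^(8:ℕ) + (1497086/1029)*(t - 0)^(4:ℕ)*(1 - t)^(7:ℕ) + (4872002/1715)*(t - 0)^(5:ℕ)*(1 - t)^(6:ℕ) + (21444316/5145)*(t - 0)^(6:ℕ)*(1 - t)^(5:ℕ) + (1576649/343)*(t - 0)^(7:ℕ)*(1 - t)^(4:ℕ) + (7699955/2058)*(t - 0)^(8:ℕ)*(1 - t)^(3:ℕ) + (4425121/2058)*(t - 0)^(9:ℕ)*(1 - t)^(2:ℕ)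 + (8139521/10290)*(t - 0)^(10:ℕ)*(1 - t) + (493257/3430)*(t - 0)^(11:ℕ) := by
    ring
  rw [e]
  have a3 : 0 ≤ t - 0 := by linarith
  have a4 : 0 ≤ 1 - t := by linarith
  generalize t - 0 = t1 at a3 ⊢
  generalize 1 - t = t2 at a4 ⊢
  positivity

lemma pos_L10_b3 (t : ℝ) (h3 : 0 ≤ t) (h4 : t ≤ 1) :
    0 ≤ (1051/490) + (110/49)*t + (141787/12005)*t^(2:ℕ) + (141874/12005)*t^(3:ℕ) + (290814/12005)*t^(4:ℕ) + (289199/12005)*t^(5:ℕ) + (41438/1715)*t^(6:ℕ) + (57382/2401)*t^(7:ℕ) + (140732/12005)*t^(8:ℕ) + (138947/12005)*t^(9:ℕ) + (26643/12005)*t^(10:ℕ) + (26312/12005)*t^(11:ℕ) := by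
  have e : (1051/490) + (110/49)*t + (141787/12005)*t^(2:ℕ) + (141874/12005)*t^(3:ℕ) + (290814/12005)*t^(4:ℕ) + (289199/12005)*t^(5:ℕ) + (41438/1715)*t^(6:ℕ) + (57382/2401)*t^(7:ℕ) + (140732/12005)*t^(8:ℕ) + (138947/12005)*t^(9:ℕ) + (26643/12005)*t^(10:ℕ) + (26312/12005)*t^(11:ℕ) = (1051/490)*(1 - t)^(11:ℕ) + (12661/490)*(t - 0)*(1 - t)^(10:ℕ) + (3655019/24010)*(t - 0)^(2:ℕ)*(1 - t)^(9:ℕ) + (13758749/24010)*(t - 0)^(3:ℕ)*(1 - t)^(8:ℕ) + (18261473/12005)*(t - 0)^(4:ℕ)*(1 - t)^(7:ℕ) + (35763246/12005)*(t - 0)^(5:ℕ)*(1 - t)^(6:ℕ) + (52630129/12005)*(t - 0)^(6:ℕ)*(1 - t)^(5:ℕ) + (58206892/12005)*(t - 0)^(7:ℕ)*(1 - t)^(4:ℕ) + (13568349/3430)*(t - 0)^(8:ℕ)*(1 - t)^(3:ℕ) +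 (54668237/24010)*(t - 0)^(9:ℕ)*(1 - t)^(2:ℕ) + (20118829/24010)*(t - 0)^(10:ℕ)*(1 - t) + (3651967/24010)*(t - 0)^(11:ℕ) := by
    ring
  rw [e]
  have a3 : 0 ≤ t - 0 := by linarith
  have a4 : 0 ≤ 1 - t := by linarith
  generalize t - 0 = t1 at a3 ⊢
  generalize 1 - t = t2 at a4 ⊢
  positivity

lemma pos_L10_b4 (t : ℝ) (h3 : 0 ≤ t) (h4 : t ≤ 1) :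
    0 ≤ (1091/490) + (114/49)*t + (1048664/84035)*t^(2:ℕ) + (1050064/84035)*t^(3:ℕ) + (2172244/84035)*t^(4:ℕ) + (2147868/84035)*t^(5:ℕ) + (2161584/84035)*t^(6:ℕ) + (422946/16807)*t^(7:ℕ) + (206758/16807)*t^(8:ℕ) + (201578/16807)*t^(9:ℕ) + (3904/1715)*t^(10:ℕ) + (186474/84035)*t^(11:ℕ) := by
  have e : (1091/490) + (114/49)*t + (1048664/84035)*t^(2:ℕ) + (1050064/84035)*t^(3:ℕ) + (2172244/84035)*t^(4:ℕ) + (2147868/84035)*t^(5:ℕ) + (2161584/84035)*t^(6:ℕ) + (422946/16807)*t^(7:ℕ) + (206758/16807)*t^(8:ℕ) + (201578/16807)*t^(9:ℕ) + (3904/1715)*t^(10:ℕ) + (186474/84035)*t^(11:ℕ) = (1091/490)*(1 - t)^(11:ℕ) + (13141/490)*(t - 0)*(1 - t)^(10:ℕ) + (26589243/168070)*(t - 0)^(2:ℕ)*(1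 - t)^(9:ℕ) + (20063425/33614)*(t - 0)^(3:ℕ)*(1 - t)^(8:ℕ) + (26706201/16807)*(t - 0)^(4:ℕ)*(1 - t)^(7:ℕ) + (262343447/84035)*(t - 0)^(5:ℕ)*(1 - t)^(6:ℕ) + (387312887/84035)*(t - 0)^(6:ℕ)*(1 - t)^(5:ℕ) + (429607599/84035)*(t - 0)^(7:ℕ)*(1 - t)^(4:ℕ) + (140527833/33614)*(t - 0)^(8:ℕ)*(1 - t)^(3:ℕ) + (80996451/33614)*(t - 0)^(9:ℕ)*(1 - t)^(2:ℕ) + (149039923/168070)*(t - 0)^(10:ℕ)*(1 - t) + (26994441/168070)*(t - 0)^(11:ℕ) := by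
    ring
  rw [e]
  have a3 : 0 ≤ t - 0 := by linarith
  have a4 : 0 ≤ 1 - t := by linarith
  generalize t - 0 = t1 at a3 ⊢
  generalize 1 - t = t2 at a4 ⊢
  positivity

lemma pos_L10_b5 (t : ℝ) (h3 : 0 ≤ t) (h4 : t ≤ 1) :
    0 ≤ (1131/490) + (118/49)*t + (221516/16807)*t^(2:ℕ) + (666074/50421)*t^(3:ℕ) + (38958487/1411788)*t^(4:ℕ) + (390001/14406)*t^(5:ℕ) + (12884887/470596)*t^(6:ℕ) + (380245/14406)*t^(7:ℕ) + (6062341/470596)*t^(8:ℕ) + (4359604/352947)*t^(9:ℕ) + (273600/117649)*t^(10:ℕ) + (786062/352947)*t^(11:ℕ) := by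
  have e : (1131/490) + (118/49)*t + (221516/16807)*t^(2:ℕ) + (666074/50421)*t^(3:ℕ) + (38958487/1411788)*t^(4:ℕ) + (390001/14406)*t^(5:ℕ) + (12884887/470596)*t^(6:ℕ) + (380245/14406)*t^(7:ℕ) + (6062341/470596)*t^(8:ℕ) + (4359604/352947)*t^(9:ℕ) + (273600/117649)*t^(10:ℕ) + (786062/352947)*t^(11:ℕ) = (1131/490)*(1 - t)^(11:ℕ) + (13621/490)*(t - 0)*(1 - t)^(10:ℕ) + (5519775/33614)*(t - 0)^(2:ℕ)*(1 - t)^(9:ℕ) + (62627359/100842)*(t - 0)^(3:ℕ)*(1 - t)^(8:ℕ) + (2341351643/1411788)*(t - 0)^(4:ℕ)*(1 - t)^(7:ℕ) + (3296857261/1008420)*(t - 0)^(5:ℕ)*(1 - t)^(6:ℕ) + (8546596088/1764735)*(t - 0)^(6:ℕ)*(1 - t)^(5:ℕ) + (1267787975/235298)*(t - 0)^(7:ℕ)*(1 - t)^(4:ℕ) + (519567722/117649)*(t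 - 0)^(8:ℕ)*(1 - t)^(3:ℕ) + (85662929/33614)*(t - 0)^(9:ℕ)*(1 - t)^(2:ℕ) + (2205983807/2352980)*(t - 0)^(10:ℕ)*(1 - t) + (1195330061/7058940)*(t - 0)^(11:ℕ) := by
    ring
  rw [e]
  have a3 : 0 ≤ t - 0 := by linarith
  have a4 : 0 ≤ 1 - t := by linarith
  generalize t - 0 = t1 at a3 ⊢
  generalize 1 - t = t2 at a4 ⊢
  positivity

lemma pos_L10_b6 (t : ℝ) (h3 : 0 ≤ t) (h4 : t ≤ 1) :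
    0 ≤ (1171/490) + (122/49)*t + (233859/16807)*t^(2:ℕ) + (234657/16807)*t^(3:ℕ) + (6934561/235298)*t^(4:ℕ) + (23570366/823543)*t^(5:ℕ) + (48000789/1647086)*t^(6:ℕ) + (22711151/823543)*t^(7:ℕ) + (3167749/235298)*t^(8:ℕ) + (1487648/117649)*t^(9:ℕ) + (278371/117649)*t^(10:ℕ) + (260716/117649)*t^(11:ℕ) := by
  have e : (1171/490) + (122/49)*t + (233859/16807)*t^(2:ℕ) + (234657/16807)*t^(3:ℕ) + (6934561/235298)*t^(4:ℕ) + (23570366/823543)*t^(5:ℕ) + (48000789/1647086)*t^(6:ℕ) + (22711151/823543)*t^(7:ℕ) + (3167749/235298)*t^(8:ℕ) + (1487648/117649)*t^(9:ℕ) + (278371/117649)*t^(10:ℕ) + (260716/117649)*t^(11:ℕ) = (1171/490)*(1 - t)^(11:ℕ) + (14101/490)*(t - 0)*(1 - t)^(10:ℕ)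 + (5722821/33614)*(t - 0)^(2:ℕ)*(1 - t)^(9:ℕ) + (21699465/33614)*(t - 0)^(3:ℕ)*(1 - t)^(8:ℕ) + (406946047/235298)*(t - 0)^(4:ℕ)*(1 - t)^(7:ℕ) + (28178375599/8235430)*(t - 0)^(5:ℕ)*(1 - t)^(6:ℕ) + (20944167837/4117715)*(t - 0)^(6:ℕ)*(1 - t)^(5:ℕ) + (4674539553/823543)*(t - 0)^(7:ℕ)*(1 - t)^(4:ℕ) + (7680160191/1647086)*(t - 0)^(8:ℕ)*(1 - t)^(3:ℕ) + (4436368137/1647086)*(t - 0)^(9:ℕ)*(1 - t)^(2:ℕ) + (4077367751/4117715)*(t - 0)^(10:ℕ)*(1 - t) + (734014896/4117715)*(t - 0)^(11:ℕ) := by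
    ring
  rw [e]
  have a3 : 0 ≤ t - 0 := by linarith
  have a4 : 0 ≤ 1 - t := by linarith
  generalize t - 0 = t1 at a3 ⊢
  generalize 1 - t = t2 at a4 ⊢
  positivity

lemma pos_L10_b7 (t : ℝ) (h3 : 0 ≤ t) (h4 : t ≤ 1) :
    0 ≤ (173/70) + (18/7)*t + (35253/2401)*t^(2:ℕ) + (35414/2401)*t^(3:ℕ) + (103729015/3294172)*t^(4:ℕ) + (49734597/1647086)*t^(5:ℕ) + (102186989/3294172)*t^(6:ℕ) + (47271171/1647086)*t^(7:ℕ) + (46255935/3294172)*t^(8:ℕ) + (216283/16807)*t^(9:ℕ) + (40279/16807)*t^(10:ℕ) + (36740/16807)*t^(11:ℕ) := by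
  have e : (173/70) + (18/7)*t + (35253/2401)*t^(2:ℕ) + (35414/2401)*t^(3:ℕ) + (103729015/3294172)*t^(4:ℕ) + (49734597/1647086)*t^(5:ℕ) + (102186989/3294172)*t^(6:ℕ) + (47271171/1647086)*t^(7:ℕ) + (46255935/3294172)*t^(8:ℕ) + (216283/16807)*t^(9:ℕ) + (40279/16807)*t^(10:ℕ) + (36740/16807)*t^(11:ℕ) = (173/70)*(1 - t)^(11:ℕ) + (2083/70)*(t - 0)*(1 - t)^(10:ℕ) + (846715/4802)*(t - 0)^(2:ℕ)*(1 - t)^(9:ℕ) + (3219229/4802)*(t - 0)^(3:ℕ)*(1 - t)^(8:ℕ) + (5936769179/3294172)*(t - 0)^(4:ℕ)*(1 - t)^(7:ℕ) + (58945063683/16470860)*(t - 0)^(5:ℕ)*(1 - t)^(6:ℕ) + (21985506972/4117715)*(t - 0)^(6:ℕ)*(1 - t)^(5:ℕ) + (9844466671/1647086)*(t - 0)^(7:ℕ)*(1 - t)^(4:ℕ) + (4052441108/823543)*(t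 - 0)^(8:ℕ)*(1 - t)^(3:ℕ) + (669376121/235298)*(t - 0)^(9:ℕ)*(1 - t)^(2:ℕ) + (17208689069/16470860)*(t - 0)^(10:ℕ)*(1 - t) + (3086189149/16470860)*(t - 0)^(11:ℕ) := by
    ring
  rw [e]
  have a3 : 0 ≤ t - 0 := by linarith
  have a4 : 0 ≤ 1 - t := by linarith
  generalize t - 0 = t1 at a3 ⊢
  generalize 1 - t = t2 at a4 ⊢
  positivity

lemma pos_L10_id (d : ℝ) (C0 C1 C2 C3 C4 C5 C6 C7 : ℝ) :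
    C0 + d*C1 + d^(2:ℕ)*C2 + d^(3:ℕ)*C3 + d^(4:ℕ)*C4 + d^(5:ℕ)*C5 + d^(6:ℕ)*C6 + d^(7:ℕ)*C7 = (1/10) + (823543*((1/7)-d)^(7:ℕ)*(1*C0 - (1/10)) + 5764801*d*((1/7)-d)^(6:ℕ)*(1*C0 + (1/49)*C1 - (1/10)) + 17294403*d^(2:ℕ)*((1/7)-d)^(5:ℕ)*(1*C0 + (2/49)*C1 + (1/1029)*C2 - (1/10)) + 28824005*d^(3:ℕ)*((1/7)-d)^(4:ℕ)*(1*C0 + (3/49)*C1 + (1/343)*C2 + (1/12005)*C3 - (1/10)) + 28824005*d^(4:ℕ)*((1/7)-d)^(3:ℕ)*(1*C0 + (4/49)*C1 + (2/343)*C2 + (4/12005)*C3 + (1/84035)*C4 - (1/10)) + 17294403*d^(5:ℕ)*((1/7)-d)^(2:ℕ)*(1*C0 + (5/49)*C1 + (10/1029)*C2 + (2/2401)*C3 + (1/16807)*C4 + (1/352947)*C5 - (1/10)) + 5764801*d^(6:ℕ)*((1/7)-d)*(1*C0 + (6/49)*C1 + (5/343)*C2 + (4/2401)*C3 + (3/16807)*C4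 + (2/117649)*C5 + (1/823543)*C6 - (1/10)) + 823543*d^(7:ℕ)*(1*C0 + (1/7)*C1 + (1/49)*C2 + (1/343)*C3 + (1/2401)*C4 + (1/16807)*C5 + (1/117649)*C6 + (1/823543)*C7 - (1/10))) := by
  ring

lemma pos_L10 (d t : ℝ) (h1 : 0 ≤ d) (h2 : d ≤ (1/7)) (h3 : 0 ≤ t) (h4 : t ≤ 1) :
    0 < 2 + 2*t + 10*t^(2:ℕ) + 10*t^(3:ℕ) + 20*t^(4:ℕ) + 20*t^(5:ℕ) + 20*t^(6:ℕ) + 20*t^(7:ℕ) + 10*t^(8:ℕ) + 10*t^(9:ℕ) + 2*t^(10:ℕ) + 2*t^(11:ℕ) + 4*d + 4*d*t + 28*d*t^(2:ℕ) + 28*d*t^(3:ℕ) + 64*d*t^(4:ℕ) + 64*d*t^(5:ℕ) + 64*d*t^(6:ℕ) + 64*d*t^(7:ℕ) + 28*d*t^(8:ℕ) + 28*d*t^(9:ℕ) + 4*d*t^(10:ℕ) + 4*d*t^(11:ℕ) + 33*d^(2:ℕ)*t^(2:ℕ) + 35*d^(2:ℕ)*t^(3:ℕ) + 103*d^(2:ℕ)*t^(4:ℕ) + 60*d^(2:ℕ)*t^(5:ℕ) + 82*d^(2:ℕ)*t^(6:ℕ)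 + (-3)*d^(2:ℕ)*t^(7:ℕ) + 3*d^(2:ℕ)*t^(8:ℕ) + (-46)*d^(2:ℕ)*t^(9:ℕ) + (-9)*d^(2:ℕ)*t^(10:ℕ) + (-18)*d^(2:ℕ)*t^(11:ℕ) + 2*d^(3:ℕ)*t^(2:ℕ) + 19*d^(3:ℕ)*t^(3:ℕ) + 69*d^(3:ℕ)*t^(4:ℕ) + (-41)*d^(3:ℕ)*t^(5:ℕ) + 56*d^(3:ℕ)*t^(6:ℕ) + (-125)*d^(3:ℕ)*t^(7:ℕ) + (-3)*d^(3:ℕ)*t^(8:ℕ) + (-73)*d^(3:ℕ)*t^(9:ℕ) + 8*d^(3:ℕ)*t^(10:ℕ) + (-8)*d^(3:ℕ)*t^(11:ℕ) + 8*d^(4:ℕ)*t^(2:ℕ) + (-48)*d^(4:ℕ)*t^(3:ℕ) + 102*d^(4:ℕ)*t^(4:ℕ) + (-124)*d^(4:ℕ)*t^(5:ℕ) + 96*d^(4:ℕ)*t^(6:ℕ) + (-40)*d^(4:ℕ)*t^(7:ℕ) + (-26)*d^(4:ℕ)*t^(8:ℕ) + 44*d^(4:ℕ)*t^(9:ℕ) + (-28)*d^(4:ℕ)*t^(10:ℕ) + 8*d^(4:ℕ)*t^(11:ℕ) + (15/4)*d^(5:ℕ)*t^(4:ℕ) + (-35/2)*d^(5:ℕ)*t^(5:ℕ) + (101/4)*d^(5:ℕ)*t^(6:ℕ) + (-35/2)*d^(5:ℕ)*t^(7:ℕ) + (15/4)*d^(5:ℕ)*t^(8:ℕ)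 + 32*d^(5:ℕ)*t^(9:ℕ) + (-48)*d^(5:ℕ)*t^(10:ℕ) + 32*d^(5:ℕ)*t^(11:ℕ) + (-14)*d^(6:ℕ)*t^(4:ℕ) + 43*d^(6:ℕ)*t^(5:ℕ) + (-61)*d^(6:ℕ)*t^(6:ℕ) + 43*d^(6:ℕ)*t^(7:ℕ) + (-14)*d^(6:ℕ)*t^(8:ℕ) + (-4)*d^(7:ℕ)*t^(4:ℕ) + 12*d^(7:ℕ)*t^(5:ℕ) + (-17)*d^(7:ℕ)*t^(6:ℕ) + 12*d^(7:ℕ)*t^(7:ℕ) + (-4)*d^(7:ℕ)*t^(8:ℕ) := by
  have e0 : 2 + 2*t + 10*t^(2:ℕ) + 10*t^(3:ℕ) + 20*t^(4:ℕ) + 20*t^(5:ℕ) + 20*t^(6:ℕ) + 20*t^(7:ℕ) + 10*t^(8:ℕ) + 10*t^(9:ℕ) + 2*t^(10:ℕ) + 2*t^(11:ℕ) + 4*d + 4*d*t + 28*d*t^(2:ℕ) + 28*d*t^(3:ℕ) + 64*d*t^(4:ℕ) + 64*d*t^(5:ℕ) + 64*d*t^(6:ℕ) + 64*d*t^(7:ℕ) + 28*d*t^(8:ℕ) + 28*d*t^(9:ℕ) + 4*d*t^(10:ℕ) + 4*d*t^(11:ℕ) + 33*d^(2:ℕ)*t^(2:ℕ) + 35*d^(2:ℕ)*t^(3:ℕ) + 103*d^(2:ℕ)*t^(4:ℕ)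 + 60*d^(2:ℕ)*t^(5:ℕ) + 82*d^(2:ℕ)*t^(6:ℕ) + (-3)*d^(2:ℕ)*t^(7:ℕ) + 3*d^(2:ℕ)*t^(8:ℕ) + (-46)*d^(2:ℕ)*t^(9:ℕ) + (-9)*d^(2:ℕ)*t^(10:ℕ) + (-18)*d^(2:ℕ)*t^(11:ℕ) + 2*d^(3:ℕ)*t^(2:ℕ) + 19*d^(3:ℕ)*t^(3:ℕ) + 69*d^(3:ℕ)*t^(4:ℕ) + (-41)*d^(3:ℕ)*t^(5:ℕ) + 56*d^(3:ℕ)*t^(6:ℕ) + (-125)*d^(3:ℕ)*t^(7:ℕ) + (-3)*d^(3:ℕ)*t^(8:ℕ) + (-73)*d^(3:ℕ)*t^(9:ℕ) + 8*d^(3:ℕ)*t^(10:ℕ) + (-8)*d^(3:ℕ)*t^(11:ℕ) + 8*d^(4:ℕ)*t^(2:ℕ) + (-48)*d^(4:ℕ)*t^(3:ℕ) + 102*d^(4:ℕ)*t^(4:ℕ) + (-124)*d^(4:ℕ)*t^(5:ℕ) + 96*d^(4:ℕ)*t^(6:ℕ) + (-40)*d^(4:ℕ)*t^(7:ℕ) + (-26)*d^(4:ℕ)*t^(8:ℕ) + 44*d^(4:ℕ)*t^(9:ℕ) + (-28)*d^(4:ℕ)*t^(10:ℕ) + 8*d^(4:ℕ)*t^(11:ℕ) + (15/4)*d^(5:ℕ)*t^(4:ℕ) + (-35/2)*d^(5:ℕ)*t^(5:ℕ) + (101/4)*d^(5:ℕ)*t^(6:ℕ)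 + (-35/2)*d^(5:ℕ)*t^(7:ℕ) + (15/4)*d^(5:ℕ)*t^(8:ℕ) + 32*d^(5:ℕ)*t^(9:ℕ) + (-48)*d^(5:ℕ)*t^(10:ℕ) + 32*d^(5:ℕ)*t^(11:ℕ) + (-14)*d^(6:ℕ)*t^(4:ℕ) + 43*d^(6:ℕ)*t^(5:ℕ) + (-61)*d^(6:ℕ)*t^(6:ℕ) + 43*d^(6:ℕ)*t^(7:ℕ) + (-14)*d^(6:ℕ)*t^(8:ℕ) + (-4)*d^(7:ℕ)*t^(4:ℕ) + 12*d^(7:ℕ)*t^(5:ℕ) + (-17)*d^(7:ℕ)*t^(6:ℕ) + 12*d^(7:ℕ)*t^(7:ℕ) + (-4)*d^(7:ℕ)*t^(8:ℕ) = (2 + 2*t + 10*t^(2:ℕ) + 10*t^(3:ℕ) + 20*t^(4:ℕ) + 20*t^(5:ℕ) + 20*t^(6:ℕ) + 20*t^(7:ℕ) + 10*t^(8:ℕ) + 10*t^(9:ℕ) + 2*t^(10:ℕ) + 2*t^(11:ℕ)) + d*(4 + 4*t + 28*t^(2:ℕ) + 28*t^(3:ℕ) + 64*t^(4:ℕ) + 64*t^(5:ℕ) + 64*t^(6:ℕ) + 64*t^(7:ℕ) + 28*t^(8:ℕ) + 28*t^(9:ℕ) + 4*t^(10:ℕ) + 4*t^(11:ℕ)) + d^(2:ℕ)*(33*t^(2:ℕ) + 35*t^(3:ℕ) + 103*t^(4:ℕ)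 + 60*t^(5:ℕ) + 82*t^(6:ℕ) + (-3)*t^(7:ℕ) + 3*t^(8:ℕ) + (-46)*t^(9:ℕ) + (-9)*t^(10:ℕ) + (-18)*t^(11:ℕ)) + d^(3:ℕ)*(2*t^(2:ℕ) + 19*t^(3:ℕ) + 69*t^(4:ℕ) + (-41)*t^(5:ℕ) + 56*t^(6:ℕ) + (-125)*t^(7:ℕ) + (-3)*t^(8:ℕ) + (-73)*t^(9:ℕ) + 8*t^(10:ℕ) + (-8)*t^(11:ℕ)) + d^(4:ℕ)*(8*t^(2:ℕ) + (-48)*t^(3:ℕ) + 102*t^(4:ℕ) + (-124)*t^(5:ℕ) + 96*t^(6:ℕ) + (-40)*t^(7:ℕ) + (-26)*t^(8:ℕ) + 44*t^(9:ℕ) + (-28)*t^(10:ℕ) + 8*t^(11:ℕ)) + d^(5:ℕ)*((15/4)*t^(4:ℕ) + (-35/2)*t^(5:ℕ) + (101/4)*t^(6:ℕ) + (-35/2)*t^(7:ℕ) + (15/4)*t^(8:ℕ) + 32*t^(9:ℕ) + (-48)*t^(10:ℕ) + 32*t^(11:ℕ)) + d^(6:ℕ)*((-14)*t^(4:ℕ) + 43*t^(5:ℕ) + (-61)*t^(6:ℕ) + 43*t^(7:ℕ) + (-14)*t^(8:ℕ)) + d^(7:ℕ)*((-4)*t^(4:ℕ) + 12*t^(5:ℕ)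 + (-17)*t^(6:ℕ) + 12*t^(7:ℕ) + (-4)*t^(8:ℕ)) := by
    ring
  rw [e0, pos_L10_id]
  have a2 : 0 ≤ (1/7) - d := by linarith
  have b0 : 0 ≤ 1*(2 + 2*t + 10*t^(2:ℕ) + 10*t^(3:ℕ) + 20*t^(4:ℕ) + 20*t^(5:ℕ) + 20*t^(6:ℕ) + 20*t^(7:ℕ) + 10*t^(8:ℕ) + 10*t^(9:ℕ) + 2*t^(10:ℕ) + 2*t^(11:ℕ)) - (1/10) := by
    have h := pos_L10_b0 t h3 h4
    have e : 1*(2 + 2*t + 10*t^(2:ℕ) + 10*t^(3:ℕ) + 20*t^(4:ℕ) + 20*t^(5:ℕ) + 20*t^(6:ℕ) + 20*t^(7:ℕ) + 10*t^(8:ℕ) + 10*t^(9:ℕ) + 2*t^(10:ℕ) + 2*t^(11:ℕ)) - (1/10) = (19/10) + 2*t + 10*t^(2:ℕ) + 10*t^(3:ℕ) + 20*t^(4:ℕ) + 20*t^(5:ℕ) + 20*t^(6:ℕ) + 20*t^(7:ℕ) + 10*t^(8:ℕ) + 10*t^(9:ℕ) + 2*t^(10:ℕ) + 2*t^(11:ℕ) := by ring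
    rw [e]; exact h
  have b1 : 0 ≤ 1*(2 + 2*t + 10*t^(2:ℕ) + 10*t^(3:ℕ) + 20*t^(4:ℕ) + 20*t^(5:ℕ) + 20*t^(6:ℕ) + 20*t^(7:ℕ) + 10*t^(8:ℕ) + 10*t^(9:ℕ) + 2*t^(10:ℕ) + 2*t^(11:ℕ)) + (1/49)*(4 + 4*t + 28*t^(2:ℕ) + 28*t^(3:ℕ) + 64*t^(4:ℕ) + 64*t^(5:ℕ) + 64*t^(6:ℕ) + 64*t^(7:ℕ) + 28*t^(8:ℕ) + 28*t^(9:ℕ) + 4*t^(10:ℕ) + 4*t^(11:ℕ)) - (1/10) := by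
    have h := pos_L10_b1 t h3 h4
    have e : 1*(2 + 2*t + 10*t^(2:ℕ) + 10*t^(3:ℕ) + 20*t^(4:ℕ) + 20*t^(5:ℕ) + 20*t^(6:ℕ) + 20*t^(7:ℕ) + 10*t^(8:ℕ) + 10*t^(9:ℕ) + 2*t^(10:ℕ) + 2*t^(11:ℕ)) + (1/49)*(4 + 4*t + 28*t^(2:ℕ) + 28*t^(3:ℕ) + 64*t^(4:ℕ) + 64*t^(5:ℕ) + 64*t^(6:ℕ) + 64*t^(7:ℕ) + 28*t^(8:ℕ) + 28*t^(9:ℕ) + 4*t^(10:ℕ) + 4*t^(11:ℕ)) - (1/10) = (971/490) + (102/49)*t + (74/7)*t^(2:ℕ) + (74/7)*t^(3:ℕ) + (1044/49)*t^(4:ℕ) + (1044/49)*t^(5:ℕ) + (1044/49)*t^(6:ℕ) + (1044/49)*t^(7:ℕ) + (74/7)*t^(8:ℕ) + (74/7)*t^(9:ℕ) + (102/49)*t^(10:ℕ) + (102/49)*t^(11:ℕ) := by ring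
    rw [e]; exact h
  have b2 : 0 ≤ 1*(2 + 2*t + 10*t^(2:ℕ) + 10*t^(3:ℕ) + 20*t^(4:ℕ) + 20*t^(5:ℕ) + 20*t^(6:ℕ) + 20*t^(7:ℕ) + 10*t^(8:ℕ) + 10*t^(9:ℕ) + 2*t^(10:ℕ) + 2*t^(11:ℕ)) + (2/49)*(4 + 4*t + 28*t^(2:ℕ) + 28*t^(3:ℕ) + 64*t^(4:ℕ) + 64*t^(5:ℕ) + 64*t^(6:ℕ) + 64*t^(7:ℕ) + 28*t^(8:ℕ) + 28*t^(9:ℕ) + 4*t^(10:ℕ) + 4*t^(11:ℕ)) + (1/1029)*(33*t^(2:ℕ) + 35*t^(3:ℕ) + 103*t^(4:ℕ) + 60*t^(5:ℕ) + 82*t^(6:ℕ) + (-3)*t^(7:ℕ) + 3*t^(8:ℕ) + (-46)*t^(9:ℕ) + (-9)*t^(10:ℕ) + (-18)*t^(11:ℕ)) - (1/10) := by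
    have h := pos_L10_b2 t h3 h4
    have e : 1*(2 + 2*t + 10*t^(2:ℕ) + 10*t^(3:ℕ) + 20*t^(4:ℕ) + 20*t^(5:ℕ) + 20*t^(6:ℕ) + 20*t^(7:ℕ) + 10*t^(8:ℕ) + 10*t^(9:ℕ) + 2*t^(10:ℕ) + 2*t^(11:ℕ)) + (2/49)*(4 + 4*t + 28*t^(2:ℕ) + 28*t^(3:ℕ) + 64*t^(4:ℕ) + 64*t^(5:ℕ) + 64*t^(6:ℕ) + 64*t^(7:ℕ) + 28*t^(8:ℕ) + 28*t^(9:ℕ) + 4*t^(10:ℕ) + 4*t^(11:ℕ)) + (1/1029)*(33*t^(2:ℕ) + 35*t^(3:ℕ) + 103*t^(4:ℕ) + 60*t^(5:ℕ) + 82*t^(6:ℕ) + (-3)*t^(7:ℕ) + 3*t^(8:ℕ) + (-46)*t^(9:ℕ) + (-9)*t^(10:ℕ) + (-18)*t^(11:ℕ)) - (1/10) = (1011/490) + (106/49)*t + (3833/343)*t^(2:ℕ) + (1643/147)*t^(3:ℕ) + (23371/1029)*t^(4:ℕ) + (7776/343)*t^(5:ℕ) + (23350/1029)*t^(6:ℕ) + (7755/343)*t^(7:ℕ) + (3823/343)*t^(8:ℕ)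 + (11420/1029)*t^(9:ℕ) + (739/343)*t^(10:ℕ) + (736/343)*t^(11:ℕ) := by ring
    rw [e]; exact h
  have b3 : 0 ≤ 1*(2 + 2*t + 10*t^(2:ℕ) + 10*t^(3:ℕ) + 20*t^(4:ℕ) + 20*t^(5:ℕ) + 20*t^(6:ℕ) + 20*t^(7:ℕ) + 10*t^(8:ℕ) + 10*t^(9:ℕ) + 2*t^(10:ℕ) + 2*t^(11:ℕ)) + (3/49)*(4 + 4*t + 28*t^(2:ℕ) + 28*t^(3:ℕ) + 64*t^(4:ℕ) + 64*t^(5:ℕ) + 64*t^(6:ℕ) + 64*t^(7:ℕ) + 28*t^(8:ℕ) + 28*t^(9:ℕ) + 4*t^(10:ℕ) + 4*t^(11:ℕ)) + (1/343)*(33*t^(2:ℕ) + 35*t^(3:ℕ) + 103*t^(4:ℕ) + 60*t^(5:ℕ) + 82*t^(6:ℕ) + (-3)*t^(7:ℕ) + 3*t^(8:ℕ) + (-46)*t^(9:ℕ) + (-9)*t^(10:ℕ) + (-18)*t^(11:ℕ)) + (1/12005)*(2*t^(2:ℕ) + 19*t^(3:ℕ) + 69*t^(4:ℕ) + (-41)*t^(5:ℕ) + 56*t^(6:ℕ) + (-125)*t^(7:ℕ) + (-3)*t^(8:ℕ) + (-73)*t^(9:ℕ)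 + 8*t^(10:ℕ) + (-8)*t^(11:ℕ)) - (1/10) := by
    have h := pos_L10_b3 t h3 h4
    have e : 1*(2 + 2*t + 10*t^(2:ℕ) + 10*t^(3:ℕ) + 20*t^(4:ℕ) + 20*t^(5:ℕ) + 20*t^(6:ℕ) + 20*t^(7:ℕ) + 10*t^(8:ℕ) + 10*t^(9:ℕ) + 2*t^(10:ℕ) + 2*t^(11:ℕ)) + (3/49)*(4 + 4*t + 28*t^(2:ℕ) + 28*t^(3:ℕ) + 64*t^(4:ℕ) + 64*t^(5:ℕ) + 64*t^(6:ℕ) + 64*t^(7:ℕ) + 28*t^(8:ℕ) + 28*t^(9:ℕ) + 4*t^(10:ℕ) + 4*t^(11:ℕ)) + (1/343)*(33*t^(2:ℕ) + 35*t^(3:ℕ) + 103*t^(4:ℕ) + 60*t^(5:ℕ) + 82*t^(6:ℕ) + (-3)*t^(7:ℕ) + 3*t^(8:ℕ) + (-46)*t^(9:ℕ) + (-9)*t^(10:ℕ) + (-18)*t^(11:ℕ)) + (1/12005)*(2*t^(2:ℕ) + 19*t^(3:ℕ) + 69*t^(4:ℕ) + (-41)*t^(5:ℕ) + 56*t^(6:ℕ) + (-125)*t^(7:ℕ) + (-3)*t^(8:ℕ) + (-73)*t^(9:ℕ) + 8*t^(10:ℕ) +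 (-8)*t^(11:ℕ)) - (1/10) = (1051/490) + (110/49)*t + (141787/12005)*t^(2:ℕ) + (141874/12005)*t^(3:ℕ) + (290814/12005)*t^(4:ℕ) + (289199/12005)*t^(5:ℕ) + (41438/1715)*t^(6:ℕ) + (57382/2401)*t^(7:ℕ) + (140732/12005)*t^(8:ℕ) + (138947/12005)*t^(9:ℕ) + (26643/12005)*t^(10:ℕ) + (26312/12005)*t^(11:ℕ) := by ring
    rw [e]; exact h
  have b4 : 0 ≤ 1*(2 + 2*t + 10*t^(2:ℕ) + 10*t^(3:ℕ) + 20*t^(4:ℕ) + 20*t^(5:ℕ) + 20*t^(6:ℕ) + 20*t^(7:ℕ) + 10*t^(8:ℕ) + 10*t^(9:ℕ) + 2*t^(10:ℕ) + 2*t^(11:ℕ)) + (4/49)*(4 + 4*t + 28*t^(2:ℕ) + 28*t^(3:ℕ) + 64*t^(4:ℕ) + 64*t^(5:ℕ) + 64*t^(6:ℕ) + 64*t^(7:ℕ) + 28*t^(8:ℕ) + 28*t^(9:ℕ) + 4*t^(10:ℕ) + 4*t^(11:ℕ)) + (2/343)*(33*t^(2:ℕ) + 35*t^(3:ℕ) + 103*t^(4:ℕ)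 + 60*t^(5:ℕ) + 82*t^(6:ℕ) + (-3)*t^(7:ℕ) + 3*t^(8:ℕ) + (-46)*t^(9:ℕ) + (-9)*t^(10:ℕ) + (-18)*t^(11:ℕ)) + (4/12005)*(2*t^(2:ℕ) + 19*t^(3:ℕ) + 69*t^(4:ℕ) + (-41)*t^(5:ℕ) + 56*t^(6:ℕ) + (-125)*t^(7:ℕ) + (-3)*t^(8:ℕ) + (-73)*t^(9:ℕ) + 8*t^(10:ℕ) + (-8)*t^(11:ℕ)) + (1/84035)*(8*t^(2:ℕ) + (-48)*t^(3:ℕ) + 102*t^(4:ℕ) + (-124)*t^(5:ℕ) + 96*t^(6:ℕ) + (-40)*t^(7:ℕ) + (-26)*t^(8:ℕ) + 44*t^(9:ℕ) + (-28)*t^(10:ℕ) + 8*t^(11:ℕ)) - (1/10) := by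
    have h := pos_L10_b4 t h3 h4
    have e : 1*(2 + 2*t + 10*t^(2:ℕ) + 10*t^(3:ℕ) + 20*t^(4:ℕ) + 20*t^(5:ℕ) + 20*t^(6:ℕ) + 20*t^(7:ℕ) + 10*t^(8:ℕ) + 10*t^(9:ℕ) + 2*t^(10:ℕ) + 2*t^(11:ℕ)) + (4/49)*(4 + 4*t + 28*t^(2:ℕ) + 28*t^(3:ℕ) + 64*t^(4:ℕ) + 64*t^(5:ℕ) + 64*t^(6:ℕ) + 64*t^(7:ℕ) + 28*t^(8:ℕ) + 28*t^(9:ℕ) + 4*t^(10:ℕ) + 4*t^(11:ℕ)) + (2/343)*(33*t^(2:ℕ) + 35*t^(3:ℕ) + 103*t^(4:ℕ) + 60*t^(5:ℕ) + 82*t^(6:ℕ) + (-3)*t^(7:ℕ) + 3*t^(8:ℕ) + (-46)*t^(9:ℕ) + (-9)*t^(10:ℕ) + (-18)*t^(11:ℕ)) + (4/12005)*(2*t^(2:ℕ) + 19*t^(3:ℕ) + 69*t^(4:ℕ) + (-41)*t^(5:ℕ) + 56*t^(6:ℕ) + (-125)*t^(7:ℕ) + (-3)*t^(8:ℕ) + (-73)*t^(9:ℕ) + 8*t^(10:ℕ) + (-8)*t^(11:ℕ)) + (1/84035)*(8*t^(2:ℕ) + (-48)*t^(3:ℕ)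 + 102*t^(4:ℕ) + (-124)*t^(5:ℕ) + 96*t^(6:ℕ) + (-40)*t^(7:ℕ) + (-26)*t^(8:ℕ) + 44*t^(9:ℕ) + (-28)*t^(10:ℕ) + 8*t^(11:ℕ)) - (1/10) = (1091/490) + (114/49)*t + (1048664/84035)*t^(2:ℕ) + (1050064/84035)*t^(3:ℕ) + (2172244/84035)*t^(4:ℕ) + (2147868/84035)*t^(5:ℕ) + (2161584/84035)*t^(6:ℕ) + (422946/16807)*t^(7:ℕ) + (206758/16807)*t^(8:ℕ) + (201578/16807)*t^(9:ℕ) + (3904/1715)*t^(10:ℕ) + (186474/84035)*t^(11:ℕ) := by ring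
    rw [e]; exact h
  have b5 : 0 ≤ 1*(2 + 2*t + 10*t^(2:ℕ) + 10*t^(3:ℕ) + 20*t^(4:ℕ) + 20*t^(5:ℕ) + 20*t^(6:ℕ) + 20*t^(7:ℕ) + 10*t^(8:ℕ) + 10*t^(9:ℕ) + 2*t^(10:ℕ) + 2*t^(11:ℕ)) + (5/49)*(4 + 4*t + 28*t^(2:ℕ) + 28*t^(3:ℕ) + 64*t^(4:ℕ) + 64*t^(5:ℕ) + 64*t^(6:ℕ) + 64*t^(7:ℕ) + 28*t^(8:ℕ) + 28*t^(9:ℕ) + 4*t^(10:ℕ) + 4*t^(11:ℕ)) + (10/1029)*(33*t^(2:ℕ) + 35*t^(3:ℕ) + 103*t^(4:ℕ) + 60*t^(5:ℕ) + 82*t^(6:ℕ) + (-3)*t^(7:ℕ) + 3*t^(8:ℕ) + (-46)*t^(9:ℕ) + (-9)*t^(10:ℕ) + (-18)*t^(11:ℕ)) + (2/2401)*(2*t^(2:ℕ) + 19*t^(3:ℕ) + 69*t^(4:ℕ) + (-41)*t^(5:ℕ) + 56*t^(6:ℕ) + (-125)*t^(7:ℕ) + (-3)*t^(8:ℕ) + (-73)*t^(9:ℕ) + 8*t^(10:ℕ) + (-8)*t^(11:ℕ)) + (1/16807)*(8*t^(2:ℕ) + (-48)*t^(3:ℕ)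 + 102*t^(4:ℕ) + (-124)*t^(5:ℕ) + 96*t^(6:ℕ) + (-40)*t^(7:ℕ) + (-26)*t^(8:ℕ) + 44*t^(9:ℕ) + (-28)*t^(10:ℕ) + 8*t^(11:ℕ)) + (1/352947)*((15/4)*t^(4:ℕ) + (-35/2)*t^(5:ℕ) + (101/4)*t^(6:ℕ) + (-35/2)*t^(7:ℕ) + (15/4)*t^(8:ℕ) + 32*t^(9:ℕ) + (-48)*t^(10:ℕ) + 32*t^(11:ℕ)) - (1/10) := by
    have h := pos_L10_b5 t h3 h4
    have e : 1*(2 + 2*t + 10*t^(2:ℕ) + 10*t^(3:ℕ) + 20*t^(4:ℕ) + 20*t^(5:ℕ) + 20*t^(6:ℕ) + 20*t^(7:ℕ) + 10*t^(8:ℕ) + 10*t^(9:ℕ) + 2*t^(10:ℕ) + 2*t^(11:ℕ)) + (5/49)*(4 + 4*t + 28*t^(2:ℕ) + 28*t^(3:ℕ) + 64*t^(4:ℕ) + 64*t^(5:ℕ) + 64*t^(6:ℕ) + 64*t^(7:ℕ) + 28*t^(8:ℕ) + 28*t^(9:ℕ) + 4*t^(10:ℕ) + 4*t^(11:ℕ)) + (10/1029)*(33*t^(2:ℕ) + 35*t^(3:ℕ) + 103*t^(4:ℕ) + 60*t^(5:ℕ)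 + 82*t^(6:ℕ) + (-3)*t^(7:ℕ) + 3*t^(8:ℕ) + (-46)*t^(9:ℕ) + (-9)*t^(10:ℕ) + (-18)*t^(11:ℕ)) + (2/2401)*(2*t^(2:ℕ) + 19*t^(3:ℕ) + 69*t^(4:ℕ) + (-41)*t^(5:ℕ) + 56*t^(6:ℕ) + (-125)*t^(7:ℕ) + (-3)*t^(8:ℕ) + (-73)*t^(9:ℕ) + 8*t^(10:ℕ) + (-8)*t^(11:ℕ)) + (1/16807)*(8*t^(2:ℕ) + (-48)*t^(3:ℕ) + 102*t^(4:ℕ) + (-124)*t^(5:ℕ) + 96*t^(6:ℕ) + (-40)*t^(7:ℕ) + (-26)*t^(8:ℕ) + 44*t^(9:ℕ) + (-28)*t^(10:ℕ) + 8*t^(11:ℕ)) + (1/352947)*((15/4)*t^(4:ℕ) + (-35/2)*t^(5:ℕ) + (101/4)*t^(6:ℕ) + (-35/2)*t^(7:ℕ) + (15/4)*t^(8:ℕ) + 32*t^(9:ℕ) + (-48)*t^(10:ℕ) + 32*t^(11:ℕ)) - (1/10) = (1131/490) + (118/49)*t + (221516/16807)*t^(2:ℕ) + (666074/50421)*t^(3:ℕ) + (38958487/1411788)*t^(4:ℕ) + (390001/14406)*t^(5:ℕ)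 + (12884887/470596)*t^(6:ℕ) + (380245/14406)*t^(7:ℕ) + (6062341/470596)*t^(8:ℕ) + (4359604/352947)*t^(9:ℕ) + (273600/117649)*t^(10:ℕ) + (786062/352947)*t^(11:ℕ) := by ring
    rw [e]; exact h
  have b6 : 0 ≤ 1*(2 + 2*t + 10*t^(2:ℕ) + 10*t^(3:ℕ) + 20*t^(4:ℕ) + 20*t^(5:ℕ) + 20*t^(6:ℕ) + 20*t^(7:ℕ) + 10*t^(8:ℕ) + 10*t^(9:ℕ) + 2*t^(10:ℕ) + 2*t^(11:ℕ)) + (6/49)*(4 + 4*t + 28*t^(2:ℕ) + 28*t^(3:ℕ) + 64*t^(4:ℕ) + 64*t^(5:ℕ) + 64*t^(6:ℕ) + 64*t^(7:ℕ) + 28*t^(8:ℕ) + 28*t^(9:ℕ) + 4*t^(10:ℕ) + 4*t^(11:ℕ)) + (5/343)*(33*t^(2:ℕ) + 35*t^(3:ℕ) + 103*t^(4:ℕ) + 60*t^(5:ℕ) + 82*t^(6:ℕ) + (-3)*t^(7:ℕ) + 3*t^(8:ℕ) + (-46)*t^(9:ℕ) + (-9)*t^(10:ℕ) + (-18)*t^(11:ℕ)) + (4/2401)*(2*t^(2:ℕ) +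 19*t^(3:ℕ) + 69*t^(4:ℕ) + (-41)*t^(5:ℕ) + 56*t^(6:ℕ) + (-125)*t^(7:ℕ) + (-3)*t^(8:ℕ) + (-73)*t^(9:ℕ) + 8*t^(10:ℕ) + (-8)*t^(11:ℕ)) + (3/16807)*(8*t^(2:ℕ) + (-48)*t^(3:ℕ) + 102*t^(4:ℕ) + (-124)*t^(5:ℕ) + 96*t^(6:ℕ) + (-40)*t^(7:ℕ) + (-26)*t^(8:ℕ) + 44*t^(9:ℕ) + (-28)*t^(10:ℕ) + 8*t^(11:ℕ)) + (2/117649)*((15/4)*t^(4:ℕ) + (-35/2)*t^(5:ℕ) + (101/4)*t^(6:ℕ) + (-35/2)*t^(7:ℕ) + (15/4)*t^(8:ℕ) + 32*t^(9:ℕ) + (-48)*t^(10:ℕ) + 32*t^(11:ℕ)) + (1/823543)*((-14)*t^(4:ℕ) + 43*t^(5:ℕ) + (-61)*t^(6:ℕ) + 43*t^(7:ℕ) + (-14)*t^(8:ℕ)) - (1/10) := by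
    have h := pos_L10_b6 t h3 h4
    have e : 1*(2 + 2*t + 10*t^(2:ℕ) + 10*t^(3:ℕ) + 20*t^(4:ℕ) + 20*t^(5:ℕ) + 20*t^(6:ℕ) + 20*t^(7:ℕ) + 10*t^(8:ℕ) + 10*t^(9:ℕ) + 2*t^(10:ℕ) + 2*t^(11:ℕ)) + (6/49)*(4 + 4*t + 28*t^(2:ℕ) + 28*t^(3:ℕ) + 64*t^(4:ℕ) + 64*t^(5:ℕ) + 64*t^(6:ℕ) + 64*t^(7:ℕ) + 28*t^(8:ℕ) + 28*t^(9:ℕ) + 4*t^(10:ℕ) + 4*t^(11:ℕ)) + (5/343)*(33*t^(2:ℕ) + 35*t^(3:ℕ) + 103*t^(4:ℕ) + 60*t^(5:ℕ) + 82*t^(6:ℕ) + (-3)*t^(7:ℕ) + 3*t^(8:ℕ) + (-46)*t^(9:ℕ) + (-9)*t^(10:ℕ) + (-18)*t^(11:ℕ)) + (4/2401)*(2*t^(2:ℕ) + 19*t^(3:ℕ) + 69*t^(4:ℕ) + (-41)*t^(5:ℕ) + 56*t^(6:ℕ) + (-125)*t^(7:ℕ) + (-3)*t^(8:ℕ) + (-73)*t^(9:ℕ) + 8*t^(10:ℕ) + (-8)*t^(11:ℕ)) + (3/16807)*(8*t^(2:ℕ) + (-48)*t^(3:ℕ)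 + 102*t^(4:ℕ) + (-124)*t^(5:ℕ) + 96*t^(6:ℕ) + (-40)*t^(7:ℕ) + (-26)*t^(8:ℕ) + 44*t^(9:ℕ) + (-28)*t^(10:ℕ) + 8*t^(11:ℕ)) + (2/117649)*((15/4)*t^(4:ℕ) + (-35/2)*t^(5:ℕ) + (101/4)*t^(6:ℕ) + (-35/2)*t^(7:ℕ) + (15/4)*t^(8:ℕ) + 32*t^(9:ℕ) + (-48)*t^(10:ℕ) + 32*t^(11:ℕ)) + (1/823543)*((-14)*t^(4:ℕ) + 43*t^(5:ℕ) + (-61)*t^(6:ℕ) + 43*t^(7:ℕ) + (-14)*t^(8:ℕ)) - (1/10) = (1171/490) + (122/49)*t + (233859/16807)*t^(2:ℕ) + (234657/16807)*t^(3:ℕ) + (6934561/235298)*t^(4:ℕ) + (23570366/823543)*t^(5:ℕ) + (48000789/1647086)*t^(6:ℕ) + (22711151/823543)*t^(7:ℕ) + (3167749/235298)*t^(8:ℕ) + (1487648/117649)*t^(9:ℕ) + (278371/117649)*t^(10:ℕ) + (260716/117649)*t^(11:ℕ) := by ring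
    rw [e]; exact h
  have b7 : 0 ≤ 1*(2 + 2*t + 10*t^(2:ℕ) + 10*t^(3:ℕ) + 20*t^(4:ℕ) + 20*t^(5:ℕ) + 20*t^(6:ℕ) + 20*t^(7:ℕ) + 10*t^(8:ℕ) + 10*t^(9:ℕ) + 2*t^(10:ℕ) + 2*t^(11:ℕ)) + (1/7)*(4 + 4*t + 28*t^(2:ℕ) + 28*t^(3:ℕ) + 64*t^(4:ℕ) + 64*t^(5:ℕ) + 64*t^(6:ℕ) + 64*t^(7:ℕ) + 28*t^(8:ℕ) + 28*t^(9:ℕ) + 4*t^(10:ℕ) + 4*t^(11:ℕ)) + (1/49)*(33*t^(2:ℕ) + 35*t^(3:ℕ) + 103*t^(4:ℕ) + 60*t^(5:ℕ) + 82*t^(6:ℕ) + (-3)*t^(7:ℕ) + 3*t^(8:ℕ) + (-46)*t^(9:ℕ) + (-9)*t^(10:ℕ) + (-18)*t^(11:ℕ)) + (1/343)*(2*t^(2:ℕ) + 19*t^(3:ℕ) + 69*t^(4:ℕ) + (-41)*t^(5:ℕ) + 56*t^(6:ℕ) + (-125)*t^(7:ℕ) + (-3)*t^(8:ℕ) + (-73)*t^(9:ℕ) + 8*t^(10:ℕ) + (-8)*t^(11:ℕ)) + (1/2401)*(8*t^(2:ℕ) + (-48)*t^(3:ℕ) + 102*t^(4:ℕ)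 + (-124)*t^(5:ℕ) + 96*t^(6:ℕ) + (-40)*t^(7:ℕ) + (-26)*t^(8:ℕ) + 44*t^(9:ℕ) + (-28)*t^(10:ℕ) + 8*t^(11:ℕ)) + (1/16807)*((15/4)*t^(4:ℕ) + (-35/2)*t^(5:ℕ) + (101/4)*t^(6:ℕ) + (-35/2)*t^(7:ℕ) + (15/4)*t^(8:ℕ) + 32*t^(9:ℕ) + (-48)*t^(10:ℕ) + 32*t^(11:ℕ)) + (1/117649)*((-14)*t^(4:ℕ) + 43*t^(5:ℕ) + (-61)*t^(6:ℕ) + 43*t^(7:ℕ) + (-14)*t^(8:ℕ)) + (1/823543)*((-4)*t^(4:ℕ) + 12*t^(5:ℕ) + (-17)*t^(6:ℕ) + 12*t^(7:ℕ) + (-4)*t^(8:ℕ)) - (1/10) := by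
    have h := pos_L10_b7 t h3 h4
    have e : 1*(2 + 2*t + 10*t^(2:ℕ) + 10*t^(3:ℕ) + 20*t^(4:ℕ) + 20*t^(5:ℕ) + 20*t^(6:ℕ) + 20*t^(7:ℕ) + 10*t^(8:ℕ) + 10*t^(9:ℕ) + 2*t^(10:ℕ) + 2*t^(11:ℕ)) + (1/7)*(4 + 4*t + 28*t^(2:ℕ) + 28*t^(3:ℕ) + 64*t^(4:ℕ) + 64*t^(5:ℕ) + 64*t^(6:ℕ) + 64*t^(7:ℕ) + 28*t^(8:ℕ) + 28*t^(9:ℕ) + 4*t^(10:ℕ) + 4*t^(11:ℕ)) + (1/49)*(33*t^(2:ℕ) + 35*t^(3:ℕ) + 103*t^(4:ℕ) + 60*t^(5:ℕ) + 82*t^(6:ℕ) + (-3)*t^(7:ℕ) + 3*t^(8:ℕ) + (-46)*t^(9:ℕ) + (-9)*t^(10:ℕ) + (-18)*t^(11:ℕ)) + (1/343)*(2*t^(2:ℕ) + 19*t^(3:ℕ) + 69*t^(4:ℕ) + (-41)*t^(5:ℕ) + 56*t^(6:ℕ) + (-125)*t^(7:ℕ) + (-3)*t^(8:ℕ) + (-73)*t^(9:ℕ) + 8*t^(10:ℕ) + (-8)*t^(11:ℕ)) + (1/2401)*(8*t^(2:ℕ) + (-48)*t^(3:ℕ)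 + 102*t^(4:ℕ) + (-124)*t^(5:ℕ) + 96*t^(6:ℕ) + (-40)*t^(7:ℕ) + (-26)*t^(8:ℕ) + 44*t^(9:ℕ) + (-28)*t^(10:ℕ) + 8*t^(11:ℕ)) + (1/16807)*((15/4)*t^(4:ℕ) + (-35/2)*t^(5:ℕ) + (101/4)*t^(6:ℕ) + (-35/2)*t^(7:ℕ) + (15/4)*t^(8:ℕ) + 32*t^(9:ℕ) + (-48)*t^(10:ℕ) + 32*t^(11:ℕ)) + (1/117649)*((-14)*t^(4:ℕ) + 43*t^(5:ℕ) + (-61)*t^(6:ℕ) + 43*t^(7:ℕ) + (-14)*t^(8:ℕ)) + (1/823543)*((-4)*t^(4:ℕ) + 12*t^(5:ℕ) + (-17)*t^(6:ℕ) + 12*t^(7:ℕ) + (-4)*t^(8:ℕ)) - (1/10) = (173/70) + (18/7)*t + (35253/2401)*t^(2:ℕ) + (35414/2401)*t^(3:ℕ) + (103729015/3294172)*t^(4:ℕ) + (49734597/1647086)*t^(5:ℕ) + (102186989/3294172)*t^(6:ℕ) + (47271171/1647086)*t^(7:ℕ) + (46255935/3294172)*t^(8:ℕ) + (216283/16807)*t^(9:ℕ)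 + (40279/16807)*t^(10:ℕ) + (36740/16807)*t^(11:ℕ) := by ring
    rw [e]; exact h
  generalize 1*(2 + 2*t + 10*t^(2:ℕ) + 10*t^(3:ℕ) + 20*t^(4:ℕ) + 20*t^(5:ℕ) + 20*t^(6:ℕ) + 20*t^(7:ℕ) + 10*t^(8:ℕ) + 10*t^(9:ℕ) + 2*t^(10:ℕ) + 2*t^(11:ℕ)) - (1/10) = B0 at b0 ⊢
  generalize 1*(2 + 2*t + 10*t^(2:ℕ) + 10*t^(3:ℕ) + 20*t^(4:ℕ) + 20*t^(5:ℕ) + 20*t^(6:ℕ) + 20*t^(7:ℕ) + 10*t^(8:ℕ) + 10*t^(9:ℕ) + 2*t^(10:ℕ) + 2*t^(11:ℕ)) + (1/49)*(4 + 4*t + 28*t^(2:ℕ) + 28*t^(3:ℕ) + 64*t^(4:ℕ) + 64*t^(5:ℕ) + 64*t^(6:ℕ) + 64*t^(7:ℕ) + 28*t^(8:ℕ) + 28*t^(9:ℕ) + 4*t^(10:ℕ) + 4*t^(11:ℕ)) - (1/10) = B1 at b1 ⊢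
  generalize 1*(2 + 2*t + 10*t^(2:ℕ) + 10*t^(3:ℕ) + 20*t^(4:ℕ) + 20*t^(5:ℕ) + 20*t^(6:ℕ) + 20*t^(7:ℕ) + 10*t^(8:ℕ) + 10*t^(9:ℕ) + 2*t^(10:ℕ) + 2*t^(11:ℕ)) + (2/49)*(4 + 4*t + 28*t^(2:ℕ) + 28*t^(3:ℕ) + 64*t^(4:ℕ) + 64*t^(5:ℕ) + 64*t^(6:ℕ) + 64*t^(7:ℕ) + 28*t^(8:ℕ) + 28*t^(9:ℕ) + 4*t^(10:ℕ) + 4*t^(11:ℕ)) + (1/1029)*(33*t^(2:ℕ) + 35*t^(3:ℕ) + 103*t^(4:ℕ) + 60*t^(5:ℕ) + 82*t^(6:ℕ) + (-3)*t^(7:ℕ) + 3*t^(8:ℕ) + (-46)*t^(9:ℕ) + (-9)*t^(10:ℕ) + (-18)*t^(11:ℕ)) - (1/10) = B2 at b2 ⊢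
  generalize 1*(2 + 2*t + 10*t^(2:ℕ) + 10*t^(3:ℕ) + 20*t^(4:ℕ) + 20*t^(5:ℕ) + 20*t^(6:ℕ) + 20*t^(7:ℕ) + 10*t^(8:ℕ) + 10*t^(9:ℕ) + 2*t^(10:ℕ) + 2*t^(11:ℕ)) + (3/49)*(4 + 4*t + 28*t^(2:ℕ) + 28*t^(3:ℕ) + 64*t^(4:ℕ) + 64*t^(5:ℕ) + 64*t^(6:ℕ) + 64*t^(7:ℕ) + 28*t^(8:ℕ) + 28*t^(9:ℕ) + 4*t^(10:ℕ) + 4*t^(11:ℕ)) + (1/343)*(33*t^(2:ℕ) + 35*t^(3:ℕ) + 103*t^(4:ℕ) + 60*t^(5:ℕ) + 82*t^(6:ℕ) + (-3)*t^(7:ℕ) + 3*t^(8:ℕ) + (-46)*t^(9:ℕ) + (-9)*t^(10:ℕ) + (-18)*t^(11:ℕ)) + (1/12005)*(2*t^(2:ℕ) + 19*t^(3:ℕ) + 69*t^(4:ℕ) + (-41)*t^(5:ℕ) + 56*t^(6:ℕ) + (-125)*t^(7:ℕ) + (-3)*t^(8:ℕ) + (-73)*t^(9:ℕ) + 8*t^(10:ℕ) + (-8)*t^(11:ℕ)) - (1/10) = B3 at b3 ⊢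
  generalize 1*(2 + 2*t + 10*t^(2:ℕ) + 10*t^(3:ℕ) + 20*t^(4:ℕ) + 20*t^(5:ℕ) + 20*t^(6:ℕ) + 20*t^(7:ℕ) + 10*t^(8:ℕ) + 10*t^(9:ℕ) + 2*t^(10:ℕ) + 2*t^(11:ℕ)) + (4/49)*(4 + 4*t + 28*t^(2:ℕ) + 28*t^(3:ℕ) + 64*t^(4:ℕ) + 64*t^(5:ℕ) + 64*t^(6:ℕ) + 64*t^(7:ℕ) + 28*t^(8:ℕ) + 28*t^(9:ℕ) + 4*t^(10:ℕ) + 4*t^(11:ℕ)) + (2/343)*(33*t^(2:ℕ) + 35*t^(3:ℕ) + 103*t^(4:ℕ) + 60*t^(5:ℕ) + 82*t^(6:ℕ) + (-3)*t^(7:ℕ) + 3*t^(8:ℕ) + (-46)*t^(9:ℕ) + (-9)*t^(10:ℕ) + (-18)*t^(11:ℕ)) + (4/12005)*(2*t^(2:ℕ) + 19*t^(3:ℕ) + 69*t^(4:ℕ) + (-41)*t^(5:ℕ) + 56*t^(6:ℕ) + (-125)*t^(7:ℕ) + (-3)*t^(8:ℕ) + (-73)*t^(9:ℕ) + 8*t^(10:ℕ) + (-8)*t^(11:ℕ)) + (1/84035)*(8*t^(2:ℕ) + (-48)*t^(3:ℕ) + 102*t^(4:ℕ) + (-124)*t^(5:ℕ)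 + 96*t^(6:ℕ) + (-40)*t^(7:ℕ) + (-26)*t^(8:ℕ) + 44*t^(9:ℕ) + (-28)*t^(10:ℕ) + 8*t^(11:ℕ)) - (1/10) = B4 at b4 ⊢
  generalize 1*(2 + 2*t + 10*t^(2:ℕ) + 10*t^(3:ℕ) + 20*t^(4:ℕ) + 20*t^(5:ℕ) + 20*t^(6:ℕ) + 20*t^(7:ℕ) + 10*t^(8:ℕ) + 10*t^(9:ℕ) + 2*t^(10:ℕ) + 2*t^(11:ℕ)) + (5/49)*(4 + 4*t + 28*t^(2:ℕ) + 28*t^(3:ℕ) + 64*t^(4:ℕ) + 64*t^(5:ℕ) + 64*t^(6:ℕ) + 64*t^(7:ℕ) + 28*t^(8:ℕ) + 28*t^(9:ℕ) + 4*t^(10:ℕ) + 4*t^(11:ℕ)) + (10/1029)*(33*t^(2:ℕ) + 35*t^(3:ℕ) + 103*t^(4:ℕ) + 60*t^(5:ℕ) + 82*t^(6:ℕ) + (-3)*t^(7:ℕ) + 3*t^(8:ℕ) + (-46)*t^(9:ℕ) + (-9)*t^(10:ℕ) + (-18)*t^(11:ℕ)) + (2/2401)*(2*t^(2:ℕ) + 19*t^(3:ℕ) + 69*t^(4:ℕ) + (-41)*t^(5:ℕ) + 56*t^(6:ℕ) + (-125)*t^(7:ℕ) + (-3)*t^(8:ℕ)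 + (-73)*t^(9:ℕ) + 8*t^(10:ℕ) + (-8)*t^(11:ℕ)) + (1/16807)*(8*t^(2:ℕ) + (-48)*t^(3:ℕ) + 102*t^(4:ℕ) + (-124)*t^(5:ℕ) + 96*t^(6:ℕ) + (-40)*t^(7:ℕ) + (-26)*t^(8:ℕ) + 44*t^(9:ℕ) + (-28)*t^(10:ℕ) + 8*t^(11:ℕ)) + (1/352947)*((15/4)*t^(4:ℕ) + (-35/2)*t^(5:ℕ) + (101/4)*t^(6:ℕ) + (-35/2)*t^(7:ℕ) + (15/4)*t^(8:ℕ) + 32*t^(9:ℕ) + (-48)*t^(10:ℕ) + 32*t^(11:ℕ)) - (1/10) = B5 at b5 ⊢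
  generalize 1*(2 + 2*t + 10*t^(2:ℕ) + 10*t^(3:ℕ) + 20*t^(4:ℕ) + 20*t^(5:ℕ) + 20*t^(6:ℕ) + 20*t^(7:ℕ) + 10*t^(8:ℕ) + 10*t^(9:ℕ) + 2*t^(10:ℕ) + 2*t^(11:ℕ)) + (6/49)*(4 + 4*t + 28*t^(2:ℕ) + 28*t^(3:ℕ) + 64*t^(4:ℕ) + 64*t^(5:ℕ) + 64*t^(6:ℕ) + 64*t^(7:ℕ) + 28*t^(8:ℕ) + 28*t^(9:ℕ) + 4*t^(10:ℕ) + 4*t^(11:ℕ)) + (5/343)*(33*t^(2:ℕ) + 35*t^(3:ℕ) + 103*t^(4:ℕ) + 60*t^(5:ℕ) + 82*t^(6:ℕ) + (-3)*t^(7:ℕ) + 3*t^(8:ℕ) + (-46)*t^(9:ℕ) + (-9)*t^(10:ℕ) + (-18)*t^(11:ℕ)) + (4/2401)*(2*t^(2:ℕ) + 19*t^(3:ℕ) + 69*t^(4:ℕ) + (-41)*t^(5:ℕ) + 56*t^(6:ℕ) + (-125)*t^(7:ℕ) + (-3)*t^(8:ℕ) + (-73)*t^(9:ℕ) + 8*t^(10:ℕ) + (-8)*t^(11:ℕ)) + (3/16807)*(8*t^(2:ℕ) + (-48)*t^(3:ℕ) + 102*t^(4:ℕ) + (-124)*t^(5:ℕ)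 + 96*t^(6:ℕ) + (-40)*t^(7:ℕ) + (-26)*t^(8:ℕ) + 44*t^(9:ℕ) + (-28)*t^(10:ℕ) + 8*t^(11:ℕ)) + (2/117649)*((15/4)*t^(4:ℕ) + (-35/2)*t^(5:ℕ) + (101/4)*t^(6:ℕ) + (-35/2)*t^(7:ℕ) + (15/4)*t^(8:ℕ) + 32*t^(9:ℕ) + (-48)*t^(10:ℕ) + 32*t^(11:ℕ)) + (1/823543)*((-14)*t^(4:ℕ) + 43*t^(5:ℕ) + (-61)*t^(6:ℕ) + 43*t^(7:ℕ) + (-14)*t^(8:ℕ)) - (1/10) = B6 at b6 ⊢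
  generalize 1*(2 + 2*t + 10*t^(2:ℕ) + 10*t^(3:ℕ) + 20*t^(4:ℕ) + 20*t^(5:ℕ) + 20*t^(6:ℕ) + 20*t^(7:ℕ) + 10*t^(8:ℕ) + 10*t^(9:ℕ) + 2*t^(10:ℕ) + 2*t^(11:ℕ)) + (1/7)*(4 + 4*t + 28*t^(2:ℕ) + 28*t^(3:ℕ) + 64*t^(4:ℕ) + 64*t^(5:ℕ) + 64*t^(6:ℕ) + 64*t^(7:ℕ) + 28*t^(8:ℕ) + 28*t^(9:ℕ) + 4*t^(10:ℕ) + 4*t^(11:ℕ)) + (1/49)*(33*t^(2:ℕ) + 35*t^(3:ℕ) + 103*t^(4:ℕ) + 60*t^(5:ℕ) + 82*t^(6:ℕ) + (-3)*t^(7:ℕ) + 3*t^(8:ℕ) + (-46)*t^(9:ℕ) + (-9)*t^(10:ℕ) + (-18)*t^(11:ℕ)) + (1/343)*(2*t^(2:ℕ) + 19*t^(3:ℕ) + 69*t^(4:ℕ) + (-41)*t^(5:ℕ) + 56*t^(6:ℕ) + (-125)*t^(7:ℕ) + (-3)*t^(8:ℕ) + (-73)*t^(9:ℕ) + 8*t^(10:ℕ) + (-8)*t^(11:ℕ)) + (1/2401)*(8*t^(2:ℕ) + (-48)*t^(3:ℕ) + 102*t^(4:ℕ) + (-124)*t^(5:ℕ)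 + 96*t^(6:ℕ) + (-40)*t^(7:ℕ) + (-26)*t^(8:ℕ) + 44*t^(9:ℕ) + (-28)*t^(10:ℕ) + 8*t^(11:ℕ)) + (1/16807)*((15/4)*t^(4:ℕ) + (-35/2)*t^(5:ℕ) + (101/4)*t^(6:ℕ) + (-35/2)*t^(7:ℕ) + (15/4)*t^(8:ℕ) + 32*t^(9:ℕ) + (-48)*t^(10:ℕ) + 32*t^(11:ℕ)) + (1/117649)*((-14)*t^(4:ℕ) + 43*t^(5:ℕ) + (-61)*t^(6:ℕ) + 43*t^(7:ℕ) + (-14)*t^(8:ℕ)) + (1/823543)*((-4)*t^(4:ℕ) + 12*t^(5:ℕ) + (-17)*t^(6:ℕ) + 12*t^(7:ℕ) + (-4)*t^(8:ℕ)) - (1/10) = B7 at b7 ⊢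
  generalize (1/7) - d = d2 at a2 ⊢
  positivity

lemma pos_L20_b0 (t : ℝ) (h3 : 0 ≤ t) (h4 : t ≤ 1) :
    0 ≤ (19/10) + 2*t + 10*t^(2:ℕ) + 10*t^(3:ℕ) + 20*t^(4:ℕ) + 20*t^(5:ℕ) + 20*t^(6:ℕ) + 20*t^(7:ℕ) + 10*t^(8:ℕ) + 10*t^(9:ℕ) + 2*t^(10:ℕ) + 2*t^(11:ℕ) := by
  have e : (19/10) + 2*t + 10*t^(2:ℕ) + 10*t^(3:ℕ) + 20*t^(4:ℕ) + 20*t^(5:ℕ) + 20*t^(6:ℕ) + 20*t^(7:ℕ) + 10*t^(8:ℕ) + 10*t^(9:ℕ) + 2*t^(10:ℕ) + 2*t^(11:ℕ) = (19/10)*(1 - t)^(11:ℕ) + (229/10)*(t - 0)*(1 - t)^(10:ℕ) + (269/2)*(t - 0)^(2:ℕ)*(1 - t)^(9:ℕ) + (1007/2)*(t - 0)^(3:ℕ)*(1 - t)^(8:ℕ) + 1327*(t - 0)^(4:ℕ)*(1 - t)^(7:ℕ) + (12889/5)*(t - 0)^(5:ℕ)*(1 - t)^(6:ℕ) + (18809/5)*(t - 0)^(6:ℕ)*(1 - t)^(5:ℕ) + 4127*(t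 - 0)^(7:ℕ)*(1 - t)^(4:ℕ) + (6687/2)*(t - 0)^(8:ℕ)*(1 - t)^(3:ℕ) + (3829/2)*(t - 0)^(9:ℕ)*(1 - t)^(2:ℕ) + (7029/10)*(t - 0)^(10:ℕ)*(1 - t) + (1279/10)*(t - 0)^(11:ℕ) := by
    ring
  rw [e]
  have a3 : 0 ≤ t - 0 := by linarith
  have a4 : 0 ≤ 1 - t := by linarith
  generalize t - 0 = t1 at a3 ⊢
  generalize 1 - t = t2 at a4 ⊢
  positivity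

lemma pos_L20_b1 (t : ℝ) (h3 : 0 ≤ t) (h4 : t ≤ 1) :
    0 ≤ (971/490) + (101/49)*t + (1039/98)*t^(2:ℕ) + (513/49)*t^(3:ℕ) + (150/7)*t^(4:ℕ) + (1034/49)*t^(5:ℕ) + (1053/49)*t^(6:ℕ) + (1034/49)*t^(7:ℕ) + (524/49)*t^(8:ℕ) + (513/49)*t^(9:ℕ) + (207/98)*t^(10:ℕ) + (101/49)*t^(11:ℕ) := by
  have e : (971/490) + (101/49)*t + (1039/98)*t^(2:ℕ) + (513/49)*t^(3:ℕ) + (150/7)*t^(4:ℕ) + (1034/49)*t^(5:ℕ) + (1053/49)*t^(6:ℕ) + (1034/49)*t^(7:ℕ) + (524/49)*t^(8:ℕ) + (513/49)*t^(9:ℕ) + (207/98)*t^(10:ℕ) + (101/49)*t^(11:ℕ) = (971/490)*(1 - t)^(11:ℕ) + (11691/490)*(t - 0)*(1 - t)^(10:ℕ) + (6870/49)*(t - 0)^(2:ℕ)*(1 - t)^(9:ℕ) + (25755/49)*(t - 0)^(3:ℕ)*(1 - t)^(8:ℕ) + (9717/7)*(t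 - 0)^(4:ℕ)*(1 - t)^(7:ℕ) + (662281/245)*(t - 0)^(5:ℕ)*(1 - t)^(6:ℕ) + (969021/245)*(t - 0)^(6:ℕ)*(1 - t)^(5:ℕ) + (213179/49)*(t - 0)^(7:ℕ)*(1 - t)^(4:ℕ) + (49465/14)*(t - 0)^(8:ℕ)*(1 - t)^(3:ℕ) + (198661/98)*(t - 0)^(9:ℕ)*(1 - t)^(2:ℕ) + (52163/70)*(t - 0)^(10:ℕ)*(1 - t) + (66431/490)*(t - 0)^(11:ℕ) := by
    ring
  rw [e]
  have a3 : 0 ≤ t - 0 := by linarith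
  have a4 : 0 ≤ 1 - t := by linarith
  generalize t - 0 = t1 at a3 ⊢
  generalize 1 - t = t2 at a4 ⊢
  positivity

lemma pos_L20_b2 (t : ℝ) (h3 : 0 ≤ t) (h4 : t ≤ 1) :
    0 ≤ (21071/10290) + (2168/1029)*t + (11497/1029)*t^(2:ℕ) + (1604/147)*t^(3:ℕ) + (7852/343)*t^(4:ℕ) + (22873/1029)*t^(5:ℕ) + (23759/1029)*t^(6:ℕ) + (7632/343)*t^(7:ℕ) + (1684/147)*t^(8:ℕ) + (11261/1029)*t^(9:ℕ) + (766/343)*t^(10:ℕ) + (726/343)*t^(11:ℕ) := by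
  have e : (21071/10290) + (2168/1029)*t + (11497/1029)*t^(2:ℕ) + (1604/147)*t^(3:ℕ) + (7852/343)*t^(4:ℕ) + (22873/1029)*t^(5:ℕ) + (23759/1029)*t^(6:ℕ) + (7632/343)*t^(7:ℕ) + (1684/147)*t^(8:ℕ) + (11261/1029)*t^(9:ℕ) + (766/343)*t^(10:ℕ) + (726/343)*t^(11:ℕ) = (21071/10290)*(1 - t)^(11:ℕ) + (84487/3430)*(t - 0)*(1 - t)^(10:ℕ) + (298135/2058)*(t - 0)^(2:ℕ)*(1 - t)^(9:ℕ) + (1119865/2058)*(t - 0)^(3:ℕ)*(1 - t)^(8:ℕ) + (211825/147)*(t - 0)^(4:ℕ)*(1 - t)^(7:ℕ) + (4827762/1715)*(t - 0)^(5:ℕ)*(1 - t)^(6:ℕ) + (7088132/1715)*(t - 0)^(6:ℕ)*(1 - t)^(5:ℕ) + (1564817/343)*(t - 0)^(7:ℕ)*(1 - t)^(4:ℕ) + (2550153/686)*(t - 0)^(8:ℕ)*(1 - t)^(3:ℕ) + (4402177/2058)*(t - 0)^(9:ℕ)*(1 -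 t)^(2:ℕ) + (2702827/3430)*(t - 0)^(10:ℕ)*(1 - t) + (1476091/10290)*(t - 0)^(11:ℕ) := by
    ring
  rw [e]
  have a3 : 0 ≤ t - 0 := by linarith
  have a4 : 0 ≤ 1 - t := by linarith
  generalize t - 0 = t1 at a3 ⊢
  generalize 1 - t = t2 at a4 ⊢
  positivity

lemma pos_L20_b3 (t : ℝ) (h3 : 0 ≤ t) (h4 : t ≤ 1) :
    0 ≤ (7197/3430) + (733/343)*t + (281143/24010)*t^(2:ℕ) + (135927/12005)*t^(3:ℕ) + (58551/2401)*t^(4:ℕ) + (280634/12005)*t^(5:ℕ) + (297761/12005)*t^(6:ℕ) + (5744/245)*t^(7:ℕ) + (147571/12005)*t^(8:ℕ) + (137087/12005)*t^(9:ℕ) + (56767/24010)*t^(10:ℕ) + (25993/12005)*t^(11:ℕ) := by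
  have e : (7197/3430) + (733/343)*t + (281143/24010)*t^(2:ℕ) + (135927/12005)*t^(3:ℕ) + (58551/2401)*t^(4:ℕ) + (280634/12005)*t^(5:ℕ) + (297761/12005)*t^(6:ℕ) + (5744/245)*t^(7:ℕ) + (147571/12005)*t^(8:ℕ) + (137087/12005)*t^(9:ℕ) + (56767/24010)*t^(10:ℕ) + (25993/12005)*t^(11:ℕ) = (7197/3430)*(1 - t)^(11:ℕ) + (86497/3430)*(t - 0)*(1 - t)^(10:ℕ) + (1782544/12005)*(t - 0)^(2:ℕ)*(1 - t)^(9:ℕ) + (6711813/12005)*(t - 0)^(3:ℕ)*(1 - t)^(8:ℕ) + (3566376/2401)*(t - 0)^(4:ℕ)*(1 - t)^(7:ℕ) + (6993796/2401)*(t - 0)^(5:ℕ)*(1 - t)^(6:ℕ) + (10311190/2401)*(t - 0)^(6:ℕ)*(1 - t)^(5:ℕ) + (1632948/343)*(t - 0)^(7:ℕ)*(1 - t)^(4:ℕ) + (93529791/24010)*(t - 0)^(8:ℕ)*(1 - t)^(3:ℕ) + (54019877/24010)*(t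 - 0)^(9:ℕ)*(1 - t)^(2:ℕ) + (570239/686)*(t - 0)^(10:ℕ)*(1 - t) + (3637967/24010)*(t - 0)^(11:ℕ) := by
    ring
  rw [e]
  have a3 : 0 ≤ t - 0 := by linarith
  have a4 : 0 ≤ 1 - t := by linarith
  generalize t - 0 = t1 at a3 ⊢
  generalize 1 - t = t2 at a4 ⊢
  positivity

lemma pos_L20_b4 (t : ℝ) (h3 : 0 ≤ t) (h4 : t ≤ 1) :
    0 ≤ (7317/3430) + (738/343)*t + (1025924/84035)*t^(2:ℕ) + (196610/16807)*t^(3:ℕ) + (2177004/84035)*t^(4:ℕ) + (2062544/84035)*t^(5:ℕ) + (2238254/84035)*t^(6:ℕ) + (296328/12005)*t^(7:ℕ) + (222034/16807)*t^(8:ℕ) + (999358/84035)*t^(9:ℕ) + (210666/84035)*t^(10:ℕ) + (185366/84035)*t^(11:ℕ) := by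
  have e : (7317/3430) + (738/343)*t + (1025924/84035)*t^(2:ℕ) + (196610/16807)*t^(3:ℕ) + (2177004/84035)*t^(4:ℕ) + (2062544/84035)*t^(5:ℕ) + (2238254/84035)*t^(6:ℕ) + (296328/12005)*t^(7:ℕ) + (222034/16807)*t^(8:ℕ) + (999358/84035)*t^(9:ℕ) + (210666/84035)*t^(10:ℕ) + (185366/84035)*t^(11:ℕ) = (7317/3430)*(1 - t)^(11:ℕ) + (87867/3430)*(t - 0)*(1 - t)^(10:ℕ) + (25387363/168070)*(t - 0)^(2:ℕ)*(1 - t)^(9:ℕ) + (95863577/168070)*(t - 0)^(3:ℕ)*(1 - t)^(8:ℕ) + (127829813/84035)*(t - 0)^(4:ℕ)*(1 - t)^(7:ℕ) + (251795811/84035)*(t - 0)^(5:ℕ)*(1 - t)^(6:ℕ) + (373033069/84035)*(t - 0)^(6:ℕ)*(1 - t)^(5:ℕ) + (11874481/2401)*(t - 0)^(7:ℕ)*(1 - t)^(4:ℕ) + (136696201/33614)*(t - 0)^(8:ℕ)*(1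 - t)^(3:ℕ) + (56648057/24010)*(t - 0)^(9:ℕ)*(1 - t)^(2:ℕ) + (147040771/168070)*(t - 0)^(10:ℕ)*(1 - t) + (26853417/168070)*(t - 0)^(11:ℕ) := by
    ring
  rw [e]
  have a3 : 0 ≤ t - 0 := by linarith
  have a4 : 0 ≤ 1 - t := by linarith
  generalize t - 0 = t1 at a3 ⊢
  generalize 1 - t = t2 at a4 ⊢
  positivity

lemma pos_L20_b5 (t : ℝ) (h3 : 0 ≤ t) (h4 : t ≤ 1) :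
    0 ≤ (22151/10290) + (2213/1029)*t + (8941477/705894)*t^(2:ℕ) + (16989475/1411788)*t^(3:ℕ) + (3229124/117649)*t^(4:ℕ) + (18161617/705894)*t^(5:ℕ) + (20180351/705894)*t^(6:ℕ) + (12219729/470596)*t^(7:ℕ) + (10036379/705894)*t^(8:ℕ) + (17447719/1411788)*t^(9:ℕ) + (626481/235298)*t^(10:ℕ) + (789662/352947)*t^(11:ℕ) := by
  have e : (22151/10290) + (2213/1029)*t + (8941477/705894)*t^(2:ℕ) + (16989475/1411788)*t^(3:ℕ) + (3229124/117649)*t^(4:ℕ) + (18161617/705894)*t^(5:ℕ) + (20180351/705894)*t^(6:ℕ) + (12219729/470596)*t^(7:ℕ) + (10036379/705894)*t^(8:ℕ) + (17447719/1411788)*t^(9:ℕ) + (626481/235298)*t^(10:ℕ) + (789662/352947)*t^(11:ℕ) = (22151/10290)*(1 - t)^(11:ℕ) +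 (88597/3430)*(t - 0)*(1 - t)^(10:ℕ) + (17949730/117649)*(t - 0)^(2:ℕ)*(1 - t)^(9:ℕ) + (816021019/1411788)*(t - 0)^(3:ℕ)*(1 - t)^(8:ℕ) + (546427157/352947)*(t - 0)^(4:ℕ)*(1 - t)^(7:ℕ) + (3605937327/1176490)*(t - 0)^(5:ℕ)*(1 - t)^(6:ℕ) + (5371588147/1176490)*(t - 0)^(6:ℕ)*(1 - t)^(5:ℕ) + (343932237/67228)*(t - 0)^(7:ℕ)*(1 - t)^(4:ℕ) + (213299810/50421)*(t - 0)^(8:ℕ)*(1 - t)^(3:ℕ) + (497584229/201684)*(t - 0)^(9:ℕ)*(1 - t)^(2:ℕ) + (540480713/588245)*(t - 0)^(10:ℕ)*(1 - t) + (1187392021/7058940)*(t - 0)^(11:ℕ) := by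
    ring
  rw [e]
  have a3 : 0 ≤ t - 0 := by linarith
  have a4 : 0 ≤ 1 - t := by linarith
  generalize t - 0 = t1 at a3 ⊢
  generalize 1 - t = t2 at a4 ⊢
  positivity

lemma pos_L20_b6 (t : ℝ) (h3 : 0 ≤ t) (h4 : t ≤ 1) :
    0 ≤ (7397/3430) + (732/343)*t + (1539159/117649)*t^(2:ℕ) + (2900295/235298)*t^(3:ℕ) + (3412420/117649)*t^(4:ℕ) + (22176612/823543)*t^(5:ℕ) + (25256151/823543)*t^(6:ℕ) + (44953205/1647086)*t^(7:ℕ) + (12617894/823543)*t^(8:ℕ) + (430733/33614)*t^(9:ℕ) + (2332944/823543)*t^(10:ℕ) + (1859924/823543)*t^(11:ℕ) := by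
  have e : (7397/3430) + (732/343)*t + (1539159/117649)*t^(2:ℕ) + (2900295/235298)*t^(3:ℕ) + (3412420/117649)*t^(4:ℕ) + (22176612/823543)*t^(5:ℕ) + (25256151/823543)*t^(6:ℕ) + (44953205/1647086)*t^(7:ℕ) + (12617894/823543)*t^(8:ℕ) + (430733/33614)*t^(9:ℕ) + (2332944/823543)*t^(10:ℕ) + (1859924/823543)*t^(11:ℕ) = (7397/3430)*(1 - t)^(11:ℕ) + (88687/3430)*(t - 0)*(1 - t)^(10:ℕ) + (36008719/235298)*(t - 0)^(2:ℕ)*(1 - t)^(9:ℕ) + (68464320/117649)*(t - 0)^(3:ℕ)*(1 - t)^(8:ℕ) + (184279087/117649)*(t - 0)^(4:ℕ)*(1 - t)^(7:ℕ) + (12841212077/4117715)*(t - 0)^(5:ℕ)*(1 - t)^(6:ℕ) + (19246783932/4117715)*(t - 0)^(6:ℕ)*(1 - t)^(5:ℕ) + (1240208049/235298)*(t - 0)^(7:ℕ)*(1 - t)^(4:ℕ)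 + (7224182713/1647086)*(t - 0)^(8:ℕ)*(1 - t)^(3:ℕ) + (2118969687/823543)*(t - 0)^(9:ℕ)*(1 - t)^(2:ℕ) + (7930347737/8235430)*(t - 0)^(10:ℕ)*(1 - t) + (728093616/4117715)*(t - 0)^(11:ℕ) := by
    ring
  rw [e]
  have a3 : 0 ≤ t - 0 := by linarith
  have a4 : 0 ≤ 1 - t := by linarith
  generalize t - 0 = t1 at a3 ⊢
  generalize 1 - t = t2 at a4 ⊢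
  positivity

lemma pos_L20_b7 (t : ℝ) (h3 : 0 ≤ t) (h4 : t ≤ 1) :
    0 ≤ (1051/490) + (103/49)*t + (452213/33614)*t^(2:ℕ) + (845067/67228)*t^(3:ℕ) + (513879/16807)*t^(4:ℕ) + (6621523/235298)*t^(5:ℕ) + (7735827/235298)*t^(6:ℕ) + (94414843/3294172)*t^(7:ℕ) + (27225187/1647086)*t^(8:ℕ) + (43660647/3294172)*t^(9:ℕ) + (4973643/1647086)*t^(10:ℕ) + (1867554/823543)*t^(11:ℕ) := by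
  have e : (1051/490) + (103/49)*t + (452213/33614)*t^(2:ℕ) + (845067/67228)*t^(3:ℕ) + (513879/16807)*t^(4:ℕ) + (6621523/235298)*t^(5:ℕ) + (7735827/235298)*t^(6:ℕ) + (94414843/3294172)*t^(7:ℕ) + (27225187/1647086)*t^(8:ℕ) + (43660647/3294172)*t^(9:ℕ) + (4973643/1647086)*t^(10:ℕ) + (1867554/823543)*t^(11:ℕ) = (1051/490)*(1 - t)^(11:ℕ) + (12591/490)*(t - 0)*(1 - t)^(10:ℕ) + (2562108/16807)*(t - 0)^(2:ℕ)*(1 - t)^(9:ℕ) + (39136659/67228)*(t - 0)^(3:ℕ)*(1 - t)^(8:ℕ) + (26479596/16807)*(t - 0)^(4:ℕ)*(1 - t)^(7:ℕ) + (3713668037/1176490)*(t - 0)^(5:ℕ)*(1 - t)^(6:ℕ) + (5604189867/1176490)*(t - 0)^(6:ℕ)*(1 - t)^(5:ℕ) + (17819968801/3294172)*(t - 0)^(7:ℕ)*(1 - t)^(4:ℕ) + (3733153903/823543)*(t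 - 0)^(8:ℕ)*(1 - t)^(3:ℕ) + (8817215023/3294172)*(t - 0)^(9:ℕ)*(1 - t)^(2:ℕ) + (4147652681/4117715)*(t - 0)^(10:ℕ)*(1 - t) + (3056909269/16470860)*(t - 0)^(11:ℕ) := by
    ring
  rw [e]
  have a3 : 0 ≤ t - 0 := by linarith
  have a4 : 0 ≤ 1 - t := by linarith
  generalize t - 0 = t1 at a3 ⊢
  generalize 1 - t = t2 at a4 ⊢
  positivity

lemma pos_L20_id (d : ℝ) (C0 C1 C2 C3 C4 C5 C6 C7 : ℝ) :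
    C0 + d*C1 + d^(2:ℕ)*C2 + d^(3:ℕ)*C3 + d^(4:ℕ)*C4 + d^(5:ℕ)*C5 + d^(6:ℕ)*C6 + d^(7:ℕ)*C7 = (1/10) + (823543*((1/7)-d)^(7:ℕ)*(1*C0 - (1/10)) + 5764801*d*((1/7)-d)^(6:ℕ)*(1*C0 + (1/49)*C1 - (1/10)) + 17294403*d^(2:ℕ)*((1/7)-d)^(5:ℕ)*(1*C0 + (2/49)*C1 + (1/1029)*C2 - (1/10)) + 28824005*d^(3:ℕ)*((1/7)-d)^(4:ℕ)*(1*C0 + (3/49)*C1 + (1/343)*C2 + (1/12005)*C3 - (1/10)) + 28824005*d^(4:ℕ)*((1/7)-d)^(3:ℕ)*(1*C0 + (4/49)*C1 + (2/343)*C2 + (4/12005)*C3 + (1/84035)*C4 - (1/10)) + 17294403*d^(5:ℕ)*((1/7)-d)^(2:ℕ)*(1*C0 + (5/49)*C1 + (10/1029)*C2 + (2/2401)*C3 + (1/16807)*C4 + (1/352947)*C5 - (1/10)) + 5764801*d^(6:ℕ)*((1/7)-d)*(1*C0 + (6/49)*C1 + (5/343)*C2 + (4/2401)*C3 + (3/16807)*C4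 + (2/117649)*C5 + (1/823543)*C6 - (1/10)) + 823543*d^(7:ℕ)*(1*C0 + (1/7)*C1 + (1/49)*C2 + (1/343)*C3 + (1/2401)*C4 + (1/16807)*C5 + (1/117649)*C6 + (1/823543)*C7 - (1/10))) := by
  ring

lemma pos_L20 (d t : ℝ) (h1 : 0 ≤ d) (h2 : d ≤ (1/7)) (h3 : 0 ≤ t) (h4 : t ≤ 1) :
    0 < 2 + 2*t + 10*t^(2:ℕ) + 10*t^(3:ℕ) + 20*t^(4:ℕ) + 20*t^(5:ℕ) + 20*t^(6:ℕ) + 20*t^(7:ℕ) + 10*t^(8:ℕ) + 10*t^(9:ℕ) + 2*t^(10:ℕ) + 2*t^(11:ℕ) + 4*d + 3*d*t + (59/2)*d*t^(2:ℕ) + 23*d*t^(3:ℕ) + 70*d*t^(4:ℕ) + 54*d*t^(5:ℕ) + 73*d*t^(6:ℕ) + 54*d*t^(7:ℕ) + 34*d*t^(8:ℕ) + 23*d*t^(9:ℕ) + (11/2)*d*t^(10:ℕ) + 3*d*t^(11:ℕ) + (-16)*d^(2:ℕ) + (-16)*d^(2:ℕ)*t + (-32)*d^(2:ℕ)*t^(2:ℕ) + (-28)*d^(2:ℕ)*t^(3:ℕ) + 36*d^(2:ℕ)*t^(4:ℕ)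 + 25*d^(2:ℕ)*t^(5:ℕ) + 113*d^(2:ℕ)*t^(6:ℕ) + 48*d^(2:ℕ)*t^(7:ℕ) + 70*d^(2:ℕ)*t^(8:ℕ) + 5*d^(2:ℕ)*t^(9:ℕ) + 9*d^(2:ℕ)*t^(10:ℕ) + (-6)*d^(2:ℕ)*t^(11:ℕ) + (-41)*d^(3:ℕ)*t^(2:ℕ) + (-48)*d^(3:ℕ)*t^(3:ℕ) + (-55)*d^(3:ℕ)*t^(4:ℕ) + (-31)*d^(3:ℕ)*t^(5:ℕ) + 51*d^(3:ℕ)*t^(6:ℕ) + (-14)*d^(3:ℕ)*t^(7:ℕ) + 81*d^(3:ℕ)*t^(8:ℕ) + (-43)*d^(3:ℕ)*t^(9:ℕ) + 16*d^(3:ℕ)*t^(10:ℕ) + (-12)*d^(3:ℕ)*t^(11:ℕ) + 32*d^(4:ℕ)*t^(2:ℕ) + (-16)*d^(4:ℕ)*t^(3:ℕ) + 4*d^(4:ℕ)*t^(4:ℕ) + 22*d^(4:ℕ)*t^(5:ℕ) + (-24)*d^(4:ℕ)*t^(6:ℕ) + 28*d^(4:ℕ)*t^(7:ℕ) + 12*d^(4:ℕ)*t^(8:ℕ) + (-18)*d^(4:ℕ)*t^(9:ℕ) + 8*d^(4:ℕ)*t^(10:ℕ) + (-8)*d^(4:ℕ)*t^(11:ℕ) + (-32)*d^(5:ℕ)*t^(2:ℕ) + (167/4)*d^(5:ℕ)*t^(3:ℕ) + (-12)*d^(5:ℕ)*t^(4:ℕ)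 + (-79/2)*d^(5:ℕ)*t^(5:ℕ) + (121/2)*d^(5:ℕ)*t^(6:ℕ) + (-261/4)*d^(5:ℕ)*t^(7:ℕ) + (87/2)*d^(5:ℕ)*t^(8:ℕ) + (-61/4)*d^(5:ℕ)*t^(9:ℕ) + 3*d^(5:ℕ)*t^(10:ℕ) + (-1)*d^(5:ℕ)*t^(11:ℕ) + 10*d^(6:ℕ)*t^(5:ℕ) + (-31)*d^(6:ℕ)*t^(6:ℕ) + 40*d^(6:ℕ)*t^(7:ℕ) + (-19)*d^(6:ℕ)*t^(8:ℕ) + (-7)*d^(6:ℕ)*t^(9:ℕ) + 12*d^(6:ℕ)*t^(10:ℕ) + (-4)*d^(6:ℕ)*t^(11:ℕ) + (-4)*d^(7:ℕ)*t^(7:ℕ) + 12*d^(7:ℕ)*t^(8:ℕ) + (-17)*d^(7:ℕ)*t^(9:ℕ) + 12*d^(7:ℕ)*t^(10:ℕ) + (-4)*d^(7:ℕ)*t^(11:ℕ) := by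
  have e0 : 2 + 2*t + 10*t^(2:ℕ) + 10*t^(3:ℕ) + 20*t^(4:ℕ) + 20*t^(5:ℕ) + 20*t^(6:ℕ) + 20*t^(7:ℕ) + 10*t^(8:ℕ) + 10*t^(9:ℕ) + 2*t^(10:ℕ) + 2*t^(11:ℕ) + 4*d + 3*d*t + (59/2)*d*t^(2:ℕ) + 23*d*t^(3:ℕ) + 70*d*t^(4:ℕ) + 54*d*t^(5:ℕ) + 73*d*t^(6:ℕ) + 54*d*t^(7:ℕ) + 34*d*t^(8:ℕ) + 23*d*t^(9:ℕ) + (11/2)*d*t^(10:ℕ) + 3*d*t^(11:ℕ) + (-16)*d^(2:ℕ) + (-16)*d^(2:ℕ)*t + (-32)*d^(2:ℕ)*t^(2:ℕ) + (-28)*d^(2:ℕ)*t^(3:ℕ) + 36*d^(2:ℕ)*t^(4:ℕ) + 25*d^(2:ℕ)*t^(5:ℕ) + 113*d^(2:ℕ)*t^(6:ℕ) + 48*d^(2:ℕ)*t^(7:ℕ) + 70*d^(2:ℕ)*t^(8:ℕ) + 5*d^(2:ℕ)*t^(9:ℕ) + 9*d^(2:ℕ)*t^(10:ℕ) + (-6)*d^(2:ℕ)*t^(11:ℕ) + (-41)*d^(3:ℕ)*t^(2:ℕ) + (-48)*d^(3:ℕ)*t^(3:ℕ) + (-55)*d^(3:ℕ)*t^(4:ℕ) + (-31)*d^(3:ℕ)*t^(5:ℕ) +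 51*d^(3:ℕ)*t^(6:ℕ) + (-14)*d^(3:ℕ)*t^(7:ℕ) + 81*d^(3:ℕ)*t^(8:ℕ) + (-43)*d^(3:ℕ)*t^(9:ℕ) + 16*d^(3:ℕ)*t^(10:ℕ) + (-12)*d^(3:ℕ)*t^(11:ℕ) + 32*d^(4:ℕ)*t^(2:ℕ) + (-16)*d^(4:ℕ)*t^(3:ℕ) + 4*d^(4:ℕ)*t^(4:ℕ) + 22*d^(4:ℕ)*t^(5:ℕ) + (-24)*d^(4:ℕ)*t^(6:ℕ) + 28*d^(4:ℕ)*t^(7:ℕ) + 12*d^(4:ℕ)*t^(8:ℕ) + (-18)*d^(4:ℕ)*t^(9:ℕ) + 8*d^(4:ℕ)*t^(10:ℕ) + (-8)*d^(4:ℕ)*t^(11:ℕ) + (-32)*d^(5:ℕ)*t^(2:ℕ) + (167/4)*d^(5:ℕ)*t^(3:ℕ) + (-12)*d^(5:ℕ)*t^(4:ℕ) + (-79/2)*d^(5:ℕ)*t^(5:ℕ) + (121/2)*d^(5:ℕ)*t^(6:ℕ) + (-261/4)*d^(5:ℕ)*t^(7:ℕ) + (87/2)*d^(5:ℕ)*t^(8:ℕ) + (-61/4)*d^(5:ℕ)*t^(9:ℕ) + 3*d^(5:ℕ)*t^(10:ℕ) + (-1)*d^(5:ℕ)*t^(11:ℕ) + 10*d^(6:ℕ)*t^(5:ℕ) + (-31)*d^(6:ℕ)*t^(6:ℕ) + 40*d^(6:ℕ)*t^(7:ℕ) + (-19)*d^(6:ℕ)*t^(8:ℕ)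 + (-7)*d^(6:ℕ)*t^(9:ℕ) + 12*d^(6:ℕ)*t^(10:ℕ) + (-4)*d^(6:ℕ)*t^(11:ℕ) + (-4)*d^(7:ℕ)*t^(7:ℕ) + 12*d^(7:ℕ)*t^(8:ℕ) + (-17)*d^(7:ℕ)*t^(9:ℕ) + 12*d^(7:ℕ)*t^(10:ℕ) + (-4)*d^(7:ℕ)*t^(11:ℕ) = (2 + 2*t + 10*t^(2:ℕ) + 10*t^(3:ℕ) + 20*t^(4:ℕ) + 20*t^(5:ℕ) + 20*t^(6:ℕ) + 20*t^(7:ℕ) + 10*t^(8:ℕ) + 10*t^(9:ℕ) + 2*t^(10:ℕ) + 2*t^(11:ℕ)) + d*(4 + 3*t + (59/2)*t^(2:ℕ) + 23*t^(3:ℕ) + 70*t^(4:ℕ) + 54*t^(5:ℕ) + 73*t^(6:ℕ) + 54*t^(7:ℕ) + 34*t^(8:ℕ) + 23*t^(9:ℕ) + (11/2)*t^(10:ℕ) + 3*t^(11:ℕ)) + d^(2:ℕ)*((-16) + (-16)*t + (-32)*t^(2:ℕ) + (-28)*t^(3:ℕ) + 36*t^(4:ℕ) + 25*t^(5:ℕ) + 113*t^(6:ℕ) + 48*t^(7:ℕ) + 70*t^(8:ℕ) + 5*t^(9:ℕ) + 9*t^(10:ℕ) + (-6)*t^(11:ℕ)) + d^(3:ℕ)*((-41)*t^(2:ℕ) + (-48)*t^(3:ℕ)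 + (-55)*t^(4:ℕ) + (-31)*t^(5:ℕ) + 51*t^(6:ℕ) + (-14)*t^(7:ℕ) + 81*t^(8:ℕ) + (-43)*t^(9:ℕ) + 16*t^(10:ℕ) + (-12)*t^(11:ℕ)) + d^(4:ℕ)*(32*t^(2:ℕ) + (-16)*t^(3:ℕ) + 4*t^(4:ℕ) + 22*t^(5:ℕ) + (-24)*t^(6:ℕ) + 28*t^(7:ℕ) + 12*t^(8:ℕ) + (-18)*t^(9:ℕ) + 8*t^(10:ℕ) + (-8)*t^(11:ℕ)) + d^(5:ℕ)*((-32)*t^(2:ℕ) + (167/4)*t^(3:ℕ) + (-12)*t^(4:ℕ) + (-79/2)*t^(5:ℕ) + (121/2)*t^(6:ℕ) + (-261/4)*t^(7:ℕ) + (87/2)*t^(8:ℕ) + (-61/4)*t^(9:ℕ) + 3*t^(10:ℕ) + (-1)*t^(11:ℕ)) + d^(6:ℕ)*(10*t^(5:ℕ) + (-31)*t^(6:ℕ) + 40*t^(7:ℕ) + (-19)*t^(8:ℕ) + (-7)*t^(9:ℕ) + 12*t^(10:ℕ) + (-4)*t^(11:ℕ)) + d^(7:ℕ)*((-4)*t^(7:ℕ) + 12*t^(8:ℕ) + (-17)*t^(9:ℕ) + 12*t^(10:ℕ) + (-4)*t^(11:ℕ)) := by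
    ring
  rw [e0, pos_L20_id]
  have a2 : 0 ≤ (1/7) - d := by linarith
  have b0 : 0 ≤ 1*(2 + 2*t + 10*t^(2:ℕ) + 10*t^(3:ℕ) + 20*t^(4:ℕ) + 20*t^(5:ℕ) + 20*t^(6:ℕ) + 20*t^(7:ℕ) + 10*t^(8:ℕ) + 10*t^(9:ℕ) + 2*t^(10:ℕ) + 2*t^(11:ℕ)) - (1/10) := by
    have h := pos_L20_b0 t h3 h4
    have e : 1*(2 + 2*t + 10*t^(2:ℕ) + 10*t^(3:ℕ) + 20*t^(4:ℕ) + 20*t^(5:ℕ) + 20*t^(6:ℕ) + 20*t^(7:ℕ) + 10*t^(8:ℕ) + 10*t^(9:ℕ) + 2*t^(10:ℕ) + 2*t^(11:ℕ)) - (1/10) = (19/10) + 2*t + 10*t^(2:ℕ) + 10*t^(3:ℕ) + 20*t^(4:ℕ) + 20*t^(5:ℕ) + 20*t^(6:ℕ) + 20*t^(7:ℕ) + 10*t^(8:ℕ) + 10*t^(9:ℕ) + 2*t^(10:ℕ) + 2*t^(11:ℕ) := by ring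
    rw [e]; exact h
  have b1 : 0 ≤ 1*(2 + 2*t + 10*t^(2:ℕ) + 10*t^(3:ℕ) + 20*t^(4:ℕ) + 20*t^(5:ℕ) + 20*t^(6:ℕ) + 20*t^(7:ℕ) + 10*t^(8:ℕ) + 10*t^(9:ℕ) + 2*t^(10:ℕ) + 2*t^(11:ℕ)) + (1/49)*(4 + 3*t + (59/2)*t^(2:ℕ) + 23*t^(3:ℕ) + 70*t^(4:ℕ) + 54*t^(5:ℕ) + 73*t^(6:ℕ) + 54*t^(7:ℕ) + 34*t^(8:ℕ) + 23*t^(9:ℕ) + (11/2)*t^(10:ℕ) + 3*t^(11:ℕ)) - (1/10) := by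
    have h := pos_L20_b1 t h3 h4
    have e : 1*(2 + 2*t + 10*t^(2:ℕ) + 10*t^(3:ℕ) + 20*t^(4:ℕ) + 20*t^(5:ℕ) + 20*t^(6:ℕ) + 20*t^(7:ℕ) + 10*t^(8:ℕ) + 10*t^(9:ℕ) + 2*t^(10:ℕ) + 2*t^(11:ℕ)) + (1/49)*(4 + 3*t + (59/2)*t^(2:ℕ) + 23*t^(3:ℕ) + 70*t^(4:ℕ) + 54*t^(5:ℕ) + 73*t^(6:ℕ) + 54*t^(7:ℕ) + 34*t^(8:ℕ) + 23*t^(9:ℕ) + (11/2)*t^(10:ℕ) + 3*t^(11:ℕ)) - (1/10) = (971/490) + (101/49)*t + (1039/98)*t^(2:ℕ) + (513/49)*t^(3:ℕ) + (150/7)*t^(4:ℕ) + (1034/49)*t^(5:ℕ) + (1053/49)*t^(6:ℕ) + (1034/49)*t^(7:ℕ) + (524/49)*t^(8:ℕ) + (513/49)*t^(9:ℕ) + (207/98)*t^(10:ℕ) + (101/49)*t^(11:ℕ) := by ring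
    rw [e]; exact h
  have b2 : 0 ≤ 1*(2 + 2*t + 10*t^(2:ℕ) + 10*t^(3:ℕ) + 20*t^(4:ℕ) + 20*t^(5:ℕ) + 20*t^(6:ℕ) + 20*t^(7:ℕ) + 10*t^(8:ℕ) + 10*t^(9:ℕ) + 2*t^(10:ℕ) + 2*t^(11:ℕ)) + (2/49)*(4 + 3*t + (59/2)*t^(2:ℕ) + 23*t^(3:ℕ) + 70*t^(4:ℕ) + 54*t^(5:ℕ) + 73*t^(6:ℕ) + 54*t^(7:ℕ) + 34*t^(8:ℕ) + 23*t^(9:ℕ) + (11/2)*t^(10:ℕ) + 3*t^(11:ℕ)) + (1/1029)*((-16) + (-16)*t + (-32)*t^(2:ℕ) + (-28)*t^(3:ℕ) + 36*t^(4:ℕ) + 25*t^(5:ℕ) + 113*t^(6:ℕ) + 48*t^(7:ℕ) + 70*t^(8:ℕ) + 5*t^(9:ℕ) + 9*t^(10:ℕ) + (-6)*t^(11:ℕ)) - (1/10) := by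
    have h := pos_L20_b2 t h3 h4
    have e : 1*(2 + 2*t + 10*t^(2:ℕ) + 10*t^(3:ℕ) + 20*t^(4:ℕ) + 20*t^(5:ℕ) + 20*t^(6:ℕ) + 20*t^(7:ℕ) + 10*t^(8:ℕ) + 10*t^(9:ℕ) + 2*t^(10:ℕ) + 2*t^(11:ℕ)) + (2/49)*(4 + 3*t + (59/2)*t^(2:ℕ) + 23*t^(3:ℕ) + 70*t^(4:ℕ) + 54*t^(5:ℕ) + 73*t^(6:ℕ) + 54*t^(7:ℕ) + 34*t^(8:ℕ) + 23*t^(9:ℕ) + (11/2)*t^(10:ℕ) + 3*t^(11:ℕ)) + (1/1029)*((-16) + (-16)*t + (-32)*t^(2:ℕ) + (-28)*t^(3:ℕ) + 36*t^(4:ℕ) + 25*t^(5:ℕ) + 113*t^(6:ℕ) + 48*t^(7:ℕ) + 70*t^(8:ℕ) + 5*t^(9:ℕ) + 9*t^(10:ℕ) + (-6)*t^(11:ℕ)) - (1/10) = (21071/10290) + (2168/1029)*t + (11497/1029)*t^(2:ℕ) + (1604/147)*t^(3:ℕ) + (7852/343)*t^(4:ℕ) + (22873/1029)*t^(5:ℕ) + (23759/1029)*t^(6:ℕ) + (7632/343)*t^(7:ℕ)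 + (1684/147)*t^(8:ℕ) + (11261/1029)*t^(9:ℕ) + (766/343)*t^(10:ℕ) + (726/343)*t^(11:ℕ) := by ring
    rw [e]; exact h
  have b3 : 0 ≤ 1*(2 + 2*t + 10*t^(2:ℕ) + 10*t^(3:ℕ) + 20*t^(4:ℕ) + 20*t^(5:ℕ) + 20*t^(6:ℕ) + 20*t^(7:ℕ) + 10*t^(8:ℕ) + 10*t^(9:ℕ) + 2*t^(10:ℕ) + 2*t^(11:ℕ)) + (3/49)*(4 + 3*t + (59/2)*t^(2:ℕ) + 23*t^(3:ℕ) + 70*t^(4:ℕ) + 54*t^(5:ℕ) + 73*t^(6:ℕ) + 54*t^(7:ℕ) + 34*t^(8:ℕ) + 23*t^(9:ℕ) + (11/2)*t^(10:ℕ) + 3*t^(11:ℕ)) + (1/343)*((-16) + (-16)*t + (-32)*t^(2:ℕ) + (-28)*t^(3:ℕ) + 36*t^(4:ℕ) + 25*t^(5:ℕ) + 113*t^(6:ℕ) + 48*t^(7:ℕ) + 70*t^(8:ℕ) + 5*t^(9:ℕ) + 9*t^(10:ℕ) + (-6)*t^(11:ℕ)) + (1/12005)*((-41)*t^(2:ℕ) + (-48)*t^(3:ℕ) + (-55)*t^(4:ℕ) + (-31)*t^(5:ℕ)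 + 51*t^(6:ℕ) + (-14)*t^(7:ℕ) + 81*t^(8:ℕ) + (-43)*t^(9:ℕ) + 16*t^(10:ℕ) + (-12)*t^(11:ℕ)) - (1/10) := by
    have h := pos_L20_b3 t h3 h4
    have e : 1*(2 + 2*t + 10*t^(2:ℕ) + 10*t^(3:ℕ) + 20*t^(4:ℕ) + 20*t^(5:ℕ) + 20*t^(6:ℕ) + 20*t^(7:ℕ) + 10*t^(8:ℕ) + 10*t^(9:ℕ) + 2*t^(10:ℕ) + 2*t^(11:ℕ)) + (3/49)*(4 + 3*t + (59/2)*t^(2:ℕ) + 23*t^(3:ℕ) + 70*t^(4:ℕ) + 54*t^(5:ℕ) + 73*t^(6:ℕ) + 54*t^(7:ℕ) + 34*t^(8:ℕ) + 23*t^(9:ℕ) + (11/2)*t^(10:ℕ) + 3*t^(11:ℕ)) + (1/343)*((-16) + (-16)*t + (-32)*t^(2:ℕ) + (-28)*t^(3:ℕ) + 36*t^(4:ℕ) + 25*t^(5:ℕ) + 113*t^(6:ℕ) + 48*t^(7:ℕ) + 70*t^(8:ℕ) + 5*t^(9:ℕ) + 9*t^(10:ℕ) + (-6)*t^(11:ℕ)) + (1/12005)*((-41)*t^(2:ℕ) + (-48)*t^(3:ℕ) + (-55)*t^(4:ℕ)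 + (-31)*t^(5:ℕ) + 51*t^(6:ℕ) + (-14)*t^(7:ℕ) + 81*t^(8:ℕ) + (-43)*t^(9:ℕ) + 16*t^(10:ℕ) + (-12)*t^(11:ℕ)) - (1/10) = (7197/3430) + (733/343)*t + (281143/24010)*t^(2:ℕ) + (135927/12005)*t^(3:ℕ) + (58551/2401)*t^(4:ℕ) + (280634/12005)*t^(5:ℕ) + (297761/12005)*t^(6:ℕ) + (5744/245)*t^(7:ℕ) + (147571/12005)*t^(8:ℕ) + (137087/12005)*t^(9:ℕ) + (56767/24010)*t^(10:ℕ) + (25993/12005)*t^(11:ℕ) := by ring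
    rw [e]; exact h
  have b4 : 0 ≤ 1*(2 + 2*t + 10*t^(2:ℕ) + 10*t^(3:ℕ) + 20*t^(4:ℕ) + 20*t^(5:ℕ) + 20*t^(6:ℕ) + 20*t^(7:ℕ) + 10*t^(8:ℕ) + 10*t^(9:ℕ) + 2*t^(10:ℕ) + 2*t^(11:ℕ)) + (4/49)*(4 + 3*t + (59/2)*t^(2:ℕ) + 23*t^(3:ℕ) + 70*t^(4:ℕ) + 54*t^(5:ℕ) + 73*t^(6:ℕ) + 54*t^(7:ℕ) + 34*t^(8:ℕ) + 23*t^(9:ℕ) + (11/2)*t^(10:ℕ) + 3*t^(11:ℕ)) + (2/343)*((-16) + (-16)*t + (-32)*t^(2:ℕ) + (-28)*t^(3:ℕ) + 36*t^(4:ℕ) + 25*t^(5:ℕ) + 113*t^(6:ℕ) + 48*t^(7:ℕ) + 70*t^(8:ℕ) + 5*t^(9:ℕ) + 9*t^(10:ℕ) + (-6)*t^(11:ℕ)) + (4/12005)*((-41)*t^(2:ℕ) + (-48)*t^(3:ℕ) + (-55)*t^(4:ℕ) + (-31)*t^(5:ℕ) + 51*t^(6:ℕ) + (-14)*t^(7:ℕ) + 81*t^(8:ℕ) + (-43)*t^(9:ℕ) + 16*t^(10:ℕ) + (-12)*t^(11:ℕ)) + (1/84035)*(32*t^(2:ℕ)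 + (-16)*t^(3:ℕ) + 4*t^(4:ℕ) + 22*t^(5:ℕ) + (-24)*t^(6:ℕ) + 28*t^(7:ℕ) + 12*t^(8:ℕ) + (-18)*t^(9:ℕ) + 8*t^(10:ℕ) + (-8)*t^(11:ℕ)) - (1/10) := by
    have h := pos_L20_b4 t h3 h4
    have e : 1*(2 + 2*t + 10*t^(2:ℕ) + 10*t^(3:ℕ) + 20*t^(4:ℕ) + 20*t^(5:ℕ) + 20*t^(6:ℕ) + 20*t^(7:ℕ) + 10*t^(8:ℕ) + 10*t^(9:ℕ) + 2*t^(10:ℕ) + 2*t^(11:ℕ)) + (4/49)*(4 + 3*t + (59/2)*t^(2:ℕ) + 23*t^(3:ℕ) + 70*t^(4:ℕ) + 54*t^(5:ℕ) + 73*t^(6:ℕ) + 54*t^(7:ℕ) + 34*t^(8:ℕ) + 23*t^(9:ℕ) + (11/2)*t^(10:ℕ) + 3*t^(11:ℕ)) + (2/343)*((-16) + (-16)*t + (-32)*t^(2:ℕ) + (-28)*t^(3:ℕ) + 36*t^(4:ℕ) + 25*t^(5:ℕ) + 113*t^(6:ℕ) + 48*t^(7:ℕ) + 70*t^(8:ℕ) + 5*t^(9:ℕ) + 9*t^(10:ℕ) + (-6)*t^(11:ℕ)) + (4/12005)*((-41)*t^(2:ℕ)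 + (-48)*t^(3:ℕ) + (-55)*t^(4:ℕ) + (-31)*t^(5:ℕ) + 51*t^(6:ℕ) + (-14)*t^(7:ℕ) + 81*t^(8:ℕ) + (-43)*t^(9:ℕ) + 16*t^(10:ℕ) + (-12)*t^(11:ℕ)) + (1/84035)*(32*t^(2:ℕ) + (-16)*t^(3:ℕ) + 4*t^(4:ℕ) + 22*t^(5:ℕ) + (-24)*t^(6:ℕ) + 28*t^(7:ℕ) + 12*t^(8:ℕ) + (-18)*t^(9:ℕ) + 8*t^(10:ℕ) + (-8)*t^(11:ℕ)) - (1/10) = (7317/3430) + (738/343)*t + (1025924/84035)*t^(2:ℕ) + (196610/16807)*t^(3:ℕ) + (2177004/84035)*t^(4:ℕ) + (2062544/84035)*t^(5:ℕ) + (2238254/84035)*t^(6:ℕ) + (296328/12005)*t^(7:ℕ) + (222034/16807)*t^(8:ℕ) + (999358/84035)*t^(9:ℕ) + (210666/84035)*t^(10:ℕ) + (185366/84035)*t^(11:ℕ) := by ring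
    rw [e]; exact h
  have b5 : 0 ≤ 1*(2 + 2*t + 10*t^(2:ℕ) + 10*t^(3:ℕ) + 20*t^(4:ℕ) + 20*t^(5:ℕ) + 20*t^(6:ℕ) + 20*t^(7:ℕ) + 10*t^(8:ℕ) + 10*t^(9:ℕ) + 2*t^(10:ℕ) + 2*t^(11:ℕ)) + (5/49)*(4 + 3*t + (59/2)*t^(2:ℕ) + 23*t^(3:ℕ) + 70*t^(4:ℕ) + 54*t^(5:ℕ) + 73*t^(6:ℕ) + 54*t^(7:ℕ) + 34*t^(8:ℕ) + 23*t^(9:ℕ) + (11/2)*t^(10:ℕ) + 3*t^(11:ℕ)) + (10/1029)*((-16) + (-16)*t + (-32)*t^(2:ℕ) + (-28)*t^(3:ℕ) + 36*t^(4:ℕ) + 25*t^(5:ℕ) + 113*t^(6:ℕ) + 48*t^(7:ℕ) + 70*t^(8:ℕ) + 5*t^(9:ℕ) + 9*t^(10:ℕ) + (-6)*t^(11:ℕ)) + (2/2401)*((-41)*t^(2:ℕ) + (-48)*t^(3:ℕ) + (-55)*t^(4:ℕ) + (-31)*t^(5:ℕ) + 51*t^(6:ℕ) + (-14)*t^(7:ℕ) + 81*t^(8:ℕ) + (-43)*t^(9:ℕ) + 16*t^(10:ℕ) + (-12)*t^(11:ℕ)) + (1/16807)*(32*t^(2:ℕ)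 + (-16)*t^(3:ℕ) + 4*t^(4:ℕ) + 22*t^(5:ℕ) + (-24)*t^(6:ℕ) + 28*t^(7:ℕ) + 12*t^(8:ℕ) + (-18)*t^(9:ℕ) + 8*t^(10:ℕ) + (-8)*t^(11:ℕ)) + (1/352947)*((-32)*t^(2:ℕ) + (167/4)*t^(3:ℕ) + (-12)*t^(4:ℕ) + (-79/2)*t^(5:ℕ) + (121/2)*t^(6:ℕ) + (-261/4)*t^(7:ℕ) + (87/2)*t^(8:ℕ) + (-61/4)*t^(9:ℕ) + 3*t^(10:ℕ) + (-1)*t^(11:ℕ)) - (1/10) := by
    have h := pos_L20_b5 t h3 h4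
    have e : 1*(2 + 2*t + 10*t^(2:ℕ) + 10*t^(3:ℕ) + 20*t^(4:ℕ) + 20*t^(5:ℕ) + 20*t^(6:ℕ) + 20*t^(7:ℕ) + 10*t^(8:ℕ) + 10*t^(9:ℕ) + 2*t^(10:ℕ) + 2*t^(11:ℕ)) + (5/49)*(4 + 3*t + (59/2)*t^(2:ℕ) + 23*t^(3:ℕ) + 70*t^(4:ℕ) + 54*t^(5:ℕ) + 73*t^(6:ℕ) + 54*t^(7:ℕ) + 34*t^(8:ℕ) + 23*t^(9:ℕ) + (11/2)*t^(10:ℕ) + 3*t^(11:ℕ)) + (10/1029)*((-16) + (-16)*t + (-32)*t^(2:ℕ) + (-28)*t^(3:ℕ) + 36*t^(4:ℕ) + 25*t^(5:ℕ) + 113*t^(6:ℕ) + 48*t^(7:ℕ) + 70*t^(8:ℕ) + 5*t^(9:ℕ) + 9*t^(10:ℕ) + (-6)*t^(11:ℕ)) + (2/2401)*((-41)*t^(2:ℕ) + (-48)*t^(3:ℕ) + (-55)*t^(4:ℕ) + (-31)*t^(5:ℕ) + 51*t^(6:ℕ) + (-14)*t^(7:ℕ) + 81*t^(8:ℕ) + (-43)*t^(9:ℕ) + 16*t^(10:ℕ) + (-12)*t^(11:ℕ)) + (1/16807)*(32*t^(2:ℕ) + (-16)*t^(3:ℕ)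 + 4*t^(4:ℕ) + 22*t^(5:ℕ) + (-24)*t^(6:ℕ) + 28*t^(7:ℕ) + 12*t^(8:ℕ) + (-18)*t^(9:ℕ) + 8*t^(10:ℕ) + (-8)*t^(11:ℕ)) + (1/352947)*((-32)*t^(2:ℕ) + (167/4)*t^(3:ℕ) + (-12)*t^(4:ℕ) + (-79/2)*t^(5:ℕ) + (121/2)*t^(6:ℕ) + (-261/4)*t^(7:ℕ) + (87/2)*t^(8:ℕ) + (-61/4)*t^(9:ℕ) + 3*t^(10:ℕ) + (-1)*t^(11:ℕ)) - (1/10) = (22151/10290) + (2213/1029)*t + (8941477/705894)*t^(2:ℕ) + (16989475/1411788)*t^(3:ℕ) + (3229124/117649)*t^(4:ℕ) + (18161617/705894)*t^(5:ℕ) + (20180351/705894)*t^(6:ℕ) + (12219729/470596)*t^(7:ℕ) + (10036379/705894)*t^(8:ℕ) + (17447719/1411788)*t^(9:ℕ) + (626481/235298)*t^(10:ℕ) + (789662/352947)*t^(11:ℕ) := by ring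
    rw [e]; exact h
  have b6 : 0 ≤ 1*(2 + 2*t + 10*t^(2:ℕ) + 10*t^(3:ℕ) + 20*t^(4:ℕ) + 20*t^(5:ℕ) + 20*t^(6:ℕ) + 20*t^(7:ℕ) + 10*t^(8:ℕ) + 10*t^(9:ℕ) + 2*t^(10:ℕ) + 2*t^(11:ℕ)) + (6/49)*(4 + 3*t + (59/2)*t^(2:ℕ) + 23*t^(3:ℕ) + 70*t^(4:ℕ) + 54*t^(5:ℕ) + 73*t^(6:ℕ) + 54*t^(7:ℕ) + 34*t^(8:ℕ) + 23*t^(9:ℕ) + (11/2)*t^(10:ℕ) + 3*t^(11:ℕ)) + (5/343)*((-16) + (-16)*t + (-32)*t^(2:ℕ) + (-28)*t^(3:ℕ) + 36*t^(4:ℕ) + 25*t^(5:ℕ) + 113*t^(6:ℕ) + 48*t^(7:ℕ) + 70*t^(8:ℕ) + 5*t^(9:ℕ) + 9*t^(10:ℕ) + (-6)*t^(11:ℕ)) + (4/2401)*((-41)*t^(2:ℕ) + (-48)*t^(3:ℕ) + (-55)*t^(4:ℕ) + (-31)*t^(5:ℕ) + 51*t^(6:ℕ) + (-14)*t^(7:ℕ) + 81*t^(8:ℕ) + (-43)*t^(9:ℕ) + 16*t^(10:ℕ) + (-12)*t^(11:ℕ)) + (3/16807)*(32*t^(2:ℕ)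 + (-16)*t^(3:ℕ) + 4*t^(4:ℕ) + 22*t^(5:ℕ) + (-24)*t^(6:ℕ) + 28*t^(7:ℕ) + 12*t^(8:ℕ) + (-18)*t^(9:ℕ) + 8*t^(10:ℕ) + (-8)*t^(11:ℕ)) + (2/117649)*((-32)*t^(2:ℕ) + (167/4)*t^(3:ℕ) + (-12)*t^(4:ℕ) + (-79/2)*t^(5:ℕ) + (121/2)*t^(6:ℕ) + (-261/4)*t^(7:ℕ) + (87/2)*t^(8:ℕ) + (-61/4)*t^(9:ℕ) + 3*t^(10:ℕ) + (-1)*t^(11:ℕ)) + (1/823543)*(10*t^(5:ℕ) + (-31)*t^(6:ℕ) + 40*t^(7:ℕ) + (-19)*t^(8:ℕ) + (-7)*t^(9:ℕ) + 12*t^(10:ℕ) + (-4)*t^(11:ℕ)) - (1/10) := by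
    have h := pos_L20_b6 t h3 h4
    have e : 1*(2 + 2*t + 10*t^(2:ℕ) + 10*t^(3:ℕ) + 20*t^(4:ℕ) + 20*t^(5:ℕ) + 20*t^(6:ℕ) + 20*t^(7:ℕ) + 10*t^(8:ℕ) + 10*t^(9:ℕ) + 2*t^(10:ℕ) + 2*t^(11:ℕ)) + (6/49)*(4 + 3*t + (59/2)*t^(2:ℕ) + 23*t^(3:ℕ) + 70*t^(4:ℕ) + 54*t^(5:ℕ) + 73*t^(6:ℕ) + 54*t^(7:ℕ) + 34*t^(8:ℕ) + 23*t^(9:ℕ) + (11/2)*t^(10:ℕ) + 3*t^(11:ℕ)) + (5/343)*((-16) + (-16)*t + (-32)*t^(2:ℕ) + (-28)*t^(3:ℕ) + 36*t^(4:ℕ) + 25*t^(5:ℕ) + 113*t^(6:ℕ) + 48*t^(7:ℕ) + 70*t^(8:ℕ) + 5*t^(9:ℕ) + 9*t^(10:ℕ) + (-6)*t^(11:ℕ)) + (4/2401)*((-41)*t^(2:ℕ) + (-48)*t^(3:ℕ) + (-55)*t^(4:ℕ) + (-31)*t^(5:ℕ) + 51*t^(6:ℕ) + (-14)*t^(7:ℕ) + 81*t^(8:ℕ) + (-43)*t^(9:ℕ) + 16*t^(10:ℕ) + (-12)*t^(11:ℕ))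 + (3/16807)*(32*t^(2:ℕ) + (-16)*t^(3:ℕ) + 4*t^(4:ℕ) + 22*t^(5:ℕ) + (-24)*t^(6:ℕ) + 28*t^(7:ℕ) + 12*t^(8:ℕ) + (-18)*t^(9:ℕ) + 8*t^(10:ℕ) + (-8)*t^(11:ℕ)) + (2/117649)*((-32)*t^(2:ℕ) + (167/4)*t^(3:ℕ) + (-12)*t^(4:ℕ) + (-79/2)*t^(5:ℕ) + (121/2)*t^(6:ℕ) + (-261/4)*t^(7:ℕ) + (87/2)*t^(8:ℕ) + (-61/4)*t^(9:ℕ) + 3*t^(10:ℕ) + (-1)*t^(11:ℕ)) + (1/823543)*(10*t^(5:ℕ) + (-31)*t^(6:ℕ) + 40*t^(7:ℕ) + (-19)*t^(8:ℕ) + (-7)*t^(9:ℕ) + 12*t^(10:ℕ) + (-4)*t^(11:ℕ)) - (1/10) = (7397/3430) + (732/343)*t + (1539159/117649)*t^(2:ℕ) + (2900295/235298)*t^(3:ℕ) + (3412420/117649)*t^(4:ℕ) + (22176612/823543)*t^(5:ℕ) + (25256151/823543)*t^(6:ℕ) + (44953205/1647086)*t^(7:ℕ) + (12617894/823543)*t^(8:ℕ)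 + (430733/33614)*t^(9:ℕ) + (2332944/823543)*t^(10:ℕ) + (1859924/823543)*t^(11:ℕ) := by ring
    rw [e]; exact h
  have b7 : 0 ≤ 1*(2 + 2*t + 10*t^(2:ℕ) + 10*t^(3:ℕ) + 20*t^(4:ℕ) + 20*t^(5:ℕ) + 20*t^(6:ℕ) + 20*t^(7:ℕ) + 10*t^(8:ℕ) + 10*t^(9:ℕ) + 2*t^(10:ℕ) + 2*t^(11:ℕ)) + (1/7)*(4 + 3*t + (59/2)*t^(2:ℕ) + 23*t^(3:ℕ) + 70*t^(4:ℕ) + 54*t^(5:ℕ) + 73*t^(6:ℕ) + 54*t^(7:ℕ) + 34*t^(8:ℕ) + 23*t^(9:ℕ) + (11/2)*t^(10:ℕ) + 3*t^(11:ℕ)) + (1/49)*((-16) + (-16)*t + (-32)*t^(2:ℕ) + (-28)*t^(3:ℕ) + 36*t^(4:ℕ) + 25*t^(5:ℕ) + 113*t^(6:ℕ) + 48*t^(7:ℕ) + 70*t^(8:ℕ) + 5*t^(9:ℕ) + 9*t^(10:ℕ) + (-6)*t^(11:ℕ)) + (1/343)*((-41)*t^(2:ℕ) + (-48)*t^(3:ℕ) + (-55)*t^(4:ℕ) + (-31)*t^(5:ℕ) + 51*t^(6:ℕ)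 + (-14)*t^(7:ℕ) + 81*t^(8:ℕ) + (-43)*t^(9:ℕ) + 16*t^(10:ℕ) + (-12)*t^(11:ℕ)) + (1/2401)*(32*t^(2:ℕ) + (-16)*t^(3:ℕ) + 4*t^(4:ℕ) + 22*t^(5:ℕ) + (-24)*t^(6:ℕ) + 28*t^(7:ℕ) + 12*t^(8:ℕ) + (-18)*t^(9:ℕ) + 8*t^(10:ℕ) + (-8)*t^(11:ℕ)) + (1/16807)*((-32)*t^(2:ℕ) + (167/4)*t^(3:ℕ) + (-12)*t^(4:ℕ) + (-79/2)*t^(5:ℕ) + (121/2)*t^(6:ℕ) + (-261/4)*t^(7:ℕ) + (87/2)*t^(8:ℕ) + (-61/4)*t^(9:ℕ) + 3*t^(10:ℕ) + (-1)*t^(11:ℕ)) + (1/117649)*(10*t^(5:ℕ) + (-31)*t^(6:ℕ) + 40*t^(7:ℕ) + (-19)*t^(8:ℕ) + (-7)*t^(9:ℕ) + 12*t^(10:ℕ) + (-4)*t^(11:ℕ)) + (1/823543)*((-4)*t^(7:ℕ) + 12*t^(8:ℕ) + (-17)*t^(9:ℕ) + 12*t^(10:ℕ) + (-4)*t^(11:ℕ)) - (1/10) := by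
    have h := pos_L20_b7 t h3 h4
    have e : 1*(2 + 2*t + 10*t^(2:ℕ) + 10*t^(3:ℕ) + 20*t^(4:ℕ) + 20*t^(5:ℕ) + 20*t^(6:ℕ) + 20*t^(7:ℕ) + 10*t^(8:ℕ) + 10*t^(9:ℕ) + 2*t^(10:ℕ) + 2*t^(11:ℕ)) + (1/7)*(4 + 3*t + (59/2)*t^(2:ℕ) + 23*t^(3:ℕ) + 70*t^(4:ℕ) + 54*t^(5:ℕ) + 73*t^(6:ℕ) + 54*t^(7:ℕ) + 34*t^(8:ℕ) + 23*t^(9:ℕ) + (11/2)*t^(10:ℕ) + 3*t^(11:ℕ)) + (1/49)*((-16) + (-16)*t + (-32)*t^(2:ℕ) + (-28)*t^(3:ℕ) + 36*t^(4:ℕ) + 25*t^(5:ℕ) + 113*t^(6:ℕ) + 48*t^(7:ℕ) + 70*t^(8:ℕ) + 5*t^(9:ℕ) + 9*t^(10:ℕ) + (-6)*t^(11:ℕ)) + (1/343)*((-41)*t^(2:ℕ) + (-48)*t^(3:ℕ) + (-55)*t^(4:ℕ) + (-31)*t^(5:ℕ) + 51*t^(6:ℕ) + (-14)*t^(7:ℕ) + 81*t^(8:ℕ) + (-43)*t^(9:ℕ) + 16*t^(10:ℕ) + (-12)*t^(11:ℕ))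 + (1/2401)*(32*t^(2:ℕ) + (-16)*t^(3:ℕ) + 4*t^(4:ℕ) + 22*t^(5:ℕ) + (-24)*t^(6:ℕ) + 28*t^(7:ℕ) + 12*t^(8:ℕ) + (-18)*t^(9:ℕ) + 8*t^(10:ℕ) + (-8)*t^(11:ℕ)) + (1/16807)*((-32)*t^(2:ℕ) + (167/4)*t^(3:ℕ) + (-12)*t^(4:ℕ) + (-79/2)*t^(5:ℕ) + (121/2)*t^(6:ℕ) + (-261/4)*t^(7:ℕ) + (87/2)*t^(8:ℕ) + (-61/4)*t^(9:ℕ) + 3*t^(10:ℕ) + (-1)*t^(11:ℕ)) + (1/117649)*(10*t^(5:ℕ) + (-31)*t^(6:ℕ) + 40*t^(7:ℕ) + (-19)*t^(8:ℕ) + (-7)*t^(9:ℕ) + 12*t^(10:ℕ) + (-4)*t^(11:ℕ)) + (1/823543)*((-4)*t^(7:ℕ) + 12*t^(8:ℕ) + (-17)*t^(9:ℕ) + 12*t^(10:ℕ) + (-4)*t^(11:ℕ)) - (1/10) = (1051/490) + (103/49)*t + (452213/33614)*t^(2:ℕ) + (845067/67228)*t^(3:ℕ) + (513879/16807)*t^(4:ℕ) + (6621523/235298)*t^(5:ℕ) +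 (7735827/235298)*t^(6:ℕ) + (94414843/3294172)*t^(7:ℕ) + (27225187/1647086)*t^(8:ℕ) + (43660647/3294172)*t^(9:ℕ) + (4973643/1647086)*t^(10:ℕ) + (1867554/823543)*t^(11:ℕ) := by ring
    rw [e]; exact h
  generalize 1*(2 + 2*t + 10*t^(2:ℕ) + 10*t^(3:ℕ) + 20*t^(4:ℕ) + 20*t^(5:ℕ) + 20*t^(6:ℕ) + 20*t^(7:ℕ) + 10*t^(8:ℕ) + 10*t^(9:ℕ) + 2*t^(10:ℕ) + 2*t^(11:ℕ)) - (1/10) = B0 at b0 ⊢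
  generalize 1*(2 + 2*t + 10*t^(2:ℕ) + 10*t^(3:ℕ) + 20*t^(4:ℕ) + 20*t^(5:ℕ) + 20*t^(6:ℕ) + 20*t^(7:ℕ) + 10*t^(8:ℕ) + 10*t^(9:ℕ) + 2*t^(10:ℕ) + 2*t^(11:ℕ)) + (1/49)*(4 + 3*t + (59/2)*t^(2:ℕ) + 23*t^(3:ℕ) + 70*t^(4:ℕ) + 54*t^(5:ℕ) + 73*t^(6:ℕ) + 54*t^(7:ℕ) + 34*t^(8:ℕ) + 23*t^(9:ℕ) + (11/2)*t^(10:ℕ) + 3*t^(11:ℕ)) - (1/10) = B1 at b1 ⊢
  generalize 1*(2 + 2*t + 10*t^(2:ℕ) + 10*t^(3:ℕ) + 20*t^(4:ℕ) + 20*t^(5:ℕ) + 20*t^(6:ℕ) + 20*t^(7:ℕ) + 10*t^(8:ℕ) + 10*t^(9:ℕ) + 2*t^(10:ℕ) + 2*t^(11:ℕ)) + (2/49)*(4 + 3*t + (59/2)*t^(2:ℕ) + 23*t^(3:ℕ) + 70*t^(4:ℕ) + 54*t^(5:ℕ) + 73*t^(6:ℕ) + 54*t^(7:ℕ) + 34*t^(8:ℕ) + 23*t^(9:ℕ) + (11/2)*t^(10:ℕ) + 3*t^(11:ℕ)) + (1/1029)*((-16) + (-16)*t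 + (-32)*t^(2:ℕ) + (-28)*t^(3:ℕ) + 36*t^(4:ℕ) + 25*t^(5:ℕ) + 113*t^(6:ℕ) + 48*t^(7:ℕ) + 70*t^(8:ℕ) + 5*t^(9:ℕ) + 9*t^(10:ℕ) + (-6)*t^(11:ℕ)) - (1/10) = B2 at b2 ⊢
  generalize 1*(2 + 2*t + 10*t^(2:ℕ) + 10*t^(3:ℕ) + 20*t^(4:ℕ) + 20*t^(5:ℕ) + 20*t^(6:ℕ) + 20*t^(7:ℕ) + 10*t^(8:ℕ) + 10*t^(9:ℕ) + 2*t^(10:ℕ) + 2*t^(11:ℕ)) + (3/49)*(4 + 3*t + (59/2)*t^(2:ℕ) + 23*t^(3:ℕ) + 70*t^(4:ℕ) + 54*t^(5:ℕ) + 73*t^(6:ℕ) + 54*t^(7:ℕ) + 34*t^(8:ℕ) + 23*t^(9:ℕ) + (11/2)*t^(10:ℕ) + 3*t^(11:ℕ)) + (1/343)*((-16) + (-16)*t + (-32)*t^(2:ℕ) + (-28)*t^(3:ℕ) + 36*t^(4:ℕ) + 25*t^(5:ℕ) + 113*t^(6:ℕ) + 48*t^(7:ℕ) + 70*t^(8:ℕ) + 5*t^(9:ℕ) + 9*t^(10:ℕ) + (-6)*t^(11:ℕ)) + (1/12005)*((-41)*t^(2:ℕ) + (-48)*t^(3:ℕ)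 + (-55)*t^(4:ℕ) + (-31)*t^(5:ℕ) + 51*t^(6:ℕ) + (-14)*t^(7:ℕ) + 81*t^(8:ℕ) + (-43)*t^(9:ℕ) + 16*t^(10:ℕ) + (-12)*t^(11:ℕ)) - (1/10) = B3 at b3 ⊢
  generalize 1*(2 + 2*t + 10*t^(2:ℕ) + 10*t^(3:ℕ) + 20*t^(4:ℕ) + 20*t^(5:ℕ) + 20*t^(6:ℕ) + 20*t^(7:ℕ) + 10*t^(8:ℕ) + 10*t^(9:ℕ) + 2*t^(10:ℕ) + 2*t^(11:ℕ)) + (4/49)*(4 + 3*t + (59/2)*t^(2:ℕ) + 23*t^(3:ℕ) + 70*t^(4:ℕ) + 54*t^(5:ℕ) + 73*t^(6:ℕ) + 54*t^(7:ℕ) + 34*t^(8:ℕ) + 23*t^(9:ℕ) + (11/2)*t^(10:ℕ) + 3*t^(11:ℕ)) + (2/343)*((-16) + (-16)*t + (-32)*t^(2:ℕ) + (-28)*t^(3:ℕ) + 36*t^(4:ℕ) + 25*t^(5:ℕ) + 113*t^(6:ℕ) + 48*t^(7:ℕ) + 70*t^(8:ℕ) + 5*t^(9:ℕ) + 9*t^(10:ℕ) + (-6)*t^(11:ℕ)) + (4/12005)*((-41)*t^(2:ℕ) + (-48)*t^(3:ℕ) + (-55)*t^(4:ℕ)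 + (-31)*t^(5:ℕ) + 51*t^(6:ℕ) + (-14)*t^(7:ℕ) + 81*t^(8:ℕ) + (-43)*t^(9:ℕ) + 16*t^(10:ℕ) + (-12)*t^(11:ℕ)) + (1/84035)*(32*t^(2:ℕ) + (-16)*t^(3:ℕ) + 4*t^(4:ℕ) + 22*t^(5:ℕ) + (-24)*t^(6:ℕ) + 28*t^(7:ℕ) + 12*t^(8:ℕ) + (-18)*t^(9:ℕ) + 8*t^(10:ℕ) + (-8)*t^(11:ℕ)) - (1/10) = B4 at b4 ⊢
  generalize 1*(2 + 2*t + 10*t^(2:ℕ) + 10*t^(3:ℕ) + 20*t^(4:ℕ) + 20*t^(5:ℕ) + 20*t^(6:ℕ) + 20*t^(7:ℕ) + 10*t^(8:ℕ) + 10*t^(9:ℕ) + 2*t^(10:ℕ) + 2*t^(11:ℕ)) + (5/49)*(4 + 3*t + (59/2)*t^(2:ℕ) + 23*t^(3:ℕ) + 70*t^(4:ℕ) + 54*t^(5:ℕ) + 73*t^(6:ℕ) + 54*t^(7:ℕ) + 34*t^(8:ℕ) + 23*t^(9:ℕ) + (11/2)*t^(10:ℕ) + 3*t^(11:ℕ)) + (10/1029)*((-16) + (-16)*t + (-32)*t^(2:ℕ) + (-28)*t^(3:ℕ) + 36*t^(4:ℕ) + 25*t^(5:ℕ)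 + 113*t^(6:ℕ) + 48*t^(7:ℕ) + 70*t^(8:ℕ) + 5*t^(9:ℕ) + 9*t^(10:ℕ) + (-6)*t^(11:ℕ)) + (2/2401)*((-41)*t^(2:ℕ) + (-48)*t^(3:ℕ) + (-55)*t^(4:ℕ) + (-31)*t^(5:ℕ) + 51*t^(6:ℕ) + (-14)*t^(7:ℕ) + 81*t^(8:ℕ) + (-43)*t^(9:ℕ) + 16*t^(10:ℕ) + (-12)*t^(11:ℕ)) + (1/16807)*(32*t^(2:ℕ) + (-16)*t^(3:ℕ) + 4*t^(4:ℕ) + 22*t^(5:ℕ) + (-24)*t^(6:ℕ) + 28*t^(7:ℕ) + 12*t^(8:ℕ) + (-18)*t^(9:ℕ) + 8*t^(10:ℕ) + (-8)*t^(11:ℕ)) + (1/352947)*((-32)*t^(2:ℕ) + (167/4)*t^(3:ℕ) + (-12)*t^(4:ℕ) + (-79/2)*t^(5:ℕ) + (121/2)*t^(6:ℕ) + (-261/4)*t^(7:ℕ) + (87/2)*t^(8:ℕ) + (-61/4)*t^(9:ℕ) + 3*t^(10:ℕ) + (-1)*t^(11:ℕ)) - (1/10) = B5 at b5 ⊢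
  generalize 1*(2 + 2*t + 10*t^(2:ℕ) + 10*t^(3:ℕ) + 20*t^(4:ℕ) + 20*t^(5:ℕ) + 20*t^(6:ℕ) + 20*t^(7:ℕ) + 10*t^(8:ℕ) + 10*t^(9:ℕ) + 2*t^(10:ℕ) + 2*t^(11:ℕ)) + (6/49)*(4 + 3*t + (59/2)*t^(2:ℕ) + 23*t^(3:ℕ) + 70*t^(4:ℕ) + 54*t^(5:ℕ) + 73*t^(6:ℕ) + 54*t^(7:ℕ) + 34*t^(8:ℕ) + 23*t^(9:ℕ) + (11/2)*t^(10:ℕ) + 3*t^(11:ℕ)) + (5/343)*((-16) + (-16)*t + (-32)*t^(2:ℕ) + (-28)*t^(3:ℕ) + 36*t^(4:ℕ) + 25*t^(5:ℕ) + 113*t^(6:ℕ) + 48*t^(7:ℕ) + 70*t^(8:ℕ) + 5*t^(9:ℕ) + 9*t^(10:ℕ) + (-6)*t^(11:ℕ)) + (4/2401)*((-41)*t^(2:ℕ) + (-48)*t^(3:ℕ) + (-55)*t^(4:ℕ) + (-31)*t^(5:ℕ) + 51*t^(6:ℕ) + (-14)*t^(7:ℕ) + 81*t^(8:ℕ) + (-43)*t^(9:ℕ) + 16*t^(10:ℕ) + (-12)*t^(11:ℕ)) + (3/16807)*(32*t^(2:ℕ) + (-16)*t^(3:ℕ)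 + 4*t^(4:ℕ) + 22*t^(5:ℕ) + (-24)*t^(6:ℕ) + 28*t^(7:ℕ) + 12*t^(8:ℕ) + (-18)*t^(9:ℕ) + 8*t^(10:ℕ) + (-8)*t^(11:ℕ)) + (2/117649)*((-32)*t^(2:ℕ) + (167/4)*t^(3:ℕ) + (-12)*t^(4:ℕ) + (-79/2)*t^(5:ℕ) + (121/2)*t^(6:ℕ) + (-261/4)*t^(7:ℕ) + (87/2)*t^(8:ℕ) + (-61/4)*t^(9:ℕ) + 3*t^(10:ℕ) + (-1)*t^(11:ℕ)) + (1/823543)*(10*t^(5:ℕ) + (-31)*t^(6:ℕ) + 40*t^(7:ℕ) + (-19)*t^(8:ℕ) + (-7)*t^(9:ℕ) + 12*t^(10:ℕ) + (-4)*t^(11:ℕ)) - (1/10) = B6 at b6 ⊢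
  generalize 1*(2 + 2*t + 10*t^(2:ℕ) + 10*t^(3:ℕ) + 20*t^(4:ℕ) + 20*t^(5:ℕ) + 20*t^(6:ℕ) + 20*t^(7:ℕ) + 10*t^(8:ℕ) + 10*t^(9:ℕ) + 2*t^(10:ℕ) + 2*t^(11:ℕ)) + (1/7)*(4 + 3*t + (59/2)*t^(2:ℕ) + 23*t^(3:ℕ) + 70*t^(4:ℕ) + 54*t^(5:ℕ) + 73*t^(6:ℕ) + 54*t^(7:ℕ) + 34*t^(8:ℕ) + 23*t^(9:ℕ) + (11/2)*t^(10:ℕ) + 3*t^(11:ℕ)) + (1/49)*((-16) + (-16)*t + (-32)*t^(2:ℕ) + (-28)*t^(3:ℕ) + 36*t^(4:ℕ) + 25*t^(5:ℕ) + 113*t^(6:ℕ) + 48*t^(7:ℕ) + 70*t^(8:ℕ) + 5*t^(9:ℕ) + 9*t^(10:ℕ) + (-6)*t^(11:ℕ)) + (1/343)*((-41)*t^(2:ℕ) + (-48)*t^(3:ℕ) + (-55)*t^(4:ℕ) + (-31)*t^(5:ℕ) + 51*t^(6:ℕ) + (-14)*t^(7:ℕ) + 81*t^(8:ℕ) + (-43)*t^(9:ℕ) + 16*t^(10:ℕ) + (-12)*t^(11:ℕ)) + (1/2401)*(32*t^(2:ℕ) + (-16)*t^(3:ℕ)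 + 4*t^(4:ℕ) + 22*t^(5:ℕ) + (-24)*t^(6:ℕ) + 28*t^(7:ℕ) + 12*t^(8:ℕ) + (-18)*t^(9:ℕ) + 8*t^(10:ℕ) + (-8)*t^(11:ℕ)) + (1/16807)*((-32)*t^(2:ℕ) + (167/4)*t^(3:ℕ) + (-12)*t^(4:ℕ) + (-79/2)*t^(5:ℕ) + (121/2)*t^(6:ℕ) + (-261/4)*t^(7:ℕ) + (87/2)*t^(8:ℕ) + (-61/4)*t^(9:ℕ) + 3*t^(10:ℕ) + (-1)*t^(11:ℕ)) + (1/117649)*(10*t^(5:ℕ) + (-31)*t^(6:ℕ) + 40*t^(7:ℕ) + (-19)*t^(8:ℕ) + (-7)*t^(9:ℕ) + 12*t^(10:ℕ) + (-4)*t^(11:ℕ)) + (1/823543)*((-4)*t^(7:ℕ) + 12*t^(8:ℕ) + (-17)*t^(9:ℕ) + 12*t^(10:ℕ) + (-4)*t^(11:ℕ)) - (1/10) = B7 at b7 ⊢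
  generalize (1/7) - d = d2 at a2 ⊢
  positivity

lemma pos_L1e_b0 (t : ℝ) (h3 : 0 ≤ t) (h4 : t ≤ 1) :
    0 ≤ (3/10) + (2/5)*t + 2*t^(2:ℕ) + 2*t^(3:ℕ) + 4*t^(4:ℕ) + 4*t^(5:ℕ) + 4*t^(6:ℕ) + 4*t^(7:ℕ) + 2*t^(8:ℕ) + 2*t^(9:ℕ) + (2/5)*t^(10:ℕ) + (2/5)*t^(11:ℕ) := by
  have e : (3/10) + (2/5)*t + 2*t^(2:ℕ) + 2*t^(3:ℕ) + 4*t^(4:ℕ) + 4*t^(5:ℕ) + 4*t^(6:ℕ) + 4*t^(7:ℕ) + 2*t^(8:ℕ) + 2*t^(9:ℕ) + (2/5)*t^(10:ℕ) + (2/5)*t^(11:ℕ) = (3/10)*(1 - t)^(11:ℕ) + (37/10)*(t - 0)*(1 - t)^(10:ℕ) + (45/2)*(t - 0)^(2:ℕ)*(1 - t)^(9:ℕ) + (175/2)*(t - 0)^(3:ℕ)*(1 - t)^(8:ℕ) + 239*(t - 0)^(4:ℕ)*(1 - t)^(7:ℕ) + (2393/5)*(t - 0)^(5:ℕ)*(1 - t)^(6:ℕ) + (3577/5)*(t - 0)^(6:ℕ)*(1 - t)^(5:ℕ) + 799*(t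 - 0)^(7:ℕ)*(1 - t)^(4:ℕ) + (1311/2)*(t - 0)^(8:ℕ)*(1 - t)^(3:ℕ) + (757/2)*(t - 0)^(9:ℕ)*(1 - t)^(2:ℕ) + (1397/10)*(t - 0)^(10:ℕ)*(1 - t) + (51/2)*(t - 0)^(11:ℕ) := by
    ring
  rw [e]
  have a3 : 0 ≤ t - 0 := by linarith
  have a4 : 0 ≤ 1 - t := by linarith
  generalize t - 0 = t1 at a3 ⊢
  generalize 1 - t = t2 at a4 ⊢
  positivity

lemma pos_L1e_b1 (t : ℝ) (h3 : 0 ≤ t) (h4 : t ≤ 1) :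
    0 ≤ (33/100) + (261/700)*t + (129/56)*t^(2:ℕ) + (74/35)*t^(3:ℕ) + (176/35)*t^(4:ℕ) + (1131/280)*t^(5:ℕ) + (1413/280)*t^(6:ℕ) + (51/14)*t^(7:ℕ) + (33/14)*t^(8:ℕ) + (493/280)*t^(9:ℕ) + (163/350)*t^(10:ℕ) + (291/700)*t^(11:ℕ) := by
  have e : (33/100) + (261/700)*t + (129/56)*t^(2:ℕ) + (74/35)*t^(3:ℕ) + (176/35)*t^(4:ℕ) + (1131/280)*t^(5:ℕ) + (1413/280)*t^(6:ℕ) + (51/14)*t^(7:ℕ) + (33/14)*t^(8:ℕ) + (493/280)*t^(9:ℕ) + (163/350)*t^(10:ℕ) + (291/700)*t^(11:ℕ) = (33/100)*(1 - t)^(11:ℕ) + (1401/350)*(t - 0)*(1 - t)^(10:ℕ) + (6771/280)*(t - 0)^(2:ℕ)*(1 - t)^(9:ℕ) + (3763/40)*(t - 0)^(3:ℕ)*(1 - t)^(8:ℕ) + (9048/35)*(t - 0)^(4:ℕ)*(1 - t)^(7:ℕ) + (731779/1400)*(t - 0)^(5:ℕ)*(1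 - t)^(6:ℕ) + (1105933/1400)*(t - 0)^(6:ℕ)*(1 - t)^(5:ℕ) + (31182/35)*(t - 0)^(7:ℕ)*(1 - t)^(4:ℕ) + (51469/70)*(t - 0)^(8:ℕ)*(1 - t)^(3:ℕ) + (2122/5)*(t - 0)^(9:ℕ)*(1 - t)^(2:ℕ) + (27178/175)*(t - 0)^(10:ℕ)*(1 - t) + (9757/350)*(t - 0)^(11:ℕ) := by
    ring
  rw [e]
  have a3 : 0 ≤ t - 0 := by linarith
  have a4 : 0 ≤ 1 - t := by linarith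
  generalize t - 0 = t1 at a3 ⊢
  generalize 1 - t = t2 at a4 ⊢
  positivity

lemma pos_L1e_b2 (t : ℝ) (h3 : 0 ≤ t) (h4 : t ≤ 1) :
    0 ≤ (439/1225) + (5861/17150)*t + (89853/34300)*t^(2:ℕ) + (19252/8575)*t^(3:ℕ) + (52786/8575)*t^(4:ℕ) + (19937/4900)*t^(5:ℕ) + (105997/17150)*t^(6:ℕ) + (27561/8575)*t^(7:ℕ) + (46609/17150)*t^(8:ℕ) + (50683/34300)*t^(9:ℕ) + (18237/34300)*t^(10:ℕ) + (3678/8575)*t^(11:ℕ) := by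
  have e : (439/1225) + (5861/17150)*t + (89853/34300)*t^(2:ℕ) + (19252/8575)*t^(3:ℕ) + (52786/8575)*t^(4:ℕ) + (19937/4900)*t^(5:ℕ) + (105997/17150)*t^(6:ℕ) + (27561/8575)*t^(7:ℕ) + (46609/17150)*t^(8:ℕ) + (50683/34300)*t^(9:ℕ) + (18237/34300)*t^(10:ℕ) + (3678/8575)*t^(11:ℕ) = (439/1225)*(1 - t)^(11:ℕ) + (73467/17150)*(t - 0)*(1 - t)^(10:ℕ) + (883133/34300)*(t - 0)^(2:ℕ)*(1 - t)^(9:ℕ) + (688271/6860)*(t - 0)^(3:ℕ)*(1 - t)^(8:ℕ) + (2381229/8575)*(t - 0)^(4:ℕ)*(1 - t)^(7:ℕ) + (397183/700)*(t - 0)^(5:ℕ)*(1 - t)^(6:ℕ) + (14875073/17150)*(t - 0)^(6:ℕ)*(1 - t)^(5:ℕ) + (33883657/34300)*(t - 0)^(7:ℕ)*(1 - t)^(4:ℕ) + (14065137/17150)*(t - 0)^(8:ℕ)*(1 - t)^(3:ℕ) + (4058408/8575)*(t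 - 0)^(9:ℕ)*(1 - t)^(2:ℕ) + (2946369/17150)*(t - 0)^(10:ℕ)*(1 - t) + (520333/17150)*(t - 0)^(11:ℕ) := by
    ring
  rw [e]
  have a3 : 0 ≤ t - 0 := by linarith
  have a4 : 0 ≤ 1 - t := by linarith
  generalize t - 0 = t1 at a3 ⊢
  generalize 1 - t = t2 at a4 ⊢
  positivity

lemma pos_L1e_b3 (t : ℝ) (h3 : 0 ≤ t) (h4 : t ≤ 1) :
    0 ≤ (1887/4900) + (10519/34300)*t + (708247/240100)*t^(2:ℕ) + (1147801/480200)*t^(3:ℕ) + (3548831/480200)*t^(4:ℕ) + (1960213/480200)*t^(5:ℕ) + (711553/96040)*t^(6:ℕ) + (260371/96040)*t^(7:ℕ) + (1479059/480200)*t^(8:ℕ) + (22129/19208)*t^(9:ℕ) + (286577/480200)*t^(10:ℕ) + (26381/60025)*t^(11:ℕ) := by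
  have e : (1887/4900) + (10519/34300)*t + (708247/240100)*t^(2:ℕ) + (1147801/480200)*t^(3:ℕ) + (3548831/480200)*t^(4:ℕ) + (1960213/480200)*t^(5:ℕ) + (711553/96040)*t^(6:ℕ) + (260371/96040)*t^(7:ℕ) + (1479059/480200)*t^(8:ℕ) + (22129/19208)*t^(9:ℕ) + (286577/480200)*t^(10:ℕ) + (26381/60025)*t^(11:ℕ) = (1887/4900)*(1 - t)^(11:ℕ) + (77909/17150)*(t - 0)*(1 - t)^(10:ℕ) + (3265021/120050)*(t - 0)^(2:ℕ)*(1 - t)^(9:ℕ) + (51036007/480200)*(t - 0)^(3:ℕ)*(1 - t)^(8:ℕ) + (142422523/480200)*(t - 0)^(4:ℕ)*(1 - t)^(7:ℕ) + (147143813/240100)*(t - 0)^(5:ℕ)*(1 - t)^(6:ℕ) + (227573219/240100)*(t - 0)^(6:ℕ)*(1 - t)^(5:ℕ) + (261739357/240100)*(t - 0)^(7:ℕ)*(1 - t)^(4:ℕ) + (54640567/60025)*(t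 - 0)^(8:ℕ)*(1 - t)^(3:ℕ) + (12611897/24010)*(t - 0)^(9:ℕ)*(1 - t)^(2:ℕ) + (22716811/120050)*(t - 0)^(10:ℕ)*(1 - t) + (789753/24010)*(t - 0)^(11:ℕ) := by
    ring
  rw [e]
  have a3 : 0 ≤ t - 0 := by linarith
  have a4 : 0 ≤ 1 - t := by linarith
  generalize t - 0 = t1 at a3 ⊢
  generalize 1 - t = t2 at a4 ⊢
  positivity

lemma pos_L1e_b4 (t : ℝ) (h3 : 0 ≤ t) (h4 : t ≤ 1) :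
    0 ≤ (201/490) + (459/1715)*t + (6924366/2100875)*t^(2:ℕ) + (5351327/2100875)*t^(3:ℕ) + (146911311/16807000)*t^(4:ℕ) + (34223153/8403500)*t^(5:ℕ) + (20979947/2401000)*t^(6:ℕ) + (716333/336140)*t^(7:ℕ) + (8265329/2401000)*t^(8:ℕ) + (1650146/2100875)*t^(9:ℕ) + (1385754/2100875)*t^(10:ℕ) + (939801/2100875)*t^(11:ℕ) := by
  have e : (201/490) + (459/1715)*t + (6924366/2100875)*t^(2:ℕ) + (5351327/2100875)*t^(3:ℕ) + (146911311/16807000)*t^(4:ℕ) + (34223153/8403500)*t^(5:ℕ) + (20979947/2401000)*t^(6:ℕ) + (716333/336140)*t^(7:ℕ) + (8265329/2401000)*t^(8:ℕ) + (1650146/2100875)*t^(9:ℕ) + (1385754/2100875)*t^(10:ℕ) + (939801/2100875)*t^(11:ℕ) = (201/490)*(1 - t)^(11:ℕ) + (3279/686)*(t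 - 0)*(1 - t)^(10:ℕ) + (119890857/4201750)*(t - 0)^(2:ℕ)*(1 - t)^(9:ℕ) + (470335867/4201750)*(t - 0)^(3:ℕ)*(1 - t)^(8:ℕ) + (5298516647/16807000)*(t - 0)^(4:ℕ)*(1 - t)^(7:ℕ) + (11078485283/16807000)*(t - 0)^(5:ℕ)*(1 - t)^(6:ℕ) + (866927171/840350)*(t - 0)^(6:ℕ)*(1 - t)^(5:ℕ) + (1438210737/1200500)*(t - 0)^(7:ℕ)*(1 - t)^(4:ℕ) + (8454227073/8403500)*(t - 0)^(8:ℕ)*(1 - t)^(3:ℕ) + (1219577693/2100875)*(t - 0)^(9:ℕ)*(1 - t)^(2:ℕ) + (697908123/3361400)*(t - 0)^(10:ℕ)*(1 - t) + (597294851/16807000)*(t - 0)^(11:ℕ) := by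
    ring
  rw [e]
  have a3 : 0 ≤ t - 0 := by linarith
  have a4 : 0 ≤ 1 - t := by linarith
  generalize t - 0 = t1 at a3 ⊢
  generalize 1 - t = t2 at a4 ⊢
  positivity

lemma pos_L1e_b5 (t : ℝ) (h3 : 0 ≤ t) (h4 : t ≤ 1) :
    0 ≤ (85/196) + (1541/6860)*t + (86120869/23529800)*t^(2:ℕ) + (31921297/11764900)*t^(3:ℕ) + (480824873/47059600)*t^(4:ℕ) + (94896643/23529800)*t^(5:ℕ) + (478803803/47059600)*t^(6:ℕ) + (1731159/1176490)*t^(7:ℕ) + (35792557/9411920)*t^(8:ℕ) + (357075/941192)*t^(9:ℕ) + (8452993/11764900)*t^(10:ℕ) + (760241/1680700)*t^(11:ℕ) := by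
  have e : (85/196) + (1541/6860)*t + (86120869/23529800)*t^(2:ℕ) + (31921297/11764900)*t^(3:ℕ) + (480824873/47059600)*t^(4:ℕ) + (94896643/23529800)*t^(5:ℕ) + (478803803/47059600)*t^(6:ℕ) + (1731159/1176490)*t^(7:ℕ) + (35792557/9411920)*t^(8:ℕ) + (357075/941192)*t^(9:ℕ) + (8452993/11764900)*t^(10:ℕ) + (760241/1680700)*t^(11:ℕ) = (85/196)*(1 - t)^(11:ℕ) + (17133/3430)*(t - 0)*(1 - t)^(10:ℕ) + (700210919/23529800)*(t - 0)^(2:ℕ)*(1 - t)^(9:ℕ) + (552097003/4705960)*(t - 0)^(3:ℕ)*(1 - t)^(8:ℕ) + (3141273029/9411920)*(t - 0)^(4:ℕ)*(1 - t)^(7:ℕ) + (33247750253/47059600)*(t - 0)^(5:ℕ)*(1 - t)^(6:ℕ) + (3291274993/2941225)*(t - 0)^(6:ℕ)*(1 - t)^(5:ℕ) + (7716778371/5882450)*(t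 - 0)^(7:ℕ)*(1 - t)^(4:ℕ) + (148923865/134456)*(t - 0)^(8:ℕ)*(1 - t)^(3:ℕ) + (85932977/134456)*(t - 0)^(9:ℕ)*(1 - t)^(2:ℕ) + (2136761871/9411920)*(t - 0)^(10:ℕ)*(1 - t) + (1801490263/47059600)*(t - 0)^(11:ℕ) := by
    ring
  rw [e]
  have a3 : 0 ≤ t - 0 := by linarith
  have a4 : 0 ≤ 1 - t := by linarith
  generalize t - 0 = t1 at a3 ⊢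
  generalize 1 - t = t2 at a4 ⊢
  positivity

lemma pos_L1e_b6 (t : ℝ) (h3 : 0 ≤ t) (h4 : t ≤ 1) :
    0 ≤ (558/1225) + (3047/17150)*t + (47582163/11764900)*t^(2:ℕ) + (8487251/2941225)*t^(3:ℕ) + (556656241/47059600)*t^(4:ℕ) + (651676029/164708600)*t^(5:ℕ) + (551759763/47059600)*t^(6:ℕ) + (24040483/32941720)*t^(7:ℕ) + (195737049/47059600)*t^(8:ℕ) + (-5302181/82354300)*t^(9:ℕ) + (12707117/16470860)*t^(10:ℕ) + (9355823/20588575)*t^(11:ℕ) := by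
  have e : (558/1225) + (3047/17150)*t + (47582163/11764900)*t^(2:ℕ) + (8487251/2941225)*t^(3:ℕ) + (556656241/47059600)*t^(4:ℕ) + (651676029/164708600)*t^(5:ℕ) + (551759763/47059600)*t^(6:ℕ) + (24040483/32941720)*t^(7:ℕ) + (195737049/47059600)*t^(8:ℕ) + (-5302181/82354300)*t^(9:ℕ) + (12707117/16470860)*t^(10:ℕ) + (9355823/20588575)*t^(11:ℕ) = (558/1225)*(1 - t)^(11:ℕ) + (88979/17150)*(t - 0)*(1 - t)^(10:ℕ) + (363231343/11764900)*(t - 0)^(2:ℕ)*(1 - t)^(9:ℕ) + (1440489641/11764900)*(t - 0)^(3:ℕ)*(1 - t)^(8:ℕ) + (16572094241/47059600)*(t - 0)^(4:ℕ)*(1 - t)^(7:ℕ) + (248723835291/329417200)*(t - 0)^(5:ℕ)*(1 - t)^(6:ℕ) + (99671498239/82354300)*(t - 0)^(6:ℕ)*(1 - t)^(5:ℕ)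 + (235850526997/164708600)*(t - 0)^(7:ℕ)*(1 - t)^(4:ℕ) + (200165004443/164708600)*(t - 0)^(8:ℕ)*(1 - t)^(3:ℕ) + (14437442727/20588575)*(t - 0)^(9:ℕ)*(1 - t)^(2:ℕ) + (81522813691/329417200)*(t - 0)^(10:ℕ)*(1 - t) + (13546907391/329417200)*(t - 0)^(11:ℕ) := by
    ring
  rw [e]
  have a3 : 0 ≤ t - 0 := by linarith
  have a4 : 0 ≤ 1 - t := by linarith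
  generalize t - 0 = t1 at a3 ⊢
  generalize 1 - t = t2 at a4 ⊢
  positivity

lemma pos_L1e_b7 (t : ℝ) (h3 : 0 ≤ t) (h4 : t ≤ 1) :
    0 ≤ (333/700) + (621/4900)*t + (3740721/840350)*t^(2:ℕ) + (10289837/3361400)*t^(3:ℕ) + (2237588131/164708600)*t^(4:ℕ) + (631759151/164708600)*t^(5:ℕ) + (315188631/23529800)*t^(6:ℕ) + (-15858169/164708600)*t^(7:ℕ) + (742759439/164708600)*t^(8:ℕ) + (-12798267/23529800)*t^(9:ℕ) + (19208471/23529800)*t^(10:ℕ) + (2667919/5882450)*t^(11:ℕ) := by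
  have e : (333/700) + (621/4900)*t + (3740721/840350)*t^(2:ℕ) + (10289837/3361400)*t^(3:ℕ) + (2237588131/164708600)*t^(4:ℕ) + (631759151/164708600)*t^(5:ℕ) + (315188631/23529800)*t^(6:ℕ) + (-15858169/164708600)*t^(7:ℕ) + (742759439/164708600)*t^(8:ℕ) + (-12798267/23529800)*t^(9:ℕ) + (19208471/23529800)*t^(10:ℕ) + (2667919/5882450)*t^(11:ℕ) = (333/700)*(1 - t)^(11:ℕ) + (13131/2450)*(t - 0)*(1 - t)^(10:ℕ) + (53585787/1680700)*(t - 0)^(2:ℕ)*(1 - t)^(9:ℕ) + (427971953/3361400)*(t - 0)^(3:ℕ)*(1 - t)^(8:ℕ) + (61027544111/164708600)*(t - 0)^(4:ℕ)*(1 - t)^(7:ℕ) + (16572877603/20588575)*(t - 0)^(5:ℕ)*(1 - t)^(6:ℕ) + (107531181407/82354300)*(t - 0)^(6:ℕ)*(1 - t)^(5:ℕ) + (64180800363/41177150)*(t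 - 0)^(7:ℕ)*(1 - t)^(4:ℕ) + (2189492057/1647086)*(t - 0)^(8:ℕ)*(1 - t)^(3:ℕ) + (6316674673/8235430)*(t - 0)^(9:ℕ)*(1 - t)^(2:ℕ) + (4430829057/16470860)*(t - 0)^(10:ℕ)*(1 - t) + (3629376993/82354300)*(t - 0)^(11:ℕ) := by
    ring
  rw [e]
  have a3 : 0 ≤ t - 0 := by linarith
  have a4 : 0 ≤ 1 - t := by linarith
  generalize t - 0 = t1 at a3 ⊢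
  generalize 1 - t = t2 at a4 ⊢
  positivity

lemma pos_L1e_b8 (t : ℝ) (h3 : 0 ≤ t) (h4 : t ≤ 1) :
    0 ≤ (173/350) + (88/1225)*t + (2051968/420175)*t^(2:ℕ) + (1359964/420175)*t^(3:ℕ) + (446676064/28824005)*t^(4:ℕ) + (527883396/144120025)*t^(5:ℕ) + (2189528576/144120025)*t^(6:ℕ) + (-145389932/144120025)*t^(7:ℕ) + (27965104/5764801)*t^(8:ℕ) + (-3109172/2941225)*t^(9:ℕ) + (2501444/2941225)*t^(10:ℕ) + (264528/588245)*t^(11:ℕ) := by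
  have e : (173/350) + (88/1225)*t + (2051968/420175)*t^(2:ℕ) + (1359964/420175)*t^(3:ℕ) + (446676064/28824005)*t^(4:ℕ) + (527883396/144120025)*t^(5:ℕ) + (2189528576/144120025)*t^(6:ℕ) + (-145389932/144120025)*t^(7:ℕ) + (27965104/5764801)*t^(8:ℕ) + (-3109172/2941225)*t^(9:ℕ) + (2501444/2941225)*t^(10:ℕ) + (264528/588245)*t^(11:ℕ) = (173/350)*(1 - t)^(11:ℕ) + (13497/2450)*(t - 0)*(1 - t)^(10:ℕ) + (27553131/840350)*(t - 0)^(2:ℕ)*(1 - t)^(9:ℕ) + (110908457/840350)*(t - 0)^(3:ℕ)*(1 - t)^(8:ℕ) + (2242129231/5764801)*(t - 0)^(4:ℕ)*(1 - t)^(7:ℕ) + (123429344337/144120025)*(t - 0)^(5:ℕ)*(1 - t)^(6:ℕ) + (202582190341/144120025)*(t - 0)^(6:ℕ)*(1 - t)^(5:ℕ) + (243905692207/144120025)*(t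 - 0)^(7:ℕ)*(1 - t)^(4:ℕ) + (16718297135/11529602)*(t - 0)^(8:ℕ)*(1 - t)^(3:ℕ) + (6889709039/8235430)*(t - 0)^(9:ℕ)*(1 - t)^(2:ℕ) + (84071198369/288240050)*(t - 0)^(10:ℕ)*(1 - t) + (13582885811/288240050)*(t - 0)^(11:ℕ) := by
    ring
  rw [e]
  have a3 : 0 ≤ t - 0 := by linarith
  have a4 : 0 ≤ 1 - t := by linarith
  generalize t - 0 = t1 at a3 ⊢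
  generalize 1 - t = t2 at a4 ⊢
  positivity

lemma pos_L1e_id (d : ℝ) (C0 C1 C2 C3 C4 C5 C6 C7 C8 : ℝ) :
    C0 + d*C1 + d^(2:ℕ)*C2 + d^(3:ℕ)*C3 + d^(4:ℕ)*C4 + d^(5:ℕ)*C5 + d^(6:ℕ)*C6 + d^(7:ℕ)*C7 + d^(8:ℕ)*C8 = (1/10) + (5764801*((1/7)-d)^(8:ℕ)*(1*C0 - (1/10)) + 46118408*d*((1/7)-d)^(7:ℕ)*(1*C0 + (1/56)*C1 - (1/10)) + 161414428*d^(2:ℕ)*((1/7)-d)^(6:ℕ)*(1*C0 + (1/28)*C1 + (1/1372)*C2 - (1/10)) + 322828856*d^(3:ℕ)*((1/7)-d)^(5:ℕ)*(1*C0 + (3/56)*C1 + (3/1372)*C2 + (1/19208)*C3 - (1/10)) + 403536070*d^(4:ℕ)*((1/7)-d)^(4:ℕ)*(1*C0 + (1/14)*C1 + (3/686)*C2 + (1/4802)*C3 + (1/168070)*C4 - (1/10)) + 322828856*d^(5:ℕ)*((1/7)-d)^(3:ℕ)*(1*C0 + (5/56)*C1 + (5/686)*C2 + (5/9604)*C3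 + (1/33614)*C4 + (1/941192)*C5 - (1/10)) + 161414428*d^(6:ℕ)*((1/7)-d)^(2:ℕ)*(1*C0 + (3/28)*C1 + (15/1372)*C2 + (5/4802)*C3 + (3/33614)*C4 + (3/470596)*C5 + (1/3294172)*C6 - (1/10)) + 46118408*d^(7:ℕ)*((1/7)-d)*(1*C0 + (1/8)*C1 + (3/196)*C2 + (5/2744)*C3 + (1/4802)*C4 + (3/134456)*C5 + (1/470596)*C6 + (1/6588344)*C7 - (1/10)) + 5764801*d^(8:ℕ)*(1*C0 + (1/7)*C1 + (1/49)*C2 + (1/343)*C3 + (1/2401)*C4 + (1/16807)*C5 + (1/117649)*C6 + (1/823543)*C7 + (1/5764801)*C8 - (1/10))) := by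
  ring

lemma pos_L1e (d t : ℝ) (h1 : 0 ≤ d) (h2 : d ≤ (1/7)) (h3 : 0 ≤ t) (h4 : t ≤ 1) :
    0 < (2/5) + (2/5)*t + 2*t^(2:ℕ) + 2*t^(3:ℕ) + 4*t^(4:ℕ) + 4*t^(5:ℕ) + 4*t^(6:ℕ) + 4*t^(7:ℕ) + 2*t^(8:ℕ) + 2*t^(9:ℕ) + (2/5)*t^(10:ℕ) + (2/5)*t^(11:ℕ) + (42/25)*d + (-38/25)*d*t + 17*d*t^(2:ℕ) + (32/5)*d*t^(3:ℕ) + (288/5)*d*t^(4:ℕ) + (11/5)*d*t^(5:ℕ) + (293/5)*d*t^(6:ℕ) + (-20)*d*t^(7:ℕ) + 20*d*t^(8:ℕ) + (-67/5)*d*t^(9:ℕ) + (92/25)*d*t^(10:ℕ) + (22/25)*d*t^(11:ℕ) + (-56/25)*d^(2:ℕ) + (-136/25)*d^(2:ℕ)*t + (428/25)*d^(2:ℕ)*t^(2:ℕ) + (568/25)*d^(2:ℕ)*t^(3:ℕ) + (3384/25)*d^(2:ℕ)*t^(4:ℕ) + (-336/25)*d^(2:ℕ)*t^(5:ℕ) + (3009/25)*d^(2:ℕ)*t^(6:ℕ) + (-2456/25)*d^(2:ℕ)*t^(7:ℕ) + (118/25)*d^(2:ℕ)*t^(8:ℕ)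 + (-1502/25)*d^(2:ℕ)*t^(9:ℕ) + (9/25)*d^(2:ℕ)*t^(10:ℕ) + (-86/25)*d^(2:ℕ)*t^(11:ℕ) + (793/25)*d^(3:ℕ)*t^(2:ℕ) + (-219/5)*d^(3:ℕ)*t^(3:ℕ) + (4143/25)*d^(3:ℕ)*t^(4:ℕ) + (-614/5)*d^(3:ℕ)*t^(5:ℕ) + (3102/25)*d^(3:ℕ)*t^(6:ℕ) + (-1293/25)*d^(3:ℕ)*t^(7:ℕ) + (-797/25)*d^(3:ℕ)*t^(8:ℕ) + (624/25)*d^(3:ℕ)*t^(9:ℕ) + (-549/25)*d^(3:ℕ)*t^(10:ℕ) + (-58/25)*d^(3:ℕ)*t^(11:ℕ) + (772/25)*d^(4:ℕ)*t^(2:ℕ) + (-801/25)*d^(4:ℕ)*t^(3:ℕ) + (5531/100)*d^(4:ℕ)*t^(4:ℕ) + (-2577/50)*d^(4:ℕ)*t^(5:ℕ) + (1589/100)*d^(4:ℕ)*t^(6:ℕ) + (31/10)*d^(4:ℕ)*t^(7:ℕ) + (-2037/100)*d^(4:ℕ)*t^(8:ℕ) + (597/25)*d^(4:ℕ)*t^(9:ℕ) + (-1052/25)*d^(4:ℕ)*t^(10:ℕ) + (32/25)*d^(4:ℕ)*t^(11:ℕ) + (128/25)*d^(5:ℕ)*t^(2:ℕ) + (-108/25)*d^(5:ℕ)*t^(3:ℕ)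 + (-381/50)*d^(5:ℕ)*t^(4:ℕ) + (856/25)*d^(5:ℕ)*t^(5:ℕ) + (-2833/50)*d^(5:ℕ)*t^(6:ℕ) + (208/5)*d^(5:ℕ)*t^(7:ℕ) + (-797/50)*d^(5:ℕ)*t^(8:ℕ) + (244/25)*d^(5:ℕ)*t^(9:ℕ) + (-428/25)*d^(5:ℕ)*t^(10:ℕ) + (168/25)*d^(5:ℕ)*t^(11:ℕ) + (-189/20)*d^(6:ℕ)*t^(4:ℕ) + (57/2)*d^(6:ℕ)*t^(5:ℕ) + (-4039/100)*d^(6:ℕ)*t^(6:ℕ) + (57/2)*d^(6:ℕ)*t^(7:ℕ) + (-189/20)*d^(6:ℕ)*t^(8:ℕ) + (32/25)*d^(6:ℕ)*t^(9:ℕ) + (-48/25)*d^(6:ℕ)*t^(10:ℕ) + (32/25)*d^(6:ℕ)*t^(11:ℕ) + (-54/25)*d^(7:ℕ)*t^(4:ℕ) + (163/25)*d^(7:ℕ)*t^(5:ℕ) + (-231/25)*d^(7:ℕ)*t^(6:ℕ) + (163/25)*d^(7:ℕ)*t^(7:ℕ) + (-54/25)*d^(7:ℕ)*t^(8:ℕ) + (-4/25)*d^(8:ℕ)*t^(4:ℕ) + (12/25)*d^(8:ℕ)*t^(5:ℕ) + (-17/25)*d^(8:ℕ)*t^(6:ℕ) + (12/25)*d^(8:ℕ)*t^(7:ℕ)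 + (-4/25)*d^(8:ℕ)*t^(8:ℕ) := by
  have e0 : (2/5) + (2/5)*t + 2*t^(2:ℕ) + 2*t^(3:ℕ) + 4*t^(4:ℕ) + 4*t^(5:ℕ) + 4*t^(6:ℕ) + 4*t^(7:ℕ) + 2*t^(8:ℕ) + 2*t^(9:ℕ) + (2/5)*t^(10:ℕ) + (2/5)*t^(11:ℕ) + (42/25)*d + (-38/25)*d*t + 17*d*t^(2:ℕ) + (32/5)*d*t^(3:ℕ) + (288/5)*d*t^(4:ℕ) + (11/5)*d*t^(5:ℕ) + (293/5)*d*t^(6:ℕ) + (-20)*d*t^(7:ℕ) + 20*d*t^(8:ℕ) + (-67/5)*d*t^(9:ℕ) + (92/25)*d*t^(10:ℕ) + (22/25)*d*t^(11:ℕ) + (-56/25)*d^(2:ℕ) + (-136/25)*d^(2:ℕ)*t + (428/25)*d^(2:ℕ)*t^(2:ℕ) + (568/25)*d^(2:ℕ)*t^(3:ℕ) + (3384/25)*d^(2:ℕ)*t^(4:ℕ) + (-336/25)*d^(2:ℕ)*t^(5:ℕ) + (3009/25)*d^(2:ℕ)*t^(6:ℕ) + (-2456/25)*d^(2:ℕ)*t^(7:ℕ) + (118/25)*d^(2:ℕ)*t^(8:ℕ) + (-1502/25)*d^(2:ℕ)*t^(9:ℕ) + (9/25)*d^(2:ℕ)*t^(10:ℕ)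 + (-86/25)*d^(2:ℕ)*t^(11:ℕ) + (793/25)*d^(3:ℕ)*t^(2:ℕ) + (-219/5)*d^(3:ℕ)*t^(3:ℕ) + (4143/25)*d^(3:ℕ)*t^(4:ℕ) + (-614/5)*d^(3:ℕ)*t^(5:ℕ) + (3102/25)*d^(3:ℕ)*t^(6:ℕ) + (-1293/25)*d^(3:ℕ)*t^(7:ℕ) + (-797/25)*d^(3:ℕ)*t^(8:ℕ) + (624/25)*d^(3:ℕ)*t^(9:ℕ) + (-549/25)*d^(3:ℕ)*t^(10:ℕ) + (-58/25)*d^(3:ℕ)*t^(11:ℕ) + (772/25)*d^(4:ℕ)*t^(2:ℕ) + (-801/25)*d^(4:ℕ)*t^(3:ℕ) + (5531/100)*d^(4:ℕ)*t^(4:ℕ) + (-2577/50)*d^(4:ℕ)*t^(5:ℕ) + (1589/100)*d^(4:ℕ)*t^(6:ℕ) + (31/10)*d^(4:ℕ)*t^(7:ℕ) + (-2037/100)*d^(4:ℕ)*t^(8:ℕ) + (597/25)*d^(4:ℕ)*t^(9:ℕ) + (-1052/25)*d^(4:ℕ)*t^(10:ℕ) + (32/25)*d^(4:ℕ)*t^(11:ℕ) + (128/25)*d^(5:ℕ)*t^(2:ℕ) + (-108/25)*d^(5:ℕ)*t^(3:ℕ) + (-381/50)*d^(5:ℕ)*t^(4:ℕ) + (856/25)*d^(5:ℕ)*t^(5:ℕ)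 + (-2833/50)*d^(5:ℕ)*t^(6:ℕ) + (208/5)*d^(5:ℕ)*t^(7:ℕ) + (-797/50)*d^(5:ℕ)*t^(8:ℕ) + (244/25)*d^(5:ℕ)*t^(9:ℕ) + (-428/25)*d^(5:ℕ)*t^(10:ℕ) + (168/25)*d^(5:ℕ)*t^(11:ℕ) + (-189/20)*d^(6:ℕ)*t^(4:ℕ) + (57/2)*d^(6:ℕ)*t^(5:ℕ) + (-4039/100)*d^(6:ℕ)*t^(6:ℕ) + (57/2)*d^(6:ℕ)*t^(7:ℕ) + (-189/20)*d^(6:ℕ)*t^(8:ℕ) + (32/25)*d^(6:ℕ)*t^(9:ℕ) + (-48/25)*d^(6:ℕ)*t^(10:ℕ) + (32/25)*d^(6:ℕ)*t^(11:ℕ) + (-54/25)*d^(7:ℕ)*t^(4:ℕ) + (163/25)*d^(7:ℕ)*t^(5:ℕ) + (-231/25)*d^(7:ℕ)*t^(6:ℕ) + (163/25)*d^(7:ℕ)*t^(7:ℕ) + (-54/25)*d^(7:ℕ)*t^(8:ℕ) + (-4/25)*d^(8:ℕ)*t^(4:ℕ) + (12/25)*d^(8:ℕ)*t^(5:ℕ) + (-17/25)*d^(8:ℕ)*t^(6:ℕ) + (12/25)*d^(8:ℕ)*t^(7:ℕ) + (-4/25)*d^(8:ℕ)*t^(8:ℕ) = ((2/5) + (2/5)*t + 2*t^(2:ℕ)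 + 2*t^(3:ℕ) + 4*t^(4:ℕ) + 4*t^(5:ℕ) + 4*t^(6:ℕ) + 4*t^(7:ℕ) + 2*t^(8:ℕ) + 2*t^(9:ℕ) + (2/5)*t^(10:ℕ) + (2/5)*t^(11:ℕ)) + d*((42/25) + (-38/25)*t + 17*t^(2:ℕ) + (32/5)*t^(3:ℕ) + (288/5)*t^(4:ℕ) + (11/5)*t^(5:ℕ) + (293/5)*t^(6:ℕ) + (-20)*t^(7:ℕ) + 20*t^(8:ℕ) + (-67/5)*t^(9:ℕ) + (92/25)*t^(10:ℕ) + (22/25)*t^(11:ℕ)) + d^(2:ℕ)*((-56/25) + (-136/25)*t + (428/25)*t^(2:ℕ) + (568/25)*t^(3:ℕ) + (3384/25)*t^(4:ℕ) + (-336/25)*t^(5:ℕ) + (3009/25)*t^(6:ℕ) + (-2456/25)*t^(7:ℕ) + (118/25)*t^(8:ℕ) + (-1502/25)*t^(9:ℕ) + (9/25)*t^(10:ℕ) + (-86/25)*t^(11:ℕ)) + d^(3:ℕ)*((793/25)*t^(2:ℕ) + (-219/5)*t^(3:ℕ) + (4143/25)*t^(4:ℕ) + (-614/5)*t^(5:ℕ) + (3102/25)*t^(6:ℕ) + (-1293/25)*t^(7:ℕ) +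 (-797/25)*t^(8:ℕ) + (624/25)*t^(9:ℕ) + (-549/25)*t^(10:ℕ) + (-58/25)*t^(11:ℕ)) + d^(4:ℕ)*((772/25)*t^(2:ℕ) + (-801/25)*t^(3:ℕ) + (5531/100)*t^(4:ℕ) + (-2577/50)*t^(5:ℕ) + (1589/100)*t^(6:ℕ) + (31/10)*t^(7:ℕ) + (-2037/100)*t^(8:ℕ) + (597/25)*t^(9:ℕ) + (-1052/25)*t^(10:ℕ) + (32/25)*t^(11:ℕ)) + d^(5:ℕ)*((128/25)*t^(2:ℕ) + (-108/25)*t^(3:ℕ) + (-381/50)*t^(4:ℕ) + (856/25)*t^(5:ℕ) + (-2833/50)*t^(6:ℕ) + (208/5)*t^(7:ℕ) + (-797/50)*t^(8:ℕ) + (244/25)*t^(9:ℕ) + (-428/25)*t^(10:ℕ) + (168/25)*t^(11:ℕ)) + d^(6:ℕ)*((-189/20)*t^(4:ℕ) + (57/2)*t^(5:ℕ) + (-4039/100)*t^(6:ℕ) + (57/2)*t^(7:ℕ) + (-189/20)*t^(8:ℕ) + (32/25)*t^(9:ℕ) + (-48/25)*t^(10:ℕ) + (32/25)*t^(11:ℕ)) + d^(7:ℕ)*((-54/25)*t^(4:ℕ)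 + (163/25)*t^(5:ℕ) + (-231/25)*t^(6:ℕ) + (163/25)*t^(7:ℕ) + (-54/25)*t^(8:ℕ)) + d^(8:ℕ)*((-4/25)*t^(4:ℕ) + (12/25)*t^(5:ℕ) + (-17/25)*t^(6:ℕ) + (12/25)*t^(7:ℕ) + (-4/25)*t^(8:ℕ)) := by
    ring
  rw [e0, pos_L1e_id]
  have a2 : 0 ≤ (1/7) - d := by linarith
  have b0 : 0 ≤ 1*((2/5) + (2/5)*t + 2*t^(2:ℕ) + 2*t^(3:ℕ) + 4*t^(4:ℕ) + 4*t^(5:ℕ) + 4*t^(6:ℕ) + 4*t^(7:ℕ) + 2*t^(8:ℕ) + 2*t^(9:ℕ) + (2/5)*t^(10:ℕ) + (2/5)*t^(11:ℕ)) - (1/10) := by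
    have h := pos_L1e_b0 t h3 h4
    have e : 1*((2/5) + (2/5)*t + 2*t^(2:ℕ) + 2*t^(3:ℕ) + 4*t^(4:ℕ) + 4*t^(5:ℕ) + 4*t^(6:ℕ) + 4*t^(7:ℕ) + 2*t^(8:ℕ) + 2*t^(9:ℕ) + (2/5)*t^(10:ℕ) + (2/5)*t^(11:ℕ)) - (1/10) = (3/10) + (2/5)*t + 2*t^(2:ℕ) + 2*t^(3:ℕ) + 4*t^(4:ℕ) + 4*t^(5:ℕ) + 4*t^(6:ℕ) + 4*t^(7:ℕ) + 2*t^(8:ℕ) + 2*t^(9:ℕ) + (2/5)*t^(10:ℕ) + (2/5)*t^(11:ℕ) := by ring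
    rw [e]; exact h
  have b1 : 0 ≤ 1*((2/5) + (2/5)*t + 2*t^(2:ℕ) + 2*t^(3:ℕ) + 4*t^(4:ℕ) + 4*t^(5:ℕ) + 4*t^(6:ℕ) + 4*t^(7:ℕ) + 2*t^(8:ℕ) + 2*t^(9:ℕ) + (2/5)*t^(10:ℕ) + (2/5)*t^(11:ℕ)) + (1/56)*((42/25) + (-38/25)*t + 17*t^(2:ℕ) + (32/5)*t^(3:ℕ) + (288/5)*t^(4:ℕ) + (11/5)*t^(5:ℕ) + (293/5)*t^(6:ℕ) + (-20)*t^(7:ℕ) + 20*t^(8:ℕ) + (-67/5)*t^(9:ℕ) + (92/25)*t^(10:ℕ) + (22/25)*t^(11:ℕ)) - (1/10) := by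
    have h := pos_L1e_b1 t h3 h4
    have e : 1*((2/5) + (2/5)*t + 2*t^(2:ℕ) + 2*t^(3:ℕ) + 4*t^(4:ℕ) + 4*t^(5:ℕ) + 4*t^(6:ℕ) + 4*t^(7:ℕ) + 2*t^(8:ℕ) + 2*t^(9:ℕ) + (2/5)*t^(10:ℕ) + (2/5)*t^(11:ℕ)) + (1/56)*((42/25) + (-38/25)*t + 17*t^(2:ℕ) + (32/5)*t^(3:ℕ) + (288/5)*t^(4:ℕ) + (11/5)*t^(5:ℕ) + (293/5)*t^(6:ℕ) + (-20)*t^(7:ℕ) + 20*t^(8:ℕ) + (-67/5)*t^(9:ℕ) + (92/25)*t^(10:ℕ) + (22/25)*t^(11:ℕ)) - (1/10) = (33/100) + (261/700)*t + (129/56)*t^(2:ℕ) + (74/35)*t^(3:ℕ) + (176/35)*t^(4:ℕ) + (1131/280)*t^(5:ℕ) + (1413/280)*t^(6:ℕ) + (51/14)*t^(7:ℕ) + (33/14)*t^(8:ℕ) + (493/280)*t^(9:ℕ) + (163/350)*t^(10:ℕ) + (291/700)*t^(11:ℕ) := by ring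
    rw [e]; exact h
  have b2 : 0 ≤ 1*((2/5) + (2/5)*t + 2*t^(2:ℕ) + 2*t^(3:ℕ) + 4*t^(4:ℕ) + 4*t^(5:ℕ) + 4*t^(6:ℕ) + 4*t^(7:ℕ) + 2*t^(8:ℕ) + 2*t^(9:ℕ) + (2/5)*t^(10:ℕ) + (2/5)*t^(11:ℕ)) + (1/28)*((42/25) + (-38/25)*t + 17*t^(2:ℕ) + (32/5)*t^(3:ℕ) + (288/5)*t^(4:ℕ) + (11/5)*t^(5:ℕ) + (293/5)*t^(6:ℕ) + (-20)*t^(7:ℕ) + 20*t^(8:ℕ) + (-67/5)*t^(9:ℕ) + (92/25)*t^(10:ℕ) + (22/25)*t^(11:ℕ)) + (1/1372)*((-56/25) + (-136/25)*t + (428/25)*t^(2:ℕ) + (568/25)*t^(3:ℕ) + (3384/25)*t^(4:ℕ) + (-336/25)*t^(5:ℕ) + (3009/25)*t^(6:ℕ) + (-2456/25)*t^(7:ℕ) + (118/25)*t^(8:ℕ) + (-1502/25)*t^(9:ℕ) + (9/25)*t^(10:ℕ) + (-86/25)*t^(11:ℕ)) - (1/10) := by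
    have h := pos_L1e_b2 t h3 h4
    have e : 1*((2/5) + (2/5)*t + 2*t^(2:ℕ) + 2*t^(3:ℕ) + 4*t^(4:ℕ) + 4*t^(5:ℕ) + 4*t^(6:ℕ) + 4*t^(7:ℕ) + 2*t^(8:ℕ) + 2*t^(9:ℕ) + (2/5)*t^(10:ℕ) + (2/5)*t^(11:ℕ)) + (1/28)*((42/25) + (-38/25)*t + 17*t^(2:ℕ) + (32/5)*t^(3:ℕ) + (288/5)*t^(4:ℕ) + (11/5)*t^(5:ℕ) + (293/5)*t^(6:ℕ) + (-20)*t^(7:ℕ) + 20*t^(8:ℕ) + (-67/5)*t^(9:ℕ) + (92/25)*t^(10:ℕ) + (22/25)*t^(11:ℕ)) + (1/1372)*((-56/25) + (-136/25)*t + (428/25)*t^(2:ℕ) + (568/25)*t^(3:ℕ) + (3384/25)*t^(4:ℕ) + (-336/25)*t^(5:ℕ) + (3009/25)*t^(6:ℕ) + (-2456/25)*t^(7:ℕ) + (118/25)*t^(8:ℕ) + (-1502/25)*t^(9:ℕ) + (9/25)*t^(10:ℕ) + (-86/25)*t^(11:ℕ)) - (1/10) = (439/1225) + (5861/17150)*t + (89853/34300)*t^(2:ℕ)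 + (19252/8575)*t^(3:ℕ) + (52786/8575)*t^(4:ℕ) + (19937/4900)*t^(5:ℕ) + (105997/17150)*t^(6:ℕ) + (27561/8575)*t^(7:ℕ) + (46609/17150)*t^(8:ℕ) + (50683/34300)*t^(9:ℕ) + (18237/34300)*t^(10:ℕ) + (3678/8575)*t^(11:ℕ) := by ring
    rw [e]; exact h
  have b3 : 0 ≤ 1*((2/5) + (2/5)*t + 2*t^(2:ℕ) + 2*t^(3:ℕ) + 4*t^(4:ℕ) + 4*t^(5:ℕ) + 4*t^(6:ℕ) + 4*t^(7:ℕ) + 2*t^(8:ℕ) + 2*t^(9:ℕ) + (2/5)*t^(10:ℕ) + (2/5)*t^(11:ℕ)) + (3/56)*((42/25) + (-38/25)*t + 17*t^(2:ℕ) + (32/5)*t^(3:ℕ) + (288/5)*t^(4:ℕ) + (11/5)*t^(5:ℕ) + (293/5)*t^(6:ℕ) + (-20)*t^(7:ℕ) + 20*t^(8:ℕ) + (-67/5)*t^(9:ℕ) + (92/25)*t^(10:ℕ) + (22/25)*t^(11:ℕ)) + (3/1372)*((-56/25) + (-136/25)*t + (428/25)*t^(2:ℕ) + (568/25)*t^(3:ℕ)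 + (3384/25)*t^(4:ℕ) + (-336/25)*t^(5:ℕ) + (3009/25)*t^(6:ℕ) + (-2456/25)*t^(7:ℕ) + (118/25)*t^(8:ℕ) + (-1502/25)*t^(9:ℕ) + (9/25)*t^(10:ℕ) + (-86/25)*t^(11:ℕ)) + (1/19208)*((793/25)*t^(2:ℕ) + (-219/5)*t^(3:ℕ) + (4143/25)*t^(4:ℕ) + (-614/5)*t^(5:ℕ) + (3102/25)*t^(6:ℕ) + (-1293/25)*t^(7:ℕ) + (-797/25)*t^(8:ℕ) + (624/25)*t^(9:ℕ) + (-549/25)*t^(10:ℕ) + (-58/25)*t^(11:ℕ)) - (1/10) := by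
    have h := pos_L1e_b3 t h3 h4
    have e : 1*((2/5) + (2/5)*t + 2*t^(2:ℕ) + 2*t^(3:ℕ) + 4*t^(4:ℕ) + 4*t^(5:ℕ) + 4*t^(6:ℕ) + 4*t^(7:ℕ) + 2*t^(8:ℕ) + 2*t^(9:ℕ) + (2/5)*t^(10:ℕ) + (2/5)*t^(11:ℕ)) + (3/56)*((42/25) + (-38/25)*t + 17*t^(2:ℕ) + (32/5)*t^(3:ℕ) + (288/5)*t^(4:ℕ) + (11/5)*t^(5:ℕ) + (293/5)*t^(6:ℕ) + (-20)*t^(7:ℕ) + 20*t^(8:ℕ) + (-67/5)*t^(9:ℕ) + (92/25)*t^(10:ℕ) + (22/25)*t^(11:ℕ)) + (3/1372)*((-56/25) + (-136/25)*t + (428/25)*t^(2:ℕ) + (568/25)*t^(3:ℕ) + (3384/25)*t^(4:ℕ) + (-336/25)*t^(5:ℕ) + (3009/25)*t^(6:ℕ) + (-2456/25)*t^(7:ℕ) + (118/25)*t^(8:ℕ) + (-1502/25)*t^(9:ℕ) + (9/25)*t^(10:ℕ) + (-86/25)*t^(11:ℕ)) + (1/19208)*((793/25)*t^(2:ℕ) + (-219/5)*t^(3:ℕ)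 + (4143/25)*t^(4:ℕ) + (-614/5)*t^(5:ℕ) + (3102/25)*t^(6:ℕ) + (-1293/25)*t^(7:ℕ) + (-797/25)*t^(8:ℕ) + (624/25)*t^(9:ℕ) + (-549/25)*t^(10:ℕ) + (-58/25)*t^(11:ℕ)) - (1/10) = (1887/4900) + (10519/34300)*t + (708247/240100)*t^(2:ℕ) + (1147801/480200)*t^(3:ℕ) + (3548831/480200)*t^(4:ℕ) + (1960213/480200)*t^(5:ℕ) + (711553/96040)*t^(6:ℕ) + (260371/96040)*t^(7:ℕ) + (1479059/480200)*t^(8:ℕ) + (22129/19208)*t^(9:ℕ) + (286577/480200)*t^(10:ℕ) + (26381/60025)*t^(11:ℕ) := by ring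
    rw [e]; exact h
  have b4 : 0 ≤ 1*((2/5) + (2/5)*t + 2*t^(2:ℕ) + 2*t^(3:ℕ) + 4*t^(4:ℕ) + 4*t^(5:ℕ) + 4*t^(6:ℕ) + 4*t^(7:ℕ) + 2*t^(8:ℕ) + 2*t^(9:ℕ) + (2/5)*t^(10:ℕ) + (2/5)*t^(11:ℕ)) + (1/14)*((42/25) + (-38/25)*t + 17*t^(2:ℕ) + (32/5)*t^(3:ℕ) + (288/5)*t^(4:ℕ) + (11/5)*t^(5:ℕ) + (293/5)*t^(6:ℕ) + (-20)*t^(7:ℕ) + 20*t^(8:ℕ) + (-67/5)*t^(9:ℕ) + (92/25)*t^(10:ℕ) + (22/25)*t^(11:ℕ)) + (3/686)*((-56/25) + (-136/25)*t + (428/25)*t^(2:ℕ) + (568/25)*t^(3:ℕ) + (3384/25)*t^(4:ℕ) + (-336/25)*t^(5:ℕ) + (3009/25)*t^(6:ℕ) + (-2456/25)*t^(7:ℕ) + (118/25)*t^(8:ℕ) + (-1502/25)*t^(9:ℕ) + (9/25)*t^(10:ℕ) + (-86/25)*t^(11:ℕ)) + (1/4802)*((793/25)*t^(2:ℕ) + (-219/5)*t^(3:ℕ) + (4143/25)*t^(4:ℕ)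 + (-614/5)*t^(5:ℕ) + (3102/25)*t^(6:ℕ) + (-1293/25)*t^(7:ℕ) + (-797/25)*t^(8:ℕ) + (624/25)*t^(9:ℕ) + (-549/25)*t^(10:ℕ) + (-58/25)*t^(11:ℕ)) + (1/168070)*((772/25)*t^(2:ℕ) + (-801/25)*t^(3:ℕ) + (5531/100)*t^(4:ℕ) + (-2577/50)*t^(5:ℕ) + (1589/100)*t^(6:ℕ) + (31/10)*t^(7:ℕ) + (-2037/100)*t^(8:ℕ) + (597/25)*t^(9:ℕ) + (-1052/25)*t^(10:ℕ) + (32/25)*t^(11:ℕ)) - (1/10) := by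
    have h := pos_L1e_b4 t h3 h4
    have e : 1*((2/5) + (2/5)*t + 2*t^(2:ℕ) + 2*t^(3:ℕ) + 4*t^(4:ℕ) + 4*t^(5:ℕ) + 4*t^(6:ℕ) + 4*t^(7:ℕ) + 2*t^(8:ℕ) + 2*t^(9:ℕ) + (2/5)*t^(10:ℕ) + (2/5)*t^(11:ℕ)) + (1/14)*((42/25) + (-38/25)*t + 17*t^(2:ℕ) + (32/5)*t^(3:ℕ) + (288/5)*t^(4:ℕ) + (11/5)*t^(5:ℕ) + (293/5)*t^(6:ℕ) + (-20)*t^(7:ℕ) + 20*t^(8:ℕ) + (-67/5)*t^(9:ℕ) + (92/25)*t^(10:ℕ) + (22/25)*t^(11:ℕ)) + (3/686)*((-56/25) + (-136/25)*t + (428/25)*t^(2:ℕ) + (568/25)*t^(3:ℕ) + (3384/25)*t^(4:ℕ) + (-336/25)*t^(5:ℕ) + (3009/25)*t^(6:ℕ) + (-2456/25)*t^(7:ℕ) + (118/25)*t^(8:ℕ) + (-1502/25)*t^(9:ℕ) + (9/25)*t^(10:ℕ) + (-86/25)*t^(11:ℕ)) + (1/4802)*((793/25)*t^(2:ℕ) + (-219/5)*t^(3:ℕ)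 + (4143/25)*t^(4:ℕ) + (-614/5)*t^(5:ℕ) + (3102/25)*t^(6:ℕ) + (-1293/25)*t^(7:ℕ) + (-797/25)*t^(8:ℕ) + (624/25)*t^(9:ℕ) + (-549/25)*t^(10:ℕ) + (-58/25)*t^(11:ℕ)) + (1/168070)*((772/25)*t^(2:ℕ) + (-801/25)*t^(3:ℕ) + (5531/100)*t^(4:ℕ) + (-2577/50)*t^(5:ℕ) + (1589/100)*t^(6:ℕ) + (31/10)*t^(7:ℕ) + (-2037/100)*t^(8:ℕ) + (597/25)*t^(9:ℕ) + (-1052/25)*t^(10:ℕ) + (32/25)*t^(11:ℕ)) - (1/10) = (201/490) + (459/1715)*t + (6924366/2100875)*t^(2:ℕ) + (5351327/2100875)*t^(3:ℕ) + (146911311/16807000)*t^(4:ℕ) + (34223153/8403500)*t^(5:ℕ) + (20979947/2401000)*t^(6:ℕ) + (716333/336140)*t^(7:ℕ) + (8265329/2401000)*t^(8:ℕ) + (1650146/2100875)*t^(9:ℕ) + (1385754/2100875)*t^(10:ℕ) + (939801/2100875)*t^(11:ℕ)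 := by ring
    rw [e]; exact h
  have b5 : 0 ≤ 1*((2/5) + (2/5)*t + 2*t^(2:ℕ) + 2*t^(3:ℕ) + 4*t^(4:ℕ) + 4*t^(5:ℕ) + 4*t^(6:ℕ) + 4*t^(7:ℕ) + 2*t^(8:ℕ) + 2*t^(9:ℕ) + (2/5)*t^(10:ℕ) + (2/5)*t^(11:ℕ)) + (5/56)*((42/25) + (-38/25)*t + 17*t^(2:ℕ) + (32/5)*t^(3:ℕ) + (288/5)*t^(4:ℕ) + (11/5)*t^(5:ℕ) + (293/5)*t^(6:ℕ) + (-20)*t^(7:ℕ) + 20*t^(8:ℕ) + (-67/5)*t^(9:ℕ) + (92/25)*t^(10:ℕ) + (22/25)*t^(11:ℕ)) + (5/686)*((-56/25) + (-136/25)*t + (428/25)*t^(2:ℕ) + (568/25)*t^(3:ℕ) + (3384/25)*t^(4:ℕ) + (-336/25)*t^(5:ℕ) + (3009/25)*t^(6:ℕ) + (-2456/25)*t^(7:ℕ) + (118/25)*t^(8:ℕ) + (-1502/25)*t^(9:ℕ) + (9/25)*t^(10:ℕ) + (-86/25)*t^(11:ℕ)) + (5/9604)*((793/25)*t^(2:ℕ) + (-219/5)*t^(3:ℕ)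 + (4143/25)*t^(4:ℕ) + (-614/5)*t^(5:ℕ) + (3102/25)*t^(6:ℕ) + (-1293/25)*t^(7:ℕ) + (-797/25)*t^(8:ℕ) + (624/25)*t^(9:ℕ) + (-549/25)*t^(10:ℕ) + (-58/25)*t^(11:ℕ)) + (1/33614)*((772/25)*t^(2:ℕ) + (-801/25)*t^(3:ℕ) + (5531/100)*t^(4:ℕ) + (-2577/50)*t^(5:ℕ) + (1589/100)*t^(6:ℕ) + (31/10)*t^(7:ℕ) + (-2037/100)*t^(8:ℕ) + (597/25)*t^(9:ℕ) + (-1052/25)*t^(10:ℕ) + (32/25)*t^(11:ℕ)) + (1/941192)*((128/25)*t^(2:ℕ) + (-108/25)*t^(3:ℕ) + (-381/50)*t^(4:ℕ) + (856/25)*t^(5:ℕ) + (-2833/50)*t^(6:ℕ) + (208/5)*t^(7:ℕ) + (-797/50)*t^(8:ℕ) + (244/25)*t^(9:ℕ) + (-428/25)*t^(10:ℕ) + (168/25)*t^(11:ℕ)) - (1/10) := by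
    have h := pos_L1e_b5 t h3 h4
    have e : 1*((2/5) + (2/5)*t + 2*t^(2:ℕ) + 2*t^(3:ℕ) + 4*t^(4:ℕ) + 4*t^(5:ℕ) + 4*t^(6:ℕ) + 4*t^(7:ℕ) + 2*t^(8:ℕ) + 2*t^(9:ℕ) + (2/5)*t^(10:ℕ) + (2/5)*t^(11:ℕ)) + (5/56)*((42/25) + (-38/25)*t + 17*t^(2:ℕ) + (32/5)*t^(3:ℕ) + (288/5)*t^(4:ℕ) + (11/5)*t^(5:ℕ) + (293/5)*t^(6:ℕ) + (-20)*t^(7:ℕ) + 20*t^(8:ℕ) + (-67/5)*t^(9:ℕ) + (92/25)*t^(10:ℕ) + (22/25)*t^(11:ℕ)) + (5/686)*((-56/25) + (-136/25)*t + (428/25)*t^(2:ℕ) + (568/25)*t^(3:ℕ) + (3384/25)*t^(4:ℕ) + (-336/25)*t^(5:ℕ) + (3009/25)*t^(6:ℕ) + (-2456/25)*t^(7:ℕ) + (118/25)*t^(8:ℕ) + (-1502/25)*t^(9:ℕ) + (9/25)*t^(10:ℕ) + (-86/25)*t^(11:ℕ)) + (5/9604)*((793/25)*t^(2:ℕ) + (-219/5)*t^(3:ℕ)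 + (4143/25)*t^(4:ℕ) + (-614/5)*t^(5:ℕ) + (3102/25)*t^(6:ℕ) + (-1293/25)*t^(7:ℕ) + (-797/25)*t^(8:ℕ) + (624/25)*t^(9:ℕ) + (-549/25)*t^(10:ℕ) + (-58/25)*t^(11:ℕ)) + (1/33614)*((772/25)*t^(2:ℕ) + (-801/25)*t^(3:ℕ) + (5531/100)*t^(4:ℕ) + (-2577/50)*t^(5:ℕ) + (1589/100)*t^(6:ℕ) + (31/10)*t^(7:ℕ) + (-2037/100)*t^(8:ℕ) + (597/25)*t^(9:ℕ) + (-1052/25)*t^(10:ℕ) + (32/25)*t^(11:ℕ)) + (1/941192)*((128/25)*t^(2:ℕ) + (-108/25)*t^(3:ℕ) + (-381/50)*t^(4:ℕ) + (856/25)*t^(5:ℕ) + (-2833/50)*t^(6:ℕ) + (208/5)*t^(7:ℕ) + (-797/50)*t^(8:ℕ) + (244/25)*t^(9:ℕ) + (-428/25)*t^(10:ℕ) + (168/25)*t^(11:ℕ)) - (1/10) = (85/196) + (1541/6860)*t + (86120869/23529800)*t^(2:ℕ) + (31921297/11764900)*t^(3:ℕ)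 + (480824873/47059600)*t^(4:ℕ) + (94896643/23529800)*t^(5:ℕ) + (478803803/47059600)*t^(6:ℕ) + (1731159/1176490)*t^(7:ℕ) + (35792557/9411920)*t^(8:ℕ) + (357075/941192)*t^(9:ℕ) + (8452993/11764900)*t^(10:ℕ) + (760241/1680700)*t^(11:ℕ) := by ring
    rw [e]; exact h
  have b6 : 0 ≤ 1*((2/5) + (2/5)*t + 2*t^(2:ℕ) + 2*t^(3:ℕ) + 4*t^(4:ℕ) + 4*t^(5:ℕ) + 4*t^(6:ℕ) + 4*t^(7:ℕ) + 2*t^(8:ℕ) + 2*t^(9:ℕ) + (2/5)*t^(10:ℕ) + (2/5)*t^(11:ℕ)) + (3/28)*((42/25) + (-38/25)*t + 17*t^(2:ℕ) + (32/5)*t^(3:ℕ) + (288/5)*t^(4:ℕ) + (11/5)*t^(5:ℕ) + (293/5)*t^(6:ℕ) + (-20)*t^(7:ℕ) + 20*t^(8:ℕ) + (-67/5)*t^(9:ℕ) + (92/25)*t^(10:ℕ) + (22/25)*t^(11:ℕ)) + (15/1372)*((-56/25) + (-136/25)*t + (428/25)*t^(2:ℕ)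 + (568/25)*t^(3:ℕ) + (3384/25)*t^(4:ℕ) + (-336/25)*t^(5:ℕ) + (3009/25)*t^(6:ℕ) + (-2456/25)*t^(7:ℕ) + (118/25)*t^(8:ℕ) + (-1502/25)*t^(9:ℕ) + (9/25)*t^(10:ℕ) + (-86/25)*t^(11:ℕ)) + (5/4802)*((793/25)*t^(2:ℕ) + (-219/5)*t^(3:ℕ) + (4143/25)*t^(4:ℕ) + (-614/5)*t^(5:ℕ) + (3102/25)*t^(6:ℕ) + (-1293/25)*t^(7:ℕ) + (-797/25)*t^(8:ℕ) + (624/25)*t^(9:ℕ) + (-549/25)*t^(10:ℕ) + (-58/25)*t^(11:ℕ)) + (3/33614)*((772/25)*t^(2:ℕ) + (-801/25)*t^(3:ℕ) + (5531/100)*t^(4:ℕ) + (-2577/50)*t^(5:ℕ) + (1589/100)*t^(6:ℕ) + (31/10)*t^(7:ℕ) + (-2037/100)*t^(8:ℕ) + (597/25)*t^(9:ℕ) + (-1052/25)*t^(10:ℕ) + (32/25)*t^(11:ℕ)) + (3/470596)*((128/25)*t^(2:ℕ) + (-108/25)*t^(3:ℕ) + (-381/50)*t^(4:ℕ) +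 (856/25)*t^(5:ℕ) + (-2833/50)*t^(6:ℕ) + (208/5)*t^(7:ℕ) + (-797/50)*t^(8:ℕ) + (244/25)*t^(9:ℕ) + (-428/25)*t^(10:ℕ) + (168/25)*t^(11:ℕ)) + (1/3294172)*((-189/20)*t^(4:ℕ) + (57/2)*t^(5:ℕ) + (-4039/100)*t^(6:ℕ) + (57/2)*t^(7:ℕ) + (-189/20)*t^(8:ℕ) + (32/25)*t^(9:ℕ) + (-48/25)*t^(10:ℕ) + (32/25)*t^(11:ℕ)) - (1/10) := by
    have h := pos_L1e_b6 t h3 h4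
    have e : 1*((2/5) + (2/5)*t + 2*t^(2:ℕ) + 2*t^(3:ℕ) + 4*t^(4:ℕ) + 4*t^(5:ℕ) + 4*t^(6:ℕ) + 4*t^(7:ℕ) + 2*t^(8:ℕ) + 2*t^(9:ℕ) + (2/5)*t^(10:ℕ) + (2/5)*t^(11:ℕ)) + (3/28)*((42/25) + (-38/25)*t + 17*t^(2:ℕ) + (32/5)*t^(3:ℕ) + (288/5)*t^(4:ℕ) + (11/5)*t^(5:ℕ) + (293/5)*t^(6:ℕ) + (-20)*t^(7:ℕ) + 20*t^(8:ℕ) + (-67/5)*t^(9:ℕ) + (92/25)*t^(10:ℕ) + (22/25)*t^(11:ℕ)) + (15/1372)*((-56/25) + (-136/25)*t + (428/25)*t^(2:ℕ) + (568/25)*t^(3:ℕ) + (3384/25)*t^(4:ℕ) + (-336/25)*t^(5:ℕ) + (3009/25)*t^(6:ℕ) + (-2456/25)*t^(7:ℕ) + (118/25)*t^(8:ℕ) + (-1502/25)*t^(9:ℕ) + (9/25)*t^(10:ℕ) + (-86/25)*t^(11:ℕ)) + (5/4802)*((793/25)*t^(2:ℕ) + (-219/5)*t^(3:ℕ) + (4143/25)*t^(4:ℕ) + (-614/5)*t^(5:ℕ)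 + (3102/25)*t^(6:ℕ) + (-1293/25)*t^(7:ℕ) + (-797/25)*t^(8:ℕ) + (624/25)*t^(9:ℕ) + (-549/25)*t^(10:ℕ) + (-58/25)*t^(11:ℕ)) + (3/33614)*((772/25)*t^(2:ℕ) + (-801/25)*t^(3:ℕ) + (5531/100)*t^(4:ℕ) + (-2577/50)*t^(5:ℕ) + (1589/100)*t^(6:ℕ) + (31/10)*t^(7:ℕ) + (-2037/100)*t^(8:ℕ) + (597/25)*t^(9:ℕ) + (-1052/25)*t^(10:ℕ) + (32/25)*t^(11:ℕ)) + (3/470596)*((128/25)*t^(2:ℕ) + (-108/25)*t^(3:ℕ) + (-381/50)*t^(4:ℕ) + (856/25)*t^(5:ℕ) + (-2833/50)*t^(6:ℕ) + (208/5)*t^(7:ℕ) + (-797/50)*t^(8:ℕ) + (244/25)*t^(9:ℕ) + (-428/25)*t^(10:ℕ) + (168/25)*t^(11:ℕ)) + (1/3294172)*((-189/20)*t^(4:ℕ) + (57/2)*t^(5:ℕ) + (-4039/100)*t^(6:ℕ) + (57/2)*t^(7:ℕ) + (-189/20)*t^(8:ℕ) + (32/25)*t^(9:ℕ) +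 (-48/25)*t^(10:ℕ) + (32/25)*t^(11:ℕ)) - (1/10) = (558/1225) + (3047/17150)*t + (47582163/11764900)*t^(2:ℕ) + (8487251/2941225)*t^(3:ℕ) + (556656241/47059600)*t^(4:ℕ) + (651676029/164708600)*t^(5:ℕ) + (551759763/47059600)*t^(6:ℕ) + (24040483/32941720)*t^(7:ℕ) + (195737049/47059600)*t^(8:ℕ) + (-5302181/82354300)*t^(9:ℕ) + (12707117/16470860)*t^(10:ℕ) + (9355823/20588575)*t^(11:ℕ) := by ring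
    rw [e]; exact h
  have b7 : 0 ≤ 1*((2/5) + (2/5)*t + 2*t^(2:ℕ) + 2*t^(3:ℕ) + 4*t^(4:ℕ) + 4*t^(5:ℕ) + 4*t^(6:ℕ) + 4*t^(7:ℕ) + 2*t^(8:ℕ) + 2*t^(9:ℕ) + (2/5)*t^(10:ℕ) + (2/5)*t^(11:ℕ)) + (1/8)*((42/25) + (-38/25)*t + 17*t^(2:ℕ) + (32/5)*t^(3:ℕ) + (288/5)*t^(4:ℕ) + (11/5)*t^(5:ℕ) + (293/5)*t^(6:ℕ) + (-20)*t^(7:ℕ) + 20*t^(8:ℕ) + (-67/5)*t^(9:ℕ) + (92/25)*t^(10:ℕ) + (22/25)*t^(11:ℕ)) + (3/196)*((-56/25) + (-136/25)*t + (428/25)*t^(2:ℕ) + (568/25)*t^(3:ℕ) + (3384/25)*t^(4:ℕ) + (-336/25)*t^(5:ℕ) + (3009/25)*t^(6:ℕ) + (-2456/25)*t^(7:ℕ) + (118/25)*t^(8:ℕ) + (-1502/25)*t^(9:ℕ) + (9/25)*t^(10:ℕ) + (-86/25)*t^(11:ℕ)) + (5/2744)*((793/25)*t^(2:ℕ) + (-219/5)*t^(3:ℕ) + (4143/25)*t^(4:ℕ)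 + (-614/5)*t^(5:ℕ) + (3102/25)*t^(6:ℕ) + (-1293/25)*t^(7:ℕ) + (-797/25)*t^(8:ℕ) + (624/25)*t^(9:ℕ) + (-549/25)*t^(10:ℕ) + (-58/25)*t^(11:ℕ)) + (1/4802)*((772/25)*t^(2:ℕ) + (-801/25)*t^(3:ℕ) + (5531/100)*t^(4:ℕ) + (-2577/50)*t^(5:ℕ) + (1589/100)*t^(6:ℕ) + (31/10)*t^(7:ℕ) + (-2037/100)*t^(8:ℕ) + (597/25)*t^(9:ℕ) + (-1052/25)*t^(10:ℕ) + (32/25)*t^(11:ℕ)) + (3/134456)*((128/25)*t^(2:ℕ) + (-108/25)*t^(3:ℕ) + (-381/50)*t^(4:ℕ) + (856/25)*t^(5:ℕ) + (-2833/50)*t^(6:ℕ) + (208/5)*t^(7:ℕ) + (-797/50)*t^(8:ℕ) + (244/25)*t^(9:ℕ) + (-428/25)*t^(10:ℕ) + (168/25)*t^(11:ℕ)) + (1/470596)*((-189/20)*t^(4:ℕ) + (57/2)*t^(5:ℕ) + (-4039/100)*t^(6:ℕ) + (57/2)*t^(7:ℕ) + (-189/20)*t^(8:ℕ) +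 (32/25)*t^(9:ℕ) + (-48/25)*t^(10:ℕ) + (32/25)*t^(11:ℕ)) + (1/6588344)*((-54/25)*t^(4:ℕ) + (163/25)*t^(5:ℕ) + (-231/25)*t^(6:ℕ) + (163/25)*t^(7:ℕ) + (-54/25)*t^(8:ℕ)) - (1/10) := by
    have h := pos_L1e_b7 t h3 h4
    have e : 1*((2/5) + (2/5)*t + 2*t^(2:ℕ) + 2*t^(3:ℕ) + 4*t^(4:ℕ) + 4*t^(5:ℕ) + 4*t^(6:ℕ) + 4*t^(7:ℕ) + 2*t^(8:ℕ) + 2*t^(9:ℕ) + (2/5)*t^(10:ℕ) + (2/5)*t^(11:ℕ)) + (1/8)*((42/25) + (-38/25)*t + 17*t^(2:ℕ) + (32/5)*t^(3:ℕ) + (288/5)*t^(4:ℕ) + (11/5)*t^(5:ℕ) + (293/5)*t^(6:ℕ) + (-20)*t^(7:ℕ) + 20*t^(8:ℕ) + (-67/5)*t^(9:ℕ) + (92/25)*t^(10:ℕ) + (22/25)*t^(11:ℕ)) + (3/196)*((-56/25) + (-136/25)*t + (428/25)*t^(2:ℕ) + (568/25)*t^(3:ℕ) + (3384/25)*t^(4:ℕ) + (-336/25)*t^(5:ℕ)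 + (3009/25)*t^(6:ℕ) + (-2456/25)*t^(7:ℕ) + (118/25)*t^(8:ℕ) + (-1502/25)*t^(9:ℕ) + (9/25)*t^(10:ℕ) + (-86/25)*t^(11:ℕ)) + (5/2744)*((793/25)*t^(2:ℕ) + (-219/5)*t^(3:ℕ) + (4143/25)*t^(4:ℕ) + (-614/5)*t^(5:ℕ) + (3102/25)*t^(6:ℕ) + (-1293/25)*t^(7:ℕ) + (-797/25)*t^(8:ℕ) + (624/25)*t^(9:ℕ) + (-549/25)*t^(10:ℕ) + (-58/25)*t^(11:ℕ)) + (1/4802)*((772/25)*t^(2:ℕ) + (-801/25)*t^(3:ℕ) + (5531/100)*t^(4:ℕ) + (-2577/50)*t^(5:ℕ) + (1589/100)*t^(6:ℕ) + (31/10)*t^(7:ℕ) + (-2037/100)*t^(8:ℕ) + (597/25)*t^(9:ℕ) + (-1052/25)*t^(10:ℕ) + (32/25)*t^(11:ℕ)) + (3/134456)*((128/25)*t^(2:ℕ) + (-108/25)*t^(3:ℕ) + (-381/50)*t^(4:ℕ) + (856/25)*t^(5:ℕ) + (-2833/50)*t^(6:ℕ) + (208/5)*t^(7:ℕ) + (-797/50)*t^(8:ℕ)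 + (244/25)*t^(9:ℕ) + (-428/25)*t^(10:ℕ) + (168/25)*t^(11:ℕ)) + (1/470596)*((-189/20)*t^(4:ℕ) + (57/2)*t^(5:ℕ) + (-4039/100)*t^(6:ℕ) + (57/2)*t^(7:ℕ) + (-189/20)*t^(8:ℕ) + (32/25)*t^(9:ℕ) + (-48/25)*t^(10:ℕ) + (32/25)*t^(11:ℕ)) + (1/6588344)*((-54/25)*t^(4:ℕ) + (163/25)*t^(5:ℕ) + (-231/25)*t^(6:ℕ) + (163/25)*t^(7:ℕ) + (-54/25)*t^(8:ℕ)) - (1/10) = (333/700) + (621/4900)*t + (3740721/840350)*t^(2:ℕ) + (10289837/3361400)*t^(3:ℕ) + (2237588131/164708600)*t^(4:ℕ) + (631759151/164708600)*t^(5:ℕ) + (315188631/23529800)*t^(6:ℕ) + (-15858169/164708600)*t^(7:ℕ) + (742759439/164708600)*t^(8:ℕ) + (-12798267/23529800)*t^(9:ℕ) + (19208471/23529800)*t^(10:ℕ) + (2667919/5882450)*t^(11:ℕ)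 := by ring
    rw [e]; exact h
  have b8 : 0 ≤ 1*((2/5) + (2/5)*t + 2*t^(2:ℕ) + 2*t^(3:ℕ) + 4*t^(4:ℕ) + 4*t^(5:ℕ) + 4*t^(6:ℕ) + 4*t^(7:ℕ) + 2*t^(8:ℕ) + 2*t^(9:ℕ) + (2/5)*t^(10:ℕ) + (2/5)*t^(11:ℕ)) + (1/7)*((42/25) + (-38/25)*t + 17*t^(2:ℕ) + (32/5)*t^(3:ℕ) + (288/5)*t^(4:ℕ) + (11/5)*t^(5:ℕ) + (293/5)*t^(6:ℕ) + (-20)*t^(7:ℕ) + 20*t^(8:ℕ) + (-67/5)*t^(9:ℕ) + (92/25)*t^(10:ℕ) + (22/25)*t^(11:ℕ)) + (1/49)*((-56/25) + (-136/25)*t + (428/25)*t^(2:ℕ) + (568/25)*t^(3:ℕ) + (3384/25)*t^(4:ℕ) + (-336/25)*t^(5:ℕ) + (3009/25)*t^(6:ℕ) + (-2456/25)*t^(7:ℕ) + (118/25)*t^(8:ℕ) + (-1502/25)*t^(9:ℕ) + (9/25)*t^(10:ℕ) + (-86/25)*t^(11:ℕ)) + (1/343)*((793/25)*t^(2:ℕ) + (-219/5)*t^(3:ℕ)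 + (4143/25)*t^(4:ℕ) + (-614/5)*t^(5:ℕ) + (3102/25)*t^(6:ℕ) + (-1293/25)*t^(7:ℕ) + (-797/25)*t^(8:ℕ) + (624/25)*t^(9:ℕ) + (-549/25)*t^(10:ℕ) + (-58/25)*t^(11:ℕ)) + (1/2401)*((772/25)*t^(2:ℕ) + (-801/25)*t^(3:ℕ) + (5531/100)*t^(4:ℕ) + (-2577/50)*t^(5:ℕ) + (1589/100)*t^(6:ℕ) + (31/10)*t^(7:ℕ) + (-2037/100)*t^(8:ℕ) + (597/25)*t^(9:ℕ) + (-1052/25)*t^(10:ℕ) + (32/25)*t^(11:ℕ)) + (1/16807)*((128/25)*t^(2:ℕ) + (-108/25)*t^(3:ℕ) + (-381/50)*t^(4:ℕ) + (856/25)*t^(5:ℕ) + (-2833/50)*t^(6:ℕ) + (208/5)*t^(7:ℕ) + (-797/50)*t^(8:ℕ) + (244/25)*t^(9:ℕ) + (-428/25)*t^(10:ℕ) + (168/25)*t^(11:ℕ)) + (1/117649)*((-189/20)*t^(4:ℕ) + (57/2)*t^(5:ℕ) + (-4039/100)*t^(6:ℕ) + (57/2)*t^(7:ℕ) + (-189/20)*t^(8:ℕ)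 + (32/25)*t^(9:ℕ) + (-48/25)*t^(10:ℕ) + (32/25)*t^(11:ℕ)) + (1/823543)*((-54/25)*t^(4:ℕ) + (163/25)*t^(5:ℕ) + (-231/25)*t^(6:ℕ) + (163/25)*t^(7:ℕ) + (-54/25)*t^(8:ℕ)) + (1/5764801)*((-4/25)*t^(4:ℕ) + (12/25)*t^(5:ℕ) + (-17/25)*t^(6:ℕ) + (12/25)*t^(7:ℕ) + (-4/25)*t^(8:ℕ)) - (1/10) := by
    have h := pos_L1e_b8 t h3 h4
    have e : 1*((2/5) + (2/5)*t + 2*t^(2:ℕ) + 2*t^(3:ℕ) + 4*t^(4:ℕ) + 4*t^(5:ℕ) + 4*t^(6:ℕ) + 4*t^(7:ℕ) + 2*t^(8:ℕ) + 2*t^(9:ℕ) + (2/5)*t^(10:ℕ) + (2/5)*t^(11:ℕ)) + (1/7)*((42/25) + (-38/25)*t + 17*t^(2:ℕ) + (32/5)*t^(3:ℕ) + (288/5)*t^(4:ℕ) + (11/5)*t^(5:ℕ) + (293/5)*t^(6:ℕ) + (-20)*t^(7:ℕ) + 20*t^(8:ℕ) + (-67/5)*t^(9:ℕ) + (92/25)*t^(10:ℕ) + (22/25)*t^(11:ℕ))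 + (1/49)*((-56/25) + (-136/25)*t + (428/25)*t^(2:ℕ) + (568/25)*t^(3:ℕ) + (3384/25)*t^(4:ℕ) + (-336/25)*t^(5:ℕ) + (3009/25)*t^(6:ℕ) + (-2456/25)*t^(7:ℕ) + (118/25)*t^(8:ℕ) + (-1502/25)*t^(9:ℕ) + (9/25)*t^(10:ℕ) + (-86/25)*t^(11:ℕ)) + (1/343)*((793/25)*t^(2:ℕ) + (-219/5)*t^(3:ℕ) + (4143/25)*t^(4:ℕ) + (-614/5)*t^(5:ℕ) + (3102/25)*t^(6:ℕ) + (-1293/25)*t^(7:ℕ) + (-797/25)*t^(8:ℕ) + (624/25)*t^(9:ℕ) + (-549/25)*t^(10:ℕ) + (-58/25)*t^(11:ℕ)) + (1/2401)*((772/25)*t^(2:ℕ) + (-801/25)*t^(3:ℕ) + (5531/100)*t^(4:ℕ) + (-2577/50)*t^(5:ℕ) + (1589/100)*t^(6:ℕ) + (31/10)*t^(7:ℕ) + (-2037/100)*t^(8:ℕ) + (597/25)*t^(9:ℕ) + (-1052/25)*t^(10:ℕ) + (32/25)*t^(11:ℕ)) + (1/16807)*((128/25)*t^(2:ℕ)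 + (-108/25)*t^(3:ℕ) + (-381/50)*t^(4:ℕ) + (856/25)*t^(5:ℕ) + (-2833/50)*t^(6:ℕ) + (208/5)*t^(7:ℕ) + (-797/50)*t^(8:ℕ) + (244/25)*t^(9:ℕ) + (-428/25)*t^(10:ℕ) + (168/25)*t^(11:ℕ)) + (1/117649)*((-189/20)*t^(4:ℕ) + (57/2)*t^(5:ℕ) + (-4039/100)*t^(6:ℕ) + (57/2)*t^(7:ℕ) + (-189/20)*t^(8:ℕ) + (32/25)*t^(9:ℕ) + (-48/25)*t^(10:ℕ) + (32/25)*t^(11:ℕ)) + (1/823543)*((-54/25)*t^(4:ℕ) + (163/25)*t^(5:ℕ) + (-231/25)*t^(6:ℕ) + (163/25)*t^(7:ℕ) + (-54/25)*t^(8:ℕ)) + (1/5764801)*((-4/25)*t^(4:ℕ) + (12/25)*t^(5:ℕ) + (-17/25)*t^(6:ℕ) + (12/25)*t^(7:ℕ) + (-4/25)*t^(8:ℕ)) - (1/10) = (173/350) + (88/1225)*t + (2051968/420175)*t^(2:ℕ) + (1359964/420175)*t^(3:ℕ) + (446676064/28824005)*t^(4:ℕ)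 + (527883396/144120025)*t^(5:ℕ) + (2189528576/144120025)*t^(6:ℕ) + (-145389932/144120025)*t^(7:ℕ) + (27965104/5764801)*t^(8:ℕ) + (-3109172/2941225)*t^(9:ℕ) + (2501444/2941225)*t^(10:ℕ) + (264528/588245)*t^(11:ℕ) := by ring
    rw [e]; exact h
  generalize 1*((2/5) + (2/5)*t + 2*t^(2:ℕ) + 2*t^(3:ℕ) + 4*t^(4:ℕ) + 4*t^(5:ℕ) + 4*t^(6:ℕ) + 4*t^(7:ℕ) + 2*t^(8:ℕ) + 2*t^(9:ℕ) + (2/5)*t^(10:ℕ) + (2/5)*t^(11:ℕ)) - (1/10) = B0 at b0 ⊢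
  generalize 1*((2/5) + (2/5)*t + 2*t^(2:ℕ) + 2*t^(3:ℕ) + 4*t^(4:ℕ) + 4*t^(5:ℕ) + 4*t^(6:ℕ) + 4*t^(7:ℕ) + 2*t^(8:ℕ) + 2*t^(9:ℕ) + (2/5)*t^(10:ℕ) + (2/5)*t^(11:ℕ)) + (1/56)*((42/25) + (-38/25)*t + 17*t^(2:ℕ) + (32/5)*t^(3:ℕ) + (288/5)*t^(4:ℕ) + (11/5)*t^(5:ℕ) + (293/5)*t^(6:ℕ) + (-20)*t^(7:ℕ) + 20*t^(8:ℕ) + (-67/5)*t^(9:ℕ) + (92/25)*t^(10:ℕ) + (22/25)*t^(11:ℕ)) - (1/10) = B1 at b1 ⊢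
  generalize 1*((2/5) + (2/5)*t + 2*t^(2:ℕ) + 2*t^(3:ℕ) + 4*t^(4:ℕ) + 4*t^(5:ℕ) + 4*t^(6:ℕ) + 4*t^(7:ℕ) + 2*t^(8:ℕ) + 2*t^(9:ℕ) + (2/5)*t^(10:ℕ) + (2/5)*t^(11:ℕ)) + (1/28)*((42/25) + (-38/25)*t + 17*t^(2:ℕ) + (32/5)*t^(3:ℕ) + (288/5)*t^(4:ℕ) + (11/5)*t^(5:ℕ) + (293/5)*t^(6:ℕ) + (-20)*t^(7:ℕ) + 20*t^(8:ℕ) + (-67/5)*t^(9:ℕ) + (92/25)*t^(10:ℕ) + (22/25)*t^(11:ℕ)) + (1/1372)*((-56/25) + (-136/25)*t + (428/25)*t^(2:ℕ) + (568/25)*t^(3:ℕ) + (3384/25)*t^(4:ℕ) + (-336/25)*t^(5:ℕ) + (3009/25)*t^(6:ℕ) + (-2456/25)*t^(7:ℕ) + (118/25)*t^(8:ℕ) + (-1502/25)*t^(9:ℕ) + (9/25)*t^(10:ℕ) + (-86/25)*t^(11:ℕ)) - (1/10) = B2 at b2 ⊢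
  generalize 1*((2/5) + (2/5)*t + 2*t^(2:ℕ) + 2*t^(3:ℕ) + 4*t^(4:ℕ) + 4*t^(5:ℕ) + 4*t^(6:ℕ) + 4*t^(7:ℕ) + 2*t^(8:ℕ) + 2*t^(9:ℕ) + (2/5)*t^(10:ℕ) + (2/5)*t^(11:ℕ)) + (3/56)*((42/25) + (-38/25)*t + 17*t^(2:ℕ) + (32/5)*t^(3:ℕ) + (288/5)*t^(4:ℕ) + (11/5)*t^(5:ℕ) + (293/5)*t^(6:ℕ) + (-20)*t^(7:ℕ) + 20*t^(8:ℕ) + (-67/5)*t^(9:ℕ) + (92/25)*t^(10:ℕ) + (22/25)*t^(11:ℕ)) + (3/1372)*((-56/25) + (-136/25)*t + (428/25)*t^(2:ℕ) + (568/25)*t^(3:ℕ) + (3384/25)*t^(4:ℕ) + (-336/25)*t^(5:ℕ) + (3009/25)*t^(6:ℕ) + (-2456/25)*t^(7:ℕ) + (118/25)*t^(8:ℕ) + (-1502/25)*t^(9:ℕ) + (9/25)*t^(10:ℕ) + (-86/25)*t^(11:ℕ)) + (1/19208)*((793/25)*t^(2:ℕ) + (-219/5)*t^(3:ℕ) + (4143/25)*t^(4:ℕ) + (-614/5)*t^(5:ℕ)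 + (3102/25)*t^(6:ℕ) + (-1293/25)*t^(7:ℕ) + (-797/25)*t^(8:ℕ) + (624/25)*t^(9:ℕ) + (-549/25)*t^(10:ℕ) + (-58/25)*t^(11:ℕ)) - (1/10) = B3 at b3 ⊢
  generalize 1*((2/5) + (2/5)*t + 2*t^(2:ℕ) + 2*t^(3:ℕ) + 4*t^(4:ℕ) + 4*t^(5:ℕ) + 4*t^(6:ℕ) + 4*t^(7:ℕ) + 2*t^(8:ℕ) + 2*t^(9:ℕ) + (2/5)*t^(10:ℕ) + (2/5)*t^(11:ℕ)) + (1/14)*((42/25) + (-38/25)*t + 17*t^(2:ℕ) + (32/5)*t^(3:ℕ) + (288/5)*t^(4:ℕ) + (11/5)*t^(5:ℕ) + (293/5)*t^(6:ℕ) + (-20)*t^(7:ℕ) + 20*t^(8:ℕ) + (-67/5)*t^(9:ℕ) + (92/25)*t^(10:ℕ) + (22/25)*t^(11:ℕ)) + (3/686)*((-56/25) + (-136/25)*t + (428/25)*t^(2:ℕ) + (568/25)*t^(3:ℕ) + (3384/25)*t^(4:ℕ) + (-336/25)*t^(5:ℕ) + (3009/25)*t^(6:ℕ) + (-2456/25)*t^(7:ℕ) + (118/25)*t^(8:ℕ)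 + (-1502/25)*t^(9:ℕ) + (9/25)*t^(10:ℕ) + (-86/25)*t^(11:ℕ)) + (1/4802)*((793/25)*t^(2:ℕ) + (-219/5)*t^(3:ℕ) + (4143/25)*t^(4:ℕ) + (-614/5)*t^(5:ℕ) + (3102/25)*t^(6:ℕ) + (-1293/25)*t^(7:ℕ) + (-797/25)*t^(8:ℕ) + (624/25)*t^(9:ℕ) + (-549/25)*t^(10:ℕ) + (-58/25)*t^(11:ℕ)) + (1/168070)*((772/25)*t^(2:ℕ) + (-801/25)*t^(3:ℕ) + (5531/100)*t^(4:ℕ) + (-2577/50)*t^(5:ℕ) + (1589/100)*t^(6:ℕ) + (31/10)*t^(7:ℕ) + (-2037/100)*t^(8:ℕ) + (597/25)*t^(9:ℕ) + (-1052/25)*t^(10:ℕ) + (32/25)*t^(11:ℕ)) - (1/10) = B4 at b4 ⊢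
  generalize 1*((2/5) + (2/5)*t + 2*t^(2:ℕ) + 2*t^(3:ℕ) + 4*t^(4:ℕ) + 4*t^(5:ℕ) + 4*t^(6:ℕ) + 4*t^(7:ℕ) + 2*t^(8:ℕ) + 2*t^(9:ℕ) + (2/5)*t^(10:ℕ) + (2/5)*t^(11:ℕ)) + (5/56)*((42/25) + (-38/25)*t + 17*t^(2:ℕ) + (32/5)*t^(3:ℕ) + (288/5)*t^(4:ℕ) + (11/5)*t^(5:ℕ) + (293/5)*t^(6:ℕ) + (-20)*t^(7:ℕ) + 20*t^(8:ℕ) + (-67/5)*t^(9:ℕ) + (92/25)*t^(10:ℕ) + (22/25)*t^(11:ℕ)) + (5/686)*((-56/25) + (-136/25)*t + (428/25)*t^(2:ℕ) + (568/25)*t^(3:ℕ) + (3384/25)*t^(4:ℕ) + (-336/25)*t^(5:ℕ) + (3009/25)*t^(6:ℕ) + (-2456/25)*t^(7:ℕ) + (118/25)*t^(8:ℕ) + (-1502/25)*t^(9:ℕ) + (9/25)*t^(10:ℕ) + (-86/25)*t^(11:ℕ)) + (5/9604)*((793/25)*t^(2:ℕ) + (-219/5)*t^(3:ℕ) + (4143/25)*t^(4:ℕ) + (-614/5)*t^(5:ℕ)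 + (3102/25)*t^(6:ℕ) + (-1293/25)*t^(7:ℕ) + (-797/25)*t^(8:ℕ) + (624/25)*t^(9:ℕ) + (-549/25)*t^(10:ℕ) + (-58/25)*t^(11:ℕ)) + (1/33614)*((772/25)*t^(2:ℕ) + (-801/25)*t^(3:ℕ) + (5531/100)*t^(4:ℕ) + (-2577/50)*t^(5:ℕ) + (1589/100)*t^(6:ℕ) + (31/10)*t^(7:ℕ) + (-2037/100)*t^(8:ℕ) + (597/25)*t^(9:ℕ) + (-1052/25)*t^(10:ℕ) + (32/25)*t^(11:ℕ)) + (1/941192)*((128/25)*t^(2:ℕ) + (-108/25)*t^(3:ℕ) + (-381/50)*t^(4:ℕ) + (856/25)*t^(5:ℕ) + (-2833/50)*t^(6:ℕ) + (208/5)*t^(7:ℕ) + (-797/50)*t^(8:ℕ) + (244/25)*t^(9:ℕ) + (-428/25)*t^(10:ℕ) + (168/25)*t^(11:ℕ)) - (1/10) = B5 at b5 ⊢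
  generalize 1*((2/5) + (2/5)*t + 2*t^(2:ℕ) + 2*t^(3:ℕ) + 4*t^(4:ℕ) + 4*t^(5:ℕ) + 4*t^(6:ℕ) + 4*t^(7:ℕ) + 2*t^(8:ℕ) + 2*t^(9:ℕ) + (2/5)*t^(10:ℕ) + (2/5)*t^(11:ℕ)) + (3/28)*((42/25) + (-38/25)*t + 17*t^(2:ℕ) + (32/5)*t^(3:ℕ) + (288/5)*t^(4:ℕ) + (11/5)*t^(5:ℕ) + (293/5)*t^(6:ℕ) + (-20)*t^(7:ℕ) + 20*t^(8:ℕ) + (-67/5)*t^(9:ℕ) + (92/25)*t^(10:ℕ) + (22/25)*t^(11:ℕ)) + (15/1372)*((-56/25) + (-136/25)*t + (428/25)*t^(2:ℕ) + (568/25)*t^(3:ℕ) + (3384/25)*t^(4:ℕ) + (-336/25)*t^(5:ℕ) + (3009/25)*t^(6:ℕ) + (-2456/25)*t^(7:ℕ) + (118/25)*t^(8:ℕ) + (-1502/25)*t^(9:ℕ) + (9/25)*t^(10:ℕ) + (-86/25)*t^(11:ℕ)) + (5/4802)*((793/25)*t^(2:ℕ) + (-219/5)*t^(3:ℕ) + (4143/25)*t^(4:ℕ) + (-614/5)*t^(5:ℕ)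 + (3102/25)*t^(6:ℕ) + (-1293/25)*t^(7:ℕ) + (-797/25)*t^(8:ℕ) + (624/25)*t^(9:ℕ) + (-549/25)*t^(10:ℕ) + (-58/25)*t^(11:ℕ)) + (3/33614)*((772/25)*t^(2:ℕ) + (-801/25)*t^(3:ℕ) + (5531/100)*t^(4:ℕ) + (-2577/50)*t^(5:ℕ) + (1589/100)*t^(6:ℕ) + (31/10)*t^(7:ℕ) + (-2037/100)*t^(8:ℕ) + (597/25)*t^(9:ℕ) + (-1052/25)*t^(10:ℕ) + (32/25)*t^(11:ℕ)) + (3/470596)*((128/25)*t^(2:ℕ) + (-108/25)*t^(3:ℕ) + (-381/50)*t^(4:ℕ) + (856/25)*t^(5:ℕ) + (-2833/50)*t^(6:ℕ) + (208/5)*t^(7:ℕ) + (-797/50)*t^(8:ℕ) + (244/25)*t^(9:ℕ) + (-428/25)*t^(10:ℕ) + (168/25)*t^(11:ℕ)) + (1/3294172)*((-189/20)*t^(4:ℕ) + (57/2)*t^(5:ℕ) + (-4039/100)*t^(6:ℕ) + (57/2)*t^(7:ℕ) + (-189/20)*t^(8:ℕ) + (32/25)*t^(9:ℕ) +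 (-48/25)*t^(10:ℕ) + (32/25)*t^(11:ℕ)) - (1/10) = B6 at b6 ⊢
  generalize 1*((2/5) + (2/5)*t + 2*t^(2:ℕ) + 2*t^(3:ℕ) + 4*t^(4:ℕ) + 4*t^(5:ℕ) + 4*t^(6:ℕ) + 4*t^(7:ℕ) + 2*t^(8:ℕ) + 2*t^(9:ℕ) + (2/5)*t^(10:ℕ) + (2/5)*t^(11:ℕ)) + (1/8)*((42/25) + (-38/25)*t + 17*t^(2:ℕ) + (32/5)*t^(3:ℕ) + (288/5)*t^(4:ℕ) + (11/5)*t^(5:ℕ) + (293/5)*t^(6:ℕ) + (-20)*t^(7:ℕ) + 20*t^(8:ℕ) + (-67/5)*t^(9:ℕ) + (92/25)*t^(10:ℕ) + (22/25)*t^(11:ℕ)) + (3/196)*((-56/25) + (-136/25)*t + (428/25)*t^(2:ℕ) + (568/25)*t^(3:ℕ) + (3384/25)*t^(4:ℕ) + (-336/25)*t^(5:ℕ) + (3009/25)*t^(6:ℕ) + (-2456/25)*t^(7:ℕ) + (118/25)*t^(8:ℕ) + (-1502/25)*t^(9:ℕ) + (9/25)*t^(10:ℕ) + (-86/25)*t^(11:ℕ)) + (5/2744)*((793/25)*t^(2:ℕ)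 + (-219/5)*t^(3:ℕ) + (4143/25)*t^(4:ℕ) + (-614/5)*t^(5:ℕ) + (3102/25)*t^(6:ℕ) + (-1293/25)*t^(7:ℕ) + (-797/25)*t^(8:ℕ) + (624/25)*t^(9:ℕ) + (-549/25)*t^(10:ℕ) + (-58/25)*t^(11:ℕ)) + (1/4802)*((772/25)*t^(2:ℕ) + (-801/25)*t^(3:ℕ) + (5531/100)*t^(4:ℕ) + (-2577/50)*t^(5:ℕ) + (1589/100)*t^(6:ℕ) + (31/10)*t^(7:ℕ) + (-2037/100)*t^(8:ℕ) + (597/25)*t^(9:ℕ) + (-1052/25)*t^(10:ℕ) + (32/25)*t^(11:ℕ)) + (3/134456)*((128/25)*t^(2:ℕ) + (-108/25)*t^(3:ℕ) + (-381/50)*t^(4:ℕ) + (856/25)*t^(5:ℕ) + (-2833/50)*t^(6:ℕ) + (208/5)*t^(7:ℕ) + (-797/50)*t^(8:ℕ) + (244/25)*t^(9:ℕ) + (-428/25)*t^(10:ℕ) + (168/25)*t^(11:ℕ)) + (1/470596)*((-189/20)*t^(4:ℕ) + (57/2)*t^(5:ℕ) + (-4039/100)*t^(6:ℕ)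 + (57/2)*t^(7:ℕ) + (-189/20)*t^(8:ℕ) + (32/25)*t^(9:ℕ) + (-48/25)*t^(10:ℕ) + (32/25)*t^(11:ℕ)) + (1/6588344)*((-54/25)*t^(4:ℕ) + (163/25)*t^(5:ℕ) + (-231/25)*t^(6:ℕ) + (163/25)*t^(7:ℕ) + (-54/25)*t^(8:ℕ)) - (1/10) = B7 at b7 ⊢
  generalize 1*((2/5) + (2/5)*t + 2*t^(2:ℕ) + 2*t^(3:ℕ) + 4*t^(4:ℕ) + 4*t^(5:ℕ) + 4*t^(6:ℕ) + 4*t^(7:ℕ) + 2*t^(8:ℕ) + 2*t^(9:ℕ) + (2/5)*t^(10:ℕ) + (2/5)*t^(11:ℕ)) + (1/7)*((42/25) + (-38/25)*t + 17*t^(2:ℕ) + (32/5)*t^(3:ℕ) + (288/5)*t^(4:ℕ) + (11/5)*t^(5:ℕ) + (293/5)*t^(6:ℕ) + (-20)*t^(7:ℕ) + 20*t^(8:ℕ) + (-67/5)*t^(9:ℕ) + (92/25)*t^(10:ℕ) + (22/25)*t^(11:ℕ)) + (1/49)*((-56/25) + (-136/25)*t + (428/25)*t^(2:ℕ) + (568/25)*t^(3:ℕ) + (3384/25)*t^(4:ℕ)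 + (-336/25)*t^(5:ℕ) + (3009/25)*t^(6:ℕ) + (-2456/25)*t^(7:ℕ) + (118/25)*t^(8:ℕ) + (-1502/25)*t^(9:ℕ) + (9/25)*t^(10:ℕ) + (-86/25)*t^(11:ℕ)) + (1/343)*((793/25)*t^(2:ℕ) + (-219/5)*t^(3:ℕ) + (4143/25)*t^(4:ℕ) + (-614/5)*t^(5:ℕ) + (3102/25)*t^(6:ℕ) + (-1293/25)*t^(7:ℕ) + (-797/25)*t^(8:ℕ) + (624/25)*t^(9:ℕ) + (-549/25)*t^(10:ℕ) + (-58/25)*t^(11:ℕ)) + (1/2401)*((772/25)*t^(2:ℕ) + (-801/25)*t^(3:ℕ) + (5531/100)*t^(4:ℕ) + (-2577/50)*t^(5:ℕ) + (1589/100)*t^(6:ℕ) + (31/10)*t^(7:ℕ) + (-2037/100)*t^(8:ℕ) + (597/25)*t^(9:ℕ) + (-1052/25)*t^(10:ℕ) + (32/25)*t^(11:ℕ)) + (1/16807)*((128/25)*t^(2:ℕ) + (-108/25)*t^(3:ℕ) + (-381/50)*t^(4:ℕ) + (856/25)*t^(5:ℕ) + (-2833/50)*t^(6:ℕ) + (208/5)*t^(7:ℕ)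 + (-797/50)*t^(8:ℕ) + (244/25)*t^(9:ℕ) + (-428/25)*t^(10:ℕ) + (168/25)*t^(11:ℕ)) + (1/117649)*((-189/20)*t^(4:ℕ) + (57/2)*t^(5:ℕ) + (-4039/100)*t^(6:ℕ) + (57/2)*t^(7:ℕ) + (-189/20)*t^(8:ℕ) + (32/25)*t^(9:ℕ) + (-48/25)*t^(10:ℕ) + (32/25)*t^(11:ℕ)) + (1/823543)*((-54/25)*t^(4:ℕ) + (163/25)*t^(5:ℕ) + (-231/25)*t^(6:ℕ) + (163/25)*t^(7:ℕ) + (-54/25)*t^(8:ℕ)) + (1/5764801)*((-4/25)*t^(4:ℕ) + (12/25)*t^(5:ℕ) + (-17/25)*t^(6:ℕ) + (12/25)*t^(7:ℕ) + (-4/25)*t^(8:ℕ)) - (1/10) = B8 at b8 ⊢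
  generalize (1/7) - d = d2 at a2 ⊢
  positivity

lemma pos_L2e_b0 (t : ℝ) (h3 : 0 ≤ t) (h4 : t ≤ 1) :
    0 ≤ (39/100) + (-3/5)*t + (7/2)*t^(2:ℕ) + (-3)*t^(3:ℕ) + 10*t^(4:ℕ) + (-6)*t^(5:ℕ) + 13*t^(6:ℕ) + (-6)*t^(7:ℕ) + 8*t^(8:ℕ) + (-3)*t^(9:ℕ) + (19/10)*t^(10:ℕ) + (-3/5)*t^(11:ℕ) := by
  have e : (39/100) + (-3/5)*t + (7/2)*t^(2:ℕ) + (-3)*t^(3:ℕ) + 10*t^(4:ℕ) + (-6)*t^(5:ℕ) + 13*t^(6:ℕ) + (-6)*t^(7:ℕ) + 8*t^(8:ℕ) + (-3)*t^(9:ℕ) + (19/10)*t^(10:ℕ) + (-3/5)*t^(11:ℕ) = (39/100)*(1 - t)^(11:ℕ) + (369/100)*(t - 0)*(1 - t)^(10:ℕ) + (379/20)*(t - 0)^(2:ℕ)*(1 - t)^(9:ℕ) + (1317/20)*(t - 0)^(3:ℕ)*(1 - t)^(8:ℕ) + (1687/10)*(t - 0)^(4:ℕ)*(1 - t)^(7:ℕ) + (16409/50)*(t - 0)^(5:ℕ)*(1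 - t)^(6:ℕ) + (24449/50)*(t - 0)^(6:ℕ)*(1 - t)^(5:ℕ) + (5527/10)*(t - 0)^(7:ℕ)*(1 - t)^(4:ℕ) + (9247/20)*(t - 0)^(8:ℕ)*(1 - t)^(3:ℕ) + (5429/20)*(t - 0)^(9:ℕ)*(1 - t)^(2:ℕ) + (10069/100)*(t - 0)^(10:ℕ)*(1 - t) + (1759/100)*(t - 0)^(11:ℕ) := by
    ring
  rw [e]
  have a3 : 0 ≤ t - 0 := by linarith
  have a4 : 0 ≤ 1 - t := by linarith
  generalize t - 0 = t1 at a3 ⊢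
  generalize 1 - t = t2 at a4 ⊢
  positivity

lemma pos_L2e_b1 (t : ℝ) (h3 : 0 ≤ t) (h4 : t ≤ 1) :
    0 ≤ (71/175) + (-227/350)*t + (951/280)*t^(2:ℕ) + (-179/56)*t^(3:ℕ) + (2867/280)*t^(4:ℕ) + (-851/140)*t^(5:ℕ) + (981/70)*t^(6:ℕ) + (-1727/280)*t^(7:ℕ) + (2469/280)*t^(8:ℕ) + (-47/14)*t^(9:ℕ) + (2887/1400)*t^(10:ℕ) + (-18/25)*t^(11:ℕ) := by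
  have e : (71/175) + (-227/350)*t + (951/280)*t^(2:ℕ) + (-179/56)*t^(3:ℕ) + (2867/280)*t^(4:ℕ) + (-851/140)*t^(5:ℕ) + (981/70)*t^(6:ℕ) + (-1727/280)*t^(7:ℕ) + (2469/280)*t^(8:ℕ) + (-47/14)*t^(9:ℕ) + (2887/1400)*t^(10:ℕ) + (-18/25)*t^(11:ℕ) = (71/175)*(1 - t)^(11:ℕ) + (267/70)*(t - 0)*(1 - t)^(10:ℕ) + (769/40)*(t - 0)^(2:ℕ)*(1 - t)^(9:ℕ) + (4559/70)*(t - 0)^(3:ℕ)*(1 - t)^(8:ℕ) + (45639/280)*(t - 0)^(4:ℕ)*(1 - t)^(7:ℕ) + (437691/1400)*(t - 0)^(5:ℕ)*(1 - t)^(6:ℕ) + (26069/56)*(t - 0)^(6:ℕ)*(1 - t)^(5:ℕ) + (37309/70)*(t - 0)^(7:ℕ)*(1 - t)^(4:ℕ) + (63911/140)*(t - 0)^(8:ℕ)*(1 - t)^(3:ℕ) + (38637/140)*(t - 0)^(9:ℕ)*(1 - t)^(2:ℕ) + (14753/140)*(t - 0)^(10:ℕ)*(1 - t) + (13137/700)*(t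 - 0)^(11:ℕ) := by
    ring
  rw [e]
  have a3 : 0 ≤ t - 0 := by linarith
  have a4 : 0 ≤ 1 - t := by linarith
  generalize t - 0 = t1 at a3 ⊢
  generalize 1 - t = t2 at a4 ⊢
  positivity

lemma pos_L2e_b2 (t : ℝ) (h3 : 0 ≤ t) (h4 : t ≤ 1) :
    0 ≤ (14379/34300) + (-24069/34300)*t + (223099/68600)*t^(2:ℕ) + (-117437/34300)*t^(3:ℕ) + (10229/980)*t^(4:ℕ) + (-52774/8575)*t^(5:ℕ) + (517623/34300)*t^(6:ℕ) + (-54389/8575)*t^(7:ℕ) + (333239/34300)*t^(8:ℕ) + (-18481/4900)*t^(9:ℕ) + (153607/68600)*t^(10:ℕ) + (-29539/34300)*t^(11:ℕ) := by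
  have e : (14379/34300) + (-24069/34300)*t + (223099/68600)*t^(2:ℕ) + (-117437/34300)*t^(3:ℕ) + (10229/980)*t^(4:ℕ) + (-52774/8575)*t^(5:ℕ) + (517623/34300)*t^(6:ℕ) + (-54389/8575)*t^(7:ℕ) + (333239/34300)*t^(8:ℕ) + (-18481/4900)*t^(9:ℕ) + (153607/68600)*t^(10:ℕ) + (-29539/34300)*t^(11:ℕ) = (14379/34300)*(1 - t)^(11:ℕ) + (1341/343)*(t - 0)*(1 - t)^(10:ℕ) + (1323409/68600)*(t - 0)^(2:ℕ)*(1 - t)^(9:ℕ) + (4351877/68600)*(t - 0)^(3:ℕ)*(1 - t)^(8:ℕ) + (5291091/34300)*(t - 0)^(4:ℕ)*(1 - t)^(7:ℕ) + (9965539/34300)*(t - 0)^(5:ℕ)*(1 - t)^(6:ℕ) + (14825837/34300)*(t - 0)^(6:ℕ)*(1 - t)^(5:ℕ) + (17259871/34300)*(t - 0)^(7:ℕ)*(1 - t)^(4:ℕ) + (2175113/4900)*(t - 0)^(8:ℕ)*(1 - t)^(3:ℕ)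 + (1905681/6860)*(t - 0)^(9:ℕ)*(1 - t)^(2:ℕ) + (751427/6860)*(t - 0)^(10:ℕ)*(1 - t) + (136509/6860)*(t - 0)^(11:ℕ) := by
    ring
  rw [e]
  have a3 : 0 ≤ t - 0 := by linarith
  have a4 : 0 ≤ 1 - t := by linarith
  generalize t - 0 = t1 at a3 ⊢
  generalize 1 - t = t2 at a4 ⊢
  positivity

lemma pos_L2e_b3 (t : ℝ) (h3 : 0 ≤ t) (h4 : t ≤ 1) :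
    0 ≤ (51677/120050) + (-182351/240100)*t + (736591/240100)*t^(2:ℕ) + (-252701/68600)*t^(3:ℕ) + (5086801/480200)*t^(4:ℕ) + (-427071/68600)*t^(5:ℕ) + (7792969/480200)*t^(6:ℕ) + (-3132469/480200)*t^(7:ℕ) + (5135993/480200)*t^(8:ℕ) + (-2039789/480200)*t^(9:ℕ) + (166879/68600)*t^(10:ℕ) + (-123153/120050)*t^(11:ℕ) := by
  have e : (51677/120050) + (-182351/240100)*t + (736591/240100)*t^(2:ℕ) + (-252701/68600)*t^(3:ℕ) + (5086801/480200)*t^(4:ℕ) + (-427071/68600)*t^(5:ℕ) + (7792969/480200)*t^(6:ℕ) + (-3132469/480200)*t^(7:ℕ) + (5135993/480200)*t^(8:ℕ) + (-2039789/480200)*t^(9:ℕ) + (166879/68600)*t^(10:ℕ) + (-123153/120050)*t^(11:ℕ) = (51677/120050)*(1 - t)^(11:ℕ) + (954543/240100)*(t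 - 0)*(1 - t)^(10:ℕ) + (656793/34300)*(t - 0)^(2:ℕ)*(1 - t)^(9:ℕ) + (29184961/480200)*(t - 0)^(3:ℕ)*(1 - t)^(8:ℕ) + (68419497/480200)*(t - 0)^(4:ℕ)*(1 - t)^(7:ℕ) + (8981977/34300)*(t - 0)^(5:ℕ)*(1 - t)^(6:ℕ) + (9341757/24010)*(t - 0)^(6:ℕ)*(1 - t)^(5:ℕ) + (111225809/240100)*(t - 0)^(7:ℕ)*(1 - t)^(4:ℕ) + (101907489/240100)*(t - 0)^(8:ℕ)*(1 - t)^(3:ℕ) + (66472969/240100)*(t - 0)^(9:ℕ)*(1 - t)^(2:ℕ) + (27168149/240100)*(t - 0)^(10:ℕ)*(1 - t) + (1007583/48020)*(t - 0)^(11:ℕ) := by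
    ring
  rw [e]
  have a3 : 0 ≤ t - 0 := by linarith
  have a4 : 0 ≤ 1 - t := by linarith
  generalize t - 0 = t1 at a3 ⊢
  generalize 1 - t = t2 at a4 ⊢
  positivity

lemma pos_L2e_b4 (t : ℝ) (h3 : 0 ≤ t) (h4 : t ≤ 1) :
    0 ≤ (105507/240100) + (-98667/120050)*t + (23900813/8403500)*t^(2:ℕ) + (-66848917/16807000)*t^(3:ℕ) + (4497132/420175)*t^(4:ℕ) + (-52858607/8403500)*t^(5:ℕ) + (146433167/8403500)*t^(6:ℕ) + (-112742421/16807000)*t^(7:ℕ) + (98835427/8403500)*t^(8:ℕ) + (-80508177/16807000)*t^(9:ℕ) + (22220867/8403500)*t^(10:ℕ) + (-2555551/2100875)*t^(11:ℕ) := by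
  have e : (105507/240100) + (-98667/120050)*t + (23900813/8403500)*t^(2:ℕ) + (-66848917/16807000)*t^(3:ℕ) + (4497132/420175)*t^(4:ℕ) + (-52858607/8403500)*t^(5:ℕ) + (146433167/8403500)*t^(6:ℕ) + (-112742421/16807000)*t^(7:ℕ) + (98835427/8403500)*t^(8:ℕ) + (-80508177/16807000)*t^(9:ℕ) + (22220867/8403500)*t^(10:ℕ) + (-2555551/2100875)*t^(11:ℕ) = (105507/240100)*(1 - t)^(11:ℕ) + (963243/240100)*(t - 0)*(1 - t)^(10:ℕ) + (39483722/2100875)*(t - 0)^(2:ℕ)*(1 - t)^(9:ℕ) + (960369467/16807000)*(t - 0)^(3:ℕ)*(1 - t)^(8:ℕ) + (107277929/840350)*(t - 0)^(4:ℕ)*(1 - t)^(7:ℕ) + (1904166617/8403500)*(t - 0)^(5:ℕ)*(1 - t)^(6:ℕ) + (2823372037/8403500)*(t - 0)^(6:ℕ)*(1 - t)^(5:ℕ) + (277671937/672280)*(t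 - 0)^(7:ℕ)*(1 - t)^(4:ℕ) + (836225314/2100875)*(t - 0)^(8:ℕ)*(1 - t)^(3:ℕ) + (655747797/2401000)*(t - 0)^(9:ℕ)*(1 - t)^(2:ℕ) + (488305873/4201750)*(t - 0)^(10:ℕ)*(1 - t) + (369976801/16807000)*(t - 0)^(11:ℕ) := by
    ring
  rw [e]
  have a3 : 0 ≤ t - 0 := by linarith
  have a4 : 0 ≤ 1 - t := by linarith
  generalize t - 0 = t1 at a3 ⊢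
  generalize 1 - t = t2 at a4 ⊢
  positivity

lemma pos_L2e_b5 (t : ℝ) (h3 : 0 ≤ t) (h4 : t ≤ 1) :
    0 ≤ (26776/60025) + (-10672/12005)*t + (60749519/23529800)*t^(2:ℕ) + (-8106261/1882384)*t^(3:ℕ) + (253303649/23529800)*t^(4:ℕ) + (-21332363/3361400)*t^(5:ℕ) + (219761817/11764900)*t^(6:ℕ) + (-324514513/47059600)*t^(7:ℕ) + (60781033/4705960)*t^(8:ℕ) + (-254287029/47059600)*t^(9:ℕ) + (67667151/23529800)*t^(10:ℕ) + (-2412811/1680700)*t^(11:ℕ) := by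
  have e : (26776/60025) + (-10672/12005)*t + (60749519/23529800)*t^(2:ℕ) + (-8106261/1882384)*t^(3:ℕ) + (253303649/23529800)*t^(4:ℕ) + (-21332363/3361400)*t^(5:ℕ) + (219761817/11764900)*t^(6:ℕ) + (-324514513/47059600)*t^(7:ℕ) + (60781033/4705960)*t^(8:ℕ) + (-254287029/47059600)*t^(9:ℕ) + (67667151/23529800)*t^(10:ℕ) + (-2412811/1680700)*t^(11:ℕ) = (26776/60025)*(1 - t)^(11:ℕ) + (241176/60025)*(t - 0)*(1 - t)^(10:ℕ) + (428868879/23529800)*(t - 0)^(2:ℕ)*(1 - t)^(9:ℕ) + (2472037377/47059600)*(t - 0)^(3:ℕ)*(1 - t)^(8:ℕ) + (2583349193/23529800)*(t - 0)^(4:ℕ)*(1 - t)^(7:ℕ) + (77610942/420175)*(t - 0)^(5:ℕ)*(1 - t)^(6:ℕ) + (256844967/941192)*(t - 0)^(6:ℕ)*(1 - t)^(5:ℕ) +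 (3317479877/9411920)*(t - 0)^(7:ℕ)*(1 - t)^(4:ℕ) + (3501879/9604)*(t - 0)^(8:ℕ)*(1 - t)^(3:ℕ) + (1791872797/6722800)*(t - 0)^(9:ℕ)*(1 - t)^(2:ℕ) + (2793257541/23529800)*(t - 0)^(10:ℕ)*(1 - t) + (1081786523/47059600)*(t - 0)^(11:ℕ) := by
    ring
  rw [e]
  have a3 : 0 ≤ t - 0 := by linarith
  have a4 : 0 ≤ 1 - t := by linarith
  generalize t - 0 = t1 at a3 ⊢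
  generalize 1 - t = t2 at a4 ⊢
  positivity

lemma pos_L2e_b6 (t : ℝ) (h3 : 0 ≤ t) (h4 : t ≤ 1) :
    0 ≤ (108137/240100) + (-230677/240100)*t + (375804617/164708600)*t^(2:ℕ) + (-307784361/65883440)*t^(3:ℕ) + (887577987/82354300)*t^(4:ℕ) + (-1052895023/164708600)*t^(5:ℕ) + (3292452161/164708600)*t^(6:ℕ) + (-2333980333/329417200)*t^(7:ℕ) + (2332701139/164708600)*t^(8:ℕ) + (-2007100281/329417200)*t^(9:ℕ) + (515429403/164708600)*t^(10:ℕ) + (-69436329/41177150)*t^(11:ℕ) := by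
  have e : (108137/240100) + (-230677/240100)*t + (375804617/164708600)*t^(2:ℕ) + (-307784361/65883440)*t^(3:ℕ) + (887577987/82354300)*t^(4:ℕ) + (-1052895023/164708600)*t^(5:ℕ) + (3292452161/164708600)*t^(6:ℕ) + (-2333980333/329417200)*t^(7:ℕ) + (2332701139/164708600)*t^(8:ℕ) + (-2007100281/329417200)*t^(9:ℕ) + (515429403/164708600)*t^(10:ℕ) + (-69436329/41177150)*t^(11:ℕ) = (108137/240100)*(1 - t)^(11:ℕ) + (95883/24010)*(t - 0)*(1 - t)^(10:ℕ) + (2873369407/164708600)*(t - 0)^(2:ℕ)*(1 - t)^(9:ℕ) + (15463617381/329417200)*(t - 0)^(3:ℕ)*(1 - t)^(8:ℕ) + (7319579193/82354300)*(t - 0)^(4:ℕ)*(1 - t)^(7:ℕ) + (22436626417/164708600)*(t - 0)^(5:ℕ)*(1 - t)^(6:ℕ) + (32909410019/164708600)*(t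 - 0)^(6:ℕ)*(1 - t)^(5:ℕ) + (92740296781/329417200)*(t - 0)^(7:ℕ)*(1 - t)^(4:ℕ) + (7627184913/23529800)*(t - 0)^(8:ℕ)*(1 - t)^(3:ℕ) + (12098587131/47059600)*(t - 0)^(9:ℕ)*(1 - t)^(2:ℕ) + (19869566273/164708600)*(t - 0)^(10:ℕ)*(1 - t) + (7873678611/329417200)*(t - 0)^(11:ℕ) := by
    ring
  rw [e]
  have a3 : 0 ≤ t - 0 := by linarith
  have a4 : 0 ≤ 1 - t := by linarith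
  generalize t - 0 = t1 at a3 ⊢
  generalize 1 - t = t2 at a4 ⊢
  positivity

lemma pos_L2e_b7 (t : ℝ) (h3 : 0 ≤ t) (h4 : t ≤ 1) :
    0 ≤ (7757/17150) + (-35579/34300)*t + (5719083/2941225)*t^(2:ℕ) + (-23879273/4705960)*t^(3:ℕ) + (10106321/941192)*t^(4:ℕ) + (-1058600043/164708600)*t^(5:ℕ) + (3517187321/164708600)*t^(6:ℕ) + (-34234699/4705960)*t^(7:ℕ) + (2553873479/164708600)*t^(8:ℕ) + (-1130493009/164708600)*t^(9:ℕ) + (561168999/164708600)*t^(10:ℕ) + (-81185689/41177150)*t^(11:ℕ) := by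
  have e : (7757/17150) + (-35579/34300)*t + (5719083/2941225)*t^(2:ℕ) + (-23879273/4705960)*t^(3:ℕ) + (10106321/941192)*t^(4:ℕ) + (-1058600043/164708600)*t^(5:ℕ) + (3517187321/164708600)*t^(6:ℕ) + (-34234699/4705960)*t^(7:ℕ) + (2553873479/164708600)*t^(8:ℕ) + (-1130493009/164708600)*t^(9:ℕ) + (561168999/164708600)*t^(10:ℕ) + (-81185689/41177150)*t^(11:ℕ) = (7757/17150)*(1 - t)^(11:ℕ) + (5403/1372)*(t - 0)*(1 - t)^(10:ℕ) + (48377993/2941225)*(t - 0)^(2:ℕ)*(1 - t)^(9:ℕ) + (950083541/23529800)*(t - 0)^(3:ℕ)*(1 - t)^(8:ℕ) + (1527779049/23529800)*(t - 0)^(4:ℕ)*(1 - t)^(7:ℕ) + (1336212823/16470860)*(t - 0)^(5:ℕ)*(1 - t)^(6:ℕ) + (9610341213/82354300)*(t - 0)^(6:ℕ)*(1 - t)^(5:ℕ)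 + (16482704239/82354300)*(t - 0)^(7:ℕ)*(1 - t)^(4:ℕ) + (22775730053/82354300)*(t - 0)^(8:ℕ)*(1 - t)^(3:ℕ) + (5039070387/20588575)*(t - 0)^(9:ℕ)*(1 - t)^(2:ℕ) + (57402067/470596)*(t - 0)^(10:ℕ)*(1 - t) + (509615958/20588575)*(t - 0)^(11:ℕ) := by
    ring
  rw [e]
  have a3 : 0 ≤ t - 0 := by linarith
  have a4 : 0 ≤ 1 - t := by linarith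
  generalize t - 0 = t1 at a3 ⊢
  generalize 1 - t = t2 at a4 ⊢
  positivity

lemma pos_L2e_b8 (t : ℝ) (h3 : 0 ≤ t) (h4 : t ≤ 1) :
    0 ≤ (15497/34300) + (-9592/8575)*t + (4621144/2941225)*t^(2:ℕ) + (-16221032/2941225)*t^(3:ℕ) + (31305724/2941225)*t^(4:ℕ) + (-132770236/20588575)*t^(5:ℕ) + (468825396/20588575)*t^(6:ℕ) + (-1075577248/144120025)*t^(7:ℕ) + (2442555316/144120025)*t^(8:ℕ) + (-1112792432/144120025)*t^(9:ℕ) + (534877684/144120025)*t^(10:ℕ) + (-330756976/144120025)*t^(11:ℕ) := by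
  have e : (15497/34300) + (-9592/8575)*t + (4621144/2941225)*t^(2:ℕ) + (-16221032/2941225)*t^(3:ℕ) + (31305724/2941225)*t^(4:ℕ) + (-132770236/20588575)*t^(5:ℕ) + (468825396/20588575)*t^(6:ℕ) + (-1075577248/144120025)*t^(7:ℕ) + (2442555316/144120025)*t^(8:ℕ) + (-1112792432/144120025)*t^(9:ℕ) + (534877684/144120025)*t^(10:ℕ) + (-330756976/144120025)*t^(11:ℕ) = (15497/34300)*(1 - t)^(11:ℕ) + (132099/34300)*(t - 0)*(1 - t)^(10:ℕ) + (179233241/11764900)*(t - 0)^(2:ℕ)*(1 - t)^(9:ℕ) + (386319691/11764900)*(t - 0)^(3:ℕ)*(1 - t)^(8:ℕ) + (223236579/5882450)*(t - 0)^(4:ℕ)*(1 - t)^(7:ℕ) + (800593247/41177150)*(t - 0)^(5:ℕ)*(1 - t)^(6:ℕ) + (970498783/41177150)*(t - 0)^(6:ℕ)*(1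 - t)^(5:ℕ) + (31215344131/288240050)*(t - 0)^(7:ℕ)*(1 - t)^(4:ℕ) + (25574392831/115296020)*(t - 0)^(8:ℕ)*(1 - t)^(3:ℕ) + (132300280729/576480100)*(t - 0)^(9:ℕ)*(1 - t)^(2:ℕ) + (70753857173/576480100)*(t - 0)^(10:ℕ)*(1 - t) + (2944144163/115296020)*(t - 0)^(11:ℕ) := by
    ring
  rw [e]
  have a3 : 0 ≤ t - 0 := by linarith
  have a4 : 0 ≤ 1 - t := by linarith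
  generalize t - 0 = t1 at a3 ⊢
  generalize 1 - t = t2 at a4 ⊢
  positivity

lemma pos_L2e_id (d : ℝ) (C0 C1 C2 C3 C4 C5 C6 C7 C8 : ℝ) :
    C0 + d*C1 + d^(2:ℕ)*C2 + d^(3:ℕ)*C3 + d^(4:ℕ)*C4 + d^(5:ℕ)*C5 + d^(6:ℕ)*C6 + d^(7:ℕ)*C7 + d^(8:ℕ)*C8 = (1/100) + (5764801*((1/7)-d)^(8:ℕ)*(1*C0 - (1/100)) + 46118408*d*((1/7)-d)^(7:ℕ)*(1*C0 + (1/56)*C1 - (1/100)) + 161414428*d^(2:ℕ)*((1/7)-d)^(6:ℕ)*(1*C0 + (1/28)*C1 + (1/1372)*C2 - (1/100)) + 322828856*d^(3:ℕ)*((1/7)-d)^(5:ℕ)*(1*C0 + (3/56)*C1 + (3/1372)*C2 + (1/19208)*C3 - (1/100)) + 403536070*d^(4:ℕ)*((1/7)-d)^(4:ℕ)*(1*C0 + (1/14)*C1 + (3/686)*C2 + (1/4802)*C3 + (1/168070)*C4 - (1/100)) + 322828856*d^(5:ℕ)*((1/7)-d)^(3:ℕ)*(1*C0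 + (5/56)*C1 + (5/686)*C2 + (5/9604)*C3 + (1/33614)*C4 + (1/941192)*C5 - (1/100)) + 161414428*d^(6:ℕ)*((1/7)-d)^(2:ℕ)*(1*C0 + (3/28)*C1 + (15/1372)*C2 + (5/4802)*C3 + (3/33614)*C4 + (3/470596)*C5 + (1/3294172)*C6 - (1/100)) + 46118408*d^(7:ℕ)*((1/7)-d)*(1*C0 + (1/8)*C1 + (3/196)*C2 + (5/2744)*C3 + (1/4802)*C4 + (3/134456)*C5 + (1/470596)*C6 + (1/6588344)*C7 - (1/100)) + 5764801*d^(8:ℕ)*(1*C0 + (1/7)*C1 + (1/49)*C2 + (1/343)*C3 + (1/2401)*C4 + (1/16807)*C5 + (1/117649)*C6 + (1/823543)*C7 + (1/5764801)*C8 - (1/100))) := by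
  ring

lemma pos_L2e (d t : ℝ) (h1 : 0 ≤ d) (h2 : d ≤ (1/7)) (h3 : 0 ≤ t) (h4 : t ≤ 1) :
    0 < (2/5) + (-3/5)*t + (7/2)*t^(2:ℕ) + (-3)*t^(3:ℕ) + 10*t^(4:ℕ) + (-6)*t^(5:ℕ) + 13*t^(6:ℕ) + (-6)*t^(7:ℕ) + 8*t^(8:ℕ) + (-3)*t^(9:ℕ) + (19/10)*t^(10:ℕ) + (-3/5)*t^(11:ℕ) + (22/25)*d + (-68/25)*d*t + (-29/5)*d*t^(2:ℕ) + (-11)*d*t^(3:ℕ) + (67/5)*d*t^(4:ℕ) + (-22/5)*d*t^(5:ℕ) + (284/5)*d*t^(6:ℕ) + (-47/5)*d*t^(7:ℕ) + (229/5)*d*t^(8:ℕ) + (-20)*d*t^(9:ℕ) + (227/25)*d*t^(10:ℕ) + (-168/25)*d*t^(11:ℕ) + (-76/25)*d^(2:ℕ) + (-157/25)*d^(2:ℕ)*t + (-2791/50)*d^(2:ℕ)*t^(2:ℕ) + (-1062/25)*d^(2:ℕ)*t^(3:ℕ) + (-56)*d^(2:ℕ)*t^(4:ℕ) + (94/25)*d^(2:ℕ)*t^(5:ℕ) + (2143/25)*d^(2:ℕ)*t^(6:ℕ) + (-241/25)*d^(2:ℕ)*t^(7:ℕ)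 + (2734/25)*d^(2:ℕ)*t^(8:ℕ) + (-1967/25)*d^(2:ℕ)*t^(9:ℕ) + (1021/50)*d^(2:ℕ)*t^(10:ℕ) + (-727/25)*d^(2:ℕ)*t^(11:ℕ) + (-16/25)*d^(3:ℕ) + (-16/25)*d^(3:ℕ)*t + (298/25)*d^(3:ℕ)*t^(2:ℕ) + (-728/25)*d^(3:ℕ)*t^(3:ℕ) + (-1114/25)*d^(3:ℕ)*t^(4:ℕ) + (189/5)*d^(3:ℕ)*t^(5:ℕ) + (-817/25)*d^(3:ℕ)*t^(6:ℕ) + (668/25)*d^(3:ℕ)*t^(7:ℕ) + (272/5)*d^(3:ℕ)*t^(8:ℕ) + (-83)*d^(3:ℕ)*t^(9:ℕ) + (749/25)*d^(3:ℕ)*t^(10:ℕ) + (-1086/25)*d^(3:ℕ)*t^(11:ℕ) + (269/25)*d^(4:ℕ)*t^(2:ℕ) + (1783/100)*d^(4:ℕ)*t^(3:ℕ) + (27/5)*d^(4:ℕ)*t^(4:ℕ) + (-837/50)*d^(4:ℕ)*t^(5:ℕ) + (447/50)*d^(4:ℕ)*t^(6:ℕ) + (-701/100)*d^(4:ℕ)*t^(7:ℕ) + (1797/50)*d^(4:ℕ)*t^(8:ℕ) + (-3697/100)*d^(4:ℕ)*t^(9:ℕ) + (541/25)*d^(4:ℕ)*t^(10:ℕ)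 + (-857/25)*d^(4:ℕ)*t^(11:ℕ) + (-128/25)*d^(5:ℕ)*t^(2:ℕ) + (643/50)*d^(5:ℕ)*t^(3:ℕ) + (4/25)*d^(5:ℕ)*t^(4:ℕ) + (-63/25)*d^(5:ℕ)*t^(5:ℕ) + (-374/25)*d^(5:ℕ)*t^(6:ℕ) + (1231/50)*d^(5:ℕ)*t^(7:ℕ) + (-108/25)*d^(5:ℕ)*t^(8:ℕ) + (-731/50)*d^(5:ℕ)*t^(9:ℕ) + (398/25)*d^(5:ℕ)*t^(10:ℕ) + (-238/25)*d^(5:ℕ)*t^(11:ℕ) + (-32/25)*d^(6:ℕ)*t^(2:ℕ) + (167/100)*d^(6:ℕ)*t^(3:ℕ) + (-12/25)*d^(6:ℕ)*t^(4:ℕ) + (121/50)*d^(6:ℕ)*t^(5:ℕ) + (-499/50)*d^(6:ℕ)*t^(6:ℕ) + (939/100)*d^(6:ℕ)*t^(7:ℕ) + (307/50)*d^(6:ℕ)*t^(8:ℕ) + (-2041/100)*d^(6:ℕ)*t^(9:ℕ) + (423/25)*d^(6:ℕ)*t^(10:ℕ) + (-141/25)*d^(6:ℕ)*t^(11:ℕ) + (2/5)*d^(7:ℕ)*t^(5:ℕ) + (-31/25)*d^(7:ℕ)*t^(6:ℕ) + (101/25)*d^(7:ℕ)*t^(8:ℕ) + (-177/25)*d^(7:ℕ)*t^(9:ℕ)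 + (132/25)*d^(7:ℕ)*t^(10:ℕ) + (-44/25)*d^(7:ℕ)*t^(11:ℕ) + (-4/25)*d^(8:ℕ)*t^(7:ℕ) + (12/25)*d^(8:ℕ)*t^(8:ℕ) + (-17/25)*d^(8:ℕ)*t^(9:ℕ) + (12/25)*d^(8:ℕ)*t^(10:ℕ) + (-4/25)*d^(8:ℕ)*t^(11:ℕ) := by
  have e0 : (2/5) + (-3/5)*t + (7/2)*t^(2:ℕ) + (-3)*t^(3:ℕ) + 10*t^(4:ℕ) + (-6)*t^(5:ℕ) + 13*t^(6:ℕ) + (-6)*t^(7:ℕ) + 8*t^(8:ℕ) + (-3)*t^(9:ℕ) + (19/10)*t^(10:ℕ) + (-3/5)*t^(11:ℕ) + (22/25)*d + (-68/25)*d*t + (-29/5)*d*t^(2:ℕ) + (-11)*d*t^(3:ℕ) + (67/5)*d*t^(4:ℕ) + (-22/5)*d*t^(5:ℕ) + (284/5)*d*t^(6:ℕ) + (-47/5)*d*t^(7:ℕ) + (229/5)*d*t^(8:ℕ) + (-20)*d*t^(9:ℕ) + (227/25)*d*t^(10:ℕ) + (-168/25)*d*t^(11:ℕ) + (-76/25)*d^(2:ℕ) + (-157/25)*d^(2:ℕ)*t + (-2791/50)*d^(2:ℕ)*t^(2:ℕ) +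 (-1062/25)*d^(2:ℕ)*t^(3:ℕ) + (-56)*d^(2:ℕ)*t^(4:ℕ) + (94/25)*d^(2:ℕ)*t^(5:ℕ) + (2143/25)*d^(2:ℕ)*t^(6:ℕ) + (-241/25)*d^(2:ℕ)*t^(7:ℕ) + (2734/25)*d^(2:ℕ)*t^(8:ℕ) + (-1967/25)*d^(2:ℕ)*t^(9:ℕ) + (1021/50)*d^(2:ℕ)*t^(10:ℕ) + (-727/25)*d^(2:ℕ)*t^(11:ℕ) + (-16/25)*d^(3:ℕ) + (-16/25)*d^(3:ℕ)*t + (298/25)*d^(3:ℕ)*t^(2:ℕ) + (-728/25)*d^(3:ℕ)*t^(3:ℕ) + (-1114/25)*d^(3:ℕ)*t^(4:ℕ) + (189/5)*d^(3:ℕ)*t^(5:ℕ) + (-817/25)*d^(3:ℕ)*t^(6:ℕ) + (668/25)*d^(3:ℕ)*t^(7:ℕ) + (272/5)*d^(3:ℕ)*t^(8:ℕ) + (-83)*d^(3:ℕ)*t^(9:ℕ) + (749/25)*d^(3:ℕ)*t^(10:ℕ) + (-1086/25)*d^(3:ℕ)*t^(11:ℕ) + (269/25)*d^(4:ℕ)*t^(2:ℕ) + (1783/100)*d^(4:ℕ)*t^(3:ℕ) + (27/5)*d^(4:ℕ)*t^(4:ℕ) + (-837/50)*d^(4:ℕ)*t^(5:ℕ) + (447/50)*d^(4:ℕ)*t^(6:ℕ)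 + (-701/100)*d^(4:ℕ)*t^(7:ℕ) + (1797/50)*d^(4:ℕ)*t^(8:ℕ) + (-3697/100)*d^(4:ℕ)*t^(9:ℕ) + (541/25)*d^(4:ℕ)*t^(10:ℕ) + (-857/25)*d^(4:ℕ)*t^(11:ℕ) + (-128/25)*d^(5:ℕ)*t^(2:ℕ) + (643/50)*d^(5:ℕ)*t^(3:ℕ) + (4/25)*d^(5:ℕ)*t^(4:ℕ) + (-63/25)*d^(5:ℕ)*t^(5:ℕ) + (-374/25)*d^(5:ℕ)*t^(6:ℕ) + (1231/50)*d^(5:ℕ)*t^(7:ℕ) + (-108/25)*d^(5:ℕ)*t^(8:ℕ) + (-731/50)*d^(5:ℕ)*t^(9:ℕ) + (398/25)*d^(5:ℕ)*t^(10:ℕ) + (-238/25)*d^(5:ℕ)*t^(11:ℕ) + (-32/25)*d^(6:ℕ)*t^(2:ℕ) + (167/100)*d^(6:ℕ)*t^(3:ℕ) + (-12/25)*d^(6:ℕ)*t^(4:ℕ) + (121/50)*d^(6:ℕ)*t^(5:ℕ) + (-499/50)*d^(6:ℕ)*t^(6:ℕ) + (939/100)*d^(6:ℕ)*t^(7:ℕ) + (307/50)*d^(6:ℕ)*t^(8:ℕ) + (-2041/100)*d^(6:ℕ)*t^(9:ℕ) + (423/25)*d^(6:ℕ)*t^(10:ℕ) + (-141/25)*d^(6:ℕ)*t^(11:ℕ)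 + (2/5)*d^(7:ℕ)*t^(5:ℕ) + (-31/25)*d^(7:ℕ)*t^(6:ℕ) + (101/25)*d^(7:ℕ)*t^(8:ℕ) + (-177/25)*d^(7:ℕ)*t^(9:ℕ) + (132/25)*d^(7:ℕ)*t^(10:ℕ) + (-44/25)*d^(7:ℕ)*t^(11:ℕ) + (-4/25)*d^(8:ℕ)*t^(7:ℕ) + (12/25)*d^(8:ℕ)*t^(8:ℕ) + (-17/25)*d^(8:ℕ)*t^(9:ℕ) + (12/25)*d^(8:ℕ)*t^(10:ℕ) + (-4/25)*d^(8:ℕ)*t^(11:ℕ) = ((2/5) + (-3/5)*t + (7/2)*t^(2:ℕ) + (-3)*t^(3:ℕ) + 10*t^(4:ℕ) + (-6)*t^(5:ℕ) + 13*t^(6:ℕ) + (-6)*t^(7:ℕ) + 8*t^(8:ℕ) + (-3)*t^(9:ℕ) + (19/10)*t^(10:ℕ) + (-3/5)*t^(11:ℕ)) + d*((22/25) + (-68/25)*t + (-29/5)*t^(2:ℕ) + (-11)*t^(3:ℕ) + (67/5)*t^(4:ℕ) + (-22/5)*t^(5:ℕ) + (284/5)*t^(6:ℕ) + (-47/5)*t^(7:ℕ) + (229/5)*t^(8:ℕ) + (-20)*t^(9:ℕ) + (227/25)*t^(10:ℕ) + (-168/25)*t^(11:ℕ))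 + d^(2:ℕ)*((-76/25) + (-157/25)*t + (-2791/50)*t^(2:ℕ) + (-1062/25)*t^(3:ℕ) + (-56)*t^(4:ℕ) + (94/25)*t^(5:ℕ) + (2143/25)*t^(6:ℕ) + (-241/25)*t^(7:ℕ) + (2734/25)*t^(8:ℕ) + (-1967/25)*t^(9:ℕ) + (1021/50)*t^(10:ℕ) + (-727/25)*t^(11:ℕ)) + d^(3:ℕ)*((-16/25) + (-16/25)*t + (298/25)*t^(2:ℕ) + (-728/25)*t^(3:ℕ) + (-1114/25)*t^(4:ℕ) + (189/5)*t^(5:ℕ) + (-817/25)*t^(6:ℕ) + (668/25)*t^(7:ℕ) + (272/5)*t^(8:ℕ) + (-83)*t^(9:ℕ) + (749/25)*t^(10:ℕ) + (-1086/25)*t^(11:ℕ)) + d^(4:ℕ)*((269/25)*t^(2:ℕ) + (1783/100)*t^(3:ℕ) + (27/5)*t^(4:ℕ) + (-837/50)*t^(5:ℕ) + (447/50)*t^(6:ℕ) + (-701/100)*t^(7:ℕ) + (1797/50)*t^(8:ℕ) + (-3697/100)*t^(9:ℕ) + (541/25)*t^(10:ℕ) + (-857/25)*t^(11:ℕ)) + d^(5:ℕ)*((-128/25)*t^(2:ℕ)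 + (643/50)*t^(3:ℕ) + (4/25)*t^(4:ℕ) + (-63/25)*t^(5:ℕ) + (-374/25)*t^(6:ℕ) + (1231/50)*t^(7:ℕ) + (-108/25)*t^(8:ℕ) + (-731/50)*t^(9:ℕ) + (398/25)*t^(10:ℕ) + (-238/25)*t^(11:ℕ)) + d^(6:ℕ)*((-32/25)*t^(2:ℕ) + (167/100)*t^(3:ℕ) + (-12/25)*t^(4:ℕ) + (121/50)*t^(5:ℕ) + (-499/50)*t^(6:ℕ) + (939/100)*t^(7:ℕ) + (307/50)*t^(8:ℕ) + (-2041/100)*t^(9:ℕ) + (423/25)*t^(10:ℕ) + (-141/25)*t^(11:ℕ)) + d^(7:ℕ)*((2/5)*t^(5:ℕ) + (-31/25)*t^(6:ℕ) + (101/25)*t^(8:ℕ) + (-177/25)*t^(9:ℕ) + (132/25)*t^(10:ℕ) + (-44/25)*t^(11:ℕ)) + d^(8:ℕ)*((-4/25)*t^(7:ℕ) + (12/25)*t^(8:ℕ) + (-17/25)*t^(9:ℕ) + (12/25)*t^(10:ℕ) + (-4/25)*t^(11:ℕ)) := by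
    ring
  rw [e0, pos_L2e_id]
  have a2 : 0 ≤ (1/7) - d := by linarith
  have b0 : 0 ≤ 1*((2/5) + (-3/5)*t + (7/2)*t^(2:ℕ) + (-3)*t^(3:ℕ) + 10*t^(4:ℕ) + (-6)*t^(5:ℕ) + 13*t^(6:ℕ) + (-6)*t^(7:ℕ) + 8*t^(8:ℕ) + (-3)*t^(9:ℕ) + (19/10)*t^(10:ℕ) + (-3/5)*t^(11:ℕ)) - (1/100) := by
    have h := pos_L2e_b0 t h3 h4
    have e : 1*((2/5) + (-3/5)*t + (7/2)*t^(2:ℕ) + (-3)*t^(3:ℕ) + 10*t^(4:ℕ) + (-6)*t^(5:ℕ) + 13*t^(6:ℕ) + (-6)*t^(7:ℕ) + 8*t^(8:ℕ) + (-3)*t^(9:ℕ) + (19/10)*t^(10:ℕ) + (-3/5)*t^(11:ℕ)) - (1/100) = (39/100) + (-3/5)*t + (7/2)*t^(2:ℕ) + (-3)*t^(3:ℕ) + 10*t^(4:ℕ) + (-6)*t^(5:ℕ) + 13*t^(6:ℕ) + (-6)*t^(7:ℕ) + 8*t^(8:ℕ) + (-3)*t^(9:ℕ) + (19/10)*t^(10:ℕ) + (-3/5)*t^(11:ℕ)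 := by ring
    rw [e]; exact h
  have b1 : 0 ≤ 1*((2/5) + (-3/5)*t + (7/2)*t^(2:ℕ) + (-3)*t^(3:ℕ) + 10*t^(4:ℕ) + (-6)*t^(5:ℕ) + 13*t^(6:ℕ) + (-6)*t^(7:ℕ) + 8*t^(8:ℕ) + (-3)*t^(9:ℕ) + (19/10)*t^(10:ℕ) + (-3/5)*t^(11:ℕ)) + (1/56)*((22/25) + (-68/25)*t + (-29/5)*t^(2:ℕ) + (-11)*t^(3:ℕ) + (67/5)*t^(4:ℕ) + (-22/5)*t^(5:ℕ) + (284/5)*t^(6:ℕ) + (-47/5)*t^(7:ℕ) + (229/5)*t^(8:ℕ) + (-20)*t^(9:ℕ) + (227/25)*t^(10:ℕ) + (-168/25)*t^(11:ℕ)) - (1/100) := by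
    have h := pos_L2e_b1 t h3 h4
    have e : 1*((2/5) + (-3/5)*t + (7/2)*t^(2:ℕ) + (-3)*t^(3:ℕ) + 10*t^(4:ℕ) + (-6)*t^(5:ℕ) + 13*t^(6:ℕ) + (-6)*t^(7:ℕ) + 8*t^(8:ℕ) + (-3)*t^(9:ℕ) + (19/10)*t^(10:ℕ) + (-3/5)*t^(11:ℕ)) + (1/56)*((22/25) + (-68/25)*t + (-29/5)*t^(2:ℕ) + (-11)*t^(3:ℕ) + (67/5)*t^(4:ℕ) + (-22/5)*t^(5:ℕ) + (284/5)*t^(6:ℕ) + (-47/5)*t^(7:ℕ) + (229/5)*t^(8:ℕ) + (-20)*t^(9:ℕ) + (227/25)*t^(10:ℕ) + (-168/25)*t^(11:ℕ)) - (1/100) = (71/175) + (-227/350)*t + (951/280)*t^(2:ℕ) + (-179/56)*t^(3:ℕ) + (2867/280)*t^(4:ℕ) + (-851/140)*t^(5:ℕ) + (981/70)*t^(6:ℕ) + (-1727/280)*t^(7:ℕ) + (2469/280)*t^(8:ℕ) + (-47/14)*t^(9:ℕ) + (2887/1400)*t^(10:ℕ) + (-18/25)*t^(11:ℕ) :=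 by ring
    rw [e]; exact h
  have b2 : 0 ≤ 1*((2/5) + (-3/5)*t + (7/2)*t^(2:ℕ) + (-3)*t^(3:ℕ) + 10*t^(4:ℕ) + (-6)*t^(5:ℕ) + 13*t^(6:ℕ) + (-6)*t^(7:ℕ) + 8*t^(8:ℕ) + (-3)*t^(9:ℕ) + (19/10)*t^(10:ℕ) + (-3/5)*t^(11:ℕ)) + (1/28)*((22/25) + (-68/25)*t + (-29/5)*t^(2:ℕ) + (-11)*t^(3:ℕ) + (67/5)*t^(4:ℕ) + (-22/5)*t^(5:ℕ) + (284/5)*t^(6:ℕ) + (-47/5)*t^(7:ℕ) + (229/5)*t^(8:ℕ) + (-20)*t^(9:ℕ) + (227/25)*t^(10:ℕ) + (-168/25)*t^(11:ℕ)) + (1/1372)*((-76/25) + (-157/25)*t + (-2791/50)*t^(2:ℕ) + (-1062/25)*t^(3:ℕ) + (-56)*t^(4:ℕ) + (94/25)*t^(5:ℕ) + (2143/25)*t^(6:ℕ) + (-241/25)*t^(7:ℕ) + (2734/25)*t^(8:ℕ) + (-1967/25)*t^(9:ℕ) + (1021/50)*t^(10:ℕ) + (-727/25)*t^(11:ℕ)) - (1/100) :=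 by
    have h := pos_L2e_b2 t h3 h4
    have e : 1*((2/5) + (-3/5)*t + (7/2)*t^(2:ℕ) + (-3)*t^(3:ℕ) + 10*t^(4:ℕ) + (-6)*t^(5:ℕ) + 13*t^(6:ℕ) + (-6)*t^(7:ℕ) + 8*t^(8:ℕ) + (-3)*t^(9:ℕ) + (19/10)*t^(10:ℕ) + (-3/5)*t^(11:ℕ)) + (1/28)*((22/25) + (-68/25)*t + (-29/5)*t^(2:ℕ) + (-11)*t^(3:ℕ) + (67/5)*t^(4:ℕ) + (-22/5)*t^(5:ℕ) + (284/5)*t^(6:ℕ) + (-47/5)*t^(7:ℕ) + (229/5)*t^(8:ℕ) + (-20)*t^(9:ℕ) + (227/25)*t^(10:ℕ) + (-168/25)*t^(11:ℕ)) + (1/1372)*((-76/25) + (-157/25)*t + (-2791/50)*t^(2:ℕ) + (-1062/25)*t^(3:ℕ) + (-56)*t^(4:ℕ) + (94/25)*t^(5:ℕ) + (2143/25)*t^(6:ℕ) + (-241/25)*t^(7:ℕ) + (2734/25)*t^(8:ℕ) + (-1967/25)*t^(9:ℕ) + (1021/50)*t^(10:ℕ) + (-727/25)*t^(11:ℕ)) - (1/100)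 = (14379/34300) + (-24069/34300)*t + (223099/68600)*t^(2:ℕ) + (-117437/34300)*t^(3:ℕ) + (10229/980)*t^(4:ℕ) + (-52774/8575)*t^(5:ℕ) + (517623/34300)*t^(6:ℕ) + (-54389/8575)*t^(7:ℕ) + (333239/34300)*t^(8:ℕ) + (-18481/4900)*t^(9:ℕ) + (153607/68600)*t^(10:ℕ) + (-29539/34300)*t^(11:ℕ) := by ring
    rw [e]; exact h
  have b3 : 0 ≤ 1*((2/5) + (-3/5)*t + (7/2)*t^(2:ℕ) + (-3)*t^(3:ℕ) + 10*t^(4:ℕ) + (-6)*t^(5:ℕ) + 13*t^(6:ℕ) + (-6)*t^(7:ℕ) + 8*t^(8:ℕ) + (-3)*t^(9:ℕ) + (19/10)*t^(10:ℕ) + (-3/5)*t^(11:ℕ)) + (3/56)*((22/25) + (-68/25)*t + (-29/5)*t^(2:ℕ) + (-11)*t^(3:ℕ) + (67/5)*t^(4:ℕ) + (-22/5)*t^(5:ℕ) + (284/5)*t^(6:ℕ) + (-47/5)*t^(7:ℕ) + (229/5)*t^(8:ℕ) + (-20)*t^(9:ℕ) + (227/25)*t^(10:ℕ)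 + (-168/25)*t^(11:ℕ)) + (3/1372)*((-76/25) + (-157/25)*t + (-2791/50)*t^(2:ℕ) + (-1062/25)*t^(3:ℕ) + (-56)*t^(4:ℕ) + (94/25)*t^(5:ℕ) + (2143/25)*t^(6:ℕ) + (-241/25)*t^(7:ℕ) + (2734/25)*t^(8:ℕ) + (-1967/25)*t^(9:ℕ) + (1021/50)*t^(10:ℕ) + (-727/25)*t^(11:ℕ)) + (1/19208)*((-16/25) + (-16/25)*t + (298/25)*t^(2:ℕ) + (-728/25)*t^(3:ℕ) + (-1114/25)*t^(4:ℕ) + (189/5)*t^(5:ℕ) + (-817/25)*t^(6:ℕ) + (668/25)*t^(7:ℕ) + (272/5)*t^(8:ℕ) + (-83)*t^(9:ℕ) + (749/25)*t^(10:ℕ) + (-1086/25)*t^(11:ℕ)) - (1/100) := by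
    have h := pos_L2e_b3 t h3 h4
    have e : 1*((2/5) + (-3/5)*t + (7/2)*t^(2:ℕ) + (-3)*t^(3:ℕ) + 10*t^(4:ℕ) + (-6)*t^(5:ℕ) + 13*t^(6:ℕ) + (-6)*t^(7:ℕ) + 8*t^(8:ℕ) + (-3)*t^(9:ℕ) + (19/10)*t^(10:ℕ) + (-3/5)*t^(11:ℕ)) + (3/56)*((22/25) + (-68/25)*t + (-29/5)*t^(2:ℕ) + (-11)*t^(3:ℕ) + (67/5)*t^(4:ℕ) + (-22/5)*t^(5:ℕ) + (284/5)*t^(6:ℕ) + (-47/5)*t^(7:ℕ) + (229/5)*t^(8:ℕ) + (-20)*t^(9:ℕ) + (227/25)*t^(10:ℕ) + (-168/25)*t^(11:ℕ)) + (3/1372)*((-76/25) + (-157/25)*t + (-2791/50)*t^(2:ℕ) + (-1062/25)*t^(3:ℕ) + (-56)*t^(4:ℕ) + (94/25)*t^(5:ℕ) + (2143/25)*t^(6:ℕ) + (-241/25)*t^(7:ℕ) + (2734/25)*t^(8:ℕ) + (-1967/25)*t^(9:ℕ) + (1021/50)*t^(10:ℕ) + (-727/25)*t^(11:ℕ)) + (1/19208)*((-16/25)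 + (-16/25)*t + (298/25)*t^(2:ℕ) + (-728/25)*t^(3:ℕ) + (-1114/25)*t^(4:ℕ) + (189/5)*t^(5:ℕ) + (-817/25)*t^(6:ℕ) + (668/25)*t^(7:ℕ) + (272/5)*t^(8:ℕ) + (-83)*t^(9:ℕ) + (749/25)*t^(10:ℕ) + (-1086/25)*t^(11:ℕ)) - (1/100) = (51677/120050) + (-182351/240100)*t + (736591/240100)*t^(2:ℕ) + (-252701/68600)*t^(3:ℕ) + (5086801/480200)*t^(4:ℕ) + (-427071/68600)*t^(5:ℕ) + (7792969/480200)*t^(6:ℕ) + (-3132469/480200)*t^(7:ℕ) + (5135993/480200)*t^(8:ℕ) + (-2039789/480200)*t^(9:ℕ) + (166879/68600)*t^(10:ℕ) + (-123153/120050)*t^(11:ℕ) := by ring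
    rw [e]; exact h
  have b4 : 0 ≤ 1*((2/5) + (-3/5)*t + (7/2)*t^(2:ℕ) + (-3)*t^(3:ℕ) + 10*t^(4:ℕ) + (-6)*t^(5:ℕ) + 13*t^(6:ℕ) + (-6)*t^(7:ℕ) + 8*t^(8:ℕ) + (-3)*t^(9:ℕ) + (19/10)*t^(10:ℕ) + (-3/5)*t^(11:ℕ)) + (1/14)*((22/25) + (-68/25)*t + (-29/5)*t^(2:ℕ) + (-11)*t^(3:ℕ) + (67/5)*t^(4:ℕ) + (-22/5)*t^(5:ℕ) + (284/5)*t^(6:ℕ) + (-47/5)*t^(7:ℕ) + (229/5)*t^(8:ℕ) + (-20)*t^(9:ℕ) + (227/25)*t^(10:ℕ) + (-168/25)*t^(11:ℕ)) + (3/686)*((-76/25) + (-157/25)*t + (-2791/50)*t^(2:ℕ) + (-1062/25)*t^(3:ℕ) + (-56)*t^(4:ℕ) + (94/25)*t^(5:ℕ) + (2143/25)*t^(6:ℕ) + (-241/25)*t^(7:ℕ) + (2734/25)*t^(8:ℕ) + (-1967/25)*t^(9:ℕ) + (1021/50)*t^(10:ℕ) + (-727/25)*t^(11:ℕ)) + (1/4802)*((-16/25)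 + (-16/25)*t + (298/25)*t^(2:ℕ) + (-728/25)*t^(3:ℕ) + (-1114/25)*t^(4:ℕ) + (189/5)*t^(5:ℕ) + (-817/25)*t^(6:ℕ) + (668/25)*t^(7:ℕ) + (272/5)*t^(8:ℕ) + (-83)*t^(9:ℕ) + (749/25)*t^(10:ℕ) + (-1086/25)*t^(11:ℕ)) + (1/168070)*((269/25)*t^(2:ℕ) + (1783/100)*t^(3:ℕ) + (27/5)*t^(4:ℕ) + (-837/50)*t^(5:ℕ) + (447/50)*t^(6:ℕ) + (-701/100)*t^(7:ℕ) + (1797/50)*t^(8:ℕ) + (-3697/100)*t^(9:ℕ) + (541/25)*t^(10:ℕ) + (-857/25)*t^(11:ℕ)) - (1/100) := by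
    have h := pos_L2e_b4 t h3 h4
    have e : 1*((2/5) + (-3/5)*t + (7/2)*t^(2:ℕ) + (-3)*t^(3:ℕ) + 10*t^(4:ℕ) + (-6)*t^(5:ℕ) + 13*t^(6:ℕ) + (-6)*t^(7:ℕ) + 8*t^(8:ℕ) + (-3)*t^(9:ℕ) + (19/10)*t^(10:ℕ) + (-3/5)*t^(11:ℕ)) + (1/14)*((22/25) + (-68/25)*t + (-29/5)*t^(2:ℕ) + (-11)*t^(3:ℕ) + (67/5)*t^(4:ℕ) + (-22/5)*t^(5:ℕ) + (284/5)*t^(6:ℕ) + (-47/5)*t^(7:ℕ) + (229/5)*t^(8:ℕ) + (-20)*t^(9:ℕ) + (227/25)*t^(10:ℕ) + (-168/25)*t^(11:ℕ)) + (3/686)*((-76/25) + (-157/25)*t + (-2791/50)*t^(2:ℕ) + (-1062/25)*t^(3:ℕ) + (-56)*t^(4:ℕ) + (94/25)*t^(5:ℕ) + (2143/25)*t^(6:ℕ) + (-241/25)*t^(7:ℕ) + (2734/25)*t^(8:ℕ) + (-1967/25)*t^(9:ℕ) + (1021/50)*t^(10:ℕ) + (-727/25)*t^(11:ℕ)) + (1/4802)*((-16/25)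 + (-16/25)*t + (298/25)*t^(2:ℕ) + (-728/25)*t^(3:ℕ) + (-1114/25)*t^(4:ℕ) + (189/5)*t^(5:ℕ) + (-817/25)*t^(6:ℕ) + (668/25)*t^(7:ℕ) + (272/5)*t^(8:ℕ) + (-83)*t^(9:ℕ) + (749/25)*t^(10:ℕ) + (-1086/25)*t^(11:ℕ)) + (1/168070)*((269/25)*t^(2:ℕ) + (1783/100)*t^(3:ℕ) + (27/5)*t^(4:ℕ) + (-837/50)*t^(5:ℕ) + (447/50)*t^(6:ℕ) + (-701/100)*t^(7:ℕ) + (1797/50)*t^(8:ℕ) + (-3697/100)*t^(9:ℕ) + (541/25)*t^(10:ℕ) + (-857/25)*t^(11:ℕ)) - (1/100) = (105507/240100) + (-98667/120050)*t + (23900813/8403500)*t^(2:ℕ) + (-66848917/16807000)*t^(3:ℕ) + (4497132/420175)*t^(4:ℕ) + (-52858607/8403500)*t^(5:ℕ) + (146433167/8403500)*t^(6:ℕ) + (-112742421/16807000)*t^(7:ℕ) + (98835427/8403500)*t^(8:ℕ)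 + (-80508177/16807000)*t^(9:ℕ) + (22220867/8403500)*t^(10:ℕ) + (-2555551/2100875)*t^(11:ℕ) := by ring
    rw [e]; exact h
  have b5 : 0 ≤ 1*((2/5) + (-3/5)*t + (7/2)*t^(2:ℕ) + (-3)*t^(3:ℕ) + 10*t^(4:ℕ) + (-6)*t^(5:ℕ) + 13*t^(6:ℕ) + (-6)*t^(7:ℕ) + 8*t^(8:ℕ) + (-3)*t^(9:ℕ) + (19/10)*t^(10:ℕ) + (-3/5)*t^(11:ℕ)) + (5/56)*((22/25) + (-68/25)*t + (-29/5)*t^(2:ℕ) + (-11)*t^(3:ℕ) + (67/5)*t^(4:ℕ) + (-22/5)*t^(5:ℕ) + (284/5)*t^(6:ℕ) + (-47/5)*t^(7:ℕ) + (229/5)*t^(8:ℕ) + (-20)*t^(9:ℕ) + (227/25)*t^(10:ℕ) + (-168/25)*t^(11:ℕ)) + (5/686)*((-76/25) + (-157/25)*t + (-2791/50)*t^(2:ℕ) + (-1062/25)*t^(3:ℕ) + (-56)*t^(4:ℕ) + (94/25)*t^(5:ℕ) + (2143/25)*t^(6:ℕ) + (-241/25)*t^(7:ℕ) +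 (2734/25)*t^(8:ℕ) + (-1967/25)*t^(9:ℕ) + (1021/50)*t^(10:ℕ) + (-727/25)*t^(11:ℕ)) + (5/9604)*((-16/25) + (-16/25)*t + (298/25)*t^(2:ℕ) + (-728/25)*t^(3:ℕ) + (-1114/25)*t^(4:ℕ) + (189/5)*t^(5:ℕ) + (-817/25)*t^(6:ℕ) + (668/25)*t^(7:ℕ) + (272/5)*t^(8:ℕ) + (-83)*t^(9:ℕ) + (749/25)*t^(10:ℕ) + (-1086/25)*t^(11:ℕ)) + (1/33614)*((269/25)*t^(2:ℕ) + (1783/100)*t^(3:ℕ) + (27/5)*t^(4:ℕ) + (-837/50)*t^(5:ℕ) + (447/50)*t^(6:ℕ) + (-701/100)*t^(7:ℕ) + (1797/50)*t^(8:ℕ) + (-3697/100)*t^(9:ℕ) + (541/25)*t^(10:ℕ) + (-857/25)*t^(11:ℕ)) + (1/941192)*((-128/25)*t^(2:ℕ) + (643/50)*t^(3:ℕ) + (4/25)*t^(4:ℕ) + (-63/25)*t^(5:ℕ) + (-374/25)*t^(6:ℕ) + (1231/50)*t^(7:ℕ) + (-108/25)*t^(8:ℕ) + (-731/50)*t^(9:ℕ)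 + (398/25)*t^(10:ℕ) + (-238/25)*t^(11:ℕ)) - (1/100) := by
    have h := pos_L2e_b5 t h3 h4
    have e : 1*((2/5) + (-3/5)*t + (7/2)*t^(2:ℕ) + (-3)*t^(3:ℕ) + 10*t^(4:ℕ) + (-6)*t^(5:ℕ) + 13*t^(6:ℕ) + (-6)*t^(7:ℕ) + 8*t^(8:ℕ) + (-3)*t^(9:ℕ) + (19/10)*t^(10:ℕ) + (-3/5)*t^(11:ℕ)) + (5/56)*((22/25) + (-68/25)*t + (-29/5)*t^(2:ℕ) + (-11)*t^(3:ℕ) + (67/5)*t^(4:ℕ) + (-22/5)*t^(5:ℕ) + (284/5)*t^(6:ℕ) + (-47/5)*t^(7:ℕ) + (229/5)*t^(8:ℕ) + (-20)*t^(9:ℕ) + (227/25)*t^(10:ℕ) + (-168/25)*t^(11:ℕ)) + (5/686)*((-76/25) + (-157/25)*t + (-2791/50)*t^(2:ℕ) + (-1062/25)*t^(3:ℕ) + (-56)*t^(4:ℕ) + (94/25)*t^(5:ℕ) + (2143/25)*t^(6:ℕ) + (-241/25)*t^(7:ℕ) + (2734/25)*t^(8:ℕ) + (-1967/25)*t^(9:ℕ)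 + (1021/50)*t^(10:ℕ) + (-727/25)*t^(11:ℕ)) + (5/9604)*((-16/25) + (-16/25)*t + (298/25)*t^(2:ℕ) + (-728/25)*t^(3:ℕ) + (-1114/25)*t^(4:ℕ) + (189/5)*t^(5:ℕ) + (-817/25)*t^(6:ℕ) + (668/25)*t^(7:ℕ) + (272/5)*t^(8:ℕ) + (-83)*t^(9:ℕ) + (749/25)*t^(10:ℕ) + (-1086/25)*t^(11:ℕ)) + (1/33614)*((269/25)*t^(2:ℕ) + (1783/100)*t^(3:ℕ) + (27/5)*t^(4:ℕ) + (-837/50)*t^(5:ℕ) + (447/50)*t^(6:ℕ) + (-701/100)*t^(7:ℕ) + (1797/50)*t^(8:ℕ) + (-3697/100)*t^(9:ℕ) + (541/25)*t^(10:ℕ) + (-857/25)*t^(11:ℕ)) + (1/941192)*((-128/25)*t^(2:ℕ) + (643/50)*t^(3:ℕ) + (4/25)*t^(4:ℕ) + (-63/25)*t^(5:ℕ) + (-374/25)*t^(6:ℕ) + (1231/50)*t^(7:ℕ) + (-108/25)*t^(8:ℕ) + (-731/50)*t^(9:ℕ) + (398/25)*t^(10:ℕ) + (-238/25)*t^(11:ℕ))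 - (1/100) = (26776/60025) + (-10672/12005)*t + (60749519/23529800)*t^(2:ℕ) + (-8106261/1882384)*t^(3:ℕ) + (253303649/23529800)*t^(4:ℕ) + (-21332363/3361400)*t^(5:ℕ) + (219761817/11764900)*t^(6:ℕ) + (-324514513/47059600)*t^(7:ℕ) + (60781033/4705960)*t^(8:ℕ) + (-254287029/47059600)*t^(9:ℕ) + (67667151/23529800)*t^(10:ℕ) + (-2412811/1680700)*t^(11:ℕ) := by ring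
    rw [e]; exact h
  have b6 : 0 ≤ 1*((2/5) + (-3/5)*t + (7/2)*t^(2:ℕ) + (-3)*t^(3:ℕ) + 10*t^(4:ℕ) + (-6)*t^(5:ℕ) + 13*t^(6:ℕ) + (-6)*t^(7:ℕ) + 8*t^(8:ℕ) + (-3)*t^(9:ℕ) + (19/10)*t^(10:ℕ) + (-3/5)*t^(11:ℕ)) + (3/28)*((22/25) + (-68/25)*t + (-29/5)*t^(2:ℕ) + (-11)*t^(3:ℕ) + (67/5)*t^(4:ℕ) + (-22/5)*t^(5:ℕ) + (284/5)*t^(6:ℕ) + (-47/5)*t^(7:ℕ) + (229/5)*t^(8:ℕ) + (-20)*t^(9:ℕ) + (227/25)*t^(10:ℕ) + (-168/25)*t^(11:ℕ)) + (15/1372)*((-76/25) + (-157/25)*t + (-2791/50)*t^(2:ℕ) + (-1062/25)*t^(3:ℕ) + (-56)*t^(4:ℕ) + (94/25)*t^(5:ℕ) + (2143/25)*t^(6:ℕ) + (-241/25)*t^(7:ℕ) + (2734/25)*t^(8:ℕ) + (-1967/25)*t^(9:ℕ) + (1021/50)*t^(10:ℕ) + (-727/25)*t^(11:ℕ)) + (5/4802)*((-16/25)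 + (-16/25)*t + (298/25)*t^(2:ℕ) + (-728/25)*t^(3:ℕ) + (-1114/25)*t^(4:ℕ) + (189/5)*t^(5:ℕ) + (-817/25)*t^(6:ℕ) + (668/25)*t^(7:ℕ) + (272/5)*t^(8:ℕ) + (-83)*t^(9:ℕ) + (749/25)*t^(10:ℕ) + (-1086/25)*t^(11:ℕ)) + (3/33614)*((269/25)*t^(2:ℕ) + (1783/100)*t^(3:ℕ) + (27/5)*t^(4:ℕ) + (-837/50)*t^(5:ℕ) + (447/50)*t^(6:ℕ) + (-701/100)*t^(7:ℕ) + (1797/50)*t^(8:ℕ) + (-3697/100)*t^(9:ℕ) + (541/25)*t^(10:ℕ) + (-857/25)*t^(11:ℕ)) + (3/470596)*((-128/25)*t^(2:ℕ) + (643/50)*t^(3:ℕ) + (4/25)*t^(4:ℕ) + (-63/25)*t^(5:ℕ) + (-374/25)*t^(6:ℕ) + (1231/50)*t^(7:ℕ) + (-108/25)*t^(8:ℕ) + (-731/50)*t^(9:ℕ) + (398/25)*t^(10:ℕ) + (-238/25)*t^(11:ℕ)) + (1/3294172)*((-32/25)*t^(2:ℕ) + (167/100)*t^(3:ℕ)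 + (-12/25)*t^(4:ℕ) + (121/50)*t^(5:ℕ) + (-499/50)*t^(6:ℕ) + (939/100)*t^(7:ℕ) + (307/50)*t^(8:ℕ) + (-2041/100)*t^(9:ℕ) + (423/25)*t^(10:ℕ) + (-141/25)*t^(11:ℕ)) - (1/100) := by
    have h := pos_L2e_b6 t h3 h4
    have e : 1*((2/5) + (-3/5)*t + (7/2)*t^(2:ℕ) + (-3)*t^(3:ℕ) + 10*t^(4:ℕ) + (-6)*t^(5:ℕ) + 13*t^(6:ℕ) + (-6)*t^(7:ℕ) + 8*t^(8:ℕ) + (-3)*t^(9:ℕ) + (19/10)*t^(10:ℕ) + (-3/5)*t^(11:ℕ)) + (3/28)*((22/25) + (-68/25)*t + (-29/5)*t^(2:ℕ) + (-11)*t^(3:ℕ) + (67/5)*t^(4:ℕ) + (-22/5)*t^(5:ℕ) + (284/5)*t^(6:ℕ) + (-47/5)*t^(7:ℕ) + (229/5)*t^(8:ℕ) + (-20)*t^(9:ℕ) + (227/25)*t^(10:ℕ) + (-168/25)*t^(11:ℕ)) + (15/1372)*((-76/25) + (-157/25)*t + (-2791/50)*t^(2:ℕ) + (-1062/25)*t^(3:ℕ)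 + (-56)*t^(4:ℕ) + (94/25)*t^(5:ℕ) + (2143/25)*t^(6:ℕ) + (-241/25)*t^(7:ℕ) + (2734/25)*t^(8:ℕ) + (-1967/25)*t^(9:ℕ) + (1021/50)*t^(10:ℕ) + (-727/25)*t^(11:ℕ)) + (5/4802)*((-16/25) + (-16/25)*t + (298/25)*t^(2:ℕ) + (-728/25)*t^(3:ℕ) + (-1114/25)*t^(4:ℕ) + (189/5)*t^(5:ℕ) + (-817/25)*t^(6:ℕ) + (668/25)*t^(7:ℕ) + (272/5)*t^(8:ℕ) + (-83)*t^(9:ℕ) + (749/25)*t^(10:ℕ) + (-1086/25)*t^(11:ℕ)) + (3/33614)*((269/25)*t^(2:ℕ) + (1783/100)*t^(3:ℕ) + (27/5)*t^(4:ℕ) + (-837/50)*t^(5:ℕ) + (447/50)*t^(6:ℕ) + (-701/100)*t^(7:ℕ) + (1797/50)*t^(8:ℕ) + (-3697/100)*t^(9:ℕ) + (541/25)*t^(10:ℕ) + (-857/25)*t^(11:ℕ)) + (3/470596)*((-128/25)*t^(2:ℕ) + (643/50)*t^(3:ℕ) + (4/25)*t^(4:ℕ) + (-63/25)*t^(5:ℕ)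 + (-374/25)*t^(6:ℕ) + (1231/50)*t^(7:ℕ) + (-108/25)*t^(8:ℕ) + (-731/50)*t^(9:ℕ) + (398/25)*t^(10:ℕ) + (-238/25)*t^(11:ℕ)) + (1/3294172)*((-32/25)*t^(2:ℕ) + (167/100)*t^(3:ℕ) + (-12/25)*t^(4:ℕ) + (121/50)*t^(5:ℕ) + (-499/50)*t^(6:ℕ) + (939/100)*t^(7:ℕ) + (307/50)*t^(8:ℕ) + (-2041/100)*t^(9:ℕ) + (423/25)*t^(10:ℕ) + (-141/25)*t^(11:ℕ)) - (1/100) = (108137/240100) + (-230677/240100)*t + (375804617/164708600)*t^(2:ℕ) + (-307784361/65883440)*t^(3:ℕ) + (887577987/82354300)*t^(4:ℕ) + (-1052895023/164708600)*t^(5:ℕ) + (3292452161/164708600)*t^(6:ℕ) + (-2333980333/329417200)*t^(7:ℕ) + (2332701139/164708600)*t^(8:ℕ) + (-2007100281/329417200)*t^(9:ℕ) + (515429403/164708600)*t^(10:ℕ)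 + (-69436329/41177150)*t^(11:ℕ) := by ring
    rw [e]; exact h
  have b7 : 0 ≤ 1*((2/5) + (-3/5)*t + (7/2)*t^(2:ℕ) + (-3)*t^(3:ℕ) + 10*t^(4:ℕ) + (-6)*t^(5:ℕ) + 13*t^(6:ℕ) + (-6)*t^(7:ℕ) + 8*t^(8:ℕ) + (-3)*t^(9:ℕ) + (19/10)*t^(10:ℕ) + (-3/5)*t^(11:ℕ)) + (1/8)*((22/25) + (-68/25)*t + (-29/5)*t^(2:ℕ) + (-11)*t^(3:ℕ) + (67/5)*t^(4:ℕ) + (-22/5)*t^(5:ℕ) + (284/5)*t^(6:ℕ) + (-47/5)*t^(7:ℕ) + (229/5)*t^(8:ℕ) + (-20)*t^(9:ℕ) + (227/25)*t^(10:ℕ) + (-168/25)*t^(11:ℕ)) + (3/196)*((-76/25) + (-157/25)*t + (-2791/50)*t^(2:ℕ) + (-1062/25)*t^(3:ℕ) + (-56)*t^(4:ℕ) + (94/25)*t^(5:ℕ) + (2143/25)*t^(6:ℕ) + (-241/25)*t^(7:ℕ) + (2734/25)*t^(8:ℕ) + (-1967/25)*t^(9:ℕ) + (1021/50)*t^(10:ℕ)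 + (-727/25)*t^(11:ℕ)) + (5/2744)*((-16/25) + (-16/25)*t + (298/25)*t^(2:ℕ) + (-728/25)*t^(3:ℕ) + (-1114/25)*t^(4:ℕ) + (189/5)*t^(5:ℕ) + (-817/25)*t^(6:ℕ) + (668/25)*t^(7:ℕ) + (272/5)*t^(8:ℕ) + (-83)*t^(9:ℕ) + (749/25)*t^(10:ℕ) + (-1086/25)*t^(11:ℕ)) + (1/4802)*((269/25)*t^(2:ℕ) + (1783/100)*t^(3:ℕ) + (27/5)*t^(4:ℕ) + (-837/50)*t^(5:ℕ) + (447/50)*t^(6:ℕ) + (-701/100)*t^(7:ℕ) + (1797/50)*t^(8:ℕ) + (-3697/100)*t^(9:ℕ) + (541/25)*t^(10:ℕ) + (-857/25)*t^(11:ℕ)) + (3/134456)*((-128/25)*t^(2:ℕ) + (643/50)*t^(3:ℕ) + (4/25)*t^(4:ℕ) + (-63/25)*t^(5:ℕ) + (-374/25)*t^(6:ℕ) + (1231/50)*t^(7:ℕ) + (-108/25)*t^(8:ℕ) + (-731/50)*t^(9:ℕ) + (398/25)*t^(10:ℕ) + (-238/25)*t^(11:ℕ)) + (1/470596)*((-32/25)*t^(2:ℕ)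 + (167/100)*t^(3:ℕ) + (-12/25)*t^(4:ℕ) + (121/50)*t^(5:ℕ) + (-499/50)*t^(6:ℕ) + (939/100)*t^(7:ℕ) + (307/50)*t^(8:ℕ) + (-2041/100)*t^(9:ℕ) + (423/25)*t^(10:ℕ) + (-141/25)*t^(11:ℕ)) + (1/6588344)*((2/5)*t^(5:ℕ) + (-31/25)*t^(6:ℕ) + (101/25)*t^(8:ℕ) + (-177/25)*t^(9:ℕ) + (132/25)*t^(10:ℕ) + (-44/25)*t^(11:ℕ)) - (1/100) := by
    have h := pos_L2e_b7 t h3 h4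
    have e : 1*((2/5) + (-3/5)*t + (7/2)*t^(2:ℕ) + (-3)*t^(3:ℕ) + 10*t^(4:ℕ) + (-6)*t^(5:ℕ) + 13*t^(6:ℕ) + (-6)*t^(7:ℕ) + 8*t^(8:ℕ) + (-3)*t^(9:ℕ) + (19/10)*t^(10:ℕ) + (-3/5)*t^(11:ℕ)) + (1/8)*((22/25) + (-68/25)*t + (-29/5)*t^(2:ℕ) + (-11)*t^(3:ℕ) + (67/5)*t^(4:ℕ) + (-22/5)*t^(5:ℕ) + (284/5)*t^(6:ℕ) + (-47/5)*t^(7:ℕ) + (229/5)*t^(8:ℕ) + (-20)*t^(9:ℕ) + (227/25)*t^(10:ℕ) + (-168/25)*t^(11:ℕ)) + (3/196)*((-76/25) + (-157/25)*t + (-2791/50)*t^(2:ℕ) + (-1062/25)*t^(3:ℕ) + (-56)*t^(4:ℕ) + (94/25)*t^(5:ℕ) + (2143/25)*t^(6:ℕ) + (-241/25)*t^(7:ℕ) + (2734/25)*t^(8:ℕ) + (-1967/25)*t^(9:ℕ) + (1021/50)*t^(10:ℕ) + (-727/25)*t^(11:ℕ)) + (5/2744)*((-16/25) + (-16/25)*t + (298/25)*t^(2:ℕ)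 + (-728/25)*t^(3:ℕ) + (-1114/25)*t^(4:ℕ) + (189/5)*t^(5:ℕ) + (-817/25)*t^(6:ℕ) + (668/25)*t^(7:ℕ) + (272/5)*t^(8:ℕ) + (-83)*t^(9:ℕ) + (749/25)*t^(10:ℕ) + (-1086/25)*t^(11:ℕ)) + (1/4802)*((269/25)*t^(2:ℕ) + (1783/100)*t^(3:ℕ) + (27/5)*t^(4:ℕ) + (-837/50)*t^(5:ℕ) + (447/50)*t^(6:ℕ) + (-701/100)*t^(7:ℕ) + (1797/50)*t^(8:ℕ) + (-3697/100)*t^(9:ℕ) + (541/25)*t^(10:ℕ) + (-857/25)*t^(11:ℕ)) + (3/134456)*((-128/25)*t^(2:ℕ) + (643/50)*t^(3:ℕ) + (4/25)*t^(4:ℕ) + (-63/25)*t^(5:ℕ) + (-374/25)*t^(6:ℕ) + (1231/50)*t^(7:ℕ) + (-108/25)*t^(8:ℕ) + (-731/50)*t^(9:ℕ) + (398/25)*t^(10:ℕ) + (-238/25)*t^(11:ℕ)) + (1/470596)*((-32/25)*t^(2:ℕ) + (167/100)*t^(3:ℕ) + (-12/25)*t^(4:ℕ) + (121/50)*t^(5:ℕ)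 + (-499/50)*t^(6:ℕ) + (939/100)*t^(7:ℕ) + (307/50)*t^(8:ℕ) + (-2041/100)*t^(9:ℕ) + (423/25)*t^(10:ℕ) + (-141/25)*t^(11:ℕ)) + (1/6588344)*((2/5)*t^(5:ℕ) + (-31/25)*t^(6:ℕ) + (101/25)*t^(8:ℕ) + (-177/25)*t^(9:ℕ) + (132/25)*t^(10:ℕ) + (-44/25)*t^(11:ℕ)) - (1/100) = (7757/17150) + (-35579/34300)*t + (5719083/2941225)*t^(2:ℕ) + (-23879273/4705960)*t^(3:ℕ) + (10106321/941192)*t^(4:ℕ) + (-1058600043/164708600)*t^(5:ℕ) + (3517187321/164708600)*t^(6:ℕ) + (-34234699/4705960)*t^(7:ℕ) + (2553873479/164708600)*t^(8:ℕ) + (-1130493009/164708600)*t^(9:ℕ) + (561168999/164708600)*t^(10:ℕ) + (-81185689/41177150)*t^(11:ℕ) := by ring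
    rw [e]; exact h
  have b8 : 0 ≤ 1*((2/5) + (-3/5)*t + (7/2)*t^(2:ℕ) + (-3)*t^(3:ℕ) + 10*t^(4:ℕ) + (-6)*t^(5:ℕ) + 13*t^(6:ℕ) + (-6)*t^(7:ℕ) + 8*t^(8:ℕ) + (-3)*t^(9:ℕ) + (19/10)*t^(10:ℕ) + (-3/5)*t^(11:ℕ)) + (1/7)*((22/25) + (-68/25)*t + (-29/5)*t^(2:ℕ) + (-11)*t^(3:ℕ) + (67/5)*t^(4:ℕ) + (-22/5)*t^(5:ℕ) + (284/5)*t^(6:ℕ) + (-47/5)*t^(7:ℕ) + (229/5)*t^(8:ℕ) + (-20)*t^(9:ℕ) + (227/25)*t^(10:ℕ) + (-168/25)*t^(11:ℕ)) + (1/49)*((-76/25) + (-157/25)*t + (-2791/50)*t^(2:ℕ) + (-1062/25)*t^(3:ℕ) + (-56)*t^(4:ℕ) + (94/25)*t^(5:ℕ) + (2143/25)*t^(6:ℕ) + (-241/25)*t^(7:ℕ) + (2734/25)*t^(8:ℕ) + (-1967/25)*t^(9:ℕ) + (1021/50)*t^(10:ℕ) + (-727/25)*t^(11:ℕ)) + (1/343)*((-16/25) +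 (-16/25)*t + (298/25)*t^(2:ℕ) + (-728/25)*t^(3:ℕ) + (-1114/25)*t^(4:ℕ) + (189/5)*t^(5:ℕ) + (-817/25)*t^(6:ℕ) + (668/25)*t^(7:ℕ) + (272/5)*t^(8:ℕ) + (-83)*t^(9:ℕ) + (749/25)*t^(10:ℕ) + (-1086/25)*t^(11:ℕ)) + (1/2401)*((269/25)*t^(2:ℕ) + (1783/100)*t^(3:ℕ) + (27/5)*t^(4:ℕ) + (-837/50)*t^(5:ℕ) + (447/50)*t^(6:ℕ) + (-701/100)*t^(7:ℕ) + (1797/50)*t^(8:ℕ) + (-3697/100)*t^(9:ℕ) + (541/25)*t^(10:ℕ) + (-857/25)*t^(11:ℕ)) + (1/16807)*((-128/25)*t^(2:ℕ) + (643/50)*t^(3:ℕ) + (4/25)*t^(4:ℕ) + (-63/25)*t^(5:ℕ) + (-374/25)*t^(6:ℕ) + (1231/50)*t^(7:ℕ) + (-108/25)*t^(8:ℕ) + (-731/50)*t^(9:ℕ) + (398/25)*t^(10:ℕ) + (-238/25)*t^(11:ℕ)) + (1/117649)*((-32/25)*t^(2:ℕ) + (167/100)*t^(3:ℕ)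 + (-12/25)*t^(4:ℕ) + (121/50)*t^(5:ℕ) + (-499/50)*t^(6:ℕ) + (939/100)*t^(7:ℕ) + (307/50)*t^(8:ℕ) + (-2041/100)*t^(9:ℕ) + (423/25)*t^(10:ℕ) + (-141/25)*t^(11:ℕ)) + (1/823543)*((2/5)*t^(5:ℕ) + (-31/25)*t^(6:ℕ) + (101/25)*t^(8:ℕ) + (-177/25)*t^(9:ℕ) + (132/25)*t^(10:ℕ) + (-44/25)*t^(11:ℕ)) + (1/5764801)*((-4/25)*t^(7:ℕ) + (12/25)*t^(8:ℕ) + (-17/25)*t^(9:ℕ) + (12/25)*t^(10:ℕ) + (-4/25)*t^(11:ℕ)) - (1/100) := by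
    have h := pos_L2e_b8 t h3 h4
    have e : 1*((2/5) + (-3/5)*t + (7/2)*t^(2:ℕ) + (-3)*t^(3:ℕ) + 10*t^(4:ℕ) + (-6)*t^(5:ℕ) + 13*t^(6:ℕ) + (-6)*t^(7:ℕ) + 8*t^(8:ℕ) + (-3)*t^(9:ℕ) + (19/10)*t^(10:ℕ) + (-3/5)*t^(11:ℕ)) + (1/7)*((22/25) + (-68/25)*t + (-29/5)*t^(2:ℕ) + (-11)*t^(3:ℕ) + (67/5)*t^(4:ℕ) + (-22/5)*t^(5:ℕ) + (284/5)*t^(6:ℕ) + (-47/5)*t^(7:ℕ) + (229/5)*t^(8:ℕ) + (-20)*t^(9:ℕ) + (227/25)*t^(10:ℕ) + (-168/25)*t^(11:ℕ)) + (1/49)*((-76/25) + (-157/25)*t + (-2791/50)*t^(2:ℕ) + (-1062/25)*t^(3:ℕ) + (-56)*t^(4:ℕ) + (94/25)*t^(5:ℕ) + (2143/25)*t^(6:ℕ) + (-241/25)*t^(7:ℕ) + (2734/25)*t^(8:ℕ) + (-1967/25)*t^(9:ℕ) + (1021/50)*t^(10:ℕ) + (-727/25)*t^(11:ℕ)) + (1/343)*((-16/25)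 + (-16/25)*t + (298/25)*t^(2:ℕ) + (-728/25)*t^(3:ℕ) + (-1114/25)*t^(4:ℕ) + (189/5)*t^(5:ℕ) + (-817/25)*t^(6:ℕ) + (668/25)*t^(7:ℕ) + (272/5)*t^(8:ℕ) + (-83)*t^(9:ℕ) + (749/25)*t^(10:ℕ) + (-1086/25)*t^(11:ℕ)) + (1/2401)*((269/25)*t^(2:ℕ) + (1783/100)*t^(3:ℕ) + (27/5)*t^(4:ℕ) + (-837/50)*t^(5:ℕ) + (447/50)*t^(6:ℕ) + (-701/100)*t^(7:ℕ) + (1797/50)*t^(8:ℕ) + (-3697/100)*t^(9:ℕ) + (541/25)*t^(10:ℕ) + (-857/25)*t^(11:ℕ)) + (1/16807)*((-128/25)*t^(2:ℕ) + (643/50)*t^(3:ℕ) + (4/25)*t^(4:ℕ) + (-63/25)*t^(5:ℕ) + (-374/25)*t^(6:ℕ) + (1231/50)*t^(7:ℕ) + (-108/25)*t^(8:ℕ) + (-731/50)*t^(9:ℕ) + (398/25)*t^(10:ℕ) + (-238/25)*t^(11:ℕ)) + (1/117649)*((-32/25)*t^(2:ℕ) + (167/100)*t^(3:ℕ)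 + (-12/25)*t^(4:ℕ) + (121/50)*t^(5:ℕ) + (-499/50)*t^(6:ℕ) + (939/100)*t^(7:ℕ) + (307/50)*t^(8:ℕ) + (-2041/100)*t^(9:ℕ) + (423/25)*t^(10:ℕ) + (-141/25)*t^(11:ℕ)) + (1/823543)*((2/5)*t^(5:ℕ) + (-31/25)*t^(6:ℕ) + (101/25)*t^(8:ℕ) + (-177/25)*t^(9:ℕ) + (132/25)*t^(10:ℕ) + (-44/25)*t^(11:ℕ)) + (1/5764801)*((-4/25)*t^(7:ℕ) + (12/25)*t^(8:ℕ) + (-17/25)*t^(9:ℕ) + (12/25)*t^(10:ℕ) + (-4/25)*t^(11:ℕ)) - (1/100) = (15497/34300) + (-9592/8575)*t + (4621144/2941225)*t^(2:ℕ) + (-16221032/2941225)*t^(3:ℕ) + (31305724/2941225)*t^(4:ℕ) + (-132770236/20588575)*t^(5:ℕ) + (468825396/20588575)*t^(6:ℕ) + (-1075577248/144120025)*t^(7:ℕ) + (2442555316/144120025)*t^(8:ℕ) + (-1112792432/144120025)*t^(9:ℕ)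 + (534877684/144120025)*t^(10:ℕ) + (-330756976/144120025)*t^(11:ℕ) := by ring
    rw [e]; exact h
  generalize 1*((2/5) + (-3/5)*t + (7/2)*t^(2:ℕ) + (-3)*t^(3:ℕ) + 10*t^(4:ℕ) + (-6)*t^(5:ℕ) + 13*t^(6:ℕ) + (-6)*t^(7:ℕ) + 8*t^(8:ℕ) + (-3)*t^(9:ℕ) + (19/10)*t^(10:ℕ) + (-3/5)*t^(11:ℕ)) - (1/100) = B0 at b0 ⊢
  generalize 1*((2/5) + (-3/5)*t + (7/2)*t^(2:ℕ) + (-3)*t^(3:ℕ) + 10*t^(4:ℕ) + (-6)*t^(5:ℕ) + 13*t^(6:ℕ) + (-6)*t^(7:ℕ) + 8*t^(8:ℕ) + (-3)*t^(9:ℕ) + (19/10)*t^(10:ℕ) + (-3/5)*t^(11:ℕ)) + (1/56)*((22/25) + (-68/25)*t + (-29/5)*t^(2:ℕ) + (-11)*t^(3:ℕ) + (67/5)*t^(4:ℕ) + (-22/5)*t^(5:ℕ) + (284/5)*t^(6:ℕ) + (-47/5)*t^(7:ℕ) + (229/5)*t^(8:ℕ) + (-20)*t^(9:ℕ) + (227/25)*t^(10:ℕ)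 + (-168/25)*t^(11:ℕ)) - (1/100) = B1 at b1 ⊢
  generalize 1*((2/5) + (-3/5)*t + (7/2)*t^(2:ℕ) + (-3)*t^(3:ℕ) + 10*t^(4:ℕ) + (-6)*t^(5:ℕ) + 13*t^(6:ℕ) + (-6)*t^(7:ℕ) + 8*t^(8:ℕ) + (-3)*t^(9:ℕ) + (19/10)*t^(10:ℕ) + (-3/5)*t^(11:ℕ)) + (1/28)*((22/25) + (-68/25)*t + (-29/5)*t^(2:ℕ) + (-11)*t^(3:ℕ) + (67/5)*t^(4:ℕ) + (-22/5)*t^(5:ℕ) + (284/5)*t^(6:ℕ) + (-47/5)*t^(7:ℕ) + (229/5)*t^(8:ℕ) + (-20)*t^(9:ℕ) + (227/25)*t^(10:ℕ) + (-168/25)*t^(11:ℕ)) + (1/1372)*((-76/25) + (-157/25)*t + (-2791/50)*t^(2:ℕ) + (-1062/25)*t^(3:ℕ) + (-56)*t^(4:ℕ) + (94/25)*t^(5:ℕ) + (2143/25)*t^(6:ℕ) + (-241/25)*t^(7:ℕ) + (2734/25)*t^(8:ℕ) + (-1967/25)*t^(9:ℕ) + (1021/50)*t^(10:ℕ) + (-727/25)*t^(11:ℕ))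 - (1/100) = B2 at b2 ⊢
  generalize 1*((2/5) + (-3/5)*t + (7/2)*t^(2:ℕ) + (-3)*t^(3:ℕ) + 10*t^(4:ℕ) + (-6)*t^(5:ℕ) + 13*t^(6:ℕ) + (-6)*t^(7:ℕ) + 8*t^(8:ℕ) + (-3)*t^(9:ℕ) + (19/10)*t^(10:ℕ) + (-3/5)*t^(11:ℕ)) + (3/56)*((22/25) + (-68/25)*t + (-29/5)*t^(2:ℕ) + (-11)*t^(3:ℕ) + (67/5)*t^(4:ℕ) + (-22/5)*t^(5:ℕ) + (284/5)*t^(6:ℕ) + (-47/5)*t^(7:ℕ) + (229/5)*t^(8:ℕ) + (-20)*t^(9:ℕ) + (227/25)*t^(10:ℕ) + (-168/25)*t^(11:ℕ)) + (3/1372)*((-76/25) + (-157/25)*t + (-2791/50)*t^(2:ℕ) + (-1062/25)*t^(3:ℕ) + (-56)*t^(4:ℕ) + (94/25)*t^(5:ℕ) + (2143/25)*t^(6:ℕ) + (-241/25)*t^(7:ℕ) + (2734/25)*t^(8:ℕ) + (-1967/25)*t^(9:ℕ) + (1021/50)*t^(10:ℕ) + (-727/25)*t^(11:ℕ)) + (1/19208)*((-16/25)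 + (-16/25)*t + (298/25)*t^(2:ℕ) + (-728/25)*t^(3:ℕ) + (-1114/25)*t^(4:ℕ) + (189/5)*t^(5:ℕ) + (-817/25)*t^(6:ℕ) + (668/25)*t^(7:ℕ) + (272/5)*t^(8:ℕ) + (-83)*t^(9:ℕ) + (749/25)*t^(10:ℕ) + (-1086/25)*t^(11:ℕ)) - (1/100) = B3 at b3 ⊢
  generalize 1*((2/5) + (-3/5)*t + (7/2)*t^(2:ℕ) + (-3)*t^(3:ℕ) + 10*t^(4:ℕ) + (-6)*t^(5:ℕ) + 13*t^(6:ℕ) + (-6)*t^(7:ℕ) + 8*t^(8:ℕ) + (-3)*t^(9:ℕ) + (19/10)*t^(10:ℕ) + (-3/5)*t^(11:ℕ)) + (1/14)*((22/25) + (-68/25)*t + (-29/5)*t^(2:ℕ) + (-11)*t^(3:ℕ) + (67/5)*t^(4:ℕ) + (-22/5)*t^(5:ℕ) + (284/5)*t^(6:ℕ) + (-47/5)*t^(7:ℕ) + (229/5)*t^(8:ℕ) + (-20)*t^(9:ℕ) + (227/25)*t^(10:ℕ) + (-168/25)*t^(11:ℕ)) + (3/686)*((-76/25) + (-157/25)*t + (-2791/50)*t^(2:ℕ)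 + (-1062/25)*t^(3:ℕ) + (-56)*t^(4:ℕ) + (94/25)*t^(5:ℕ) + (2143/25)*t^(6:ℕ) + (-241/25)*t^(7:ℕ) + (2734/25)*t^(8:ℕ) + (-1967/25)*t^(9:ℕ) + (1021/50)*t^(10:ℕ) + (-727/25)*t^(11:ℕ)) + (1/4802)*((-16/25) + (-16/25)*t + (298/25)*t^(2:ℕ) + (-728/25)*t^(3:ℕ) + (-1114/25)*t^(4:ℕ) + (189/5)*t^(5:ℕ) + (-817/25)*t^(6:ℕ) + (668/25)*t^(7:ℕ) + (272/5)*t^(8:ℕ) + (-83)*t^(9:ℕ) + (749/25)*t^(10:ℕ) + (-1086/25)*t^(11:ℕ)) + (1/168070)*((269/25)*t^(2:ℕ) + (1783/100)*t^(3:ℕ) + (27/5)*t^(4:ℕ) + (-837/50)*t^(5:ℕ) + (447/50)*t^(6:ℕ) + (-701/100)*t^(7:ℕ) + (1797/50)*t^(8:ℕ) + (-3697/100)*t^(9:ℕ) + (541/25)*t^(10:ℕ) + (-857/25)*t^(11:ℕ)) - (1/100) = B4 at b4 ⊢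
  generalize 1*((2/5) + (-3/5)*t + (7/2)*t^(2:ℕ) + (-3)*t^(3:ℕ) + 10*t^(4:ℕ) + (-6)*t^(5:ℕ) + 13*t^(6:ℕ) + (-6)*t^(7:ℕ) + 8*t^(8:ℕ) + (-3)*t^(9:ℕ) + (19/10)*t^(10:ℕ) + (-3/5)*t^(11:ℕ)) + (5/56)*((22/25) + (-68/25)*t + (-29/5)*t^(2:ℕ) + (-11)*t^(3:ℕ) + (67/5)*t^(4:ℕ) + (-22/5)*t^(5:ℕ) + (284/5)*t^(6:ℕ) + (-47/5)*t^(7:ℕ) + (229/5)*t^(8:ℕ) + (-20)*t^(9:ℕ) + (227/25)*t^(10:ℕ) + (-168/25)*t^(11:ℕ)) + (5/686)*((-76/25) + (-157/25)*t + (-2791/50)*t^(2:ℕ) + (-1062/25)*t^(3:ℕ) + (-56)*t^(4:ℕ) + (94/25)*t^(5:ℕ) + (2143/25)*t^(6:ℕ) + (-241/25)*t^(7:ℕ) + (2734/25)*t^(8:ℕ) + (-1967/25)*t^(9:ℕ) + (1021/50)*t^(10:ℕ) + (-727/25)*t^(11:ℕ)) + (5/9604)*((-16/25) + (-16/25)*t + (298/25)*t^(2:ℕ)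 + (-728/25)*t^(3:ℕ) + (-1114/25)*t^(4:ℕ) + (189/5)*t^(5:ℕ) + (-817/25)*t^(6:ℕ) + (668/25)*t^(7:ℕ) + (272/5)*t^(8:ℕ) + (-83)*t^(9:ℕ) + (749/25)*t^(10:ℕ) + (-1086/25)*t^(11:ℕ)) + (1/33614)*((269/25)*t^(2:ℕ) + (1783/100)*t^(3:ℕ) + (27/5)*t^(4:ℕ) + (-837/50)*t^(5:ℕ) + (447/50)*t^(6:ℕ) + (-701/100)*t^(7:ℕ) + (1797/50)*t^(8:ℕ) + (-3697/100)*t^(9:ℕ) + (541/25)*t^(10:ℕ) + (-857/25)*t^(11:ℕ)) + (1/941192)*((-128/25)*t^(2:ℕ) + (643/50)*t^(3:ℕ) + (4/25)*t^(4:ℕ) + (-63/25)*t^(5:ℕ) + (-374/25)*t^(6:ℕ) + (1231/50)*t^(7:ℕ) + (-108/25)*t^(8:ℕ) + (-731/50)*t^(9:ℕ) + (398/25)*t^(10:ℕ) + (-238/25)*t^(11:ℕ)) - (1/100) = B5 at b5 ⊢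
  generalize 1*((2/5) + (-3/5)*t + (7/2)*t^(2:ℕ) + (-3)*t^(3:ℕ) + 10*t^(4:ℕ) + (-6)*t^(5:ℕ) + 13*t^(6:ℕ) + (-6)*t^(7:ℕ) + 8*t^(8:ℕ) + (-3)*t^(9:ℕ) + (19/10)*t^(10:ℕ) + (-3/5)*t^(11:ℕ)) + (3/28)*((22/25) + (-68/25)*t + (-29/5)*t^(2:ℕ) + (-11)*t^(3:ℕ) + (67/5)*t^(4:ℕ) + (-22/5)*t^(5:ℕ) + (284/5)*t^(6:ℕ) + (-47/5)*t^(7:ℕ) + (229/5)*t^(8:ℕ) + (-20)*t^(9:ℕ) + (227/25)*t^(10:ℕ) + (-168/25)*t^(11:ℕ)) + (15/1372)*((-76/25) + (-157/25)*t + (-2791/50)*t^(2:ℕ) + (-1062/25)*t^(3:ℕ) + (-56)*t^(4:ℕ) + (94/25)*t^(5:ℕ) + (2143/25)*t^(6:ℕ) + (-241/25)*t^(7:ℕ) + (2734/25)*t^(8:ℕ) + (-1967/25)*t^(9:ℕ) + (1021/50)*t^(10:ℕ) + (-727/25)*t^(11:ℕ)) + (5/4802)*((-16/25) + (-16/25)*t + (298/25)*t^(2:ℕ)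 + (-728/25)*t^(3:ℕ) + (-1114/25)*t^(4:ℕ) + (189/5)*t^(5:ℕ) + (-817/25)*t^(6:ℕ) + (668/25)*t^(7:ℕ) + (272/5)*t^(8:ℕ) + (-83)*t^(9:ℕ) + (749/25)*t^(10:ℕ) + (-1086/25)*t^(11:ℕ)) + (3/33614)*((269/25)*t^(2:ℕ) + (1783/100)*t^(3:ℕ) + (27/5)*t^(4:ℕ) + (-837/50)*t^(5:ℕ) + (447/50)*t^(6:ℕ) + (-701/100)*t^(7:ℕ) + (1797/50)*t^(8:ℕ) + (-3697/100)*t^(9:ℕ) + (541/25)*t^(10:ℕ) + (-857/25)*t^(11:ℕ)) + (3/470596)*((-128/25)*t^(2:ℕ) + (643/50)*t^(3:ℕ) + (4/25)*t^(4:ℕ) + (-63/25)*t^(5:ℕ) + (-374/25)*t^(6:ℕ) + (1231/50)*t^(7:ℕ) + (-108/25)*t^(8:ℕ) + (-731/50)*t^(9:ℕ) + (398/25)*t^(10:ℕ) + (-238/25)*t^(11:ℕ)) + (1/3294172)*((-32/25)*t^(2:ℕ) + (167/100)*t^(3:ℕ) + (-12/25)*t^(4:ℕ) + (121/50)*t^(5:ℕ)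 + (-499/50)*t^(6:ℕ) + (939/100)*t^(7:ℕ) + (307/50)*t^(8:ℕ) + (-2041/100)*t^(9:ℕ) + (423/25)*t^(10:ℕ) + (-141/25)*t^(11:ℕ)) - (1/100) = B6 at b6 ⊢
  generalize 1*((2/5) + (-3/5)*t + (7/2)*t^(2:ℕ) + (-3)*t^(3:ℕ) + 10*t^(4:ℕ) + (-6)*t^(5:ℕ) + 13*t^(6:ℕ) + (-6)*t^(7:ℕ) + 8*t^(8:ℕ) + (-3)*t^(9:ℕ) + (19/10)*t^(10:ℕ) + (-3/5)*t^(11:ℕ)) + (1/8)*((22/25) + (-68/25)*t + (-29/5)*t^(2:ℕ) + (-11)*t^(3:ℕ) + (67/5)*t^(4:ℕ) + (-22/5)*t^(5:ℕ) + (284/5)*t^(6:ℕ) + (-47/5)*t^(7:ℕ) + (229/5)*t^(8:ℕ) + (-20)*t^(9:ℕ) + (227/25)*t^(10:ℕ) + (-168/25)*t^(11:ℕ)) + (3/196)*((-76/25) + (-157/25)*t + (-2791/50)*t^(2:ℕ) + (-1062/25)*t^(3:ℕ) + (-56)*t^(4:ℕ) + (94/25)*t^(5:ℕ) + (2143/25)*t^(6:ℕ) +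 (-241/25)*t^(7:ℕ) + (2734/25)*t^(8:ℕ) + (-1967/25)*t^(9:ℕ) + (1021/50)*t^(10:ℕ) + (-727/25)*t^(11:ℕ)) + (5/2744)*((-16/25) + (-16/25)*t + (298/25)*t^(2:ℕ) + (-728/25)*t^(3:ℕ) + (-1114/25)*t^(4:ℕ) + (189/5)*t^(5:ℕ) + (-817/25)*t^(6:ℕ) + (668/25)*t^(7:ℕ) + (272/5)*t^(8:ℕ) + (-83)*t^(9:ℕ) + (749/25)*t^(10:ℕ) + (-1086/25)*t^(11:ℕ)) + (1/4802)*((269/25)*t^(2:ℕ) + (1783/100)*t^(3:ℕ) + (27/5)*t^(4:ℕ) + (-837/50)*t^(5:ℕ) + (447/50)*t^(6:ℕ) + (-701/100)*t^(7:ℕ) + (1797/50)*t^(8:ℕ) + (-3697/100)*t^(9:ℕ) + (541/25)*t^(10:ℕ) + (-857/25)*t^(11:ℕ)) + (3/134456)*((-128/25)*t^(2:ℕ) + (643/50)*t^(3:ℕ) + (4/25)*t^(4:ℕ) + (-63/25)*t^(5:ℕ) + (-374/25)*t^(6:ℕ) + (1231/50)*t^(7:ℕ) + (-108/25)*t^(8:ℕ)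 + (-731/50)*t^(9:ℕ) + (398/25)*t^(10:ℕ) + (-238/25)*t^(11:ℕ)) + (1/470596)*((-32/25)*t^(2:ℕ) + (167/100)*t^(3:ℕ) + (-12/25)*t^(4:ℕ) + (121/50)*t^(5:ℕ) + (-499/50)*t^(6:ℕ) + (939/100)*t^(7:ℕ) + (307/50)*t^(8:ℕ) + (-2041/100)*t^(9:ℕ) + (423/25)*t^(10:ℕ) + (-141/25)*t^(11:ℕ)) + (1/6588344)*((2/5)*t^(5:ℕ) + (-31/25)*t^(6:ℕ) + (101/25)*t^(8:ℕ) + (-177/25)*t^(9:ℕ) + (132/25)*t^(10:ℕ) + (-44/25)*t^(11:ℕ)) - (1/100) = B7 at b7 ⊢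
  generalize 1*((2/5) + (-3/5)*t + (7/2)*t^(2:ℕ) + (-3)*t^(3:ℕ) + 10*t^(4:ℕ) + (-6)*t^(5:ℕ) + 13*t^(6:ℕ) + (-6)*t^(7:ℕ) + 8*t^(8:ℕ) + (-3)*t^(9:ℕ) + (19/10)*t^(10:ℕ) + (-3/5)*t^(11:ℕ)) + (1/7)*((22/25) + (-68/25)*t + (-29/5)*t^(2:ℕ) + (-11)*t^(3:ℕ) + (67/5)*t^(4:ℕ) + (-22/5)*t^(5:ℕ) + (284/5)*t^(6:ℕ) + (-47/5)*t^(7:ℕ) + (229/5)*t^(8:ℕ) + (-20)*t^(9:ℕ) + (227/25)*t^(10:ℕ) + (-168/25)*t^(11:ℕ)) + (1/49)*((-76/25) + (-157/25)*t + (-2791/50)*t^(2:ℕ) + (-1062/25)*t^(3:ℕ) + (-56)*t^(4:ℕ) + (94/25)*t^(5:ℕ) + (2143/25)*t^(6:ℕ) + (-241/25)*t^(7:ℕ) + (2734/25)*t^(8:ℕ) + (-1967/25)*t^(9:ℕ) + (1021/50)*t^(10:ℕ) + (-727/25)*t^(11:ℕ)) + (1/343)*((-16/25) + (-16/25)*t + (298/25)*t^(2:ℕ)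 + (-728/25)*t^(3:ℕ) + (-1114/25)*t^(4:ℕ) + (189/5)*t^(5:ℕ) + (-817/25)*t^(6:ℕ) + (668/25)*t^(7:ℕ) + (272/5)*t^(8:ℕ) + (-83)*t^(9:ℕ) + (749/25)*t^(10:ℕ) + (-1086/25)*t^(11:ℕ)) + (1/2401)*((269/25)*t^(2:ℕ) + (1783/100)*t^(3:ℕ) + (27/5)*t^(4:ℕ) + (-837/50)*t^(5:ℕ) + (447/50)*t^(6:ℕ) + (-701/100)*t^(7:ℕ) + (1797/50)*t^(8:ℕ) + (-3697/100)*t^(9:ℕ) + (541/25)*t^(10:ℕ) + (-857/25)*t^(11:ℕ)) + (1/16807)*((-128/25)*t^(2:ℕ) + (643/50)*t^(3:ℕ) + (4/25)*t^(4:ℕ) + (-63/25)*t^(5:ℕ) + (-374/25)*t^(6:ℕ) + (1231/50)*t^(7:ℕ) + (-108/25)*t^(8:ℕ) + (-731/50)*t^(9:ℕ) + (398/25)*t^(10:ℕ) + (-238/25)*t^(11:ℕ)) + (1/117649)*((-32/25)*t^(2:ℕ) + (167/100)*t^(3:ℕ) + (-12/25)*t^(4:ℕ) + (121/50)*t^(5:ℕ)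 + (-499/50)*t^(6:ℕ) + (939/100)*t^(7:ℕ) + (307/50)*t^(8:ℕ) + (-2041/100)*t^(9:ℕ) + (423/25)*t^(10:ℕ) + (-141/25)*t^(11:ℕ)) + (1/823543)*((2/5)*t^(5:ℕ) + (-31/25)*t^(6:ℕ) + (101/25)*t^(8:ℕ) + (-177/25)*t^(9:ℕ) + (132/25)*t^(10:ℕ) + (-44/25)*t^(11:ℕ)) + (1/5764801)*((-4/25)*t^(7:ℕ) + (12/25)*t^(8:ℕ) + (-17/25)*t^(9:ℕ) + (12/25)*t^(10:ℕ) + (-4/25)*t^(11:ℕ)) - (1/100) = B8 at b8 ⊢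
  generalize (1/7) - d = d2 at a2 ⊢
  positivity

end Vale.Agent.Lib.P100.AB.V1
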