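import Vale.Agent.Lib.P100.AB.Base
import Vale.Agent.Lib.P100.AB.V1Poly

/-!
# P100: the unequal-exponent family, all dimensions.
`a = 1 - 2 d / (1 + t^2)`, `b = 1 - 2 d t^2 / (1 + t^2)`, `d = 1/(n-2)`, `t` the ratio `(q+1)/(p+1)`.
-/

noncomputable section

namespace Vale.Agent.Lib.P100.AB.V1

open Vale.Agent.Lib.P100 Vale.Agent.Lib.P100.AB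

def sg (t : ℝ) : ℝ := 2 * t / (1 + t ^ 2)
def ab (d t : ℝ) : ℝ := 2 * d / (1 + t ^ 2)
def bb (d t : ℝ) : ℝ := 2 * d * t ^ 2 / (1 + t ^ 2)
def X (d t : ℝ) : ℝ := d * (1 - t ^ 2) / (1 + t ^ 2)
def Y (d t : ℝ) : ℝ := -(d * sg t) + d ^ 2 * (sg t * (1 - sg t + (1/4)) / 2)
def fh (d t : ℝ) : ℝ :=
  (1 - t ^ 2) / (2 * t) + d ^ 2 * (1 + 2 * d) * (t * (1 - sg t + sg t * (1/4)) / 2)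

lemma e_r1 (d t : ℝ) (hd : 0 < d) :
    R1 (d / (1 + 2 * d)) (ab d t) (X d t) = (1*d*t^(2:ℕ) + 1*d*t^(4:ℕ) + 2*d^(2:ℕ)*t^(2:ℕ) + (-3)*d^(2:ℕ)*t^(4:ℕ) + (-1)*d^(3:ℕ)*t^(4:ℕ)) / ((1 + 2 * d) * (1 + t ^ 2) ^ 2) := by
  have h1 : (1 + 2 * d) ≠ 0 := by positivity
  have h2 : (1 + t ^ 2) ≠ 0 := by positivity
  simp only [R1, ab, X]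
  field_simp
  ring

lemma e_r6 (d t : ℝ) (hd : 0 < d) :
    R1 (d / (1 + 2 * d)) (bb d t) (-X d t) = (1*d + 1*d*t^(2:ℕ) + (-3)*d^(2:ℕ) + 2*d^(2:ℕ)*t^(2:ℕ) + (-1)*d^(3:ℕ)) / ((1 + 2 * d) * (1 + t ^ 2) ^ 2) := by
  have h1 : (1 + 2 * d) ≠ 0 := by positivity
  have h2 : (1 + t ^ 2) ≠ 0 := by positivity
  simp only [R1, bb, X]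
  field_simp
  ring

lemma e_r2 (d t : ℝ) (hd : 0 < d) :
    R2 (d / (1 + 2 * d)) (ab d t) (bb d t) (X d t) (Y d t) = ((-2)*d*t + (-4)*d*t^(3:ℕ) + (-2)*d*t^(5:ℕ) + (-11/4)*d^(2:ℕ)*t + (-2)*d^(2:ℕ)*t^(2:ℕ) + (5/2)*d^(2:ℕ)*t^(3:ℕ) + (21/4)*d^(2:ℕ)*t^(5:ℕ) + 2*d^(2:ℕ)*t^(6:ℕ) + (5/2)*d^(3:ℕ)*t + (-4)*d^(3:ℕ)*t^(2:ℕ) + 4*d^(3:ℕ)*t^(3:ℕ) + 2*d^(3:ℕ)*t^(4:ℕ) + (3/2)*d^(3:ℕ)*t^(5:ℕ) + (-2)*d^(3:ℕ)*t^(6:ℕ) + (-5/2)*d^(4:ℕ)*t^(3:ℕ) + 4*d^(4:ℕ)*t^(4:ℕ) + (-5/2)*d^(4:ℕ)*t^(5:ℕ)) / ((1 + 2 * d) * (1 + t ^ 2) ^ 3) := by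
  have h1 : (1 + 2 * d) ≠ 0 := by positivity
  have h2 : (1 + t ^ 2) ≠ 0 := by positivity
  simp only [R2, ab, bb, X, Y, sg]
  field_simp
  ring

lemma e_r5 (d t : ℝ) (hd : 0 < d) :
    R2 (d / (1 + 2 * d)) (bb d t) (ab d t) (-X d t) (Y d t) = ((-2)*d*t + (-4)*d*t^(3:ℕ) + (-2)*d*t^(5:ℕ) + 2*d^(2:ℕ) + (21/4)*d^(2:ℕ)*t + (5/2)*d^(2:ℕ)*t^(3:ℕ) + (-2)*d^(2:ℕ)*t^(4:ℕ) + (-11/4)*d^(2:ℕ)*t^(5:ℕ) + (-2)*d^(3:ℕ) + (3/2)*d^(3:ℕ)*t + 2*d^(3:ℕ)*t^(2:ℕ) + 4*d^(3:ℕ)*t^(3:ℕ) + (-4)*d^(3:ℕ)*t^(4:ℕ) + (5/2)*d^(3:ℕ)*t^(5:ℕ) + (-5/2)*d^(4:ℕ)*t + 4*d^(4:ℕ)*t^(2:ℕ) + (-5/2)*d^(4:ℕ)*t^(3:ℕ)) / ((1 + 2 * d) * (1 + t ^ 2) ^ 3) :=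 by
  have h1 : (1 + 2 * d) ≠ 0 := by positivity
  have h2 : (1 + t ^ 2) ≠ 0 := by positivity
  simp only [R2, ab, bb, X, Y, sg]
  field_simp
  ring

lemma e_r3 (d t : ℝ) :
    R3 (ab d t) (bb d t) (Y d t) (Y d t) = (1*d + 4*d*t^(2:ℕ) + 6*d*t^(4:ℕ) + 4*d*t^(6:ℕ) + 1*d*t^(8:ℕ) + (-1/2)*d^(2:ℕ) + 2*d^(2:ℕ)*t + (-5)*d^(2:ℕ)*t^(2:ℕ) + 6*d^(2:ℕ)*t^(3:ℕ) + (-9)*d^(2:ℕ)*t^(4:ℕ) + 6*d^(2:ℕ)*t^(5:ℕ) + (-5)*d^(2:ℕ)*t^(6:ℕ) + 2*d^(2:ℕ)*t^(7:ℕ) + (-1/2)*d^(2:ℕ)*t^(8:ℕ) + (-5/4)*d^(3:ℕ)*t + 7*d^(3:ℕ)*t^(2:ℕ) + (-47/4)*d^(3:ℕ)*t^(3:ℕ) + 14*d^(3:ℕ)*t^(4:ℕ) + (-47/4)*d^(3:ℕ)*t^(5:ℕ) + 7*d^(3:ℕ)*t^(6:ℕ) + (-5/4)*d^(3:ℕ)*t^(7:ℕ)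 + (-25/16)*d^(4:ℕ)*t^(2:ℕ) + 5*d^(4:ℕ)*t^(3:ℕ) + (-57/8)*d^(4:ℕ)*t^(4:ℕ) + 5*d^(4:ℕ)*t^(5:ℕ) + (-25/16)*d^(4:ℕ)*t^(6:ℕ)) / (1 + t ^ 2) ^ 4 := by
  have h2 : (1 + t ^ 2) ≠ 0 := by positivity
  simp only [R3, ab, bb, Y, sg]
  field_simp
  ring

lemma e_r34 (d t : ℝ) (hd : 0 < d) :
    R3 (ab d t) (bb d t) (Y d t) (Y d t) + R4 (d / (1 + 2 * d)) (ab d t) (bb d t) (Y d t) (Y d t)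
      = (1*d + 4*d*t^(2:ℕ) + 6*d*t^(4:ℕ) + 4*d*t^(6:ℕ) + 1*d*t^(8:ℕ) + 1*d^(2:ℕ) + (-2)*d^(2:ℕ)*t^(2:ℕ) + (-6)*d^(2:ℕ)*t^(4:ℕ) + (-2)*d^(2:ℕ)*t^(6:ℕ) + 1*d^(2:ℕ)*t^(8:ℕ) + (-1)*d^(3:ℕ) + 4*d^(3:ℕ)*t + (-4)*d^(3:ℕ)*t^(3:ℕ) + 2*d^(3:ℕ)*t^(4:ℕ) + (-4)*d^(3:ℕ)*t^(5:ℕ) + 4*d^(3:ℕ)*t^(7:ℕ) + (-1)*d^(3:ℕ)*t^(8:ℕ) + (-5/2)*d^(4:ℕ)*t + (87/8)*d^(4:ℕ)*t^(2:ℕ) + (-27/2)*d^(4:ℕ)*t^(3:ℕ) + (55/4)*d^(4:ℕ)*t^(4:ℕ) + (-27/2)*d^(4:ℕ)*t^(5:ℕ) + (87/8)*d^(4:ℕ)*t^(6:ℕ) + (-5/2)*d^(4:ℕ)*t^(7:ℕ) + (-25/8)*d^(5:ℕ)*t^(2:ℕ) + 10*d^(5:ℕ)*t^(3:ℕ) + (-57/4)*d^(5:ℕ)*t^(4:ℕ) + 10*d^(5:ℕ)*t^(5:ℕ) + (-25/8)*d^(5:ℕ)*t^(6:ℕ)) / ((1 + 2 * d)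 * (1 + t ^ 2) ^ 4) := by
  have h1 : (1 + 2 * d) ≠ 0 := by positivity
  have h2 : (1 + t ^ 2) ≠ 0 := by positivity
  simp only [R3, R4, ab, bb, Y, sg]
  field_simp
  ring

lemma frac_hD {e D N1 N2 N34 N5 N6 : ℝ} (he : 0 < e) (hD : 0 < D)
    (h : N2 ^ 2 * N6 + N5 ^ 2 * N1 < 4 * N34 * N1 * N6) :
    (N2 / (e * D ^ 3)) ^ 2 * (N6 / (e * D ^ 2)) + (N5 / (e * D ^ 3)) ^ 2 * (N1 / (e * D ^ 2))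
      < 4 * (N34 / (e * D ^ 4)) * (N1 / (e * D ^ 2)) * (N6 / (e * D ^ 2)) := by
  have e1 : (N2 / (e * D ^ 3)) ^ 2 * (N6 / (e * D ^ 2)) + (N5 / (e * D ^ 3)) ^ 2 * (N1 / (e * D ^ 2))
      = (N2 ^ 2 * N6 + N5 ^ 2 * N1) / (e ^ 3 * D ^ 8) := by
    field_simp
  have e2 : 4 * (N34 / (e * D ^ 4)) * (N1 / (e * D ^ 2)) * (N6 / (e * D ^ 2))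
      = (4 * N34 * N1 * N6) / (e ^ 3 * D ^ 8) := by
    field_simp
  rw [e1, e2]
  exact div_lt_div_of_pos_right h (by positivity)

lemma hD_ok (d t : ℝ) (hd : 0 < d) (hd1 : d ≤ (1/7)) (ht : 0 < t) (ht1 : t ≤ 1) :
    R2 (d / (1 + 2 * d)) (ab d t) (bb d t) (X d t) (Y d t) ^ 2 * R1 (d / (1 + 2 * d)) (bb d t) (-X d t)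
      + R2 (d / (1 + 2 * d)) (bb d t) (ab d t) (-X d t) (Y d t) ^ 2 * R1 (d / (1 + 2 * d)) (ab d t) (X d t)
      < 4 * (R3 (ab d t) (bb d t) (Y d t) (Y d t) + R4 (d / (1 + 2 * d)) (ab d t) (bb d t) (Y d t) (Y d t))
        * R1 (d / (1 + 2 * d)) (ab d t) (X d t) * R1 (d / (1 + 2 * d)) (bb d t) (-X d t) := by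
  rw [e_r1 d t hd, e_r6 d t hd, e_r2 d t hd, e_r5 d t hd, e_r34 d t hd]
  apply frac_hD (by positivity) (by positivity)
  have hp := pos_DP d t hd.le hd1 ht.le ht1
  have id0 : 4 * (1*d + 4*d*t^(2:ℕ) + 6*d*t^(4:ℕ) + 4*d*t^(6:ℕ) + 1*d*t^(8:ℕ) + 1*d^(2:ℕ) + (-2)*d^(2:ℕ)*t^(2:ℕ) + (-6)*d^(2:ℕ)*t^(4:ℕ) + (-2)*d^(2:ℕ)*t^(6:ℕ) + 1*d^(2:ℕ)*t^(8:ℕ) + (-1)*d^(3:ℕ) + 4*d^(3:ℕ)*t + (-4)*d^(3:ℕ)*t^(3:ℕ) + 2*d^(3:ℕ)*t^(4:ℕ) + (-4)*d^(3:ℕ)*t^(5:ℕ) + 4*d^(3:ℕ)*t^(7:ℕ) + (-1)*d^(3:ℕ)*t^(8:ℕ) + (-5/2)*d^(4:ℕ)*t + (87/8)*d^(4:ℕ)*t^(2:ℕ) + (-27/2)*d^(4:ℕ)*t^(3:ℕ) + (55/4)*d^(4:ℕ)*t^(4:ℕ) + (-27/2)*d^(4:ℕ)*t^(5:ℕ) + (87/8)*d^(4:ℕ)*t^(6:ℕ)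 + (-5/2)*d^(4:ℕ)*t^(7:ℕ) + (-25/8)*d^(5:ℕ)*t^(2:ℕ) + 10*d^(5:ℕ)*t^(3:ℕ) + (-57/4)*d^(5:ℕ)*t^(4:ℕ) + 10*d^(5:ℕ)*t^(5:ℕ) + (-25/8)*d^(5:ℕ)*t^(6:ℕ)) * (1*d*t^(2:ℕ) + 1*d*t^(4:ℕ) + 2*d^(2:ℕ)*t^(2:ℕ) + (-3)*d^(2:ℕ)*t^(4:ℕ) + (-1)*d^(3:ℕ)*t^(4:ℕ)) * (1*d + 1*d*t^(2:ℕ) + (-3)*d^(2:ℕ) + 2*d^(2:ℕ)*t^(2:ℕ) + (-1)*d^(3:ℕ))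
      - (((-2)*d*t + (-4)*d*t^(3:ℕ) + (-2)*d*t^(5:ℕ) + (-11/4)*d^(2:ℕ)*t + (-2)*d^(2:ℕ)*t^(2:ℕ) + (5/2)*d^(2:ℕ)*t^(3:ℕ) + (21/4)*d^(2:ℕ)*t^(5:ℕ) + 2*d^(2:ℕ)*t^(6:ℕ) + (5/2)*d^(3:ℕ)*t + (-4)*d^(3:ℕ)*t^(2:ℕ) + 4*d^(3:ℕ)*t^(3:ℕ) + 2*d^(3:ℕ)*t^(4:ℕ) + (3/2)*d^(3:ℕ)*t^(5:ℕ) + (-2)*d^(3:ℕ)*t^(6:ℕ) + (-5/2)*d^(4:ℕ)*t^(3:ℕ) + 4*d^(4:ℕ)*t^(4:ℕ) + (-5/2)*d^(4:ℕ)*t^(5:ℕ)) ^ 2 * (1*d + 1*d*t^(2:ℕ) + (-3)*d^(2:ℕ) + 2*d^(2:ℕ)*t^(2:ℕ) + (-1)*d^(3:ℕ)) + ((-2)*d*t + (-4)*d*t^(3:ℕ) + (-2)*d*t^(5:ℕ) + 2*d^(2:ℕ) + (21/4)*d^(2:ℕ)*t + (5/2)*d^(2:ℕ)*t^(3:ℕ) + (-2)*d^(2:ℕ)*t^(4:ℕ) + (-11/4)*d^(2:ℕ)*t^(5:ℕ) + (-2)*d^(3:ℕ) + (3/2)*d^(3:ℕ)*t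 + 2*d^(3:ℕ)*t^(2:ℕ) + 4*d^(3:ℕ)*t^(3:ℕ) + (-4)*d^(3:ℕ)*t^(4:ℕ) + (5/2)*d^(3:ℕ)*t^(5:ℕ) + (-5/2)*d^(4:ℕ)*t + 4*d^(4:ℕ)*t^(2:ℕ) + (-5/2)*d^(4:ℕ)*t^(3:ℕ)) ^ 2 * (1*d*t^(2:ℕ) + 1*d*t^(4:ℕ) + 2*d^(2:ℕ)*t^(2:ℕ) + (-3)*d^(2:ℕ)*t^(4:ℕ) + (-1)*d^(3:ℕ)*t^(4:ℕ)))
      = d^(4:ℕ)*t^(2:ℕ) * (1 + 6*t^(2:ℕ) + 15*t^(4:ℕ) + 20*t^(6:ℕ) + 15*t^(8:ℕ) + 6*t^(10:ℕ) + 1*t^(12:ℕ) + (-9/16)*d + (149/8)*d*t^(2:ℕ) + (-32)*d*t^(3:ℕ) + (1273/16)*d*t^(4:ℕ) + (-96)*d*t^(5:ℕ) + (483/4)*d*t^(6:ℕ) + (-96)*d*t^(7:ℕ) + (1273/16)*d*t^(8:ℕ) + (-32)*d*t^(9:ℕ) + (149/8)*d*t^(10:ℕ) + (-9/16)*d*t^(12:ℕ) + (-233/16)*d^(2:ℕ) + 8*d^(2:ℕ)*t + (-73/2)*d^(2:ℕ)*t^(2:ℕ)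 + 12*d^(2:ℕ)*t^(3:ℕ) + (-623/16)*d^(2:ℕ)*t^(4:ℕ) + (-4)*d^(2:ℕ)*t^(5:ℕ) + (-34)*d^(2:ℕ)*t^(6:ℕ) + (-4)*d^(2:ℕ)*t^(7:ℕ) + (-623/16)*d^(2:ℕ)*t^(8:ℕ) + 12*d^(2:ℕ)*t^(9:ℕ) + (-73/2)*d^(2:ℕ)*t^(10:ℕ) + 8*d^(2:ℕ)*t^(11:ℕ) + (-233/16)*d^(2:ℕ)*t^(12:ℕ) + (-287/16)*d^(3:ℕ) + 27*d^(3:ℕ)*t + (-625/4)*d^(3:ℕ)*t^(2:ℕ) + 213*d^(3:ℕ)*t^(3:ℕ) + (-3321/16)*d^(3:ℕ)*t^(4:ℕ) + 184*d^(3:ℕ)*t^(5:ℕ) + (-277/2)*d^(3:ℕ)*t^(6:ℕ) + 184*d^(3:ℕ)*t^(7:ℕ) + (-3321/16)*d^(3:ℕ)*t^(8:ℕ) + 213*d^(3:ℕ)*t^(9:ℕ) + (-625/4)*d^(3:ℕ)*t^(10:ℕ) + 27*d^(3:ℕ)*t^(11:ℕ) + (-287/16)*d^(3:ℕ)*t^(12:ℕ) + 5*d^(4:ℕ) + 12*d^(4:ℕ)*t + (-347/4)*d^(4:ℕ)*t^(2:ℕ)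 + 62*d^(4:ℕ)*t^(3:ℕ) + (419/2)*d^(4:ℕ)*t^(4:ℕ) + (-378)*d^(4:ℕ)*t^(5:ℕ) + (885/2)*d^(4:ℕ)*t^(6:ℕ) + (-378)*d^(4:ℕ)*t^(7:ℕ) + (419/2)*d^(4:ℕ)*t^(8:ℕ) + 62*d^(4:ℕ)*t^(9:ℕ) + (-347/4)*d^(4:ℕ)*t^(10:ℕ) + 12*d^(4:ℕ)*t^(11:ℕ) + 5*d^(4:ℕ)*t^(12:ℕ) + (25/4)*d^(5:ℕ) + (-20)*d^(5:ℕ)*t + (107/2)*d^(5:ℕ)*t^(2:ℕ) + (-120)*d^(5:ℕ)*t^(3:ℕ) + (529/4)*d^(5:ℕ)*t^(4:ℕ) + 52*d^(5:ℕ)*t^(5:ℕ) + (-182)*d^(5:ℕ)*t^(6:ℕ) + 52*d^(5:ℕ)*t^(7:ℕ) + (529/4)*d^(5:ℕ)*t^(8:ℕ) + (-120)*d^(5:ℕ)*t^(9:ℕ) + (107/2)*d^(5:ℕ)*t^(10:ℕ) + (-20)*d^(5:ℕ)*t^(11:ℕ) + (25/4)*d^(5:ℕ)*t^(12:ℕ) + (-25)*d^(6:ℕ)*t^(4:ℕ) + 80*d^(6:ℕ)*t^(5:ℕ) + (-114)*d^(6:ℕ)*t^(6:ℕ)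 + 80*d^(6:ℕ)*t^(7:ℕ) + (-25)*d^(6:ℕ)*t^(8:ℕ)) := by
    ring
  have hq : 0 < d^(4:ℕ)*t^(2:ℕ) * (1 + 6*t^(2:ℕ) + 15*t^(4:ℕ) + 20*t^(6:ℕ) + 15*t^(8:ℕ) + 6*t^(10:ℕ) + 1*t^(12:ℕ) + (-9/16)*d + (149/8)*d*t^(2:ℕ) + (-32)*d*t^(3:ℕ) + (1273/16)*d*t^(4:ℕ) + (-96)*d*t^(5:ℕ) + (483/4)*d*t^(6:ℕ) + (-96)*d*t^(7:ℕ) + (1273/16)*d*t^(8:ℕ) + (-32)*d*t^(9:ℕ) + (149/8)*d*t^(10:ℕ) + (-9/16)*d*t^(12:ℕ) + (-233/16)*d^(2:ℕ) + 8*d^(2:ℕ)*t + (-73/2)*d^(2:ℕ)*t^(2:ℕ) + 12*d^(2:ℕ)*t^(3:ℕ) + (-623/16)*d^(2:ℕ)*t^(4:ℕ) + (-4)*d^(2:ℕ)*t^(5:ℕ) + (-34)*d^(2:ℕ)*t^(6:ℕ) + (-4)*d^(2:ℕ)*t^(7:ℕ) + (-623/16)*d^(2:ℕ)*t^(8:ℕ) + 12*d^(2:ℕ)*t^(9:ℕ)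 + (-73/2)*d^(2:ℕ)*t^(10:ℕ) + 8*d^(2:ℕ)*t^(11:ℕ) + (-233/16)*d^(2:ℕ)*t^(12:ℕ) + (-287/16)*d^(3:ℕ) + 27*d^(3:ℕ)*t + (-625/4)*d^(3:ℕ)*t^(2:ℕ) + 213*d^(3:ℕ)*t^(3:ℕ) + (-3321/16)*d^(3:ℕ)*t^(4:ℕ) + 184*d^(3:ℕ)*t^(5:ℕ) + (-277/2)*d^(3:ℕ)*t^(6:ℕ) + 184*d^(3:ℕ)*t^(7:ℕ) + (-3321/16)*d^(3:ℕ)*t^(8:ℕ) + 213*d^(3:ℕ)*t^(9:ℕ) + (-625/4)*d^(3:ℕ)*t^(10:ℕ) + 27*d^(3:ℕ)*t^(11:ℕ) + (-287/16)*d^(3:ℕ)*t^(12:ℕ) + 5*d^(4:ℕ) + 12*d^(4:ℕ)*t + (-347/4)*d^(4:ℕ)*t^(2:ℕ) + 62*d^(4:ℕ)*t^(3:ℕ) + (419/2)*d^(4:ℕ)*t^(4:ℕ) + (-378)*d^(4:ℕ)*t^(5:ℕ) + (885/2)*d^(4:ℕ)*t^(6:ℕ) + (-378)*d^(4:ℕ)*t^(7:ℕ) + (419/2)*d^(4:ℕ)*t^(8:ℕ) + 62*d^(4:ℕ)*t^(9:ℕ)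 + (-347/4)*d^(4:ℕ)*t^(10:ℕ) + 12*d^(4:ℕ)*t^(11:ℕ) + 5*d^(4:ℕ)*t^(12:ℕ) + (25/4)*d^(5:ℕ) + (-20)*d^(5:ℕ)*t + (107/2)*d^(5:ℕ)*t^(2:ℕ) + (-120)*d^(5:ℕ)*t^(3:ℕ) + (529/4)*d^(5:ℕ)*t^(4:ℕ) + 52*d^(5:ℕ)*t^(5:ℕ) + (-182)*d^(5:ℕ)*t^(6:ℕ) + 52*d^(5:ℕ)*t^(7:ℕ) + (529/4)*d^(5:ℕ)*t^(8:ℕ) + (-120)*d^(5:ℕ)*t^(9:ℕ) + (107/2)*d^(5:ℕ)*t^(10:ℕ) + (-20)*d^(5:ℕ)*t^(11:ℕ) + (25/4)*d^(5:ℕ)*t^(12:ℕ) + (-25)*d^(6:ℕ)*t^(4:ℕ) + 80*d^(6:ℕ)*t^(5:ℕ) + (-114)*d^(6:ℕ)*t^(6:ℕ) + 80*d^(6:ℕ)*t^(7:ℕ) + (-25)*d^(6:ℕ)*t^(8:ℕ)) := by positivity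
  linarith

lemma r1_pos (d t : ℝ) (hd : 0 < d) (hd1 : d ≤ (1/7)) (ht : 0 < t) (ht1 : t ≤ 1) :
    0 < R1 (d / (1 + 2 * d)) (ab d t) (X d t) := by
  rw [e_r1 d t hd]
  have hp := pos_r1 d t hd.le hd1 ht.le ht1
  have id0 : 1*d*t^(2:ℕ) + 1*d*t^(4:ℕ) + 2*d^(2:ℕ)*t^(2:ℕ) + (-3)*d^(2:ℕ)*t^(4:ℕ) + (-1)*d^(3:ℕ)*t^(4:ℕ) = d*t^(2:ℕ) * (1 + 1*t^(2:ℕ) + 2*d + (-3)*d*t^(2:ℕ) + (-1)*d^(2:ℕ)*t^(2:ℕ)) := by ring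
  rw [id0]
  positivity

lemma r6_pos (d t : ℝ) (hd : 0 < d) (hd1 : d ≤ (1/7)) (ht : 0 < t) (ht1 : t ≤ 1) :
    0 < R1 (d / (1 + 2 * d)) (bb d t) (-X d t) := by
  rw [e_r6 d t hd]
  have hp := pos_r6 d t hd.le hd1 ht.le ht1
  have id0 : 1*d + 1*d*t^(2:ℕ) + (-3)*d^(2:ℕ) + 2*d^(2:ℕ)*t^(2:ℕ) + (-1)*d^(3:ℕ) = d * (1 + 1*t^(2:ℕ) + (-3)*d + 2*d*t^(2:ℕ) + (-1)*d^(2:ℕ)) := by ring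
  rw [id0]
  positivity

lemma r3_pos (d t : ℝ) (hd : 0 < d) (hd1 : d ≤ (1/7)) (ht : 0 < t) (ht1 : t ≤ 1) :
    0 ≤ R3 (ab d t) (bb d t) (Y d t) (Y d t) := by
  rw [e_r3 d t]
  have hp := pos_r3 d t hd.le hd1 ht.le ht1
  have id0 : 1*d + 4*d*t^(2:ℕ) + 6*d*t^(4:ℕ) + 4*d*t^(6:ℕ) + 1*d*t^(8:ℕ) + (-1/2)*d^(2:ℕ) + 2*d^(2:ℕ)*t + (-5)*d^(2:ℕ)*t^(2:ℕ) + 6*d^(2:ℕ)*t^(3:ℕ) + (-9)*d^(2:ℕ)*t^(4:ℕ) + 6*d^(2:ℕ)*t^(5:ℕ) + (-5)*d^(2:ℕ)*t^(6:ℕ) + 2*d^(2:ℕ)*t^(7:ℕ) + (-1/2)*d^(2:ℕ)*t^(8:ℕ) + (-5/4)*d^(3:ℕ)*t + 7*d^(3:ℕ)*t^(2:ℕ) + (-47/4)*d^(3:ℕ)*t^(3:ℕ) + 14*d^(3:ℕ)*t^(4:ℕ) + (-47/4)*d^(3:ℕ)*t^(5:ℕ) + 7*d^(3:ℕ)*t^(6:ℕ) + (-5/4)*d^(3:ℕ)*t^(7:ℕ)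 + (-25/16)*d^(4:ℕ)*t^(2:ℕ) + 5*d^(4:ℕ)*t^(3:ℕ) + (-57/8)*d^(4:ℕ)*t^(4:ℕ) + 5*d^(4:ℕ)*t^(5:ℕ) + (-25/16)*d^(4:ℕ)*t^(6:ℕ) = d * (1 + 4*t^(2:ℕ) + 6*t^(4:ℕ) + 4*t^(6:ℕ) + 1*t^(8:ℕ) + (-1/2)*d + 2*d*t + (-5)*d*t^(2:ℕ) + 6*d*t^(3:ℕ) + (-9)*d*t^(4:ℕ) + 6*d*t^(5:ℕ) + (-5)*d*t^(6:ℕ) + 2*d*t^(7:ℕ) + (-1/2)*d*t^(8:ℕ) + (-5/4)*d^(2:ℕ)*t + 7*d^(2:ℕ)*t^(2:ℕ) + (-47/4)*d^(2:ℕ)*t^(3:ℕ) + 14*d^(2:ℕ)*t^(4:ℕ) + (-47/4)*d^(2:ℕ)*t^(5:ℕ) + 7*d^(2:ℕ)*t^(6:ℕ) + (-5/4)*d^(2:ℕ)*t^(7:ℕ) + (-25/16)*d^(3:ℕ)*t^(2:ℕ) + 5*d^(3:ℕ)*t^(3:ℕ) + (-57/8)*d^(3:ℕ)*t^(4:ℕ) + 5*d^(3:ℕ)*t^(5:ℕ) + (-25/16)*d^(3:ℕ)*t^(6:ℕ)) := by ring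
  rw [id0]
  positivity

/-- upper endpoint value of the exponent -/
def eta0 (d : ℝ) : ℝ := d / (1 + (1/5) * d)

lemma L10_ok (d t : ℝ) (hd : 0 < d) (hd1 : d ≤ (1/7)) (ht : 0 < t) (ht1 : t ≤ 1) :
    (-2 * d * (1 / 2 - Y d t) + ab d t * fh d t + (1 + d) * (1 / t)) ^ 2
      < 4 * (1 + 4 * d) * (1 / 2 + X d t) * ((1 + 2 * d) * (1 / 2 - Y d t) - bb d t * fh d t)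
        + 4 * (1 + 4 * d) * (1 / 2 + X d t) * fh d t * (1 / t) := by
  have h2 : (1 + t ^ 2) ≠ 0 := by positivity
  have ht0 : t ≠ 0 := ht.ne'
  have hp := pos_L10 d t hd.le hd1 ht.le ht1
  have key : 4 * (1 + 4 * d) * (1 / 2 + X d t) * ((1 + 2 * d) * (1 / 2 - Y d t) - bb d t * fh d t)
        + 4 * (1 + 4 * d) * (1 / 2 + X d t) * fh d t * (1 / t)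
        - (-2 * d * (1 / 2 - Y d t) + ab d t * fh d t + (1 + d) * (1 / t)) ^ 2
      = d * (2 + 2*t + 10*t^(2:ℕ) + 10*t^(3:ℕ) + 20*t^(4:ℕ) + 20*t^(5:ℕ) + 20*t^(6:ℕ) + 20*t^(7:ℕ) + 10*t^(8:ℕ) + 10*t^(9:ℕ) + 2*t^(10:ℕ) + 2*t^(11:ℕ) + 4*d + 4*d*t + 28*d*t^(2:ℕ) + 28*d*t^(3:ℕ) + 64*d*t^(4:ℕ) + 64*d*t^(5:ℕ) + 64*d*t^(6:ℕ) + 64*d*t^(7:ℕ) + 28*d*t^(8:ℕ) + 28*d*t^(9:ℕ) + 4*d*t^(10:ℕ) + 4*d*t^(11:ℕ) + 33*d^(2:ℕ)*t^(2:ℕ) + 35*d^(2:ℕ)*t^(3:ℕ) + 103*d^(2:ℕ)*t^(4:ℕ) + 60*d^(2:ℕ)*t^(5:ℕ) + 82*d^(2:ℕ)*t^(6:ℕ) + (-3)*d^(2:ℕ)*t^(7:ℕ) + 3*d^(2:ℕ)*t^(8:ℕ) + (-46)*d^(2:ℕ)*t^(9:ℕ) + (-9)*d^(2:ℕ)*t^(10:ℕ) + (-18)*d^(2:ℕ)*t^(11:ℕ)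 + 2*d^(3:ℕ)*t^(2:ℕ) + 19*d^(3:ℕ)*t^(3:ℕ) + 69*d^(3:ℕ)*t^(4:ℕ) + (-41)*d^(3:ℕ)*t^(5:ℕ) + 56*d^(3:ℕ)*t^(6:ℕ) + (-125)*d^(3:ℕ)*t^(7:ℕ) + (-3)*d^(3:ℕ)*t^(8:ℕ) + (-73)*d^(3:ℕ)*t^(9:ℕ) + 8*d^(3:ℕ)*t^(10:ℕ) + (-8)*d^(3:ℕ)*t^(11:ℕ) + 8*d^(4:ℕ)*t^(2:ℕ) + (-48)*d^(4:ℕ)*t^(3:ℕ) + 102*d^(4:ℕ)*t^(4:ℕ) + (-124)*d^(4:ℕ)*t^(5:ℕ) + 96*d^(4:ℕ)*t^(6:ℕ) + (-40)*d^(4:ℕ)*t^(7:ℕ) + (-26)*d^(4:ℕ)*t^(8:ℕ) + 44*d^(4:ℕ)*t^(9:ℕ) + (-28)*d^(4:ℕ)*t^(10:ℕ) + 8*d^(4:ℕ)*t^(11:ℕ) + (15/4)*d^(5:ℕ)*t^(4:ℕ) + (-35/2)*d^(5:ℕ)*t^(5:ℕ) + (101/4)*d^(5:ℕ)*t^(6:ℕ) + (-35/2)*d^(5:ℕ)*t^(7:ℕ) + (15/4)*d^(5:ℕ)*t^(8:ℕ) + 32*d^(5:ℕ)*t^(9:ℕ) + (-48)*d^(5:ℕ)*t^(10:ℕ)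 + 32*d^(5:ℕ)*t^(11:ℕ) + (-14)*d^(6:ℕ)*t^(4:ℕ) + 43*d^(6:ℕ)*t^(5:ℕ) + (-61)*d^(6:ℕ)*t^(6:ℕ) + 43*d^(6:ℕ)*t^(7:ℕ) + (-14)*d^(6:ℕ)*t^(8:ℕ) + (-4)*d^(7:ℕ)*t^(4:ℕ) + 12*d^(7:ℕ)*t^(5:ℕ) + (-17)*d^(7:ℕ)*t^(6:ℕ) + 12*d^(7:ℕ)*t^(7:ℕ) + (-4)*d^(7:ℕ)*t^(8:ℕ)) / (t ^ 2 * (1 + t ^ 2) ^ 4) := by
    simp only [ab, bb, X, Y, fh, sg]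
    field_simp
    ring
  have hq : 0 < d * (2 + 2*t + 10*t^(2:ℕ) + 10*t^(3:ℕ) + 20*t^(4:ℕ) + 20*t^(5:ℕ) + 20*t^(6:ℕ) + 20*t^(7:ℕ) + 10*t^(8:ℕ) + 10*t^(9:ℕ) + 2*t^(10:ℕ) + 2*t^(11:ℕ) + 4*d + 4*d*t + 28*d*t^(2:ℕ) + 28*d*t^(3:ℕ) + 64*d*t^(4:ℕ) + 64*d*t^(5:ℕ) + 64*d*t^(6:ℕ) + 64*d*t^(7:ℕ) + 28*d*t^(8:ℕ) + 28*d*t^(9:ℕ) + 4*d*t^(10:ℕ) + 4*d*t^(11:ℕ) + 33*d^(2:ℕ)*t^(2:ℕ) + 35*d^(2:ℕ)*t^(3:ℕ) + 103*d^(2:ℕ)*t^(4:ℕ) + 60*d^(2:ℕ)*t^(5:ℕ) + 82*d^(2:ℕ)*t^(6:ℕ) + (-3)*d^(2:ℕ)*t^(7:ℕ) + 3*d^(2:ℕ)*t^(8:ℕ) + (-46)*d^(2:ℕ)*t^(9:ℕ) + (-9)*d^(2:ℕ)*t^(10:ℕ) + (-18)*d^(2:ℕ)*t^(11:ℕ) + 2*d^(3:ℕ)*t^(2:ℕ) + 19*d^(3:ℕ)*t^(3:ℕ) + 69*d^(3:ℕ)*t^(4:ℕ)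 + (-41)*d^(3:ℕ)*t^(5:ℕ) + 56*d^(3:ℕ)*t^(6:ℕ) + (-125)*d^(3:ℕ)*t^(7:ℕ) + (-3)*d^(3:ℕ)*t^(8:ℕ) + (-73)*d^(3:ℕ)*t^(9:ℕ) + 8*d^(3:ℕ)*t^(10:ℕ) + (-8)*d^(3:ℕ)*t^(11:ℕ) + 8*d^(4:ℕ)*t^(2:ℕ) + (-48)*d^(4:ℕ)*t^(3:ℕ) + 102*d^(4:ℕ)*t^(4:ℕ) + (-124)*d^(4:ℕ)*t^(5:ℕ) + 96*d^(4:ℕ)*t^(6:ℕ) + (-40)*d^(4:ℕ)*t^(7:ℕ) + (-26)*d^(4:ℕ)*t^(8:ℕ) + 44*d^(4:ℕ)*t^(9:ℕ) + (-28)*d^(4:ℕ)*t^(10:ℕ) + 8*d^(4:ℕ)*t^(11:ℕ) + (15/4)*d^(5:ℕ)*t^(4:ℕ) + (-35/2)*d^(5:ℕ)*t^(5:ℕ) + (101/4)*d^(5:ℕ)*t^(6:ℕ) + (-35/2)*d^(5:ℕ)*t^(7:ℕ) + (15/4)*d^(5:ℕ)*t^(8:ℕ) + 32*d^(5:ℕ)*t^(9:ℕ) + (-48)*d^(5:ℕ)*t^(10:ℕ) + 32*d^(5:ℕ)*t^(11:ℕ) + (-14)*d^(6:ℕ)*t^(4:ℕ) + 43*d^(6:ℕ)*t^(5:ℕ)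 + (-61)*d^(6:ℕ)*t^(6:ℕ) + 43*d^(6:ℕ)*t^(7:ℕ) + (-14)*d^(6:ℕ)*t^(8:ℕ) + (-4)*d^(7:ℕ)*t^(4:ℕ) + 12*d^(7:ℕ)*t^(5:ℕ) + (-17)*d^(7:ℕ)*t^(6:ℕ) + 12*d^(7:ℕ)*t^(7:ℕ) + (-4)*d^(7:ℕ)*t^(8:ℕ)) / (t ^ 2 * (1 + t ^ 2) ^ 4) := by positivity
  linarith

lemma L1e_ok (d t : ℝ) (hd : 0 < d) (hd1 : d ≤ (1/7)) (ht : 0 < t) (ht1 : t ≤ 1) :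
    (-2 * d * (1 / 2 - Y d t) + ab d t * fh d t + (1 + d) * ((1 + 2 * (1 + t) * eta0 d) / t)) ^ 2
      < 4 * (1 + 4 * d) * (1 / 2 + X d t) * ((1 + 2 * d) * (1 / 2 - Y d t) - bb d t * fh d t)
        + 4 * (1 + 4 * d) * (1 / 2 + X d t) * fh d t * ((1 + 2 * (1 + t) * eta0 d) / t) := by
  have h2 : (1 + t ^ 2) ≠ 0 := by positivity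
  have ht0 : t ≠ 0 := ht.ne'
  have hW : (1 + (1/5) * d) ≠ 0 := by positivity
  have hp := pos_L1e d t hd.le hd1 ht.le ht1
  have key : 4 * (1 + 4 * d) * (1 / 2 + X d t) * ((1 + 2 * d) * (1 / 2 - Y d t) - bb d t * fh d t)
        + 4 * (1 + 4 * d) * (1 / 2 + X d t) * fh d t * ((1 + 2 * (1 + t) * eta0 d) / t)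
        - (-2 * d * (1 / 2 - Y d t) + ab d t * fh d t + (1 + d) * ((1 + 2 * (1 + t) * eta0 d) / t)) ^ 2
      = d ^ 2 * ((2/5) + (2/5)*t + 2*t^(2:ℕ) + 2*t^(3:ℕ) + 4*t^(4:ℕ) + 4*t^(5:ℕ) + 4*t^(6:ℕ) + 4*t^(7:ℕ) + 2*t^(8:ℕ) + 2*t^(9:ℕ) + (2/5)*t^(10:ℕ) + (2/5)*t^(11:ℕ) + (42/25)*d + (-38/25)*d*t + 17*d*t^(2:ℕ) + (32/5)*d*t^(3:ℕ) + (288/5)*d*t^(4:ℕ) + (11/5)*d*t^(5:ℕ) + (293/5)*d*t^(6:ℕ) + (-20)*d*t^(7:ℕ) + 20*d*t^(8:ℕ) + (-67/5)*d*t^(9:ℕ) + (92/25)*d*t^(10:ℕ) + (22/25)*d*t^(11:ℕ) + (-56/25)*d^(2:ℕ) + (-136/25)*d^(2:ℕ)*t + (428/25)*d^(2:ℕ)*t^(2:ℕ) + (568/25)*d^(2:ℕ)*t^(3:ℕ) + (3384/25)*d^(2:ℕ)*t^(4:ℕ) + (-336/25)*d^(2:ℕ)*t^(5:ℕ)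 + (3009/25)*d^(2:ℕ)*t^(6:ℕ) + (-2456/25)*d^(2:ℕ)*t^(7:ℕ) + (118/25)*d^(2:ℕ)*t^(8:ℕ) + (-1502/25)*d^(2:ℕ)*t^(9:ℕ) + (9/25)*d^(2:ℕ)*t^(10:ℕ) + (-86/25)*d^(2:ℕ)*t^(11:ℕ) + (793/25)*d^(3:ℕ)*t^(2:ℕ) + (-219/5)*d^(3:ℕ)*t^(3:ℕ) + (4143/25)*d^(3:ℕ)*t^(4:ℕ) + (-614/5)*d^(3:ℕ)*t^(5:ℕ) + (3102/25)*d^(3:ℕ)*t^(6:ℕ) + (-1293/25)*d^(3:ℕ)*t^(7:ℕ) + (-797/25)*d^(3:ℕ)*t^(8:ℕ) + (624/25)*d^(3:ℕ)*t^(9:ℕ) + (-549/25)*d^(3:ℕ)*t^(10:ℕ) + (-58/25)*d^(3:ℕ)*t^(11:ℕ) + (772/25)*d^(4:ℕ)*t^(2:ℕ) + (-801/25)*d^(4:ℕ)*t^(3:ℕ) + (5531/100)*d^(4:ℕ)*t^(4:ℕ) + (-2577/50)*d^(4:ℕ)*t^(5:ℕ) + (1589/100)*d^(4:ℕ)*t^(6:ℕ) + (31/10)*d^(4:ℕ)*t^(7:ℕ)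 + (-2037/100)*d^(4:ℕ)*t^(8:ℕ) + (597/25)*d^(4:ℕ)*t^(9:ℕ) + (-1052/25)*d^(4:ℕ)*t^(10:ℕ) + (32/25)*d^(4:ℕ)*t^(11:ℕ) + (128/25)*d^(5:ℕ)*t^(2:ℕ) + (-108/25)*d^(5:ℕ)*t^(3:ℕ) + (-381/50)*d^(5:ℕ)*t^(4:ℕ) + (856/25)*d^(5:ℕ)*t^(5:ℕ) + (-2833/50)*d^(5:ℕ)*t^(6:ℕ) + (208/5)*d^(5:ℕ)*t^(7:ℕ) + (-797/50)*d^(5:ℕ)*t^(8:ℕ) + (244/25)*d^(5:ℕ)*t^(9:ℕ) + (-428/25)*d^(5:ℕ)*t^(10:ℕ) + (168/25)*d^(5:ℕ)*t^(11:ℕ) + (-189/20)*d^(6:ℕ)*t^(4:ℕ) + (57/2)*d^(6:ℕ)*t^(5:ℕ) + (-4039/100)*d^(6:ℕ)*t^(6:ℕ) + (57/2)*d^(6:ℕ)*t^(7:ℕ) + (-189/20)*d^(6:ℕ)*t^(8:ℕ) + (32/25)*d^(6:ℕ)*t^(9:ℕ) + (-48/25)*d^(6:ℕ)*t^(10:ℕ) + (32/25)*d^(6:ℕ)*t^(11:ℕ) + (-54/25)*d^(7:ℕ)*t^(4:ℕ)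 + (163/25)*d^(7:ℕ)*t^(5:ℕ) + (-231/25)*d^(7:ℕ)*t^(6:ℕ) + (163/25)*d^(7:ℕ)*t^(7:ℕ) + (-54/25)*d^(7:ℕ)*t^(8:ℕ) + (-4/25)*d^(8:ℕ)*t^(4:ℕ) + (12/25)*d^(8:ℕ)*t^(5:ℕ) + (-17/25)*d^(8:ℕ)*t^(6:ℕ) + (12/25)*d^(8:ℕ)*t^(7:ℕ) + (-4/25)*d^(8:ℕ)*t^(8:ℕ)) / (t ^ 2 * (1 + t ^ 2) ^ 4 * (1 + (1/5) * d) ^ 2) := by
    simp only [ab, bb, X, Y, fh, sg, eta0]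
    field_simp
    ring
  have hq : 0 < d ^ 2 * ((2/5) + (2/5)*t + 2*t^(2:ℕ) + 2*t^(3:ℕ) + 4*t^(4:ℕ) + 4*t^(5:ℕ) + 4*t^(6:ℕ) + 4*t^(7:ℕ) + 2*t^(8:ℕ) + 2*t^(9:ℕ) + (2/5)*t^(10:ℕ) + (2/5)*t^(11:ℕ) + (42/25)*d + (-38/25)*d*t + 17*d*t^(2:ℕ) + (32/5)*d*t^(3:ℕ) + (288/5)*d*t^(4:ℕ) + (11/5)*d*t^(5:ℕ) + (293/5)*d*t^(6:ℕ) + (-20)*d*t^(7:ℕ) + 20*d*t^(8:ℕ) + (-67/5)*d*t^(9:ℕ) + (92/25)*d*t^(10:ℕ) + (22/25)*d*t^(11:ℕ) + (-56/25)*d^(2:ℕ) + (-136/25)*d^(2:ℕ)*t + (428/25)*d^(2:ℕ)*t^(2:ℕ) + (568/25)*d^(2:ℕ)*t^(3:ℕ) + (3384/25)*d^(2:ℕ)*t^(4:ℕ) + (-336/25)*d^(2:ℕ)*t^(5:ℕ) + (3009/25)*d^(2:ℕ)*t^(6:ℕ) + (-2456/25)*d^(2:ℕ)*t^(7:ℕ)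 + (118/25)*d^(2:ℕ)*t^(8:ℕ) + (-1502/25)*d^(2:ℕ)*t^(9:ℕ) + (9/25)*d^(2:ℕ)*t^(10:ℕ) + (-86/25)*d^(2:ℕ)*t^(11:ℕ) + (793/25)*d^(3:ℕ)*t^(2:ℕ) + (-219/5)*d^(3:ℕ)*t^(3:ℕ) + (4143/25)*d^(3:ℕ)*t^(4:ℕ) + (-614/5)*d^(3:ℕ)*t^(5:ℕ) + (3102/25)*d^(3:ℕ)*t^(6:ℕ) + (-1293/25)*d^(3:ℕ)*t^(7:ℕ) + (-797/25)*d^(3:ℕ)*t^(8:ℕ) + (624/25)*d^(3:ℕ)*t^(9:ℕ) + (-549/25)*d^(3:ℕ)*t^(10:ℕ) + (-58/25)*d^(3:ℕ)*t^(11:ℕ) + (772/25)*d^(4:ℕ)*t^(2:ℕ) + (-801/25)*d^(4:ℕ)*t^(3:ℕ) + (5531/100)*d^(4:ℕ)*t^(4:ℕ) + (-2577/50)*d^(4:ℕ)*t^(5:ℕ) + (1589/100)*d^(4:ℕ)*t^(6:ℕ) + (31/10)*d^(4:ℕ)*t^(7:ℕ) + (-2037/100)*d^(4:ℕ)*t^(8:ℕ) + (597/25)*d^(4:ℕ)*t^(9:ℕ)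 + (-1052/25)*d^(4:ℕ)*t^(10:ℕ) + (32/25)*d^(4:ℕ)*t^(11:ℕ) + (128/25)*d^(5:ℕ)*t^(2:ℕ) + (-108/25)*d^(5:ℕ)*t^(3:ℕ) + (-381/50)*d^(5:ℕ)*t^(4:ℕ) + (856/25)*d^(5:ℕ)*t^(5:ℕ) + (-2833/50)*d^(5:ℕ)*t^(6:ℕ) + (208/5)*d^(5:ℕ)*t^(7:ℕ) + (-797/50)*d^(5:ℕ)*t^(8:ℕ) + (244/25)*d^(5:ℕ)*t^(9:ℕ) + (-428/25)*d^(5:ℕ)*t^(10:ℕ) + (168/25)*d^(5:ℕ)*t^(11:ℕ) + (-189/20)*d^(6:ℕ)*t^(4:ℕ) + (57/2)*d^(6:ℕ)*t^(5:ℕ) + (-4039/100)*d^(6:ℕ)*t^(6:ℕ) + (57/2)*d^(6:ℕ)*t^(7:ℕ) + (-189/20)*d^(6:ℕ)*t^(8:ℕ) + (32/25)*d^(6:ℕ)*t^(9:ℕ) + (-48/25)*d^(6:ℕ)*t^(10:ℕ) + (32/25)*d^(6:ℕ)*t^(11:ℕ) + (-54/25)*d^(7:ℕ)*t^(4:ℕ) + (163/25)*d^(7:ℕ)*t^(5:ℕ) + (-231/25)*d^(7:ℕ)*t^(6:ℕ)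 + (163/25)*d^(7:ℕ)*t^(7:ℕ) + (-54/25)*d^(7:ℕ)*t^(8:ℕ) + (-4/25)*d^(8:ℕ)*t^(4:ℕ) + (12/25)*d^(8:ℕ)*t^(5:ℕ) + (-17/25)*d^(8:ℕ)*t^(6:ℕ) + (12/25)*d^(8:ℕ)*t^(7:ℕ) + (-4/25)*d^(8:ℕ)*t^(8:ℕ)) / (t ^ 2 * (1 + t ^ 2) ^ 4 * (1 + (1/5) * d) ^ 2) := by positivity
  linarith

lemma L20_ok (d t : ℝ) (hd : 0 < d) (hd1 : d ≤ (1/7)) (ht : 0 < t) (ht1 : t ≤ 1) :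
    (-2 * d * (1 / 2 - Y d t) + bb d t * (-fh d t) + (1 + d) * t) ^ 2
      < 4 * (1 + 4 * d) * (1 / 2 + -X d t) * ((1 + 2 * d) * (1 / 2 - Y d t) - ab d t * (-fh d t))
        + 4 * (1 + 4 * d) * (1 / 2 + -X d t) * (-fh d t) * t := by
  have h2 : (1 + t ^ 2) ≠ 0 := by positivity
  have ht0 : t ≠ 0 := ht.ne'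
  have hp := pos_L20 d t hd.le hd1 ht.le ht1
  have key : 4 * (1 + 4 * d) * (1 / 2 + -X d t) * ((1 + 2 * d) * (1 / 2 - Y d t) - ab d t * (-fh d t))
        + 4 * (1 + 4 * d) * (1 / 2 + -X d t) * (-fh d t) * t
        - (-2 * d * (1 / 2 - Y d t) + bb d t * (-fh d t) + (1 + d) * t) ^ 2
      = d * (2 + 2*t + 10*t^(2:ℕ) + 10*t^(3:ℕ) + 20*t^(4:ℕ) + 20*t^(5:ℕ) + 20*t^(6:ℕ) + 20*t^(7:ℕ) + 10*t^(8:ℕ) + 10*t^(9:ℕ) + 2*t^(10:ℕ) + 2*t^(11:ℕ) + 4*d + 3*d*t + (59/2)*d*t^(2:ℕ) + 23*d*t^(3:ℕ) + 70*d*t^(4:ℕ) + 54*d*t^(5:ℕ) + 73*d*t^(6:ℕ) + 54*d*t^(7:ℕ) + 34*d*t^(8:ℕ) + 23*d*t^(9:ℕ) + (11/2)*d*t^(10:ℕ) + 3*d*t^(11:ℕ) + (-16)*d^(2:ℕ)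 + (-16)*d^(2:ℕ)*t + (-32)*d^(2:ℕ)*t^(2:ℕ) + (-28)*d^(2:ℕ)*t^(3:ℕ) + 36*d^(2:ℕ)*t^(4:ℕ) + 25*d^(2:ℕ)*t^(5:ℕ) + 113*d^(2:ℕ)*t^(6:ℕ) + 48*d^(2:ℕ)*t^(7:ℕ) + 70*d^(2:ℕ)*t^(8:ℕ) + 5*d^(2:ℕ)*t^(9:ℕ) + 9*d^(2:ℕ)*t^(10:ℕ) + (-6)*d^(2:ℕ)*t^(11:ℕ) + (-41)*d^(3:ℕ)*t^(2:ℕ) + (-48)*d^(3:ℕ)*t^(3:ℕ) + (-55)*d^(3:ℕ)*t^(4:ℕ) + (-31)*d^(3:ℕ)*t^(5:ℕ) + 51*d^(3:ℕ)*t^(6:ℕ) + (-14)*d^(3:ℕ)*t^(7:ℕ) + 81*d^(3:ℕ)*t^(8:ℕ) + (-43)*d^(3:ℕ)*t^(9:ℕ) + 16*d^(3:ℕ)*t^(10:ℕ) + (-12)*d^(3:ℕ)*t^(11:ℕ) + 32*d^(4:ℕ)*t^(2:ℕ) + (-16)*d^(4:ℕ)*t^(3:ℕ) + 4*d^(4:ℕ)*t^(4:ℕ) + 22*d^(4:ℕ)*t^(5:ℕ) + (-24)*d^(4:ℕ)*t^(6:ℕ) + 28*d^(4:ℕ)*t^(7:ℕ) + 12*d^(4:ℕ)*t^(8:ℕ)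 + (-18)*d^(4:ℕ)*t^(9:ℕ) + 8*d^(4:ℕ)*t^(10:ℕ) + (-8)*d^(4:ℕ)*t^(11:ℕ) + (-32)*d^(5:ℕ)*t^(2:ℕ) + (167/4)*d^(5:ℕ)*t^(3:ℕ) + (-12)*d^(5:ℕ)*t^(4:ℕ) + (-79/2)*d^(5:ℕ)*t^(5:ℕ) + (121/2)*d^(5:ℕ)*t^(6:ℕ) + (-261/4)*d^(5:ℕ)*t^(7:ℕ) + (87/2)*d^(5:ℕ)*t^(8:ℕ) + (-61/4)*d^(5:ℕ)*t^(9:ℕ) + 3*d^(5:ℕ)*t^(10:ℕ) + (-1)*d^(5:ℕ)*t^(11:ℕ) + 10*d^(6:ℕ)*t^(5:ℕ) + (-31)*d^(6:ℕ)*t^(6:ℕ) + 40*d^(6:ℕ)*t^(7:ℕ) + (-19)*d^(6:ℕ)*t^(8:ℕ) + (-7)*d^(6:ℕ)*t^(9:ℕ) + 12*d^(6:ℕ)*t^(10:ℕ) + (-4)*d^(6:ℕ)*t^(11:ℕ) + (-4)*d^(7:ℕ)*t^(7:ℕ) + 12*d^(7:ℕ)*t^(8:ℕ) + (-17)*d^(7:ℕ)*t^(9:ℕ) + 12*d^(7:ℕ)*t^(10:ℕ) + (-4)*d^(7:ℕ)*t^(11:ℕ)) / (t * (1 + t ^ 2) ^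 4) := by
    simp only [ab, bb, X, Y, fh, sg]
    field_simp
    ring
  have hq : 0 < d * (2 + 2*t + 10*t^(2:ℕ) + 10*t^(3:ℕ) + 20*t^(4:ℕ) + 20*t^(5:ℕ) + 20*t^(6:ℕ) + 20*t^(7:ℕ) + 10*t^(8:ℕ) + 10*t^(9:ℕ) + 2*t^(10:ℕ) + 2*t^(11:ℕ) + 4*d + 3*d*t + (59/2)*d*t^(2:ℕ) + 23*d*t^(3:ℕ) + 70*d*t^(4:ℕ) + 54*d*t^(5:ℕ) + 73*d*t^(6:ℕ) + 54*d*t^(7:ℕ) + 34*d*t^(8:ℕ) + 23*d*t^(9:ℕ) + (11/2)*d*t^(10:ℕ) + 3*d*t^(11:ℕ) + (-16)*d^(2:ℕ) + (-16)*d^(2:ℕ)*t + (-32)*d^(2:ℕ)*t^(2:ℕ) + (-28)*d^(2:ℕ)*t^(3:ℕ) + 36*d^(2:ℕ)*t^(4:ℕ) + 25*d^(2:ℕ)*t^(5:ℕ) + 113*d^(2:ℕ)*t^(6:ℕ) + 48*d^(2:ℕ)*t^(7:ℕ) + 70*d^(2:ℕ)*t^(8:ℕ) + 5*d^(2:ℕ)*t^(9:ℕ) + 9*d^(2:ℕ)*t^(10:ℕ)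 + (-6)*d^(2:ℕ)*t^(11:ℕ) + (-41)*d^(3:ℕ)*t^(2:ℕ) + (-48)*d^(3:ℕ)*t^(3:ℕ) + (-55)*d^(3:ℕ)*t^(4:ℕ) + (-31)*d^(3:ℕ)*t^(5:ℕ) + 51*d^(3:ℕ)*t^(6:ℕ) + (-14)*d^(3:ℕ)*t^(7:ℕ) + 81*d^(3:ℕ)*t^(8:ℕ) + (-43)*d^(3:ℕ)*t^(9:ℕ) + 16*d^(3:ℕ)*t^(10:ℕ) + (-12)*d^(3:ℕ)*t^(11:ℕ) + 32*d^(4:ℕ)*t^(2:ℕ) + (-16)*d^(4:ℕ)*t^(3:ℕ) + 4*d^(4:ℕ)*t^(4:ℕ) + 22*d^(4:ℕ)*t^(5:ℕ) + (-24)*d^(4:ℕ)*t^(6:ℕ) + 28*d^(4:ℕ)*t^(7:ℕ) + 12*d^(4:ℕ)*t^(8:ℕ) + (-18)*d^(4:ℕ)*t^(9:ℕ) + 8*d^(4:ℕ)*t^(10:ℕ) + (-8)*d^(4:ℕ)*t^(11:ℕ) + (-32)*d^(5:ℕ)*t^(2:ℕ) + (167/4)*d^(5:ℕ)*t^(3:ℕ) + (-12)*d^(5:ℕ)*t^(4:ℕ) + (-79/2)*d^(5:ℕ)*t^(5:ℕ) + (121/2)*d^(5:ℕ)*t^(6:ℕ) + (-261/4)*d^(5:ℕ)*t^(7:ℕ)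 + (87/2)*d^(5:ℕ)*t^(8:ℕ) + (-61/4)*d^(5:ℕ)*t^(9:ℕ) + 3*d^(5:ℕ)*t^(10:ℕ) + (-1)*d^(5:ℕ)*t^(11:ℕ) + 10*d^(6:ℕ)*t^(5:ℕ) + (-31)*d^(6:ℕ)*t^(6:ℕ) + 40*d^(6:ℕ)*t^(7:ℕ) + (-19)*d^(6:ℕ)*t^(8:ℕ) + (-7)*d^(6:ℕ)*t^(9:ℕ) + 12*d^(6:ℕ)*t^(10:ℕ) + (-4)*d^(6:ℕ)*t^(11:ℕ) + (-4)*d^(7:ℕ)*t^(7:ℕ) + 12*d^(7:ℕ)*t^(8:ℕ) + (-17)*d^(7:ℕ)*t^(9:ℕ) + 12*d^(7:ℕ)*t^(10:ℕ) + (-4)*d^(7:ℕ)*t^(11:ℕ)) / (t * (1 + t ^ 2) ^ 4) := by positivity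
  linarith

lemma L2e_ok (d t : ℝ) (hd : 0 < d) (hd1 : d ≤ (1/7)) (ht : 0 < t) (ht1 : t ≤ 1) :
    (-2 * d * (1 / 2 - Y d t) + bb d t * (-fh d t) + (1 + d) * (t + 2 * (1 + t) * eta0 d)) ^ 2
      < 4 * (1 + 4 * d) * (1 / 2 + -X d t) * ((1 + 2 * d) * (1 / 2 - Y d t) - ab d t * (-fh d t))
        + 4 * (1 + 4 * d) * (1 / 2 + -X d t) * (-fh d t) * (t + 2 * (1 + t) * eta0 d) := by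
  have h2 : (1 + t ^ 2) ≠ 0 := by positivity
  have ht0 : t ≠ 0 := ht.ne'
  have hW : (1 + (1/5) * d) ≠ 0 := by positivity
  have hp := pos_L2e d t hd.le hd1 ht.le ht1
  have key : 4 * (1 + 4 * d) * (1 / 2 + -X d t) * ((1 + 2 * d) * (1 / 2 - Y d t) - ab d t * (-fh d t))
        + 4 * (1 + 4 * d) * (1 / 2 + -X d t) * (-fh d t) * (t + 2 * (1 + t) * eta0 d)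
        - (-2 * d * (1 / 2 - Y d t) + bb d t * (-fh d t) + (1 + d) * (t + 2 * (1 + t) * eta0 d)) ^ 2
      = d ^ 2 * ((2/5) + (-3/5)*t + (7/2)*t^(2:ℕ) + (-3)*t^(3:ℕ) + 10*t^(4:ℕ) + (-6)*t^(5:ℕ) + 13*t^(6:ℕ) + (-6)*t^(7:ℕ) + 8*t^(8:ℕ) + (-3)*t^(9:ℕ) + (19/10)*t^(10:ℕ) + (-3/5)*t^(11:ℕ) + (22/25)*d + (-68/25)*d*t + (-29/5)*d*t^(2:ℕ) + (-11)*d*t^(3:ℕ) + (67/5)*d*t^(4:ℕ) + (-22/5)*d*t^(5:ℕ) + (284/5)*d*t^(6:ℕ) + (-47/5)*d*t^(7:ℕ) + (229/5)*d*t^(8:ℕ) + (-20)*d*t^(9:ℕ) + (227/25)*d*t^(10:ℕ) + (-168/25)*d*t^(11:ℕ) + (-76/25)*d^(2:ℕ) + (-157/25)*d^(2:ℕ)*t + (-2791/50)*d^(2:ℕ)*t^(2:ℕ) + (-1062/25)*d^(2:ℕ)*t^(3:ℕ) +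 (-56)*d^(2:ℕ)*t^(4:ℕ) + (94/25)*d^(2:ℕ)*t^(5:ℕ) + (2143/25)*d^(2:ℕ)*t^(6:ℕ) + (-241/25)*d^(2:ℕ)*t^(7:ℕ) + (2734/25)*d^(2:ℕ)*t^(8:ℕ) + (-1967/25)*d^(2:ℕ)*t^(9:ℕ) + (1021/50)*d^(2:ℕ)*t^(10:ℕ) + (-727/25)*d^(2:ℕ)*t^(11:ℕ) + (-16/25)*d^(3:ℕ) + (-16/25)*d^(3:ℕ)*t + (298/25)*d^(3:ℕ)*t^(2:ℕ) + (-728/25)*d^(3:ℕ)*t^(3:ℕ) + (-1114/25)*d^(3:ℕ)*t^(4:ℕ) + (189/5)*d^(3:ℕ)*t^(5:ℕ) + (-817/25)*d^(3:ℕ)*t^(6:ℕ) + (668/25)*d^(3:ℕ)*t^(7:ℕ) + (272/5)*d^(3:ℕ)*t^(8:ℕ) + (-83)*d^(3:ℕ)*t^(9:ℕ) + (749/25)*d^(3:ℕ)*t^(10:ℕ) + (-1086/25)*d^(3:ℕ)*t^(11:ℕ) + (269/25)*d^(4:ℕ)*t^(2:ℕ) + (1783/100)*d^(4:ℕ)*t^(3:ℕ) + (27/5)*d^(4:ℕ)*t^(4:ℕ)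 + (-837/50)*d^(4:ℕ)*t^(5:ℕ) + (447/50)*d^(4:ℕ)*t^(6:ℕ) + (-701/100)*d^(4:ℕ)*t^(7:ℕ) + (1797/50)*d^(4:ℕ)*t^(8:ℕ) + (-3697/100)*d^(4:ℕ)*t^(9:ℕ) + (541/25)*d^(4:ℕ)*t^(10:ℕ) + (-857/25)*d^(4:ℕ)*t^(11:ℕ) + (-128/25)*d^(5:ℕ)*t^(2:ℕ) + (643/50)*d^(5:ℕ)*t^(3:ℕ) + (4/25)*d^(5:ℕ)*t^(4:ℕ) + (-63/25)*d^(5:ℕ)*t^(5:ℕ) + (-374/25)*d^(5:ℕ)*t^(6:ℕ) + (1231/50)*d^(5:ℕ)*t^(7:ℕ) + (-108/25)*d^(5:ℕ)*t^(8:ℕ) + (-731/50)*d^(5:ℕ)*t^(9:ℕ) + (398/25)*d^(5:ℕ)*t^(10:ℕ) + (-238/25)*d^(5:ℕ)*t^(11:ℕ) + (-32/25)*d^(6:ℕ)*t^(2:ℕ) + (167/100)*d^(6:ℕ)*t^(3:ℕ) + (-12/25)*d^(6:ℕ)*t^(4:ℕ) + (121/50)*d^(6:ℕ)*t^(5:ℕ) + (-499/50)*d^(6:ℕ)*t^(6:ℕ) +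 (939/100)*d^(6:ℕ)*t^(7:ℕ) + (307/50)*d^(6:ℕ)*t^(8:ℕ) + (-2041/100)*d^(6:ℕ)*t^(9:ℕ) + (423/25)*d^(6:ℕ)*t^(10:ℕ) + (-141/25)*d^(6:ℕ)*t^(11:ℕ) + (2/5)*d^(7:ℕ)*t^(5:ℕ) + (-31/25)*d^(7:ℕ)*t^(6:ℕ) + (101/25)*d^(7:ℕ)*t^(8:ℕ) + (-177/25)*d^(7:ℕ)*t^(9:ℕ) + (132/25)*d^(7:ℕ)*t^(10:ℕ) + (-44/25)*d^(7:ℕ)*t^(11:ℕ) + (-4/25)*d^(8:ℕ)*t^(7:ℕ) + (12/25)*d^(8:ℕ)*t^(8:ℕ) + (-17/25)*d^(8:ℕ)*t^(9:ℕ) + (12/25)*d^(8:ℕ)*t^(10:ℕ) + (-4/25)*d^(8:ℕ)*t^(11:ℕ)) / (t * (1 + t ^ 2) ^ 4 * (1 + (1/5) * d) ^ 2) := by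
    simp only [ab, bb, X, Y, fh, sg, eta0]
    field_simp
    ring
  have hq : 0 < d ^ 2 * ((2/5) + (-3/5)*t + (7/2)*t^(2:ℕ) + (-3)*t^(3:ℕ) + 10*t^(4:ℕ) + (-6)*t^(5:ℕ) + 13*t^(6:ℕ) + (-6)*t^(7:ℕ) + 8*t^(8:ℕ) + (-3)*t^(9:ℕ) + (19/10)*t^(10:ℕ) + (-3/5)*t^(11:ℕ) + (22/25)*d + (-68/25)*d*t + (-29/5)*d*t^(2:ℕ) + (-11)*d*t^(3:ℕ) + (67/5)*d*t^(4:ℕ) + (-22/5)*d*t^(5:ℕ) + (284/5)*d*t^(6:ℕ) + (-47/5)*d*t^(7:ℕ) + (229/5)*d*t^(8:ℕ) + (-20)*d*t^(9:ℕ) + (227/25)*d*t^(10:ℕ) + (-168/25)*d*t^(11:ℕ) + (-76/25)*d^(2:ℕ) + (-157/25)*d^(2:ℕ)*t + (-2791/50)*d^(2:ℕ)*t^(2:ℕ) + (-1062/25)*d^(2:ℕ)*t^(3:ℕ) + (-56)*d^(2:ℕ)*t^(4:ℕ) + (94/25)*d^(2:ℕ)*t^(5:ℕ)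 + (2143/25)*d^(2:ℕ)*t^(6:ℕ) + (-241/25)*d^(2:ℕ)*t^(7:ℕ) + (2734/25)*d^(2:ℕ)*t^(8:ℕ) + (-1967/25)*d^(2:ℕ)*t^(9:ℕ) + (1021/50)*d^(2:ℕ)*t^(10:ℕ) + (-727/25)*d^(2:ℕ)*t^(11:ℕ) + (-16/25)*d^(3:ℕ) + (-16/25)*d^(3:ℕ)*t + (298/25)*d^(3:ℕ)*t^(2:ℕ) + (-728/25)*d^(3:ℕ)*t^(3:ℕ) + (-1114/25)*d^(3:ℕ)*t^(4:ℕ) + (189/5)*d^(3:ℕ)*t^(5:ℕ) + (-817/25)*d^(3:ℕ)*t^(6:ℕ) + (668/25)*d^(3:ℕ)*t^(7:ℕ) + (272/5)*d^(3:ℕ)*t^(8:ℕ) + (-83)*d^(3:ℕ)*t^(9:ℕ) + (749/25)*d^(3:ℕ)*t^(10:ℕ) + (-1086/25)*d^(3:ℕ)*t^(11:ℕ) + (269/25)*d^(4:ℕ)*t^(2:ℕ) + (1783/100)*d^(4:ℕ)*t^(3:ℕ) + (27/5)*d^(4:ℕ)*t^(4:ℕ) + (-837/50)*d^(4:ℕ)*t^(5:ℕ) + (447/50)*d^(4:ℕ)*t^(6:ℕ)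 + (-701/100)*d^(4:ℕ)*t^(7:ℕ) + (1797/50)*d^(4:ℕ)*t^(8:ℕ) + (-3697/100)*d^(4:ℕ)*t^(9:ℕ) + (541/25)*d^(4:ℕ)*t^(10:ℕ) + (-857/25)*d^(4:ℕ)*t^(11:ℕ) + (-128/25)*d^(5:ℕ)*t^(2:ℕ) + (643/50)*d^(5:ℕ)*t^(3:ℕ) + (4/25)*d^(5:ℕ)*t^(4:ℕ) + (-63/25)*d^(5:ℕ)*t^(5:ℕ) + (-374/25)*d^(5:ℕ)*t^(6:ℕ) + (1231/50)*d^(5:ℕ)*t^(7:ℕ) + (-108/25)*d^(5:ℕ)*t^(8:ℕ) + (-731/50)*d^(5:ℕ)*t^(9:ℕ) + (398/25)*d^(5:ℕ)*t^(10:ℕ) + (-238/25)*d^(5:ℕ)*t^(11:ℕ) + (-32/25)*d^(6:ℕ)*t^(2:ℕ) + (167/100)*d^(6:ℕ)*t^(3:ℕ) + (-12/25)*d^(6:ℕ)*t^(4:ℕ) + (121/50)*d^(6:ℕ)*t^(5:ℕ) + (-499/50)*d^(6:ℕ)*t^(6:ℕ) + (939/100)*d^(6:ℕ)*t^(7:ℕ) + (307/50)*d^(6:ℕ)*t^(8:ℕ) +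 (-2041/100)*d^(6:ℕ)*t^(9:ℕ) + (423/25)*d^(6:ℕ)*t^(10:ℕ) + (-141/25)*d^(6:ℕ)*t^(11:ℕ) + (2/5)*d^(7:ℕ)*t^(5:ℕ) + (-31/25)*d^(7:ℕ)*t^(6:ℕ) + (101/25)*d^(7:ℕ)*t^(8:ℕ) + (-177/25)*d^(7:ℕ)*t^(9:ℕ) + (132/25)*d^(7:ℕ)*t^(10:ℕ) + (-44/25)*d^(7:ℕ)*t^(11:ℕ) + (-4/25)*d^(8:ℕ)*t^(7:ℕ) + (12/25)*d^(8:ℕ)*t^(8:ℕ) + (-17/25)*d^(8:ℕ)*t^(9:ℕ) + (12/25)*d^(8:ℕ)*t^(10:ℕ) + (-4/25)*d^(8:ℕ)*t^(11:ℕ)) / (t * (1 + t ^ 2) ^ 4 * (1 + (1/5) * d) ^ 2) := by positivity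
  linarith

end Vale.Agent.Lib.P100.AB.V1
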