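import Vale.Agent.Lib.P100.AB.V2Defs

namespace Vale.Agent.Lib.P100.BP

theorem chk1_E1 : certCheck (bdiv 0 0 pE1) 1 1
  [[799, 5593, 17579, 31965, 35965, 24779, 9593, 1599],
  [959, 6713, 20779, 36685, 39805, 26379, 9913, 1599]]
  bU1 bU2 bV1 bV2 = true := by
  decide +kernel

theorem chk1_E2 : certCheck (bdiv 0 0 pE2) 1 1
  [[799, 3196, 5594, 4796, 1599],
  [559, 2396, 4634, 4476, 1599]]
  bU1 bU2 bV1 bV2 = true := by
  decide +kernel

theorem chk1_pa : certCheck (bdiv 0 0 pa) 1 1
  [[799, 4794, 12785, 19180, 16785, 7994, 1599],
  [639, 3834, 10385, 16060, 14545, 7194, 1439]]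
  bU1 bU2 bV1 bV2 = true := by
  decide +kernel

theorem chk1_pb : certCheck (bdiv 0 0 pb) 1 1
  [[799, 3196, 5594, 4796, 1599],
  [799, 3116, 5274, 4316, 1439]]
  bU1 bU2 bV1 bV2 = true := by
  decide +kernel

theorem chk1_low : certCheck (bdiv 1 1 pLow) 1 1
  [[1599, 8795, 20790, 23990, 14395, 3199]]
  bU1 bU2 bV1 bV2 = true := by
  decide +kernel

theorem chk1_r1 : certCheck (bdiv 1 2 pR1) 1 1
  [[2559999, 31999988, 184319934, 648959780, 1556479505, 2676479208, 3376639076, 3139839208, 2127359505, 1018879780, 325119934, 61439988, 5119999],
  [5631998, 70399976, 404223868, 1414143560, 3360895010, 5715326416, 7121854152, 6537982416, 4374015010, 2069759560, 652799868, 121855976, 9983998],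
  [3071999, 38399988, 219878334, 764927780, 1803289105, 3035954408, 3740395876, 3392690408, 2242380305, 1048550180, 326809534, 60211188, 4838399]]
  bU1 bU2 bV1 bV2 = true := by
  decide +kernel

theorem chk1_r6 : certCheck (bdiv 1 0 pR6) 1 1
  [[2559999, 19199992, 66559972, 136959944, 181759930, 158719944, 89599972, 30719992, 5119999],
  [3775998, 28927984, 103359944, 220671888, 304895860, 277247888, 162559944, 57855984, 9983998],
  [1158399, 9305592, 35411172, 81075144, 120012730, 116198344, 71910372, 26879992, 4838399]]
  bU1 bU2 bV1 bV2 = true := by
  decide +kernel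

theorem chk1_r3 : certCheck (bdiv 1 0 pR3) 125 125
  [[639999875, 11839997750, 105599980875, 602559898000, 2462079617500, 7641278929000, 18647037679500, 36543036022000, 58236154530250, 75948793922500, 81157754530250, 70812156022000, 50022397679500, 28195838929000, 12395519617500, 4101119898000, 962559980875, 143359997750, 10239999875],
  [3191999375, 59103988750, 527455904375, 3010751490000, 12303790087500, 38184666645000, 93165844397500, 182526668110000, 290771796651250, 379046529612500, 404853444651250, 353073196110000, 249293684397500, 140452474645000, 61719358087500, 20412415490000, 4789503904375, 713215988750, 50943999375],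
  [6382398750, 118187945500, 1054789824750, 6020736356000, 24602095823000, 76338299402000, 186206331419000, 364684047996000, 580723998294500, 756689841817000, 807827495830500, 704166102364000, 496949031963000, 279851279658000, 122922308239000, 40638524676000, 9532437056750, 1419271145500, 101376510750],
  [6388718750, 118260950300, 1055166690286, 6021550700576, 24599813287192, 76311371466768, 186083932318008, 364315700891488, 579906308571236, 755294350699304, 805962611461156, 702202136821856, 495322775595768, 278803606175504, 122407852039512, 40452623267488, 9485915714798, 1412117477916, 100865534494],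
  [3198239375, 59175758350, 527807771767, 3011209863632, 12298483117644, 38141025490696, 92978633134396, 181972774365616, 289548977040882, 376962694236628, 402068431348082, 350138206365872, 246861254407356, 138884082503688, 60948613102284, 20133734608336, 4719735941751, 702485485582, 50177534863],
  [639919875, 11838762550, 105574752331, 602201162256, 2459039516252, 7624510413928, 18582090502988, 36357249766128, 57830708534346, 75260138163524, 80237398652426, 69841012933616, 49216181662988, 27675111054184, 12139229910172, 4008340424848, 939313360203, 139783162166, 9984511619]]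
  bU1 bU2 bV1 bV2 = true := by
  decide +kernel

end Vale.Agent.Lib.P100.BP
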