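import Vale.Agent.Lib.P100.AB.V2Defs

namespace Vale.Agent.Lib.P100.BP

theorem fac_E1 : bchk 0 0 pE1 = true := by
  decide +kernel

theorem fac_E2 : bchk 0 0 pE2 = true := by
  decide +kernel

theorem fac_pa : bchk 0 0 pa = true := by
  decide +kernel

theorem fac_pb : bchk 0 0 pb = true := by
  decide +kernel

theorem fac_low : bchk 1 1 pLow = true := by
  decide +kernel

theorem fac_r1 : bchk 1 2 pR1 = true := by
  decide +kernel

theorem fac_r6 : bchk 1 0 pR6 = true := by
  decide +kernel

theorem fac_r3 : bchk 1 0 pR3 = true := by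
  decide +kernel

theorem fac_dp : bchk 4 2 pDP = true := by
  decide +kernel

theorem fac_L10 : bchk 1 0 pL10 = true := by
  decide +kernel

theorem fac_L20 : bchk 1 1 pL20 = true := by
  decide +kernel

theorem fac_L1e : bchk 2 0 pL1e = true := by
  decide +kernel

theorem fac_L2e : bchk 2 1 pL2e = true := by
  decide +kernel

end Vale.Agent.Lib.P100.BP
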