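import Vale.Agent.Lib.P100.AB.Base
import Vale.Agent.Lib.P100.LapForm
import Vale.Agent.Lib.P100.AB.V2Fac
import Vale.Agent.Lib.P100.AB.V2CA1
import Vale.Agent.Lib.P100.AB.V2CB1
import Vale.Agent.Lib.P100.AB.V2CC1

/-!
# P100: nonexistence at distance `1/50 + 3/(4 (n-2))` from the critical hyperbola for `n >= 9`.

The design is given by integer polynomials (`V2Defs`); the positivity of the thirteen polynomials that
appear is checked by Bernstein coefficients through the Boolean test of `BP`.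
-/

open InnerProductSpace Laplacian

noncomputable section

namespace Vale.Agent.Lib.P100.AB.V2

open Vale.Agent.Lib.P100 Vale.Agent.Lib.P100.AB Vale.Agent.Lib.P100.BP

/-- the region of parameters -/
def Dom (d t : ℝ) : Prop := 0 < d ∧ d ≤ 1 / 10 ∧ 0 < t ∧ t ≤ 1

lemma Dom.d_pos {d t : ℝ} (h : Dom d t) : 0 < d := h.1

lemma Dom.t_pos {d t : ℝ} (h : Dom d t) : 0 < t := h.2.2.1

lemma pos_of_cert {P : BPol} {k l : ℕ} {κ1 e1 : ℤ} {B1 : List (List ℤ)}
    (hf : bchk k l P = true)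
    (h1 : certCheck (bdiv k l P) κ1 e1 B1 bU1 bU2 bV1 bV2 = true)
    {d t : ℝ} (hD : Dom d t) : 0 < beval P d t := by
  rw [beval_bdiv hf]
  have hd := hD.d_pos
  have ht := hD.t_pos
  apply mul_pos (by positivity)
  obtain ⟨h1', h2', h3', h4'⟩ := hD
  refine cert_pos h1 ?_ ?_ ?_ ?_
  · simp only [bU1, ueval_cons, ueval_nil]; push_cast; nlinarith
  · simp only [bU2, ueval_cons, ueval_nil]; push_cast; nlinarith
  · simp only [bV1, ueval_cons, ueval_nil]; push_cast; nlinarith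
  · simp only [bV2, ueval_cons, ueval_nil]; push_cast; nlinarith

lemma pos_E1 {d t : ℝ} (h : Dom d t) : 0 < beval pE1 d t := pos_of_cert fac_E1 chk1_E1 h
lemma pos_E2 {d t : ℝ} (h : Dom d t) : 0 < beval pE2 d t := pos_of_cert fac_E2 chk1_E2 h
lemma pos_a {d t : ℝ} (h : Dom d t) : 0 < beval pa d t := pos_of_cert fac_pa chk1_pa h
lemma pos_b {d t : ℝ} (h : Dom d t) : 0 < beval pb d t := pos_of_cert fac_pb chk1_pb h
lemma pos_low {d t : ℝ} (h : Dom d t) : 0 < beval pLow d t := pos_of_cert fac_low chk1_low h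
lemma pos_r1 {d t : ℝ} (h : Dom d t) : 0 < beval pR1 d t := pos_of_cert fac_r1 chk1_r1 h
lemma pos_r6 {d t : ℝ} (h : Dom d t) : 0 < beval pR6 d t := pos_of_cert fac_r6 chk1_r6 h
lemma pos_r3 {d t : ℝ} (h : Dom d t) : 0 < beval pR3 d t := pos_of_cert fac_r3 chk1_r3 h
lemma pos_dp {d t : ℝ} (h : Dom d t) : 0 < beval pDP d t := pos_of_cert fac_dp chk1_dp h
lemma pos_L10 {d t : ℝ} (h : Dom d t) : 0 < beval pL10 d t := pos_of_cert fac_L10 chk1_L10 h
lemma pos_L20 {d t : ℝ} (h : Dom d t) : 0 < beval pL20 d t := pos_of_cert fac_L20 chk1_L20 h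
lemma pos_L1e {d t : ℝ} (h : Dom d t) : 0 < beval pL1e d t := pos_of_cert fac_L1e chk1_L1e h
lemma pos_L2e {d t : ℝ} (h : Dom d t) : 0 < beval pL2e d t := pos_of_cert fac_L2e chk1_L2e h

/-! ### evaluation of the composite polynomials -/

lemma beval_r1B (A X : BPol) (d t : ℝ) : beval (r1B A X) d t =
    d * (2 * (800 * (1 + t ^ 2)) + 2 * beval X d t + beval A d t) ^ 2
      - (1 + 2 * d) * (2 * (800 * (1 + t ^ 2)) * beval A d t + 4 * beval X d t ^ 2 + beval A d t ^ 2) := by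
  simp only [r1B, beval_bsub, beval_bmul, beval_badd, beval_bscale, beval_bvd, beval_pZD, beval_pe]
  push_cast
  ring

lemma beval_r2B (A B X Y : BPol) (d t : ℝ) : beval (r2B A B X Y) d t =
    (1 + 2 * d) * ((800 * (1 + t ^ 2) * (1 + t ^ 2) - 2 * beval Y d t) * (800 * (1 + t ^ 2) + beval A d t)
        - (800 * (1 + t ^ 2) + 2 * beval X d t) * (800 * (1 + t ^ 2) - beval B d t) * (1 + t ^ 2))
      + (1 + d) * (2 * (800 * (1 + t ^ 2)) + 2 * beval X d t + beval A d t)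
        * (2 * beval Y d t - beval B d t * (1 + t ^ 2)) := by
  simp only [r2B, beval_bsub, beval_bmul, beval_badd, beval_bscale, beval_pZD, beval_pe, beval_pe1,
    beval_pD]
  push_cast
  ring

lemma beval_sqA (A B Y1 Y2 : BPol) (d t : ℝ) : beval (sqA A B Y1 Y2) d t =
    (2 * beval Y1 d t - beval B d t * (1 + t ^ 2)) ^ 2
      + (2 * beval Y2 d t - beval A d t * (1 + t ^ 2)) ^ 2 := by
  simp only [sqA, beval_bsub, beval_bmul, beval_badd, beval_bscale, beval_pD]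
  push_cast
  ring

lemma beval_r3B (A B Y1 Y2 : BPol) (d t : ℝ) : beval (r3B A B Y1 Y2) d t =
    4 * (1 + t ^ 2) * ((800 * (1 + t ^ 2) * (1 + t ^ 2) - 2 * beval Y1 d t) * beval B d t
        + (800 * (1 + t ^ 2) * (1 + t ^ 2) - 2 * beval Y2 d t) * beval A d t)
      - ((2 * beval Y1 d t - beval B d t * (1 + t ^ 2)) ^ 2
        + (2 * beval Y2 d t - beval A d t * (1 + t ^ 2)) ^ 2) := by
  simp only [r3B, beval_bsub, beval_bmul, beval_badd, beval_bscale, beval_pZD, beval_pD, beval_sqA]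
  push_cast
  ring

lemma beval_r34B (A B Y1 Y2 : BPol) (d t : ℝ) : beval (r34B A B Y1 Y2) d t =
    (1 + 2 * d) * beval (r3B A B Y1 Y2) d t
      - ((2 * beval Y1 d t - beval B d t * (1 + t ^ 2)) ^ 2
        + (2 * beval Y2 d t - beval A d t * (1 + t ^ 2)) ^ 2) := by
  simp only [r34B, beval_bsub, beval_bmul, beval_pe, beval_sqA]

lemma beval_dpB (A B X1 X2 Y1 Y2 : BPol) (d t : ℝ) : beval (dpB A B X1 X2 Y1 Y2) d t =
    beval (r34B A B Y1 Y2) d t * (beval (r1B A X1) d t * beval (r1B B X2) d t)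
      - 2 * (beval (r2B A B X1 Y1) d t ^ 2 * beval (r1B B X2) d t
        + beval (r2B B A X2 Y2) d t ^ 2 * beval (r1B A X1) d t) := by
  simp only [dpB, beval_bsub, beval_bmul, beval_badd, beval_bscale]
  push_cast
  ring

lemma beval_pZZDD (d t : ℝ) : beval pZZDD d t = (800 * (1 + t ^ 2)) * (800 * (1 + t ^ 2)) := by
  simp only [pZZDD, beval_bmul, beval_pZD]

lemma beval_l1B (W Pn : BPol) (d t : ℝ) : beval (l1B W Pn) d t =
    (1 + 4 * d) * (800 * (1 + t ^ 2) + 2 * beval pX1 d t)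
        * ((1 + 2 * d) * (800 * (1 + t ^ 2) * (1 + t ^ 2) - 2 * beval pY2 d t) * (800 * beval W d t) * (t * t)
          - 2 * (beval pB d t * beval pH d t * (1 + t ^ 2) * beval W d t * t)
          + 2 * (beval pH d t * beval Pn d t * (800 * (1 + t ^ 2)) * (1 + t ^ 2)))
        * (800 * (1 + t ^ 2) * beval W d t)
      - (2 * (d * beval pY1 d t * (800 * beval W d t) * t)
          - d * ((800 * (1 + t ^ 2)) * (800 * (1 + t ^ 2))) * beval W d t * t
          + (beval pA d t * beval pH d t * (1 + t ^ 2) * beval W d t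
            + (1 + d) * beval Pn d t * ((800 * (1 + t ^ 2)) * (800 * (1 + t ^ 2))))) ^ 2 := by
  simp only [l1B, a1B, t1B, beval_bsub, beval_bmul, beval_badd, beval_bscale, beval_pZD, beval_pD,
    beval_pe, beval_pe1, beval_pe4, beval_pZZDD, beval_bvd, beval_bvt]
  push_cast
  ring

lemma beval_l2B (W Qn : BPol) (d t : ℝ) : beval (l2B W Qn) d t =
    (1 + 4 * d) * (800 * (1 + t ^ 2) + 2 * beval pX2 d t)
        * ((1 + 2 * d) * (800 * (1 + t ^ 2) * (1 + t ^ 2) - 2 * beval pY1 d t) * (800 * beval W d t) * t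
          + (2 * (beval pA d t * beval pH d t * (1 + t ^ 2) * beval W d t)
          - 2 * (beval pH d t * beval Qn d t * (800 * (1 + t ^ 2)) * (1 + t ^ 2))))
        * (800 * (1 + t ^ 2) * beval W d t) * t
      - (2 * (d * beval pY2 d t * (800 * beval W d t) * t)
          - d * ((800 * (1 + t ^ 2)) * (800 * (1 + t ^ 2))) * beval W d t * t
          + ((1 + d) * beval Qn d t * ((800 * (1 + t ^ 2)) * (800 * (1 + t ^ 2))) * t
            - beval pB d t * beval pH d t * (1 + t ^ 2) * beval W d t)) ^ 2 := by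
  simp only [l2B, a2B, t2B, beval_bsub, beval_bmul, beval_badd, beval_bscale, beval_pZD, beval_pD,
    beval_pe, beval_pe1, beval_pe4, beval_pZZDD, beval_bvd, beval_bvt]
  push_cast
  ring

/-! ### the coefficients in closed form -/

lemma R1_eq {d D a x : ℝ} (hd : 0 < d) (hD : 0 < D) :
    R1 (d / (1 + 2 * d)) (a / (800 * D)) (x / (800 * D)) =
      (d * (2 * (800 * D) + 2 * x + a) ^ 2 - (1 + 2 * d) * (2 * (800 * D) * a + 4 * x ^ 2 + a ^ 2))
        / (4 * (800 ^ 2 * (1 + 2 * d)) * D ^ 2) := by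
  have he : (1 + 2 * d) ≠ 0 := by positivity
  have hD0 : D ≠ 0 := hD.ne'
  unfold R1
  field_simp
  ring

lemma R2_eq {d D a b x y : ℝ} (hd : 0 < d) (hD : 0 < D) :
    R2 (d / (1 + 2 * d)) (a / (800 * D)) (b / (800 * D)) (x / (800 * D)) (y / (800 * D ^ 2)) =
      ((1 + 2 * d) * ((800 * D * D - 2 * y) * (800 * D + a) - (800 * D + 2 * x) * (800 * D - b) * D)
        + (1 + d) * (2 * (800 * D) + 2 * x + a) * (2 * y - b * D))
        / (2 * (800 ^ 2 * (1 + 2 * d)) * D ^ 3) := by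
  have he : (1 + 2 * d) ≠ 0 := by positivity
  have hD0 : D ≠ 0 := hD.ne'
  unfold R2
  field_simp
  ring

lemma R3_eq {D a b y1 y2 : ℝ} (hD : 0 < D) :
    R3 (a / (800 * D)) (b / (800 * D)) (y1 / (800 * D ^ 2)) (y2 / (800 * D ^ 2)) =
      (4 * D * ((800 * D * D - 2 * y1) * b + (800 * D * D - 2 * y2) * a)
        - ((2 * y1 - b * D) ^ 2 + (2 * y2 - a * D) ^ 2)) / (8 * 800 ^ 2 * D ^ 4) := by
  have hD0 : D ≠ 0 := hD.ne'
  unfold R3
  field_simp
  ring

lemma R4_eq {d D a b y1 y2 : ℝ} (hd : 0 < d) (hD : 0 < D) :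
    R4 (d / (1 + 2 * d)) (a / (800 * D)) (b / (800 * D)) (y1 / (800 * D ^ 2)) (y2 / (800 * D ^ 2)) =
      -((2 * y1 - b * D) ^ 2 + (2 * y2 - a * D) ^ 2) / (8 * 800 ^ 2 * (1 + 2 * d) * D ^ 4) := by
  have he : (1 + 2 * d) ≠ 0 := by positivity
  have hD0 : D ≠ 0 := hD.ne'
  unfold R4
  field_simp
  ring

/-- the discriminant, in scaled form -/
lemma disc_scaled {S D r1 r6 r2 r5 r34 : ℝ} (hS : 0 < S) (hD : 0 < D)
    (h : 0 < r34 * (r1 * r6) - 2 * (r2 ^ 2 * r6 + r5 ^ 2 * r1)) :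
    (r2 / (2 * S * D ^ 3)) ^ 2 * (r6 / (4 * S * D ^ 2)) + (r5 / (2 * S * D ^ 3)) ^ 2 * (r1 / (4 * S * D ^ 2))
      < 4 * (r34 / (8 * S * D ^ 4)) * (r1 / (4 * S * D ^ 2)) * (r6 / (4 * S * D ^ 2)) := by
  have hS0 : S ≠ 0 := hS.ne'
  have hD0 : D ≠ 0 := hD.ne'
  have key : 4 * (r34 / (8 * S * D ^ 4)) * (r1 / (4 * S * D ^ 2)) * (r6 / (4 * S * D ^ 2))
      - ((r2 / (2 * S * D ^ 3)) ^ 2 * (r6 / (4 * S * D ^ 2))
        + (r5 / (2 * S * D ^ 3)) ^ 2 * (r1 / (4 * S * D ^ 2)))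
      = (r34 * (r1 * r6) - 2 * (r2 ^ 2 * r6 + r5 ^ 2 * r1)) / (32 * S ^ 3 * D ^ 8) := by
    field_simp
    ring
  have : 0 < (r34 * (r1 * r6) - 2 * (r2 ^ 2 * r6 + r5 ^ 2 * r1)) / (32 * S ^ 3 * D ^ 8) := by
    positivity
  linarith

/-- passing from the scaled discriminant to the one with `n = 2 + 1/d` -/
lemma L_scaled {d p F1 F2 E a' b' fh n : ℝ} (hd : 0 < d) (hn : n = 2 + 1 / d)
    (hs : (-2 * d * F1 + a' * fh + (1 + d) * p) ^ 2
      < 4 * (1 + 4 * d) * E * ((1 + 2 * d) * F2 - b' * fh) + 4 * (1 + 4 * d) * E * fh * p) :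
    ((2 / n * F1 - (1 - 1 / n) * p - (fh / (1 + 2 * d)) * a') / 2) ^ 2
      < ((1 + 2 / n) * E) * (F2 + (fh / (1 + 2 * d)) * (p - b')) := by
  have he : (1 + 2 * d) ≠ 0 := by positivity
  have hd0 : d ≠ 0 := hd.ne'
  have h1 : 1 / n = d / (1 + 2 * d) := by
    rw [hn]; field_simp; ring
  have h2 : 2 / n = 2 * d / (1 + 2 * d) := by
    rw [hn]; field_simp; ring
  have eL : ((2 / n * F1 - (1 - 1 / n) * p - (fh / (1 + 2 * d)) * a') / 2) ^ 2
      = (-2 * d * F1 + a' * fh + (1 + d) * p) ^ 2 / (4 * (1 + 2 * d) ^ 2) := by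
    rw [h1, h2]; field_simp; ring
  have eR : ((1 + 2 / n) * E) * (F2 + (fh / (1 + 2 * d)) * (p - b'))
      = (4 * (1 + 4 * d) * E * ((1 + 2 * d) * F2 - b' * fh) + 4 * (1 + 4 * d) * E * fh * p)
        / (4 * (1 + 2 * d) ^ 2) := by
    rw [h2]; field_simp; ring
  rw [eL, eR]
  exact div_lt_div_of_pos_right hs (by positivity)

/-- first scaled discriminant from its integer form -/
lemma L1_real {d t D a b x y1 y2 H W Pn : ℝ} (ht : 0 < t) (hD : 0 < D) (hW : 0 < W)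
    (hL : 0 < (1 + 4 * d) * (800 * D + 2 * x)
        * ((1 + 2 * d) * (800 * D * D - 2 * y2) * (800 * W) * (t * t)
          - 2 * (b * H * D * W * t) + 2 * (H * Pn * (800 * D) * D)) * (800 * D * W)
      - (2 * (d * y1 * (800 * W) * t) - d * ((800 * D) * (800 * D)) * W * t
          + (a * H * D * W + (1 + d) * Pn * ((800 * D) * (800 * D)))) ^ 2) :
    (-2 * d * (1 / 2 - y1 / (800 * D ^ 2)) + a / (800 * D) * (H / (800 * t)) + (1 + d) * (Pn / (W * t))) ^ 2
      < 4 * (1 + 4 * d) * (1 / 2 + x / (800 * D))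
          * ((1 + 2 * d) * (1 / 2 - y2 / (800 * D ^ 2)) - b / (800 * D) * (H / (800 * t)))
        + 4 * (1 + 4 * d) * (1 / 2 + x / (800 * D)) * (H / (800 * t)) * (Pn / (W * t)) := by
  have ht0 : t ≠ 0 := ht.ne'
  have hD0 : D ≠ 0 := hD.ne'
  have hW0 : W ≠ 0 := hW.ne'
  have key : 4 * (1 + 4 * d) * (1 / 2 + x / (800 * D))
          * ((1 + 2 * d) * (1 / 2 - y2 / (800 * D ^ 2)) - b / (800 * D) * (H / (800 * t)))
        + 4 * (1 + 4 * d) * (1 / 2 + x / (800 * D)) * (H / (800 * t)) * (Pn / (W * t))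
      - (-2 * d * (1 / 2 - y1 / (800 * D ^ 2)) + a / (800 * D) * (H / (800 * t))
          + (1 + d) * (Pn / (W * t))) ^ 2
      = ((1 + 4 * d) * (800 * D + 2 * x)
        * ((1 + 2 * d) * (800 * D * D - 2 * y2) * (800 * W) * (t * t)
          - 2 * (b * H * D * W * t) + 2 * (H * Pn * (800 * D) * D)) * (800 * D * W)
      - (2 * (d * y1 * (800 * W) * t) - d * ((800 * D) * (800 * D)) * W * t
          + (a * H * D * W + (1 + d) * Pn * ((800 * D) * (800 * D)))) ^ 2)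
        / (800 ^ 4 * D ^ 4 * W ^ 2 * t ^ 2) := by
    field_simp
    ring
  have : 0 < ((1 + 4 * d) * (800 * D + 2 * x)
        * ((1 + 2 * d) * (800 * D * D - 2 * y2) * (800 * W) * (t * t)
          - 2 * (b * H * D * W * t) + 2 * (H * Pn * (800 * D) * D)) * (800 * D * W)
      - (2 * (d * y1 * (800 * W) * t) - d * ((800 * D) * (800 * D)) * W * t
          + (a * H * D * W + (1 + d) * Pn * ((800 * D) * (800 * D)))) ^ 2)
        / (800 ^ 4 * D ^ 4 * W ^ 2 * t ^ 2) := by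
    positivity
  linarith

/-- second scaled discriminant from its integer form -/
lemma L2_real {d t D a b x y1 y2 H W Qn : ℝ} (ht : 0 < t) (hD : 0 < D) (hW : 0 < W)
    (hL : 0 < (1 + 4 * d) * (800 * D + 2 * x)
        * ((1 + 2 * d) * (800 * D * D - 2 * y1) * (800 * W) * t
          + (2 * (a * H * D * W) - 2 * (H * Qn * (800 * D) * D))) * (800 * D * W) * t
      - (2 * (d * y2 * (800 * W) * t) - d * ((800 * D) * (800 * D)) * W * t
          + ((1 + d) * Qn * ((800 * D) * (800 * D)) * t - b * H * D * W)) ^ 2) :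
    (-2 * d * (1 / 2 - y2 / (800 * D ^ 2)) + b / (800 * D) * (-(H / (800 * t))) + (1 + d) * (Qn / W)) ^ 2
      < 4 * (1 + 4 * d) * (1 / 2 + x / (800 * D))
          * ((1 + 2 * d) * (1 / 2 - y1 / (800 * D ^ 2)) - a / (800 * D) * (-(H / (800 * t))))
        + 4 * (1 + 4 * d) * (1 / 2 + x / (800 * D)) * (-(H / (800 * t))) * (Qn / W) := by
  have ht0 : t ≠ 0 := ht.ne'
  have hD0 : D ≠ 0 := hD.ne'
  have hW0 : W ≠ 0 := hW.ne'
  have key : 4 * (1 + 4 * d) * (1 / 2 + x / (800 * D))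
          * ((1 + 2 * d) * (1 / 2 - y1 / (800 * D ^ 2)) - a / (800 * D) * (-(H / (800 * t))))
        + 4 * (1 + 4 * d) * (1 / 2 + x / (800 * D)) * (-(H / (800 * t))) * (Qn / W)
      - (-2 * d * (1 / 2 - y2 / (800 * D ^ 2)) + b / (800 * D) * (-(H / (800 * t)))
          + (1 + d) * (Qn / W)) ^ 2
      = ((1 + 4 * d) * (800 * D + 2 * x)
        * ((1 + 2 * d) * (800 * D * D - 2 * y1) * (800 * W) * t
          + (2 * (a * H * D * W) - 2 * (H * Qn * (800 * D) * D))) * (800 * D * W) * t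
      - (2 * (d * y2 * (800 * W) * t) - d * ((800 * D) * (800 * D)) * W * t
          + ((1 + d) * Qn * ((800 * D) * (800 * D)) * t - b * H * D * W)) ^ 2)
        / (800 ^ 4 * D ^ 4 * W ^ 2 * t ^ 2) := by
    field_simp
    ring
  have : 0 < ((1 + 4 * d) * (800 * D + 2 * x)
        * ((1 + 2 * d) * (800 * D * D - 2 * y1) * (800 * W) * t
          + (2 * (a * H * D * W) - 2 * (H * Qn * (800 * D) * D))) * (800 * D * W) * t
      - (2 * (d * y2 * (800 * W) * t) - d * ((800 * D) * (800 * D)) * W * t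
          + ((1 + d) * Qn * ((800 * D) * (800 * D)) * t - b * H * D * W)) ^ 2)
        / (800 ^ 4 * D ^ 4 * W ^ 2 * t ^ 2) := by
    positivity
  linarith

/-! ### the design -/

/-- the corner of the parameter segment -/
def eta0 (d : ℝ) : ℝ := 100 * d / (100 + 2 * d + 75 * d ^ 2)

def ab (d t : ℝ) : ℝ := beval pA d t / (800 * (1 + t ^ 2))
def bb (d t : ℝ) : ℝ := beval pB d t / (800 * (1 + t ^ 2))
def X1 (d t : ℝ) : ℝ := beval pX1 d t / (800 * (1 + t ^ 2))
def X2 (d t : ℝ) : ℝ := beval pX2 d t / (800 * (1 + t ^ 2))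
def Y1 (d t : ℝ) : ℝ := beval pY1 d t / (800 * (1 + t ^ 2) ^ 2)
def Y2 (d t : ℝ) : ℝ := beval pY2 d t / (800 * (1 + t ^ 2) ^ 2)
def fh (d t : ℝ) : ℝ := beval pH d t / (800 * t)

lemma beval_one (d t : ℝ) : beval ([[1]] : BPol) d t = 1 := by simp

lemma beval_pPe (d t : ℝ) : beval pPe d t = (100 + 2 * d + 75 * d ^ 2) + 200 * ((1 + t) * d) := by
  simp only [pPe, beval_badd, beval_bscale, beval_bmul, beval_pWi, beval_bcst, beval_bvd, beval_bvt]
  push_cast
  ring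

lemma beval_pQe (d t : ℝ) : beval pQe d t = (100 + 2 * d + 75 * d ^ 2) * t + 200 * ((1 + t) * d) := by
  simp only [pQe, beval_badd, beval_bscale, beval_bmul, beval_pWi, beval_bcst, beval_bvd, beval_bvt]
  push_cast
  ring

lemma D_pos (t : ℝ) : 0 < 1 + t ^ 2 := by positivity

lemma R1_form {d t : ℝ} (hd : 0 < d) : R1 (d / (1 + 2 * d)) (ab d t) (X1 d t)
    = beval (r1B pA pX1) d t / (4 * (800 ^ 2 * (1 + 2 * d)) * (1 + t ^ 2) ^ 2) := by
  unfold ab X1
  rw [R1_eq hd (D_pos t), beval_r1B]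

lemma R6_form {d t : ℝ} (hd : 0 < d) : R1 (d / (1 + 2 * d)) (bb d t) (X2 d t)
    = beval (r1B pB pX2) d t / (4 * (800 ^ 2 * (1 + 2 * d)) * (1 + t ^ 2) ^ 2) := by
  unfold bb X2
  rw [R1_eq hd (D_pos t), beval_r1B]

lemma R2_form {d t : ℝ} (hd : 0 < d) : R2 (d / (1 + 2 * d)) (ab d t) (bb d t) (X1 d t) (Y1 d t)
    = beval (r2B pA pB pX1 pY1) d t / (2 * (800 ^ 2 * (1 + 2 * d)) * (1 + t ^ 2) ^ 3) := by
  unfold ab bb X1 Y1
  rw [R2_eq hd (D_pos t), beval_r2B]

lemma R5_form {d t : ℝ} (hd : 0 < d) : R2 (d / (1 + 2 * d)) (bb d t) (ab d t) (X2 d t) (Y2 d t)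
    = beval (r2B pB pA pX2 pY2) d t / (2 * (800 ^ 2 * (1 + 2 * d)) * (1 + t ^ 2) ^ 3) := by
  unfold ab bb X2 Y2
  rw [R2_eq hd (D_pos t), beval_r2B]

lemma R3_form {d t : ℝ} : R3 (ab d t) (bb d t) (Y1 d t) (Y2 d t)
    = beval (r3B pA pB pY1 pY2) d t / (8 * 800 ^ 2 * (1 + t ^ 2) ^ 4) := by
  unfold ab bb Y1 Y2
  rw [R3_eq (D_pos t), beval_r3B]

lemma R34_form {d t : ℝ} (hd : 0 < d) :
    R3 (ab d t) (bb d t) (Y1 d t) (Y2 d t)
      + R4 (d / (1 + 2 * d)) (ab d t) (bb d t) (Y1 d t) (Y2 d t)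
    = beval (r34B pA pB pY1 pY2) d t / (8 * (800 ^ 2 * (1 + 2 * d)) * (1 + t ^ 2) ^ 4) := by
  have he : (1 + 2 * d) ≠ 0 := by positivity
  have hD0 : 1 + t ^ 2 ≠ 0 := (D_pos t).ne'
  rw [R3_form]
  unfold ab bb Y1 Y2
  rw [R4_eq hd (D_pos t), beval_r34B]
  field_simp
  ring

lemma L10_ok {d t : ℝ} (h : Dom d t) :
    (-2 * d * (1 / 2 - Y1 d t) + ab d t * fh d t + (1 + d) * (1 / t)) ^ 2
      < 4 * (1 + 4 * d) * (1 / 2 + X1 d t) * ((1 + 2 * d) * (1 / 2 - Y2 d t) - bb d t * fh d t)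
        + 4 * (1 + 4 * d) * (1 / 2 + X1 d t) * fh d t * (1 / t) := by
  have hp := pos_L10 h
  rw [pL10, beval_l1B, beval_one] at hp
  have := L1_real (W := 1) (Pn := 1) h.t_pos (D_pos t) one_pos hp
  rw [one_mul] at this
  exact this

lemma L20_ok {d t : ℝ} (h : Dom d t) :
    (-2 * d * (1 / 2 - Y2 d t) + bb d t * (-fh d t) + (1 + d) * t) ^ 2
      < 4 * (1 + 4 * d) * (1 / 2 + X2 d t) * ((1 + 2 * d) * (1 / 2 - Y1 d t) - ab d t * (-fh d t))
        + 4 * (1 + 4 * d) * (1 / 2 + X2 d t) * (-fh d t) * t := by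
  have hp := pos_L20 h
  rw [pL20, beval_l2B, beval_one, beval_bvt] at hp
  have := L2_real (W := 1) (Qn := t) h.t_pos (D_pos t) one_pos hp
  rw [div_one] at this
  exact this

lemma Wi_pos {d : ℝ} (hd : 0 < d) : 0 < beval pWi d 0 := by
  rw [beval_pWi]; positivity

lemma p1_eq {d t : ℝ} (hd : 0 < d) (ht : 0 < t) :
    (1 + 2 * (1 + t) * eta0 d) / t = beval pPe d t / (beval pWi d t * t) := by
  rw [beval_pPe, beval_pWi]
  unfold eta0
  have hW : (100 + 2 * d + 75 * d ^ 2) ≠ 0 := by positivity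
  field_simp
  ring

lemma q1_eq {d t : ℝ} (hd : 0 < d) :
    t + 2 * (1 + t) * eta0 d = beval pQe d t / beval pWi d t := by
  rw [beval_pQe, beval_pWi]
  unfold eta0
  have hW : (100 + 2 * d + 75 * d ^ 2) ≠ 0 := by positivity
  field_simp
  ring

lemma L1e_ok {d t : ℝ} (h : Dom d t) :
    (-2 * d * (1 / 2 - Y1 d t) + ab d t * fh d t + (1 + d) * ((1 + 2 * (1 + t) * eta0 d) / t)) ^ 2
      < 4 * (1 + 4 * d) * (1 / 2 + X1 d t) * ((1 + 2 * d) * (1 / 2 - Y2 d t) - bb d t * fh d t)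
        + 4 * (1 + 4 * d) * (1 / 2 + X1 d t) * fh d t * ((1 + 2 * (1 + t) * eta0 d) / t) := by
  have hd := h.d_pos
  have ht := h.t_pos
  have hp := pos_L1e h
  rw [pL1e, beval_l1B] at hp
  have hW : 0 < beval pWi d t := by rw [beval_pWi]; positivity
  have := L1_real h.t_pos (D_pos t) hW hp
  rw [p1_eq hd ht]
  exact this

lemma L2e_ok {d t : ℝ} (h : Dom d t) :
    (-2 * d * (1 / 2 - Y2 d t) + bb d t * (-fh d t) + (1 + d) * (t + 2 * (1 + t) * eta0 d)) ^ 2
      < 4 * (1 + 4 * d) * (1 / 2 + X2 d t) * ((1 + 2 * d) * (1 / 2 - Y1 d t) - ab d t * (-fh d t))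
        + 4 * (1 + 4 * d) * (1 / 2 + X2 d t) * (-fh d t) * (t + 2 * (1 + t) * eta0 d) := by
  have hd := h.d_pos
  have hp := pos_L2e h
  rw [pL2e, beval_l2B] at hp
  have hW : 0 < beval pWi d t := by rw [beval_pWi]; positivity
  have := L2_real h.t_pos (D_pos t) hW hp
  rw [q1_eq hd]
  exact this

/-- the certificate -/
theorem design_cert {d t p q : ℝ} (hdom : Dom d t)
    (hp0 : 1 / t ≤ p) (hp1 : p ≤ (1 + 2 * (1 + t) * eta0 d) / t)
    (hq0 : t ≤ q) (hq1 : q ≤ t + 2 * (1 + t) * eta0 d) :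
    ∃ (c : Fin 14 → ℝ) (c0 : ℝ), 0 < c0 ∧ Cert (2 + 1 / d) p q (1 - ab d t) (1 - bb d t) c c0 := by
  have hd := hdom.d_pos
  have ht := hdom.t_pos
  have hd0 : d ≠ 0 := hd.ne'
  have he : (1 + 2 * d) ≠ 0 := by positivity
  have hn : (2 : ℝ) ≤ 2 + 1 / d := by
    have : 0 < 1 / d := by positivity
    linarith
  have hh : 1 / (2 + 1 / d) = d / (1 + 2 * d) := by
    field_simp; ring
  have hS : 0 < 800 ^ 2 * (1 + 2 * d) := by positivity
  have hDt := D_pos t
  have hE1 : 0 < 1 / 2 + X1 d t := by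
    have h1 := pos_E1 hdom
    have e : beval pE1 d t = 800 * (1 + t ^ 2) + 2 * beval pX1 d t := by
      simp only [pE1, beval_badd, beval_bscale, beval_pZD]; push_cast; ring
    rw [e] at h1
    have e2 : 1 / 2 + X1 d t = (800 * (1 + t ^ 2) + 2 * beval pX1 d t) / (1600 * (1 + t ^ 2)) := by
      unfold X1; field_simp; ring
    rw [e2]
    positivity
  have hE2 : 0 < 1 / 2 + X2 d t := by
    have h1 := pos_E2 hdom
    have e : beval pE2 d t = 800 * (1 + t ^ 2) + 2 * beval pX2 d t := by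
      simp only [pE2, beval_badd, beval_bscale, beval_pZD]; push_cast; ring
    rw [e] at h1
    have e2 : 1 / 2 + X2 d t = (800 * (1 + t ^ 2) + 2 * beval pX2 d t) / (1600 * (1 + t ^ 2)) := by
      unfold X2; field_simp; ring
    rw [e2]
    positivity
  apply cert_of_params (X1 := X1 d t) (X2 := X2 d t) (Y1 := Y1 d t) (Y2 := Y2 d t)
    (f := fh d t / (1 + 2 * d)) hn
  · rw [hh, R1_form hd]
    exact div_pos (pos_r1 hdom) (by positivity)
  · rw [hh, R6_form hd]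
    exact div_pos (pos_r6 hdom) (by positivity)
  · rw [R3_form]
    exact (div_pos (pos_r3 hdom) (by positivity)).le
  · rw [hh, R1_form hd, R6_form hd, R2_form hd, R5_form hd]
    have h34 := R34_form (t := t) hd
    rw [h34]
    have hdp := pos_dp hdom
    rw [pDP, beval_dpB] at hdp
    exact disc_scaled hS hDt hdp
  · exact hE1
  · exact hE2
  · have hq := quad_between (A := -2 * d * (1 / 2 - Y1 d t) + ab d t * fh d t) (B := 1 + d)
      (C := 4 * (1 + 4 * d) * (1 / 2 + X1 d t) * ((1 + 2 * d) * (1 / 2 - Y2 d t) - bb d t * fh d t))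
      (E := 4 * (1 + 4 * d) * (1 / 2 + X1 d t) * fh d t) hp0 hp1
      (L10_ok hdom) (L1e_ok hdom)
    exact L_scaled hd rfl hq
  · have hq' := quad_between (A := -2 * d * (1 / 2 - Y2 d t) + bb d t * (-fh d t)) (B := 1 + d)
      (C := 4 * (1 + 4 * d) * (1 / 2 + X2 d t) * ((1 + 2 * d) * (1 / 2 - Y1 d t) - ab d t * (-fh d t)))
      (E := 4 * (1 + 4 * d) * (1 / 2 + X2 d t) * (-fh d t)) hq0 hq1
      (L20_ok hdom) (L2e_ok hdom)
    have h := L_scaled (F1 := 1 / 2 - Y2 d t) (F2 := 1 / 2 - Y1 d t) (E := 1 / 2 + X2 d t)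
      (a' := bb d t) (b' := ab d t) (fh := -fh d t) (p := q) hd rfl hq'
    have e1 : (2 / (2 + 1 / d) * (1 / 2 - Y2 d t) - (1 - 1 / (2 + 1 / d)) * q
          - (-fh d t / (1 + 2 * d)) * bb d t) / 2
        = (2 / (2 + 1 / d) * (1 / 2 - Y2 d t) - (1 - 1 / (2 + 1 / d)) * q
          + (fh d t / (1 + 2 * d)) * bb d t) / 2 := by
      ring
    have e2 : (1 / 2 - Y1 d t) + (-fh d t / (1 + 2 * d)) * (q - ab d t)
        = (1 / 2 - Y1 d t) - (fh d t / (1 + 2 * d)) * (q - ab d t) := by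
      ring
    rw [e1, e2] at h
    exact h

lemma low_bound {d t : ℝ} (h : Dom d t) :
    (1 - 2 * d) * (1 + t) ≤ (1 - ab d t) + (1 - bb d t) * t := by
  have hp := pos_low h
  have e : beval pLow d t
      = 2 * (1 + t) * (800 * (1 + t ^ 2)) * d - (beval pA d t + beval pB d t * t) := by
    simp only [pLow, beval_bsub, beval_bmul, beval_badd, beval_bscale, beval_bcst, beval_bvd,
      beval_bvt, beval_pZD]
    push_cast
    ring
  rw [e] at hp
  have hDt := D_pos t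
  have e2 : ab d t + bb d t * t = (beval pA d t + beval pB d t * t) / (800 * (1 + t ^ 2)) := by
    unfold ab bb
    field_simp
  have h3 : ab d t + bb d t * t ≤ 2 * (1 + t) * d := by
    rw [e2, div_le_iff₀ (by positivity)]
    nlinarith
  nlinarith

lemma ab_lt {d t : ℝ} (h : Dom d t) : 0 < 1 - ab d t := by
  have hp := pos_a h
  have e : beval pa d t = 800 * (1 + t ^ 2) - beval pA d t := by
    simp only [pa, beval_bsub, beval_pZD]
  rw [e] at hp
  have hDt := D_pos t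
  have e2 : 1 - ab d t = (800 * (1 + t ^ 2) - beval pA d t) / (800 * (1 + t ^ 2)) := by
    unfold ab
    field_simp
  rw [e2]
  positivity

lemma bb_lt {d t : ℝ} (h : Dom d t) : 0 < 1 - bb d t := by
  have hp := pos_b h
  have e : beval pb d t = 800 * (1 + t ^ 2) - beval pB d t := by
    simp only [pb, beval_bsub, beval_pZD]
  rw [e] at hp
  have hDt := D_pos t
  have e2 : 1 - bb d t = (800 * (1 + t ^ 2) - beval pB d t) / (800 * (1 + t ^ 2)) := by
    unfold bb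
    field_simp
  rw [e2]
  positivity

lemma liouv {N d η a b t p q : ℝ} (hm2 : 0 < N - 4) (hηd : η < d)
    (hm1 : (N - 4) * d = 1 - 2 * d) (hlow : (1 - 2 * d) * (1 + t) ≤ a + b * t)
    (h2 : p * q - 1 = 2 * ((p + 1) * (1 + t)) * η)
    (h3 : a * (p + 1) + b * (q + 1) = (p + 1) * (a + b * t)) (hp1 : 0 < p + 1) (ht : 0 < t) :
    N * (p * q - 1) < 2 * (a * (p + 1) + b * (q + 1)) + 4 * (p * q - 1) := by
  have key : (N - 4) * η < 1 - 2 * d := by
    rw [← hm1]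
    exact mul_lt_mul_of_pos_left hηd hm2
  have hpp : 0 < 2 * ((p + 1) * (1 + t)) := by positivity
  have h10 : 2 * ((p + 1) * (1 + t)) * ((N - 4) * η) < 2 * ((p + 1) * (1 + t)) * (1 - 2 * d) :=
    mul_lt_mul_of_pos_left key hpp
  have h12 : 2 * (p + 1) * ((1 - 2 * d) * (1 + t)) ≤ 2 * (p + 1) * (a + b * t) :=
    mul_le_mul_of_nonneg_left hlow (by positivity)
  have e1 : N * (p * q - 1) - 4 * (p * q - 1) = 2 * ((p + 1) * (1 + t)) * ((N - 4) * η) := by
    rw [h2]; ring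
  have e2 : 2 * ((p + 1) * (1 + t)) * (1 - 2 * d) = 2 * (p + 1) * ((1 - 2 * d) * (1 + t)) := by ring
  have e3 : 2 * (a * (p + 1) + b * (q + 1)) = 2 * (p + 1) * (a + b * t) := by
    rw [h3]; ring
  rw [e3]
  linarith

/-- the core case `q <= p` -/
theorem no_solution_core {n : ℕ} (hn : 12 ≤ n) {p q : ℝ} (hp : 0 < p) (hq : 0 < q) (hqp : q ≤ p)
    (hpq : 1 < p * q)
    (hsum : ((n : ℝ) - 2 + 1 / 50 + 3 / (4 * ((n : ℝ) - 2))) * (p * q - 1) ≤ 2 * (p + q + 2))
    {u v : EuclideanSpace ℝ (Fin n) → ℝ} (hucont : Continuous u) (hvcont : Continuous v)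
    (hupos : ∀ x, 0 < u x) (hvpos : ∀ x, 0 < v x)
    (hu : ContDiffOn ℝ 2 u {0}ᶜ) (hv : ContDiffOn ℝ 2 v {0}ᶜ)
    (hpdeU : ∀ x, x ≠ 0 → - Δ u x = v x ^ p)
    (hpdeV : ∀ x, x ≠ 0 → - Δ v x = u x ^ q) : False := by
  have hnR : (12 : ℝ) ≤ n := by exact_mod_cast hn
  have hm : 0 < (n : ℝ) - 2 := by linarith
  obtain ⟨d, hdd⟩ : ∃ d : ℝ, d = 1 / ((n : ℝ) - 2) := ⟨_, rfl⟩
  have hd : 0 < d := by rw [hdd]; positivity
  have hd1 : d ≤ 1 / 10 := by
    rw [hdd, div_le_iff₀ hm]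
    linarith
  have hnd : (n : ℝ) = 2 + 1 / d := by
    rw [hdd]; field_simp; ring
  have h5 : ((n : ℝ) - 2) * d = 1 := by
    rw [hdd]; field_simp
  have hp1 : 0 < p + 1 := by linarith
  have hq1 : 0 < q + 1 := by linarith
  obtain ⟨t, htt⟩ : ∃ t : ℝ, t = (q + 1) / (p + 1) := ⟨_, rfl⟩
  have ht : 0 < t := by rw [htt]; positivity
  have ht1 : t ≤ 1 := by
    rw [htt, div_le_one hp1]; linarith
  have hqt : q + 1 = t * (p + 1) := by
    rw [htt]; field_simp
  have hS : 0 < p + q + 2 := by linarith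
  have hw : 0 < p * q - 1 := by linarith
  have hdom : Dom d t := ⟨hd, hd1, ht, ht1⟩
  obtain ⟨η, hη⟩ : ∃ η : ℝ, η = (p * q - 1) / (2 * (p + q + 2)) := ⟨_, rfl⟩
  have hη0 : 0 < η := by rw [hη]; positivity
  have hηS : 2 * (p + q + 2) * η = p * q - 1 := by
    rw [hη]; field_simp
  have h1t : p + q + 2 = (p + 1) * (1 + t) := by
    have : q = t * (p + 1) - 1 := by linarith
    rw [this]; ring
  have hqf : q = t + 2 * (1 + t) * η := by
    have e : (p + 1) * q = (p + 1) * (t + 2 * (1 + t) * η) := by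
      have h2 : (p + 1) * (2 * (1 + t) * η) = p * q - 1 := by
        rw [← hηS, h1t]; ring
      have h3 : (p + 1) * t = q + 1 := by linarith
      have : (p + 1) * (t + 2 * (1 + t) * η) = (p + 1) * t + (p + 1) * (2 * (1 + t) * η) := by ring
      rw [this, h2, h3]
      ring
    exact mul_left_cancel₀ hp1.ne' e
  have hpf : p = (1 + 2 * (1 + t) * η) / t := by
    rw [eq_div_iff ht.ne']
    have e : (p + 1) * (p * t) = (p + 1) * (1 + 2 * (1 + t) * η) := by
      have h2 : (p + 1) * (2 * (1 + t) * η) = p * q - 1 := by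
        rw [← hηS, h1t]; ring
      have h3 : (p + 1) * t = q + 1 := by linarith
      have e2 : (p + 1) * (1 + 2 * (1 + t) * η) = (p + 1) + (p + 1) * (2 * (1 + t) * η) := by ring
      rw [e2, h2]
      have e3 : (p + 1) * (p * t) = p * ((p + 1) * t) := by ring
      rw [e3, h3]
      ring
    exact mul_left_cancel₀ hp1.ne' e
  have hW : 0 < 100 + 2 * d + 75 * d ^ 2 := by positivity
  have hηle : η ≤ eta0 d := by
    unfold eta0
    have e3 : 3 / (4 * ((n : ℝ) - 2)) = 3 / 4 * d := by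
      rw [hdd]; field_simp
    rw [e3] at hsum
    have h7 := mul_le_mul_of_nonneg_left hsum (by positivity : 0 ≤ 100 * d)
    have e : 100 * d * (((n : ℝ) - 2 + 1 / 50 + 3 / 4 * d) * (p * q - 1))
        = (100 * (((n : ℝ) - 2) * d) + 2 * d + 75 * d ^ 2) * (p * q - 1) := by ring
    rw [e, h5] at h7
    rw [hη, div_le_div_iff₀ (by positivity) hW]
    nlinarith
  have hη2 : 2 * (1 + t) * η ≤ 2 * (1 + t) * eta0 d := by
    apply mul_le_mul_of_nonneg_left hηle (by positivity)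
  have hη3 : 0 ≤ 2 * (1 + t) * η := by positivity
  obtain ⟨c, c0, hc0, hc⟩ := design_cert (p := p) (q := q) hdom
    (by rw [hpf]; exact div_le_div_of_nonneg_right (by linarith) ht.le)
    (by rw [hpf]; exact div_le_div_of_nonneg_right (by linarith) ht.le)
    (by rw [hqf]; linarith)
    (by rw [hqf]; linarith)
  rw [← hnd] at hc
  have ha0' := ab_lt hdom
  have hb0' := bb_lt hdom
  have hlow0 := low_bound hdom
  obtain ⟨a, ha⟩ : ∃ a : ℝ, a = 1 - ab d t := ⟨_, rfl⟩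
  obtain ⟨b, hb⟩ : ∃ b : ℝ, b = 1 - bb d t := ⟨_, rfl⟩
  rw [← ha, ← hb] at hc
  rw [← ha, ← hb] at hlow0
  rw [← ha] at ha0'
  rw [← hb] at hb0'
  have hn4 : 4 < n := by omega
  have hw' : p * q - 1 ≠ 0 := hw.ne'
  refine no_solution_of_cert_lap hn4 (a := a) (b := b)
    (lam := (a + q * b) / (p * q - 1)) (mu := (b + p * a) / (p * q - 1))
    hc hc0 ?_ ?_ (by positivity) (by positivity) ?_ hucont hvcont hupos hvpos hu hv hpdeU hpdeV
  · have e : (b + p * a) / (p * q - 1) * q - (a + q * b) / (p * q - 1) = a := by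
      rw [div_mul_eq_mul_div, ← sub_div, div_eq_iff hw']
      ring
    exact e.symm
  · have e : (a + q * b) / (p * q - 1) * p - (b + p * a) / (p * q - 1) = b := by
      rw [div_mul_eq_mul_div, ← sub_div, div_eq_iff hw']
      ring
    exact e.symm
  · have hA : (a + q * b) / (p * q - 1) * (p * q - 1) = a + q * b := div_mul_cancel₀ _ hw'
    have hB : (b + p * a) / (p * q - 1) * (p * q - 1) = b + p * a := div_mul_cancel₀ _ hw'
    have e : 2 * ((a + q * b) / (p * q - 1) + (b + p * a) / (p * q - 1)) + 4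
        = (2 * (a * (p + 1) + b * (q + 1)) + 4 * (p * q - 1)) / (p * q - 1) := by
      rw [eq_div_iff hw']
      linear_combination 2 * hA + 2 * hB
    rw [e, lt_div_iff₀ hw]
    have h2 : p * q - 1 = 2 * ((p + 1) * (1 + t)) * η := by
      rw [← hηS, h1t]
    have h3 : a * (p + 1) + b * (q + 1) = (p + 1) * (a + b * t) := by
      rw [hqt]; ring
    have hηd : η < d := by
      have h8 : eta0 d < d := by
        unfold eta0
        rw [div_lt_iff₀ hW]
        nlinarith [mul_pos hd hd, mul_pos hd (mul_pos hd hd)]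
      linarith
    have hm1 : ((n : ℝ) - 4) * d = 1 - 2 * d := by
      linarith
    have hm2 : 0 < (n : ℝ) - 4 := by linarith
    exact liouv hm2 hηd hm1 hlow0 h2 h3 hp1 ht

/-- **`n >= 12`, all ratios, distance `1/50 + 3/(4(n-2))` from the critical line.** -/
theorem no_solution_v2 {n : ℕ} (hn : 12 ≤ n) {p q : ℝ} (hp : 0 < p) (hq : 0 < q) (hpq : 1 < p * q)
    (hsum : (n : ℝ) - 2 + 1 / 50 + 3 / (4 * ((n : ℝ) - 2))
      ≤ 2 * (p + 1) / (p * q - 1) + 2 * (q + 1) / (p * q - 1))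
    {u v : EuclideanSpace ℝ (Fin n) → ℝ} (hucont : Continuous u) (hvcont : Continuous v)
    (hupos : ∀ x, 0 < u x) (hvpos : ∀ x, 0 < v x)
    (hu : ContDiffOn ℝ 2 u {0}ᶜ) (hv : ContDiffOn ℝ 2 v {0}ᶜ)
    (hpdeU : ∀ x, x ≠ 0 → - Δ u x = v x ^ p)
    (hpdeV : ∀ x, x ≠ 0 → - Δ v x = u x ^ q) : False := by
  have hw : 0 < p * q - 1 := by linarith
  have h3 : ((n : ℝ) - 2 + 1 / 50 + 3 / (4 * ((n : ℝ) - 2))) * (p * q - 1) ≤ 2 * (p + q + 2) := by
    have e : 2 * (p + 1) / (p * q - 1) + 2 * (q + 1) / (p * q - 1)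
        = 2 * (p + q + 2) / (p * q - 1) := by
      rw [← add_div]; ring
    rw [e, le_div_iff₀ hw] at hsum
    exact hsum
  rcases le_total q p with hqp | hpq'
  · exact no_solution_core hn hp hq hqp hpq h3 hucont hvcont hupos hvpos hu hv hpdeU hpdeV
  · refine no_solution_core hn hq hp hpq' (by linarith) ?_ hvcont hucont hvpos hupos hv hu hpdeV hpdeU
    have e : q * p - 1 = p * q - 1 := by ring
    rw [e]
    linarith

end Vale.Agent.Lib.P100.AB.V2
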