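import Vale.Agent.Lib.P100.NABAlg
import Vale.Agent.Lib.P100.AB.V2Main

/-!
# P100: equal negative weights, nonexistence at distance `1/50 + 3/(4(m-2))` from the critical hyperbola
in the effective dimension `m = 2 (n + A) / (2 + A) ≥ 12`, for every ratio of `p, q`.
-/

open InnerProductSpace Laplacian

noncomputable section

namespace Vale.Agent.Lib.P100.AB.V2

open Vale.Agent.Lib.P100 Vale.Agent.Lib.P100.AB

/-- the certificate, lifted from the design -/
theorem design_cert_lift {n Aw d t p q : ℝ} (hn : 2 < n) (hnc : 0 < n - 4 + -Aw) (hA : Aw < 0)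
    (hA2 : -2 < Aw) (hm : 2 + 1 / d = 2 * (n + Aw) / (2 + Aw)) (hdom : Dom d t)
    (hp0 : 1 / t ≤ p) (hp1 : p ≤ (1 + 2 * (1 + t) * eta0 d) / t)
    (hq0 : t ≤ q) (hq1 : q ≤ t + 2 * (1 + t) * eta0 d) :
    ∃ (co : Fin 13 → ℝ) (c0 : ℝ), 0 < c0 ∧ ∀ A : NAtoms, A.Realizable n →
      c0 * A.EW ≤ ∑ k, co k * NAtoms.DB n p q (1 - ab d t) (1 - bb d t) (-Aw) Aw Aw A k := by
  have hd := hdom.d_pos
  have hd0 : d ≠ 0 := hd.ne'
  have he : (1 + 2 * d) ≠ 0 := by positivity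
  have hh : 1 / (2 + 1 / d) = d / (1 + 2 * d) := by
    field_simp; ring
  have hS : 0 < 800 ^ 2 * (1 + 2 * d) := by positivity
  have hDt := D_pos t
  have hE1 : 0 < 1 / 2 + X1 d t := by
    have h1 := pos_E1 hdom
    have e : BP.beval BP.pE1 d t = 800 * (1 + t ^ 2) + 2 * BP.beval BP.pX1 d t := by
      simp only [BP.pE1, BP.beval_badd, BP.beval_bscale, BP.beval_pZD]; push_cast; ring
    rw [e] at h1
    have e2 : 1 / 2 + X1 d t
        = (800 * (1 + t ^ 2) + 2 * BP.beval BP.pX1 d t) / (1600 * (1 + t ^ 2)) := by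
      unfold X1; field_simp; ring
    rw [e2]
    positivity
  have hE2 : 0 < 1 / 2 + X2 d t := by
    have h1 := pos_E2 hdom
    have e : BP.beval BP.pE2 d t = 800 * (1 + t ^ 2) + 2 * BP.beval BP.pX2 d t := by
      simp only [BP.pE2, BP.beval_badd, BP.beval_bscale, BP.beval_pZD]; push_cast; ring
    rw [e] at h1
    have e2 : 1 / 2 + X2 d t
        = (800 * (1 + t ^ 2) + 2 * BP.beval BP.pX2 d t) / (1600 * (1 + t ^ 2)) := by
      unfold X2; field_simp; ring
    rw [e2]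
    positivity
  apply nbcert_of_R (m := 2 + 1 / d) (X1 := X1 d t) (X2 := X2 d t) (Y1 := Y1 d t) (Y2 := Y2 d t)
    (f := fh d t / (1 + 2 * d)) hn hnc hA hA2 hm (ab_lt hdom).le (bb_lt hdom).le
  · rw [hh, R1_form hd]
    exact div_pos (pos_r1 hdom) (by positivity)
  · rw [hh, R6_form hd]
    exact div_pos (pos_r6 hdom) (by positivity)
  · rw [hh, R1_form hd, R6_form hd, R2_form hd, R5_form hd]
    have h34 := R34_form (t := t) hd
    rw [h34]
    have hdp := pos_dp hdom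
    rw [BP.pDP, beval_dpB] at hdp
    exact disc_scaled hS hDt hdp
  · exact hE1
  · exact hE2
  · have hq := quad_between (A := -2 * d * (1 / 2 - Y1 d t) + ab d t * fh d t) (B := 1 + d)
      (C := 4 * (1 + 4 * d) * (1 / 2 + X1 d t) * ((1 + 2 * d) * (1 / 2 - Y2 d t) - bb d t * fh d t))
      (E := 4 * (1 + 4 * d) * (1 / 2 + X1 d t) * fh d t) hp0 hp1
      (L10_ok hdom) (L1e_ok hdom)
    exact L_scaled hd rfl hq
  · have hq' := quad_between (A := -2 * d * (1 / 2 - Y2 d t) + bb d t * (-fh d t)) (B := 1 + d)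
      (C := 4 * (1 + 4 * d) * (1 / 2 + X2 d t) * ((1 + 2 * d) * (1 / 2 - Y1 d t) - ab d t * (-fh d t)))
      (E := 4 * (1 + 4 * d) * (1 / 2 + X2 d t) * (-fh d t)) hq0 hq1
      (L20_ok hdom) (L2e_ok hdom)
    have h := L_scaled (F1 := 1 / 2 - Y2 d t) (F2 := 1 / 2 - Y1 d t) (E := 1 / 2 + X2 d t)
      (a' := bb d t) (b' := ab d t) (fh := -fh d t) (p := q) hd rfl hq'
    have e1 : (2 / (2 + 1 / d) * (1 / 2 - Y2 d t) - (1 - 1 / (2 + 1 / d)) * q
          - (-fh d t / (1 + 2 * d)) * bb d t) / 2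
        = (2 / (2 + 1 / d) * (1 / 2 - Y2 d t) - (1 - 1 / (2 + 1 / d)) * q
          + (fh d t / (1 + 2 * d)) * bb d t) / 2 := by
      ring
    have e2 : (1 / 2 - Y1 d t) + (-fh d t / (1 + 2 * d)) * (q - ab d t)
        = (1 / 2 - Y1 d t) - (fh d t / (1 + 2 * d)) * (q - ab d t) := by
      ring
    rw [e1, e2] at h
    exact h

/-- the core case `q <= p` -/
theorem no_solution_nab_core {n : ℕ} (hn3 : 3 ≤ n) {Aw m p q : ℝ} (hA : Aw < 0) (hA2 : -2 < Aw)
    (hm : m = 2 * ((n : ℝ) + Aw) / (2 + Aw)) (hm12 : 12 ≤ m)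
    (hp : 0 < p) (hq : 0 < q) (hqp : q ≤ p) (hpq : 1 < p * q)
    (hsum : (m - 2 + 1 / 50 + 3 / (4 * (m - 2))) * (p * q - 1) ≤ 2 * (p + q + 2))
    {u v : EuclideanSpace ℝ (Fin n) → ℝ} (hucont : Continuous u) (hvcont : Continuous v)
    (hupos : ∀ x, 0 < u x) (hvpos : ∀ x, 0 < v x)
    (hu : ContDiffOn ℝ 2 u {0}ᶜ) (hv : ContDiffOn ℝ 2 v {0}ᶜ)
    (hpdeU : ∀ x, x ≠ 0 → - Δ u x = ‖x‖ ^ Aw * v x ^ p)
    (hpdeV : ∀ x, x ≠ 0 → - Δ v x = ‖x‖ ^ Aw * u x ^ q) : False := by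
  have h2w : 0 < 2 + Aw := by linarith
  have hmw : (2 + Aw) * m = 2 * ((n : ℝ) + Aw) := by
    rw [hm]; field_simp
  have hnR3 : (3 : ℝ) ≤ n := by exact_mod_cast hn3
  have hm4 : 0 < m - 4 := by linarith
  have hm24 := mul_pos h2w hm4
  have hnc : 0 < (n : ℝ) - 4 + -Aw := by nlinarith
  have hm20 : 0 < m - 2 := by linarith
  obtain ⟨d, hdd⟩ : ∃ d : ℝ, d = 1 / (m - 2) := ⟨_, rfl⟩
  have hd : 0 < d := by rw [hdd]; positivity
  have hd1 : d ≤ 1 / 10 := by
    rw [hdd, div_le_iff₀ hm20]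
    linarith
  have hnd : m = 2 + 1 / d := by
    rw [hdd]; field_simp; ring
  have h5 : (m - 2) * d = 1 := by
    rw [hdd]; field_simp
  have hp1 : 0 < p + 1 := by linarith
  have hq1 : 0 < q + 1 := by linarith
  obtain ⟨t, htt⟩ : ∃ t : ℝ, t = (q + 1) / (p + 1) := ⟨_, rfl⟩
  have ht : 0 < t := by rw [htt]; positivity
  have ht1 : t ≤ 1 := by
    rw [htt, div_le_one hp1]; linarith
  have hqt : q + 1 = t * (p + 1) := by
    rw [htt]; field_simp
  have hS : 0 < p + q + 2 := by linarith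
  have hw : 0 < p * q - 1 := by linarith
  have hdom : Dom d t := ⟨hd, hd1, ht, ht1⟩
  obtain ⟨η, hη⟩ : ∃ η : ℝ, η = (p * q - 1) / (2 * (p + q + 2)) := ⟨_, rfl⟩
  have hη0 : 0 < η := by rw [hη]; positivity
  have hηS : 2 * (p + q + 2) * η = p * q - 1 := by
    rw [hη]; field_simp
  have h1t : p + q + 2 = (p + 1) * (1 + t) := by
    have : q = t * (p + 1) - 1 := by linarith
    rw [this]; ring
  have hqf : q = t + 2 * (1 + t) * η := by
    have e : (p + 1) * q = (p + 1) * (t + 2 * (1 + t) * η) := by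
      have h2 : (p + 1) * (2 * (1 + t) * η) = p * q - 1 := by
        rw [← hηS, h1t]; ring
      have h3 : (p + 1) * t = q + 1 := by linarith
      have : (p + 1) * (t + 2 * (1 + t) * η) = (p + 1) * t + (p + 1) * (2 * (1 + t) * η) := by ring
      rw [this, h2, h3]
      ring
    exact mul_left_cancel₀ hp1.ne' e
  have hpf : p = (1 + 2 * (1 + t) * η) / t := by
    rw [eq_div_iff ht.ne']
    have e : (p + 1) * (p * t) = (p + 1) * (1 + 2 * (1 + t) * η) := by
      have h2 : (p + 1) * (2 * (1 + t) * η) = p * q - 1 := by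
        rw [← hηS, h1t]; ring
      have h3 : (p + 1) * t = q + 1 := by linarith
      have e2 : (p + 1) * (1 + 2 * (1 + t) * η) = (p + 1) + (p + 1) * (2 * (1 + t) * η) := by ring
      rw [e2, h2]
      have e3 : (p + 1) * (p * t) = p * ((p + 1) * t) := by ring
      rw [e3, h3]
      ring
    exact mul_left_cancel₀ hp1.ne' e
  have hW : 0 < 100 + 2 * d + 75 * d ^ 2 := by positivity
  have hηle : η ≤ eta0 d := by
    unfold eta0
    have e3 : 3 / (4 * (m - 2)) = 3 / 4 * d := by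
      rw [hdd]; field_simp
    rw [e3] at hsum
    have h7 := mul_le_mul_of_nonneg_left hsum (by positivity : 0 ≤ 100 * d)
    have e : 100 * d * ((m - 2 + 1 / 50 + 3 / 4 * d) * (p * q - 1))
        = (100 * ((m - 2) * d) + 2 * d + 75 * d ^ 2) * (p * q - 1) := by ring
    rw [e, h5] at h7
    rw [hη, div_le_div_iff₀ (by positivity) hW]
    linarith only [h7]
  have hη2 : 2 * (1 + t) * η ≤ 2 * (1 + t) * eta0 d := by
    apply mul_le_mul_of_nonneg_left hηle (by positivity)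
  have hη3 : 0 ≤ 2 * (1 + t) * η := by positivity
  obtain ⟨co, c0, hc0, hc⟩ := design_cert_lift (n := (n : ℝ)) (Aw := Aw) (p := p) (q := q) (by linarith)
    hnc hA hA2 (by rw [← hnd]; exact hm) hdom
    (by rw [hpf]; exact div_le_div_of_nonneg_right (by linarith) ht.le)
    (by rw [hpf]; exact div_le_div_of_nonneg_right (by linarith) ht.le)
    (by rw [hqf]; linarith)
    (by rw [hqf]; linarith)
  have ha0' := ab_lt hdom
  have hb0' := bb_lt hdom
  have hlow0 := low_bound hdom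
  obtain ⟨a, ha⟩ : ∃ a : ℝ, a = 1 - ab d t := ⟨_, rfl⟩
  obtain ⟨b, hb⟩ : ∃ b : ℝ, b = 1 - bb d t := ⟨_, rfl⟩
  rw [← ha, ← hb] at hc
  rw [← ha, ← hb] at hlow0
  rw [← ha] at ha0'
  rw [← hb] at hb0'
  have ha0 : 0 < a := ha0'
  have hb0 : 0 < b := hb0'
  have hw' : p * q - 1 ≠ 0 := hw.ne'
  obtain ⟨lam, hlamd⟩ : ∃ lam : ℝ, lam = (a + q * b) / (p * q - 1) := ⟨_, rfl⟩
  obtain ⟨mu, hmud⟩ : ∃ mu : ℝ, mu = (b + p * a) / (p * q - 1) := ⟨_, rfl⟩
  have hlam0 : 0 < lam := by rw [hlamd]; positivity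
  have hmu0 : 0 < mu := by rw [hmud]; positivity
  have hlamw : lam * (p * q - 1) = a + q * b := by rw [hlamd]; exact div_mul_cancel₀ _ hw'
  have hmuw : mu * (p * q - 1) = b + p * a := by rw [hmud]; exact div_mul_cancel₀ _ hw'
  have hmain : m * (p * q - 1) < 2 * (a * (p + 1) + b * (q + 1)) + 4 * (p * q - 1) := by
    have h2 : p * q - 1 = 2 * ((p + 1) * (1 + t)) * η := by
      rw [← hηS, h1t]
    have h3 : a * (p + 1) + b * (q + 1) = (p + 1) * (a + b * t) := by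
      rw [hqt]; ring
    have hηd : η < d := by
      have h8 : eta0 d < d := by
        unfold eta0
        rw [div_lt_iff₀ hW]
        nlinarith only [mul_pos hd hd, mul_pos hd (mul_pos hd hd)]
      linarith only [h8, hηle]
    have hm1 : (m - 4) * d = 1 - 2 * d := by
      linarith only [h5]
    exact liouv hm4 hηd hm1 hlow0 h2 h3 hp1 ht
  have hsumL : m < 2 * (lam + mu) + 4 := by
    have e : (2 * (lam + mu) + 4) * (p * q - 1) = 2 * (a * (p + 1) + b * (q + 1)) + 4 * (p * q - 1) := by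
      linear_combination 2 * hlamw + 2 * hmuw
    rw [← e] at hmain
    exact lt_of_mul_lt_mul_right hmain hw.le
  have hfin : (n : ℝ) < 2 * (lam + mu) + 4 + (Aw * lam + Aw * mu - -Aw) := by
    have h4 := mul_lt_mul_of_pos_left hsumL h2w
    have e : (2 + Aw) * (2 * (lam + mu) + 4)
        = 2 * (2 * (lam + mu) + 4 + (Aw * lam + Aw * mu - -Aw)) + 2 * Aw := by ring
    linarith only [h4, hmw, e]
  refine no_solution_of_nbcert_lap hn3 (a := a) (b := b) (c := -Aw) (lam := lam) (mu := mu)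
    hc hc0 (by linarith) ?_ ?_ hlam0.le hmu0.le hfin (by linarith) (by linarith)
    hucont hvcont hupos hvpos hu hv hpdeU hpdeV
  · rw [hlamd, hmud]
    have e : (b + p * a) / (p * q - 1) * q - (a + q * b) / (p * q - 1) = a := by
      rw [div_mul_eq_mul_div, ← sub_div, div_eq_iff hw']
      ring
    exact e.symm
  · rw [hlamd, hmud]
    have e : (a + q * b) / (p * q - 1) * p - (b + p * a) / (p * q - 1) = b := by
      rw [div_mul_eq_mul_div, ← sub_div, div_eq_iff hw']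
      ring
    exact e.symm

/-- **Equal negative weights, all ratios of `p, q`: nonexistence up to distance `1/50 + 3/(4(m-2))` from the
critical hyperbola in the effective dimension `m = 2 (n + A) / (2 + A) ≥ 12`.** -/
theorem no_solution_nab {n : ℕ} {Aw m p q : ℝ} (hA : Aw < 0) (hA2 : -2 < Aw)
    (hm : m = 2 * ((n : ℝ) + Aw) / (2 + Aw)) (hm12 : 12 ≤ m)
    (hp : 0 < p) (hq : 0 < q) (hpq : 1 < p * q)
    (hsum : m - 2 + 1 / 50 + 3 / (4 * (m - 2)) ≤ 2 * (p + 1) / (p * q - 1) + 2 * (q + 1) / (p * q - 1))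
    {u v : EuclideanSpace ℝ (Fin n) → ℝ} (hucont : Continuous u) (hvcont : Continuous v)
    (hupos : ∀ x, 0 < u x) (hvpos : ∀ x, 0 < v x)
    (hu : ContDiffOn ℝ 2 u {0}ᶜ) (hv : ContDiffOn ℝ 2 v {0}ᶜ)
    (hpdeU : ∀ x, x ≠ 0 → - Δ u x = ‖x‖ ^ Aw * v x ^ p)
    (hpdeV : ∀ x, x ≠ 0 → - Δ v x = ‖x‖ ^ Aw * u x ^ q) : False := by
  have h2w : 0 < 2 + Aw := by linarith
  have hmw : (2 + Aw) * m = 2 * ((n : ℝ) + Aw) := by
    rw [hm]; field_simp
  have hn3 : 3 ≤ n := by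
    by_contra hcon
    have h2 : n ≤ 2 := by omega
    have h2R : (n : ℝ) ≤ 2 := by exact_mod_cast h2
    nlinarith
  have hw : 0 < p * q - 1 := by linarith
  have h3 : (m - 2 + 1 / 50 + 3 / (4 * (m - 2))) * (p * q - 1) ≤ 2 * (p + q + 2) := by
    have e : 2 * (p + 1) / (p * q - 1) + 2 * (q + 1) / (p * q - 1)
        = 2 * (p + q + 2) / (p * q - 1) := by
      rw [← add_div]; ring
    rw [e, le_div_iff₀ hw] at hsum
    exact hsum
  rcases le_total q p with hqp | hpq'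
  · exact no_solution_nab_core hn3 hA hA2 hm hm12 hp hq hqp hpq h3
      hucont hvcont hupos hvpos hu hv hpdeU hpdeV
  · refine no_solution_nab_core hn3 hA hA2 hm hm12 hq hp hpq' (by linarith) ?_
      hvcont hucont hvpos hupos hv hu hpdeV hpdeU
    have e : q * p - 1 = p * q - 1 := by ring
    rw [e]
    linarith

end Vale.Agent.Lib.P100.AB.V2
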