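import Mathlib

/-!
# P100: the uniform strip in every real dimension `m >= 5` (helper13). Generated.
Polynomial inequalities on `0 <= d <= 1/3`, `0 <= t <= 1`, exact Bernstein coefficients.
-/

set_option maxHeartbeats 4000000

noncomputable section

namespace Vale.Agent.Lib.P100.AB.V5

def pr1 (d t : ℝ) : ℝ := 1 + t ^ 2 + 2 * d - 3 * d * t ^ 2 - d ^ 2 * t ^ 2

def cr10 (t : ℝ) : ℝ := 1 + 2 * t ^ 2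

theorem cr10_nn {t : ℝ} (h0 : 0 ≤ t) (h1 : t ≤ 1) : 0 ≤ cr10 t := by
  obtain ⟨s, hs⟩ : ∃ s, s = 1 - t := ⟨_, rfl⟩
  have hs0 : 0 ≤ s := by rw [hs]; linarith
  have e : cr10 t = 1 * s ^ 2 + 2 * t ^ 1 * s ^ 1 + 3 * t ^ 2 := by rw [hs]; unfold cr10; ring
  rw [e]; positivity

def cr11 (t : ℝ) : ℝ := 10 + 6 * t ^ 2

theorem cr11_nn {t : ℝ} (h0 : 0 ≤ t) (h1 : t ≤ 1) : 0 ≤ cr11 t := by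
  obtain ⟨s, hs⟩ : ∃ s, s = 1 - t := ⟨_, rfl⟩
  have hs0 : 0 ≤ s := by rw [hs]; linarith
  have e : cr11 t = 10 * s ^ 2 + 20 * t ^ 1 * s ^ 1 + 16 * t ^ 2 := by rw [hs]; unfold cr11; ring
  rw [e]; positivity

def cr12 (t : ℝ) : ℝ := 21 - 2 * t ^ 2

theorem cr12_nn {t : ℝ} (h0 : 0 ≤ t) (h1 : t ≤ 1) : 0 ≤ cr12 t := by
  obtain ⟨s, hs⟩ : ∃ s, s = 1 - t := ⟨_, rfl⟩
  have hs0 : 0 ≤ s := by rw [hs]; linarith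
  have e : cr12 t = 21 * s ^ 2 + 42 * t ^ 1 * s ^ 1 + 19 * t ^ 2 := by rw [hs]; unfold cr12; ring
  rw [e]; positivity

theorem pr1_pos {d t : ℝ} (hd : 0 ≤ d) (hd3 : d ≤ 1 / 3) (h0 : 0 ≤ t) (h1 : t ≤ 1) : 0 < pr1 d t := by
  obtain ⟨τ, hτ⟩ : ∃ τ, τ = 1 - 3 * d := ⟨_, rfl⟩
  have h2 : 0 ≤ τ := by rw [hτ]; linarith
  have key : (2 : ℝ) * pr1 d t = 1 + (τ ^ 2 * cr10 t + (d ^ 1 * τ ^ 1 * cr11 t + (d ^ 2 * cr12 t))) := by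
    rw [hτ]; unfold pr1 cr10 cr11 cr12; ring
  have h3 : 0 < (2 : ℝ) * pr1 d t := by
    rw [key]; exact add_pos_of_pos_of_nonneg one_pos (add_nonneg (mul_nonneg (by positivity) (cr10_nn h0 h1)) (add_nonneg (mul_nonneg (by positivity) (cr11_nn h0 h1)) (mul_nonneg (by positivity) (cr12_nn h0 h1))))
  exact (mul_pos_iff_of_pos_left (by norm_num)).mp h3

def pr6 (d t : ℝ) : ℝ := 1 + t ^ 2 - 3 * d + 2 * d * t ^ 2 + 3 * d ^ 2 - 4 * d ^ 2 * t ^ 2 + d ^ 3 - d ^ 3 * t ^ 4 - d ^ 4 + 2 * d ^ 4 * t ^ 2 - d ^ 4 * t ^ 4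

def cr60 (t : ℝ) : ℝ := 7 + 8 * t ^ 2

theorem cr60_nn {t : ℝ} (h0 : 0 ≤ t) (h1 : t ≤ 1) : 0 ≤ cr60 t := by
  obtain ⟨s, hs⟩ : ∃ s, s = 1 - t := ⟨_, rfl⟩
  have hs0 : 0 ≤ s := by rw [hs]; linarith
  have e : cr60 t = 7 * s ^ 4 + 28 * t ^ 1 * s ^ 3 + 50 * t ^ 2 * s ^ 2 + 44 * t ^ 3 * s ^ 1 + 15 * t ^ 4 := by rw [hs]; unfold cr60; ring
  rw [e]; positivity

def cr61 (t : ℝ) : ℝ := 60 + 112 * t ^ 2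

theorem cr61_nn {t : ℝ} (h0 : 0 ≤ t) (h1 : t ≤ 1) : 0 ≤ cr61 t := by
  obtain ⟨s, hs⟩ : ∃ s, s = 1 - t := ⟨_, rfl⟩
  have hs0 : 0 ≤ s := by rw [hs]; linarith
  have e : cr61 t = 60 * s ^ 4 + 240 * t ^ 1 * s ^ 3 + 472 * t ^ 2 * s ^ 2 + 464 * t ^ 3 * s ^ 1 + 172 * t ^ 4 := by rw [hs]; unfold cr61; ring
  rw [e]; positivity

def cr62 (t : ℝ) : ℝ := 186 + 544 * t ^ 2

theorem cr62_nn {t : ℝ} (h0 : 0 ≤ t) (h1 : t ≤ 1) : 0 ≤ cr62 t := by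
  obtain ⟨s, hs⟩ : ∃ s, s = 1 - t := ⟨_, rfl⟩
  have hs0 : 0 ≤ s := by rw [hs]; linarith
  have e : cr62 t = 186 * s ^ 4 + 744 * t ^ 1 * s ^ 3 + 1660 * t ^ 2 * s ^ 2 + 1832 * t ^ 3 * s ^ 1 + 730 * t ^ 4 := by rw [hs]; unfold cr62; ring
  rw [e]; positivity

def cr63 (t : ℝ) : ℝ := 260 + 1104 * t ^ 2 - 8 * t ^ 4

theorem cr63_nn {t : ℝ} (h0 : 0 ≤ t) (h1 : t ≤ 1) : 0 ≤ cr63 t := by
  obtain ⟨s, hs⟩ : ∃ s, s = 1 - t := ⟨_, rfl⟩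
  have hs0 : 0 ≤ s := by rw [hs]; linarith
  have e : cr63 t = 260 * s ^ 4 + 1040 * t ^ 1 * s ^ 3 + 2664 * t ^ 2 * s ^ 2 + 3248 * t ^ 3 * s ^ 1 + 1356 * t ^ 4 := by rw [hs]; unfold cr63; ring
  rw [e]; positivity

def cr64 (t : ℝ) : ℝ := 151 + 808 * t ^ 2 - 32 * t ^ 4

theorem cr64_nn {t : ℝ} (h0 : 0 ≤ t) (h1 : t ≤ 1) : 0 ≤ cr64 t := by
  obtain ⟨s, hs⟩ : ∃ s, s = 1 - t := ⟨_, rfl⟩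
  have hs0 : 0 ≤ s := by rw [hs]; linarith
  have e : cr64 t = 151 * s ^ 4 + 604 * t ^ 1 * s ^ 3 + 1714 * t ^ 2 * s ^ 2 + 2220 * t ^ 3 * s ^ 1 + 927 * t ^ 4 := by rw [hs]; unfold cr64; ring
  rw [e]; positivity

theorem pr6_pos {d t : ℝ} (hd : 0 ≤ d) (hd3 : d ≤ 1 / 3) (h0 : 0 ≤ t) (h1 : t ≤ 1) : 0 < pr6 d t := by
  obtain ⟨τ, hτ⟩ : ∃ τ, τ = 1 - 3 * d := ⟨_, rfl⟩
  have h2 : 0 ≤ τ := by rw [hτ]; linarith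
  have key : (8 : ℝ) * pr6 d t = 1 + (τ ^ 4 * cr60 t + (d ^ 1 * τ ^ 3 * cr61 t + (d ^ 2 * τ ^ 2 * cr62 t + (d ^ 3 * τ ^ 1 * cr63 t + (d ^ 4 * cr64 t))))) := by
    rw [hτ]; unfold pr6 cr60 cr61 cr62 cr63 cr64; ring
  have h3 : 0 < (8 : ℝ) * pr6 d t := by
    rw [key]; exact add_pos_of_pos_of_nonneg one_pos (add_nonneg (mul_nonneg (by positivity) (cr60_nn h0 h1)) (add_nonneg (mul_nonneg (by positivity) (cr61_nn h0 h1)) (add_nonneg (mul_nonneg (by positivity) (cr62_nn h0 h1)) (add_nonneg (mul_nonneg (by positivity) (cr63_nn h0 h1)) (mul_nonneg (by positivity) (cr64_nn h0 h1))))))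
  exact (mul_pos_iff_of_pos_left (by norm_num)).mp h3

def pr3 (d t : ℝ) : ℝ := 64 + 256 * t ^ 2 + 384 * t ^ 4 + 256 * t ^ 6 + 64 * t ^ 8 - 32 * d + 128 * d * t - 320 * d * t ^ 2 + 384 * d * t ^ 3 - 576 * d * t ^ 4 + 384 * d * t ^ 5 - 320 * d * t ^ 6 + 128 * d * t ^ 7 - 32 * d * t ^ 8 - 88 * d ^ 2 * t + 480 * d ^ 2 * t ^ 2 - 776 * d ^ 2 * t ^ 3 + 960 * d ^ 2 * t ^ 4 - 776 * d ^ 2 * t ^ 5 + 480 * d ^ 2 * t ^ 6 - 88 * d ^ 2 * t ^ 7 - 121 * d ^ 3 * t ^ 2 + 352 * d ^ 3 * t ^ 3 - 498 * d ^ 3 * t ^ 4 + 352 * d ^ 3 * t ^ 5 - 121 * d ^ 3 * t ^ 6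

def cr30 (t : ℝ) : ℝ := 63 + 256 * t ^ 2 + 384 * t ^ 4 + 256 * t ^ 6 + 64 * t ^ 8

theorem cr30_nn {t : ℝ} (h0 : 0 ≤ t) (h1 : t ≤ 1) : 0 ≤ cr30 t := by
  obtain ⟨s, hs⟩ : ∃ s, s = 1 - t := ⟨_, rfl⟩
  have hs0 : 0 ≤ s := by rw [hs]; linarith
  have e : cr30 t = 63 * s ^ 8 + 504 * t ^ 1 * s ^ 7 + 2020 * t ^ 2 * s ^ 6 + 5064 * t ^ 3 * s ^ 5 + 8634 * t ^ 4 * s ^ 4 + 10184 * t ^ 5 * s ^ 3 + 8164 * t ^ 6 * s ^ 2 + 4088 * t ^ 7 * s ^ 1 + 1023 * t ^ 8 := by rw [hs]; unfold cr30; ring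
  rw [e]; positivity

def cr31 (t : ℝ) : ℝ := 535 + 128 * t + 1984 * t ^ 2 + 384 * t ^ 3 + 2880 * t ^ 4 + 384 * t ^ 5 + 1984 * t ^ 6 + 128 * t ^ 7 + 544 * t ^ 8

theorem cr31_nn {t : ℝ} (h0 : 0 ≤ t) (h1 : t ≤ 1) : 0 ≤ cr31 t := by
  obtain ⟨s, hs⟩ : ∃ s, s = 1 - t := ⟨_, rfl⟩
  have hs0 : 0 ≤ s := by rw [hs]; linarith
  have e : cr31 t = 535 * s ^ 8 + 4408 * t ^ 1 * s ^ 7 + 17860 * t ^ 2 * s ^ 6 + 44936 * t ^ 3 * s ^ 5 + 76490 * t ^ 4 * s ^ 4 + 89864 * t ^ 5 * s ^ 3 + 71684 * t ^ 6 * s ^ 2 + 35768 * t ^ 7 * s ^ 1 + 8951 * t ^ 8 := by rw [hs]; unfold cr31; ring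
  rw [e]; positivity

def cr32 (t : ℝ) : ℝ := 1509 + 680 * t + 5472 * t ^ 2 + 1528 * t ^ 3 + 7872 * t ^ 4 + 1528 * t ^ 5 + 5472 * t ^ 6 + 680 * t ^ 7 + 1536 * t ^ 8

theorem cr32_nn {t : ℝ} (h0 : 0 ≤ t) (h1 : t ≤ 1) : 0 ≤ cr32 t := by
  obtain ⟨s, hs⟩ : ∃ s, s = 1 - t := ⟨_, rfl⟩
  have hs0 : 0 ≤ s := by rw [hs]; linarith
  have e : cr32 t = 1509 * s ^ 8 + 12752 * t ^ 1 * s ^ 7 + 52484 * t ^ 2 * s ^ 6 + 133144 * t ^ 3 * s ^ 5 + 227022 * t ^ 4 * s ^ 4 + 266040 * t ^ 5 * s ^ 3 + 211180 * t ^ 6 * s ^ 2 + 105000 * t ^ 7 * s ^ 1 + 26277 * t ^ 8 := by rw [hs]; unfold cr32; ring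
  rw [e]; positivity

def cr33 (t : ℝ) : ℝ := 1413 + 888 * t + 5351 * t ^ 2 + 1480 * t ^ 3 + 7566 * t ^ 4 + 1480 * t ^ 5 + 5351 * t ^ 6 + 888 * t ^ 7 + 1440 * t ^ 8

theorem cr33_nn {t : ℝ} (h0 : 0 ≤ t) (h1 : t ≤ 1) : 0 ≤ cr33 t := by
  obtain ⟨s, hs⟩ : ∃ s, s = 1 - t := ⟨_, rfl⟩
  have hs0 : 0 ≤ s := by rw [hs]; linarith
  have e : cr33 t = 1413 * s ^ 8 + 12192 * t ^ 1 * s ^ 7 + 51131 * t ^ 2 * s ^ 6 + 131362 * t ^ 3 * s ^ 5 + 225221 * t ^ 4 * s ^ 4 + 263772 * t ^ 5 * s ^ 3 + 208464 * t ^ 6 * s ^ 2 + 103320 * t ^ 7 * s ^ 1 + 25857 * t ^ 8 := by rw [hs]; unfold cr33; ring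
  rw [e]; positivity

theorem pr3_pos {d t : ℝ} (hd : 0 ≤ d) (hd3 : d ≤ 1 / 3) (h0 : 0 ≤ t) (h1 : t ≤ 1) : 0 < pr3 d t := by
  obtain ⟨τ, hτ⟩ : ∃ τ, τ = 1 - 3 * d := ⟨_, rfl⟩
  have h2 : 0 ≤ τ := by rw [hτ]; linarith
  have key : (1 : ℝ) * pr3 d t = 1 + (τ ^ 3 * cr30 t + (d ^ 1 * τ ^ 2 * cr31 t + (d ^ 2 * τ ^ 1 * cr32 t + (d ^ 3 * cr33 t)))) := by
    rw [hτ]; unfold pr3 cr30 cr31 cr32 cr33; ring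
  have h3 : 0 < (1 : ℝ) * pr3 d t := by
    rw [key]; exact add_pos_of_pos_of_nonneg one_pos (add_nonneg (mul_nonneg (by positivity) (cr30_nn h0 h1)) (add_nonneg (mul_nonneg (by positivity) (cr31_nn h0 h1)) (add_nonneg (mul_nonneg (by positivity) (cr32_nn h0 h1)) (mul_nonneg (by positivity) (cr33_nn h0 h1)))))
  exact (mul_pos_iff_of_pos_left (by norm_num)).mp h3

def pE2 (d t : ℝ) : ℝ := 1 + t ^ 2 - 2 * d + 2 * d * t ^ 2 + 2 * d ^ 2 - 2 * d ^ 2 * t ^ 2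

def cE20 (t : ℝ) : ℝ := 3 + 4 * t ^ 2

theorem cE20_nn {t : ℝ} (h0 : 0 ≤ t) (h1 : t ≤ 1) : 0 ≤ cE20 t := by
  obtain ⟨s, hs⟩ : ∃ s, s = 1 - t := ⟨_, rfl⟩
  have hs0 : 0 ≤ s := by rw [hs]; linarith
  have e : cE20 t = 3 * s ^ 2 + 6 * t ^ 1 * s ^ 1 + 7 * t ^ 2 := by rw [hs]; unfold cE20; ring
  rw [e]; positivity

def cE21 (t : ℝ) : ℝ := 10 + 32 * t ^ 2

theorem cE21_nn {t : ℝ} (h0 : 0 ≤ t) (h1 : t ≤ 1) : 0 ≤ cE21 t := by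
  obtain ⟨s, hs⟩ : ∃ s, s = 1 - t := ⟨_, rfl⟩
  have hs0 : 0 ≤ s := by rw [hs]; linarith
  have e : cE21 t = 10 * s ^ 2 + 20 * t ^ 1 * s ^ 1 + 42 * t ^ 2 := by rw [hs]; unfold cE21; ring
  rw [e]; positivity

def cE22 (t : ℝ) : ℝ := 11 + 52 * t ^ 2

theorem cE22_nn {t : ℝ} (h0 : 0 ≤ t) (h1 : t ≤ 1) : 0 ≤ cE22 t := by
  obtain ⟨s, hs⟩ : ∃ s, s = 1 - t := ⟨_, rfl⟩
  have hs0 : 0 ≤ s := by rw [hs]; linarith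
  have e : cE22 t = 11 * s ^ 2 + 22 * t ^ 1 * s ^ 1 + 63 * t ^ 2 := by rw [hs]; unfold cE22; ring
  rw [e]; positivity

theorem pE2_pos {d t : ℝ} (hd : 0 ≤ d) (hd3 : d ≤ 1 / 3) (h0 : 0 ≤ t) (h1 : t ≤ 1) : 0 < pE2 d t := by
  obtain ⟨τ, hτ⟩ : ∃ τ, τ = 1 - 3 * d := ⟨_, rfl⟩
  have h2 : 0 ≤ τ := by rw [hτ]; linarith
  have key : (4 : ℝ) * pE2 d t = 1 + (τ ^ 2 * cE20 t + (d ^ 1 * τ ^ 1 * cE21 t + (d ^ 2 * cE22 t))) := by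
    rw [hτ]; unfold pE2 cE20 cE21 cE22; ring
  have h3 : 0 < (4 : ℝ) * pE2 d t := by
    rw [key]; exact add_pos_of_pos_of_nonneg one_pos (add_nonneg (mul_nonneg (by positivity) (cE20_nn h0 h1)) (add_nonneg (mul_nonneg (by positivity) (cE21_nn h0 h1)) (mul_nonneg (by positivity) (cE22_nn h0 h1))))
  exact (mul_pos_iff_of_pos_left (by norm_num)).mp h3

def pDP (d t : ℝ) : ℝ := 96 - 256 * t + 576 * t ^ 2 - 1024 * t ^ 3 + 1440 * t ^ 4 - 1280 * t ^ 5 + 1920 * t ^ 6 + 1440 * t ^ 8 + 1280 * t ^ 9 + 576 * t ^ 10 + 1024 * t ^ 11 + 96 * t ^ 12 + 256 * t ^ 13 + 167 * d - 336 * d * t + 1642 * d * t ^ 2 - 3136 * d * t ^ 3 + 5193 * d * t ^ 4 - 7056 * d * t ^ 5 + 7628 * d * t ^ 6 - 5632 * d * t ^ 7 + 5577 * d * t ^ 8 - 880 * d * t ^ 9 + 1770 * d * t ^ 10 + 576 * d * t ^ 11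 + 39 * d * t ^ 12 + 80 * d * t ^ 13 - 64 * d * t ^ 14 - 473 * d ^ 2 + 1376 * d ^ 2 * t - 1928 * d ^ 2 * t ^ 2 + 2384 * d ^ 2 * t ^ 3 - 4095 * d ^ 2 * t ^ 4 + 2640 * d ^ 2 * t ^ 5 - 4832 * d ^ 2 * t ^ 6 + 4384 * d ^ 2 * t ^ 7 - 3967 * d ^ 2 * t ^ 8 + 512 * d ^ 2 * t ^ 9 - 3336 * d ^ 2 * t ^ 10 - 5232 * d ^ 2 * t ^ 11 - 1881 * d ^ 2 * t ^ 12 - 2992 * d ^ 2 * t ^ 13 - 320 * d ^ 2 * t ^ 14 - 323 * d ^ 3 + 320 * d ^ 3 * t - 3220 * d ^ 3 * t ^ 2 + 6832 * d ^ 3 * t ^ 3 - 5997 * d ^ 3 * t ^ 4 + 5520 * d ^ 3 * t ^ 5 - 8936 * d ^ 3 * t ^ 6 + 19104 * d ^ 3 * t ^ 7 - 18117 * d ^ 3 * t ^ 8 + 24224 * d ^ 3 * t ^ 9 - 18420 * d ^ 3 * t ^ 10 + 1456 * d ^ 3 * t ^ 11 - 5307 * d ^ 3 * t ^ 12 - 2672 * d ^ 3 * t ^ 13 + 832 * d ^ 3 * t ^ 14 + 1575 * d ^ 4 - 4288 * d ^ 4 * t + 7900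 * d ^ 4 * t ^ 2 - 10208 * d ^ 4 * t ^ 3 + 18931 * d ^ 4 * t ^ 4 - 17824 * d ^ 4 * t ^ 5 + 13384 * d ^ 4 * t ^ 6 - 15424 * d ^ 4 * t ^ 7 + 11149 * d ^ 4 * t ^ 8 - 5120 * d ^ 4 * t ^ 9 - 3924 * d ^ 4 * t ^ 10 + 4640 * d ^ 4 * t ^ 11 - 983 * d ^ 4 * t ^ 12 + 6240 * d ^ 4 * t ^ 13 + 3072 * d ^ 4 * t ^ 14 + 233 * d ^ 5 + 416 * d ^ 5 * t + 2670 * d ^ 5 * t ^ 2 - 8416 * d ^ 5 * t ^ 3 - 10093 * d ^ 5 * t ^ 4 + 33088 * d ^ 5 * t ^ 5 - 31372 * d ^ 5 * t ^ 6 + 19840 * d ^ 5 * t ^ 7 + 12823 * d ^ 5 * t ^ 8 - 44960 * d ^ 5 * t ^ 9 + 27246 * d ^ 5 * t ^ 10 - 16800 * d ^ 5 * t ^ 11 + 10685 * d ^ 5 * t ^ 12 + 6080 * d ^ 5 * t ^ 13 + 768 * d ^ 5 * t ^ 14 - 1408 * d ^ 6 + 3456 * d ^ 6 * t - 4980 * d ^ 6 * t ^ 2 + 6400 * d ^ 6 * t ^ 3 - 3724 * d ^ 6 * t ^ 4 - 9344 * d ^ 6 * t ^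 5 + 16792 * d ^ 6 * t ^ 6 + 1664 * d ^ 6 * t ^ 7 - 17224 * d ^ 6 * t ^ 8 + 13056 * d ^ 6 * t ^ 9 - 10564 * d ^ 6 * t ^ 10 - 2432 * d ^ 6 * t ^ 11 + 10292 * d ^ 6 * t ^ 12 - 1536 * d ^ 6 * t ^ 13 - 1024 * d ^ 6 * t ^ 14 + 484 * d ^ 7 - 1408 * d ^ 7 * t + 1024 * d ^ 7 * t ^ 2 + 1408 * d ^ 7 * t ^ 3 + 768 * d ^ 7 * t ^ 4 - 8320 * d ^ 7 * t ^ 5 + 11040 * d ^ 7 * t ^ 6 - 5760 * d ^ 7 * t ^ 7 - 3212 * d ^ 7 * t ^ 8 + 12544 * d ^ 7 * t ^ 9 - 14112 * d ^ 7 * t ^ 10 + 4352 * d ^ 7 * t ^ 11 + 4008 * d ^ 7 * t ^ 12 - 2816 * d ^ 7 * t ^ 13 - 968 * d ^ 8 * t ^ 4 + 2816 * d ^ 8 * t ^ 5 - 2048 * d ^ 8 * t ^ 6 - 2816 * d ^ 8 * t ^ 7 + 6032 * d ^ 8 * t ^ 8 - 2816 * d ^ 8 * t ^ 9 - 2048 * d ^ 8 * t ^ 10 + 2816 * d ^ 8 * t ^ 11 - 968 * d ^ 8 * t ^ 12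

def cDP0 (t : ℝ) : ℝ := 95 - 256 * t + 576 * t ^ 2 - 1024 * t ^ 3 + 1440 * t ^ 4 - 1280 * t ^ 5 + 1920 * t ^ 6 + 1440 * t ^ 8 + 1280 * t ^ 9 + 576 * t ^ 10 + 1024 * t ^ 11 + 96 * t ^ 12 + 256 * t ^ 13

theorem cDP0_nn {t : ℝ} (h0 : 0 ≤ t) (h1 : t ≤ 1) : 0 ≤ cDP0 t := by
  obtain ⟨s, hs⟩ : ∃ s, s = 1 - t := ⟨_, rfl⟩
  have hs0 : 0 ≤ s := by rw [hs]; linarith
  have e : cDP0 t = 95 * s ^ 14 + 1074 * t ^ 1 * s ^ 13 + 5893 * t ^ 2 * s ^ 12 + 20500 * t ^ 3 * s ^ 11 + 50071 * t ^ 4 * s ^ 10 + 90670 * t ^ 5 * s ^ 9 + 127173 * t ^ 6 * s ^ 8 + 147096 * t ^ 7 * s ^ 7 + 155205 * t ^ 8 * s ^ 6 + 162862 * t ^ 9 * s ^ 5 + 163351 * t ^ 10 * s ^ 4 + 136852 * t ^ 11 * s ^ 3 + 83877 * t ^ 12 * s ^ 2 + 32754 * t ^ 13 * s ^ 1 + 6143 * t ^ 14 := by rw [hs]; unfold cDP0; ring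
  rw [e]; positivity

def cDP1 (t : ℝ) : ℝ := 2447 - 6480 * t + 15466 * t ^ 2 - 27712 * t ^ 3 + 39753 * t ^ 4 - 37776 * t ^ 5 + 53708 * t ^ 6 - 5632 * t ^ 7 + 40137 * t ^ 8 + 29840 * t ^ 9 + 15594 * t ^ 10 + 25152 * t ^ 11 + 2343 * t ^ 12 + 6224 * t ^ 13 - 64 * t ^ 14

theorem cDP1_nn {t : ℝ} (h0 : 0 ≤ t) (h1 : t ≤ 1) : 0 ≤ cDP1 t := by
  obtain ⟨s, hs⟩ : ∃ s, s = 1 - t := ⟨_, rfl⟩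
  have hs0 : 0 ≤ s := by rw [hs]; linarith
  have e : cDP1 t = 2447 * s ^ 14 + 27778 * t ^ 1 * s ^ 13 + 153903 * t ^ 2 * s ^ 12 + 543148 * t ^ 3 * s ^ 11 + 1351844 * t ^ 4 * s ^ 10 + 2503808 * t ^ 5 * s ^ 9 + 3594380 * t ^ 6 * s ^ 8 + 4216992 * t ^ 7 * s ^ 7 + 4395784 * t ^ 8 * s ^ 6 + 4423280 * t ^ 9 * s ^ 5 + 4244600 * t ^ 10 * s ^ 4 + 3463840 * t ^ 11 * s ^ 3 + 2100152 * t ^ 12 * s ^ 2 + 817328 * t ^ 13 * s ^ 1 + 153000 * t ^ 14 := by rw [hs]; unfold cDP1; ring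
  rw [e]; positivity

def cDP2 (t : ℝ) : ℝ := 26974 - 70192 * t + 177706 * t ^ 2 - 321520 * t ^ 3 + 467838 * t ^ 4 - 468096 * t ^ 5 + 639196 * t ^ 6 - 113888 * t ^ 7 + 476030 * t ^ 8 + 304592 * t ^ 9 + 178986 * t ^ 10 + 264912 * t ^ 11 + 23130 * t ^ 12 + 63200 * t ^ 13 - 1664 * t ^ 14

theorem cDP2_nn {t : ℝ} (h0 : 0 ≤ t) (h1 : t ≤ 1) : 0 ≤ cDP2 t := by
  obtain ⟨s, hs⟩ : ∃ s, s = 1 - t := ⟨_, rfl⟩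
  have hs0 : 0 ≤ s := by rw [hs]; linarith
  have e : cDP2 t = 26974 * s ^ 14 + 307444 * t ^ 1 * s ^ 13 + 1719844 * t ^ 2 * s ^ 12 + 6154512 * t ^ 3 * s ^ 11 + 15585776 * t ^ 4 * s ^ 10 + 29436672 * t ^ 5 * s ^ 9 + 43058530 * t ^ 6 * s ^ 8 + 51055632 * t ^ 7 * s ^ 7 + 52713772 * t ^ 8 * s ^ 6 + 51344936 * t ^ 9 * s ^ 5 + 47542484 * t ^ 10 * s ^ 4 + 37964912 * t ^ 11 * s ^ 3 + 22809900 * t ^ 12 * s ^ 2 + 8842040 * t ^ 13 * s ^ 1 + 1647204 * t ^ 14 := by rw [hs]; unfold cDP2; ring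
  rw [e]; positivity

def cDP3 (t : ℝ) : ℝ := 166366 - 425488 * t + 1143326 * t ^ 2 - 2091248 * t ^ 3 + 3079050 * t ^ 4 - 3215904 * t ^ 5 + 4248820 * t ^ 6 - 966432 * t ^ 7 + 3141810 * t ^ 8 + 1802480 * t ^ 9 + 1126974 * t ^ 10 + 1564432 * t ^ 11 + 113358 * t ^ 12 + 345664 * t ^ 13 - 17024 * t ^ 14

theorem cDP3_nn {t : ℝ} (h0 : 0 ≤ t) (h1 : t ≤ 1) : 0 ≤ cDP3 t := by
  obtain ⟨s, hs⟩ : ∃ s, s = 1 - t := ⟨_, rfl⟩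
  have hs0 : 0 ≤ s := by rw [hs]; linarith
  have e : cDP3 t = 166366 * s ^ 14 + 1903636 * t ^ 1 * s ^ 13 + 10751288 * t ^ 2 * s ^ 12 + 38997824 * t ^ 3 * s ^ 11 + 100377636 * t ^ 4 * s ^ 10 + 192928488 * t ^ 5 * s ^ 9 + 286747426 * t ^ 6 * s ^ 8 + 342970640 * t ^ 7 * s ^ 7 + 351544648 * t ^ 8 * s ^ 6 + 333828176 * t ^ 9 * s ^ 5 + 300398376 * t ^ 10 * s ^ 4 + 235735648 * t ^ 11 * s ^ 3 + 140569160 * t ^ 12 * s ^ 2 + 54223696 * t ^ 13 * s ^ 1 + 10016184 * t ^ 14 := by rw [hs]; unfold cDP3; ring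
  rw [e]; positivity

def cDP4 (t : ℝ) : ℝ := 629340 - 1582768 * t + 4516930 * t ^ 2 - 8355488 * t ^ 3 + 12448336 * t ^ 4 - 13504144 * t ^ 5 + 17321884 * t ^ 6 - 4459264 * t ^ 7 + 12638914 * t ^ 8 + 6853360 * t ^ 9 + 4207986 * t ^ 10 + 5670560 * t ^ 11 + 246652 * t ^ 12 + 1089360 * t ^ 13 - 88128 * t ^ 14

theorem cDP4_nn {t : ℝ} (h0 : 0 ≤ t) (h1 : t ≤ 1) : 0 ≤ cDP4 t := by
  obtain ⟨s, hs⟩ : ∃ s, s = 1 - t := ⟨_, rfl⟩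
  have hs0 : 0 ≤ s := by rw [hs]; linarith
  have e : cDP4 t = 629340 * s ^ 14 + 7227992 * t ^ 1 * s ^ 13 + 41210886 * t ^ 2 * s ^ 12 + 151471528 * t ^ 3 * s ^ 11 + 395953040 * t ^ 4 * s ^ 10 + 773411536 * t ^ 5 * s ^ 9 + 1166070142 * t ^ 6 * s ^ 8 + 1405729456 * t ^ 7 * s ^ 7 + 1433525278 * t ^ 8 * s ^ 6 + 1334615700 * t ^ 9 * s ^ 5 + 1174004082 * t ^ 10 * s ^ 4 + 908695064 * t ^ 11 * s ^ 3 + 538397278 * t ^ 12 * s ^ 2 + 206360428 * t ^ 13 * s ^ 1 + 37633530 * t ^ 14 := by rw [hs]; unfold cDP4; ring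
  rw [e]; positivity

def cDP5 (t : ℝ) : ℝ := 1500848 - 3715408 * t + 11259828 * t ^ 2 - 21053824 * t ^ 3 + 31783724 * t ^ 4 - 35680400 * t ^ 5 + 44468456 * t ^ 6 - 12045248 * t ^ 7 + 31780216 * t ^ 8 + 17273680 * t ^ 9 + 9377076 * t ^ 10 + 12912192 * t ^ 11 - 77548 * t ^ 12 + 1935248 * t ^ 13 - 241728 * t ^ 14

theorem cDP5_nn {t : ℝ} (h0 : 0 ≤ t) (h1 : t ≤ 1) : 0 ≤ cDP5 t := by
  obtain ⟨s, hs⟩ : ∃ s, s = 1 - t := ⟨_, rfl⟩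
  have hs0 : 0 ≤ s := by rw [hs]; linarith
  have e : cDP5 t = 1500848 * s ^ 14 + 17296464 * t ^ 1 * s ^ 13 + 99536692 * t ^ 2 * s ^ 12 + 370570960 * t ^ 3 * s ^ 11 + 983082468 * t ^ 4 * s ^ 10 + 1949539656 * t ^ 5 * s ^ 9 + 2978662784 * t ^ 6 * s ^ 8 + 3618546944 * t ^ 7 * s ^ 7 + 3678629488 * t ^ 8 * s ^ 6 + 3372891040 * t ^ 9 * s ^ 5 + 2914193664 * t ^ 10 * s ^ 4 + 2231287936 * t ^ 11 * s ^ 3 + 1314264936 * t ^ 12 * s ^ 2 + 499456720 * t ^ 13 * s ^ 1 + 89477112 * t ^ 14 := by rw [hs]; unfold cDP5; ring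
  rw [e]; positivity

def cDP6 (t : ℝ) : ℝ := 2215175 - 5406192 * t + 17370168 * t ^ 2 - 32784272 * t ^ 3 + 50226257 * t ^ 4 - 58110176 * t ^ 5 + 70290304 * t ^ 6 - 18908128 * t ^ 7 + 48841445 * t ^ 8 + 28131216 * t ^ 9 + 11785736 * t ^ 10 + 17974384 * t ^ 11 - 1506361 * t ^ 12 + 1667136 * t ^ 13 - 318976 * t ^ 14

theorem cDP6_nn {t : ℝ} (h0 : 0 ≤ t) (h1 : t ≤ 1) : 0 ≤ cDP6 t := by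
  obtain ⟨s, hs⟩ : ∃ s, s = 1 - t := ⟨_, rfl⟩
  have hs0 : 0 ≤ s := by rw [hs]; linarith
  have e : cDP6 t = 2215175 * s ^ 14 + 25606258 * t ^ 1 * s ^ 13 + 148670597 * t ^ 2 * s ^ 12 + 560298468 * t ^ 3 * s ^ 11 + 1507249616 * t ^ 4 * s ^ 10 + 3031807464 * t ^ 5 * s ^ 9 + 4690709986 * t ^ 6 * s ^ 8 + 5742417232 * t ^ 7 * s ^ 7 + 5829718868 * t ^ 8 * s ^ 6 + 5283351448 * t ^ 9 * s ^ 5 + 4500618380 * t ^ 10 * s ^ 4 + 3415811856 * t ^ 11 * s ^ 3 + 1999532172 * t ^ 12 * s ^ 2 + 751208760 * t ^ 13 * s ^ 1 + 131467716 * t ^ 14 := by rw [hs]; unfold cDP6; ring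
  rw [e]; positivity

def cDP7 (t : ℝ) : ℝ := 1862299 - 4490320 * t + 15238132 * t ^ 2 - 28965968 * t ^ 3 + 45045285 * t ^ 4 - 53412928 * t ^ 5 + 62564088 * t ^ 6 - 15736992 * t ^ 7 + 41976157 * t ^ 8 + 26785456 * t ^ 9 + 7020372 * t ^ 10 + 13853936 * t ^ 11 - 2765109 * t ^ 12 + 268768 * t ^ 13 - 109824 * t ^ 14

theorem cDP7_nn {t : ℝ} (h0 : 0 ≤ t) (h1 : t ≤ 1) : 0 ≤ cDP7 t := by
  obtain ⟨s, hs⟩ : ∃ s, s = 1 - t := ⟨_, rfl⟩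
  have hs0 : 0 ≤ s := by rw [hs]; linarith
  have e : cDP7 t = 1862299 * s ^ 14 + 21581866 * t ^ 1 * s ^ 13 + 126333181 * t ^ 2 * s ^ 12 + 481523492 * t ^ 3 * s ^ 11 + 1312066128 * t ^ 4 * s ^ 10 + 2674044520 * t ^ 5 * s ^ 9 + 4185818238 * t ^ 6 * s ^ 8 + 5163196656 * t ^ 7 * s ^ 7 + 5241287104 * t ^ 8 * s ^ 6 + 4708741472 * t ^ 9 * s ^ 5 + 3966450768 * t ^ 10 * s ^ 4 + 2987505216 * t ^ 11 * s ^ 3 + 1735718616 * t ^ 12 * s ^ 2 + 642186288 * t ^ 13 * s ^ 1 + 109133352 * t ^ 14 := by rw [hs]; unfold cDP7; ring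
  rw [e]; positivity

def cDP8 (t : ℝ) : ℝ := 687864 - 1642800 * t + 5852460 * t ^ 2 - 11171040 * t ^ 3 + 17591125 * t ^ 4 - 21220240 * t ^ 5 + 24004840 * t ^ 6 - 5197760 * t ^ 7 + 15441035 * t ^ 8 + 11256880 * t ^ 9 + 1020460 * t ^ 10 + 4434080 * t ^ 11 - 1633145 * t ^ 12 - 328560 * t ^ 13 + 89280 * t ^ 14

theorem cDP8_nn {t : ℝ} (h0 : 0 ≤ t) (h1 : t ≤ 1) : 0 ≤ cDP8 t := by
  obtain ⟨s, hs⟩ : ∃ s, s = 1 - t := ⟨_, rfl⟩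
  have hs0 : 0 ≤ s := by rw [hs]; linarith
  have e : cDP8 t = 687864 * s ^ 14 + 7987296 * t ^ 1 * s ^ 13 + 47091684 * t ^ 2 * s ^ 12 + 181302576 * t ^ 3 * s ^ 11 + 499683109 * t ^ 4 * s ^ 10 + 1030326738 * t ^ 5 * s ^ 9 + 1629741397 * t ^ 6 * s ^ 8 + 2024256888 * t ^ 7 * s ^ 7 + 2056091677 * t ^ 8 * s ^ 6 + 1835182398 * t ^ 9 * s ^ 5 + 1532197959 * t ^ 10 * s ^ 4 + 1145550996 * t ^ 11 * s ^ 3 + 658943109 * t ^ 12 * s ^ 2 + 238925106 * t ^ 13 * s ^ 1 + 39184479 * t ^ 14 := by rw [hs]; unfold cDP8; ring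
  rw [e]; positivity

theorem pDP_pos {d t : ℝ} (hd : 0 ≤ d) (hd3 : d ≤ 1 / 3) (h0 : 0 ≤ t) (h1 : t ≤ 1) : 0 < pDP d t := by
  obtain ⟨τ, hτ⟩ : ∃ τ, τ = 1 - 3 * d := ⟨_, rfl⟩
  have h2 : 0 ≤ τ := by rw [hτ]; linarith
  have key : (1 : ℝ) * pDP d t = 1 + (τ ^ 8 * cDP0 t + (d ^ 1 * τ ^ 7 * cDP1 t + (d ^ 2 * τ ^ 6 * cDP2 t + (d ^ 3 * τ ^ 5 * cDP3 t + (d ^ 4 * τ ^ 4 * cDP4 t + (d ^ 5 * τ ^ 3 * cDP5 t + (d ^ 6 * τ ^ 2 * cDP6 t + (d ^ 7 * τ ^ 1 * cDP7 t + (d ^ 8 * cDP8 t))))))))) := by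
    rw [hτ]; unfold pDP cDP0 cDP1 cDP2 cDP3 cDP4 cDP5 cDP6 cDP7 cDP8; ring
  have h3 : 0 < (1 : ℝ) * pDP d t := by
    rw [key]; exact add_pos_of_pos_of_nonneg one_pos (add_nonneg (mul_nonneg (by positivity) (cDP0_nn h0 h1)) (add_nonneg (mul_nonneg (by positivity) (cDP1_nn h0 h1)) (add_nonneg (mul_nonneg (by positivity) (cDP2_nn h0 h1)) (add_nonneg (mul_nonneg (by positivity) (cDP3_nn h0 h1)) (add_nonneg (mul_nonneg (by positivity) (cDP4_nn h0 h1)) (add_nonneg (mul_nonneg (by positivity) (cDP5_nn h0 h1)) (add_nonneg (mul_nonneg (by positivity) (cDP6_nn h0 h1)) (add_nonneg (mul_nonneg (by positivity) (cDP7_nn h0 h1)) (mul_nonneg (by positivity) (cDP8_nn h0 h1))))))))))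
  exact (mul_pos_iff_of_pos_left (by norm_num)).mp h3


end Vale.Agent.Lib.P100.AB.V5
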