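import Mathlib

/-!
# P100: the uniform strip in every real dimension `m >= 5` (helper13). Generated.
Polynomial inequalities on `0 <= d <= 1/3`, `0 <= t <= 1`, exact Bernstein coefficients.
-/

set_option maxHeartbeats 4000000

noncomputable section

namespace Vale.Agent.Lib.P100.AB.V5

def pL10 (d t : ℝ) : ℝ := 32 + 32 * t + 160 * t ^ 2 + 160 * t ^ 3 + 320 * t ^ 4 + 320 * t ^ 5 + 320 * t ^ 6 + 320 * t ^ 7 + 160 * t ^ 8 + 160 * t ^ 9 + 32 * t ^ 10 + 32 * t ^ 11 + 64 * d + 64 * d * t + 432 * d * t ^ 2 + 468 * d * t ^ 3 + 960 * d * t ^ 4 + 1084 * d * t ^ 5 + 928 * d * t ^ 6 + 1084 * d * t ^ 7 + 384 * d * t ^ 8 + 468 * d * t ^ 9 + 48 * d * t ^ 10 + 64 * d * t ^ 11 + 424 * d ^ 2 * t ^ 2 + 672 * d ^ 2 * t ^ 3 + 1272 * d ^ 2 * t ^ 4 + 1296 * d ^ 2 * t ^ 5 + 760 *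 d ^ 2 * t ^ 6 + 320 * d ^ 2 * t ^ 7 - 344 * d ^ 2 * t ^ 8 - 560 * d ^ 2 * t ^ 9 - 256 * d ^ 2 * t ^ 10 - 256 * d ^ 2 * t ^ 11 - 176 * d ^ 3 * t ^ 2 + 488 * d ^ 3 * t ^ 3 + 544 * d ^ 3 * t ^ 4 - 40 * d ^ 3 * t ^ 5 + 80 * d ^ 3 * t ^ 6 - 1288 * d ^ 3 * t ^ 7 - 640 * d ^ 3 * t ^ 8 - 760 * d ^ 3 * t ^ 9 - 704 * d ^ 4 * t ^ 3 + 1376 * d ^ 4 * t ^ 4 - 1216 * d ^ 4 * t ^ 5 + 704 * d ^ 4 * t ^ 6 + 192 * d ^ 4 * t ^ 7 - 672 * d ^ 4 * t ^ 8 + 704 * d ^ 4 * t ^ 9 - 121 * d ^ 5 * t ^ 4 + 352 * d ^ 5 * t ^ 5 - 498 * d ^ 5 * t ^ 6 + 352 * d ^ 5 * t ^ 7 - 121 * d ^ 5 * t ^ 8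

def cL100 (t : ℝ) : ℝ := 31 + 32 * t + 160 * t ^ 2 + 160 * t ^ 3 + 320 * t ^ 4 + 320 * t ^ 5 + 320 * t ^ 6 + 320 * t ^ 7 + 160 * t ^ 8 + 160 * t ^ 9 + 32 * t ^ 10 + 32 * t ^ 11

theorem cL100_nn {t : ℝ} (h0 : 0 ≤ t) (h1 : t ≤ 1) : 0 ≤ cL100 t := by
  obtain ⟨s, hs⟩ : ∃ s, s = 1 - t := ⟨_, rfl⟩
  have hs0 : 0 ≤ s := by rw [hs]; linarith
  have e : cL100 t = 31 * s ^ 11 + 373 * t ^ 1 * s ^ 10 + 2185 * t ^ 2 * s ^ 9 + 8155 * t ^ 3 * s ^ 8 + 21430 * t ^ 4 * s ^ 7 + 41522 * t ^ 5 * s ^ 6 + 60466 * t ^ 6 * s ^ 5 + 66230 * t ^ 7 * s ^ 4 + 53595 * t ^ 8 * s ^ 3 + 30665 * t ^ 9 * s ^ 2 + 11253 * t ^ 10 * s ^ 1 + 2047 * t ^ 11 := by rw [hs]; unfold cL100; ring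
  rw [e]; positivity

def cL101 (t : ℝ) : ℝ := 529 + 544 * t + 2832 * t ^ 2 + 2868 * t ^ 3 + 5760 * t ^ 4 + 5884 * t ^ 5 + 5728 * t ^ 6 + 5884 * t ^ 7 + 2784 * t ^ 8 + 2868 * t ^ 9 + 528 * t ^ 10 + 544 * t ^ 11

theorem cL101_nn {t : ℝ} (h0 : 0 ≤ t) (h1 : t ≤ 1) : 0 ≤ cL101 t := by
  obtain ⟨s, hs⟩ : ∃ s, s = 1 - t := ⟨_, rfl⟩
  have hs0 : 0 ≤ s := by rw [hs]; linarith
  have e : cL101 t = 529 * s ^ 11 + 6363 * t ^ 1 * s ^ 10 + 37367 * t ^ 2 * s ^ 9 + 140121 * t ^ 3 * s ^ 8 + 370506 * t ^ 4 * s ^ 7 + 723034 * t ^ 5 * s ^ 6 + 1060918 * t ^ 6 * s ^ 5 + 1170786 * t ^ 7 * s ^ 4 + 953941 * t ^ 8 * s ^ 3 + 548855 * t ^ 9 * s ^ 2 + 202107 * t ^ 10 * s ^ 1 + 36753 * t ^ 11 := by rw [hs]; unfold cL101; ring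
  rw [e]; positivity

def cL102 (t : ℝ) : ℝ := 3558 + 3648 * t + 20008 * t ^ 2 + 20688 * t ^ 3 + 41592 * t ^ 4 + 43104 * t ^ 5 + 40696 * t ^ 6 + 42128 * t ^ 7 + 18664 * t ^ 8 + 19456 * t ^ 9 + 3200 * t ^ 10 + 3392 * t ^ 11

theorem cL102_nn {t : ℝ} (h0 : 0 ≤ t) (h1 : t ≤ 1) : 0 ≤ cL102 t := by
  obtain ⟨s, hs⟩ : ∃ s, s = 1 - t := ⟨_, rfl⟩
  have hs0 : 0 ≤ s := by rw [hs]; linarith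
  have e : cL102 t = 3558 * s ^ 11 + 42786 * t ^ 1 * s ^ 10 + 252178 * t ^ 2 * s ^ 9 + 951990 * t ^ 3 * s ^ 8 + 2539284 * t ^ 4 * s ^ 7 + 5004060 * t ^ 5 * s ^ 6 + 7415380 * t ^ 6 * s ^ 5 + 8257276 * t ^ 7 * s ^ 4 + 6775966 * t ^ 8 * s ^ 3 + 3914570 * t ^ 9 * s ^ 2 + 1441058 * t ^ 10 * s ^ 1 + 260134 * t ^ 11 := by rw [hs]; unfold cL102; ring
  rw [e]; positivity

def cL103 (t : ℝ) : ℝ := 11826 + 12096 * t + 70168 * t ^ 2 + 75008 * t ^ 3 + 150232 * t ^ 4 + 156560 * t ^ 5 + 143432 * t ^ 6 + 146528 * t ^ 7 + 60200 * t ^ 8 + 62672 * t ^ 9 + 8928 * t ^ 10 + 9792 * t ^ 11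

theorem cL103_nn {t : ℝ} (h0 : 0 ≤ t) (h1 : t ≤ 1) : 0 ≤ cL103 t := by
  obtain ⟨s, hs⟩ : ∃ s, s = 1 - t := ⟨_, rfl⟩
  have hs0 : 0 ≤ s := by rw [hs]; linarith
  have e : cL103 t = 11826 * s ^ 11 + 142182 * t ^ 1 * s ^ 10 + 841558 * t ^ 2 * s ^ 9 + 3202130 * t ^ 3 * s ^ 8 + 8630444 * t ^ 4 * s ^ 7 + 17206292 * t ^ 5 * s ^ 6 + 25791084 * t ^ 6 * s ^ 5 + 29004676 * t ^ 7 * s ^ 4 + 23967322 * t ^ 8 * s ^ 3 + 13881054 * t ^ 9 * s ^ 2 + 5091750 * t ^ 10 * s ^ 1 + 907442 * t ^ 11 := by rw [hs]; unfold cL103; ring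
  rw [e]; positivity

def cL104 (t : ℝ) : ℝ := 19467 + 19872 * t + 121848 * t ^ 2 + 135712 * t ^ 3 + 272264 * t ^ 4 + 280208 * t ^ 5 + 251528 * t ^ 6 + 247776 * t ^ 7 + 92472 * t ^ 8 + 96368 * t ^ 9 + 11232 * t ^ 10 + 12960 * t ^ 11

theorem cL104_nn {t : ℝ} (h0 : 0 ≤ t) (h1 : t ≤ 1) : 0 ≤ cL104 t := by
  obtain ⟨s, hs⟩ : ∃ s, s = 1 - t := ⟨_, rfl⟩
  have hs0 : 0 ≤ s := by rw [hs]; linarith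
  have e : cL104 t = 19467 * s ^ 11 + 234009 * t ^ 1 * s ^ 10 + 1391253 * t ^ 2 * s ^ 9 + 5338639 * t ^ 3 * s ^ 8 + 14553238 * t ^ 4 * s ^ 7 + 29388098 * t ^ 5 * s ^ 6 + 44604538 * t ^ 6 * s ^ 5 + 50687694 * t ^ 7 * s ^ 4 + 42164055 * t ^ 8 * s ^ 3 + 24447773 * t ^ 9 * s ^ 2 + 8912409 * t ^ 10 * s ^ 1 + 1561707 * t ^ 11 := by rw [hs]; unfold cL104; ring
  rw [e]; positivity

def cL105 (t : ℝ) : ℝ := 12717 + 12960 * t + 83736 * t ^ 2 + 97212 * t ^ 3 + 198767 * t ^ 4 + 196900 * t ^ 5 + 175782 * t ^ 6 + 163540 * t ^ 7 + 52799 * t ^ 8 + 56940 * t ^ 9 + 4752 * t ^ 10 + 6048 * t ^ 11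

theorem cL105_nn {t : ℝ} (h0 : 0 ≤ t) (h1 : t ≤ 1) : 0 ≤ cL105 t := by
  obtain ⟨s, hs⟩ : ∃ s, s = 1 - t := ⟨_, rfl⟩
  have hs0 : 0 ≤ s := by rw [hs]; linarith
  have e : cL105 t = 12717 * s ^ 11 + 152847 * t ^ 1 * s ^ 10 + 912771 * t ^ 2 * s ^ 9 + 3532341 * t ^ 3 * s ^ 8 + 9742769 * t ^ 4 * s ^ 7 + 19940883 * t ^ 5 * s ^ 6 + 30667071 * t ^ 6 * s ^ 5 + 35226581 * t ^ 7 * s ^ 4 + 29490825 * t ^ 8 * s ^ 3 + 17101071 * t ^ 9 * s ^ 2 + 6183675 * t ^ 10 * s ^ 1 + 1062153 * t ^ 11 := by rw [hs]; unfold cL105; ring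
  rw [e]; positivity

theorem pL10_pos {d t : ℝ} (hd : 0 ≤ d) (hd3 : d ≤ 1 / 3) (h0 : 0 ≤ t) (h1 : t ≤ 1) : 0 < pL10 d t := by
  obtain ⟨τ, hτ⟩ : ∃ τ, τ = 1 - 3 * d := ⟨_, rfl⟩
  have h2 : 0 ≤ τ := by rw [hτ]; linarith
  have key : (1 : ℝ) * pL10 d t = 1 + (τ ^ 5 * cL100 t + (d ^ 1 * τ ^ 4 * cL101 t + (d ^ 2 * τ ^ 3 * cL102 t + (d ^ 3 * τ ^ 2 * cL103 t + (d ^ 4 * τ ^ 1 * cL104 t + (d ^ 5 * cL105 t)))))) := by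
    rw [hτ]; unfold pL10 cL100 cL101 cL102 cL103 cL104 cL105; ring
  have h3 : 0 < (1 : ℝ) * pL10 d t := by
    rw [key]; exact add_pos_of_pos_of_nonneg one_pos (add_nonneg (mul_nonneg (by positivity) (cL100_nn h0 h1)) (add_nonneg (mul_nonneg (by positivity) (cL101_nn h0 h1)) (add_nonneg (mul_nonneg (by positivity) (cL102_nn h0 h1)) (add_nonneg (mul_nonneg (by positivity) (cL103_nn h0 h1)) (add_nonneg (mul_nonneg (by positivity) (cL104_nn h0 h1)) (mul_nonneg (by positivity) (cL105_nn h0 h1)))))))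
  exact (mul_pos_iff_of_pos_left (by norm_num)).mp h3

def pL1e (d t : ℝ) : ℝ := 160 + 160 * t + 400 * t ^ 2 + 1300 * t ^ 3 + 3100 * t ^ 5 - 800 * t ^ 6 + 3100 * t ^ 7 - 800 * t ^ 8 + 1300 * t ^ 9 - 240 * t ^ 10 + 160 * t ^ 11 + 672 * d - 608 * d * t + 3240 * d * t ^ 2 + 5960 * d * t ^ 3 + 11000 * d * t ^ 4 + 10280 * d * t ^ 5 + 7480 * d * t ^ 6 + 600 * d * t ^ 7 - 2040 * d * t ^ 8 - 2760 * d * t ^ 9 - 1088 * d * t ^ 10 + 352 * d * t ^ 11 - 896 * d ^ 2 - 2176 * d ^ 2 * t - 4768 * d ^ 2 * t ^ 2 + 16908 * d ^ 2 * t ^ 3 + 24320 * d ^ 2 * t ^ 4 + 13924 * d ^ 2 * t ^ 5 + 15888 * d ^ 2 * t ^ 6 - 26396 * d ^ 2 * t ^ 7 - 14816 * d ^ 2 * t ^ 8 - 22452 * d ^ 2 * t ^ 9 - 2512 * d ^ 2 * t ^ 10 - 1216 * d ^ 2 * t ^ 11 - 5336 * d ^ 3 * t ^ 2 - 8368 * d ^ 3 * t ^ 3 + 36792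 * d ^ 3 * t ^ 4 - 26144 * d ^ 3 * t ^ 5 + 22520 * d ^ 3 * t ^ 6 - 12080 * d ^ 3 * t ^ 7 - 19864 * d ^ 3 * t ^ 8 + 5440 * d ^ 3 * t ^ 9 - 256 * d ^ 3 * t ^ 10 - 256 * d ^ 3 * t ^ 11 - 1056 * d ^ 4 * t ^ 2 - 6152 * d ^ 4 * t ^ 3 + 9919 * d ^ 4 * t ^ 4 - 3480 * d ^ 4 * t ^ 5 - 5410 * d ^ 4 * t ^ 6 + 8072 * d ^ 4 * t ^ 7 - 9985 * d ^ 4 * t ^ 8 + 5400 * d ^ 4 * t ^ 9 - 704 * d ^ 5 * t ^ 3 + 166 * d ^ 5 * t ^ 4 + 2304 * d ^ 5 * t ^ 5 - 4276 * d ^ 5 * t ^ 6 + 3712 * d ^ 5 * t ^ 7 - 1882 * d ^ 5 * t ^ 8 + 704 * d ^ 5 * t ^ 9 - 121 * d ^ 6 * t ^ 4 + 352 * d ^ 6 * t ^ 5 - 498 * d ^ 6 * t ^ 6 + 352 * d ^ 6 * t ^ 7 - 121 * d ^ 6 * t ^ 8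

def cL1e0 (t : ℝ) : ℝ := 159 + 160 * t + 400 * t ^ 2 + 1300 * t ^ 3 + 3100 * t ^ 5 - 800 * t ^ 6 + 3100 * t ^ 7 - 800 * t ^ 8 + 1300 * t ^ 9 - 240 * t ^ 10 + 160 * t ^ 11

theorem cL1e0_nn {t : ℝ} (h0 : 0 ≤ t) (h1 : t ≤ 1) : 0 ≤ cL1e0 t := by
  obtain ⟨s, hs⟩ : ∃ s, s = 1 - t := ⟨_, rfl⟩
  have hs0 : 0 ≤ s := by rw [hs]; linarith
  have e : cL1e0 t = 159 * s ^ 11 + 1909 * t ^ 1 * s ^ 10 + 10745 * t ^ 2 * s ^ 9 + 38335 * t ^ 3 * s ^ 8 + 96470 * t ^ 4 * s ^ 7 + 180158 * t ^ 5 * s ^ 6 + 254778 * t ^ 6 * s ^ 5 + 273070 * t ^ 7 * s ^ 4 + 217435 * t ^ 8 * s ^ 3 + 122745 * t ^ 9 * s ^ 2 + 44309 * t ^ 10 * s ^ 1 + 7839 * t ^ 11 := by rw [hs]; unfold cL1e0; ring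
  rw [e]; positivity

def cL1e1 (t : ℝ) : ℝ := 3534 + 2272 * t + 10440 * t ^ 2 + 29360 * t ^ 3 + 11000 * t ^ 4 + 66080 * t ^ 5 - 6920 * t ^ 6 + 56400 * t ^ 7 - 16440 * t ^ 8 + 20640 * t ^ 9 - 5408 * t ^ 10 + 3232 * t ^ 11

theorem cL1e1_nn {t : ℝ} (h0 : 0 ≤ t) (h1 : t ≤ 1) : 0 ≤ cL1e1 t := by
  obtain ⟨s, hs⟩ : ∃ s, s = 1 - t := ⟨_, rfl⟩
  have hs0 : 0 ≤ s := by rw [hs]; linarith
  have e : cL1e1 t = 3534 * s ^ 11 + 41146 * t ^ 1 * s ^ 10 + 227530 * t ^ 2 * s ^ 9 + 808670 * t ^ 3 * s ^ 8 + 2060580 * t ^ 4 * s ^ 7 + 3951948 * t ^ 5 * s ^ 6 + 5785412 * t ^ 6 * s ^ 5 + 6411980 * t ^ 7 * s ^ 4 + 5223430 * t ^ 8 * s ^ 3 + 2957250 * t ^ 9 * s ^ 2 + 1041466 * t ^ 10 * s ^ 1 + 174190 * t ^ 11 := by rw [hs]; unfold cL1e1; ring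
  rw [e]; positivity

def cL1e2 (t : ℝ) : ℝ := 30649 + 10304 * t + 97832 * t ^ 2 + 281808 * t ^ 3 + 189320 * t ^ 4 + 586624 * t ^ 5 + 20088 * t ^ 6 + 401104 * t ^ 7 - 153416 * t ^ 8 + 111648 * t ^ 9 - 51232 * t ^ 10 + 25664 * t ^ 11

theorem cL1e2_nn {t : ℝ} (h0 : 0 ≤ t) (h1 : t ≤ 1) : 0 ≤ cL1e2 t := by
  obtain ⟨s, hs⟩ : ∃ s, s = 1 - t := ⟨_, rfl⟩
  have hs0 : 0 ≤ s := by rw [hs]; linarith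
  have e : cL1e2 t = 30649 * s ^ 11 + 347443 * t ^ 1 * s ^ 10 + 1886567 * t ^ 2 * s ^ 9 + 6683061 * t ^ 3 * s ^ 8 + 17316386 * t ^ 4 * s ^ 7 + 34344054 * t ^ 5 * s ^ 6 + 52380078 * t ^ 6 * s ^ 5 + 60258506 * t ^ 7 * s ^ 4 + 50303261 * t ^ 8 * s ^ 3 + 28595935 * t ^ 9 * s ^ 2 + 9836787 * t ^ 10 * s ^ 1 + 1550393 * t ^ 11 := by rw [hs]; unfold cL1e2; ring
  rw [e]; positivity

def cL1e3 (t : ℝ) : ℝ := 135588 + 5568 * t + 445048 * t ^ 2 + 1432928 * t ^ 3 + 1318632 * t ^ 4 + 2740144 * t ^ 5 + 454376 * t ^ 6 + 1399168 * t ^ 7 - 813256 * t ^ 8 + 189616 * t ^ 9 - 257920 * t ^ 10 + 103232 * t ^ 11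

theorem cL1e3_nn {t : ℝ} (h0 : 0 ≤ t) (h1 : t ≤ 1) : 0 ≤ cL1e3 t := by
  obtain ⟨s, hs⟩ : ∃ s, s = 1 - t := ⟨_, rfl⟩
  have hs0 : 0 ≤ s := by rw [hs]; linarith
  have e : cL1e3 t = 135588 * s ^ 11 + 1497036 * t ^ 1 * s ^ 10 + 7958068 * t ^ 2 * s ^ 9 + 28060940 * t ^ 3 * s ^ 8 + 74215984 * t ^ 4 * s ^ 7 + 153287520 * t ^ 5 * s ^ 6 + 244951320 * t ^ 6 * s ^ 5 + 293219656 * t ^ 7 * s ^ 4 + 250950356 * t ^ 8 * s ^ 3 + 143333660 * t ^ 9 * s ^ 2 + 48237388 * t ^ 10 * s ^ 1 + 7153124 * t ^ 11 := by rw [hs]; unfold cL1e3; ring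
  rw [e]; positivity

def cL1e4 (t : ℝ) : ℝ := 326241 - 87264 * t + 1054248 * t ^ 2 + 4020268 * t ^ 3 + 4624327 * t ^ 4 + 7055220 * t ^ 5 + 2102822 * t ^ 6 + 2402468 * t ^ 7 - 2511625 * t ^ 8 - 323748 * t ^ 9 - 723312 * t ^ 10 + 221472 * t ^ 11

theorem cL1e4_nn {t : ℝ} (h0 : 0 ≤ t) (h1 : t ≤ 1) : 0 ≤ cL1e4 t := by
  obtain ⟨s, hs⟩ : ∃ s, s = 1 - t := ⟨_, rfl⟩
  have hs0 : 0 ≤ s := by rw [hs]; linarith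
  have e : cL1e4 t = 326241 * s ^ 11 + 3501387 * t ^ 1 * s ^ 10 + 18124863 * t ^ 2 * s ^ 9 + 63411385 * t ^ 3 * s ^ 8 + 171927249 * t ^ 4 * s ^ 7 + 372947747 * t ^ 5 * s ^ 6 + 628248079 * t ^ 6 * s ^ 5 + 784184421 * t ^ 7 * s ^ 4 + 688132237 * t ^ 8 * s ^ 3 + 395060379 * t ^ 9 * s ^ 2 + 130286295 * t ^ 10 * s ^ 1 + 18161117 * t ^ 11 := by rw [hs]; unfold cL1e4; ring
  rw [e]; positivity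

def cL1e5 (t : ℝ) : ℝ := 407214 - 247968 * t + 1230048 * t ^ 2 + 5871712 * t ^ 3 + 8134624 * t ^ 4 + 9462528 * t ^ 5 + 4150208 * t ^ 6 + 1638016 * t ^ 7 - 4190848 * t ^ 8 - 1467232 * t ^ 9 - 1068768 * t ^ 10 + 237600 * t ^ 11

theorem cL1e5_nn {t : ℝ} (h0 : 0 ≤ t) (h1 : t ≤ 1) : 0 ≤ cL1e5 t := by
  obtain ⟨s, hs⟩ : ∃ s, s = 1 - t := ⟨_, rfl⟩
  have hs0 : 0 ≤ s := by rw [hs]; linarith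
  have e : cL1e5 t = 407214 * s ^ 11 + 4231386 * t ^ 1 * s ^ 10 + 21147138 * t ^ 2 * s ^ 9 + 72973894 * t ^ 3 * s ^ 8 + 204014508 * t ^ 4 * s ^ 7 + 470196452 * t ^ 5 * s ^ 6 + 841199332 * t ^ 6 * s ^ 5 + 1097352044 * t ^ 7 * s ^ 4 + 987399750 * t ^ 8 * s ^ 3 + 569983298 * t ^ 9 * s ^ 2 + 184488666 * t ^ 10 * s ^ 1 + 24157134 * t ^ 11 := by rw [hs]; unfold cL1e5; ring
  rw [e]; positivity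

def cL1e6 (t : ℝ) : ℝ := 206631 - 207360 * t + 539136 * t ^ 2 + 3482112 * t ^ 3 + 5725952 * t ^ 4 + 5155840 * t ^ 5 + 3067392 * t ^ 6 + 25600 * t ^ 7 - 2910976 * t ^ 8 - 1344000 * t ^ 9 - 649728 * t ^ 10 + 96768 * t ^ 11

theorem cL1e6_nn {t : ℝ} (h0 : 0 ≤ t) (h1 : t ≤ 1) : 0 ≤ cL1e6 t := by
  obtain ⟨s, hs⟩ : ∃ s, s = 1 - t := ⟨_, rfl⟩
  have hs0 : 0 ≤ s := by rw [hs]; linarith
  have e : cL1e6 t = 206631 * s ^ 11 + 2065581 * t ^ 1 * s ^ 10 + 9830241 * t ^ 2 * s ^ 9 + 33097251 * t ^ 3 * s ^ 8 + 96296774 * t ^ 4 * s ^ 7 + 239941986 * t ^ 5 * s ^ 6 + 460385634 * t ^ 6 * s ^ 5 + 629430086 * t ^ 7 * s ^ 4 + 580887075 * t ^ 8 * s ^ 3 + 337274721 * t ^ 9 * s ^ 2 + 107293869 * t ^ 10 * s ^ 1 + 13187367 * t ^ 11 := by rw [hs]; unfold cL1e6; ring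
  rw [e]; positivity

theorem pL1e_pos {d t : ℝ} (hd : 0 ≤ d) (hd3 : d ≤ 1 / 3) (h0 : 0 ≤ t) (h1 : t ≤ 1) : 0 < pL1e d t := by
  obtain ⟨τ, hτ⟩ : ∃ τ, τ = 1 - 3 * d := ⟨_, rfl⟩
  have h2 : 0 ≤ τ := by rw [hτ]; linarith
  have key : (1 : ℝ) * pL1e d t = 1 + (τ ^ 6 * cL1e0 t + (d ^ 1 * τ ^ 5 * cL1e1 t + (d ^ 2 * τ ^ 4 * cL1e2 t + (d ^ 3 * τ ^ 3 * cL1e3 t + (d ^ 4 * τ ^ 2 * cL1e4 t + (d ^ 5 * τ ^ 1 * cL1e5 t + (d ^ 6 * cL1e6 t))))))) := by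
    rw [hτ]; unfold pL1e cL1e0 cL1e1 cL1e2 cL1e3 cL1e4 cL1e5 cL1e6; ring
  have h3 : 0 < (1 : ℝ) * pL1e d t := by
    rw [key]; exact add_pos_of_pos_of_nonneg one_pos (add_nonneg (mul_nonneg (by positivity) (cL1e0_nn h0 h1)) (add_nonneg (mul_nonneg (by positivity) (cL1e1_nn h0 h1)) (add_nonneg (mul_nonneg (by positivity) (cL1e2_nn h0 h1)) (add_nonneg (mul_nonneg (by positivity) (cL1e3_nn h0 h1)) (add_nonneg (mul_nonneg (by positivity) (cL1e4_nn h0 h1)) (add_nonneg (mul_nonneg (by positivity) (cL1e5_nn h0 h1)) (mul_nonneg (by positivity) (cL1e6_nn h0 h1))))))))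
  exact (mul_pos_iff_of_pos_left (by norm_num)).mp h3


end Vale.Agent.Lib.P100.AB.V5
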