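import Mathlib

/-!
# P100: the uniform strip in every real dimension `m >= 5` (helper13). Generated.
Polynomial inequalities on `0 <= d <= 1/3`, `0 <= t <= 1`, exact Bernstein coefficients.
-/

set_option maxHeartbeats 4000000

noncomputable section

namespace Vale.Agent.Lib.P100.AB.V5

def pL20 (d t : ℝ) : ℝ := 32 + 32 * t + 160 * t ^ 2 + 160 * t ^ 3 + 320 * t ^ 4 + 320 * t ^ 5 + 320 * t ^ 6 + 320 * t ^ 7 + 160 * t ^ 8 + 160 * t ^ 9 + 32 * t ^ 10 + 32 * t ^ 11 + 64 * d + 48 * d * t + 468 * d * t ^ 2 + 416 * d * t ^ 3 + 1084 * d * t ^ 4 + 992 * d * t ^ 5 + 1084 * d * t ^ 6 + 960 * d * t ^ 7 + 468 * d * t ^ 8 + 368 * d * t ^ 9 + 64 * d * t ^ 10 + 32 * d * t ^ 11 - 192 * d ^ 2 - 192 * d ^ 2 * t - 432 * d ^ 2 * t ^ 2 - 88 * d ^ 2 * t ^ 3 + 320 * d ^ 2 * t ^ 4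 + 1016 * d ^ 2 * t ^ 5 + 1168 * d ^ 2 * t ^ 6 + 1144 * d ^ 2 * t ^ 7 + 608 * d ^ 2 * t ^ 8 + 104 * d ^ 2 * t ^ 9 - 128 * d ^ 2 * t ^ 11 + 256 * d ^ 3 + 256 * d ^ 3 * t - 80 * d ^ 3 * t ^ 2 - 1120 * d ^ 3 * t ^ 4 + 80 * d ^ 3 * t ^ 5 - 720 * d ^ 3 * t ^ 6 - 96 * d ^ 3 * t ^ 7 + 64 * d ^ 3 * t ^ 8 - 432 * d ^ 3 * t ^ 9 + 1200 * d ^ 4 * t ^ 2 + 96 * d ^ 4 * t ^ 3 + 688 * d ^ 4 * t ^ 4 + 704 * d ^ 4 * t ^ 5 - 1712 * d ^ 4 * t ^ 6 + 608 * d ^ 4 * t ^ 7 - 1200 * d ^ 4 * t ^ 8 - 704 * d ^ 5 * t ^ 2 + 903 * d ^ 5 * t ^ 3 - 352 * d ^ 5 * t ^ 4 - 498 * d ^ 5 * t ^ 5 + 1056 * d ^ 5 * t ^ 6 - 1145 * d ^ 5 * t ^ 7 + 704 * d ^ 5 * t ^ 8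

def cL200 (t : ℝ) : ℝ := 31 + 32 * t + 160 * t ^ 2 + 160 * t ^ 3 + 320 * t ^ 4 + 320 * t ^ 5 + 320 * t ^ 6 + 320 * t ^ 7 + 160 * t ^ 8 + 160 * t ^ 9 + 32 * t ^ 10 + 32 * t ^ 11

theorem cL200_nn {t : ℝ} (h0 : 0 ≤ t) (h1 : t ≤ 1) : 0 ≤ cL200 t := by
  obtain ⟨s, hs⟩ : ∃ s, s = 1 - t := ⟨_, rfl⟩
  have hs0 : 0 ≤ s := by rw [hs]; linarith
  have e : cL200 t = 31 * s ^ 11 + 373 * t ^ 1 * s ^ 10 + 2185 * t ^ 2 * s ^ 9 + 8155 * t ^ 3 * s ^ 8 + 21430 * t ^ 4 * s ^ 7 + 41522 * t ^ 5 * s ^ 6 + 60466 * t ^ 6 * s ^ 5 + 66230 * t ^ 7 * s ^ 4 + 53595 * t ^ 8 * s ^ 3 + 30665 * t ^ 9 * s ^ 2 + 11253 * t ^ 10 * s ^ 1 + 2047 * t ^ 11 := by rw [hs]; unfold cL200; ring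
  rw [e]; positivity

def cL201 (t : ℝ) : ℝ := 529 + 528 * t + 2868 * t ^ 2 + 2816 * t ^ 3 + 5884 * t ^ 4 + 5792 * t ^ 5 + 5884 * t ^ 6 + 5760 * t ^ 7 + 2868 * t ^ 8 + 2768 * t ^ 9 + 544 * t ^ 10 + 512 * t ^ 11

theorem cL201_nn {t : ℝ} (h0 : 0 ≤ t) (h1 : t ≤ 1) : 0 ≤ cL201 t := by
  obtain ⟨s, hs⟩ : ∃ s, s = 1 - t := ⟨_, rfl⟩
  have hs0 : 0 ≤ s := by rw [hs]; linarith
  have e : cL201 t = 529 * s ^ 11 + 6347 * t ^ 1 * s ^ 10 + 37243 * t ^ 2 * s ^ 9 + 139673 * t ^ 3 * s ^ 8 + 369590 * t ^ 4 * s ^ 7 + 722018 * t ^ 5 * s ^ 6 + 1060718 * t ^ 6 * s ^ 5 + 1171938 * t ^ 7 * s ^ 4 + 955781 * t ^ 8 * s ^ 3 + 550167 * t ^ 9 * s ^ 2 + 202523 * t ^ 10 * s ^ 1 + 36753 * t ^ 11 := by rw [hs]; unfold cL201; ring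
  rw [e]; positivity

def cL202 (t : ℝ) : ℝ := 3366 + 3264 * t + 19584 * t ^ 2 + 19304 * t ^ 3 + 42128 * t ^ 4 + 41720 * t ^ 5 + 42976 * t ^ 6 + 41464 * t ^ 7 + 20624 * t ^ 8 + 18920 * t ^ 9 + 3648 * t ^ 10 + 3136 * t ^ 11

theorem cL202_nn {t : ℝ} (h0 : 0 ≤ t) (h1 : t ≤ 1) : 0 ≤ cL202 t := by
  obtain ⟨s, hs⟩ : ∃ s, s = 1 - t := ⟨_, rfl⟩
  have hs0 : 0 ≤ s := by rw [hs]; linarith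
  have e : cL202 t = 3366 * s ^ 11 + 40290 * t ^ 1 * s ^ 10 + 237354 * t ^ 2 * s ^ 9 + 897830 * t ^ 3 * s ^ 8 + 2404044 * t ^ 4 * s ^ 7 + 4762716 * t ^ 5 * s ^ 6 + 7104212 * t ^ 6 * s ^ 5 + 7971708 * t ^ 7 * s ^ 4 + 6598270 * t ^ 8 * s ^ 3 + 3847370 * t ^ 9 * s ^ 2 + 1429666 * t ^ 10 * s ^ 1 + 260134 * t ^ 11 := by rw [hs]; unfold cL202; ring
  rw [e]; positivity

def cL203 (t : ℝ) : ℝ := 10354 + 9760 * t + 64504 * t ^ 2 + 64872 * t ^ 3 + 146696 * t ^ 4 + 149192 * t ^ 5 + 154728 * t ^ 6 + 148440 * t ^ 7 + 74008 * t ^ 8 + 63576 * t ^ 9 + 12096 * t ^ 10 + 9216 * t ^ 11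

theorem cL203_nn {t : ℝ} (h0 : 0 ≤ t) (h1 : t ≤ 1) : 0 ≤ cL203 t := by
  obtain ⟨s, hs⟩ : ∃ s, s = 1 - t := ⟨_, rfl⟩
  have hs0 : 0 ≤ s := by rw [hs]; linarith
  have e : cL203 t = 10354 * s ^ 11 + 123654 * t ^ 1 * s ^ 10 + 731574 * t ^ 2 * s ^ 9 + 2793018 * t ^ 3 * s ^ 8 + 7575836 * t ^ 4 * s ^ 7 + 15243964 * t ^ 5 * s ^ 6 + 23133900 * t ^ 6 * s ^ 5 + 26429284 * t ^ 7 * s ^ 4 + 22264026 * t ^ 8 * s ^ 3 + 13189246 * t ^ 9 * s ^ 2 + 4961702 * t ^ 10 * s ^ 1 + 907442 * t ^ 11 := by rw [hs]; unfold cL203; ring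
  rw [e]; positivity

def cL204 (t : ℝ) : ℝ := 15819 + 14496 * t + 104400 * t ^ 2 + 107448 * t ^ 3 + 249280 * t ^ 4 + 265352 * t ^ 5 + 272176 * t ^ 6 + 264200 * t ^ 7 + 130944 * t ^ 8 + 104760 * t ^ 9 + 19872 * t ^ 10 + 12960 * t ^ 11

theorem cL204_nn {t : ℝ} (h0 : 0 ≤ t) (h1 : t ≤ 1) : 0 ≤ cL204 t := by
  obtain ⟨s, hs⟩ : ∃ s, s = 1 - t := ⟨_, rfl⟩
  have hs0 : 0 ≤ s := by rw [hs]; linarith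
  have e : cL204 t = 15819 * s ^ 11 + 188505 * t ^ 1 * s ^ 10 + 1119405 * t ^ 2 * s ^ 9 + 4309503 * t ^ 3 * s ^ 8 + 11827054 * t ^ 4 * s ^ 7 + 24140994 * t ^ 5 * s ^ 6 + 37232026 * t ^ 6 * s ^ 5 + 43270350 * t ^ 7 * s ^ 4 + 37077687 * t ^ 8 * s ^ 3 + 22309021 * t ^ 9 * s ^ 2 + 8495129 * t ^ 10 * s ^ 1 + 1561707 * t ^ 11 := by rw [hs]; unfold cL204; ring
  rw [e]; positivity

def cL205 (t : ℝ) : ℝ := 9837 + 8784 * t + 67300 * t ^ 2 + 71391 * t ^ 3 + 165836 * t ^ 4 + 187878 * t ^ 5 + 186540 * t ^ 6 + 186223 * t ^ 7 + 90884 * t ^ 8 + 67608 * t ^ 9 + 12960 * t ^ 10 + 6912 * t ^ 11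

theorem cL205_nn {t : ℝ} (h0 : 0 ≤ t) (h1 : t ≤ 1) : 0 ≤ cL205 t := by
  obtain ⟨s, hs⟩ : ∃ s, s = 1 - t := ⟨_, rfl⟩
  have hs0 : 0 ≤ s := by rw [hs]; linarith
  have e : cL205 t = 9837 * s ^ 11 + 116991 * t ^ 1 * s ^ 10 + 696175 * t ^ 2 * s ^ 9 + 2695476 * t ^ 3 * s ^ 8 + 7460054 * t ^ 4 * s ^ 7 + 15390212 * t ^ 5 * s ^ 6 + 24032322 * t ^ 6 * s ^ 5 + 28309373 * t ^ 7 * s ^ 4 + 24591277 * t ^ 8 * s ^ 3 + 14981787 * t ^ 9 * s ^ 2 + 5759415 * t ^ 10 * s ^ 1 + 1062153 * t ^ 11 := by rw [hs]; unfold cL205; ring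
  rw [e]; positivity

theorem pL20_pos {d t : ℝ} (hd : 0 ≤ d) (hd3 : d ≤ 1 / 3) (h0 : 0 ≤ t) (h1 : t ≤ 1) : 0 < pL20 d t := by
  obtain ⟨τ, hτ⟩ : ∃ τ, τ = 1 - 3 * d := ⟨_, rfl⟩
  have h2 : 0 ≤ τ := by rw [hτ]; linarith
  have key : (1 : ℝ) * pL20 d t = 1 + (τ ^ 5 * cL200 t + (d ^ 1 * τ ^ 4 * cL201 t + (d ^ 2 * τ ^ 3 * cL202 t + (d ^ 3 * τ ^ 2 * cL203 t + (d ^ 4 * τ ^ 1 * cL204 t + (d ^ 5 * cL205 t)))))) := by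
    rw [hτ]; unfold pL20 cL200 cL201 cL202 cL203 cL204 cL205; ring
  have h3 : 0 < (1 : ℝ) * pL20 d t := by
    rw [key]; exact add_pos_of_pos_of_nonneg one_pos (add_nonneg (mul_nonneg (by positivity) (cL200_nn h0 h1)) (add_nonneg (mul_nonneg (by positivity) (cL201_nn h0 h1)) (add_nonneg (mul_nonneg (by positivity) (cL202_nn h0 h1)) (add_nonneg (mul_nonneg (by positivity) (cL203_nn h0 h1)) (add_nonneg (mul_nonneg (by positivity) (cL204_nn h0 h1)) (mul_nonneg (by positivity) (cL205_nn h0 h1)))))))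
  exact (mul_pos_iff_of_pos_left (by norm_num)).mp h3

def pL2e (d t : ℝ) : ℝ := 160 - 240 * t + 1300 * t ^ 2 + 3100 * t ^ 4 + 800 * t ^ 5 + 3100 * t ^ 6 + 1300 * t ^ 8 - 1200 * t ^ 9 + 160 * t ^ 10 - 640 * t ^ 11 + 352 * d - 1088 * d * t - 1160 * d * t ^ 2 + 3080 * d * t ^ 3 + 3800 * d * t ^ 4 + 17720 * d * t ^ 5 + 10280 * d * t ^ 6 + 11000 * d * t ^ 7 + 2760 * d * t ^ 8 - 7000 * d * t ^ 9 - 2208 * d * t ^ 10 - 4448 * d * t ^ 11 - 896 * d ^ 2 - 2192 * d ^ 2 * t - 10892 * d ^ 2 * t ^ 2 - 2944 * d ^ 2 * t ^ 3 - 8756 * d ^ 2 * t ^ 4 + 31952 * d ^ 2 * t ^ 5 + 9084 * d ^ 2 * t ^ 6 + 20480 * d ^ 2 * t ^ 7 - 1052 * d ^ 2 * t ^ 8 - 21152 * d ^ 2 * t ^ 9 - 8896 * d ^ 2 * t ^ 10 - 8928 * d ^ 2 * t ^ 11 + 1088 * d ^ 3 + 1088 * d ^ 3 * t + 23488 * d ^ 3 * t ^ 2 + 4712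 * d ^ 3 * t ^ 3 + 4560 * d ^ 3 * t ^ 4 + 25336 * d ^ 3 * t ^ 5 - 42912 * d ^ 3 * t ^ 6 + 13624 * d ^ 3 * t ^ 7 - 26352 * d ^ 3 * t ^ 8 - 9496 * d ^ 3 * t ^ 9 - 1280 * d ^ 3 * t ^ 10 - 1408 * d ^ 3 * t ^ 11 + 256 * d ^ 4 + 256 * d ^ 4 * t - 6560 * d ^ 4 * t ^ 2 + 23935 * d ^ 4 * t ^ 3 - 4400 * d ^ 4 * t ^ 4 - 5410 * d ^ 4 * t ^ 5 + 8480 * d ^ 4 * t ^ 6 - 24001 * d ^ 4 * t ^ 7 + 6064 * d ^ 4 * t ^ 8 - 1312 * d ^ 4 * t ^ 9 - 5840 * d ^ 5 * t ^ 2 + 9126 * d ^ 5 * t ^ 3 - 2832 * d ^ 5 * t ^ 4 - 4276 * d ^ 5 * t ^ 5 + 8848 * d ^ 5 * t ^ 6 - 10842 * d ^ 5 * t ^ 7 + 5840 * d ^ 5 * t ^ 8 - 704 * d ^ 6 * t ^ 2 + 903 * d ^ 6 * t ^ 3 - 352 * d ^ 6 * t ^ 4 - 498 * d ^ 6 * t ^ 5 + 1056 * d ^ 6 * t ^ 6 - 1145 * d ^ 6 * t ^ 7 + 704 * d ^ 6 * t ^ 8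

def cL2e0 (t : ℝ) : ℝ := 159 - 240 * t + 1300 * t ^ 2 + 3100 * t ^ 4 + 800 * t ^ 5 + 3100 * t ^ 6 + 1300 * t ^ 8 - 1200 * t ^ 9 + 160 * t ^ 10 - 640 * t ^ 11

theorem cL2e0_nn {t : ℝ} (h0 : 0 ≤ t) (h1 : t ≤ 1) : 0 ≤ cL2e0 t := by
  obtain ⟨s, hs⟩ : ∃ s, s = 1 - t := ⟨_, rfl⟩
  have hs0 : 0 ≤ s := by rw [hs]; linarith
  have e : cL2e0 t = 159 * s ^ 11 + 1509 * t ^ 1 * s ^ 10 + 7645 * t ^ 2 * s ^ 9 + 27135 * t ^ 3 * s ^ 8 + 73570 * t ^ 4 * s ^ 7 + 154758 * t ^ 5 * s ^ 6 + 249778 * t ^ 6 * s ^ 5 + 301870 * t ^ 7 * s ^ 4 + 263435 * t ^ 8 * s ^ 3 + 155545 * t ^ 9 * s ^ 2 + 54709 * t ^ 10 * s ^ 1 + 7839 * t ^ 11 := by rw [hs]; unfold cL2e0; ring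
  rw [e]; positivity

def cL2e1 (t : ℝ) : ℝ := 3214 - 5408 * t + 22240 * t ^ 2 + 3080 * t ^ 3 + 59600 * t ^ 4 + 32120 * t ^ 5 + 66080 * t ^ 6 + 11000 * t ^ 7 + 26160 * t ^ 8 - 28600 * t ^ 9 + 672 * t ^ 10 - 15968 * t ^ 11

theorem cL2e1_nn {t : ℝ} (h0 : 0 ≤ t) (h1 : t ≤ 1) : 0 ≤ cL2e1 t := by
  obtain ⟨s, hs⟩ : ∃ s, s = 1 - t := ⟨_, rfl⟩
  have hs0 : 0 ≤ s := by rw [hs]; linarith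
  have e : cL2e1 t = 3214 * s ^ 11 + 29946 * t ^ 1 * s ^ 10 + 144930 * t ^ 2 * s ^ 9 + 490190 * t ^ 3 * s ^ 8 + 1296540 * t ^ 4 * s ^ 7 + 2752908 * t ^ 5 * s ^ 6 + 4607172 * t ^ 6 * s ^ 5 + 5851980 * t ^ 7 * s ^ 4 + 5381350 * t ^ 8 * s ^ 3 + 3330370 * t ^ 9 * s ^ 2 + 1212346 * t ^ 10 * s ^ 1 + 174190 * t ^ 11 := by rw [hs]; unfold cL2e1; ring
  rw [e]; positivity

def cL2e2 (t : ℝ) : ℝ := 25849 - 50912 * t + 147208 * t ^ 2 + 43256 * t ^ 3 + 466744 * t ^ 4 + 405752 * t ^ 5 + 581784 * t ^ 6 + 185480 * t ^ 7 + 215848 * t ^ 8 - 288152 * t ^ 9 - 20416 * t ^ 10 - 162048 * t ^ 11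

theorem cL2e2_nn {t : ℝ} (h0 : 0 ≤ t) (h1 : t ≤ 1) : 0 ≤ cL2e2 t := by
  obtain ⟨s, hs⟩ : ∃ s, s = 1 - t := ⟨_, rfl⟩
  have hs0 : 0 ≤ s := by rw [hs]; linarith
  have e : cL2e2 t = 25849 * s ^ 11 + 233427 * t ^ 1 * s ^ 10 + 1059783 * t ^ 2 * s ^ 9 + 3342173 * t ^ 3 * s ^ 8 + 8533010 * t ^ 4 * s ^ 7 + 18500318 * t ^ 5 * s ^ 6 + 32900878 * t ^ 6 * s ^ 5 + 44931498 * t ^ 7 * s ^ 4 + 44170141 * t ^ 8 * s ^ 3 + 28819327 * t ^ 9 * s ^ 2 + 10849523 * t ^ 10 * s ^ 1 + 1550393 * t ^ 11 := by rw [hs]; unfold cL2e2; ring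
  rw [e]; positivity

def cL2e3 (t : ℝ) : ℝ := 107876 - 252736 * t + 490384 * t ^ 2 + 246584 * t ^ 3 + 1915488 * t ^ 4 + 2435560 * t ^ 5 + 2665296 * t ^ 6 + 1249384 * t ^ 7 + 911424 * t ^ 8 - 1541320 * t ^ 9 - 220352 * t ^ 10 - 854464 * t ^ 11

theorem cL2e3_nn {t : ℝ} (h0 : 0 ≤ t) (h1 : t ≤ 1) : 0 ≤ cL2e3 t := by
  obtain ⟨s, hs⟩ : ∃ s, s = 1 - t := ⟨_, rfl⟩
  have hs0 : 0 ≤ s := by rw [hs]; linarith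
  have e : cL2e3 t = 107876 * s ^ 11 + 933900 * t ^ 1 * s ^ 10 + 3896204 * t ^ 2 * s ^ 9 + 11086460 * t ^ 3 * s ^ 8 + 26812744 * t ^ 4 * s ^ 7 + 60704736 * t ^ 5 * s ^ 6 + 119250232 * t ^ 6 * s ^ 5 + 179725128 * t ^ 7 * s ^ 4 + 190787380 * t ^ 8 * s ^ 3 + 131219100 * t ^ 9 * s ^ 2 + 50822476 * t ^ 10 * s ^ 1 + 7153124 * t ^ 11 := by rw [hs]; unfold cL2e3; ring
  rw [e]; positivity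

def cL2e4 (t : ℝ) : ℝ := 249889 - 693680 * t + 882964 * t ^ 2 + 738967 * t ^ 3 + 4356316 * t ^ 4 + 7704422 * t ^ 5 + 6654908 * t ^ 6 + 4174535 * t ^ 7 + 2036788 * t ^ 8 - 4576984 * t ^ 9 - 893664 * t ^ 10 - 2473344 * t ^ 11

theorem cL2e4_nn {t : ℝ} (h0 : 0 ≤ t) (h1 : t ≤ 1) : 0 ≤ cL2e4 t := by
  obtain ⟨s, hs⟩ : ∃ s, s = 1 - t := ⟨_, rfl⟩
  have hs0 : 0 ≤ s := by rw [hs]; linarith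
  have e : cL2e4 t = 249889 * s ^ 11 + 2055099 * t ^ 1 * s ^ 10 + 7690059 * t ^ 2 * s ^ 9 + 18701728 * t ^ 3 * s ^ 8 + 41276526 * t ^ 4 * s ^ 7 + 102834604 * t ^ 5 * s ^ 6 + 237641050 * t ^ 6 * s ^ 5 + 405258189 * t ^ 7 * s ^ 4 + 465384721 * t ^ 8 * s ^ 3 + 335184711 * t ^ 9 * s ^ 2 + 132426547 * t ^ 10 * s ^ 1 + 18161117 * t ^ 11 := by rw [hs]; unfold cL2e4; ring
  rw [e]; positivity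

def cL2e5 (t : ℝ) : ℝ := 308526 - 996384 * t + 838240 * t ^ 2 + 1209408 * t ^ 3 + 5207040 * t ^ 4 + 12441152 * t ^ 5 + 8565376 * t ^ 6 + 6879840 * t ^ 7 + 2230304 * t ^ 8 - 7133280 * t ^ 9 - 1656288 * t ^ 10 - 3736800 * t ^ 11

theorem cL2e5_nn {t : ℝ} (h0 : 0 ≤ t) (h1 : t ≤ 1) : 0 ≤ cL2e5 t := by
  obtain ⟨s, hs⟩ : ∃ s, s = 1 - t := ⟨_, rfl⟩
  have hs0 : 0 ≤ s := by rw [hs]; linarith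
  have e : cL2e5 t = 308526 * s ^ 11 + 2397402 * t ^ 1 * s ^ 10 + 7843330 * t ^ 2 * s ^ 9 + 14823078 * t ^ 3 * s ^ 8 + 27306444 * t ^ 4 * s ^ 7 + 86464388 * t ^ 5 * s ^ 6 + 257355460 * t ^ 6 * s ^ 5 + 501420140 * t ^ 7 * s ^ 4 + 615952582 * t ^ 8 * s ^ 3 + 458627266 * t ^ 9 * s ^ 2 + 182859866 * t ^ 10 * s ^ 1 + 24157134 * t ^ 11 := by rw [hs]; unfold cL2e5; ring
  rw [e]; positivity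

def cL2e6 (t : ℝ) : ℝ := 160551 - 585216 * t + 340480 * t ^ 2 + 880896 * t ^ 3 + 2548736 * t ^ 4 + 8099328 * t ^ 5 + 4439040 * t ^ 6 + 4450048 * t ^ 7 + 894464 * t ^ 8 - 4557312 * t ^ 9 - 1175040 * t ^ 10 - 2308608 * t ^ 11

theorem cL2e6_nn {t : ℝ} (h0 : 0 ≤ t) (h1 : t ≤ 1) : 0 ≤ cL2e6 t := by
  obtain ⟨s, hs⟩ : ∃ s, s = 1 - t := ⟨_, rfl⟩
  have hs0 : 0 ≤ s := by rw [hs]; linarith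
  have e : cL2e6 t = 160551 * s ^ 11 + 1180845 * t ^ 1 * s ^ 10 + 3318625 * t ^ 2 * s ^ 9 + 4101411 * t ^ 3 * s ^ 8 + 4609094 * t ^ 4 * s ^ 7 + 30485090 * t ^ 5 * s ^ 6 + 125489250 * t ^ 6 * s ^ 5 + 271990598 * t ^ 7 * s ^ 4 + 348472867 * t ^ 8 * s ^ 3 + 263648097 * t ^ 9 * s ^ 2 + 104851629 * t ^ 10 * s ^ 1 + 13187367 * t ^ 11 := by rw [hs]; unfold cL2e6; ring
  rw [e]; positivity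

theorem pL2e_pos {d t : ℝ} (hd : 0 ≤ d) (hd3 : d ≤ 1 / 3) (h0 : 0 ≤ t) (h1 : t ≤ 1) : 0 < pL2e d t := by
  obtain ⟨τ, hτ⟩ : ∃ τ, τ = 1 - 3 * d := ⟨_, rfl⟩
  have h2 : 0 ≤ τ := by rw [hτ]; linarith
  have key : (1 : ℝ) * pL2e d t = 1 + (τ ^ 6 * cL2e0 t + (d ^ 1 * τ ^ 5 * cL2e1 t + (d ^ 2 * τ ^ 4 * cL2e2 t + (d ^ 3 * τ ^ 3 * cL2e3 t + (d ^ 4 * τ ^ 2 * cL2e4 t + (d ^ 5 * τ ^ 1 * cL2e5 t + (d ^ 6 * cL2e6 t))))))) := by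
    rw [hτ]; unfold pL2e cL2e0 cL2e1 cL2e2 cL2e3 cL2e4 cL2e5 cL2e6; ring
  have h3 : 0 < (1 : ℝ) * pL2e d t := by
    rw [key]; exact add_pos_of_pos_of_nonneg one_pos (add_nonneg (mul_nonneg (by positivity) (cL2e0_nn h0 h1)) (add_nonneg (mul_nonneg (by positivity) (cL2e1_nn h0 h1)) (add_nonneg (mul_nonneg (by positivity) (cL2e2_nn h0 h1)) (add_nonneg (mul_nonneg (by positivity) (cL2e3_nn h0 h1)) (add_nonneg (mul_nonneg (by positivity) (cL2e4_nn h0 h1)) (add_nonneg (mul_nonneg (by positivity) (cL2e5_nn h0 h1)) (mul_nonneg (by positivity) (cL2e6_nn h0 h1))))))))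
  exact (mul_pos_iff_of_pos_left (by norm_num)).mp h3


end Vale.Agent.Lib.P100.AB.V5
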