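import Vale.Agent.Lib.P100.AB.Base
import Vale.Agent.Lib.P100.AB.V5Poly1
import Vale.Agent.Lib.P100.AB.V5Poly2
import Vale.Agent.Lib.P100.AB.V5Poly3

/-!
# P100: the family for every real dimension `m >= 5` (helper13). Generated.
`d = 1/(m-2)`, `t` the ratio `(q+1)/(p+1)`, `a = 1 - 2 d / (1 + t^2)`, `b = 1 - 2 d t^2 / (1 + t^2)`.
-/

set_option maxHeartbeats 4000000

noncomputable section

namespace Vale.Agent.Lib.P100.AB.V5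

open Vale.Agent.Lib.P100 Vale.Agent.Lib.P100.AB

def sg (t : ℝ) : ℝ := 2 * t / (1 + t ^ 2)
def ab (d t : ℝ) : ℝ := 2 * d / (1 + t ^ 2)
def bb (d t : ℝ) : ℝ := 2 * d * t ^ 2 / (1 + t ^ 2)
def X (d t : ℝ) : ℝ := d * (1 - t ^ 2) / (1 + t ^ 2)
def X2 (d t : ℝ) : ℝ := -(d * (1 - d) * (1 - t ^ 2) / (1 + t ^ 2))
def Y (d t : ℝ) : ℝ := -(d * sg t) + d ^ 2 * (sg t * (1 - sg t + (3 / 8)) / 2)
def fh (t : ℝ) : ℝ := (1 - t ^ 2) / (2 * t)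
def eta0 (d : ℝ) : ℝ := d / (1 + (1 / 5) * d)

def n1 (d t : ℝ) : ℝ := d * t ^ 2 + d * t ^ 4 + 2 * d ^ 2 * t ^ 2 - 3 * d ^ 2 * t ^ 4 - d ^ 3 * t ^ 4
def n6 (d t : ℝ) : ℝ := d + d * t ^ 2 - 3 * d ^ 2 + 2 * d ^ 2 * t ^ 2 + 3 * d ^ 3 - 4 * d ^ 3 * t ^ 2 + d ^ 4 - d ^ 4 * t ^ 4 - d ^ 5 + 2 * d ^ 5 * t ^ 2 - d ^ 5 * t ^ 4
def n2 (d t : ℝ) : ℝ := -2 * d * t - 4 * d * t ^ 3 - 2 * d * t ^ 5 - (21 / 8) * d ^ 2 * t - 2 * d ^ 2 * t ^ 2 + (11 / 4) * d ^ 2 * t ^ 3 + (43 / 8) * d ^ 2 * t ^ 5 + 2 * d ^ 2 * t ^ 6 + (11 / 4) * d ^ 3 * t - 4 * d ^ 3 * t ^ 2 + 4 * d ^ 3 * t ^ 3 + 2 * d ^ 3 * t ^ 4 + (5 / 4) * d ^ 3 * t ^ 5 - 2 * d ^ 3 * t ^ 6 - (11 / 4) * d ^ 4 * t ^ 3 + 4 * d ^ 4 * t ^ 4 - (11 / 4) * d ^ 4 * t ^ 5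
def n5 (d t : ℝ) : ℝ := -2 * d * t - 4 * d * t ^ 3 - 2 * d * t ^ 5 + d ^ 2 + (43 / 8) * d ^ 2 * t - d ^ 2 * t ^ 2 + (11 / 4) * d ^ 2 * t ^ 3 - d ^ 2 * t ^ 4 - (21 / 8) * d ^ 2 * t ^ 5 + d ^ 2 * t ^ 6 - 4 * d ^ 3 - (11 / 4) * d ^ 3 * t + 4 * d ^ 3 * t ^ 3 - 2 * d ^ 3 * t ^ 4 + (27 / 4) * d ^ 3 * t ^ 5 + 2 * d ^ 3 * t ^ 6 + 2 * d ^ 4 - 4 * d ^ 4 * t - (11 / 4) * d ^ 4 * t ^ 3 + 2 * d ^ 4 * t ^ 4 + (5 / 4) * d ^ 4 * t ^ 5 + (11 / 4) * d ^ 5 * t - 4 * d ^ 5 * t ^ 2 + 4 * d ^ 5 * t ^ 4 - (11 / 4) * d ^ 5 * t ^ 5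
def n34 (d t : ℝ) : ℝ := d + 4 * d * t ^ 2 + 6 * d * t ^ 4 + 4 * d * t ^ 6 + d * t ^ 8 + d ^ 2 - 2 * d ^ 2 * t ^ 2 - 6 * d ^ 2 * t ^ 4 - 2 * d ^ 2 * t ^ 6 + d ^ 2 * t ^ 8 - d ^ 3 + 4 * d ^ 3 * t + d ^ 3 * t ^ 2 - 4 * d ^ 3 * t ^ 3 + 4 * d ^ 3 * t ^ 4 - 4 * d ^ 3 * t ^ 5 + d ^ 3 * t ^ 6 + 4 * d ^ 3 * t ^ 7 - d ^ 3 * t ^ 8 - (11 / 4) * d ^ 4 * t + (359 / 32) * d ^ 4 * t ^ 2 - (53 / 4) * d ^ 4 * t ^ 3 + (231 / 16) * d ^ 4 * t ^ 4 - (53 / 4) * d ^ 4 * t ^ 5 + (359 / 32) * d ^ 4 * t ^ 6 - (11 / 4) * d ^ 4 * t ^ 7 - (121 / 32) * d ^ 5 * t ^ 2 + 11 * d ^ 5 * t ^ 3 - (249 / 16) * d ^ 5 * t ^ 4 + 11 * d ^ 5 * t ^ 5 - (121 / 32) * d ^ 5 * t ^ 6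

lemma e_r1 (d t : ℝ) (hd : 0 < d) :
    R1 (d / (1 + 2 * d)) (ab d t) (X d t) = n1 d t / ((1 + 2 * d) * (1 + t ^ 2) ^ 2) := by
  have h1 : (1 + 2 * d) ≠ 0 := by positivity
  have h2 : (1 + t ^ 2) ≠ 0 := by positivity
  simp only [R1, ab, X, n1]
  field_simp
  ring

lemma e_r6 (d t : ℝ) (hd : 0 < d) :
    R1 (d / (1 + 2 * d)) (bb d t) (X2 d t) = n6 d t / ((1 + 2 * d) * (1 + t ^ 2) ^ 2) := by
  have h1 : (1 + 2 * d) ≠ 0 := by positivity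
  have h2 : (1 + t ^ 2) ≠ 0 := by positivity
  simp only [R1, bb, X2, n6]
  field_simp
  ring

lemma e_r2 (d t : ℝ) (hd : 0 < d) :
    R2 (d / (1 + 2 * d)) (ab d t) (bb d t) (X d t) (Y d t) = n2 d t / ((1 + 2 * d) * (1 + t ^ 2) ^ 3) := by
  have h1 : (1 + 2 * d) ≠ 0 := by positivity
  have h2 : (1 + t ^ 2) ≠ 0 := by positivity
  simp only [R2, ab, bb, X, Y, sg, n2]
  field_simp
  ring

lemma e_r5 (d t : ℝ) (hd : 0 < d) :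
    R2 (d / (1 + 2 * d)) (bb d t) (ab d t) (X2 d t) (Y d t) = n5 d t / ((1 + 2 * d) * (1 + t ^ 2) ^ 3) := by
  have h1 : (1 + 2 * d) ≠ 0 := by positivity
  have h2 : (1 + t ^ 2) ≠ 0 := by positivity
  simp only [R2, ab, bb, X2, Y, sg, n5]
  field_simp
  ring

lemma e_r34 (d t : ℝ) (hd : 0 < d) :
    R3 (ab d t) (bb d t) (Y d t) (Y d t) + R4 (d / (1 + 2 * d)) (ab d t) (bb d t) (Y d t) (Y d t)
      = n34 d t / ((1 + 2 * d) * (1 + t ^ 2) ^ 4) := by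
  have h1 : (1 + 2 * d) ≠ 0 := by positivity
  have h2 : (1 + t ^ 2) ≠ 0 := by positivity
  simp only [R3, R4, ab, bb, Y, sg, n34]
  field_simp
  ring

lemma frac_hD {e D N1 N2 N34 N5 N6 : ℝ} (he : 0 < e) (hD : 0 < D)
    (h : N2 ^ 2 * N6 + N5 ^ 2 * N1 < 4 * N34 * N1 * N6) :
    (N2 / (e * D ^ 3)) ^ 2 * (N6 / (e * D ^ 2)) + (N5 / (e * D ^ 3)) ^ 2 * (N1 / (e * D ^ 2))
      < 4 * (N34 / (e * D ^ 4)) * (N1 / (e * D ^ 2)) * (N6 / (e * D ^ 2)) := by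
  have e1 : (N2 / (e * D ^ 3)) ^ 2 * (N6 / (e * D ^ 2)) + (N5 / (e * D ^ 3)) ^ 2 * (N1 / (e * D ^ 2))
      = (N2 ^ 2 * N6 + N5 ^ 2 * N1) / (e ^ 3 * D ^ 8) := by
    field_simp
  have e2 : 4 * (N34 / (e * D ^ 4)) * (N1 / (e * D ^ 2)) * (N6 / (e * D ^ 2))
      = (4 * N34 * N1 * N6) / (e ^ 3 * D ^ 8) := by
    field_simp
  rw [e1, e2]
  exact div_lt_div_of_pos_right h (by positivity)

lemma hD_ok (d t : ℝ) (hd : 0 < d) (hd1 : d ≤ 1 / 3) (ht : 0 < t) (ht1 : t ≤ 1) :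
    R2 (d / (1 + 2 * d)) (ab d t) (bb d t) (X d t) (Y d t) ^ 2 * R1 (d / (1 + 2 * d)) (bb d t) (X2 d t)
      + R2 (d / (1 + 2 * d)) (bb d t) (ab d t) (X2 d t) (Y d t) ^ 2 * R1 (d / (1 + 2 * d)) (ab d t) (X d t)
      < 4 * (R3 (ab d t) (bb d t) (Y d t) (Y d t) + R4 (d / (1 + 2 * d)) (ab d t) (bb d t) (Y d t) (Y d t))
        * R1 (d / (1 + 2 * d)) (ab d t) (X d t) * R1 (d / (1 + 2 * d)) (bb d t) (X2 d t) := by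
  rw [e_r1 d t hd, e_r6 d t hd, e_r2 d t hd, e_r5 d t hd, e_r34 d t hd]
  apply frac_hD (by positivity) (by positivity)
  have hp := pDP_pos hd.le hd1 ht.le ht1
  have id0 : 4 * n34 d t * n1 d t * n6 d t - (n2 d t ^ 2 * n6 d t + n5 d t ^ 2 * n1 d t) = (1 / 64) * d ^ 4 * t ^ 2 * pDP d t := by
    unfold n34 n1 n6 n2 n5 pDP
    ring
  have hq : 0 < (1 / 64) * d ^ 4 * t ^ 2 * pDP d t := by positivity
  linarith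

lemma r1_pos (d t : ℝ) (hd : 0 < d) (hd1 : d ≤ 1 / 3) (ht : 0 < t) (ht1 : t ≤ 1) :
    0 < R1 (d / (1 + 2 * d)) (ab d t) (X d t) := by
  have h1 : (1 + 2 * d) ≠ 0 := by positivity
  have h2 : (1 + t ^ 2) ≠ 0 := by positivity
  have ht0 : t ≠ 0 := ht.ne'
  have hp := pr1_pos hd.le hd1 ht.le ht1
  have key : R1 (d / (1 + 2 * d)) (ab d t) (X d t) = (d ^ 1 * t ^ 2 * pr1 d t) / ((1 + 2 * d) * (1 + t ^ 2) ^ 2) := by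
    simp only [R1, ab, X, pr1]
    field_simp
    ring
  rw [key]
  positivity

lemma r6_pos (d t : ℝ) (hd : 0 < d) (hd1 : d ≤ 1 / 3) (ht : 0 < t) (ht1 : t ≤ 1) :
    0 < R1 (d / (1 + 2 * d)) (bb d t) (X2 d t) := by
  have h1 : (1 + 2 * d) ≠ 0 := by positivity
  have h2 : (1 + t ^ 2) ≠ 0 := by positivity
  have ht0 : t ≠ 0 := ht.ne'
  have hp := pr6_pos hd.le hd1 ht.le ht1
  have key : R1 (d / (1 + 2 * d)) (bb d t) (X2 d t) = (d ^ 1 * pr6 d t) / ((1 + 2 * d) * (1 + t ^ 2) ^ 2) := by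
    simp only [R1, bb, X2, pr6]
    field_simp
    ring
  rw [key]
  positivity

lemma r3_pos (d t : ℝ) (hd : 0 < d) (hd1 : d ≤ 1 / 3) (ht : 0 < t) (ht1 : t ≤ 1) :
    0 < R3 (ab d t) (bb d t) (Y d t) (Y d t) := by
  have h1 : (1 + 2 * d) ≠ 0 := by positivity
  have h2 : (1 + t ^ 2) ≠ 0 := by positivity
  have ht0 : t ≠ 0 := ht.ne'
  have hp := pr3_pos hd.le hd1 ht.le ht1
  have key : R3 (ab d t) (bb d t) (Y d t) (Y d t) = ((1 / 64) * d ^ 1 * pr3 d t) / ((1 + t ^ 2) ^ 4) := by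
    simp only [R3, ab, bb, Y, sg, pr3]
    field_simp
    ring
  rw [key]
  positivity

lemma E2_pos (d t : ℝ) (hd : 0 < d) (hd1 : d ≤ 1 / 3) (ht : 0 < t) (ht1 : t ≤ 1) :
    0 < 1 / 2 + X2 d t := by
  have h1 : (1 + 2 * d) ≠ 0 := by positivity
  have h2 : (1 + t ^ 2) ≠ 0 := by positivity
  have ht0 : t ≠ 0 := ht.ne'
  have hp := pE2_pos hd.le hd1 ht.le ht1
  have key : 1 / 2 + X2 d t = ((1 / 2) * pE2 d t) / ((1 + t ^ 2)) := by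
    simp only [X2, pE2]
    field_simp
    ring
  rw [key]
  positivity

lemma L10_ok (d t : ℝ) (hd : 0 < d) (hd1 : d ≤ 1 / 3) (ht : 0 < t) (ht1 : t ≤ 1) :
    (-2 * d * (1 / 2 - Y d t) + ab d t * fh t + (1 + d) * (1 / t)) ^ 2
      < 4 * (1 + 4 * d) * (1 / 2 + X d t) * ((1 + 2 * d) * (1 / 2 - Y d t) - bb d t * fh t) + 4 * (1 + 4 * d) * (1 / 2 + X d t) * fh t * (1 / t) := by
  have h2 : (1 + t ^ 2) ≠ 0 := by positivity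
  have ht0 : t ≠ 0 := ht.ne'
  have hW : (1 + (1 / 5) * d) ≠ 0 := by positivity
  have hp := pL10_pos hd.le hd1 ht.le ht1
  have key : 4 * (1 + 4 * d) * (1 / 2 + X d t) * ((1 + 2 * d) * (1 / 2 - Y d t) - bb d t * fh t) + 4 * (1 + 4 * d) * (1 / 2 + X d t) * fh t * (1 / t) - (-2 * d * (1 / 2 - Y d t) + ab d t * fh t + (1 + d) * (1 / t)) ^ 2
      = ((1 / 16) * d ^ 1 * pL10 d t) / (t ^ 2 * (1 + t ^ 2) ^ 4) := by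
    simp only [ab, bb, X, X2, Y, fh, sg, eta0, pL10]
    field_simp
    ring
  have hq : 0 < ((1 / 16) * d ^ 1 * pL10 d t) / (t ^ 2 * (1 + t ^ 2) ^ 4) := by positivity
  linarith

lemma L1e_ok (d t : ℝ) (hd : 0 < d) (hd1 : d ≤ 1 / 3) (ht : 0 < t) (ht1 : t ≤ 1) :
    (-2 * d * (1 / 2 - Y d t) + ab d t * fh t + (1 + d) * ((1 + 2 * (1 + t) * eta0 d) / t)) ^ 2
      < 4 * (1 + 4 * d) * (1 / 2 + X d t) * ((1 + 2 * d) * (1 / 2 - Y d t) - bb d t * fh t) + 4 * (1 + 4 * d) * (1 / 2 + X d t) * fh t * ((1 + 2 * (1 + t) * eta0 d) / t) := by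
  have h2 : (1 + t ^ 2) ≠ 0 := by positivity
  have ht0 : t ≠ 0 := ht.ne'
  have hW : (1 + (1 / 5) * d) ≠ 0 := by positivity
  have hp := pL1e_pos hd.le hd1 ht.le ht1
  have key : 4 * (1 + 4 * d) * (1 / 2 + X d t) * ((1 + 2 * d) * (1 / 2 - Y d t) - bb d t * fh t) + 4 * (1 + 4 * d) * (1 / 2 + X d t) * fh t * ((1 + 2 * (1 + t) * eta0 d) / t) - (-2 * d * (1 / 2 - Y d t) + ab d t * fh t + (1 + d) * ((1 + 2 * (1 + t) * eta0 d) / t)) ^ 2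
      = ((1 / 400) * d ^ 2 * pL1e d t) / (t ^ 2 * (1 + t ^ 2) ^ 4 * (1 + (1 / 5) * d) ^ 2) := by
    simp only [ab, bb, X, X2, Y, fh, sg, eta0, pL1e]
    field_simp
    ring
  have hq : 0 < ((1 / 400) * d ^ 2 * pL1e d t) / (t ^ 2 * (1 + t ^ 2) ^ 4 * (1 + (1 / 5) * d) ^ 2) := by positivity
  linarith

lemma L20_ok (d t : ℝ) (hd : 0 < d) (hd1 : d ≤ 1 / 3) (ht : 0 < t) (ht1 : t ≤ 1) :
    (-2 * d * (1 / 2 - Y d t) + bb d t * (-fh t) + (1 + d) * t) ^ 2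
      < 4 * (1 + 4 * d) * (1 / 2 + X2 d t) * ((1 + 2 * d) * (1 / 2 - Y d t) - ab d t * (-fh t)) + 4 * (1 + 4 * d) * (1 / 2 + X2 d t) * (-fh t) * t := by
  have h2 : (1 + t ^ 2) ≠ 0 := by positivity
  have ht0 : t ≠ 0 := ht.ne'
  have hW : (1 + (1 / 5) * d) ≠ 0 := by positivity
  have hp := pL20_pos hd.le hd1 ht.le ht1
  have key : 4 * (1 + 4 * d) * (1 / 2 + X2 d t) * ((1 + 2 * d) * (1 / 2 - Y d t) - ab d t * (-fh t)) + 4 * (1 + 4 * d) * (1 / 2 + X2 d t) * (-fh t) * t - (-2 * d * (1 / 2 - Y d t) + bb d t * (-fh t) + (1 + d) * t) ^ 2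
      = ((1 / 16) * d ^ 1 * pL20 d t) / (t * (1 + t ^ 2) ^ 4) := by
    simp only [ab, bb, X, X2, Y, fh, sg, eta0, pL20]
    field_simp
    ring
  have hq : 0 < ((1 / 16) * d ^ 1 * pL20 d t) / (t * (1 + t ^ 2) ^ 4) := by positivity
  linarith

lemma L2e_ok (d t : ℝ) (hd : 0 < d) (hd1 : d ≤ 1 / 3) (ht : 0 < t) (ht1 : t ≤ 1) :
    (-2 * d * (1 / 2 - Y d t) + bb d t * (-fh t) + (1 + d) * (t + 2 * (1 + t) * eta0 d)) ^ 2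
      < 4 * (1 + 4 * d) * (1 / 2 + X2 d t) * ((1 + 2 * d) * (1 / 2 - Y d t) - ab d t * (-fh t)) + 4 * (1 + 4 * d) * (1 / 2 + X2 d t) * (-fh t) * (t + 2 * (1 + t) * eta0 d) := by
  have h2 : (1 + t ^ 2) ≠ 0 := by positivity
  have ht0 : t ≠ 0 := ht.ne'
  have hW : (1 + (1 / 5) * d) ≠ 0 := by positivity
  have hp := pL2e_pos hd.le hd1 ht.le ht1
  have key : 4 * (1 + 4 * d) * (1 / 2 + X2 d t) * ((1 + 2 * d) * (1 / 2 - Y d t) - ab d t * (-fh t)) + 4 * (1 + 4 * d) * (1 / 2 + X2 d t) * (-fh t) * (t + 2 * (1 + t) * eta0 d) - (-2 * d * (1 / 2 - Y d t) + bb d t * (-fh t) + (1 + d) * (t + 2 * (1 + t) * eta0 d)) ^ 2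
      = ((1 / 400) * d ^ 2 * pL2e d t) / (t * (1 + t ^ 2) ^ 4 * (1 + (1 / 5) * d) ^ 2) := by
    simp only [ab, bb, X, X2, Y, fh, sg, eta0, pL2e]
    field_simp
    ring
  have hq : 0 < ((1 / 400) * d ^ 2 * pL2e d t) / (t * (1 + t ^ 2) ^ 4 * (1 + (1 / 5) * d) ^ 2) := by positivity
  linarith


end Vale.Agent.Lib.P100.AB.V5
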