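import Mathlib

/-!
# P100: the uniform strip in every real dimension `m > 4` (helper13). Generated.
Polynomial inequalities on `0 <= d <= 1/2`, `0 <= t <= 1`, exact Bernstein coefficients.
-/

set_option maxHeartbeats 4000000

noncomputable section

namespace Vale.Agent.Lib.P100.AB.V6

def pr1 (d t : ℝ) : ℝ := 1 + t ^ 2 + 2 * d - 3 * d * t ^ 2 - d ^ 2 * t ^ 2

def cr1a0 (t : ℝ) : ℝ := 1 + 2 * t ^ 2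

theorem cr1a0_nn0 {t : ℝ} (h0 : (0 : ℝ) ≤ 1 * t) (h1 : 1 * t ≤ 1) : 0 ≤ cr1a0 t := by
  obtain ⟨r, hr⟩ : ∃ r, r = 1 * t - 0 := ⟨_, rfl⟩
  obtain ⟨s, hs⟩ : ∃ s, s = 1 - 1 * t := ⟨_, rfl⟩
  have hr0 : 0 ≤ r := by rw [hr]; linarith
  have hs0 : 0 ≤ s := by rw [hs]; linarith
  have e : (1 : ℝ) * cr1a0 t = 1 * s ^ 2 + 2 * r ^ 1 * s ^ 1 + 3 * r ^ 2 := by rw [hr, hs]; unfold cr1a0; ring
  have e2 : 0 ≤ (1 : ℝ) * cr1a0 t := by rw [e]; positivity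
  exact (mul_nonneg_iff_of_pos_left (by norm_num)).mp e2

theorem cr1a0_nn {t : ℝ} (h0 : 0 ≤ t) (h1 : t ≤ 1) : 0 ≤ cr1a0 t := by
  exact cr1a0_nn0 (by linarith) (by linarith)

def cr1a1 (t : ℝ) : ℝ := 10 + 6 * t ^ 2

theorem cr1a1_nn0 {t : ℝ} (h0 : (0 : ℝ) ≤ 1 * t) (h1 : 1 * t ≤ 1) : 0 ≤ cr1a1 t := by
  obtain ⟨r, hr⟩ : ∃ r, r = 1 * t - 0 := ⟨_, rfl⟩
  obtain ⟨s, hs⟩ : ∃ s, s = 1 - 1 * t := ⟨_, rfl⟩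
  have hr0 : 0 ≤ r := by rw [hr]; linarith
  have hs0 : 0 ≤ s := by rw [hs]; linarith
  have e : (1 : ℝ) * cr1a1 t = 10 * s ^ 2 + 20 * r ^ 1 * s ^ 1 + 16 * r ^ 2 := by rw [hr, hs]; unfold cr1a1; ring
  have e2 : 0 ≤ (1 : ℝ) * cr1a1 t := by rw [e]; positivity
  exact (mul_nonneg_iff_of_pos_left (by norm_num)).mp e2

theorem cr1a1_nn {t : ℝ} (h0 : 0 ≤ t) (h1 : t ≤ 1) : 0 ≤ cr1a1 t := by
  exact cr1a1_nn0 (by linarith) (by linarith)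

def cr1a2 (t : ℝ) : ℝ := 21 - 2 * t ^ 2

theorem cr1a2_nn0 {t : ℝ} (h0 : (0 : ℝ) ≤ 1 * t) (h1 : 1 * t ≤ 1) : 0 ≤ cr1a2 t := by
  obtain ⟨r, hr⟩ : ∃ r, r = 1 * t - 0 := ⟨_, rfl⟩
  obtain ⟨s, hs⟩ : ∃ s, s = 1 - 1 * t := ⟨_, rfl⟩
  have hr0 : 0 ≤ r := by rw [hr]; linarith
  have hs0 : 0 ≤ s := by rw [hs]; linarith
  have e : (1 : ℝ) * cr1a2 t = 21 * s ^ 2 + 42 * r ^ 1 * s ^ 1 + 19 * r ^ 2 := by rw [hr, hs]; unfold cr1a2; ring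
  have e2 : 0 ≤ (1 : ℝ) * cr1a2 t := by rw [e]; positivity
  exact (mul_nonneg_iff_of_pos_left (by norm_num)).mp e2

theorem cr1a2_nn {t : ℝ} (h0 : 0 ≤ t) (h1 : t ≤ 1) : 0 ≤ cr1a2 t := by
  exact cr1a2_nn0 (by linarith) (by linarith)

theorem pr1_posa {d t : ℝ} (hd : 0 ≤ d) (hd3 : d ≤ 1 / 3) (h0 : 0 ≤ t) (h1 : t ≤ 1) : 0 < pr1 d t := by
  obtain ⟨u, hu⟩ : ∃ u, u = d := ⟨_, rfl⟩
  obtain ⟨v, hv⟩ : ∃ v, v = 1 - 3 * d := ⟨_, rfl⟩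
  have hu0 : 0 ≤ u := by rw [hu]; linarith
  have hv0 : 0 ≤ v := by rw [hv]; linarith
  have key : (2 : ℝ) * pr1 d t = 1 + (v ^ 2 * cr1a0 t + (u ^ 1 * v ^ 1 * cr1a1 t + (u ^ 2 * cr1a2 t))) := by
    rw [hu, hv]; unfold pr1 cr1a0 cr1a1 cr1a2; ring
  have h3 : 0 < (2 : ℝ) * pr1 d t := by
    rw [key]; exact add_pos_of_pos_of_nonneg one_pos (add_nonneg (mul_nonneg (by positivity) (cr1a0_nn h0 h1)) (add_nonneg (mul_nonneg (by positivity) (cr1a1_nn h0 h1)) (mul_nonneg (by positivity) (cr1a2_nn h0 h1))))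
  exact (mul_pos_iff_of_pos_left (by norm_num)).mp h3

def cr1b0 (t : ℝ) : ℝ := 21 - 2 * t ^ 2

theorem cr1b0_nn0 {t : ℝ} (h0 : (0 : ℝ) ≤ 1 * t) (h1 : 1 * t ≤ 1) : 0 ≤ cr1b0 t := by
  obtain ⟨r, hr⟩ : ∃ r, r = 1 * t - 0 := ⟨_, rfl⟩
  obtain ⟨s, hs⟩ : ∃ s, s = 1 - 1 * t := ⟨_, rfl⟩
  have hr0 : 0 ≤ r := by rw [hr]; linarith
  have hs0 : 0 ≤ s := by rw [hs]; linarith
  have e : (1 : ℝ) * cr1b0 t = 21 * s ^ 2 + 42 * r ^ 1 * s ^ 1 + 19 * r ^ 2 := by rw [hr, hs]; unfold cr1b0; ring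
  have e2 : 0 ≤ (1 : ℝ) * cr1b0 t := by rw [e]; positivity
  exact (mul_nonneg_iff_of_pos_left (by norm_num)).mp e2

theorem cr1b0_nn {t : ℝ} (h0 : 0 ≤ t) (h1 : t ≤ 1) : 0 ≤ cr1b0 t := by
  exact cr1b0_nn0 (by linarith) (by linarith)

def cr1b1 (t : ℝ) : ℝ := 32 - 10 * t ^ 2

theorem cr1b1_nn0 {t : ℝ} (h0 : (0 : ℝ) ≤ 1 * t) (h1 : 1 * t ≤ 1) : 0 ≤ cr1b1 t := by
  obtain ⟨r, hr⟩ : ∃ r, r = 1 * t - 0 := ⟨_, rfl⟩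
  obtain ⟨s, hs⟩ : ∃ s, s = 1 - 1 * t := ⟨_, rfl⟩
  have hr0 : 0 ≤ r := by rw [hr]; linarith
  have hs0 : 0 ≤ s := by rw [hs]; linarith
  have e : (1 : ℝ) * cr1b1 t = 32 * s ^ 2 + 64 * r ^ 1 * s ^ 1 + 22 * r ^ 2 := by rw [hr, hs]; unfold cr1b1; ring
  have e2 : 0 ≤ (1 : ℝ) * cr1b1 t := by rw [e]; positivity
  exact (mul_nonneg_iff_of_pos_left (by norm_num)).mp e2

theorem cr1b1_nn {t : ℝ} (h0 : 0 ≤ t) (h1 : t ≤ 1) : 0 ≤ cr1b1 t := by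
  exact cr1b1_nn0 (by linarith) (by linarith)

def cr1b2 (t : ℝ) : ℝ := 12 - 6 * t ^ 2

theorem cr1b2_nn0 {t : ℝ} (h0 : (0 : ℝ) ≤ 1 * t) (h1 : 1 * t ≤ 1) : 0 ≤ cr1b2 t := by
  obtain ⟨r, hr⟩ : ∃ r, r = 1 * t - 0 := ⟨_, rfl⟩
  obtain ⟨s, hs⟩ : ∃ s, s = 1 - 1 * t := ⟨_, rfl⟩
  have hr0 : 0 ≤ r := by rw [hr]; linarith
  have hs0 : 0 ≤ s := by rw [hs]; linarith
  have e : (1 : ℝ) * cr1b2 t = 12 * s ^ 2 + 24 * r ^ 1 * s ^ 1 + 6 * r ^ 2 := by rw [hr, hs]; unfold cr1b2; ring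
  have e2 : 0 ≤ (1 : ℝ) * cr1b2 t := by rw [e]; positivity
  exact (mul_nonneg_iff_of_pos_left (by norm_num)).mp e2

theorem cr1b2_nn {t : ℝ} (h0 : 0 ≤ t) (h1 : t ≤ 1) : 0 ≤ cr1b2 t := by
  exact cr1b2_nn0 (by linarith) (by linarith)

theorem pr1_posb {d t : ℝ} (hd : 1 / 3 ≤ d) (hd3 : d ≤ 1 / 2) (h0 : 0 ≤ t) (h1 : t ≤ 1) : 0 < pr1 d t := by
  obtain ⟨u, hu⟩ : ∃ u, u = 3 * d - 1 := ⟨_, rfl⟩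
  obtain ⟨v, hv⟩ : ∃ v, v = 1 - 2 * d := ⟨_, rfl⟩
  have hu0 : 0 ≤ u := by rw [hu]; linarith
  have hv0 : 0 ≤ v := by rw [hv]; linarith
  have key : (2 : ℝ) * pr1 d t = 1 + (v ^ 2 * cr1b0 t + (u ^ 1 * v ^ 1 * cr1b1 t + (u ^ 2 * cr1b2 t))) := by
    rw [hu, hv]; unfold pr1 cr1b0 cr1b1 cr1b2; ring
  have h3 : 0 < (2 : ℝ) * pr1 d t := by
    rw [key]; exact add_pos_of_pos_of_nonneg one_pos (add_nonneg (mul_nonneg (by positivity) (cr1b0_nn h0 h1)) (add_nonneg (mul_nonneg (by positivity) (cr1b1_nn h0 h1)) (mul_nonneg (by positivity) (cr1b2_nn h0 h1))))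
  exact (mul_pos_iff_of_pos_left (by norm_num)).mp h3

theorem pr1_pos {d t : ℝ} (hd : 0 ≤ d) (hd3 : d ≤ 1 / 2) (h0 : 0 ≤ t) (h1 : t ≤ 1) : 0 < pr1 d t := by
  rcases le_total d (1 / 3) with h | h
  · exact pr1_posa hd h h0 h1
  · exact pr1_posb h hd3 h0 h1

def pr6 (d t : ℝ) : ℝ := 16 + 16 * t ^ 2 - 48 * d + 32 * d * t ^ 2 + 64 * d ^ 2 - 80 * d ^ 2 * t ^ 2 + 15 * d ^ 3 + 10 * d ^ 3 * t ^ 2 - 25 * d ^ 3 * t ^ 4 - 25 * d ^ 4 + 50 * d ^ 4 * t ^ 2 - 25 * d ^ 4 * t ^ 4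

def cr6a0 (t : ℝ) : ℝ := 15 + 16 * t ^ 2

theorem cr6a0_nn0 {t : ℝ} (h0 : (0 : ℝ) ≤ 1 * t) (h1 : 1 * t ≤ 1) : 0 ≤ cr6a0 t := by
  obtain ⟨r, hr⟩ : ∃ r, r = 1 * t - 0 := ⟨_, rfl⟩
  obtain ⟨s, hs⟩ : ∃ s, s = 1 - 1 * t := ⟨_, rfl⟩
  have hr0 : 0 ≤ r := by rw [hr]; linarith
  have hs0 : 0 ≤ s := by rw [hs]; linarith
  have e : (1 : ℝ) * cr6a0 t = 15 * s ^ 4 + 60 * r ^ 1 * s ^ 3 + 106 * r ^ 2 * s ^ 2 + 92 * r ^ 3 * s ^ 1 + 31 * r ^ 4 := by rw [hr, hs]; unfold cr6a0; ring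
  have e2 : 0 ≤ (1 : ℝ) * cr6a0 t := by rw [e]; positivity
  exact (mul_nonneg_iff_of_pos_left (by norm_num)).mp e2

theorem cr6a0_nn {t : ℝ} (h0 : 0 ≤ t) (h1 : t ≤ 1) : 0 ≤ cr6a0 t := by
  exact cr6a0_nn0 (by linarith) (by linarith)

def cr6a1 (t : ℝ) : ℝ := 132 + 224 * t ^ 2

theorem cr6a1_nn0 {t : ℝ} (h0 : (0 : ℝ) ≤ 1 * t) (h1 : 1 * t ≤ 1) : 0 ≤ cr6a1 t := by
  obtain ⟨r, hr⟩ : ∃ r, r = 1 * t - 0 := ⟨_, rfl⟩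
  obtain ⟨s, hs⟩ : ∃ s, s = 1 - 1 * t := ⟨_, rfl⟩
  have hr0 : 0 ≤ r := by rw [hr]; linarith
  have hs0 : 0 ≤ s := by rw [hs]; linarith
  have e : (1 : ℝ) * cr6a1 t = 132 * s ^ 4 + 528 * r ^ 1 * s ^ 3 + 1016 * r ^ 2 * s ^ 2 + 976 * r ^ 3 * s ^ 1 + 356 * r ^ 4 := by rw [hr, hs]; unfold cr6a1; ring
  have e2 : 0 ≤ (1 : ℝ) * cr6a1 t := by rw [e]; positivity
  exact (mul_nonneg_iff_of_pos_left (by norm_num)).mp e2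

theorem cr6a1_nn {t : ℝ} (h0 : 0 ≤ t) (h1 : t ≤ 1) : 0 ≤ cr6a1 t := by
  exact cr6a1_nn0 (by linarith) (by linarith)

def cr6a2 (t : ℝ) : ℝ := 442 + 1072 * t ^ 2

theorem cr6a2_nn0 {t : ℝ} (h0 : (0 : ℝ) ≤ 1 * t) (h1 : 1 * t ≤ 1) : 0 ≤ cr6a2 t := by
  obtain ⟨r, hr⟩ : ∃ r, r = 1 * t - 0 := ⟨_, rfl⟩
  obtain ⟨s, hs⟩ : ∃ s, s = 1 - 1 * t := ⟨_, rfl⟩
  have hr0 : 0 ≤ r := by rw [hr]; linarith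
  have hs0 : 0 ≤ s := by rw [hs]; linarith
  have e : (1 : ℝ) * cr6a2 t = 442 * s ^ 4 + 1768 * r ^ 1 * s ^ 3 + 3724 * r ^ 2 * s ^ 2 + 3912 * r ^ 3 * s ^ 1 + 1514 * r ^ 4 := by rw [hr, hs]; unfold cr6a2; ring
  have e2 : 0 ≤ (1 : ℝ) * cr6a2 t := by rw [e]; positivity
  exact (mul_nonneg_iff_of_pos_left (by norm_num)).mp e2

theorem cr6a2_nn {t : ℝ} (h0 : 0 ≤ t) (h1 : t ≤ 1) : 0 ≤ cr6a2 t := by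
  exact cr6a2_nn0 (by linarith) (by linarith)

def cr6a3 (t : ℝ) : ℝ := 723 + 2122 * t ^ 2 - 25 * t ^ 4

theorem cr6a3_nn0 {t : ℝ} (h0 : (0 : ℝ) ≤ 1 * t) (h1 : 1 * t ≤ 1) : 0 ≤ cr6a3 t := by
  obtain ⟨r, hr⟩ : ∃ r, r = 1 * t - 0 := ⟨_, rfl⟩
  obtain ⟨s, hs⟩ : ∃ s, s = 1 - 1 * t := ⟨_, rfl⟩
  have hr0 : 0 ≤ r := by rw [hr]; linarith
  have hs0 : 0 ≤ s := by rw [hs]; linarith
  have e : (1 : ℝ) * cr6a3 t = 723 * s ^ 4 + 2892 * r ^ 1 * s ^ 3 + 6460 * r ^ 2 * s ^ 2 + 7136 * r ^ 3 * s ^ 1 + 2820 * r ^ 4 := by rw [hr, hs]; unfold cr6a3; ring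
  have e2 : 0 ≤ (1 : ℝ) * cr6a3 t := by rw [e]; positivity
  exact (mul_nonneg_iff_of_pos_left (by norm_num)).mp e2

theorem cr6a3_nn {t : ℝ} (h0 : 0 ≤ t) (h1 : t ≤ 1) : 0 ≤ cr6a3 t := by
  exact cr6a3_nn0 (by linarith) (by linarith)

def cr6a4 (t : ℝ) : ℝ := 515 + 1520 * t ^ 2 - 100 * t ^ 4

theorem cr6a4_nn0 {t : ℝ} (h0 : (0 : ℝ) ≤ 1 * t) (h1 : 1 * t ≤ 1) : 0 ≤ cr6a4 t := by
  obtain ⟨r, hr⟩ : ∃ r, r = 1 * t - 0 := ⟨_, rfl⟩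
  obtain ⟨s, hs⟩ : ∃ s, s = 1 - 1 * t := ⟨_, rfl⟩
  have hr0 : 0 ≤ r := by rw [hr]; linarith
  have hs0 : 0 ≤ s := by rw [hs]; linarith
  have e : (1 : ℝ) * cr6a4 t = 515 * s ^ 4 + 2060 * r ^ 1 * s ^ 3 + 4610 * r ^ 2 * s ^ 2 + 5100 * r ^ 3 * s ^ 1 + 1935 * r ^ 4 := by rw [hr, hs]; unfold cr6a4; ring
  have e2 : 0 ≤ (1 : ℝ) * cr6a4 t := by rw [e]; positivity
  exact (mul_nonneg_iff_of_pos_left (by norm_num)).mp e2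

theorem cr6a4_nn {t : ℝ} (h0 : 0 ≤ t) (h1 : t ≤ 1) : 0 ≤ cr6a4 t := by
  exact cr6a4_nn0 (by linarith) (by linarith)

theorem pr6_posa {d t : ℝ} (hd : 0 ≤ d) (hd3 : d ≤ 1 / 3) (h0 : 0 ≤ t) (h1 : t ≤ 1) : 0 < pr6 d t := by
  obtain ⟨u, hu⟩ : ∃ u, u = d := ⟨_, rfl⟩
  obtain ⟨v, hv⟩ : ∃ v, v = 1 - 3 * d := ⟨_, rfl⟩
  have hu0 : 0 ≤ u := by rw [hu]; linarith
  have hv0 : 0 ≤ v := by rw [hv]; linarith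
  have key : (1 : ℝ) * pr6 d t = 1 + (v ^ 4 * cr6a0 t + (u ^ 1 * v ^ 3 * cr6a1 t + (u ^ 2 * v ^ 2 * cr6a2 t + (u ^ 3 * v ^ 1 * cr6a3 t + (u ^ 4 * cr6a4 t))))) := by
    rw [hu, hv]; unfold pr6 cr6a0 cr6a1 cr6a2 cr6a3 cr6a4; ring
  have h3 : 0 < (1 : ℝ) * pr6 d t := by
    rw [key]; exact add_pos_of_pos_of_nonneg one_pos (add_nonneg (mul_nonneg (by positivity) (cr6a0_nn h0 h1)) (add_nonneg (mul_nonneg (by positivity) (cr6a1_nn h0 h1)) (add_nonneg (mul_nonneg (by positivity) (cr6a2_nn h0 h1)) (add_nonneg (mul_nonneg (by positivity) (cr6a3_nn h0 h1)) (mul_nonneg (by positivity) (cr6a4_nn h0 h1))))))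
  exact (mul_pos_iff_of_pos_left (by norm_num)).mp h3

def cr6b0 (t : ℝ) : ℝ := 515 + 1520 * t ^ 2 - 100 * t ^ 4

theorem cr6b0_nn0 {t : ℝ} (h0 : (0 : ℝ) ≤ 1 * t) (h1 : 1 * t ≤ 1) : 0 ≤ cr6b0 t := by
  obtain ⟨r, hr⟩ : ∃ r, r = 1 * t - 0 := ⟨_, rfl⟩
  obtain ⟨s, hs⟩ : ∃ s, s = 1 - 1 * t := ⟨_, rfl⟩
  have hr0 : 0 ≤ r := by rw [hr]; linarith
  have hs0 : 0 ≤ s := by rw [hs]; linarith
  have e : (1 : ℝ) * cr6b0 t = 515 * s ^ 4 + 2060 * r ^ 1 * s ^ 3 + 4610 * r ^ 2 * s ^ 2 + 5100 * r ^ 3 * s ^ 1 + 1935 * r ^ 4 := by rw [hr, hs]; unfold cr6b0; ring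
  have e2 : 0 ≤ (1 : ℝ) * cr6b0 t := by rw [e]; positivity
  exact (mul_nonneg_iff_of_pos_left (by norm_num)).mp e2

theorem cr6b0_nn {t : ℝ} (h0 : 0 ≤ t) (h1 : t ≤ 1) : 0 ≤ cr6b0 t := by
  exact cr6b0_nn0 (by linarith) (by linarith)

def cr6b1 (t : ℝ) : ℝ := 1337 + 3958 * t ^ 2 - 375 * t ^ 4

theorem cr6b1_nn0 {t : ℝ} (h0 : (0 : ℝ) ≤ 1 * t) (h1 : 1 * t ≤ 1) : 0 ≤ cr6b1 t := by
  obtain ⟨r, hr⟩ : ∃ r, r = 1 * t - 0 := ⟨_, rfl⟩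
  obtain ⟨s, hs⟩ : ∃ s, s = 1 - 1 * t := ⟨_, rfl⟩
  have hr0 : 0 ≤ r := by rw [hr]; linarith
  have hs0 : 0 ≤ s := by rw [hs]; linarith
  have e : (1 : ℝ) * cr6b1 t = 1337 * s ^ 4 + 5348 * r ^ 1 * s ^ 3 + 11980 * r ^ 2 * s ^ 2 + 13264 * r ^ 3 * s ^ 1 + 4920 * r ^ 4 := by rw [hr, hs]; unfold cr6b1; ring
  have e2 : 0 ≤ (1 : ℝ) * cr6b1 t := by rw [e]; positivity
  exact (mul_nonneg_iff_of_pos_left (by norm_num)).mp e2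

theorem cr6b1_nn {t : ℝ} (h0 : 0 ≤ t) (h1 : t ≤ 1) : 0 ≤ cr6b1 t := by
  exact cr6b1_nn0 (by linarith) (by linarith)

def cr6b2 (t : ℝ) : ℝ := 1363 + 3826 * t ^ 2 - 525 * t ^ 4

theorem cr6b2_nn0 {t : ℝ} (h0 : (0 : ℝ) ≤ 1 * t) (h1 : 1 * t ≤ 1) : 0 ≤ cr6b2 t := by
  obtain ⟨r, hr⟩ : ∃ r, r = 1 * t - 0 := ⟨_, rfl⟩
  obtain ⟨s, hs⟩ : ∃ s, s = 1 - 1 * t := ⟨_, rfl⟩
  have hr0 : 0 ≤ r := by rw [hr]; linarith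
  have hs0 : 0 ≤ s := by rw [hs]; linarith
  have e : (1 : ℝ) * cr6b2 t = 1363 * s ^ 4 + 5452 * r ^ 1 * s ^ 3 + 12004 * r ^ 2 * s ^ 2 + 13104 * r ^ 3 * s ^ 1 + 4664 * r ^ 4 := by rw [hr, hs]; unfold cr6b2; ring
  have e2 : 0 ≤ (1 : ℝ) * cr6b2 t := by rw [e]; positivity
  exact (mul_nonneg_iff_of_pos_left (by norm_num)).mp e2

theorem cr6b2_nn {t : ℝ} (h0 : 0 ≤ t) (h1 : t ≤ 1) : 0 ≤ cr6b2 t := by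
  exact cr6b2_nn0 (by linarith) (by linarith)

def cr6b3 (t : ℝ) : ℝ := 643 + 1634 * t ^ 2 - 325 * t ^ 4

theorem cr6b3_nn0 {t : ℝ} (h0 : (0 : ℝ) ≤ 1 * t) (h1 : 1 * t ≤ 1) : 0 ≤ cr6b3 t := by
  obtain ⟨r, hr⟩ : ∃ r, r = 1 * t - 0 := ⟨_, rfl⟩
  obtain ⟨s, hs⟩ : ∃ s, s = 1 - 1 * t := ⟨_, rfl⟩
  have hr0 : 0 ≤ r := by rw [hr]; linarith
  have hs0 : 0 ≤ s := by rw [hs]; linarith
  have e : (1 : ℝ) * cr6b3 t = 643 * s ^ 4 + 2572 * r ^ 1 * s ^ 3 + 5492 * r ^ 2 * s ^ 2 + 5840 * r ^ 3 * s ^ 1 + 1952 * r ^ 4 := by rw [hr, hs]; unfold cr6b3; ring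
  have e2 : 0 ≤ (1 : ℝ) * cr6b3 t := by rw [e]; positivity
  exact (mul_nonneg_iff_of_pos_left (by norm_num)).mp e2

theorem cr6b3_nn {t : ℝ} (h0 : 0 ≤ t) (h1 : t ≤ 1) : 0 ≤ cr6b3 t := by
  exact cr6b3_nn0 (by linarith) (by linarith)

def cr6b4 (t : ℝ) : ℝ := 117 + 262 * t ^ 2 - 75 * t ^ 4

theorem cr6b4_nn0 {t : ℝ} (h0 : (0 : ℝ) ≤ 1 * t) (h1 : 1 * t ≤ 1) : 0 ≤ cr6b4 t := by
  obtain ⟨r, hr⟩ : ∃ r, r = 1 * t - 0 := ⟨_, rfl⟩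
  obtain ⟨s, hs⟩ : ∃ s, s = 1 - 1 * t := ⟨_, rfl⟩
  have hr0 : 0 ≤ r := by rw [hr]; linarith
  have hs0 : 0 ≤ s := by rw [hs]; linarith
  have e : (1 : ℝ) * cr6b4 t = 117 * s ^ 4 + 468 * r ^ 1 * s ^ 3 + 964 * r ^ 2 * s ^ 2 + 992 * r ^ 3 * s ^ 1 + 304 * r ^ 4 := by rw [hr, hs]; unfold cr6b4; ring
  have e2 : 0 ≤ (1 : ℝ) * cr6b4 t := by rw [e]; positivity
  exact (mul_nonneg_iff_of_pos_left (by norm_num)).mp e2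

theorem cr6b4_nn {t : ℝ} (h0 : 0 ≤ t) (h1 : t ≤ 1) : 0 ≤ cr6b4 t := by
  exact cr6b4_nn0 (by linarith) (by linarith)

theorem pr6_posb {d t : ℝ} (hd : 1 / 3 ≤ d) (hd3 : d ≤ 1 / 2) (h0 : 0 ≤ t) (h1 : t ≤ 1) : 0 < pr6 d t := by
  obtain ⟨u, hu⟩ : ∃ u, u = 3 * d - 1 := ⟨_, rfl⟩
  obtain ⟨v, hv⟩ : ∃ v, v = 1 - 2 * d := ⟨_, rfl⟩
  have hu0 : 0 ≤ u := by rw [hu]; linarith
  have hv0 : 0 ≤ v := by rw [hv]; linarith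
  have key : (1 : ℝ) * pr6 d t = 1 + (v ^ 4 * cr6b0 t + (u ^ 1 * v ^ 3 * cr6b1 t + (u ^ 2 * v ^ 2 * cr6b2 t + (u ^ 3 * v ^ 1 * cr6b3 t + (u ^ 4 * cr6b4 t))))) := by
    rw [hu, hv]; unfold pr6 cr6b0 cr6b1 cr6b2 cr6b3 cr6b4; ring
  have h3 : 0 < (1 : ℝ) * pr6 d t := by
    rw [key]; exact add_pos_of_pos_of_nonneg one_pos (add_nonneg (mul_nonneg (by positivity) (cr6b0_nn h0 h1)) (add_nonneg (mul_nonneg (by positivity) (cr6b1_nn h0 h1)) (add_nonneg (mul_nonneg (by positivity) (cr6b2_nn h0 h1)) (add_nonneg (mul_nonneg (by positivity) (cr6b3_nn h0 h1)) (mul_nonneg (by positivity) (cr6b4_nn h0 h1))))))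
  exact (mul_pos_iff_of_pos_left (by norm_num)).mp h3

theorem pr6_pos {d t : ℝ} (hd : 0 ≤ d) (hd3 : d ≤ 1 / 2) (h0 : 0 ≤ t) (h1 : t ≤ 1) : 0 < pr6 d t := by
  rcases le_total d (1 / 3) with h | h
  · exact pr6_posa hd h h0 h1
  · exact pr6_posb h hd3 h0 h1

def pr3 (d t : ℝ) : ℝ := 256 + 1024 * t ^ 2 + 1536 * t ^ 4 + 1024 * t ^ 6 + 256 * t ^ 8 - 128 * d + 512 * d * t - 1280 * d * t ^ 2 + 1536 * d * t ^ 3 - 2304 * d * t ^ 4 + 1536 * d * t ^ 5 - 1280 * d * t ^ 6 + 512 * d * t ^ 7 - 128 * d * t ^ 8 - 368 * d ^ 2 * t + 1984 * d ^ 2 * t ^ 2 - 3152 * d ^ 2 * t ^ 3 + 3968 * d ^ 2 * t ^ 4 - 3152 * d ^ 2 * t ^ 5 + 1984 * d ^ 2 * t ^ 6 - 368 * d ^ 2 * t ^ 7 - 529 * d ^ 3 * t ^ 2 + 1472 * d ^ 3 * t ^ 3 - 2082 * d ^ 3 * t ^ 4 + 1472 * d ^ 3 * t ^ 5 - 529 * d ^ 3 * t ^ 6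

def cr3a0 (t : ℝ) : ℝ := 255 + 1024 * t ^ 2 + 1536 * t ^ 4 + 1024 * t ^ 6 + 256 * t ^ 8

theorem cr3a0_nn0 {t : ℝ} (h0 : (0 : ℝ) ≤ 1 * t) (h1 : 1 * t ≤ 1) : 0 ≤ cr3a0 t := by
  obtain ⟨r, hr⟩ : ∃ r, r = 1 * t - 0 := ⟨_, rfl⟩
  obtain ⟨s, hs⟩ : ∃ s, s = 1 - 1 * t := ⟨_, rfl⟩
  have hr0 : 0 ≤ r := by rw [hr]; linarith
  have hs0 : 0 ≤ s := by rw [hs]; linarith
  have e : (1 : ℝ) * cr3a0 t = 255 * s ^ 8 + 2040 * r ^ 1 * s ^ 7 + 8164 * r ^ 2 * s ^ 6 + 20424 * r ^ 3 * s ^ 5 + 34746 * r ^ 4 * s ^ 4 + 40904 * r ^ 5 * s ^ 3 + 32740 * r ^ 6 * s ^ 2 + 16376 * r ^ 7 * s ^ 1 + 4095 * r ^ 8 := by rw [hr, hs]; unfold cr3a0; ring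
  have e2 : 0 ≤ (1 : ℝ) * cr3a0 t := by rw [e]; positivity
  exact (mul_nonneg_iff_of_pos_left (by norm_num)).mp e2

theorem cr3a0_nn {t : ℝ} (h0 : 0 ≤ t) (h1 : t ≤ 1) : 0 ≤ cr3a0 t := by
  exact cr3a0_nn0 (by linarith) (by linarith)

def cr3a1 (t : ℝ) : ℝ := 2167 + 512 * t + 7936 * t ^ 2 + 1536 * t ^ 3 + 11520 * t ^ 4 + 1536 * t ^ 5 + 7936 * t ^ 6 + 512 * t ^ 7 + 2176 * t ^ 8

theorem cr3a1_nn0 {t : ℝ} (h0 : (0 : ℝ) ≤ 1 * t) (h1 : 1 * t ≤ 1) : 0 ≤ cr3a1 t := by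
  obtain ⟨r, hr⟩ : ∃ r, r = 1 * t - 0 := ⟨_, rfl⟩
  obtain ⟨s, hs⟩ : ∃ s, s = 1 - 1 * t := ⟨_, rfl⟩
  have hr0 : 0 ≤ r := by rw [hr]; linarith
  have hs0 : 0 ≤ s := by rw [hs]; linarith
  have e : (1 : ℝ) * cr3a1 t = 2167 * s ^ 8 + 17848 * r ^ 1 * s ^ 7 + 72196 * r ^ 2 * s ^ 6 + 181256 * r ^ 3 * s ^ 5 + 307850 * r ^ 4 * s ^ 4 + 360968 * r ^ 5 * s ^ 3 + 287492 * r ^ 6 * s ^ 2 + 143288 * r ^ 7 * s ^ 1 + 35831 * r ^ 8 := by rw [hr, hs]; unfold cr3a1; ring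
  have e2 : 0 ≤ (1 : ℝ) * cr3a1 t := by rw [e]; positivity
  exact (mul_nonneg_iff_of_pos_left (by norm_num)).mp e2

theorem cr3a1_nn {t : ℝ} (h0 : 0 ≤ t) (h1 : t ≤ 1) : 0 ≤ cr3a1 t := by
  exact cr3a1_nn0 (by linarith) (by linarith)

def cr3a2 (t : ℝ) : ℝ := 6117 + 2704 * t + 21952 * t ^ 2 + 6064 * t ^ 3 + 31616 * t ^ 4 + 6064 * t ^ 5 + 21952 * t ^ 6 + 2704 * t ^ 7 + 6144 * t ^ 8

theorem cr3a2_nn0 {t : ℝ} (h0 : (0 : ℝ) ≤ 1 * t) (h1 : 1 * t ≤ 1) : 0 ≤ cr3a2 t := by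
  obtain ⟨r, hr⟩ : ∃ r, r = 1 * t - 0 := ⟨_, rfl⟩
  obtain ⟨s, hs⟩ : ∃ s, s = 1 - 1 * t := ⟨_, rfl⟩
  have hr0 : 0 ≤ r := by rw [hr]; linarith
  have hs0 : 0 ≤ s := by rw [hs]; linarith
  have e : (1 : ℝ) * cr3a2 t = 6117 * s ^ 8 + 51640 * r ^ 1 * s ^ 7 + 212156 * r ^ 2 * s ^ 6 + 537112 * r ^ 3 * s ^ 5 + 914046 * r ^ 4 * s ^ 4 + 1069400 * r ^ 5 * s ^ 3 + 847820 * r ^ 6 * s ^ 2 + 421160 * r ^ 7 * s ^ 1 + 105317 * r ^ 8 := by rw [hr, hs]; unfold cr3a2; ring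
  have e2 : 0 ≤ (1 : ℝ) * cr3a2 t := by rw [e]; positivity
  exact (mul_nonneg_iff_of_pos_left (by norm_num)).mp e2

theorem cr3a2_nn {t : ℝ} (h0 : 0 ≤ t) (h1 : t ≤ 1) : 0 ≤ cr3a2 t := by
  exact cr3a2_nn0 (by linarith) (by linarith)

def cr3a3 (t : ℝ) : ℝ := 5733 + 3504 * t + 21551 * t ^ 2 + 5840 * t ^ 3 + 30558 * t ^ 4 + 5840 * t ^ 5 + 21551 * t ^ 6 + 3504 * t ^ 7 + 5760 * t ^ 8

theorem cr3a3_nn0 {t : ℝ} (h0 : (0 : ℝ) ≤ 1 * t) (h1 : 1 * t ≤ 1) : 0 ≤ cr3a3 t := by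
  obtain ⟨r, hr⟩ : ∃ r, r = 1 * t - 0 := ⟨_, rfl⟩
  obtain ⟨s, hs⟩ : ∃ s, s = 1 - 1 * t := ⟨_, rfl⟩
  have hr0 : 0 ≤ r := by rw [hr]; linarith
  have hs0 : 0 ≤ s := by rw [hs]; linarith
  have e : (1 : ℝ) * cr3a3 t = 5733 * s ^ 8 + 49368 * r ^ 1 * s ^ 7 + 206603 * r ^ 2 * s ^ 6 + 529778 * r ^ 3 * s ^ 5 + 906973 * r ^ 4 * s ^ 4 + 1061180 * r ^ 5 * s ^ 3 + 838192 * r ^ 6 * s ^ 2 + 415256 * r ^ 7 * s ^ 1 + 103841 * r ^ 8 := by rw [hr, hs]; unfold cr3a3; ring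
  have e2 : 0 ≤ (1 : ℝ) * cr3a3 t := by rw [e]; positivity
  exact (mul_nonneg_iff_of_pos_left (by norm_num)).mp e2

theorem cr3a3_nn {t : ℝ} (h0 : 0 ≤ t) (h1 : t ≤ 1) : 0 ≤ cr3a3 t := by
  exact cr3a3_nn0 (by linarith) (by linarith)

theorem pr3_posa {d t : ℝ} (hd : 0 ≤ d) (hd3 : d ≤ 1 / 3) (h0 : 0 ≤ t) (h1 : t ≤ 1) : 0 < pr3 d t := by
  obtain ⟨u, hu⟩ : ∃ u, u = d := ⟨_, rfl⟩
  obtain ⟨v, hv⟩ : ∃ v, v = 1 - 3 * d := ⟨_, rfl⟩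
  have hu0 : 0 ≤ u := by rw [hu]; linarith
  have hv0 : 0 ≤ v := by rw [hv]; linarith
  have key : (1 : ℝ) * pr3 d t = 1 + (v ^ 3 * cr3a0 t + (u ^ 1 * v ^ 2 * cr3a1 t + (u ^ 2 * v ^ 1 * cr3a2 t + (u ^ 3 * cr3a3 t)))) := by
    rw [hu, hv]; unfold pr3 cr3a0 cr3a1 cr3a2 cr3a3; ring
  have h3 : 0 < (1 : ℝ) * pr3 d t := by
    rw [key]; exact add_pos_of_pos_of_nonneg one_pos (add_nonneg (mul_nonneg (by positivity) (cr3a0_nn h0 h1)) (add_nonneg (mul_nonneg (by positivity) (cr3a1_nn h0 h1)) (add_nonneg (mul_nonneg (by positivity) (cr3a2_nn h0 h1)) (mul_nonneg (by positivity) (cr3a3_nn h0 h1)))))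
  exact (mul_pos_iff_of_pos_left (by norm_num)).mp h3

def cr3b0 (t : ℝ) : ℝ := 5733 + 3504 * t + 21551 * t ^ 2 + 5840 * t ^ 3 + 30558 * t ^ 4 + 5840 * t ^ 5 + 21551 * t ^ 6 + 3504 * t ^ 7 + 5760 * t ^ 8

theorem cr3b0_nn0 {t : ℝ} (h0 : (0 : ℝ) ≤ 1 * t) (h1 : 1 * t ≤ 1) : 0 ≤ cr3b0 t := by
  obtain ⟨r, hr⟩ : ∃ r, r = 1 * t - 0 := ⟨_, rfl⟩
  obtain ⟨s, hs⟩ : ∃ s, s = 1 - 1 * t := ⟨_, rfl⟩
  have hr0 : 0 ≤ r := by rw [hr]; linarith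
  have hs0 : 0 ≤ s := by rw [hs]; linarith
  have e : (1 : ℝ) * cr3b0 t = 5733 * s ^ 8 + 49368 * r ^ 1 * s ^ 7 + 206603 * r ^ 2 * s ^ 6 + 529778 * r ^ 3 * s ^ 5 + 906973 * r ^ 4 * s ^ 4 + 1061180 * r ^ 5 * s ^ 3 + 838192 * r ^ 6 * s ^ 2 + 415256 * r ^ 7 * s ^ 1 + 103841 * r ^ 8 := by rw [hr, hs]; unfold cr3b0; ring
  have e2 : 0 ≤ (1 : ℝ) * cr3b0 t := by rw [e]; positivity
  exact (mul_nonneg_iff_of_pos_left (by norm_num)).mp e2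

theorem cr3b0_nn {t : ℝ} (h0 : 0 ≤ t) (h1 : t ≤ 1) : 0 ≤ cr3b0 t := by
  exact cr3b0_nn0 (by linarith) (by linarith)

def cr3b1 (t : ℝ) : ℝ := 11082 + 7808 * t + 42701 * t ^ 2 + 11456 * t ^ 3 + 60058 * t ^ 4 + 11456 * t ^ 5 + 42701 * t ^ 6 + 7808 * t ^ 7 + 11136 * t ^ 8

theorem cr3b1_nn0 {t : ℝ} (h0 : (0 : ℝ) ≤ 1 * t) (h1 : 1 * t ≤ 1) : 0 ≤ cr3b1 t := by
  obtain ⟨r, hr⟩ : ∃ r, r = 1 * t - 0 := ⟨_, rfl⟩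
  obtain ⟨s, hs⟩ : ∃ s, s = 1 - 1 * t := ⟨_, rfl⟩
  have hr0 : 0 ≤ r := by rw [hr]; linarith
  have hs0 : 0 ≤ s := by rw [hs]; linarith
  have e : (1 : ℝ) * cr3b1 t = 11082 * s ^ 8 + 96464 * r ^ 1 * s ^ 7 + 407653 * r ^ 2 * s ^ 6 + 1052222 * r ^ 3 * s ^ 5 + 1806873 * r ^ 4 * s ^ 4 + 2114140 * r ^ 5 * s ^ 3 + 1666756 * r ^ 6 * s ^ 2 + 824608 * r ^ 7 * s ^ 1 + 206206 * r ^ 8 := by rw [hr, hs]; unfold cr3b1; ring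
  have e2 : 0 ≤ (1 : ℝ) * cr3b1 t := by rw [e]; positivity
  exact (mul_nonneg_iff_of_pos_left (by norm_num)).mp e2

theorem cr3b1_nn {t : ℝ} (h0 : 0 ≤ t) (h1 : t ≤ 1) : 0 ≤ cr3b1 t := by
  exact cr3b1_nn0 (by linarith) (by linarith)

def cr3b2 (t : ℝ) : ℝ := 7132 + 5616 * t + 28685 * t ^ 2 + 6928 * t ^ 3 + 39962 * t ^ 4 + 6928 * t ^ 5 + 28685 * t ^ 6 + 5616 * t ^ 7 + 7168 * t ^ 8

theorem cr3b2_nn0 {t : ℝ} (h0 : (0 : ℝ) ≤ 1 * t) (h1 : 1 * t ≤ 1) : 0 ≤ cr3b2 t := by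
  obtain ⟨r, hr⟩ : ∃ r, r = 1 * t - 0 := ⟨_, rfl⟩
  obtain ⟨s, hs⟩ : ∃ s, s = 1 - 1 * t := ⟨_, rfl⟩
  have hr0 : 0 ≤ r := by rw [hr]; linarith
  have hs0 : 0 ≤ s := by rw [hs]; linarith
  have e : (1 : ℝ) * cr3b2 t = 7132 * s ^ 8 + 62672 * r ^ 1 * s ^ 7 + 267693 * r ^ 2 * s ^ 6 + 696366 * r ^ 3 * s ^ 5 + 1200677 * r ^ 4 * s ^ 4 + 1405708 * r ^ 5 * s ^ 3 + 1106428 * r ^ 6 * s ^ 2 + 546736 * r ^ 7 * s ^ 1 + 136720 * r ^ 8 := by rw [hr, hs]; unfold cr3b2; ring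
  have e2 : 0 ≤ (1 : ℝ) * cr3b2 t := by rw [e]; positivity
  exact (mul_nonneg_iff_of_pos_left (by norm_num)).mp e2

theorem cr3b2_nn {t : ℝ} (h0 : 0 ≤ t) (h1 : t ≤ 1) : 0 ≤ cr3b2 t := by
  exact cr3b2_nn0 (by linarith) (by linarith)

def cr3b3 (t : ℝ) : ℝ := 1528 + 1312 * t + 6511 * t ^ 2 + 1312 * t ^ 3 + 8926 * t ^ 4 + 1312 * t ^ 5 + 6511 * t ^ 6 + 1312 * t ^ 7 + 1536 * t ^ 8

theorem cr3b3_nn0 {t : ℝ} (h0 : (0 : ℝ) ≤ 1 * t) (h1 : 1 * t ≤ 1) : 0 ≤ cr3b3 t := by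
  obtain ⟨r, hr⟩ : ∃ r, r = 1 * t - 0 := ⟨_, rfl⟩
  obtain ⟨s, hs⟩ : ∃ s, s = 1 - 1 * t := ⟨_, rfl⟩
  have hr0 : 0 ≤ r := by rw [hr]; linarith
  have hs0 : 0 ≤ s := by rw [hs]; linarith
  have e : (1 : ℝ) * cr3b3 t = 1528 * s ^ 8 + 13536 * r ^ 1 * s ^ 7 + 58479 * r ^ 2 * s ^ 6 + 153498 * r ^ 3 * s ^ 5 + 266031 * r ^ 4 * s ^ 4 + 311844 * r ^ 5 * s ^ 3 + 245124 * r ^ 6 * s ^ 2 + 121008 * r ^ 7 * s ^ 1 + 30260 * r ^ 8 := by rw [hr, hs]; unfold cr3b3; ring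
  have e2 : 0 ≤ (1 : ℝ) * cr3b3 t := by rw [e]; positivity
  exact (mul_nonneg_iff_of_pos_left (by norm_num)).mp e2

theorem cr3b3_nn {t : ℝ} (h0 : 0 ≤ t) (h1 : t ≤ 1) : 0 ≤ cr3b3 t := by
  exact cr3b3_nn0 (by linarith) (by linarith)

theorem pr3_posb {d t : ℝ} (hd : 1 / 3 ≤ d) (hd3 : d ≤ 1 / 2) (h0 : 0 ≤ t) (h1 : t ≤ 1) : 0 < pr3 d t := by
  obtain ⟨u, hu⟩ : ∃ u, u = 3 * d - 1 := ⟨_, rfl⟩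
  obtain ⟨v, hv⟩ : ∃ v, v = 1 - 2 * d := ⟨_, rfl⟩
  have hu0 : 0 ≤ u := by rw [hu]; linarith
  have hv0 : 0 ≤ v := by rw [hv]; linarith
  have key : (1 : ℝ) * pr3 d t = 1 + (v ^ 3 * cr3b0 t + (u ^ 1 * v ^ 2 * cr3b1 t + (u ^ 2 * v ^ 1 * cr3b2 t + (u ^ 3 * cr3b3 t)))) := by
    rw [hu, hv]; unfold pr3 cr3b0 cr3b1 cr3b2 cr3b3; ring
  have h3 : 0 < (1 : ℝ) * pr3 d t := by
    rw [key]; exact add_pos_of_pos_of_nonneg one_pos (add_nonneg (mul_nonneg (by positivity) (cr3b0_nn h0 h1)) (add_nonneg (mul_nonneg (by positivity) (cr3b1_nn h0 h1)) (add_nonneg (mul_nonneg (by positivity) (cr3b2_nn h0 h1)) (mul_nonneg (by positivity) (cr3b3_nn h0 h1)))))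
  exact (mul_pos_iff_of_pos_left (by norm_num)).mp h3

theorem pr3_pos {d t : ℝ} (hd : 0 ≤ d) (hd3 : d ≤ 1 / 2) (h0 : 0 ≤ t) (h1 : t ≤ 1) : 0 < pr3 d t := by
  rcases le_total d (1 / 3) with h | h
  · exact pr3_posa hd h h0 h1
  · exact pr3_posb h hd3 h0 h1

def pE2 (d t : ℝ) : ℝ := 2 + 2 * t ^ 2 - 4 * d + 4 * d * t ^ 2 + 5 * d ^ 2 - 5 * d ^ 2 * t ^ 2

def cE2a0 (t : ℝ) : ℝ := 3 + 4 * t ^ 2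

theorem cE2a0_nn0 {t : ℝ} (h0 : (0 : ℝ) ≤ 1 * t) (h1 : 1 * t ≤ 1) : 0 ≤ cE2a0 t := by
  obtain ⟨r, hr⟩ : ∃ r, r = 1 * t - 0 := ⟨_, rfl⟩
  obtain ⟨s, hs⟩ : ∃ s, s = 1 - 1 * t := ⟨_, rfl⟩
  have hr0 : 0 ≤ r := by rw [hr]; linarith
  have hs0 : 0 ≤ s := by rw [hs]; linarith
  have e : (1 : ℝ) * cE2a0 t = 3 * s ^ 2 + 6 * r ^ 1 * s ^ 1 + 7 * r ^ 2 := by rw [hr, hs]; unfold cE2a0; ring
  have e2 : 0 ≤ (1 : ℝ) * cE2a0 t := by rw [e]; positivity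
  exact (mul_nonneg_iff_of_pos_left (by norm_num)).mp e2

theorem cE2a0_nn {t : ℝ} (h0 : 0 ≤ t) (h1 : t ≤ 1) : 0 ≤ cE2a0 t := by
  exact cE2a0_nn0 (by linarith) (by linarith)

def cE2a1 (t : ℝ) : ℝ := 10 + 32 * t ^ 2

theorem cE2a1_nn0 {t : ℝ} (h0 : (0 : ℝ) ≤ 1 * t) (h1 : 1 * t ≤ 1) : 0 ≤ cE2a1 t := by
  obtain ⟨r, hr⟩ : ∃ r, r = 1 * t - 0 := ⟨_, rfl⟩
  obtain ⟨s, hs⟩ : ∃ s, s = 1 - 1 * t := ⟨_, rfl⟩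
  have hr0 : 0 ≤ r := by rw [hr]; linarith
  have hs0 : 0 ≤ s := by rw [hs]; linarith
  have e : (1 : ℝ) * cE2a1 t = 10 * s ^ 2 + 20 * r ^ 1 * s ^ 1 + 42 * r ^ 2 := by rw [hr, hs]; unfold cE2a1; ring
  have e2 : 0 ≤ (1 : ℝ) * cE2a1 t := by rw [e]; positivity
  exact (mul_nonneg_iff_of_pos_left (by norm_num)).mp e2

theorem cE2a1_nn {t : ℝ} (h0 : 0 ≤ t) (h1 : t ≤ 1) : 0 ≤ cE2a1 t := by
  exact cE2a1_nn0 (by linarith) (by linarith)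

def cE2a2 (t : ℝ) : ℝ := 13 + 50 * t ^ 2

theorem cE2a2_nn0 {t : ℝ} (h0 : (0 : ℝ) ≤ 1 * t) (h1 : 1 * t ≤ 1) : 0 ≤ cE2a2 t := by
  obtain ⟨r, hr⟩ : ∃ r, r = 1 * t - 0 := ⟨_, rfl⟩
  obtain ⟨s, hs⟩ : ∃ s, s = 1 - 1 * t := ⟨_, rfl⟩
  have hr0 : 0 ≤ r := by rw [hr]; linarith
  have hs0 : 0 ≤ s := by rw [hs]; linarith
  have e : (1 : ℝ) * cE2a2 t = 13 * s ^ 2 + 26 * r ^ 1 * s ^ 1 + 63 * r ^ 2 := by rw [hr, hs]; unfold cE2a2; ring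
  have e2 : 0 ≤ (1 : ℝ) * cE2a2 t := by rw [e]; positivity
  exact (mul_nonneg_iff_of_pos_left (by norm_num)).mp e2

theorem cE2a2_nn {t : ℝ} (h0 : 0 ≤ t) (h1 : t ≤ 1) : 0 ≤ cE2a2 t := by
  exact cE2a2_nn0 (by linarith) (by linarith)

theorem pE2_posa {d t : ℝ} (hd : 0 ≤ d) (hd3 : d ≤ 1 / 3) (h0 : 0 ≤ t) (h1 : t ≤ 1) : 0 < pE2 d t := by
  obtain ⟨u, hu⟩ : ∃ u, u = d := ⟨_, rfl⟩
  obtain ⟨v, hv⟩ : ∃ v, v = 1 - 3 * d := ⟨_, rfl⟩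
  have hu0 : 0 ≤ u := by rw [hu]; linarith
  have hv0 : 0 ≤ v := by rw [hv]; linarith
  have key : (2 : ℝ) * pE2 d t = 1 + (v ^ 2 * cE2a0 t + (u ^ 1 * v ^ 1 * cE2a1 t + (u ^ 2 * cE2a2 t))) := by
    rw [hu, hv]; unfold pE2 cE2a0 cE2a1 cE2a2; ring
  have h3 : 0 < (2 : ℝ) * pE2 d t := by
    rw [key]; exact add_pos_of_pos_of_nonneg one_pos (add_nonneg (mul_nonneg (by positivity) (cE2a0_nn h0 h1)) (add_nonneg (mul_nonneg (by positivity) (cE2a1_nn h0 h1)) (mul_nonneg (by positivity) (cE2a2_nn h0 h1))))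
  exact (mul_pos_iff_of_pos_left (by norm_num)).mp h3

def cE2b0 (t : ℝ) : ℝ := 13 + 50 * t ^ 2

theorem cE2b0_nn0 {t : ℝ} (h0 : (0 : ℝ) ≤ 1 * t) (h1 : 1 * t ≤ 1) : 0 ≤ cE2b0 t := by
  obtain ⟨r, hr⟩ : ∃ r, r = 1 * t - 0 := ⟨_, rfl⟩
  obtain ⟨s, hs⟩ : ∃ s, s = 1 - 1 * t := ⟨_, rfl⟩
  have hr0 : 0 ≤ r := by rw [hr]; linarith
  have hs0 : 0 ≤ s := by rw [hs]; linarith
  have e : (1 : ℝ) * cE2b0 t = 13 * s ^ 2 + 26 * r ^ 1 * s ^ 1 + 63 * r ^ 2 := by rw [hr, hs]; unfold cE2b0; ring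
  have e2 : 0 ≤ (1 : ℝ) * cE2b0 t := by rw [e]; positivity
  exact (mul_nonneg_iff_of_pos_left (by norm_num)).mp e2

theorem cE2b0_nn {t : ℝ} (h0 : 0 ≤ t) (h1 : t ≤ 1) : 0 ≤ cE2b0 t := by
  exact cE2b0_nn0 (by linarith) (by linarith)

def cE2b1 (t : ℝ) : ℝ := 16 + 68 * t ^ 2

theorem cE2b1_nn0 {t : ℝ} (h0 : (0 : ℝ) ≤ 1 * t) (h1 : 1 * t ≤ 1) : 0 ≤ cE2b1 t := by
  obtain ⟨r, hr⟩ : ∃ r, r = 1 * t - 0 := ⟨_, rfl⟩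
  obtain ⟨s, hs⟩ : ∃ s, s = 1 - 1 * t := ⟨_, rfl⟩
  have hr0 : 0 ≤ r := by rw [hr]; linarith
  have hs0 : 0 ≤ s := by rw [hs]; linarith
  have e : (1 : ℝ) * cE2b1 t = 16 * s ^ 2 + 32 * r ^ 1 * s ^ 1 + 84 * r ^ 2 := by rw [hr, hs]; unfold cE2b1; ring
  have e2 : 0 ≤ (1 : ℝ) * cE2b1 t := by rw [e]; positivity
  exact (mul_nonneg_iff_of_pos_left (by norm_num)).mp e2

theorem cE2b1_nn {t : ℝ} (h0 : 0 ≤ t) (h1 : t ≤ 1) : 0 ≤ cE2b1 t := by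
  exact cE2b1_nn0 (by linarith) (by linarith)

def cE2b2 (t : ℝ) : ℝ := 6 + 22 * t ^ 2

theorem cE2b2_nn0 {t : ℝ} (h0 : (0 : ℝ) ≤ 1 * t) (h1 : 1 * t ≤ 1) : 0 ≤ cE2b2 t := by
  obtain ⟨r, hr⟩ : ∃ r, r = 1 * t - 0 := ⟨_, rfl⟩
  obtain ⟨s, hs⟩ : ∃ s, s = 1 - 1 * t := ⟨_, rfl⟩
  have hr0 : 0 ≤ r := by rw [hr]; linarith
  have hs0 : 0 ≤ s := by rw [hs]; linarith
  have e : (1 : ℝ) * cE2b2 t = 6 * s ^ 2 + 12 * r ^ 1 * s ^ 1 + 28 * r ^ 2 := by rw [hr, hs]; unfold cE2b2; ring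
  have e2 : 0 ≤ (1 : ℝ) * cE2b2 t := by rw [e]; positivity
  exact (mul_nonneg_iff_of_pos_left (by norm_num)).mp e2

theorem cE2b2_nn {t : ℝ} (h0 : 0 ≤ t) (h1 : t ≤ 1) : 0 ≤ cE2b2 t := by
  exact cE2b2_nn0 (by linarith) (by linarith)

theorem pE2_posb {d t : ℝ} (hd : 1 / 3 ≤ d) (hd3 : d ≤ 1 / 2) (h0 : 0 ≤ t) (h1 : t ≤ 1) : 0 < pE2 d t := by
  obtain ⟨u, hu⟩ : ∃ u, u = 3 * d - 1 := ⟨_, rfl⟩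
  obtain ⟨v, hv⟩ : ∃ v, v = 1 - 2 * d := ⟨_, rfl⟩
  have hu0 : 0 ≤ u := by rw [hu]; linarith
  have hv0 : 0 ≤ v := by rw [hv]; linarith
  have key : (2 : ℝ) * pE2 d t = 1 + (v ^ 2 * cE2b0 t + (u ^ 1 * v ^ 1 * cE2b1 t + (u ^ 2 * cE2b2 t))) := by
    rw [hu, hv]; unfold pE2 cE2b0 cE2b1 cE2b2; ring
  have h3 : 0 < (2 : ℝ) * pE2 d t := by
    rw [key]; exact add_pos_of_pos_of_nonneg one_pos (add_nonneg (mul_nonneg (by positivity) (cE2b0_nn h0 h1)) (add_nonneg (mul_nonneg (by positivity) (cE2b1_nn h0 h1)) (mul_nonneg (by positivity) (cE2b2_nn h0 h1))))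
  exact (mul_pos_iff_of_pos_left (by norm_num)).mp h3

theorem pE2_pos {d t : ℝ} (hd : 0 ≤ d) (hd3 : d ≤ 1 / 2) (h0 : 0 ≤ t) (h1 : t ≤ 1) : 0 < pE2 d t := by
  rcases le_total d (1 / 3) with h | h
  · exact pE2_posa hd h h0 h1
  · exact pE2_posb h hd3 h0 h1

def pDP (d t : ℝ) : ℝ := 7168 - 20480 * t + 43008 * t ^ 2 - 81920 * t ^ 3 + 107520 * t ^ 4 - 102400 * t ^ 5 + 143360 * t ^ 6 + 107520 * t ^ 8 + 102400 * t ^ 9 + 43008 * t ^ 10 + 81920 * t ^ 11 + 7168 * t ^ 12 + 20480 * t ^ 13 + 12784 * d - 26240 * d * t + 110240 * d * t ^ 2 - 215552 * d * t ^ 3 + 338704 * d * t ^ 4 - 462976 * d * t ^ 5 + 501696 * d * t ^ 6 - 352256 * d * t ^ 7 + 377104 * d * t ^ 8 - 40832 * d * t ^ 9 + 123040 * d * t ^ 10 + 43520 * d * t ^ 11 - 16 * d * t ^ 12 + 5760 * d * t ^ 13 - 6400 * d * t ^ 14 - 30480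 * d ^ 2 + 92928 * d ^ 2 * t - 135552 * d ^ 2 * t ^ 2 + 164480 * d ^ 2 * t ^ 3 - 291952 * d ^ 2 * t ^ 4 + 236160 * d ^ 2 * t ^ 5 - 339200 * d ^ 2 * t ^ 6 + 400640 * d ^ 2 * t ^ 7 - 294512 * d ^ 2 * t ^ 8 + 35840 * d ^ 2 * t ^ 9 - 276352 * d ^ 2 * t ^ 10 - 450432 * d ^ 2 * t ^ 11 - 166160 * d ^ 2 * t ^ 12 - 250240 * d ^ 2 * t ^ 13 - 32000 * d ^ 2 * t ^ 14 - 6528 * d ^ 3 - 37440 * d ^ 3 * t - 105472 * d ^ 3 * t ^ 2 + 291840 * d ^ 3 * t ^ 3 - 223200 * d ^ 3 * t ^ 4 + 318400 * d ^ 3 * t ^ 5 - 477312 * d ^ 3 * t ^ 6 + 1405440 * d ^ 3 * t ^ 7 - 1269440 * d ^ 3 * t ^ 8 + 1689920 * d ^ 3 * t ^ 9 - 1428352 * d ^ 3 * t ^ 10 + 64000 * d ^ 3 * t ^ 11 - 428768 * d ^ 3 * t ^ 12 - 209600 * d ^ 3 * t ^ 13 + 83200 * d ^ 3 * t ^ 14 + 130561 * d ^ 4 - 356096 * d ^ 4 * t + 657162 * d ^ 4 * t ^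 2 - 870720 * d ^ 4 * t ^ 3 + 1312039 * d ^ 4 * t ^ 4 - 942144 * d ^ 4 * t ^ 5 + 789676 * d ^ 4 * t ^ 6 - 893824 * d ^ 4 * t ^ 7 + 635119 * d ^ 4 * t ^ 8 - 694400 * d ^ 4 * t ^ 9 - 339638 * d ^ 4 * t ^ 10 + 371904 * d ^ 4 * t ^ 11 - 7959 * d ^ 4 * t ^ 12 + 600000 * d ^ 4 * t ^ 13 + 307200 * d ^ 4 * t ^ 14 - 8019 * d ^ 5 + 128832 * d ^ 5 * t + 30582 * d ^ 5 * t ^ 2 - 536768 * d ^ 5 * t ^ 3 - 904049 * d ^ 5 * t ^ 4 + 2542464 * d ^ 5 * t ^ 5 - 2094572 * d ^ 5 * t ^ 6 + 1590144 * d ^ 5 * t ^ 7 + 706651 * d ^ 5 * t ^ 8 - 3590848 * d ^ 5 * t ^ 9 + 2006902 * d ^ 5 * t ^ 10 - 1389248 * d ^ 5 * t ^ 11 + 1011561 * d ^ 5 * t ^ 12 + 583680 * d ^ 5 * t ^ 13 + 76800 * d ^ 5 * t ^ 14 - 126040 * d ^ 6 + 293120 * d ^ 6 * t - 416060 * d ^ 6 * t ^ 2 + 531200 * d ^ 6 * t ^ 3 - 173864 * d ^ 6 *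 t ^ 4 - 1050368 * d ^ 6 * t ^ 5 + 1657528 * d ^ 6 * t ^ 6 + 109312 * d ^ 6 * t ^ 7 - 1639784 * d ^ 6 * t ^ 8 + 1313280 * d ^ 6 * t ^ 9 - 1057660 * d ^ 6 * t ^ 10 - 263680 * d ^ 6 * t ^ 11 + 1054440 * d ^ 6 * t ^ 12 - 179200 * d ^ 6 * t ^ 13 - 102400 * d ^ 6 * t ^ 14 + 52900 * d ^ 7 - 147200 * d ^ 7 * t + 102400 * d ^ 7 * t ^ 2 + 147200 * d ^ 7 * t ^ 3 + 26120 * d ^ 7 * t ^ 4 - 674560 * d ^ 7 * t ^ 5 + 932480 * d ^ 7 * t ^ 6 - 561920 * d ^ 7 * t ^ 7 - 200060 * d ^ 7 * t ^ 8 + 1116160 * d ^ 7 * t ^ 9 - 1321600 * d ^ 7 * t ^ 10 + 414720 * d ^ 7 * t ^ 11 + 407760 * d ^ 7 * t ^ 12 - 294400 * d ^ 7 * t ^ 13 - 105800 * d ^ 8 * t ^ 4 + 294400 * d ^ 8 * t ^ 5 - 204800 * d ^ 8 * t ^ 6 - 294400 * d ^ 8 * t ^ 7 + 621200 * d ^ 8 * t ^ 8 - 294400 * d ^ 8 * t ^ 9 - 204800 * d ^ 8 * t ^ 10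 + 294400 * d ^ 8 * t ^ 11 - 105800 * d ^ 8 * t ^ 12

def cDPa0 (t : ℝ) : ℝ := 7167 - 20480 * t + 43008 * t ^ 2 - 81920 * t ^ 3 + 107520 * t ^ 4 - 102400 * t ^ 5 + 143360 * t ^ 6 + 107520 * t ^ 8 + 102400 * t ^ 9 + 43008 * t ^ 10 + 81920 * t ^ 11 + 7168 * t ^ 12 + 20480 * t ^ 13

theorem cDPa0_nn0 {t : ℝ} (h0 : (0 : ℝ) ≤ 1 * t) (h1 : 1 * t ≤ 1) : 0 ≤ cDPa0 t := by
  obtain ⟨r, hr⟩ : ∃ r, r = 1 * t - 0 := ⟨_, rfl⟩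
  obtain ⟨s, hs⟩ : ∃ s, s = 1 - 1 * t := ⟨_, rfl⟩
  have hr0 : 0 ≤ r := by rw [hr]; linarith
  have hs0 : 0 ≤ s := by rw [hs]; linarith
  have e : (1 : ℝ) * cDPa0 t = 7167 * s ^ 14 + 79858 * r ^ 1 * s ^ 13 + 428965 * r ^ 2 * s ^ 12 + 1445524 * r ^ 3 * s ^ 11 + 3361815 * r ^ 4 * s ^ 10 + 5634094 * r ^ 5 * s ^ 9 + 6997061 * r ^ 6 * s ^ 8 + 6845080 * r ^ 7 * s ^ 7 + 6370373 * r ^ 8 * s ^ 6 + 7174190 * r ^ 9 * s ^ 5 + 8666135 * r ^ 10 * s ^ 4 + 8453780 * r ^ 11 * s ^ 3 + 5701541 * r ^ 12 * s ^ 2 + 2359282 * r ^ 13 * s ^ 1 + 458751 * r ^ 14 := by rw [hr, hs]; unfold cDPa0; ring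
  have e2 : 0 ≤ (1 : ℝ) * cDPa0 t := by rw [e]; positivity
  exact (mul_nonneg_iff_of_pos_left (by norm_num)).mp e2

theorem cDPa0_nn {t : ℝ} (h0 : 0 ≤ t) (h1 : t ≤ 1) : 0 ≤ cDPa0 t := by
  exact cDPa0_nn0 (by linarith) (by linarith)

def cDPa1 (t : ℝ) : ℝ := 184792 - 517760 * t + 1142432 * t ^ 2 - 2181632 * t ^ 3 + 2919184 * t ^ 4 - 2920576 * t ^ 5 + 3942336 * t ^ 6 - 352256 * t ^ 7 + 2957584 * t ^ 8 + 2416768 * t ^ 9 + 1155232 * t ^ 10 + 2009600 * t ^ 11 + 172016 * t ^ 12 + 497280 * t ^ 13 - 6400 * t ^ 14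

theorem cDPa1_nn0 {t : ℝ} (h0 : (0 : ℝ) ≤ 1 * t) (h1 : 1 * t ≤ 1) : 0 ≤ cDPa1 t := by
  obtain ⟨r, hr⟩ : ∃ r, r = 1 * t - 0 := ⟨_, rfl⟩
  obtain ⟨s, hs⟩ : ∃ s, s = 1 - 1 * t := ⟨_, rfl⟩
  have hr0 : 0 ≤ r := by rw [hr]; linarith
  have hs0 : 0 ≤ s := by rw [hs]; linarith
  have e : (1 : ℝ) * cDPa1 t = 184792 * s ^ 14 + 2069328 * r ^ 1 * s ^ 13 + 11227624 * r ^ 2 * s ^ 12 + 38406560 * r ^ 3 * s ^ 11 + 91219176 * r ^ 4 * s ^ 10 + 157371728 * r ^ 5 * s ^ 9 + 203128248 * r ^ 6 * s ^ 8 + 206945344 * r ^ 7 * s ^ 7 + 192724856 * r ^ 8 * s ^ 6 + 201666128 * r ^ 9 * s ^ 5 + 226617128 * r ^ 10 * s ^ 4 + 213916128 * r ^ 11 * s ^ 3 + 142715768 * r ^ 12 * s ^ 2 + 58867376 * r ^ 13 * s ^ 1 + 11418600 * r ^ 14 := by rw [hr, hs]; unfold cDPa1; ring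
  have e2 : 0 ≤ (1 : ℝ) * cDPa1 t := by rw [e]; positivity
  exact (mul_nonneg_iff_of_pos_left (by norm_num)).mp e2

theorem cDPa1_nn {t : ℝ} (h0 : 0 ≤ t) (h1 : t ≤ 1) : 0 ≤ cDPa1 t := by
  exact cDPa1_nn0 (by linarith) (by linarith)

def cDPa2 (t : ℝ) : ℝ := 2044068 - 5619072 * t + 13017504 * t ^ 2 - 25005952 * t ^ 3 + 33915872 * t ^ 4 - 35291136 * t ^ 5 + 46323136 * t ^ 6 - 6996736 * t ^ 7 + 34719712 * t ^ 8 + 24983168 * t ^ 9 + 13145504 * t ^ 10 + 21107328 * t ^ 11 + 1639840 * t ^ 12 + 5031680 * t ^ 13 - 166400 * t ^ 14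

theorem cDPa2_nn0 {t : ℝ} (h0 : (0 : ℝ) ≤ 1 * t) (h1 : 1 * t ≤ 1) : 0 ≤ cDPa2 t := by
  obtain ⟨r, hr⟩ : ∃ r, r = 1 * t - 0 := ⟨_, rfl⟩
  obtain ⟨s, hs⟩ : ∃ s, s = 1 - 1 * t := ⟨_, rfl⟩
  have hr0 : 0 ≤ r := by rw [hr]; linarith
  have hs0 : 0 ≤ s := by rw [hs]; linarith
  have e : (1 : ℝ) * cDPa2 t = 2044068 * s ^ 14 + 22997880 * r ^ 1 * s ^ 13 + 125979756 * r ^ 2 * s ^ 12 + 436957232 * r ^ 3 * s ^ 11 + 1057063140 * r ^ 4 * s ^ 10 + 1866978760 * r ^ 5 * s ^ 9 + 2479190092 * r ^ 6 * s ^ 8 + 2593824928 * r ^ 7 * s ^ 7 + 2412100588 * r ^ 8 * s ^ 6 + 2398174024 * r ^ 9 * s ^ 5 + 2552416676 * r ^ 10 * s ^ 4 + 2347429296 * r ^ 11 * s ^ 3 + 1551862380 * r ^ 12 * s ^ 2 + 637309496 * r ^ 13 * s ^ 1 + 122848516 * r ^ 14 := by rw [hr, hs]; unfold cDPa2; ring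
  have e2 : 0 ≤ (1 : ℝ) * cDPa2 t := by rw [e]; positivity
  exact (mul_nonneg_iff_of_pos_left (by norm_num)).mp e2

theorem cDPa2_nn {t : ℝ} (h0 : 0 ≤ t) (h1 : t ≤ 1) : 0 ≤ cDPa2 t := by
  exact cDPa2_nn0 (by linarith) (by linarith)

def cDPa3 (t : ℝ) : ℝ := 12697512 - 34289856 * t + 83318048 * t ^ 2 - 161349888 * t ^ 3 + 221106960 * t ^ 4 - 237761984 * t ^ 5 + 304997952 * t ^ 6 - 57959424 * t ^ 7 + 227272240 * t ^ 8 + 149446592 * t ^ 9 + 81879968 * t ^ 10 + 124044544 * t ^ 11 + 7415344 * t ^ 12 + 27340480 * t ^ 13 - 1702400 * t ^ 14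

theorem cDPa3_nn0 {t : ℝ} (h0 : (0 : ℝ) ≤ 1 * t) (h1 : 1 * t ≤ 1) : 0 ≤ cDPa3 t := by
  obtain ⟨r, hr⟩ : ∃ r, r = 1 * t - 0 := ⟨_, rfl⟩
  obtain ⟨s, hs⟩ : ∃ s, s = 1 - 1 * t := ⟨_, rfl⟩
  have hr0 : 0 ≤ r := by rw [hr]; linarith
  have hs0 : 0 ≤ s := by rw [hs]; linarith
  have e : (1 : ℝ) * cDPa3 t = 12697512 * s ^ 14 + 143475312 * r ^ 1 * s ^ 13 + 793023512 * r ^ 2 * s ^ 12 + 2785752288 * r ^ 3 * s ^ 11 + 6848560056 * r ^ 4 * s ^ 10 + 12332206320 * r ^ 5 * s ^ 9 + 16734239400 * r ^ 6 * s ^ 8 + 17834327232 * r ^ 7 * s ^ 7 + 16553417608 * r ^ 8 * s ^ 6 + 15870381488 * r ^ 9 * s ^ 5 + 16223858136 * r ^ 10 * s ^ 4 + 14625843744 * r ^ 11 * s ^ 3 + 9593166984 * r ^ 12 * s ^ 2 + 3915135312 * r ^ 13 * s ^ 1 + 746456088 * r ^ 14 := by rw [hr, hs]; unfold cDPa3; ring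
  have e2 : 0 ≤ (1 : ℝ) * cDPa3 t := by rw [e]; positivity
  exact (mul_nonneg_iff_of_pos_left (by norm_num)).mp e2

theorem cDPa3_nn {t : ℝ} (h0 : 0 ≤ t) (h1 : t ≤ 1) : 0 ≤ cDPa3 t := by
  exact cDPa3_nn0 (by linarith) (by linarith)

def cDPa4 (t : ℝ) : ℝ := 48635611 - 129290816 * t + 328807722 * t ^ 2 - 642471360 * t ^ 3 + 888264199 * t ^ 4 - 982404864 * t ^ 5 + 1234791916 * t ^ 6 - 258607744 * t ^ 7 + 907836079 * t ^ 8 + 571514560 * t ^ 9 + 301055722 * t ^ 10 + 446136384 * t ^ 11 + 11756361 * t ^ 12 + 85238400 * t ^ 13 - 8812800 * t ^ 14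

theorem cDPa4_nn0 {t : ℝ} (h0 : (0 : ℝ) ≤ 1 * t) (h1 : 1 * t ≤ 1) : 0 ≤ cDPa4 t := by
  obtain ⟨r, hr⟩ : ∃ r, r = 1 * t - 0 := ⟨_, rfl⟩
  obtain ⟨s, hs⟩ : ∃ s, s = 1 - 1 * t := ⟨_, rfl⟩
  have hr0 : 0 ≤ r := by rw [hr]; linarith
  have hs0 : 0 ≤ s := by rw [hs]; linarith
  have e : (1 : ℝ) * cDPa4 t = 48635611 * s ^ 14 + 551607738 * r ^ 1 * s ^ 13 + 3073867715 * r ^ 2 * s ^ 12 + 10921900060 * r ^ 3 * s ^ 11 + 27229462126 * r ^ 4 * s ^ 10 + 49827570948 * r ^ 5 * s ^ 9 + 68772544726 * r ^ 6 * s ^ 8 + 74299400080 * r ^ 7 * s ^ 7 + 68871495118 * r ^ 8 * s ^ 6 + 64360841524 * r ^ 9 * s ^ 5 + 63898388474 * r ^ 10 * s ^ 4 + 56745111480 * r ^ 11 * s ^ 3 + 36944453310 * r ^ 12 * s ^ 2 + 14943677420 * r ^ 13 * s ^ 1 + 2802449370 * r ^ 14 := by rw [hr, hs]; unfold cDPa4; ring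
  have e2 : 0 ≤ (1 : ℝ) * cDPa4 t := by rw [e]; positivity
  exact (mul_nonneg_iff_of_pos_left (by norm_num)).mp e2

theorem cDPa4_nn {t : ℝ} (h0 : 0 ≤ t) (h1 : t ≤ 1) : 0 ≤ cDPa4 t := by
  exact cDPa4_nn0 (by linarith) (by linarith)

def cDPa5 (t : ℝ) : ℝ := 118283169 - 310415040 * t + 823009230 * t ^ 2 - 1621757888 * t ^ 3 + 2260456339 * t ^ 4 - 2558577024 * t ^ 5 + 3154406500 * t ^ 6 - 664946304 * t ^ 7 + 2267263999 * t ^ 8 + 1437223232 * t ^ 9 + 654220750 * t ^ 10 + 1003746880 * t ^ 11 - 29902683 * t ^ 12 + 148811520 * t ^ 13 - 24172800 * t ^ 14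

theorem cDPa5_nn0 {t : ℝ} (h0 : (0 : ℝ) ≤ 1 * t) (h1 : 1 * t ≤ 1) : 0 ≤ cDPa5 t := by
  obtain ⟨r, hr⟩ : ∃ r, r = 1 * t - 0 := ⟨_, rfl⟩
  obtain ⟨s, hs⟩ : ∃ s, s = 1 - 1 * t := ⟨_, rfl⟩
  have hr0 : 0 ≤ r := by rw [hr]; linarith
  have hs0 : 0 ≤ s := by rw [hs]; linarith
  have e : (1 : ℝ) * cDPa5 t = 118283169 * s ^ 14 + 1345549326 * r ^ 1 * s ^ 13 + 7551382089 * r ^ 2 * s ^ 12 + 27097053268 * r ^ 3 * s ^ 11 + 68362479480 * r ^ 4 * s ^ 10 + 126767483864 * r ^ 5 * s ^ 9 + 177347465896 * r ^ 6 * s ^ 8 + 193635128000 * r ^ 7 * s ^ 7 + 179451915176 * r ^ 8 * s ^ 6 + 164847905008 * r ^ 9 * s ^ 5 + 160363921800 * r ^ 10 * s ^ 4 + 140794427360 * r ^ 11 * s ^ 3 + 90932447368 * r ^ 12 * s ^ 2 + 36322170832 * r ^ 13 * s ^ 1 + 6657649880 * r ^ 14 := by rw [hr, hs]; unfold cDPa5; ring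
  have e2 : 0 ≤ (1 : ℝ) * cDPa5 t := by rw [e]; positivity
  exact (mul_nonneg_iff_of_pos_left (by norm_num)).mp e2

theorem cDPa5_nn {t : ℝ} (h0 : 0 ≤ t) (h1 : t ≤ 1) : 0 ≤ cDPa5 t := by
  exact cDPa5_nn0 (by linarith) (by linarith)

def cDPa6 (t : ℝ) : ℝ := 179585879 - 466918336 * t + 1282606822 * t ^ 2 - 2544791488 * t ^ 3 + 3570658873 * t ^ 4 - 4108896896 * t ^ 5 + 4970865652 * t ^ 6 - 965161856 * t ^ 7 + 3457495573 * t ^ 8 + 2313145152 * t ^ 9 + 782993702 * t ^ 10 + 1371554624 * t ^ 11 - 161691489 * t ^ 12 + 124271360 * t ^ 13 - 31897600 * t ^ 14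

theorem cDPa6_nn0 {t : ℝ} (h0 : (0 : ℝ) ≤ 1 * t) (h1 : 1 * t ≤ 1) : 0 ≤ cDPa6 t := by
  obtain ⟨r, hr⟩ : ∃ r, r = 1 * t - 0 := ⟨_, rfl⟩
  obtain ⟨s, hs⟩ : ∃ s, s = 1 - 1 * t := ⟨_, rfl⟩
  have hr0 : 0 ≤ r := by rw [hr]; linarith
  have hs0 : 0 ≤ s := by rw [hs]; linarith
  have e : (1 : ℝ) * cDPa6 t = 179585879 * s ^ 14 + 2047283970 * r ^ 1 * s ^ 13 + 11554983443 * r ^ 2 * s ^ 12 + 41796120124 * r ^ 3 * s ^ 11 + 106456823540 * r ^ 4 * s ^ 10 + 199491980352 * r ^ 5 * s ^ 9 + 282042720448 * r ^ 6 * s ^ 8 + 310510824000 * r ^ 7 * s ^ 7 + 288076191036 * r ^ 8 * s ^ 6 + 261981190120 * r ^ 9 * s ^ 5 + 251536478660 * r ^ 10 * s ^ 4 + 218817950640 * r ^ 11 * s ^ 3 + 139931223212 * r ^ 12 * s ^ 2 + 54938374584 * r ^ 13 * s ^ 1 + 9773819972 * r ^ 14 := by rw [hr, hs]; unfold cDPa6;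 ring
  have e2 : 0 ≤ (1 : ℝ) * cDPa6 t := by rw [e]; positivity
  exact (mul_nonneg_iff_of_pos_left (by norm_num)).mp e2

theorem cDPa6_nn {t : ℝ} (h0 : 0 ≤ t) (h1 : t ≤ 1) : 0 ≤ cDPa6 t := by
  exact cDPa6_nn0 (by linarith) (by linarith)

def cDPa7 (t : ℝ) : ℝ := 156727639 - 405263360 * t + 1144076962 * t ^ 2 - 2280423232 * t ^ 3 + 3209788241 * t ^ 4 - 3720965440 * t ^ 5 + 4420125500 * t ^ 6 - 697731200 * t ^ 7 + 2939643601 * t ^ 8 + 2156944768 * t ^ 9 + 408775202 * t ^ 10 + 1026033600 * t ^ 11 - 257395665 * t ^ 12 + 17163200 * t ^ 13 - 10982400 * t ^ 14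

theorem cDPa7_nn0 {t : ℝ} (h0 : (0 : ℝ) ≤ 1 * t) (h1 : 1 * t ≤ 1) : 0 ≤ cDPa7 t := by
  obtain ⟨r, hr⟩ : ∃ r, r = 1 * t - 0 := ⟨_, rfl⟩
  obtain ⟨s, hs⟩ : ∃ s, s = 1 - 1 * t := ⟨_, rfl⟩
  have hr0 : 0 ≤ r := by rw [hr]; linarith
  have hs0 : 0 ≤ s := by rw [hs]; linarith
  have e : (1 : ℝ) * cDPa7 t = 156727639 * s ^ 14 + 1788923586 * r ^ 1 * s ^ 13 + 10137868431 * r ^ 2 * s ^ 12 + 36886818828 * r ^ 3 * s ^ 11 + 94613257860 * r ^ 4 * s ^ 10 + 178656001728 * r ^ 5 * s ^ 9 + 254499325892 * r ^ 6 * s ^ 8 + 281909724512 * r ^ 7 * s ^ 7 + 262106226712 * r ^ 8 * s ^ 6 + 237442680144 * r ^ 9 * s ^ 5 + 226389725096 * r ^ 10 * s ^ 4 + 195314020064 * r ^ 11 * s ^ 3 + 123271806648 * r ^ 12 * s ^ 2 + 47294269232 * r ^ 13 * s ^ 1 + 8106517416 * r ^ 14 := by rw [hr, hs]; unfold cDPa7; ring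
  have e2 : 0 ≤ (1 : ℝ) * cDPa7 t := by rw [e]; positivity
  exact (mul_nonneg_iff_of_pos_left (by norm_num)).mp e2

theorem cDPa7_nn {t : ℝ} (h0 : 0 ≤ t) (h1 : t ≤ 1) : 0 ≤ cDPa7 t := by
  exact cDPa7_nn0 (by linarith) (by linarith)

def cDPa8 (t : ℝ) : ℝ := 60558339 - 156278400 * t + 449441760 * t ^ 2 - 897864960 * t ^ 3 + 1259387380 * t ^ 4 - 1453692800 * t ^ 5 + 1699451200 * t ^ 6 - 167257600 * t ^ 7 + 1062779180 * t ^ 8 + 880999040 * t ^ 9 + 15700960 * t ^ 10 + 311622400 * t ^ 11 - 141052100 * t ^ 12 - 24528000 * t ^ 13 + 8928000 * t ^ 14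

theorem cDPa8_nn0 {t : ℝ} (h0 : (0 : ℝ) ≤ 1 * t) (h1 : 1 * t ≤ 1) : 0 ≤ cDPa8 t := by
  obtain ⟨r, hr⟩ : ∃ r, r = 1 * t - 0 := ⟨_, rfl⟩
  obtain ⟨s, hs⟩ : ∃ s, s = 1 - 1 * t := ⟨_, rfl⟩
  have hr0 : 0 ≤ r := by rw [hr]; linarith
  have hs0 : 0 ≤ s := by rw [hs]; linarith
  have e : (1 : ℝ) * cDPa8 t = 60558339 * s ^ 14 + 691538346 * r ^ 1 * s ^ 13 + 3928631409 * r ^ 2 * s ^ 12 + 14348956356 * r ^ 3 * s ^ 11 + 36969303919 * r ^ 4 * s ^ 10 + 70133534078 * r ^ 5 * s ^ 9 + 100340992117 * r ^ 6 * s ^ 8 + 111546818968 * r ^ 7 * s ^ 7 + 103991296517 * r ^ 8 * s ^ 6 + 94366614958 * r ^ 9 * s ^ 5 + 89834084599 * r ^ 10 * s ^ 4 + 76848623636 * r ^ 11 * s ^ 3 + 47653091269 * r ^ 12 * s ^ 2 + 17741138226 * r ^ 13 * s ^ 1 + 2908194399 * r ^ 14 := by rw [hr, hs]; unfold cDPa8; ring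
  have e2 : 0 ≤ (1 : ℝ) * cDPa8 t := by rw [e]; positivity
  exact (mul_nonneg_iff_of_pos_left (by norm_num)).mp e2

theorem cDPa8_nn {t : ℝ} (h0 : 0 ≤ t) (h1 : t ≤ 1) : 0 ≤ cDPa8 t := by
  exact cDPa8_nn0 (by linarith) (by linarith)

theorem pDP_posa {d t : ℝ} (hd : 0 ≤ d) (hd3 : d ≤ 1 / 3) (h0 : 0 ≤ t) (h1 : t ≤ 1) : 0 < pDP d t := by
  obtain ⟨u, hu⟩ : ∃ u, u = d := ⟨_, rfl⟩
  obtain ⟨v, hv⟩ : ∃ v, v = 1 - 3 * d := ⟨_, rfl⟩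
  have hu0 : 0 ≤ u := by rw [hu]; linarith
  have hv0 : 0 ≤ v := by rw [hv]; linarith
  have key : (1 : ℝ) * pDP d t = 1 + (v ^ 8 * cDPa0 t + (u ^ 1 * v ^ 7 * cDPa1 t + (u ^ 2 * v ^ 6 * cDPa2 t + (u ^ 3 * v ^ 5 * cDPa3 t + (u ^ 4 * v ^ 4 * cDPa4 t + (u ^ 5 * v ^ 3 * cDPa5 t + (u ^ 6 * v ^ 2 * cDPa6 t + (u ^ 7 * v ^ 1 * cDPa7 t + (u ^ 8 * cDPa8 t))))))))) := by
    rw [hu, hv]; unfold pDP cDPa0 cDPa1 cDPa2 cDPa3 cDPa4 cDPa5 cDPa6 cDPa7 cDPa8; ring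
  have h3 : 0 < (1 : ℝ) * pDP d t := by
    rw [key]; exact add_pos_of_pos_of_nonneg one_pos (add_nonneg (mul_nonneg (by positivity) (cDPa0_nn h0 h1)) (add_nonneg (mul_nonneg (by positivity) (cDPa1_nn h0 h1)) (add_nonneg (mul_nonneg (by positivity) (cDPa2_nn h0 h1)) (add_nonneg (mul_nonneg (by positivity) (cDPa3_nn h0 h1)) (add_nonneg (mul_nonneg (by positivity) (cDPa4_nn h0 h1)) (add_nonneg (mul_nonneg (by positivity) (cDPa5_nn h0 h1)) (add_nonneg (mul_nonneg (by positivity) (cDPa6_nn h0 h1)) (add_nonneg (mul_nonneg (by positivity) (cDPa7_nn h0 h1)) (mul_nonneg (by positivity) (cDPa8_nn h0 h1))))))))))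
  exact (mul_pos_iff_of_pos_left (by norm_num)).mp h3

def cDPb0 (t : ℝ) : ℝ := 60558339 - 156278400 * t + 449441760 * t ^ 2 - 897864960 * t ^ 3 + 1259387380 * t ^ 4 - 1453692800 * t ^ 5 + 1699451200 * t ^ 6 - 167257600 * t ^ 7 + 1062779180 * t ^ 8 + 880999040 * t ^ 9 + 15700960 * t ^ 10 + 311622400 * t ^ 11 - 141052100 * t ^ 12 - 24528000 * t ^ 13 + 8928000 * t ^ 14

theorem cDPb0_nn0 {t : ℝ} (h0 : (0 : ℝ) ≤ 1 * t) (h1 : 1 * t ≤ 1) : 0 ≤ cDPb0 t := by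
  obtain ⟨r, hr⟩ : ∃ r, r = 1 * t - 0 := ⟨_, rfl⟩
  obtain ⟨s, hs⟩ : ∃ s, s = 1 - 1 * t := ⟨_, rfl⟩
  have hr0 : 0 ≤ r := by rw [hr]; linarith
  have hs0 : 0 ≤ s := by rw [hs]; linarith
  have e : (1 : ℝ) * cDPb0 t = 60558339 * s ^ 14 + 691538346 * r ^ 1 * s ^ 13 + 3928631409 * r ^ 2 * s ^ 12 + 14348956356 * r ^ 3 * s ^ 11 + 36969303919 * r ^ 4 * s ^ 10 + 70133534078 * r ^ 5 * s ^ 9 + 100340992117 * r ^ 6 * s ^ 8 + 111546818968 * r ^ 7 * s ^ 7 + 103991296517 * r ^ 8 * s ^ 6 + 94366614958 * r ^ 9 * s ^ 5 + 89834084599 * r ^ 10 * s ^ 4 + 76848623636 * r ^ 11 * s ^ 3 + 47653091269 * r ^ 12 * s ^ 2 + 17741138226 * r ^ 13 * s ^ 1 + 2908194399 * r ^ 14 := by rw [hr, hs]; unfold cDPb0; ring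
  have e2 : 0 ≤ (1 : ℝ) * cDPb0 t := by rw [e]; positivity
  exact (mul_nonneg_iff_of_pos_left (by norm_num)).mp e2

theorem cDPb0_nn {t : ℝ} (h0 : 0 ≤ t) (h1 : t ≤ 1) : 0 ≤ cDPb0 t := by
  exact cDPb0_nn0 (by linarith) (by linarith)

def cDPb1 (t : ℝ) : ℝ := 327739073 - 844963840 * t + 2451457118 * t ^ 2 - 4902496448 * t ^ 3 + 6865310799 * t ^ 4 - 7908576960 * t ^ 5 + 9175484100 * t ^ 6 - 640329600 * t ^ 7 + 5562589839 * t ^ 8 + 4891047552 * t ^ 9 - 283167522 * t ^ 10 + 1466945600 * t ^ 11 - 871021135 * t ^ 12 - 213387200 * t ^ 13 + 82406400 * t ^ 14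

theorem cDPb1_nn0 {t : ℝ} (h0 : (0 : ℝ) ≤ 1 * t) (h1 : 1 * t ≤ 1) : 0 ≤ cDPb1 t := by
  obtain ⟨r, hr⟩ : ∃ r, r = 1 * t - 0 := ⟨_, rfl⟩
  obtain ⟨s, hs⟩ : ∃ s, s = 1 - 1 * t := ⟨_, rfl⟩
  have hr0 : 0 ≤ r := by rw [hr]; linarith
  have hs0 : 0 ≤ s := by rw [hs]; linarith
  have e : (1 : ℝ) * cDPb1 t = 327739073 * s ^ 14 + 3743383182 * r ^ 1 * s ^ 13 + 21291182841 * r ^ 2 * s ^ 12 + 77904832020 * r ^ 3 * s ^ 11 + 201141173492 * r ^ 4 * s ^ 10 + 382412270896 * r ^ 5 * s ^ 9 + 548228611044 * r ^ 6 * s ^ 8 + 610464827232 * r ^ 7 * s ^ 7 + 569824145424 * r ^ 8 * s ^ 6 + 517490239520 * r ^ 9 * s ^ 5 + 492282951696 * r ^ 10 * s ^ 4 + 419474969024 * r ^ 11 * s ^ 3 + 257952923504 * r ^ 12 * s ^ 2 + 94634836576 * r ^ 13 * s ^ 1 + 15159037776 * r ^ 14 := by rw [hr, hs]; unfold cDPb1;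 ring
  have e2 : 0 ≤ (1 : ℝ) * cDPb1 t := by rw [e]; positivity
  exact (mul_nonneg_iff_of_pos_left (by norm_num)).mp e2

theorem cDPb1_nn {t : ℝ} (h0 : 0 ≤ t) (h1 : t ≤ 1) : 0 ≤ cDPb1 t := by
  exact cDPb1_nn0 (by linarith) (by linarith)

def cDPb2 (t : ℝ) : ℝ := 778125898 - 2005870016 * t + 5858437368 * t ^ 2 - 11722047744 * t ^ 3 + 16364987826 * t ^ 4 - 18765537216 * t ^ 5 + 21614620752 * t ^ 6 - 764256256 * t ^ 7 + 12637807406 * t ^ 8 + 11882504896 * t ^ 9 - 1638805832 * t ^ 10 + 2914746624 * t ^ 11 - 2309380634 * t ^ 12 - 682655040 * t ^ 13 + 294963200 * t ^ 14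

theorem cDPb2_nn0 {t : ℝ} (h0 : (0 : ℝ) ≤ 1 * t) (h1 : 1 * t ≤ 1) : 0 ≤ cDPb2 t := by
  obtain ⟨r, hr⟩ : ∃ r, r = 1 * t - 0 := ⟨_, rfl⟩
  obtain ⟨s, hs⟩ : ∃ s, s = 1 - 1 * t := ⟨_, rfl⟩
  have hr0 : 0 ≤ r := by rw [hr]; linarith
  have hs0 : 0 ≤ s := by rw [hs]; linarith
  have e : (1 : ℝ) * cDPb2 t = 778125898 * s ^ 14 + 8887892556 * r ^ 1 * s ^ 13 + 50591583878 * r ^ 2 * s ^ 12 + 185359166296 * r ^ 3 * s ^ 11 + 479304528252 * r ^ 4 * s ^ 10 + 912638922440 * r ^ 5 * s ^ 9 + 1310095218480 * r ^ 6 * s ^ 8 + 1460453683520 * r ^ 7 * s ^ 7 + 1365088906528 * r ^ 8 * s ^ 6 + 1242147647936 * r ^ 9 * s ^ 5 + 1182162771760 * r ^ 10 * s ^ 4 + 1003381272000 * r ^ 11 * s ^ 3 + 611315132208 * r ^ 12 * s ^ 2 + 220630360288 * r ^ 13 * s ^ 1 + 34457641232 * r ^ 14 := by rw [hr, hs]; unfold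 cDPb2; ring
  have e2 : 0 ≤ (1 : ℝ) * cDPb2 t := by rw [e]; positivity
  exact (mul_nonneg_iff_of_pos_left (by norm_num)).mp e2

theorem cDPb2_nn {t : ℝ} (h0 : 0 ≤ t) (h1 : t ≤ 1) : 0 ≤ cDPb2 t := by
  exact cDPb2_nn0 (by linarith) (by linarith)

def cDPb3 (t : ℝ) : ℝ := 1059218670 - 2732154816 * t + 8015754060 * t ^ 2 - 16038540928 * t ^ 3 + 22283637118 * t ^ 4 - 25361326912 * t ^ 5 + 29017419112 * t ^ 6 + 159904768 * t ^ 7 + 16260827898 * t ^ 8 + 16481753792 * t ^ 9 - 3661284020 * t ^ 10 + 3129729664 * t ^ 11 - 3433854886 * t ^ 12 - 1137178560 * t ^ 13 + 563385600 * t ^ 14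

theorem cDPb3_nn0 {t : ℝ} (h0 : (0 : ℝ) ≤ 1 * t) (h1 : 1 * t ≤ 1) : 0 ≤ cDPb3 t := by
  obtain ⟨r, hr⟩ : ∃ r, r = 1 * t - 0 := ⟨_, rfl⟩
  obtain ⟨s, hs⟩ : ∃ s, s = 1 - 1 * t := ⟨_, rfl⟩
  have hr0 : 0 ≤ r := by rw [hr]; linarith
  have hs0 : 0 ≤ s := by rw [hs]; linarith
  have e : (1 : ℝ) * cDPb3 t = 1059218670 * s ^ 14 + 12096906564 * r ^ 1 * s ^ 13 + 68886640422 * r ^ 2 * s ^ 12 + 252598028024 * r ^ 3 * s ^ 11 + 653781066164 * r ^ 4 * s ^ 10 + 1245886270328 * r ^ 5 * s ^ 9 + 1789518571612 * r ^ 6 * s ^ 8 + 1995947463456 * r ^ 7 * s ^ 7 + 1868287075040 * r ^ 8 * s ^ 6 + 1705273390336 * r ^ 9 * s ^ 5 + 1625379460688 * r ^ 10 * s ^ 4 + 1374041778752 * r ^ 11 * s ^ 3 + 828520063360 * r ^ 12 * s ^ 2 + 293632163456 * r ^ 13 * s ^ 1 + 44607290560 * r ^ 14 := by rw [hr, hs]; unfold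 cDPb3; ring
  have e2 : 0 ≤ (1 : ℝ) * cDPb3 t := by rw [e]; positivity
  exact (mul_nonneg_iff_of_pos_left (by norm_num)).mp e2

theorem cDPb3_nn {t : ℝ} (h0 : 0 ≤ t) (h1 : t ≤ 1) : 0 ≤ cDPb3 t := by
  exact cDPb3_nn0 (by linarith) (by linarith)

def cDPb4 (t : ℝ) : ℝ := 904624316 - 2336261056 * t + 6871093432 * t ^ 2 - 13741288320 * t ^ 3 + 18960393764 * t ^ 4 - 21347678784 * t ^ 5 + 24282935696 * t ^ 6 + 1301255936 * t ^ 7 + 12940966244 * t ^ 8 + 14259441600 * t ^ 9 - 4433207368 * t ^ 10 + 1903113344 * t ^ 11 - 3128901284 * t ^ 12 - 1112420800 * t ^ 13 + 642931200 * t ^ 14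

theorem cDPb4_nn0 {t : ℝ} (h0 : (0 : ℝ) ≤ 1 * t) (h1 : 1 * t ≤ 1) : 0 ≤ cDPb4 t := by
  obtain ⟨r, hr⟩ : ∃ r, r = 1 * t - 0 := ⟨_, rfl⟩
  obtain ⟨s, hs⟩ : ∃ s, s = 1 - 1 * t := ⟨_, rfl⟩
  have hr0 : 0 ≤ r := by rw [hr]; linarith
  have hs0 : 0 ≤ s := by rw [hs]; linarith
  have e : (1 : ℝ) * cDPb4 t = 904624316 * s ^ 14 + 10328479368 * r ^ 1 * s ^ 13 + 58820512460 * r ^ 2 * s ^ 12 + 215766721520 * r ^ 3 * s ^ 11 + 558656667056 * r ^ 4 * s ^ 10 + 1064757181888 * r ^ 5 * s ^ 9 + 1529069063936 * r ^ 6 * s ^ 8 + 1705223089920 * r ^ 7 * s ^ 7 + 1598427606048 * r ^ 8 * s ^ 6 + 1465008410304 * r ^ 9 * s ^ 5 + 1399871502944 * r ^ 10 * s ^ 4 + 1178455186560 * r ^ 11 * s ^ 3 + 702453720800 * r ^ 12 * s ^ 2 + 243988694720 * r ^ 13 * s ^ 1 + 35966997920 * r ^ 14 := by rw [hr, hs]; unfold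 cDPb4; ring
  have e2 : 0 ≤ (1 : ℝ) * cDPb4 t := by rw [e]; positivity
  exact (mul_nonneg_iff_of_pos_left (by norm_num)).mp e2

theorem cDPb4_nn {t : ℝ} (h0 : 0 ≤ t) (h1 : t ≤ 1) : 0 ≤ cDPb4 t := by
  exact cDPb4_nn0 (by linarith) (by linarith)

def cDPb5 (t : ℝ) : ℝ := 496530441 - 1284462528 * t + 3780001870 * t ^ 2 - 7552411072 * t ^ 3 + 10323668751 * t ^ 4 - 11457031552 * t ^ 5 + 12972292452 * t ^ 6 + 1423920768 * t ^ 7 + 6509451591 * t ^ 8 + 7870161728 * t ^ 9 - 3187868850 * t ^ 10 + 593803072 * t ^ 11 - 1785262175 * t ^ 12 - 663354880 * t ^ 13 + 454579200 * t ^ 14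

theorem cDPb5_nn0 {t : ℝ} (h0 : (0 : ℝ) ≤ 1 * t) (h1 : 1 * t ≤ 1) : 0 ≤ cDPb5 t := by
  obtain ⟨r, hr⟩ : ∃ r, r = 1 * t - 0 := ⟨_, rfl⟩
  obtain ⟨s, hs⟩ : ∃ s, s = 1 - 1 * t := ⟨_, rfl⟩
  have hr0 : 0 ≤ r := by rw [hr]; linarith
  have hs0 : 0 ≤ s := by rw [hs]; linarith
  have e : (1 : ℝ) * cDPb5 t = 496530441 * s ^ 14 + 5666963646 * r ^ 1 * s ^ 13 + 32266259137 * r ^ 2 * s ^ 12 + 118356614708 * r ^ 3 * s ^ 11 + 306397958812 * r ^ 4 * s ^ 10 + 583660693760 * r ^ 5 * s ^ 9 + 837354841836 * r ^ 6 * s ^ 8 + 933009977376 * r ^ 7 * s ^ 7 + 875731901856 * r ^ 8 * s ^ 6 + 806754369536 * r ^ 9 * s ^ 5 + 773528410144 * r ^ 10 * s ^ 4 + 648301562752 * r ^ 11 * s ^ 3 + 381544515200 * r ^ 12 * s ^ 2 + 129609675264 * r ^ 13 * s ^ 1 + 18494018816 * r ^ 14 := by rw [hr, hs]; unfold cDPb5;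 ring
  have e2 : 0 ≤ (1 : ℝ) * cDPb5 t := by rw [e]; positivity
  exact (mul_nonneg_iff_of_pos_left (by norm_num)).mp e2

theorem cDPb5_nn {t : ℝ} (h0 : 0 ≤ t) (h1 : t ≤ 1) : 0 ≤ cDPb5 t := by
  exact cDPb5_nn0 (by linarith) (by linarith)

def cDPb6 (t : ℝ) : ℝ := 171074766 - 443383680 * t + 1303672800 * t ^ 2 - 2601408896 * t ^ 3 + 3512793470 * t ^ 4 - 3827241728 * t ^ 5 + 4320998656 * t ^ 6 + 756412672 * t ^ 7 + 2015014490 * t ^ 8 + 2702808704 * t ^ 9 - 1368114400 * t ^ 10 + 40364160 * t ^ 11 - 620563366 * t ^ 12 - 236815360 * t ^ 13 + 195942400 * t ^ 14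

theorem cDPb6_nn0 {t : ℝ} (h0 : (0 : ℝ) ≤ 1 * t) (h1 : 1 * t ≤ 1) : 0 ≤ cDPb6 t := by
  obtain ⟨r, hr⟩ : ∃ r, r = 1 * t - 0 := ⟨_, rfl⟩
  obtain ⟨s, hs⟩ : ∃ s, s = 1 - 1 * t := ⟨_, rfl⟩
  have hr0 : 0 ≤ r := by rw [hr]; linarith
  have hs0 : 0 ≤ s := by rw [hs]; linarith
  have e : (1 : ℝ) * cDPb6 t = 171074766 * s ^ 14 + 1951663044 * r ^ 1 * s ^ 13 + 11107488666 * r ^ 2 * s ^ 12 + 40729952488 * r ^ 3 * s ^ 11 + 105377808700 * r ^ 4 * s ^ 10 + 200503570024 * r ^ 5 * s ^ 9 + 287139823552 * r ^ 6 * s ^ 8 + 319405040064 * r ^ 7 * s ^ 7 + 300130073776 * r ^ 8 * s ^ 6 + 278159816224 * r ^ 9 * s ^ 5 + 267849276768 * r ^ 10 * s ^ 4 + 223432593408 * r ^ 11 * s ^ 3 + 129661571712 * r ^ 12 * s ^ 2 + 42980094976 * r ^ 13 * s ^ 1 + 5921554688 * r ^ 14 := by rw [hr, hs]; unfold cDPb6;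 ring
  have e2 : 0 ≤ (1 : ℝ) * cDPb6 t := by rw [e]; positivity
  exact (mul_nonneg_iff_of_pos_left (by norm_num)).mp e2

theorem cDPb6_nn {t : ℝ} (h0 : 0 ≤ t) (h1 : t ≤ 1) : 0 ≤ cDPb6 t := by
  exact cDPb6_nn0 (by linarith) (by linarith)

def cDPb7 (t : ℝ) : ℝ := 33825920 - 87832576 * t + 257759448 * t ^ 2 - 513582592 * t ^ 3 + 682901372 * t ^ 4 - 727275776 * t ^ 5 + 820770256 * t ^ 6 + 205624064 * t ^ 7 + 349391112 * t ^ 8 + 527401728 * t ^ 9 - 325241512 * t ^ 10 - 26045696 * t ^ 11 - 119395588 * t ^ 12 - 46297600 * t ^ 13 + 47308800 * t ^ 14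

theorem cDPb7_nn0 {t : ℝ} (h0 : (0 : ℝ) ≤ 1 * t) (h1 : 1 * t ≤ 1) : 0 ≤ cDPb7 t := by
  obtain ⟨r, hr⟩ : ∃ r, r = 1 * t - 0 := ⟨_, rfl⟩
  obtain ⟨s, hs⟩ : ∃ s, s = 1 - 1 * t := ⟨_, rfl⟩
  have hr0 : 0 ≤ r := by rw [hr]; linarith
  have hs0 : 0 ≤ s := by rw [hs]; linarith
  have e : (1 : ℝ) * cDPb7 t = 33825920 * s ^ 14 + 385730304 * r ^ 1 * s ^ 13 + 2194094680 * r ^ 2 * s ^ 12 + 8041224736 * r ^ 3 * s ^ 11 + 20785245612 * r ^ 4 * s ^ 10 + 39480973944 * r ^ 5 * s ^ 9 + 56394361540 * r ^ 6 * s ^ 8 + 62571107296 * r ^ 7 * s ^ 7 + 58841559456 * r ^ 8 * s ^ 6 + 54908677888 * r ^ 9 * s ^ 5 + 53144059792 * r ^ 10 * s ^ 4 + 44110272832 * r ^ 11 * s ^ 3 + 25206507328 * r ^ 12 * s ^ 2 + 8133669888 * r ^ 13 * s ^ 1 + 1079311360 * r ^ 14 := by rw [hr, hs]; unfold cDPb7; ring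
  have e2 : 0 ≤ (1 : ℝ) * cDPb7 t := by rw [e]; positivity
  exact (mul_nonneg_iff_of_pos_left (by norm_num)).mp e2

theorem cDPb7_nn {t : ℝ} (h0 : 0 ≤ t) (h1 : t ≤ 1) : 0 ≤ cDPb7 t := by
  exact cDPb7_nn0 (by linarith) (by linarith)

def cDPb8 (t : ℝ) : ℝ := 2937952 - 7641088 * t + 22370144 * t ^ 2 - 44503040 * t ^ 3 + 58063120 * t ^ 4 - 60163072 * t ^ 5 + 68102976 * t ^ 6 + 22965248 * t ^ 7 + 25800640 * t ^ 8 + 44712960 * t ^ 9 - 33092256 * t ^ 10 - 5331968 * t ^ 11 - 9629232 * t ^ 12 - 3778560 * t ^ 13 + 4915200 * t ^ 14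

theorem cDPb8_nn0 {t : ℝ} (h0 : (0 : ℝ) ≤ 1 * t) (h1 : 1 * t ≤ 1) : 0 ≤ cDPb8 t := by
  obtain ⟨r, hr⟩ : ∃ r, r = 1 * t - 0 := ⟨_, rfl⟩
  obtain ⟨s, hs⟩ : ∃ s, s = 1 - 1 * t := ⟨_, rfl⟩
  have hr0 : 0 ≤ r := by rw [hr]; linarith
  have hs0 : 0 ≤ s := by rw [hs]; linarith
  have e : (1 : ℝ) * cDPb8 t = 2937952 * s ^ 14 + 33490240 * r ^ 1 * s ^ 13 + 190389632 * r ^ 2 * s ^ 12 + 697348352 * r ^ 3 * s ^ 11 + 1800497968 * r ^ 4 * s ^ 10 + 3412634592 * r ^ 5 * s ^ 9 + 4858285008 * r ^ 6 * s ^ 8 + 5371587968 * r ^ 7 * s ^ 7 + 5053169280 * r ^ 8 * s ^ 6 + 4751362048 * r ^ 9 * s ^ 5 + 4625912384 * r ^ 10 * s ^ 4 + 3819361536 * r ^ 11 * s ^ 3 + 2146194944 * r ^ 12 * s ^ 2 + 672416256 * r ^ 13 * s ^ 1 + 85729024 * r ^ 14 := by rw [hr, hs]; unfold cDPb8; ring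
  have e2 : 0 ≤ (1 : ℝ) * cDPb8 t := by rw [e]; positivity
  exact (mul_nonneg_iff_of_pos_left (by norm_num)).mp e2

theorem cDPb8_nn {t : ℝ} (h0 : 0 ≤ t) (h1 : t ≤ 1) : 0 ≤ cDPb8 t := by
  exact cDPb8_nn0 (by linarith) (by linarith)

theorem pDP_posb {d t : ℝ} (hd : 1 / 3 ≤ d) (hd3 : d ≤ 1 / 2) (h0 : 0 ≤ t) (h1 : t ≤ 1) : 0 < pDP d t := by
  obtain ⟨u, hu⟩ : ∃ u, u = 3 * d - 1 := ⟨_, rfl⟩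
  obtain ⟨v, hv⟩ : ∃ v, v = 1 - 2 * d := ⟨_, rfl⟩
  have hu0 : 0 ≤ u := by rw [hu]; linarith
  have hv0 : 0 ≤ v := by rw [hv]; linarith
  have key : (1 : ℝ) * pDP d t = 1 + (v ^ 8 * cDPb0 t + (u ^ 1 * v ^ 7 * cDPb1 t + (u ^ 2 * v ^ 6 * cDPb2 t + (u ^ 3 * v ^ 5 * cDPb3 t + (u ^ 4 * v ^ 4 * cDPb4 t + (u ^ 5 * v ^ 3 * cDPb5 t + (u ^ 6 * v ^ 2 * cDPb6 t + (u ^ 7 * v ^ 1 * cDPb7 t + (u ^ 8 * cDPb8 t))))))))) := by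
    rw [hu, hv]; unfold pDP cDPb0 cDPb1 cDPb2 cDPb3 cDPb4 cDPb5 cDPb6 cDPb7 cDPb8; ring
  have h3 : 0 < (1 : ℝ) * pDP d t := by
    rw [key]; exact add_pos_of_pos_of_nonneg one_pos (add_nonneg (mul_nonneg (by positivity) (cDPb0_nn h0 h1)) (add_nonneg (mul_nonneg (by positivity) (cDPb1_nn h0 h1)) (add_nonneg (mul_nonneg (by positivity) (cDPb2_nn h0 h1)) (add_nonneg (mul_nonneg (by positivity) (cDPb3_nn h0 h1)) (add_nonneg (mul_nonneg (by positivity) (cDPb4_nn h0 h1)) (add_nonneg (mul_nonneg (by positivity) (cDPb5_nn h0 h1)) (add_nonneg (mul_nonneg (by positivity) (cDPb6_nn h0 h1)) (add_nonneg (mul_nonneg (by positivity) (cDPb7_nn h0 h1)) (mul_nonneg (by positivity) (cDPb8_nn h0 h1))))))))))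
  exact (mul_pos_iff_of_pos_left (by norm_num)).mp h3

theorem pDP_pos {d t : ℝ} (hd : 0 ≤ d) (hd3 : d ≤ 1 / 2) (h0 : 0 ≤ t) (h1 : t ≤ 1) : 0 < pDP d t := by
  rcases le_total d (1 / 3) with h | h
  · exact pDP_posa hd h h0 h1
  · exact pDP_posb h hd3 h0 h1


end Vale.Agent.Lib.P100.AB.V6
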