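import Mathlib

/-!
# P100: the uniform strip in every real dimension `m > 4` (helper13). Generated.
Polynomial inequalities on `0 <= d <= 1/2`, `0 <= t <= 1`, exact Bernstein coefficients.
-/

set_option maxHeartbeats 4000000

noncomputable section

namespace Vale.Agent.Lib.P100.AB.V6

def pL10 (d t : ℝ) : ℝ := 128 + 128 * t + 640 * t ^ 2 + 640 * t ^ 3 + 1280 * t ^ 4 + 1280 * t ^ 5 + 1280 * t ^ 6 + 1280 * t ^ 7 + 640 * t ^ 8 + 640 * t ^ 9 + 128 * t ^ 10 + 128 * t ^ 11 + 256 * d + 256 * d * t + 1728 * d * t ^ 2 + 1864 * d * t ^ 3 + 3840 * d * t ^ 4 + 4312 * d * t ^ 5 + 3712 * d * t ^ 6 + 4312 * d * t ^ 7 + 1536 * d * t ^ 8 + 1864 * d * t ^ 9 + 192 * d * t ^ 10 + 256 * d * t ^ 11 + 1680 * d ^ 2 * t ^ 2 + 2624 * d ^ 2 * t ^ 3 + 5040 * d ^ 2 * t ^ 4 + 5024 * d ^ 2 * t ^ 5 + 2992 * d ^ 2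 * t ^ 6 + 1152 * d ^ 2 * t ^ 7 - 1392 * d ^ 2 * t ^ 8 - 2272 * d ^ 2 * t ^ 9 - 1024 * d ^ 2 * t ^ 10 - 1024 * d ^ 2 * t ^ 11 - 736 * d ^ 3 * t ^ 2 + 1808 * d ^ 3 * t ^ 3 + 2112 * d ^ 3 * t ^ 4 - 400 * d ^ 3 * t ^ 5 + 288 * d ^ 3 * t ^ 6 - 5200 * d ^ 3 * t ^ 7 - 2560 * d ^ 3 * t ^ 8 - 2992 * d ^ 3 * t ^ 9 - 2944 * d ^ 4 * t ^ 3 + 5568 * d ^ 4 * t ^ 4 - 4992 * d ^ 4 * t ^ 5 + 2944 * d ^ 4 * t ^ 6 + 896 * d ^ 4 * t ^ 7 - 2624 * d ^ 4 * t ^ 8 + 2944 * d ^ 4 * t ^ 9 - 529 * d ^ 5 * t ^ 4 + 1472 * d ^ 5 * t ^ 5 - 2082 * d ^ 5 * t ^ 6 + 1472 * d ^ 5 * t ^ 7 - 529 * d ^ 5 * t ^ 8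

def cL10a0 (t : ℝ) : ℝ := 127 + 128 * t + 640 * t ^ 2 + 640 * t ^ 3 + 1280 * t ^ 4 + 1280 * t ^ 5 + 1280 * t ^ 6 + 1280 * t ^ 7 + 640 * t ^ 8 + 640 * t ^ 9 + 128 * t ^ 10 + 128 * t ^ 11

theorem cL10a0_nn0 {t : ℝ} (h0 : (0 : ℝ) ≤ 1 * t) (h1 : 1 * t ≤ 1) : 0 ≤ cL10a0 t := by
  obtain ⟨r, hr⟩ : ∃ r, r = 1 * t - 0 := ⟨_, rfl⟩
  obtain ⟨s, hs⟩ : ∃ s, s = 1 - 1 * t := ⟨_, rfl⟩
  have hr0 : 0 ≤ r := by rw [hr]; linarith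
  have hs0 : 0 ≤ s := by rw [hs]; linarith
  have e : (1 : ℝ) * cL10a0 t = 127 * s ^ 11 + 1525 * r ^ 1 * s ^ 10 + 8905 * r ^ 2 * s ^ 9 + 33115 * r ^ 3 * s ^ 8 + 86710 * r ^ 4 * s ^ 7 + 167474 * r ^ 5 * s ^ 6 + 243250 * r ^ 6 * s ^ 5 + 265910 * r ^ 7 * s ^ 4 + 214875 * r ^ 8 * s ^ 3 + 122825 * r ^ 9 * s ^ 2 + 45045 * r ^ 10 * s ^ 1 + 8191 * r ^ 11 := by rw [hr, hs]; unfold cL10a0; ring
  have e2 : 0 ≤ (1 : ℝ) * cL10a0 t := by rw [e]; positivity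
  exact (mul_nonneg_iff_of_pos_left (by norm_num)).mp e2

theorem cL10a0_nn {t : ℝ} (h0 : 0 ≤ t) (h1 : t ≤ 1) : 0 ≤ cL10a0 t := by
  exact cL10a0_nn0 (by linarith) (by linarith)

def cL10a1 (t : ℝ) : ℝ := 2161 + 2176 * t + 11328 * t ^ 2 + 11464 * t ^ 3 + 23040 * t ^ 4 + 23512 * t ^ 5 + 22912 * t ^ 6 + 23512 * t ^ 7 + 11136 * t ^ 8 + 11464 * t ^ 9 + 2112 * t ^ 10 + 2176 * t ^ 11

theorem cL10a1_nn0 {t : ℝ} (h0 : (0 : ℝ) ≤ 1 * t) (h1 : 1 * t ≤ 1) : 0 ≤ cL10a1 t := by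
  obtain ⟨r, hr⟩ : ∃ r, r = 1 * t - 0 := ⟨_, rfl⟩
  obtain ⟨s, hs⟩ : ∃ s, s = 1 - 1 * t := ⟨_, rfl⟩
  have hr0 : 0 ≤ r := by rw [hr]; linarith
  have hs0 : 0 ≤ s := by rw [hs]; linarith
  have e : (1 : ℝ) * cL10a1 t = 2161 * s ^ 11 + 25947 * r ^ 1 * s ^ 10 + 151943 * r ^ 2 * s ^ 9 + 567901 * r ^ 3 * s ^ 8 + 1496810 * r ^ 4 * s ^ 7 + 2912678 * r ^ 5 * s ^ 6 + 4263870 * r ^ 6 * s ^ 5 + 4697050 * r ^ 7 * s ^ 4 + 3822165 * r ^ 8 * s ^ 3 + 2197159 * r ^ 9 * s ^ 2 + 808603 * r ^ 10 * s ^ 1 + 146993 * r ^ 11 := by rw [hr, hs]; unfold cL10a1; ring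
  have e2 : 0 ≤ (1 : ℝ) * cL10a1 t := by rw [e]; positivity
  exact (mul_nonneg_iff_of_pos_left (by norm_num)).mp e2

theorem cL10a1_nn {t : ℝ} (h0 : 0 ≤ t) (h1 : t ≤ 1) : 0 ≤ cL10a1 t := by
  exact cL10a1_nn0 (by linarith) (by linarith)

def cL10a2 (t : ℝ) : ℝ := 14502 + 14592 * t + 80016 * t ^ 2 + 82592 * t ^ 3 + 166320 * t ^ 4 + 171968 * t ^ 5 + 162736 * t ^ 6 + 168096 * t ^ 7 + 74640 * t ^ 8 + 77696 * t ^ 9 + 12800 * t ^ 10 + 13568 * t ^ 11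

theorem cL10a2_nn0 {t : ℝ} (h0 : (0 : ℝ) ≤ 1 * t) (h1 : 1 * t ≤ 1) : 0 ≤ cL10a2 t := by
  obtain ⟨r, hr⟩ : ∃ r, r = 1 * t - 0 := ⟨_, rfl⟩
  obtain ⟨s, hs⟩ : ∃ s, s = 1 - 1 * t := ⟨_, rfl⟩
  have hr0 : 0 ≤ r := by rw [hr]; linarith
  have hs0 : 0 ≤ s := by rw [hs]; linarith
  have e : (1 : ℝ) * cL10a2 t = 14502 * s ^ 11 + 174114 * r ^ 1 * s ^ 10 + 1023546 * r ^ 2 * s ^ 9 + 3852206 * r ^ 3 * s ^ 8 + 10244332 * r ^ 4 * s ^ 7 + 20134372 * r ^ 5 * s ^ 6 + 29771540 * r ^ 6 * s ^ 5 + 33095932 * r ^ 7 * s ^ 4 + 27125310 * r ^ 8 * s ^ 3 + 15657194 * r ^ 9 * s ^ 2 + 5760546 * r ^ 10 * s ^ 1 + 1039526 * r ^ 11 := by rw [hr, hs]; unfold cL10a2; ring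
  have e2 : 0 ≤ (1 : ℝ) * cL10a2 t := by rw [e]; positivity
  exact (mul_nonneg_iff_of_pos_left (by norm_num)).mp e2

theorem cL10a2_nn {t : ℝ} (h0 : 0 ≤ t) (h1 : t ≤ 1) : 0 ≤ cL10a2 t := by
  exact cL10a2_nn0 (by linarith) (by linarith)

def cL10a3 (t : ℝ) : ℝ := 48114 + 48384 * t + 280496 * t ^ 2 + 298880 * t ^ 3 + 600432 * t ^ 4 + 623264 * t ^ 5 + 573264 * t ^ 6 + 583616 * t ^ 7 + 240656 * t ^ 8 + 250016 * t ^ 9 + 35712 * t ^ 10 + 39168 * t ^ 11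

theorem cL10a3_nn0 {t : ℝ} (h0 : (0 : ℝ) ≤ 1 * t) (h1 : 1 * t ≤ 1) : 0 ≤ cL10a3 t := by
  obtain ⟨r, hr⟩ : ∃ r, r = 1 * t - 0 := ⟨_, rfl⟩
  obtain ⟨s, hs⟩ : ∃ s, s = 1 - 1 * t := ⟨_, rfl⟩
  have hr0 : 0 ≤ r := by rw [hr]; linarith
  have hs0 : 0 ≤ s := by rw [hs]; linarith
  have e : (1 : ℝ) * cL10a3 t = 48114 * s ^ 11 + 577638 * r ^ 1 * s ^ 10 + 3410606 * r ^ 2 * s ^ 9 + 12939434 * r ^ 3 * s ^ 8 + 34773028 * r ^ 4 * s ^ 7 + 69145900 * r ^ 5 * s ^ 6 + 103423132 * r ^ 6 * s ^ 5 + 116116372 * r ^ 7 * s ^ 4 + 95831994 * r ^ 8 * s ^ 3 + 55454398 * r ^ 9 * s ^ 2 + 20329702 * r ^ 10 * s ^ 1 + 3622002 * r ^ 11 := by rw [hr, hs]; unfold cL10a3; ring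
  have e2 : 0 ≤ (1 : ℝ) * cL10a3 t := by rw [e]; positivity
  exact (mul_nonneg_iff_of_pos_left (by norm_num)).mp e2

theorem cL10a3_nn {t : ℝ} (h0 : 0 ≤ t) (h1 : t ≤ 1) : 0 ≤ cL10a3 t := by
  exact cL10a3_nn0 (by linarith) (by linarith)

def cL10a4 (t : ℝ) : ℝ := 79083 + 79488 * t + 486768 * t ^ 2 + 539264 * t ^ 3 + 1087440 * t ^ 4 + 1112352 * t ^ 5 + 1004752 * t ^ 6 + 984896 * t ^ 7 + 369520 * t ^ 8 + 384160 * t ^ 9 + 44928 * t ^ 10 + 51840 * t ^ 11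

theorem cL10a4_nn0 {t : ℝ} (h0 : (0 : ℝ) ≤ 1 * t) (h1 : 1 * t ≤ 1) : 0 ≤ cL10a4 t := by
  obtain ⟨r, hr⟩ : ∃ r, r = 1 * t - 0 := ⟨_, rfl⟩
  obtain ⟨s, hs⟩ : ∃ s, s = 1 - 1 * t := ⟨_, rfl⟩
  have hr0 : 0 ≤ r := by rw [hr]; linarith
  have hs0 : 0 ≤ s := by rw [hs]; linarith
  have e : (1 : ℝ) * cL10a4 t = 79083 * s ^ 11 + 949401 * r ^ 1 * s ^ 10 + 5631213 * r ^ 2 * s ^ 9 + 21545831 * r ^ 3 * s ^ 8 + 58561150 * r ^ 4 * s ^ 7 + 117941162 * r ^ 5 * s ^ 6 + 178613978 * r ^ 6 * s ^ 5 + 202625454 * r ^ 7 * s ^ 4 + 168338615 * r ^ 8 * s ^ 3 + 97520701 * r ^ 9 * s ^ 2 + 35531161 * r ^ 10 * s ^ 1 + 6224491 * r ^ 11 := by rw [hr, hs]; unfold cL10a4; ring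
  have e2 : 0 ≤ (1 : ℝ) * cL10a4 t := by rw [e]; positivity
  exact (mul_nonneg_iff_of_pos_left (by norm_num)).mp e2

theorem cL10a4_nn {t : ℝ} (h0 : 0 ≤ t) (h1 : t ≤ 1) : 0 ≤ cL10a4 t := by
  exact cL10a4_nn0 (by linarith) (by linarith)

def cL10a5 (t : ℝ) : ℝ := 51597 + 51840 * t + 334224 * t ^ 2 + 384792 * t ^ 3 + 793343 * t ^ 4 + 778856 * t ^ 5 + 701838 * t ^ 6 + 648776 * t ^ 7 + 210911 * t ^ 8 + 227064 * t ^ 9 + 19008 * t ^ 10 + 24192 * t ^ 11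

theorem cL10a5_nn0 {t : ℝ} (h0 : (0 : ℝ) ≤ 1 * t) (h1 : 1 * t ≤ 1) : 0 ≤ cL10a5 t := by
  obtain ⟨r, hr⟩ : ∃ r, r = 1 * t - 0 := ⟨_, rfl⟩
  obtain ⟨s, hs⟩ : ∃ s, s = 1 - 1 * t := ⟨_, rfl⟩
  have hr0 : 0 ≤ r := by rw [hr]; linarith
  have hs0 : 0 ≤ s := by rw [hs]; linarith
  have e : (1 : ℝ) * cL10a5 t = 51597 * s ^ 11 + 619407 * r ^ 1 * s ^ 10 + 3690459 * r ^ 2 * s ^ 9 + 14239113 * r ^ 3 * s ^ 8 + 39151553 * r ^ 4 * s ^ 7 + 79905463 * r ^ 5 * s ^ 6 + 122597247 * r ^ 6 * s ^ 5 + 140568885 * r ^ 7 * s ^ 4 + 117525993 * r ^ 8 * s ^ 3 + 68090751 * r ^ 9 * s ^ 2 + 24609019 * r ^ 10 * s ^ 1 + 4226441 * r ^ 11 := by rw [hr, hs]; unfold cL10a5; ring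
  have e2 : 0 ≤ (1 : ℝ) * cL10a5 t := by rw [e]; positivity
  exact (mul_nonneg_iff_of_pos_left (by norm_num)).mp e2

theorem cL10a5_nn {t : ℝ} (h0 : 0 ≤ t) (h1 : t ≤ 1) : 0 ≤ cL10a5 t := by
  exact cL10a5_nn0 (by linarith) (by linarith)

theorem pL10_posa {d t : ℝ} (hd : 0 ≤ d) (hd3 : d ≤ 1 / 3) (h0 : 0 ≤ t) (h1 : t ≤ 1) : 0 < pL10 d t := by
  obtain ⟨u, hu⟩ : ∃ u, u = d := ⟨_, rfl⟩
  obtain ⟨v, hv⟩ : ∃ v, v = 1 - 3 * d := ⟨_, rfl⟩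
  have hu0 : 0 ≤ u := by rw [hu]; linarith
  have hv0 : 0 ≤ v := by rw [hv]; linarith
  have key : (1 : ℝ) * pL10 d t = 1 + (v ^ 5 * cL10a0 t + (u ^ 1 * v ^ 4 * cL10a1 t + (u ^ 2 * v ^ 3 * cL10a2 t + (u ^ 3 * v ^ 2 * cL10a3 t + (u ^ 4 * v ^ 1 * cL10a4 t + (u ^ 5 * cL10a5 t)))))) := by
    rw [hu, hv]; unfold pL10 cL10a0 cL10a1 cL10a2 cL10a3 cL10a4 cL10a5; ring
  have h3 : 0 < (1 : ℝ) * pL10 d t := by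
    rw [key]; exact add_pos_of_pos_of_nonneg one_pos (add_nonneg (mul_nonneg (by positivity) (cL10a0_nn h0 h1)) (add_nonneg (mul_nonneg (by positivity) (cL10a1_nn h0 h1)) (add_nonneg (mul_nonneg (by positivity) (cL10a2_nn h0 h1)) (add_nonneg (mul_nonneg (by positivity) (cL10a3_nn h0 h1)) (add_nonneg (mul_nonneg (by positivity) (cL10a4_nn h0 h1)) (mul_nonneg (by positivity) (cL10a5_nn h0 h1)))))))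
  exact (mul_pos_iff_of_pos_left (by norm_num)).mp h3

def cL10b0 (t : ℝ) : ℝ := 51597 + 51840 * t + 334224 * t ^ 2 + 384792 * t ^ 3 + 793343 * t ^ 4 + 778856 * t ^ 5 + 701838 * t ^ 6 + 648776 * t ^ 7 + 210911 * t ^ 8 + 227064 * t ^ 9 + 19008 * t ^ 10 + 24192 * t ^ 11

theorem cL10b0_nn0 {t : ℝ} (h0 : (0 : ℝ) ≤ 1 * t) (h1 : 1 * t ≤ 1) : 0 ≤ cL10b0 t := by
  obtain ⟨r, hr⟩ : ∃ r, r = 1 * t - 0 := ⟨_, rfl⟩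
  obtain ⟨s, hs⟩ : ∃ s, s = 1 - 1 * t := ⟨_, rfl⟩
  have hr0 : 0 ≤ r := by rw [hr]; linarith
  have hs0 : 0 ≤ s := by rw [hs]; linarith
  have e : (1 : ℝ) * cL10b0 t = 51597 * s ^ 11 + 619407 * r ^ 1 * s ^ 10 + 3690459 * r ^ 2 * s ^ 9 + 14239113 * r ^ 3 * s ^ 8 + 39151553 * r ^ 4 * s ^ 7 + 79905463 * r ^ 5 * s ^ 6 + 122597247 * r ^ 6 * s ^ 5 + 140568885 * r ^ 7 * s ^ 4 + 117525993 * r ^ 8 * s ^ 3 + 68090751 * r ^ 9 * s ^ 2 + 24609019 * r ^ 10 * s ^ 1 + 4226441 * r ^ 11 := by rw [hr, hs]; unfold cL10b0; ring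
  have e2 : 0 ≤ (1 : ℝ) * cL10b0 t := by rw [e]; positivity
  exact (mul_nonneg_iff_of_pos_left (by norm_num)).mp e2

theorem cL10b0_nn {t : ℝ} (h0 : 0 ≤ t) (h1 : t ≤ 1) : 0 ≤ cL10b0 t := by
  exact cL10b0_nn0 (by linarith) (by linarith)

def cL10b1 (t : ℝ) : ℝ := 178902 + 179712 * t + 1184352 * t ^ 2 + 1384696 * t ^ 3 + 2879275 * t ^ 4 + 2781928 * t ^ 5 + 2504438 * t ^ 6 + 2258984 * t ^ 7 + 685035 * t ^ 8 + 751160 * t ^ 9 + 50112 * t ^ 10 + 69120 * t ^ 11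

theorem cL10b1_nn0 {t : ℝ} (h0 : (0 : ℝ) ≤ 1 * t) (h1 : 1 * t ≤ 1) : 0 ≤ cL10b1 t := by
  obtain ⟨r, hr⟩ : ∃ r, r = 1 * t - 0 := ⟨_, rfl⟩
  obtain ⟨s, hs⟩ : ∃ s, s = 1 - 1 * t := ⟨_, rfl⟩
  have hr0 : 0 ≤ r := by rw [hr]; linarith
  have hs0 : 0 ≤ s := by rw [hs]; linarith
  have e : (1 : ℝ) * cL10b1 t = 178902 * s ^ 11 + 2147634 * r ^ 1 * s ^ 10 + 12821082 * r ^ 2 * s ^ 9 + 49649734 * r ^ 3 * s ^ 8 + 137196615 * r ^ 4 * s ^ 7 + 281586153 * r ^ 5 * s ^ 6 + 434372257 * r ^ 6 * s ^ 5 + 500218971 * r ^ 7 * s ^ 4 + 419291350 * r ^ 8 * s ^ 3 + 242933054 * r ^ 9 * s ^ 2 + 87513934 * r ^ 10 * s ^ 1 + 14907714 * r ^ 11 := by rw [hr, hs]; unfold cL10b1; ring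
  have e2 : 0 ≤ (1 : ℝ) * cL10b1 t := by rw [e]; positivity
  exact (mul_nonneg_iff_of_pos_left (by norm_num)).mp e2

theorem cL10b1_nn {t : ℝ} (h0 : 0 ≤ t) (h1 : t ≤ 1) : 0 ≤ cL10b1 t := by
  exact cL10b1_nn0 (by linarith) (by linarith)

def cL10b2 (t : ℝ) : ℝ := 247752 + 248832 * t + 1675664 * t ^ 2 + 1989744 * t ^ 3 + 4184102 * t ^ 4 + 3962416 * t ^ 5 + 3572636 * t ^ 6 + 3131792 * t ^ 7 + 871686 * t ^ 8 + 984016 * t ^ 9 + 46080 * t ^ 10 + 73728 * t ^ 11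

theorem cL10b2_nn0 {t : ℝ} (h0 : (0 : ℝ) ≤ 1 * t) (h1 : 1 * t ≤ 1) : 0 ≤ cL10b2 t := by
  obtain ⟨r, hr⟩ : ∃ r, r = 1 * t - 0 := ⟨_, rfl⟩
  obtain ⟨s, hs⟩ : ∃ s, s = 1 - 1 * t := ⟨_, rfl⟩
  have hr0 : 0 ≤ r := by rw [hr]; linarith
  have hs0 : 0 ≤ s := by rw [hs]; linarith
  have e : (1 : ℝ) * cL10b2 t = 247752 * s ^ 11 + 2974104 * r ^ 1 * s ^ 10 + 17790344 * r ^ 2 * s ^ 9 + 69147240 * r ^ 3 * s ^ 8 + 192043958 * r ^ 4 * s ^ 7 + 396435882 * r ^ 5 * s ^ 6 + 614939690 * r ^ 6 * s ^ 5 + 711303406 * r ^ 7 * s ^ 4 + 597737464 * r ^ 8 * s ^ 3 + 346279104 * r ^ 9 * s ^ 2 + 124295248 * r ^ 10 * s ^ 1 + 20988448 * r ^ 11 := by rw [hr, hs]; unfold cL10b2; ring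
  have e2 : 0 ≤ (1 : ℝ) * cL10b2 t := by rw [e]; positivity
  exact (mul_nonneg_iff_of_pos_left (by norm_num)).mp e2

theorem cL10b2_nn {t : ℝ} (h0 : 0 ≤ t) (h1 : t ≤ 1) : 0 ≤ cL10b2 t := by
  exact cL10b2_nn0 (by linarith) (by linarith)

def cL10b3 (t : ℝ) : ℝ := 171312 + 172032 * t + 1183104 * t ^ 2 + 1426384 * t ^ 3 + 3043766 * t ^ 4 + 2812272 * t ^ 5 + 2546924 * t ^ 6 + 2161136 * t ^ 7 + 539318 * t ^ 8 + 638032 * t ^ 9 + 14848 * t ^ 10 + 34816 * t ^ 11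

theorem cL10b3_nn0 {t : ℝ} (h0 : (0 : ℝ) ≤ 1 * t) (h1 : 1 * t ≤ 1) : 0 ≤ cL10b3 t := by
  obtain ⟨r, hr⟩ : ∃ r, r = 1 * t - 0 := ⟨_, rfl⟩
  obtain ⟨s, hs⟩ : ∃ s, s = 1 - 1 * t := ⟨_, rfl⟩
  have hr0 : 0 ≤ r := by rw [hr]; linarith
  have hs0 : 0 ≤ s := by rw [hs]; linarith
  have e : (1 : ℝ) * cL10b3 t = 171312 * s ^ 11 + 2056464 * r ^ 1 * s ^ 10 + 12325584 * r ^ 2 * s ^ 9 + 48082240 * r ^ 3 * s ^ 8 + 134223382 * r ^ 4 * s ^ 7 + 278710986 * r ^ 5 * s ^ 6 + 434786458 * r ^ 6 * s ^ 5 + 505189310 * r ^ 7 * s ^ 4 + 425598912 * r ^ 8 * s ^ 3 + 246489304 * r ^ 9 * s ^ 2 + 88131784 * r ^ 10 * s ^ 1 + 14743944 * r ^ 11 := by rw [hr, hs]; unfold cL10b3; ring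
  have e2 : 0 ≤ (1 : ℝ) * cL10b3 t := by rw [e]; positivity
  exact (mul_nonneg_iff_of_pos_left (by norm_num)).mp e2

theorem cL10b3_nn {t : ℝ} (h0 : 0 ≤ t) (h1 : t ≤ 1) : 0 ≤ cL10b3 t := by
  exact cL10b3_nn0 (by linarith) (by linarith)

def cL10b4 (t : ℝ) : ℝ := 59152 + 59392 * t + 416832 * t ^ 2 + 509824 * t ^ 3 + 1108651 * t ^ 4 + 994240 * t ^ 5 + 907414 * t ^ 6 + 742464 * t ^ 7 + 160299 * t ^ 8 + 204800 * t ^ 9 - 1024 * t ^ 10 + 6144 * t ^ 11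

theorem cL10b4_nn0 {t : ℝ} (h0 : (0 : ℝ) ≤ 1 * t) (h1 : 1 * t ≤ 1) : 0 ≤ cL10b4 t := by
  obtain ⟨r, hr⟩ : ∃ r, r = 1 * t - 0 := ⟨_, rfl⟩
  obtain ⟨s, hs⟩ : ∃ s, s = 1 - 1 * t := ⟨_, rfl⟩
  have hr0 : 0 ≤ r := by rw [hr]; linarith
  have hs0 : 0 ≤ s := by rw [hs]; linarith
  have e : (1 : ℝ) * cL10b4 t = 59152 * s ^ 11 + 710064 * r ^ 1 * s ^ 10 + 4264112 * r ^ 2 * s ^ 9 + 16694032 * r ^ 3 * s ^ 8 + 46840395 * r ^ 4 * s ^ 7 + 97844301 * r ^ 5 * s ^ 6 + 153520509 * r ^ 6 * s ^ 5 + 179196911 * r ^ 7 * s ^ 4 + 151343032 * r ^ 8 * s ^ 3 + 87616916 * r ^ 9 * s ^ 2 + 31197068 * r ^ 10 * s ^ 1 + 5168188 * r ^ 11 := by rw [hr, hs]; unfold cL10b4; ring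
  have e2 : 0 ≤ (1 : ℝ) * cL10b4 t := by rw [e]; positivity
  exact (mul_nonneg_iff_of_pos_left (by norm_num)).mp e2

theorem cL10b4_nn {t : ℝ} (h0 : 0 ≤ t) (h1 : t ≤ 1) : 0 ≤ cL10b4 t := by
  exact cL10b4_nn0 (by linarith) (by linarith)

def cL10b5 (t : ℝ) : ℝ := 8160 + 8192 * t + 58624 * t ^ 2 + 72640 * t ^ 3 + 161775 * t ^ 4 + 140032 * t ^ 5 + 129246 * t ^ 6 + 101632 * t ^ 7 + 17903 * t ^ 8 + 26048 * t ^ 9 - 1024 * t ^ 10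

theorem cL10b5_nn0 {t : ℝ} (h0 : (0 : ℝ) ≤ 1 * t) (h1 : 1 * t ≤ 1) : 0 ≤ cL10b5 t := by
  obtain ⟨r, hr⟩ : ∃ r, r = 1 * t - 0 := ⟨_, rfl⟩
  obtain ⟨s, hs⟩ : ∃ s, s = 1 - 1 * t := ⟨_, rfl⟩
  have hr0 : 0 ≤ r := by rw [hr]; linarith
  have hs0 : 0 ≤ s := by rw [hs]; linarith
  have e : (1 : ℝ) * cL10b5 t = 8160 * s ^ 11 + 97952 * r ^ 1 * s ^ 10 + 589344 * r ^ 2 * s ^ 9 + 2315296 * r ^ 3 * s ^ 8 + 6529199 * r ^ 4 * s ^ 7 + 13721033 * r ^ 5 * s ^ 6 + 21655481 * r ^ 6 * s ^ 5 + 25395011 * r ^ 7 * s ^ 4 + 21501352 * r ^ 8 * s ^ 3 + 12441588 * r ^ 9 * s ^ 2 + 4410572 * r ^ 10 * s ^ 1 + 723228 * r ^ 11 := by rw [hr, hs]; unfold cL10b5; ring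
  have e2 : 0 ≤ (1 : ℝ) * cL10b5 t := by rw [e]; positivity
  exact (mul_nonneg_iff_of_pos_left (by norm_num)).mp e2

theorem cL10b5_nn {t : ℝ} (h0 : 0 ≤ t) (h1 : t ≤ 1) : 0 ≤ cL10b5 t := by
  exact cL10b5_nn0 (by linarith) (by linarith)

theorem pL10_posb {d t : ℝ} (hd : 1 / 3 ≤ d) (hd3 : d ≤ 1 / 2) (h0 : 0 ≤ t) (h1 : t ≤ 1) : 0 < pL10 d t := by
  obtain ⟨u, hu⟩ : ∃ u, u = 3 * d - 1 := ⟨_, rfl⟩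
  obtain ⟨v, hv⟩ : ∃ v, v = 1 - 2 * d := ⟨_, rfl⟩
  have hu0 : 0 ≤ u := by rw [hu]; linarith
  have hv0 : 0 ≤ v := by rw [hv]; linarith
  have key : (1 : ℝ) * pL10 d t = 1 + (v ^ 5 * cL10b0 t + (u ^ 1 * v ^ 4 * cL10b1 t + (u ^ 2 * v ^ 3 * cL10b2 t + (u ^ 3 * v ^ 2 * cL10b3 t + (u ^ 4 * v ^ 1 * cL10b4 t + (u ^ 5 * cL10b5 t)))))) := by
    rw [hu, hv]; unfold pL10 cL10b0 cL10b1 cL10b2 cL10b3 cL10b4 cL10b5; ring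
  have h3 : 0 < (1 : ℝ) * pL10 d t := by
    rw [key]; exact add_pos_of_pos_of_nonneg one_pos (add_nonneg (mul_nonneg (by positivity) (cL10b0_nn h0 h1)) (add_nonneg (mul_nonneg (by positivity) (cL10b1_nn h0 h1)) (add_nonneg (mul_nonneg (by positivity) (cL10b2_nn h0 h1)) (add_nonneg (mul_nonneg (by positivity) (cL10b3_nn h0 h1)) (add_nonneg (mul_nonneg (by positivity) (cL10b4_nn h0 h1)) (mul_nonneg (by positivity) (cL10b5_nn h0 h1)))))))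
  exact (mul_pos_iff_of_pos_left (by norm_num)).mp h3

theorem pL10_pos {d t : ℝ} (hd : 0 ≤ d) (hd3 : d ≤ 1 / 2) (h0 : 0 ≤ t) (h1 : t ≤ 1) : 0 < pL10 d t := by
  rcases le_total d (1 / 3) with h | h
  · exact pL10_posa hd h h0 h1
  · exact pL10_posb h hd3 h0 h1

def pL1e (d t : ℝ) : ℝ := 768 + 768 * t + 1536 * t ^ 2 + 6432 * t ^ 3 - 1536 * t ^ 4 + 15456 * t ^ 5 - 6144 * t ^ 6 + 15456 * t ^ 7 - 5376 * t ^ 8 + 6432 * t ^ 9 - 1536 * t ^ 10 + 768 * t ^ 11 + 3200 * d - 4480 * d * t + 14272 * d * t ^ 2 + 26848 * d * t ^ 3 + 53696 * d * t ^ 4 + 43424 * d * t ^ 5 + 33728 * d * t ^ 6 - 9952 * d * t ^ 7 - 15680 * d * t ^ 8 - 20384 * d * t ^ 9 - 6784 * d * t ^ 10 + 1664 * d * t ^ 11 - 5888 * d ^ 2 - 13568 * d ^ 2 * t - 35712 * d ^ 2 * t ^ 2 + 81160 * d ^ 2 * t ^ 3 + 119232 * d ^ 2 * t ^ 4 + 50584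 * d ^ 2 * t ^ 5 + 74944 * d ^ 2 * t ^ 6 - 165608 * d ^ 2 * t ^ 7 - 87744 * d ^ 2 * t ^ 8 - 127352 * d ^ 2 * t ^ 9 - 13632 * d ^ 2 * t ^ 10 - 5888 * d ^ 2 * t ^ 11 - 31920 * d ^ 3 * t ^ 2 - 63424 * d ^ 3 * t ^ 3 + 199536 * d ^ 3 * t ^ 4 - 167776 * d ^ 3 * t ^ 5 + 124144 * d ^ 3 * t ^ 6 - 60288 * d ^ 3 * t ^ 7 - 108336 * d ^ 3 * t ^ 8 + 43040 * d ^ 3 * t ^ 9 - 1024 * d ^ 3 * t ^ 10 - 1024 * d ^ 3 * t ^ 11 - 5152 * d ^ 4 * t ^ 2 - 31792 * d ^ 4 * t ^ 3 + 42780 * d ^ 4 * t ^ 4 - 8272 * d ^ 4 * t ^ 5 - 40296 * d ^ 4 * t ^ 6 + 51440 * d ^ 4 * t ^ 7 - 51364 * d ^ 4 * t ^ 8 + 27920 * d ^ 4 * t ^ 9 - 2944 * d ^ 5 * t ^ 3 - 780 * d ^ 5 * t ^ 4 + 12672 * d ^ 5 * t ^ 5 - 22040 * d ^ 5 * t ^ 6 + 18560 * d ^ 5 * t ^ 7 - 8972 * d ^ 5 * t ^ 8 + 2944 * d ^ 5 * t ^ 9 - 529 * d ^ 6 * t ^ 4 + 1472 * d ^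 6 * t ^ 5 - 2082 * d ^ 6 * t ^ 6 + 1472 * d ^ 6 * t ^ 7 - 529 * d ^ 6 * t ^ 8

def cL1ea0 (t : ℝ) : ℝ := 767 + 768 * t + 1536 * t ^ 2 + 6432 * t ^ 3 - 1536 * t ^ 4 + 15456 * t ^ 5 - 6144 * t ^ 6 + 15456 * t ^ 7 - 5376 * t ^ 8 + 6432 * t ^ 9 - 1536 * t ^ 10 + 768 * t ^ 11

theorem cL1ea0_nn0 {t : ℝ} (h0 : (0 : ℝ) ≤ 1 * t) (h1 : 1 * t ≤ 1) : 0 ≤ cL1ea0 t := by
  obtain ⟨r, hr⟩ : ∃ r, r = 1 * t - 0 := ⟨_, rfl⟩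
  obtain ⟨s, hs⟩ : ∃ s, s = 1 - 1 * t := ⟨_, rfl⟩
  have hr0 : 0 ≤ r := by rw [hr]; linarith
  have hs0 : 0 ≤ s := by rw [hs]; linarith
  have e : (1 : ℝ) * cL1ea0 t = 767 * s ^ 11 + 9205 * r ^ 1 * s ^ 10 + 51401 * r ^ 2 * s ^ 9 + 181371 * r ^ 3 * s ^ 8 + 450486 * r ^ 4 * s ^ 7 + 829458 * r ^ 5 * s ^ 6 + 1155954 * r ^ 6 * s ^ 5 + 1220982 * r ^ 7 * s ^ 4 + 958299 * r ^ 8 * s ^ 3 + 533321 * r ^ 9 * s ^ 2 + 189685 * r ^ 10 * s ^ 1 + 33023 * r ^ 11 := by rw [hr, hs]; unfold cL1ea0; ring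
  have e2 : 0 ≤ (1 : ℝ) * cL1ea0 t := by rw [e]; positivity
  exact (mul_nonneg_iff_of_pos_left (by norm_num)).mp e2

theorem cL1ea0_nn {t : ℝ} (h0 : 0 ≤ t) (h1 : t ≤ 1) : 0 ≤ cL1ea0 t := by
  exact cL1ea0_nn0 (by linarith) (by linarith)

def cL1ea1 (t : ℝ) : ℝ := 17006 + 9344 * t + 41920 * t ^ 2 + 142624 * t ^ 3 + 26048 * t ^ 4 + 321632 * t ^ 5 - 76864 * t ^ 6 + 268256 * t ^ 7 - 112448 * t ^ 8 + 95392 * t ^ 9 - 34432 * t ^ 10 + 15488 * t ^ 11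

theorem cL1ea1_nn0 {t : ℝ} (h0 : (0 : ℝ) ≤ 1 * t) (h1 : 1 * t ≤ 1) : 0 ≤ cL1ea1 t := by
  obtain ⟨r, hr⟩ : ∃ r, r = 1 * t - 0 := ⟨_, rfl⟩
  obtain ⟨s, hs⟩ : ∃ s, s = 1 - 1 * t := ⟨_, rfl⟩
  have hr0 : 0 ≤ r := by rw [hr]; linarith
  have hs0 : 0 ≤ s := by rw [hs]; linarith
  have e : (1 : ℝ) * cL1ea1 t = 17006 * s ^ 11 + 196410 * r ^ 1 * s ^ 10 + 1070690 * r ^ 2 * s ^ 9 + 3746374 * r ^ 3 * s ^ 8 + 9409420 * r ^ 4 * s ^ 7 + 17837732 * r ^ 5 * s ^ 6 + 25880260 * r ^ 6 * s ^ 5 + 28459916 * r ^ 7 * s ^ 4 + 22971750 * r ^ 8 * s ^ 3 + 12828834 * r ^ 9 * s ^ 2 + 4418618 * r ^ 10 * s ^ 1 + 713966 * r ^ 11 := by rw [hr, hs]; unfold cL1ea1; ring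
  have e2 : 0 ≤ (1 : ℝ) * cL1ea1 t := by rw [e]; positivity
  exact (mul_nonneg_iff_of_pos_left (by norm_num)).mp e2

theorem cL1ea1_nn {t : ℝ} (h0 : 0 ≤ t) (h1 : t ≤ 1) : 0 ≤ cL1ea1 t := by
  exact cL1ea1_nn0 (by linarith) (by linarith)

def cL1ea2 (t : ℝ) : ℝ := 145657 + 22912 * t + 385728 * t ^ 2 + 1352200 * t ^ 3 + 717312 * t ^ 4 + 2788504 * t ^ 5 - 248576 * t ^ 6 + 1771672 * t ^ 7 - 1048704 * t ^ 8 + 435208 * t ^ 9 - 322752 * t ^ 10 + 122752 * t ^ 11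

theorem cL1ea2_nn0 {t : ℝ} (h0 : (0 : ℝ) ≤ 1 * t) (h1 : 1 * t ≤ 1) : 0 ≤ cL1ea2 t := by
  obtain ⟨r, hr⟩ : ∃ r, r = 1 * t - 0 := ⟨_, rfl⟩
  obtain ⟨s, hs⟩ : ∃ s, s = 1 - 1 * t := ⟨_, rfl⟩
  have hr0 : 0 ≤ r := by rw [hr]; linarith
  have hs0 : 0 ≤ s := by rw [hs]; linarith
  have e : (1 : ℝ) * cL1ea2 t = 145657 * s ^ 11 + 1625139 * r ^ 1 * s ^ 10 + 8625983 * r ^ 2 * s ^ 9 + 29888197 * r ^ 3 * s ^ 8 + 76237370 * r ^ 4 * s ^ 7 + 150177494 * r ^ 5 * s ^ 6 + 228938286 * r ^ 6 * s ^ 5 + 263596330 * r ^ 7 * s ^ 4 + 219335421 * r ^ 8 * s ^ 3 + 123114463 * r ^ 9 * s ^ 2 + 41118067 * r ^ 10 * s ^ 1 + 6121913 * r ^ 11 := by rw [hr, hs]; unfold cL1ea2; ring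
  have e2 : 0 ≤ (1 : ℝ) * cL1ea2 t := by rw [e]; positivity
  exact (mul_nonneg_iff_of_pos_left (by norm_num)).mp e2

theorem cL1ea2_nn {t : ℝ} (h0 : 0 ≤ t) (h1 : t ≤ 1) : 0 ≤ cL1ea2 t := by
  exact cL1ea2_nn0 (by linarith) (by linarith)

def cL1ea3 (t : ℝ) : ℝ := 631524 - 151296 * t + 1653456 * t ^ 2 + 6800096 * t ^ 3 + 5633520 * t ^ 4 + 12693632 * t ^ 5 + 741232 * t ^ 6 + 5402976 * t ^ 7 - 5475504 * t ^ 8 + 153536 * t ^ 9 - 1604608 * t ^ 10 + 492800 * t ^ 11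

theorem cL1ea3_nn0 {t : ℝ} (h0 : (0 : ℝ) ≤ 1 * t) (h1 : 1 * t ≤ 1) : 0 ≤ cL1ea3 t := by
  obtain ⟨r, hr⟩ : ∃ r, r = 1 * t - 0 := ⟨_, rfl⟩
  obtain ⟨s, hs⟩ : ∃ s, s = 1 - 1 * t := ⟨_, rfl⟩
  have hr0 : 0 ≤ r := by rw [hr]; linarith
  have hs0 : 0 ≤ s := by rw [hs]; linarith
  have e : (1 : ℝ) * cL1ea3 t = 631524 * s ^ 11 + 6795468 * r ^ 1 * s ^ 10 + 34874316 * r ^ 2 * s ^ 9 + 119074340 * r ^ 3 * s ^ 8 + 309806104 * r ^ 4 * s ^ 7 + 641413192 * r ^ 5 * s ^ 6 + 1037985272 * r ^ 6 * s ^ 5 + 1257659752 * r ^ 7 * s ^ 4 + 1080336180 * r ^ 8 * s ^ 3 + 610118204 * r ^ 9 * s ^ 2 + 197906124 * r ^ 10 * s ^ 1 + 26971364 * r ^ 11 := by rw [hr, hs]; unfold cL1ea3; ring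
  have e2 : 0 ≤ (1 : ℝ) * cL1ea3 t := by rw [e]; positivity
  exact (mul_nonneg_iff_of_pos_left (by norm_num)).mp e2

theorem cL1ea3_nn {t : ℝ} (h0 : 0 ≤ t) (h1 : t ≤ 1) : 0 ≤ cL1ea3 t := by
  exact cL1ea3_nn0 (by linarith) (by linarith)

def cL1ea4 (t : ℝ) : ℝ := 1477953 - 1009152 * t + 3498800 * t ^ 2 + 18843872 * t ^ 3 + 20908812 * t ^ 4 + 31716800 * t ^ 5 + 6765576 * t ^ 6 + 6658016 * t ^ 7 - 16530004 * t ^ 8 - 4150528 * t ^ 9 - 4443264 * t ^ 10 + 1055232 * t ^ 11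

theorem cL1ea4_nn0 {t : ℝ} (h0 : (0 : ℝ) ≤ 1 * t) (h1 : 1 * t ≤ 1) : 0 ≤ cL1ea4 t := by
  obtain ⟨r, hr⟩ : ∃ r, r = 1 * t - 0 := ⟨_, rfl⟩
  obtain ⟨s, hs⟩ : ∃ s, s = 1 - 1 * t := ⟨_, rfl⟩
  have hr0 : 0 ≤ r := by rw [hr]; linarith
  have hs0 : 0 ≤ s := by rw [hs]; linarith
  have e : (1 : ℝ) * cL1ea4 t = 1477953 * s ^ 11 + 15248331 * r ^ 1 * s ^ 10 + 74694695 * r ^ 2 * s ^ 9 + 248783477 * r ^ 3 * s ^ 8 + 664242838 * r ^ 4 * s ^ 7 + 1470498466 * r ^ 5 * s ^ 6 + 2560765042 * r ^ 6 * s ^ 5 + 3283768726 * r ^ 7 * s ^ 4 + 2915822277 * r ^ 8 * s ^ 3 + 1658161159 * r ^ 9 * s ^ 2 + 523194235 * r ^ 10 * s ^ 1 + 64792113 * r ^ 11 := by rw [hr, hs]; unfold cL1ea4; ring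
  have e2 : 0 ≤ (1 : ℝ) * cL1ea4 t := by rw [e]; positivity
  exact (mul_nonneg_iff_of_pos_left (by norm_num)).mp e2

theorem cL1ea4_nn {t : ℝ} (h0 : 0 ≤ t) (h1 : t ≤ 1) : 0 ≤ cL1ea4 t := by
  exact cL1ea4_nn0 (by linarith) (by linarith)

def cL1ea5 (t : ℝ) : ℝ := 1778382 - 2160000 * t + 3270000 * t ^ 2 + 27110432 * t ^ 3 + 38027820 * t ^ 4 + 41017728 * t ^ 5 + 15883912 * t ^ 6 - 681952 * t ^ 7 - 26907188 * t ^ 8 - 11299136 * t ^ 9 - 6486912 * t ^ 10 + 1130112 * t ^ 11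

theorem cL1ea5_nn0 {t : ℝ} (h0 : (0 : ℝ) ≤ 1 * t) (h1 : 1 * t ≤ 1) : 0 ≤ cL1ea5 t := by
  obtain ⟨r, hr⟩ : ∃ r, r = 1 * t - 0 := ⟨_, rfl⟩
  obtain ⟨s, hs⟩ : ∃ s, s = 1 - 1 * t := ⟨_, rfl⟩
  have hr0 : 0 ≤ r := by rw [hr]; linarith
  have hs0 : 0 ≤ s := by rw [hs]; linarith
  have e : (1 : ℝ) * cL1ea5 t = 1778382 * s ^ 11 + 17402202 * r ^ 1 * s ^ 10 + 79481010 * r ^ 2 * s ^ 9 + 252773462 * r ^ 3 * s ^ 8 + 700297336 * r ^ 4 * s ^ 7 + 1708997048 * r ^ 5 * s ^ 6 + 3268071176 * r ^ 6 * s ^ 5 + 4467993528 * r ^ 7 * s ^ 4 + 4107629606 * r ^ 8 * s ^ 3 + 2353999954 * r ^ 9 * s ^ 2 + 723461770 * r ^ 10 * s ^ 1 + 80683198 * r ^ 11 := by rw [hr, hs]; unfold cL1ea5; ring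
  have e2 : 0 ≤ (1 : ℝ) * cL1ea5 t := by rw [e]; positivity
  exact (mul_nonneg_iff_of_pos_left (by norm_num)).mp e2

theorem cL1ea5_nn {t : ℝ} (h0 : 0 ≤ t) (h1 : t ≤ 1) : 0 ≤ cL1ea5 t := by
  exact cL1ea5_nn0 (by linarith) (by linarith)

def cL1ea6 (t : ℝ) : ℝ := 859815 - 1627776 * t + 786960 * t ^ 2 + 15779544 * t ^ 3 + 27355799 * t ^ 4 + 21351848 * t ^ 5 + 12708414 * t ^ 6 - 5672824 * t ^ 7 - 18251401 * t ^ 8 - 9157704 * t ^ 9 - 3900096 * t ^ 10 + 459648 * t ^ 11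

theorem cL1ea6_nn0 {t : ℝ} (h0 : (0 : ℝ) ≤ 1 * t) (h1 : 1 * t ≤ 1) : 0 ≤ cL1ea6 t := by
  obtain ⟨r, hr⟩ : ∃ r, r = 1 * t - 0 := ⟨_, rfl⟩
  obtain ⟨s, hs⟩ : ∃ s, s = 1 - 1 * t := ⟨_, rfl⟩
  have hr0 : 0 ≤ r := by rw [hr]; linarith
  have hs0 : 0 ≤ s := by rw [hs]; linarith
  have e : (1 : ℝ) * cL1ea6 t = 859815 * s ^ 11 + 7830189 * r ^ 1 * s ^ 10 + 31799025 * r ^ 2 * s ^ 9 + 91481739 * r ^ 3 * s ^ 8 + 270328541 * r ^ 4 * s ^ 7 + 776175883 * r ^ 5 * s ^ 6 + 1685137683 * r ^ 6 * s ^ 5 + 2481230961 * r ^ 7 * s ^ 4 + 2366926827 * r ^ 8 * s ^ 3 + 1368082485 * r ^ 9 * s ^ 2 + 409981945 * r ^ 10 * s ^ 1 + 40692227 * r ^ 11 := by rw [hr, hs]; unfold cL1ea6; ring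
  have e2 : 0 ≤ (1 : ℝ) * cL1ea6 t := by rw [e]; positivity
  exact (mul_nonneg_iff_of_pos_left (by norm_num)).mp e2

theorem cL1ea6_nn {t : ℝ} (h0 : 0 ≤ t) (h1 : t ≤ 1) : 0 ≤ cL1ea6 t := by
  exact cL1ea6_nn0 (by linarith) (by linarith)

theorem pL1e_posa {d t : ℝ} (hd : 0 ≤ d) (hd3 : d ≤ 1 / 3) (h0 : 0 ≤ t) (h1 : t ≤ 1) : 0 < pL1e d t := by
  obtain ⟨u, hu⟩ : ∃ u, u = d := ⟨_, rfl⟩
  obtain ⟨v, hv⟩ : ∃ v, v = 1 - 3 * d := ⟨_, rfl⟩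
  have hu0 : 0 ≤ u := by rw [hu]; linarith
  have hv0 : 0 ≤ v := by rw [hv]; linarith
  have key : (1 : ℝ) * pL1e d t = 1 + (v ^ 6 * cL1ea0 t + (u ^ 1 * v ^ 5 * cL1ea1 t + (u ^ 2 * v ^ 4 * cL1ea2 t + (u ^ 3 * v ^ 3 * cL1ea3 t + (u ^ 4 * v ^ 2 * cL1ea4 t + (u ^ 5 * v ^ 1 * cL1ea5 t + (u ^ 6 * cL1ea6 t))))))) := by
    rw [hu, hv]; unfold pL1e cL1ea0 cL1ea1 cL1ea2 cL1ea3 cL1ea4 cL1ea5 cL1ea6; ring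
  have h3 : 0 < (1 : ℝ) * pL1e d t := by
    rw [key]; exact add_pos_of_pos_of_nonneg one_pos (add_nonneg (mul_nonneg (by positivity) (cL1ea0_nn h0 h1)) (add_nonneg (mul_nonneg (by positivity) (cL1ea1_nn h0 h1)) (add_nonneg (mul_nonneg (by positivity) (cL1ea2_nn h0 h1)) (add_nonneg (mul_nonneg (by positivity) (cL1ea3_nn h0 h1)) (add_nonneg (mul_nonneg (by positivity) (cL1ea4_nn h0 h1)) (add_nonneg (mul_nonneg (by positivity) (cL1ea5_nn h0 h1)) (mul_nonneg (by positivity) (cL1ea6_nn h0 h1))))))))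
  exact (mul_pos_iff_of_pos_left (by norm_num)).mp h3

def cL1eb0 (t : ℝ) : ℝ := 859815 - 1627776 * t + 786960 * t ^ 2 + 15779544 * t ^ 3 + 27355799 * t ^ 4 + 21351848 * t ^ 5 + 12708414 * t ^ 6 - 5672824 * t ^ 7 - 18251401 * t ^ 8 - 9157704 * t ^ 9 - 3900096 * t ^ 10 + 459648 * t ^ 11

theorem cL1eb0_nn0 {t : ℝ} (h0 : (0 : ℝ) ≤ 3 * t) (h1 : 3 * t ≤ 1) : 0 ≤ cL1eb0 t := by
  obtain ⟨r, hr⟩ : ∃ r, r = 3 * t - 0 := ⟨_, rfl⟩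
  obtain ⟨s, hs⟩ : ∃ s, s = 1 - 3 * t := ⟨_, rfl⟩
  have hr0 : 0 ≤ r := by rw [hr]; linarith
  have hs0 : 0 ≤ s := by rw [hs]; linarith
  have e : (177147 : ℝ) * cL1eb0 t = 152313647805 * s ^ 11 + 1579331580831 * r ^ 1 * s ^ 10 + 7431554912715 * r ^ 2 * s ^ 9 + 21049354553049 * r ^ 3 * s ^ 8 + 40174972623135 * r ^ 4 * s ^ 7 + 54818332353225 * r ^ 5 * s ^ 6 + 55249246230273 * r ^ 6 * s ^ 5 + 41619800253771 * r ^ 7 * s ^ 4 + 23130131293881 * r ^ 8 * s ^ 3 + 9024790894119 * r ^ 9 * s ^ 2 + 2206039719843 * r ^ 10 * s ^ 1 + 252649252305 * r ^ 11 := by rw [hr, hs]; unfold cL1eb0; ring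
  have e2 : 0 ≤ (177147 : ℝ) * cL1eb0 t := by rw [e]; positivity
  exact (mul_nonneg_iff_of_pos_left (by norm_num)).mp e2

theorem cL1eb0_nn1 {t : ℝ} (h0 : (1 : ℝ) ≤ 3 * t) (h1 : 3 * t ≤ 2) : 0 ≤ cL1eb0 t := by
  obtain ⟨r, hr⟩ : ∃ r, r = 3 * t - 1 := ⟨_, rfl⟩
  obtain ⟨s, hs⟩ : ∃ s, s = 2 - 3 * t := ⟨_, rfl⟩
  have hr0 : 0 ≤ r := by rw [hr]; linarith
  have hs0 : 0 ≤ s := by rw [hs]; linarith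
  have e : (177147 : ℝ) * cL1eb0 t = 252649252305 * s ^ 11 + 3352243830867 * r ^ 1 * s ^ 10 + 20486832004359 * r ^ 2 * s ^ 9 + 75725968271121 * r ^ 3 * s ^ 8 + 187297509425931 * r ^ 4 * s ^ 7 + 324385820660457 * r ^ 5 * s ^ 6 + 400399013132217 * r ^ 6 * s ^ 5 + 351538066762983 * r ^ 7 * s ^ 4 + 214806501688761 * r ^ 8 * s ^ 3 + 86885026759971 * r ^ 9 * s ^ 2 + 20909655844623 * r ^ 10 * s ^ 1 + 2265035522445 * r ^ 11 := by rw [hr, hs]; unfold cL1eb0; ring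
  have e2 : 0 ≤ (177147 : ℝ) * cL1eb0 t := by rw [e]; positivity
  exact (mul_nonneg_iff_of_pos_left (by norm_num)).mp e2

theorem cL1eb0_nn2 {t : ℝ} (h0 : (2 : ℝ) ≤ 3 * t) (h1 : 3 * t ≤ 3) : 0 ≤ cL1eb0 t := by
  obtain ⟨r, hr⟩ : ∃ r, r = 3 * t - 2 := ⟨_, rfl⟩
  obtain ⟨s, hs⟩ : ∃ s, s = 3 - 3 * t := ⟨_, rfl⟩
  have hr0 : 0 ≤ r := by rw [hr]; linarith
  have hs0 : 0 ≤ s := by rw [hs]; linarith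
  have e : (177147 : ℝ) * cL1eb0 t = 2265035522445 * s ^ 11 + 28921125649167 * r ^ 1 * s ^ 10 + 166999724805411 * r ^ 2 * s ^ 9 + 575232817585977 * r ^ 3 * s ^ 8 + 1312195840850151 * r ^ 4 * s ^ 7 + 2079385241002425 * r ^ 5 * s ^ 6 + 2332802059314921 * r ^ 6 * s ^ 5 + 1849750524015291 * r ^ 7 * s ^ 4 + 1013693535409617 * r ^ 8 * s ^ 3 + 364529382909975 * r ^ 9 * s ^ 2 + 77071400737011 * r ^ 10 * s ^ 1 + 7208505936369 * r ^ 11 := by rw [hr, hs]; unfold cL1eb0; ring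
  have e2 : 0 ≤ (177147 : ℝ) * cL1eb0 t := by rw [e]; positivity
  exact (mul_nonneg_iff_of_pos_left (by norm_num)).mp e2

theorem cL1eb0_nn {t : ℝ} (h0 : 0 ≤ t) (h1 : t ≤ 1) : 0 ≤ cL1eb0 t := by
  rcases le_total (3 * t) 1 with h0 | h0
  · exact cL1eb0_nn0 (by linarith) h0
  rcases le_total (3 * t) 2 with h1 | h1
  · exact cL1eb0_nn1 h0 h1
  exact cL1eb0_nn2 h1 (by linarith)

def cL1eb1 (t : ℝ) : ℝ := 3380508 - 7606656 * t + 1451760 * t ^ 2 + 67566832 * t ^ 3 + 126106974 * t ^ 4 + 87093360 * t ^ 5 + 60366572 * t ^ 6 - 33354992 * t ^ 7 - 82601218 * t ^ 8 - 43647088 * t ^ 9 - 16913664 * t ^ 10 + 1627776 * t ^ 11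

theorem cL1eb1_nn0 {t : ℝ} (h0 : (0 : ℝ) ≤ 3 * t) (h1 : 3 * t ≤ 1) : 0 ≤ cL1eb1 t := by
  obtain ⟨r, hr⟩ : ∃ r, r = 3 * t - 0 := ⟨_, rfl⟩
  obtain ⟨s, hs⟩ : ∃ s, s = 1 - 3 * t := ⟨_, rfl⟩
  have hr0 : 0 ≤ r := by rw [hr]; linarith
  have hs0 : 0 ≤ s := by rw [hs]; linarith
  have e : (177147 : ℝ) * cL1eb1 t = 598846850676 * s ^ 11 + 6138149927292 * r ^ 1 * s ^ 10 + 28473497477820 * r ^ 2 * s ^ 9 + 79297766918532 * r ^ 3 * s ^ 8 + 148570552650834 * r ^ 4 * s ^ 7 + 199149434314254 * r ^ 5 * s ^ 6 + 198090471192750 * r ^ 6 * s ^ 5 + 148602456174618 * r ^ 7 * s ^ 4 + 83191646258388 * r ^ 8 * s ^ 3 + 33032877326532 * r ^ 9 * s ^ 2 + 8265813164676 * r ^ 10 * s ^ 1 + 970144561692 * r ^ 11 := by rw [hr, hs]; unfold cL1eb1; ring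
  have e2 : 0 ≤ (177147 : ℝ) * cL1eb1 t := by rw [e]; positivity
  exact (mul_nonneg_iff_of_pos_left (by norm_num)).mp e2

theorem cL1eb1_nn1 {t : ℝ} (h0 : (1 : ℝ) ≤ 3 * t) (h1 : 3 * t ≤ 2) : 0 ≤ cL1eb1 t := by
  obtain ⟨r, hr⟩ : ∃ r, r = 3 * t - 1 := ⟨_, rfl⟩
  obtain ⟨s, hs⟩ : ∃ s, s = 2 - 3 * t := ⟨_, rfl⟩
  have hr0 : 0 ≤ r := by rw [hr]; linarith
  have hs0 : 0 ≤ s := by rw [hs]; linarith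
  have e : (177147 : ℝ) * cL1eb1 t = 970144561692 * s ^ 11 + 13077367192548 * r ^ 1 * s ^ 10 + 81148417605252 * r ^ 2 * s ^ 9 + 304144597410948 * r ^ 3 * s ^ 8 + 761453098705818 * r ^ 4 * s ^ 7 + 1332458064485118 * r ^ 5 * s ^ 6 + 1658810305361646 * r ^ 6 * s ^ 5 + 1466478171626850 * r ^ 7 * s ^ 4 + 900945274079556 * r ^ 8 * s ^ 3 + 365883874444332 * r ^ 9 * s ^ 2 + 88292852070876 * r ^ 10 * s ^ 1 + 9578018852820 * r ^ 11 := by rw [hr, hs]; unfold cL1eb1; ring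
  have e2 : 0 ≤ (177147 : ℝ) * cL1eb1 t := by rw [e]; positivity
  exact (mul_nonneg_iff_of_pos_left (by norm_num)).mp e2

theorem cL1eb1_nn2 {t : ℝ} (h0 : (2 : ℝ) ≤ 3 * t) (h1 : 3 * t ≤ 3) : 0 ≤ cL1eb1 t := by
  obtain ⟨r, hr⟩ : ∃ r, r = 3 * t - 2 := ⟨_, rfl⟩
  obtain ⟨s, hs⟩ : ∃ s, s = 3 - 3 * t := ⟨_, rfl⟩
  have hr0 : 0 ≤ r := by rw [hr]; linarith
  have hs0 : 0 ≤ s := by rw [hs]; linarith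
  have e : (177147 : ℝ) * cL1eb1 t = 9578018852820 * s ^ 11 + 122423562691164 * r ^ 1 * s ^ 10 + 707190980647212 * r ^ 2 * s ^ 9 + 2435235978883140 * r ^ 3 * s ^ 8 + 5549433261186402 * r ^ 4 * s ^ 7 + 8777424789042606 * r ^ 5 * s ^ 6 + 9818611249570686 * r ^ 6 * s ^ 5 + 7753056580951866 * r ^ 7 * s ^ 4 + 4224056036967684 * r ^ 8 * s ^ 3 + 1506665331015588 * r ^ 9 * s ^ 2 + 314894942873892 * r ^ 10 * s ^ 1 + 28958249142108 * r ^ 11 := by rw [hr, hs]; unfold cL1eb1; ring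
  have e2 : 0 ≤ (177147 : ℝ) * cL1eb1 t := by rw [e]; positivity
  exact (mul_nonneg_iff_of_pos_left (by norm_num)).mp e2

theorem cL1eb1_nn {t : ℝ} (h0 : 0 ≤ t) (h1 : t ≤ 1) : 0 ≤ cL1eb1 t := by
  rcases le_total (3 * t) 1 with h0 | h0
  · exact cL1eb1_nn0 (by linarith) h0
  rcases le_total (3 * t) 2 with h1 | h1
  · exact cL1eb1_nn1 h0 h1
  exact cL1eb1_nn2 h1 (by linarith)

def cL1eb2 (t : ℝ) : ℝ := 5483268 - 14625792 * t - 1046800 * t ^ 2 + 119984872 * t ^ 3 + 241106697 * t ^ 4 + 146905880 * t ^ 5 + 117972226 * t ^ 6 - 75024584 * t ^ 7 - 155765079 * t ^ 8 - 85020408 * t ^ 9 - 30510144 * t ^ 10 + 2299392 * t ^ 11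

theorem cL1eb2_nn0 {t : ℝ} (h0 : (0 : ℝ) ≤ 3 * t) (h1 : 3 * t ≤ 1) : 0 ≤ cL1eb2 t := by
  obtain ⟨r, hr⟩ : ∃ r, r = 3 * t - 0 := ⟨_, rfl⟩
  obtain ⟨s, hs⟩ : ∃ s, s = 1 - 3 * t := ⟨_, rfl⟩
  have hr0 : 0 ≤ r := by rw [hr]; linarith
  have hs0 : 0 ≤ s := by rw [hs]; linarith
  have e : (177147 : ℝ) * cL1eb2 t = 971344476396 * s ^ 11 + 9821150848548 * r ^ 1 * s ^ 10 + 44766958119300 * r ^ 2 * s ^ 9 + 122009894239572 * r ^ 3 * s ^ 8 + 222990386583195 * r ^ 4 * s ^ 7 + 291506713681941 * r ^ 5 * s ^ 6 + 284357051218845 * r ^ 6 * s ^ 5 + 211888129562991 * r ^ 7 * s ^ 4 + 119844402248628 * r ^ 8 * s ^ 3 + 48777200994600 * r ^ 9 * s ^ 2 + 12599191967904 * r ^ 10 * s ^ 1 + 1526247586008 * r ^ 11 := by rw [hr, hs]; unfold cL1eb2; ring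
  have e2 : 0 ≤ (177147 : ℝ) * cL1eb2 t := by rw [e]; positivity
  exact (mul_nonneg_iff_of_pos_left (by norm_num)).mp e2

theorem cL1eb2_nn1 {t : ℝ} (h0 : (1 : ℝ) ≤ 3 * t) (h1 : 3 * t ≤ 2) : 0 ≤ cL1eb2 t := by
  obtain ⟨r, hr⟩ : ∃ r, r = 3 * t - 1 := ⟨_, rfl⟩
  obtain ⟨s, hs⟩ : ∃ s, s = 2 - 3 * t := ⟨_, rfl⟩
  have hr0 : 0 ≤ r := by rw [hr]; linarith
  have hs0 : 0 ≤ s := by rw [hs]; linarith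
  have e : (177147 : ℝ) * cL1eb2 t = 1526247586008 * s ^ 11 + 20978254924272 * r ^ 1 * s ^ 10 + 132567830558280 * r ^ 2 * s ^ 9 + 504937474962012 * r ^ 3 * s ^ 8 + 1281657601741743 * r ^ 4 * s ^ 7 + 2268542078572725 * r ^ 5 * s ^ 6 + 2850574573981989 * r ^ 6 * s ^ 5 + 2538831830854995 * r ^ 7 * s ^ 4 + 1568752832512116 * r ^ 8 * s ^ 3 + 639804902990508 * r ^ 9 * s ^ 2 + 154838105429940 * r ^ 10 * s ^ 1 + 16822651804956 * r ^ 11 := by rw [hr, hs]; unfold cL1eb2; ring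
  have e2 : 0 ≤ (177147 : ℝ) * cL1eb2 t := by rw [e]; positivity
  exact (mul_nonneg_iff_of_pos_left (by norm_num)).mp e2

theorem cL1eb2_nn2 {t : ℝ} (h0 : (2 : ℝ) ≤ 3 * t) (h1 : 3 * t ≤ 3) : 0 ≤ cL1eb2 t := by
  obtain ⟨r, hr⟩ : ∃ r, r = 3 * t - 2 := ⟨_, rfl⟩
  obtain ⟨s, hs⟩ : ∃ s, s = 3 - 3 * t := ⟨_, rfl⟩
  have hr0 : 0 ≤ r := by rw [hr]; linarith
  have hs0 : 0 ≤ s := by rw [hs]; linarith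
  have e : (177147 : ℝ) * cL1eb2 t = 16822651804956 * s ^ 11 + 215260234279092 * r ^ 1 * s ^ 10 + 1244026191482028 * r ^ 2 * s ^ 9 + 4282776826469748 * r ^ 3 * s ^ 8 + 9749712858719571 * r ^ 4 * s ^ 7 + 15391698666123429 * r ^ 5 * s ^ 6 + 17166622827947445 * r ^ 6 * s ^ 5 + 13497073091570943 * r ^ 7 * s ^ 4 + 7308848698338204 * r ^ 8 * s ^ 3 + 2584550835310392 * r ^ 9 * s ^ 2 + 533467808268624 * r ^ 10 * s ^ 1 + 48141385106616 * r ^ 11 := by rw [hr, hs]; unfold cL1eb2; ring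
  have e2 : 0 ≤ (177147 : ℝ) * cL1eb2 t := by rw [e]; positivity
  exact (mul_nonneg_iff_of_pos_left (by norm_num)).mp e2

theorem cL1eb2_nn {t : ℝ} (h0 : 0 ≤ t) (h1 : t ≤ 1) : 0 ≤ cL1eb2 t := by
  rcases le_total (3 * t) 1 with h0 | h0
  · exact cL1eb2_nn0 (by linarith) h0
  rcases le_total (3 * t) 2 with h1 | h1
  · exact cL1eb2_nn1 h0 h1
  exact cL1eb2_nn2 h1 (by linarith)

def cL1eb3 (t : ℝ) : ℝ := 4692768 - 14840832 * t - 4619056 * t ^ 2 + 113061952 * t ^ 3 + 244839508 * t ^ 4 + 131033248 * t ^ 5 + 121650232 * t ^ 6 - 85407872 * t ^ 7 - 156600652 * t ^ 8 - 86918368 * t ^ 9 - 29301248 * t ^ 10 + 1619968 * t ^ 11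

theorem cL1eb3_nn0 {t : ℝ} (h0 : (0 : ℝ) ≤ 3 * t) (h1 : 3 * t ≤ 1) : 0 ≤ cL1eb3 t := by
  obtain ⟨r, hr⟩ : ∃ r, r = 3 * t - 0 := ⟨_, rfl⟩
  obtain ⟨s, hs⟩ : ∃ s, s = 1 - 3 * t := ⟨_, rfl⟩
  have hr0 : 0 ≤ r := by rw [hr]; linarith
  have hs0 : 0 ≤ s := by rw [hs]; linarith
  have e : (177147 : ℝ) * cL1eb3 t = 831309772896 * s ^ 11 + 8268071213088 * r ^ 1 * s ^ 10 + 36867757742352 * r ^ 2 * s ^ 9 + 97654527087120 * r ^ 3 * s ^ 8 + 172368722491164 * r ^ 4 * s ^ 7 + 217011632923620 * r ^ 5 * s ^ 6 + 205161058196244 * r ^ 6 * s ^ 5 + 151087016025180 * r ^ 7 * s ^ 4 + 86824924766208 * r ^ 8 * s ^ 3 + 36702509510448 * r ^ 9 * s ^ 2 + 9924371686416 * r ^ 10 * s ^ 1 + 1254389515792 * r ^ 11 := by rw [hr, hs]; unfold cL1eb3; ring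
  have e2 : 0 ≤ (177147 : ℝ) * cL1eb3 t := by rw [e]; positivity
  exact (mul_nonneg_iff_of_pos_left (by norm_num)).mp e2

theorem cL1eb3_nn1 {t : ℝ} (h0 : (1 : ℝ) ≤ 3 * t) (h1 : 3 * t ≤ 2) : 0 ≤ cL1eb3 t := by
  obtain ⟨r, hr⟩ : ∃ r, r = 3 * t - 1 := ⟨_, rfl⟩
  obtain ⟨s, hs⟩ : ∃ s, s = 2 - 3 * t := ⟨_, rfl⟩
  have hr0 : 0 ≤ r := by rw [hr]; linarith
  have hs0 : 0 ≤ s := by rw [hs]; linarith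
  have e : (177147 : ℝ) * cL1eb3 t = 1254389515792 * s ^ 11 + 17672197661008 * r ^ 1 * s ^ 10 + 114180769256368 * r ^ 2 * s ^ 9 + 443227503712416 * r ^ 3 * s ^ 8 + 1142829413692764 * r ^ 4 * s ^ 7 + 2048757718473204 * r ^ 5 * s ^ 6 + 2600737082165028 * r ^ 6 * s ^ 5 + 2334908891617212 * r ^ 7 * s ^ 4 + 1451619717632400 * r ^ 8 * s ^ 3 + 594707080994480 * r ^ 9 * s ^ 2 + 144362307969632 * r ^ 10 * s ^ 1 + 15710289393632 * r ^ 11 := by rw [hr, hs]; unfold cL1eb3; ring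
  have e2 : 0 ≤ (177147 : ℝ) * cL1eb3 t := by rw [e]; positivity
  exact (mul_nonneg_iff_of_pos_left (by norm_num)).mp e2

theorem cL1eb3_nn2 {t : ℝ} (h0 : (2 : ℝ) ≤ 3 * t) (h1 : 3 * t ≤ 3) : 0 ≤ cL1eb3 t := by
  obtain ⟨r, hr⟩ : ∃ r, r = 3 * t - 2 := ⟨_, rfl⟩
  obtain ⟨s, hs⟩ : ∃ s, s = 3 - 3 * t := ⟨_, rfl⟩
  have hr0 : 0 ≤ r := by rw [hr]; linarith
  have hs0 : 0 ≤ s := by rw [hs]; linarith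
  have e : (177147 : ℝ) * cL1eb3 t = 15710289393632 * s ^ 11 + 201264058690272 * r ^ 1 * s ^ 10 + 1163724588200880 * r ^ 2 * s ^ 9 + 4005474305328720 * r ^ 3 * s ^ 8 + 9109325420234172 * r ^ 4 * s ^ 7 + 14353301071429668 * r ^ 5 * s ^ 6 + 15960286737693684 * r ^ 6 * s ^ 5 + 12493084190573916 * r ^ 7 * s ^ 4 + 6722254094864544 * r ^ 8 * s ^ 3 + 2355427989227376 * r ^ 9 * s ^ 2 + 479625754757328 * r ^ 10 * s ^ 1 + 42375271514256 * r ^ 11 := by rw [hr, hs]; unfold cL1eb3; ring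
  have e2 : 0 ≤ (177147 : ℝ) * cL1eb3 t := by rw [e]; positivity
  exact (mul_nonneg_iff_of_pos_left (by norm_num)).mp e2

theorem cL1eb3_nn {t : ℝ} (h0 : 0 ≤ t) (h1 : t ≤ 1) : 0 ≤ cL1eb3 t := by
  rcases le_total (3 * t) 1 with h0 | h0
  · exact cL1eb3_nn0 (by linarith) h0
  rcases le_total (3 * t) 2 with h1 | h1
  · exact cL1eb3_nn1 h0 h1
  exact cL1eb3_nn2 h1 (by linarith)

def cL1eb4 (t : ℝ) : ℝ := 2232208 - 8394752 * t - 4477440 * t ^ 2 + 59603984 * t ^ 3 + 139328409 * t ^ 4 + 65108848 * t ^ 5 + 69908274 * t ^ 6 - 52762000 * t ^ 7 - 88501351 * t ^ 8 - 49302768 * t ^ 9 - 15800832 * t ^ 10 + 569344 * t ^ 11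

theorem cL1eb4_nn0 {t : ℝ} (h0 : (0 : ℝ) ≤ 3 * t) (h1 : 3 * t ≤ 1) : 0 ≤ cL1eb4 t := by
  obtain ⟨r, hr⟩ : ∃ r, r = 3 * t - 0 := ⟨_, rfl⟩
  obtain ⟨s, hs⟩ : ∃ s, s = 1 - 3 * t := ⟨_, rfl⟩
  have hr0 : 0 ≤ r := by rw [hr]; linarith
  have hs0 : 0 ≤ s := by rw [hs]; linarith
  have e : (177147 : ℝ) * cL1eb4 t = 395428950576 * s ^ 11 + 3854016745488 * r ^ 1 * s ^ 10 + 16703445721680 * r ^ 2 * s ^ 9 + 42537096532224 * r ^ 3 * s ^ 8 + 71267893276275 * r ^ 4 * s ^ 7 + 84318113616597 * r ^ 5 * s ^ 6 + 75267200178117 * r ^ 6 * s ^ 5 + 54121728402855 * r ^ 7 * s ^ 4 + 32022727753032 * r ^ 8 * s ^ 3 + 14466607263972 * r ^ 9 * s ^ 2 + 4205535114060 * r ^ 10 * s ^ 1 + 564669001948 * r ^ 11 := by rw [hr, hs]; unfold cL1eb4; ring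
  have e2 : 0 ≤ (177147 : ℝ) * cL1eb4 t := by rw [e]; positivity
  exact (mul_nonneg_iff_of_pos_left (by norm_num)).mp e2

theorem cL1eb4_nn1 {t : ℝ} (h0 : (1 : ℝ) ≤ 3 * t) (h1 : 3 * t ≤ 2) : 0 ≤ cL1eb4 t := by
  obtain ⟨r, hr⟩ : ∃ r, r = 3 * t - 1 := ⟨_, rfl⟩
  obtain ⟨s, hs⟩ : ∃ s, s = 2 - 3 * t := ⟨_, rfl⟩
  have hr0 : 0 ≤ r := by rw [hr]; linarith
  have hs0 : 0 ≤ s := by rw [hs]; linarith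
  have e : (177147 : ℝ) * cL1eb4 t = 564669001948 * s ^ 11 + 8217182928796 * r ^ 1 * s ^ 10 + 54583085411332 * r ^ 2 * s ^ 9 + 216742965039024 * r ^ 3 * s ^ 8 + 569088151154151 * r ^ 4 * s ^ 7 + 1034920112069085 * r ^ 5 * s ^ 6 + 1328532997946853 * r ^ 6 * s ^ 5 + 1203097299258459 * r ^ 7 * s ^ 4 + 752886180088032 * r ^ 8 * s ^ 3 + 309924947973416 * r ^ 9 * s ^ 2 + 75475558054784 * r ^ 10 * s ^ 1 + 8228134957664 * r ^ 11 := by rw [hr, hs]; unfold cL1eb4; ring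
  have e2 : 0 ≤ (177147 : ℝ) * cL1eb4 t := by rw [e]; positivity
  exact (mul_nonneg_iff_of_pos_left (by norm_num)).mp e2

theorem cL1eb4_nn2 {t : ℝ} (h0 : (2 : ℝ) ≤ 3 * t) (h1 : 3 * t ≤ 3) : 0 ≤ cL1eb4 t := by
  obtain ⟨r, hr⟩ : ∃ r, r = 3 * t - 2 := ⟨_, rfl⟩
  obtain ⟨s, hs⟩ : ∃ s, s = 3 - 3 * t := ⟨_, rfl⟩
  have hr0 : 0 ≤ r := by rw [hr]; linarith
  have hs0 : 0 ≤ s := by rw [hs]; linarith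
  have e : (177147 : ℝ) * cL1eb4 t = 8228134957664 * s ^ 11 + 105543411013824 * r ^ 1 * s ^ 10 + 610603477563816 * r ^ 2 * s ^ 9 + 2101300577688816 * r ^ 3 * s ^ 8 + 4774127769895131 * r ^ 4 * s ^ 7 + 7508014209977877 * r ^ 5 * s ^ 6 + 8322977983816701 * r ^ 6 * s ^ 5 + 6485165770741911 * r ^ 7 * s ^ 4 + 3466384629385968 * r ^ 8 * s ^ 3 + 1202810797543860 * r ^ 9 * s ^ 2 + 241329655578492 * r ^ 10 * s ^ 1 + 20816884800828 * r ^ 11 := by rw [hr, hs]; unfold cL1eb4; ring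
  have e2 : 0 ≤ (177147 : ℝ) * cL1eb4 t := by rw [e]; positivity
  exact (mul_nonneg_iff_of_pos_left (by norm_num)).mp e2

theorem cL1eb4_nn {t : ℝ} (h0 : 0 ≤ t) (h1 : t ≤ 1) : 0 ≤ cL1eb4 t := by
  rcases le_total (3 * t) 1 with h0 | h0
  · exact cL1eb4_nn0 (by linarith) h0
  rcases le_total (3 * t) 2 with h1 | h1
  · exact cL1eb4_nn1 h0 h1
  exact cL1eb4_nn2 h1 (by linarith)

def cL1eb5 (t : ℝ) : ℝ := 558528 - 2512896 * t - 1863872 * t ^ 2 + 16662080 * t ^ 3 + 42138958 * t ^ 4 + 17064128 * t ^ 5 + 21249244 * t ^ 6 - 16928960 * t ^ 7 - 26650930 * t ^ 8 - 14738240 * t ^ 9 - 4536320 * t ^ 10 + 79872 * t ^ 11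

theorem cL1eb5_nn0 {t : ℝ} (h0 : (0 : ℝ) ≤ 3 * t) (h1 : 3 * t ≤ 1) : 0 ≤ cL1eb5 t := by
  obtain ⟨r, hr⟩ : ∃ r, r = 3 * t - 0 := ⟨_, rfl⟩
  obtain ⟨s, hs⟩ : ∃ s, s = 1 - 3 * t := ⟨_, rfl⟩
  have hr0 : 0 ≤ r := by rw [hr]; linarith
  have hs0 : 0 ≤ s := by rw [hs]; linarith
  have e : (177147 : ℝ) * cL1eb5 t = 98941559616 * s ^ 11 + 939973159872 * r ^ 1 * s ^ 10 + 3921259227264 * r ^ 2 * s ^ 9 + 9427218094656 * r ^ 3 * s ^ 8 + 14490634988250 * r ^ 4 * s ^ 7 + 15187190076342 * r ^ 5 * s ^ 6 + 11832755681718 * r ^ 6 * s ^ 5 + 7956527715954 * r ^ 7 * s ^ 4 + 5079271468176 * r ^ 8 * s ^ 3 + 2667775005720 * r ^ 9 * s ^ 2 + 886536148296 * r ^ 10 * s ^ 1 + 130715100648 * r ^ 11 := by rw [hr, hs]; unfold cL1eb5; ring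
  have e2 : 0 ≤ (177147 : ℝ) * cL1eb5 t := by rw [e]; positivity
  exact (mul_nonneg_iff_of_pos_left (by norm_num)).mp e2

theorem cL1eb5_nn1 {t : ℝ} (h0 : (1 : ℝ) ≤ 3 * t) (h1 : 3 * t ≤ 2) : 0 ≤ cL1eb5 t := by
  obtain ⟨r, hr⟩ : ∃ r, r = 3 * t - 1 := ⟨_, rfl⟩
  obtain ⟨s, hs⟩ : ∃ s, s = 2 - 3 * t := ⟨_, rfl⟩
  have hr0 : 0 ≤ r := by rw [hr]; linarith
  have hs0 : 0 ≤ s := by rw [hs]; linarith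
  have e : (177147 : ℝ) * cL1eb5 t = 130715100648 * s ^ 11 + 1989196065960 * r ^ 1 * s ^ 10 + 13694374182360 * r ^ 2 * s ^ 9 + 55908104796864 * r ^ 3 * s ^ 8 + 149948814106098 * r ^ 4 * s ^ 7 + 277155621455238 * r ^ 5 * s ^ 6 + 360219839925654 * r ^ 6 * s ^ 5 + 329288482318410 * r ^ 7 * s ^ 4 + 207518926425984 * r ^ 8 * s ^ 3 + 85860838502928 * r ^ 9 * s ^ 2 + 20981209917792 * r ^ 10 * s ^ 1 + 2291636599008 * r ^ 11 := by rw [hr, hs]; unfold cL1eb5; ring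
  have e2 : 0 ≤ (177147 : ℝ) * cL1eb5 t := by rw [e]; positivity
  exact (mul_nonneg_iff_of_pos_left (by norm_num)).mp e2

theorem cL1eb5_nn2 {t : ℝ} (h0 : (2 : ℝ) ≤ 3 * t) (h1 : 3 * t ≤ 3) : 0 ≤ cL1eb5 t := by
  obtain ⟨r, hr⟩ : ∃ r, r = 3 * t - 2 := ⟨_, rfl⟩
  obtain ⟨s, hs⟩ : ∃ s, s = 3 - 3 * t := ⟨_, rfl⟩
  have hr0 : 0 ≤ r := by rw [hr]; linarith
  have hs0 : 0 ≤ s := by rw [hs]; linarith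
  have e : (177147 : ℝ) * cL1eb5 t = 2291636599008 * s ^ 11 + 29434795260384 * r ^ 1 * s ^ 10 + 170396691928848 * r ^ 2 * s ^ 9 + 586318692114720 * r ^ 3 * s ^ 8 + 1330826125606218 * r ^ 4 * s ^ 7 + 2088872782742646 * r ^ 5 * s ^ 6 + 2308355622549702 * r ^ 6 * s ^ 5 + 1790163947738898 * r ^ 7 * s ^ 4 + 950215401552960 * r ^ 8 * s ^ 3 + 326307009516408 * r ^ 9 * s ^ 2 + 64418557514472 * r ^ 10 * s ^ 1 + 5406808458024 * r ^ 11 := by rw [hr, hs]; unfold cL1eb5; ring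
  have e2 : 0 ≤ (177147 : ℝ) * cL1eb5 t := by rw [e]; positivity
  exact (mul_nonneg_iff_of_pos_left (by norm_num)).mp e2

theorem cL1eb5_nn {t : ℝ} (h0 : 0 ≤ t) (h1 : t ≤ 1) : 0 ≤ cL1eb5 t := by
  rcases le_total (3 * t) 1 with h0 | h0
  · exact cL1eb5_nn0 (by linarith) h0
  rcases le_total (3 * t) 2 with h1 | h1
  · exact cL1eb5_nn1 h0 h1
  exact cL1eb5_nn2 h1 (by linarith)

def cL1eb6 (t : ℝ) : ℝ := 57280 - 311296 * t - 292352 * t ^ 2 + 1928896 * t ^ 3 + 5292999 * t ^ 4 + 1839616 * t ^ 5 + 2670990 * t ^ 6 - 2216960 * t ^ 7 - 3340345 * t ^ 8 - 1816384 * t ^ 9 - 541696 * t ^ 10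

theorem cL1eb6_nn0 {t : ℝ} (h0 : (0 : ℝ) ≤ 3 * t) (h1 : 3 * t ≤ 1) : 0 ≤ cL1eb6 t := by
  obtain ⟨r, hr⟩ : ∃ r, r = 3 * t - 0 := ⟨_, rfl⟩
  obtain ⟨s, hs⟩ : ∃ s, s = 1 - 3 * t := ⟨_, rfl⟩
  have hr0 : 0 ≤ r := by rw [hr]; linarith
  have hs0 : 0 ≤ s := by rw [hs]; linarith
  have e : (177147 : ℝ) * cL1eb6 t = 10146980160 * s ^ 11 + 93235064256 * r ^ 1 * s ^ 10 + 368512369344 * r ^ 2 * s ^ 9 + 807940645632 * r ^ 3 * s ^ 8 + 1048359915405 * r ^ 4 * s ^ 7 + 781102775259 * r ^ 5 * s ^ 6 + 291156455259 * r ^ 6 * s ^ 5 + 77511414969 * r ^ 7 * s ^ 4 + 131442498792 * r ^ 8 * s ^ 3 + 146437042284 * r ^ 9 * s ^ 2 + 68553292164 * r ^ 10 * s ^ 1 + 11944568724 * r ^ 11 := by rw [hr, hs]; unfold cL1eb6; ring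
  have e2 : 0 ≤ (177147 : ℝ) * cL1eb6 t := by rw [e]; positivity
  exact (mul_nonneg_iff_of_pos_left (by norm_num)).mp e2

theorem cL1eb6_nn1 {t : ℝ} (h0 : (1 : ℝ) ≤ 3 * t) (h1 : 3 * t ≤ 2) : 0 ≤ cL1eb6 t := by
  obtain ⟨r, hr⟩ : ∃ r, r = 3 * t - 1 := ⟨_, rfl⟩
  obtain ⟨s, hs⟩ : ∃ s, s = 2 - 3 * t := ⟨_, rfl⟩
  have hr0 : 0 ≤ r := by rw [hr]; linarith
  have hs0 : 0 ≤ s := by rw [hs]; linarith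
  have e : (177147 : ℝ) * cL1eb6 t = 11944568724 * s ^ 11 + 194227219764 * r ^ 1 * s ^ 10 + 1403176318284 * r ^ 2 * s ^ 9 + 5931662388480 * r ^ 3 * s ^ 8 + 16317527908473 * r ^ 4 * s ^ 7 + 30727578249027 * r ^ 5 * s ^ 6 + 40492281976011 * r ^ 6 * s ^ 5 + 37397368772613 * r ^ 7 * s ^ 4 + 23747128620192 * r ^ 8 * s ^ 3 + 9878899700424 * r ^ 9 * s ^ 2 + 2422845445392 * r ^ 10 * s ^ 1 + 265168506768 * r ^ 11 := by rw [hr, hs]; unfold cL1eb6; ring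
  have e2 : 0 ≤ (177147 : ℝ) * cL1eb6 t := by rw [e]; positivity
  exact (mul_nonneg_iff_of_pos_left (by norm_num)).mp e2

theorem cL1eb6_nn2 {t : ℝ} (h0 : (2 : ℝ) ≤ 3 * t) (h1 : 3 * t ≤ 3) : 0 ≤ cL1eb6 t := by
  obtain ⟨r, hr⟩ : ∃ r, r = 3 * t - 2 := ⟨_, rfl⟩
  obtain ⟨s, hs⟩ : ∃ s, s = 3 - 3 * t := ⟨_, rfl⟩
  have hr0 : 0 ≤ r := by rw [hr]; linarith
  have hs0 : 0 ≤ s := by rw [hs]; linarith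
  have e : (177147 : ℝ) * cL1eb6 t = 265168506768 * s ^ 11 + 3410861703504 * r ^ 1 * s ^ 10 + 19759062281544 * r ^ 2 * s ^ 9 + 67983314750640 * r ^ 3 * s ^ 8 + 154162955869317 * r ^ 4 * s ^ 7 + 241503581604987 * r ^ 5 * s ^ 6 + 266024082120291 * r ^ 6 * s ^ 5 + 205299069659145 * r ^ 7 * s ^ 4 + 108177952337856 * r ^ 8 * s ^ 3 + 36737480925468 * r ^ 9 * s ^ 2 + 7124490723924 * r ^ 10 * s ^ 1 + 579403195956 * r ^ 11 := by rw [hr, hs]; unfold cL1eb6; ring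
  have e2 : 0 ≤ (177147 : ℝ) * cL1eb6 t := by rw [e]; positivity
  exact (mul_nonneg_iff_of_pos_left (by norm_num)).mp e2

theorem cL1eb6_nn {t : ℝ} (h0 : 0 ≤ t) (h1 : t ≤ 1) : 0 ≤ cL1eb6 t := by
  rcases le_total (3 * t) 1 with h0 | h0
  · exact cL1eb6_nn0 (by linarith) h0
  rcases le_total (3 * t) 2 with h1 | h1
  · exact cL1eb6_nn1 h0 h1
  exact cL1eb6_nn2 h1 (by linarith)

theorem pL1e_posb {d t : ℝ} (hd : 1 / 3 ≤ d) (hd3 : d ≤ 1 / 2) (h0 : 0 ≤ t) (h1 : t ≤ 1) : 0 < pL1e d t := by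
  obtain ⟨u, hu⟩ : ∃ u, u = 3 * d - 1 := ⟨_, rfl⟩
  obtain ⟨v, hv⟩ : ∃ v, v = 1 - 2 * d := ⟨_, rfl⟩
  have hu0 : 0 ≤ u := by rw [hu]; linarith
  have hv0 : 0 ≤ v := by rw [hv]; linarith
  have key : (1 : ℝ) * pL1e d t = 1 + (v ^ 6 * cL1eb0 t + (u ^ 1 * v ^ 5 * cL1eb1 t + (u ^ 2 * v ^ 4 * cL1eb2 t + (u ^ 3 * v ^ 3 * cL1eb3 t + (u ^ 4 * v ^ 2 * cL1eb4 t + (u ^ 5 * v ^ 1 * cL1eb5 t + (u ^ 6 * cL1eb6 t))))))) := by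
    rw [hu, hv]; unfold pL1e cL1eb0 cL1eb1 cL1eb2 cL1eb3 cL1eb4 cL1eb5 cL1eb6; ring
  have h3 : 0 < (1 : ℝ) * pL1e d t := by
    rw [key]; exact add_pos_of_pos_of_nonneg one_pos (add_nonneg (mul_nonneg (by positivity) (cL1eb0_nn h0 h1)) (add_nonneg (mul_nonneg (by positivity) (cL1eb1_nn h0 h1)) (add_nonneg (mul_nonneg (by positivity) (cL1eb2_nn h0 h1)) (add_nonneg (mul_nonneg (by positivity) (cL1eb3_nn h0 h1)) (add_nonneg (mul_nonneg (by positivity) (cL1eb4_nn h0 h1)) (add_nonneg (mul_nonneg (by positivity) (cL1eb5_nn h0 h1)) (mul_nonneg (by positivity) (cL1eb6_nn h0 h1))))))))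
  exact (mul_pos_iff_of_pos_left (by norm_num)).mp h3

theorem pL1e_pos {d t : ℝ} (hd : 0 ≤ d) (hd3 : d ≤ 1 / 2) (h0 : 0 ≤ t) (h1 : t ≤ 1) : 0 < pL1e d t := by
  rcases le_total d (1 / 3) with h | h
  · exact pL1e_posa hd h h0 h1
  · exact pL1e_posb h hd3 h0 h1


end Vale.Agent.Lib.P100.AB.V6
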