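import Mathlib

/-!
# P100: the uniform strip in every real dimension `m > 4` (helper13). Generated.
Polynomial inequalities on `0 <= d <= 1/2`, `0 <= t <= 1`, exact Bernstein coefficients.
-/

set_option maxHeartbeats 4000000

noncomputable section

namespace Vale.Agent.Lib.P100.AB.V6

def pL20 (d t : ℝ) : ℝ := 128 + 128 * t + 640 * t ^ 2 + 640 * t ^ 3 + 1280 * t ^ 4 + 1280 * t ^ 5 + 1280 * t ^ 6 + 1280 * t ^ 7 + 640 * t ^ 8 + 640 * t ^ 9 + 128 * t ^ 10 + 128 * t ^ 11 + 256 * d + 192 * d * t + 1864 * d * t ^ 2 + 1696 * d * t ^ 3 + 4312 * d * t ^ 4 + 4032 * d * t ^ 5 + 4312 * d * t ^ 6 + 3840 * d * t ^ 7 + 1864 * d * t ^ 8 + 1408 * d * t ^ 9 + 256 * d * t ^ 10 + 96 * d * t ^ 11 - 704 * d ^ 2 - 704 * d ^ 2 * t - 1632 * d ^ 2 * t ^ 2 - 112 * d ^ 2 * t ^ 3 + 1152 * d ^ 2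 * t ^ 4 + 4272 * d ^ 2 * t ^ 5 + 4384 * d ^ 2 * t ^ 6 + 4400 * d ^ 2 * t ^ 7 + 2304 * d ^ 2 * t ^ 8 + 80 * d ^ 2 * t ^ 9 - 640 * d ^ 2 * t ^ 11 + 1280 * d ^ 3 + 1280 * d ^ 3 * t + 388 * d ^ 3 * t ^ 2 + 640 * d ^ 3 * t ^ 3 - 4380 * d ^ 3 * t ^ 4 + 288 * d ^ 3 * t ^ 5 - 3780 * d ^ 3 * t ^ 6 - 1088 * d ^ 3 * t ^ 7 - 292 * d ^ 3 * t ^ 8 - 2016 * d ^ 3 * t ^ 9 + 5304 * d ^ 4 * t ^ 2 + 1216 * d ^ 4 * t ^ 3 + 3256 * d ^ 4 * t ^ 4 + 2944 * d ^ 4 * t ^ 5 - 7352 * d ^ 4 * t ^ 6 + 1728 * d ^ 4 * t ^ 7 - 5304 * d ^ 4 * t ^ 8 - 3680 * d ^ 5 * t ^ 2 + 4591 * d ^ 5 * t ^ 3 - 2208 * d ^ 5 * t ^ 4 - 2082 * d ^ 5 * t ^ 5 + 5152 * d ^ 5 * t ^ 6 - 5649 * d ^ 5 * t ^ 7 + 3680 * d ^ 5 * t ^ 8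

def cL20a0 (t : ℝ) : ℝ := 127 + 128 * t + 640 * t ^ 2 + 640 * t ^ 3 + 1280 * t ^ 4 + 1280 * t ^ 5 + 1280 * t ^ 6 + 1280 * t ^ 7 + 640 * t ^ 8 + 640 * t ^ 9 + 128 * t ^ 10 + 128 * t ^ 11

theorem cL20a0_nn0 {t : ℝ} (h0 : (0 : ℝ) ≤ 1 * t) (h1 : 1 * t ≤ 1) : 0 ≤ cL20a0 t := by
  obtain ⟨r, hr⟩ : ∃ r, r = 1 * t - 0 := ⟨_, rfl⟩
  obtain ⟨s, hs⟩ : ∃ s, s = 1 - 1 * t := ⟨_, rfl⟩
  have hr0 : 0 ≤ r := by rw [hr]; linarith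
  have hs0 : 0 ≤ s := by rw [hs]; linarith
  have e : (1 : ℝ) * cL20a0 t = 127 * s ^ 11 + 1525 * r ^ 1 * s ^ 10 + 8905 * r ^ 2 * s ^ 9 + 33115 * r ^ 3 * s ^ 8 + 86710 * r ^ 4 * s ^ 7 + 167474 * r ^ 5 * s ^ 6 + 243250 * r ^ 6 * s ^ 5 + 265910 * r ^ 7 * s ^ 4 + 214875 * r ^ 8 * s ^ 3 + 122825 * r ^ 9 * s ^ 2 + 45045 * r ^ 10 * s ^ 1 + 8191 * r ^ 11 := by rw [hr, hs]; unfold cL20a0; ring
  have e2 : 0 ≤ (1 : ℝ) * cL20a0 t := by rw [e]; positivity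
  exact (mul_nonneg_iff_of_pos_left (by norm_num)).mp e2

theorem cL20a0_nn {t : ℝ} (h0 : 0 ≤ t) (h1 : t ≤ 1) : 0 ≤ cL20a0 t := by
  exact cL20a0_nn0 (by linarith) (by linarith)

def cL20a1 (t : ℝ) : ℝ := 2161 + 2112 * t + 11464 * t ^ 2 + 11296 * t ^ 3 + 23512 * t ^ 4 + 23232 * t ^ 5 + 23512 * t ^ 6 + 23040 * t ^ 7 + 11464 * t ^ 8 + 11008 * t ^ 9 + 2176 * t ^ 10 + 2016 * t ^ 11

theorem cL20a1_nn0 {t : ℝ} (h0 : (0 : ℝ) ≤ 1 * t) (h1 : 1 * t ≤ 1) : 0 ≤ cL20a1 t := by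
  obtain ⟨r, hr⟩ : ∃ r, r = 1 * t - 0 := ⟨_, rfl⟩
  obtain ⟨s, hs⟩ : ∃ s, s = 1 - 1 * t := ⟨_, rfl⟩
  have hr0 : 0 ≤ r := by rw [hr]; linarith
  have hs0 : 0 ≤ s := by rw [hs]; linarith
  have e : (1 : ℝ) * cL20a1 t = 2161 * s ^ 11 + 25883 * r ^ 1 * s ^ 10 + 151439 * r ^ 2 * s ^ 9 + 566077 * r ^ 3 * s ^ 8 + 1493154 * r ^ 4 * s ^ 7 + 2908982 * r ^ 5 * s ^ 6 + 4264302 * r ^ 6 * s ^ 5 + 4703834 * r ^ 7 * s ^ 4 + 3831861 * r ^ 8 * s ^ 3 + 2203879 * r ^ 9 * s ^ 2 + 810715 * r ^ 10 * s ^ 1 + 146993 * r ^ 11 := by rw [hr, hs]; unfold cL20a1; ring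
  have e2 : 0 ≤ (1 : ℝ) * cL20a1 t := by rw [e]; positivity
  exact (mul_nonneg_iff_of_pos_left (by norm_num)).mp e2

theorem cL20a1_nn {t : ℝ} (h0 : 0 ≤ t) (h1 : t ≤ 1) : 0 ≤ cL20a1 t := by
  exact cL20a1_nn0 (by linarith) (by linarith)

def cL20a2 (t : ℝ) : ℝ := 13798 + 13120 * t + 78336 * t ^ 2 + 77840 * t ^ 3 + 168096 * t ^ 4 + 167856 * t ^ 5 + 171328 * t ^ 6 + 165680 * t ^ 7 + 82272 * t ^ 8 + 74576 * t ^ 9 + 14592 * t ^ 10 + 12032 * t ^ 11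

theorem cL20a2_nn0 {t : ℝ} (h0 : (0 : ℝ) ≤ 1 * t) (h1 : 1 * t ≤ 1) : 0 ≤ cL20a2 t := by
  obtain ⟨r, hr⟩ : ∃ r, r = 1 * t - 0 := ⟨_, rfl⟩
  obtain ⟨s, hs⟩ : ∃ s, s = 1 - 1 * t := ⟨_, rfl⟩
  have hr0 : 0 ≤ r := by rw [hr]; linarith
  have hs0 : 0 ≤ s := by rw [hs]; linarith
  have e : (1 : ℝ) * cL20a2 t = 13798 * s ^ 11 + 164898 * r ^ 1 * s ^ 10 + 968426 * r ^ 2 * s ^ 9 + 3649934 * r ^ 3 * s ^ 8 + 9738652 * r ^ 4 * s ^ 7 + 19234148 * r ^ 5 * s ^ 6 + 28618772 * r ^ 6 * s ^ 5 + 32051196 * r ^ 7 * s ^ 4 + 26489086 * r ^ 8 * s ^ 3 + 15425514 * r ^ 9 * s ^ 2 + 5724450 * r ^ 10 * s ^ 1 + 1039526 * r ^ 11 := by rw [hr, hs]; unfold cL20a2; ring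
  have e2 : 0 ≤ (1 : ℝ) * cL20a2 t := by rw [e]; positivity
  exact (mul_nonneg_iff_of_pos_left (by norm_num)).mp e2

theorem cL20a2_nn {t : ℝ} (h0 : 0 ≤ t) (h1 : t ≤ 1) : 0 ≤ cL20a2 t := by
  exact cL20a2_nn0 (by linarith) (by linarith)

def cL20a3 (t : ℝ) : ℝ := 43058 + 39872 * t + 259156 * t ^ 2 + 264016 * t ^ 3 + 584436 * t ^ 4 + 602064 * t ^ 5 + 614124 * t ^ 6 + 591472 * t ^ 7 + 293900 * t ^ 8 + 247536 * t ^ 9 + 48384 * t ^ 10 + 33984 * t ^ 11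

theorem cL20a3_nn0 {t : ℝ} (h0 : (0 : ℝ) ≤ 1 * t) (h1 : 1 * t ≤ 1) : 0 ≤ cL20a3 t := by
  obtain ⟨r, hr⟩ : ∃ r, r = 1 * t - 0 := ⟨_, rfl⟩
  obtain ⟨s, hs⟩ : ∃ s, s = 1 - 1 * t := ⟨_, rfl⟩
  have hr0 : 0 ≤ r := by rw [hr]; linarith
  have hs0 : 0 ≤ s := by rw [hs]; linarith
  have e : (1 : ℝ) * cL20a3 t = 43058 * s ^ 11 + 513510 * r ^ 1 * s ^ 10 + 3026066 * r ^ 2 * s ^ 9 + 11495230 * r ^ 3 * s ^ 8 + 31019960 * r ^ 4 * s ^ 7 + 62120584 * r ^ 5 * s ^ 6 + 93878756 * r ^ 6 * s ^ 5 + 106865348 * r ^ 7 * s ^ 4 + 89740778 * r ^ 8 * s ^ 3 + 53007918 * r ^ 9 * s ^ 2 + 19881990 * r ^ 10 * s ^ 1 + 3622002 * r ^ 11 := by rw [hr, hs]; unfold cL20a3; ring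
  have e2 : 0 ≤ (1 : ℝ) * cL20a3 t := by rw [e]; positivity
  exact (mul_nonneg_iff_of_pos_left (by norm_num)).mp e2

theorem cL20a3_nn {t : ℝ} (h0 : 0 ≤ t) (h1 : t ≤ 1) : 0 ≤ cL20a3 t := by
  exact cL20a3_nn0 (by linarith) (by linarith)

def cL20a4 (t : ℝ) : ℝ := 67755 + 61248 * t + 424080 * t ^ 2 + 444400 * t ^ 3 + 992176 * t ^ 4 + 1073872 * t ^ 5 + 1072432 * t ^ 6 + 1047120 * t ^ 7 + 515664 * t ^ 8 + 401328 * t ^ 9 + 79488 * t ^ 10 + 44928 * t ^ 11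

theorem cL20a4_nn0 {t : ℝ} (h0 : (0 : ℝ) ≤ 1 * t) (h1 : 1 * t ≤ 1) : 0 ≤ cL20a4 t := by
  obtain ⟨r, hr⟩ : ∃ r, r = 1 * t - 0 := ⟨_, rfl⟩
  obtain ⟨s, hs⟩ : ∃ s, s = 1 - 1 * t := ⟨_, rfl⟩
  have hr0 : 0 ≤ r := by rw [hr]; linarith
  have hs0 : 0 ≤ s := by rw [hs]; linarith
  have e : (1 : ℝ) * cL20a4 t = 67755 * s ^ 11 + 806553 * r ^ 1 * s ^ 10 + 4763085 * r ^ 2 * s ^ 9 + 18196855 * r ^ 3 * s ^ 8 + 49523166 * r ^ 4 * s ^ 7 + 100249914 * r ^ 5 * s ^ 6 + 153409146 * r ^ 6 * s ^ 5 + 177006830 * r ^ 7 * s ^ 4 + 150670519 * r ^ 8 * s ^ 3 + 90091901 * r ^ 9 * s ^ 2 + 34097945 * r ^ 10 * s ^ 1 + 6224491 * r ^ 11 := by rw [hr, hs]; unfold cL20a4; ring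
  have e2 : 0 ≤ (1 : ℝ) * cL20a4 t := by rw [e]; positivity
  exact (mul_nonneg_iff_of_pos_left (by norm_num)).mp e2

theorem cL20a4_nn {t : ℝ} (h0 : 0 ≤ t) (h1 : t ≤ 1) : 0 ≤ cL20a4 t := by
  exact cL20a4_nn0 (by linarith) (by linarith)

def cL20a5 (t : ℝ) : ℝ := 44109 + 39168 * t + 278164 * t ^ 2 + 303871 * t ^ 3 + 659556 * t ^ 4 + 762318 * t ^ 5 + 727756 * t ^ 6 + 730623 * t ^ 7 + 353852 * t ^ 8 + 253584 * t ^ 9 + 51840 * t ^ 10 + 21600 * t ^ 11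

theorem cL20a5_nn0 {t : ℝ} (h0 : (0 : ℝ) ≤ 1 * t) (h1 : 1 * t ≤ 1) : 0 ≤ cL20a5 t := by
  obtain ⟨r, hr⟩ : ∃ r, r = 1 * t - 0 := ⟨_, rfl⟩
  obtain ⟨s, hs⟩ : ∃ s, s = 1 - 1 * t := ⟨_, rfl⟩
  have hr0 : 0 ≤ r := by rw [hr]; linarith
  have hs0 : 0 ≤ s := by rw [hs]; linarith
  have e : (1 : ℝ) * cL20a5 t = 44109 * s ^ 11 + 524367 * r ^ 1 * s ^ 10 + 3095839 * r ^ 2 * s ^ 9 + 11847892 * r ^ 3 * s ^ 8 + 32360558 * r ^ 4 * s ^ 7 + 65857012 * r ^ 5 * s ^ 6 + 101466474 * r ^ 6 * s ^ 5 + 117989517 * r ^ 7 * s ^ 4 + 101245421 * r ^ 8 * s ^ 3 + 60972731 * r ^ 9 * s ^ 2 + 23183959 * r ^ 10 * s ^ 1 + 4226441 * r ^ 11 := by rw [hr, hs]; unfold cL20a5; ring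
  have e2 : 0 ≤ (1 : ℝ) * cL20a5 t := by rw [e]; positivity
  exact (mul_nonneg_iff_of_pos_left (by norm_num)).mp e2

theorem cL20a5_nn {t : ℝ} (h0 : 0 ≤ t) (h1 : t ≤ 1) : 0 ≤ cL20a5 t := by
  exact cL20a5_nn0 (by linarith) (by linarith)

theorem pL20_posa {d t : ℝ} (hd : 0 ≤ d) (hd3 : d ≤ 1 / 3) (h0 : 0 ≤ t) (h1 : t ≤ 1) : 0 < pL20 d t := by
  obtain ⟨u, hu⟩ : ∃ u, u = d := ⟨_, rfl⟩
  obtain ⟨v, hv⟩ : ∃ v, v = 1 - 3 * d := ⟨_, rfl⟩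
  have hu0 : 0 ≤ u := by rw [hu]; linarith
  have hv0 : 0 ≤ v := by rw [hv]; linarith
  have key : (1 : ℝ) * pL20 d t = 1 + (v ^ 5 * cL20a0 t + (u ^ 1 * v ^ 4 * cL20a1 t + (u ^ 2 * v ^ 3 * cL20a2 t + (u ^ 3 * v ^ 2 * cL20a3 t + (u ^ 4 * v ^ 1 * cL20a4 t + (u ^ 5 * cL20a5 t)))))) := by
    rw [hu, hv]; unfold pL20 cL20a0 cL20a1 cL20a2 cL20a3 cL20a4 cL20a5; ring
  have h3 : 0 < (1 : ℝ) * pL20 d t := by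
    rw [key]; exact add_pos_of_pos_of_nonneg one_pos (add_nonneg (mul_nonneg (by positivity) (cL20a0_nn h0 h1)) (add_nonneg (mul_nonneg (by positivity) (cL20a1_nn h0 h1)) (add_nonneg (mul_nonneg (by positivity) (cL20a2_nn h0 h1)) (add_nonneg (mul_nonneg (by positivity) (cL20a3_nn h0 h1)) (add_nonneg (mul_nonneg (by positivity) (cL20a4_nn h0 h1)) (mul_nonneg (by positivity) (cL20a5_nn h0 h1)))))))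
  exact (mul_pos_iff_of_pos_left (by norm_num)).mp h3

def cL20b0 (t : ℝ) : ℝ := 44109 + 39168 * t + 278164 * t ^ 2 + 303871 * t ^ 3 + 659556 * t ^ 4 + 762318 * t ^ 5 + 727756 * t ^ 6 + 730623 * t ^ 7 + 353852 * t ^ 8 + 253584 * t ^ 9 + 51840 * t ^ 10 + 21600 * t ^ 11

theorem cL20b0_nn0 {t : ℝ} (h0 : (0 : ℝ) ≤ 1 * t) (h1 : 1 * t ≤ 1) : 0 ≤ cL20b0 t := by
  obtain ⟨r, hr⟩ : ∃ r, r = 1 * t - 0 := ⟨_, rfl⟩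
  obtain ⟨s, hs⟩ : ∃ s, s = 1 - 1 * t := ⟨_, rfl⟩
  have hr0 : 0 ≤ r := by rw [hr]; linarith
  have hs0 : 0 ≤ s := by rw [hs]; linarith
  have e : (1 : ℝ) * cL20b0 t = 44109 * s ^ 11 + 524367 * r ^ 1 * s ^ 10 + 3095839 * r ^ 2 * s ^ 9 + 11847892 * r ^ 3 * s ^ 8 + 32360558 * r ^ 4 * s ^ 7 + 65857012 * r ^ 5 * s ^ 6 + 101466474 * r ^ 6 * s ^ 5 + 117989517 * r ^ 7 * s ^ 4 + 101245421 * r ^ 8 * s ^ 3 + 60972731 * r ^ 9 * s ^ 2 + 23183959 * r ^ 10 * s ^ 1 + 4226441 * r ^ 11 := by rw [hr, hs]; unfold cL20b0; ring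
  have e2 : 0 ≤ (1 : ℝ) * cL20b0 t := by rw [e]; positivity
  exact (mul_nonneg_iff_of_pos_left (by norm_num)).mp e2

theorem cL20b0_nn {t : ℝ} (h0 : 0 ≤ t) (h1 : t ≤ 1) : 0 ≤ cL20b0 t := by
  exact cL20b0_nn0 (by linarith) (by linarith)

def cL20b1 (t : ℝ) : ℝ := 152790 + 134592 * t + 966740 * t ^ 2 + 1074955 * t ^ 3 + 2305604 * t ^ 4 + 2737718 * t ^ 5 + 2566348 * t ^ 6 + 2605995 * t ^ 7 + 1253596 * t ^ 8 + 866592 * t ^ 9 + 179712 * t ^ 10 + 63072 * t ^ 11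

theorem cL20b1_nn0 {t : ℝ} (h0 : (0 : ℝ) ≤ 1 * t) (h1 : 1 * t ≤ 1) : 0 ≤ cL20b1 t := by
  obtain ⟨r, hr⟩ : ∃ r, r = 1 * t - 0 := ⟨_, rfl⟩
  obtain ⟨s, hs⟩ : ∃ s, s = 1 - 1 * t := ⟨_, rfl⟩
  have hr0 : 0 ≤ r := by rw [hr]; linarith
  have hs0 : 0 ≤ s := by rw [hs]; linarith
  have e : (1 : ℝ) * cL20b1 t = 152790 * s ^ 11 + 1815282 * r ^ 1 * s ^ 10 + 10716110 * r ^ 2 * s ^ 9 + 41042605 * r ^ 3 * s ^ 8 + 112279624 * r ^ 4 * s ^ 7 + 229035146 * r ^ 5 * s ^ 6 + 353923224 * r ^ 6 * s ^ 5 + 412940755 * r ^ 7 * s ^ 4 + 355556586 * r ^ 8 * s ^ 3 + 214771754 * r ^ 9 * s ^ 2 + 81821850 * r ^ 10 * s ^ 1 + 14907714 * r ^ 11 := by rw [hr, hs]; unfold cL20b1; ring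
  have e2 : 0 ≤ (1 : ℝ) * cL20b1 t := by rw [e]; positivity
  exact (mul_nonneg_iff_of_pos_left (by norm_num)).mp e2

theorem cL20b1_nn {t : ℝ} (h0 : 0 ≤ t) (h1 : t ≤ 1) : 0 ≤ cL20b1 t := by
  exact cL20b1_nn0 (by linarith) (by linarith)

def cL20b2 (t : ℝ) : ℝ := 213128 + 186560 * t + 1344476 * t ^ 2 + 1525126 * t ^ 3 + 3211292 * t ^ 4 + 3929756 * t ^ 5 + 3601956 * t ^ 6 + 3709222 * t ^ 7 + 1769764 * t ^ 8 + 1178064 * t ^ 9 + 248832 * t ^ 10 + 70272 * t ^ 11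

theorem cL20b2_nn0 {t : ℝ} (h0 : (0 : ℝ) ≤ 1 * t) (h1 : 1 * t ≤ 1) : 0 ≤ cL20b2 t := by
  obtain ⟨r, hr⟩ : ∃ r, r = 1 * t - 0 := ⟨_, rfl⟩
  obtain ⟨s, hs⟩ : ∃ s, s = 1 - 1 * t := ⟨_, rfl⟩
  have hr0 : 0 ≤ r := by rw [hr]; linarith
  have hs0 : 0 ≤ s := by rw [hs]; linarith
  have e : (1 : ℝ) * cL20b2 t = 213128 * s ^ 11 + 2530968 * r ^ 1 * s ^ 10 + 14932116 * r ^ 2 * s ^ 9 + 57186730 * r ^ 3 * s ^ 8 + 156532876 * r ^ 4 * s ^ 7 + 319691048 * r ^ 5 * s ^ 6 + 494906912 * r ^ 6 * s ^ 5 + 578733198 * r ^ 7 * s ^ 4 + 499512912 * r ^ 8 * s ^ 3 + 302367624 * r ^ 9 * s ^ 2 + 115329800 * r ^ 10 * s ^ 1 + 20988448 * r ^ 11 := by rw [hr, hs]; unfold cL20b2; ring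
  have e2 : 0 ≤ (1 : ℝ) * cL20b2 t := by rw [e]; positivity
  exact (mul_nonneg_iff_of_pos_left (by norm_num)).mp e2

theorem cL20b2_nn {t : ℝ} (h0 : 0 ≤ t) (h1 : t ≤ 1) : 0 ≤ cL20b2 t := by
  exact cL20b2_nn0 (by linarith) (by linarith)

def cL20b3 (t : ℝ) : ℝ := 149936 + 130688 * t + 936292 * t ^ 2 + 1086518 * t ^ 3 + 2227716 * t ^ 4 + 2818284 * t ^ 5 + 2514012 * t ^ 6 + 2632246 * t ^ 7 + 1243964 * t ^ 8 + 795904 * t ^ 9 + 172032 * t ^ 10 + 36352 * t ^ 11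

theorem cL20b3_nn0 {t : ℝ} (h0 : (0 : ℝ) ≤ 1 * t) (h1 : 1 * t ≤ 1) : 0 ≤ cL20b3 t := by
  obtain ⟨r, hr⟩ : ∃ r, r = 1 * t - 0 := ⟨_, rfl⟩
  obtain ⟨s, hs⟩ : ∃ s, s = 1 - 1 * t := ⟨_, rfl⟩
  have hr0 : 0 ≤ r := by rw [hr]; linarith
  have hs0 : 0 ≤ s := by rw [hs]; linarith
  have e : (1 : ℝ) * cL20b3 t = 149936 * s ^ 11 + 1779984 * r ^ 1 * s ^ 10 + 10489652 * r ^ 2 * s ^ 9 + 40133546 * r ^ 3 * s ^ 8 + 109787812 * r ^ 4 * s ^ 7 + 224198240 * r ^ 5 * s ^ 6 + 347227360 * r ^ 6 * s ^ 5 + 406399038 * r ^ 7 * s ^ 4 + 351164344 * r ^ 8 * s ^ 3 + 212774144 * r ^ 9 * s ^ 2 + 81173440 * r ^ 10 * s ^ 1 + 14743944 * r ^ 11 := by rw [hr, hs]; unfold cL20b3; ring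
  have e2 : 0 ≤ (1 : ℝ) * cL20b3 t := by rw [e]; positivity
  exact (mul_nonneg_iff_of_pos_left (by norm_num)).mp e2

theorem cL20b3_nn {t : ℝ} (h0 : 0 ≤ t) (h1 : t ≤ 1) : 0 ≤ cL20b3 t := by
  exact cL20b3_nn0 (by linarith) (by linarith)

def cL20b4 (t : ℝ) : ℝ := 53264 + 46336 * t + 326760 * t ^ 2 + 389419 * t ^ 3 + 769704 * t ^ 4 + 1009814 * t ^ 5 + 872280 * t ^ 6 + 930731 * t ^ 7 + 435224 * t ^ 8 + 267072 * t ^ 9 + 59392 * t ^ 10 + 8192 * t ^ 11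

theorem cL20b4_nn0 {t : ℝ} (h0 : (0 : ℝ) ≤ 1 * t) (h1 : 1 * t ≤ 1) : 0 ≤ cL20b4 t := by
  obtain ⟨r, hr⟩ : ∃ r, r = 1 * t - 0 := ⟨_, rfl⟩
  obtain ⟨s, hs⟩ : ∃ s, s = 1 - 1 * t := ⟨_, rfl⟩
  have hr0 : 0 ≤ r := by rw [hr]; linarith
  have hs0 : 0 ≤ s := by rw [hs]; linarith
  have e : (1 : ℝ) * cL20b4 t = 53264 * s ^ 11 + 632240 * r ^ 1 * s ^ 10 + 3719640 * r ^ 2 * s ^ 9 + 14203939 * r ^ 3 * s ^ 8 + 38785856 * r ^ 4 * s ^ 7 + 79087842 * r ^ 5 * s ^ 6 + 122358812 * r ^ 6 * s ^ 5 + 143117751 * r ^ 7 * s ^ 4 + 123621052 * r ^ 8 * s ^ 3 + 74872656 * r ^ 9 * s ^ 2 + 28535800 * r ^ 10 * s ^ 1 + 5168188 * r ^ 11 := by rw [hr, hs]; unfold cL20b4; ring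
  have e2 : 0 ≤ (1 : ℝ) * cL20b4 t := by rw [e]; positivity
  exact (mul_nonneg_iff_of_pos_left (by norm_num)).mp e2

theorem cL20b4_nn {t : ℝ} (h0 : 0 ≤ t) (h1 : t ≤ 1) : 0 ≤ cL20b4 t := by
  exact cL20b4_nn0 (by linarith) (by linarith)

def cL20b5 (t : ℝ) : ℝ := 7648 + 6656 * t + 45728 * t ^ 2 + 56303 * t ^ 3 + 105952 * t ^ 4 + 144606 * t ^ 5 + 120352 * t ^ 6 + 131055 * t ^ 7 + 60640 * t ^ 8 + 35584 * t ^ 9 + 8192 * t ^ 10 + 512 * t ^ 11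

theorem cL20b5_nn0 {t : ℝ} (h0 : (0 : ℝ) ≤ 1 * t) (h1 : 1 * t ≤ 1) : 0 ≤ cL20b5 t := by
  obtain ⟨r, hr⟩ : ∃ r, r = 1 * t - 0 := ⟨_, rfl⟩
  obtain ⟨s, hs⟩ : ∃ s, s = 1 - 1 * t := ⟨_, rfl⟩
  have hr0 : 0 ≤ r := by rw [hr]; linarith
  have hs0 : 0 ≤ s := by rw [hs]; linarith
  have e : (1 : ℝ) * cL20b5 t = 7648 * s ^ 11 + 90784 * r ^ 1 * s ^ 10 + 532928 * r ^ 2 * s ^ 9 + 2029295 * r ^ 3 * s ^ 8 + 5525144 * r ^ 4 * s ^ 7 + 11235042 * r ^ 5 * s ^ 6 + 17338364 * r ^ 6 * s ^ 5 + 20234763 * r ^ 7 * s ^ 4 + 17443580 * r ^ 8 * s ^ 3 + 10544288 * r ^ 9 * s ^ 2 + 4009224 * r ^ 10 * s ^ 1 + 723228 * r ^ 11 := by rw [hr, hs]; unfold cL20b5; ring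
  have e2 : 0 ≤ (1 : ℝ) * cL20b5 t := by rw [e]; positivity
  exact (mul_nonneg_iff_of_pos_left (by norm_num)).mp e2

theorem cL20b5_nn {t : ℝ} (h0 : 0 ≤ t) (h1 : t ≤ 1) : 0 ≤ cL20b5 t := by
  exact cL20b5_nn0 (by linarith) (by linarith)

theorem pL20_posb {d t : ℝ} (hd : 1 / 3 ≤ d) (hd3 : d ≤ 1 / 2) (h0 : 0 ≤ t) (h1 : t ≤ 1) : 0 < pL20 d t := by
  obtain ⟨u, hu⟩ : ∃ u, u = 3 * d - 1 := ⟨_, rfl⟩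
  obtain ⟨v, hv⟩ : ∃ v, v = 1 - 2 * d := ⟨_, rfl⟩
  have hu0 : 0 ≤ u := by rw [hu]; linarith
  have hv0 : 0 ≤ v := by rw [hv]; linarith
  have key : (1 : ℝ) * pL20 d t = 1 + (v ^ 5 * cL20b0 t + (u ^ 1 * v ^ 4 * cL20b1 t + (u ^ 2 * v ^ 3 * cL20b2 t + (u ^ 3 * v ^ 2 * cL20b3 t + (u ^ 4 * v ^ 1 * cL20b4 t + (u ^ 5 * cL20b5 t)))))) := by
    rw [hu, hv]; unfold pL20 cL20b0 cL20b1 cL20b2 cL20b3 cL20b4 cL20b5; ring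
  have h3 : 0 < (1 : ℝ) * pL20 d t := by
    rw [key]; exact add_pos_of_pos_of_nonneg one_pos (add_nonneg (mul_nonneg (by positivity) (cL20b0_nn h0 h1)) (add_nonneg (mul_nonneg (by positivity) (cL20b1_nn h0 h1)) (add_nonneg (mul_nonneg (by positivity) (cL20b2_nn h0 h1)) (add_nonneg (mul_nonneg (by positivity) (cL20b3_nn h0 h1)) (add_nonneg (mul_nonneg (by positivity) (cL20b4_nn h0 h1)) (mul_nonneg (by positivity) (cL20b5_nn h0 h1)))))))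
  exact (mul_pos_iff_of_pos_left (by norm_num)).mp h3

theorem pL20_pos {d t : ℝ} (hd : 0 ≤ d) (hd3 : d ≤ 1 / 2) (h0 : 0 ≤ t) (h1 : t ≤ 1) : 0 < pL20 d t := by
  rcases le_total d (1 / 3) with h | h
  · exact pL20_posa hd h h0 h1
  · exact pL20_posb h hd3 h0 h1

def pL2e (d t : ℝ) : ℝ := 768 - 1536 * t + 6432 * t ^ 2 + 384 * t ^ 3 + 15456 * t ^ 4 + 5376 * t ^ 5 + 15456 * t ^ 6 - 1536 * t ^ 7 + 6432 * t ^ 8 - 9984 * t ^ 9 + 768 * t ^ 10 - 4992 * t ^ 11 + 1664 * d - 6784 * d * t - 8864 * d * t ^ 2 + 20800 * d * t ^ 3 + 13088 * d * t ^ 4 + 106688 * d * t ^ 5 + 43424 * d * t ^ 6 + 53696 * d * t ^ 7 + 3808 * d * t ^ 8 - 58688 * d * t ^ 9 - 16000 * d * t ^ 10 - 33280 * d * t ^ 11 - 3968 * d ^ 2 - 11712 * d ^ 2 * t - 45992 * d ^ 2 * t ^ 2 - 5024 * d ^ 2 * t ^ 3 - 40088 * d ^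 2 * t ^ 4 + 186624 * d ^ 2 * t ^ 5 + 17224 * d ^ 2 * t ^ 6 + 92352 * d ^ 2 * t ^ 7 - 46280 * d ^ 2 * t ^ 8 - 149312 * d ^ 2 * t ^ 9 - 61568 * d ^ 2 * t ^ 10 - 61728 * d ^ 2 * t ^ 11 + 6976 * d ^ 3 + 6976 * d ^ 3 * t + 161520 * d ^ 3 * t ^ 2 + 61904 * d ^ 3 * t ^ 3 + 49872 * d ^ 3 * t ^ 4 + 140784 * d ^ 3 * t ^ 5 - 278576 * d ^ 3 * t ^ 6 + 37616 * d ^ 3 * t ^ 7 - 181584 * d ^ 3 * t ^ 8 - 56560 * d ^ 3 * t ^ 9 - 7680 * d ^ 3 * t ^ 10 - 8320 * d ^ 3 * t ^ 11 + 1280 * d ^ 4 + 1280 * d ^ 4 * t - 72860 * d ^ 4 * t ^ 2 + 182236 * d ^ 4 * t ^ 3 - 51900 * d ^ 4 * t ^ 4 - 40296 * d ^ 4 * t ^ 5 + 92508 * d ^ 4 * t ^ 6 - 190820 * d ^ 4 * t ^ 7 + 70268 * d ^ 4 * t ^ 8 - 6432 * d ^ 4 * t ^ 9 - 38856 * d ^ 5 * t ^ 2 + 56308 * d ^ 5 * t ^ 3 - 23240 * d ^ 5 * t ^ 4 - 22040 * d ^ 5 * t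 ^ 5 + 54472 * d ^ 5 * t ^ 6 - 66060 * d ^ 5 * t ^ 7 + 38856 * d ^ 5 * t ^ 8 - 3680 * d ^ 6 * t ^ 2 + 4591 * d ^ 6 * t ^ 3 - 2208 * d ^ 6 * t ^ 4 - 2082 * d ^ 6 * t ^ 5 + 5152 * d ^ 6 * t ^ 6 - 5649 * d ^ 6 * t ^ 7 + 3680 * d ^ 6 * t ^ 8

def cL2ea0 (t : ℝ) : ℝ := 767 - 1536 * t + 6432 * t ^ 2 + 384 * t ^ 3 + 15456 * t ^ 4 + 5376 * t ^ 5 + 15456 * t ^ 6 - 1536 * t ^ 7 + 6432 * t ^ 8 - 9984 * t ^ 9 + 768 * t ^ 10 - 4992 * t ^ 11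

theorem cL2ea0_nn0 {t : ℝ} (h0 : (0 : ℝ) ≤ 1 * t) (h1 : 1 * t ≤ 1) : 0 ≤ cL2ea0 t := by
  obtain ⟨r, hr⟩ : ∃ r, r = 1 * t - 0 := ⟨_, rfl⟩
  obtain ⟨s, hs⟩ : ∃ s, s = 1 - 1 * t := ⟨_, rfl⟩
  have hr0 : 0 ≤ r := by rw [hr]; linarith
  have hs0 : 0 ≤ s := by rw [hs]; linarith
  have e : (1 : ℝ) * cL2ea0 t = 767 * s ^ 11 + 6901 * r ^ 1 * s ^ 10 + 33257 * r ^ 2 * s ^ 9 + 115707 * r ^ 3 * s ^ 8 + 318870 * r ^ 4 * s ^ 7 + 696402 * r ^ 5 * s ^ 6 + 1171506 * r ^ 6 * s ^ 5 + 1465206 * r ^ 7 * s ^ 4 + 1307355 * r ^ 8 * s ^ 3 + 775241 * r ^ 9 * s ^ 2 + 265717 * r ^ 10 * s ^ 1 + 33023 * r ^ 11 := by rw [hr, hs]; unfold cL2ea0; ring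
  have e2 : 0 ≤ (1 : ℝ) * cL2ea0 t := by rw [e]; positivity
  exact (mul_nonneg_iff_of_pos_left (by norm_num)).mp e2

theorem cL2ea0_nn {t : ℝ} (h0 : 0 ≤ t) (h1 : t ≤ 1) : 0 ≤ cL2ea0 t := by
  exact cL2ea0_nn0 (by linarith) (by linarith)

def cL2ea1 (t : ℝ) : ℝ := 15470 - 34432 * t + 106912 * t ^ 2 + 27712 * t ^ 3 + 291296 * t ^ 4 + 203456 * t ^ 5 + 321632 * t ^ 6 + 26048 * t ^ 7 + 119584 * t ^ 8 - 238400 * t ^ 9 - 2176 * t ^ 10 - 123136 * t ^ 11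

theorem cL2ea1_nn0 {t : ℝ} (h0 : (0 : ℝ) ≤ 1 * t) (h1 : 1 * t ≤ 1) : 0 ≤ cL2ea1 t := by
  obtain ⟨r, hr⟩ : ∃ r, r = 1 * t - 0 := ⟨_, rfl⟩
  obtain ⟨s, hs⟩ : ∃ s, s = 1 - 1 * t := ⟨_, rfl⟩
  have hr0 : 0 ≤ r := by rw [hr]; linarith
  have hs0 : 0 ≤ s := by rw [hs]; linarith
  have e : (1 : ℝ) * cL2ea1 t = 15470 * s ^ 11 + 135738 * r ^ 1 * s ^ 10 + 613442 * r ^ 2 * s ^ 9 + 1993030 * r ^ 3 * s ^ 8 + 5335084 * r ^ 4 * s ^ 7 + 11915492 * r ^ 5 * s ^ 6 + 21152644 * r ^ 6 * s ^ 5 + 28166540 * r ^ 7 * s ^ 4 + 26657766 * r ^ 8 * s ^ 3 + 16588194 * r ^ 9 * s ^ 2 + 5861690 * r ^ 10 * s ^ 1 + 713966 * r ^ 11 := by rw [hr, hs]; unfold cL2ea1; ring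
  have e2 : 0 ≤ (1 : ℝ) * cL2ea1 t := by rw [e]; positivity
  exact (mul_nonneg_iff_of_pos_left (by norm_num)).mp e2

theorem cL2ea1_nn {t : ℝ} (h0 : 0 ≤ t) (h1 : t ≤ 1) : 0 ≤ cL2ea1 t := by
  exact cL2ea1_nn0 (by linarith) (by linarith)

def cL2ea2 (t : ℝ) : ℝ := 124537 - 320832 * t + 689368 * t ^ 2 + 358816 * t ^ 3 + 2242792 * t ^ 4 + 2512704 * t ^ 5 + 2755144 * t ^ 6 + 690432 * t ^ 7 + 879160 * t ^ 8 - 2377472 * t ^ 9 - 197888 * t ^ 10 - 1234848 * t ^ 11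

theorem cL2ea2_nn0 {t : ℝ} (h0 : (0 : ℝ) ≤ 1 * t) (h1 : 1 * t ≤ 1) : 0 ≤ cL2ea2 t := by
  obtain ⟨r, hr⟩ : ∃ r, r = 1 * t - 0 := ⟨_, rfl⟩
  obtain ⟨s, hs⟩ : ∃ s, s = 1 - 1 * t := ⟨_, rfl⟩
  have hr0 : 0 ≤ r := by rw [hr]; linarith
  have hs0 : 0 ≤ s := by rw [hs]; linarith
  have e : (1 : ℝ) * cL2ea2 t = 124537 * s ^ 11 + 1049075 * r ^ 1 * s ^ 10 + 4330583 * r ^ 2 * s ^ 9 + 12674293 * r ^ 3 * s ^ 8 + 32527938 * r ^ 4 * s ^ 7 + 76327382 * r ^ 5 * s ^ 6 + 148570494 * r ^ 6 * s ^ 5 + 216354410 * r ^ 7 * s ^ 4 + 219993501 * r ^ 8 * s ^ 3 + 144019423 * r ^ 9 * s ^ 2 + 52234291 * r ^ 10 * s ^ 1 + 6121913 * r ^ 11 := by rw [hr, hs]; unfold cL2ea2; ring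
  have e2 : 0 ≤ (1 : ℝ) * cL2ea2 t := by rw [e]; positivity
  exact (mul_nonneg_iff_of_pos_left (by norm_num)).mp e2

theorem cL2ea2_nn {t : ℝ} (h0 : 0 ≤ t) (h1 : t ≤ 1) : 0 ≤ cL2ea2 t := by
  exact cL2ea2_nn0 (by linarith) (by linarith)

def cL2ea3 (t : ℝ) : ℝ := 523300 - 1573568 * t + 2285136 * t ^ 2 + 2080976 * t ^ 3 + 9092976 * t ^ 4 + 14885232 * t ^ 5 + 12182512 * t ^ 6 + 5149040 * t ^ 7 + 3079056 * t ^ 8 - 12521584 * t ^ 9 - 1771776 * t ^ 10 - 6439936 * t ^ 11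

theorem cL2ea3_nn0 {t : ℝ} (h0 : (0 : ℝ) ≤ 1 * t) (h1 : 1 * t ≤ 1) : 0 ≤ cL2ea3 t := by
  obtain ⟨r, hr⟩ : ∃ r, r = 1 * t - 0 := ⟨_, rfl⟩
  obtain ⟨s, hs⟩ : ∃ s, s = 1 - 1 * t := ⟨_, rfl⟩
  have hr0 : 0 ≤ r := by rw [hr]; linarith
  have hs0 : 0 ≤ s := by rw [hs]; linarith
  have e : (1 : ℝ) * cL2ea3 t = 523300 * s ^ 11 + 4182732 * r ^ 1 * s ^ 10 + 15330956 * r ^ 2 * s ^ 9 + 38181140 * r ^ 3 * s ^ 8 + 91866520 * r ^ 4 * s ^ 7 + 240070136 * r ^ 5 * s ^ 6 + 542133656 * r ^ 6 * s ^ 5 + 883429416 * r ^ 7 * s ^ 4 + 967461556 * r ^ 8 * s ^ 3 + 662169084 * r ^ 9 * s ^ 2 + 244127820 * r ^ 10 * s ^ 1 + 26971364 * r ^ 11 := by rw [hr, hs]; unfold cL2ea3; ring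
  have e2 : 0 ≤ (1 : ℝ) * cL2ea3 t := by rw [e]; positivity
  exact (mul_nonneg_iff_of_pos_left (by norm_num)).mp e2

theorem cL2ea3_nn {t : ℝ} (h0 : 0 ≤ t) (h1 : t ≤ 1) : 0 ≤ cL2ea3 t := by
  exact cL2ea3_nn0 (by linarith) (by linarith)

def cL2ea4 (t : ℝ) : ℝ := 1230977 - 4266304 * t + 4318852 * t ^ 2 + 6550636 * t ^ 3 + 20544996 * t ^ 4 + 46642056 * t ^ 5 + 29018940 * t ^ 6 + 17766412 * t ^ 7 + 4779932 * t ^ 8 - 36554640 * t ^ 9 - 6780672 * t ^ 10 - 18459072 * t ^ 11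

theorem cL2ea4_nn0 {t : ℝ} (h0 : (0 : ℝ) ≤ 1 * t) (h1 : 1 * t ≤ 1) : 0 ≤ cL2ea4 t := by
  obtain ⟨r, hr⟩ : ∃ r, r = 1 * t - 0 := ⟨_, rfl⟩
  obtain ⟨s, hs⟩ : ∃ s, s = 1 - 1 * t := ⟨_, rfl⟩
  have hr0 : 0 ≤ r := by rw [hr]; linarith
  have hs0 : 0 ≤ s := by rw [hs]; linarith
  have e : (1 : ℝ) * cL2ea4 t = 1230977 * s ^ 11 + 9274443 * r ^ 1 * s ^ 10 + 29359547 * r ^ 2 * s ^ 9 + 56547829 * r ^ 3 * s ^ 8 + 122694686 * r ^ 4 * s ^ 7 + 409445938 * r ^ 5 * s ^ 6 + 1144929926 * r ^ 6 * s ^ 5 + 2094585254 * r ^ 7 * s ^ 4 + 2438724869 * r ^ 8 * s ^ 3 + 1720265319 * r ^ 9 * s ^ 2 + 636429963 * r ^ 10 * s ^ 1 + 64792113 * r ^ 11 := by rw [hr, hs]; unfold cL2ea4; ring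
  have e2 : 0 ≤ (1 : ℝ) * cL2ea4 t := by rw [e]; positivity
  exact (mul_nonneg_iff_of_pos_left (by norm_num)).mp e2

theorem cL2ea4_nn {t : ℝ} (h0 : 0 ≤ t) (h1 : t ≤ 1) : 0 ≤ cL2ea4 t := by
  exact cL2ea4_nn0 (by linarith) (by linarith)

def cL2ea5 (t : ℝ) : ℝ := 1559694 - 6055872 * t + 4705824 * t ^ 2 + 11262412 * t ^ 3 + 24517888 * t ^ 4 + 74739592 * t ^ 5 + 35069728 * t ^ 6 + 29286060 * t ^ 7 + 1479552 * t ^ 8 - 56016720 * t ^ 9 - 12216960 * t ^ 10 - 27648000 * t ^ 11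

theorem cL2ea5_nn0 {t : ℝ} (h0 : (0 : ℝ) ≤ 1 * t) (h1 : 1 * t ≤ 1) : 0 ≤ cL2ea5 t := by
  obtain ⟨r, hr⟩ : ∃ r, r = 1 * t - 0 := ⟨_, rfl⟩
  obtain ⟨s, hs⟩ : ∃ s, s = 1 - 1 * t := ⟨_, rfl⟩
  have hr0 : 0 ≤ r := by rw [hr]; linarith
  have hs0 : 0 ≤ s := by rw [hs]; linarith
  have e : (1 : ℝ) * cL2ea5 t = 1559694 * s ^ 11 + 11100762 * r ^ 1 * s ^ 10 + 29930274 * r ^ 2 * s ^ 9 + 38450098 * r ^ 3 * s ^ 8 + 72021228 * r ^ 4 * s ^ 7 + 405847068 * r ^ 5 * s ^ 6 + 1416510708 * r ^ 6 * s ^ 5 + 2808123224 * r ^ 7 * s ^ 4 + 3378868150 * r ^ 8 * s ^ 3 + 2408831234 * r ^ 9 * s ^ 2 + 881793530 * r ^ 10 * s ^ 1 + 80683198 * r ^ 11 := by rw [hr, hs]; unfold cL2ea5; ring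
  have e2 : 0 ≤ (1 : ℝ) * cL2ea5 t := by rw [e]; positivity
  exact (mul_nonneg_iff_of_pos_left (by norm_num)).mp e2

theorem cL2ea5_nn {t : ℝ} (h0 : 0 ≤ t) (h1 : t ≤ 1) : 0 ≤ cL2ea5 t := by
  exact cL2ea5_nn0 (by linarith) (by linarith)

def cL2ea6 (t : ℝ) : ℝ := 841959 - 3517056 * t + 2394676 * t ^ 2 + 8412439 * t ^ 3 + 12008196 * t ^ 4 + 48331134 * t ^ 5 + 16694188 * t ^ 6 + 18503319 * t ^ 7 - 2284516 * t ^ 8 - 35218800 * t ^ 9 - 8522496 * t ^ 10 - 16950816 * t ^ 11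

theorem cL2ea6_nn0 {t : ℝ} (h0 : (0 : ℝ) ≤ 1 * t) (h1 : 1 * t ≤ 1) : 0 ≤ cL2ea6 t := by
  obtain ⟨r, hr⟩ : ∃ r, r = 1 * t - 0 := ⟨_, rfl⟩
  obtain ⟨s, hs⟩ : ∃ s, s = 1 - 1 * t := ⟨_, rfl⟩
  have hr0 : 0 ≤ r := by rw [hr]; linarith
  have hs0 : 0 ≤ s := by rw [hs]; linarith
  have e : (1 : ℝ) * cL2ea6 t = 841959 * s ^ 11 + 5744493 * r ^ 1 * s ^ 10 + 13531861 * r ^ 2 * s ^ 9 + 10620238 * r ^ 3 * s ^ 8 + 21315794 * r ^ 4 * s ^ 7 + 219492880 * r ^ 5 * s ^ 6 + 834365814 * r ^ 6 * s ^ 5 + 1677092745 * r ^ 7 * s ^ 4 + 2014706063 * r ^ 8 * s ^ 3 + 1422825425 * r ^ 9 * s ^ 2 + 508657333 * r ^ 10 * s ^ 1 + 40692227 * r ^ 11 := by rw [hr, hs]; unfold cL2ea6; ring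
  have e2 : 0 ≤ (1 : ℝ) * cL2ea6 t := by rw [e]; positivity
  exact (mul_nonneg_iff_of_pos_left (by norm_num)).mp e2

theorem cL2ea6_nn {t : ℝ} (h0 : 0 ≤ t) (h1 : t ≤ 1) : 0 ≤ cL2ea6 t := by
  exact cL2ea6_nn0 (by linarith) (by linarith)

theorem pL2e_posa {d t : ℝ} (hd : 0 ≤ d) (hd3 : d ≤ 1 / 3) (h0 : 0 ≤ t) (h1 : t ≤ 1) : 0 < pL2e d t := by
  obtain ⟨u, hu⟩ : ∃ u, u = d := ⟨_, rfl⟩
  obtain ⟨v, hv⟩ : ∃ v, v = 1 - 3 * d := ⟨_, rfl⟩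
  have hu0 : 0 ≤ u := by rw [hu]; linarith
  have hv0 : 0 ≤ v := by rw [hv]; linarith
  have key : (1 : ℝ) * pL2e d t = 1 + (v ^ 6 * cL2ea0 t + (u ^ 1 * v ^ 5 * cL2ea1 t + (u ^ 2 * v ^ 4 * cL2ea2 t + (u ^ 3 * v ^ 3 * cL2ea3 t + (u ^ 4 * v ^ 2 * cL2ea4 t + (u ^ 5 * v ^ 1 * cL2ea5 t + (u ^ 6 * cL2ea6 t))))))) := by
    rw [hu, hv]; unfold pL2e cL2ea0 cL2ea1 cL2ea2 cL2ea3 cL2ea4 cL2ea5 cL2ea6; ring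
  have h3 : 0 < (1 : ℝ) * pL2e d t := by
    rw [key]; exact add_pos_of_pos_of_nonneg one_pos (add_nonneg (mul_nonneg (by positivity) (cL2ea0_nn h0 h1)) (add_nonneg (mul_nonneg (by positivity) (cL2ea1_nn h0 h1)) (add_nonneg (mul_nonneg (by positivity) (cL2ea2_nn h0 h1)) (add_nonneg (mul_nonneg (by positivity) (cL2ea3_nn h0 h1)) (add_nonneg (mul_nonneg (by positivity) (cL2ea4_nn h0 h1)) (add_nonneg (mul_nonneg (by positivity) (cL2ea5_nn h0 h1)) (mul_nonneg (by positivity) (cL2ea6_nn h0 h1))))))))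
  exact (mul_pos_iff_of_pos_left (by norm_num)).mp h3

def cL2eb0 (t : ℝ) : ℝ := 841959 - 3517056 * t + 2394676 * t ^ 2 + 8412439 * t ^ 3 + 12008196 * t ^ 4 + 48331134 * t ^ 5 + 16694188 * t ^ 6 + 18503319 * t ^ 7 - 2284516 * t ^ 8 - 35218800 * t ^ 9 - 8522496 * t ^ 10 - 16950816 * t ^ 11

theorem cL2eb0_nn0 {t : ℝ} (h0 : (0 : ℝ) ≤ 1 * t) (h1 : 1 * t ≤ 1) : 0 ≤ cL2eb0 t := by
  obtain ⟨r, hr⟩ : ∃ r, r = 1 * t - 0 := ⟨_, rfl⟩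
  obtain ⟨s, hs⟩ : ∃ s, s = 1 - 1 * t := ⟨_, rfl⟩
  have hr0 : 0 ≤ r := by rw [hr]; linarith
  have hs0 : 0 ≤ s := by rw [hs]; linarith
  have e : (1 : ℝ) * cL2eb0 t = 841959 * s ^ 11 + 5744493 * r ^ 1 * s ^ 10 + 13531861 * r ^ 2 * s ^ 9 + 10620238 * r ^ 3 * s ^ 8 + 21315794 * r ^ 4 * s ^ 7 + 219492880 * r ^ 5 * s ^ 6 + 834365814 * r ^ 6 * s ^ 5 + 1677092745 * r ^ 7 * s ^ 4 + 2014706063 * r ^ 8 * s ^ 3 + 1422825425 * r ^ 9 * s ^ 2 + 508657333 * r ^ 10 * s ^ 1 + 40692227 * r ^ 11 := by rw [hr, hs]; unfold cL2eb0; ring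
  have e2 : 0 ≤ (1 : ℝ) * cL2eb0 t := by rw [e]; positivity
  exact (mul_nonneg_iff_of_pos_left (by norm_num)).mp e2

theorem cL2eb0_nn {t : ℝ} (h0 : 0 ≤ t) (h1 : t ≤ 1) : 0 ≤ cL2eb0 t := by
  exact cL2eb0_nn0 (by linarith) (by linarith)

def cL2eb1 (t : ℝ) : ℝ := 3492060 - 15046464 * t + 9662232 * t ^ 2 + 39212222 * t ^ 3 + 47531288 * t ^ 4 + 215247212 * t ^ 5 + 65095400 * t ^ 6 + 81733854 * t ^ 7 - 15186648 * t ^ 8 - 155296080 * t ^ 9 - 38918016 * t ^ 10 - 74056896 * t ^ 11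

theorem cL2eb1_nn0 {t : ℝ} (h0 : (0 : ℝ) ≤ 1 * t) (h1 : 1 * t ≤ 1) : 0 ≤ cL2eb1 t := by
  obtain ⟨r, hr⟩ : ∃ r, r = 1 * t - 0 := ⟨_, rfl⟩
  obtain ⟨s, hs⟩ : ∃ s, s = 1 - 1 * t := ⟨_, rfl⟩
  have hr0 : 0 ≤ r := by rw [hr]; linarith
  have hs0 : 0 ≤ s := by rw [hs]; linarith
  have e : (1 : ℝ) * cL2eb1 t = 3492060 * s ^ 11 + 23366196 * r ^ 1 * s ^ 10 + 51260892 * r ^ 2 * s ^ 9 + 25271330 * r ^ 3 * s ^ 8 + 55873536 * r ^ 4 * s ^ 7 + 911110212 * r ^ 5 * s ^ 6 + 3589684176 * r ^ 6 * s ^ 5 + 7254433246 * r ^ 7 * s ^ 4 + 8709368228 * r ^ 8 * s ^ 3 + 6128121316 * r ^ 9 * s ^ 2 + 2170150468 * r ^ 10 * s ^ 1 + 163470164 * r ^ 11 := by rw [hr, hs]; unfold cL2eb1; ring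
  have e2 : 0 ≤ (1 : ℝ) * cL2eb1 t := by rw [e]; positivity
  exact (mul_nonneg_iff_of_pos_left (by norm_num)).mp e2

theorem cL2eb1_nn {t : ℝ} (h0 : 0 ≤ t) (h1 : t ≤ 1) : 0 ≤ cL2eb1 t := by
  exact cL2eb1_nn0 (by linarith) (by linarith)

def cL2eb2 (t : ℝ) : ℝ := 6061892 - 26742784 * t + 16709872 * t ^ 2 + 76425161 * t ^ 3 + 78078496 * t ^ 4 + 397911106 * t ^ 5 + 104083120 * t ^ 6 + 148885897 * t ^ 7 - 36885568 * t ^ 8 - 284753040 * t ^ 9 - 73533312 * t ^ 10 - 134481312 * t ^ 11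

theorem cL2eb2_nn0 {t : ℝ} (h0 : (0 : ℝ) ≤ 1 * t) (h1 : 1 * t ≤ 1) : 0 ≤ cL2eb2 t := by
  obtain ⟨r, hr⟩ : ∃ r, r = 1 * t - 0 := ⟨_, rfl⟩
  obtain ⟨s, hs⟩ : ∃ s, s = 1 - 1 * t := ⟨_, rfl⟩
  have hr0 : 0 ≤ r := by rw [hr]; linarith
  have hs0 : 0 ≤ s := by rw [hs]; linarith
  have e : (1 : ℝ) * cL2eb2 t = 6061892 * s ^ 11 + 39938028 * r ^ 1 * s ^ 10 + 82686092 * r ^ 2 * s ^ 9 + 23600909 * r ^ 3 * s ^ 8 + 82325456 * r ^ 4 * s ^ 7 + 1672603798 * r ^ 5 * s ^ 6 + 6577863596 * r ^ 6 * s ^ 5 + 13210360309 * r ^ 7 * s ^ 4 + 15764975064 * r ^ 8 * s ^ 3 + 11018490524 * r ^ 9 * s ^ 2 + 3857322308 * r ^ 10 * s ^ 1 + 271759528 * r ^ 11 := by rw [hr, hs]; unfold cL2eb2; ring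
  have e2 : 0 ≤ (1 : ℝ) * cL2eb2 t := by rw [e]; positivity
  exact (mul_nonneg_iff_of_pos_left (by norm_num)).mp e2

theorem cL2eb2_nn {t : ℝ} (h0 : 0 ≤ t) (h1 : t ≤ 1) : 0 ≤ cL2eb2 t := by
  exact cL2eb2_nn0 (by linarith) (by linarith)

def cL2eb3 (t : ℝ) : ℝ := 5642848 - 25274048 * t + 15825552 * t ^ 2 + 79746228 * t ^ 3 + 68072048 * t ^ 4 + 390909752 * t ^ 5 + 87079728 * t ^ 6 + 143122388 * t ^ 7 - 44445168 * t ^ 8 - 277905776 * t ^ 9 - 73631232 * t ^ 10 - 129932672 * t ^ 11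

theorem cL2eb3_nn0 {t : ℝ} (h0 : (0 : ℝ) ≤ 1 * t) (h1 : 1 * t ≤ 1) : 0 ≤ cL2eb3 t := by
  obtain ⟨r, hr⟩ : ∃ r, r = 1 * t - 0 := ⟨_, rfl⟩
  obtain ⟨s, hs⟩ : ∃ s, s = 1 - 1 * t := ⟨_, rfl⟩
  have hr0 : 0 ≤ r := by rw [hr]; linarith
  have hs0 : 0 ≤ s := by rw [hs]; linarith
  have e : (1 : ℝ) * cL2eb3 t = 5642848 * s ^ 11 + 36797280 * r ^ 1 * s ^ 10 + 73441712 * r ^ 2 * s ^ 9 + 15913956 * r ^ 3 * s ^ 8 + 105015824 * r ^ 4 * s ^ 7 + 1729100536 * r ^ 5 * s ^ 6 + 6559795248 * r ^ 6 * s ^ 5 + 12955534260 * r ^ 7 * s ^ 4 + 15292877680 * r ^ 8 * s ^ 3 + 10587088352 * r ^ 9 * s ^ 2 + 3656803392 * r ^ 10 * s ^ 1 + 239209648 * r ^ 11 := by rw [hr, hs]; unfold cL2eb3; ring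
  have e2 : 0 ≤ (1 : ℝ) * cL2eb3 t := by rw [e]; positivity
  exact (mul_nonneg_iff_of_pos_left (by norm_num)).mp e2

theorem cL2eb3_nn {t : ℝ} (h0 : 0 ≤ t) (h1 : t ≤ 1) : 0 ≤ cL2eb3 t := by
  exact cL2eb3_nn0 (by linarith) (by linarith)

def cL2eb4 (t : ℝ) : ℝ := 2972944 - 13395072 * t + 8608972 * t ^ 2 + 46982169 * t ^ 3 + 33177900 * t ^ 4 + 215280434 * t ^ 5 + 40036788 * t ^ 6 + 76530969 * t ^ 7 - 28741676 * t ^ 8 - 152255360 * t ^ 9 - 41234432 * t ^ 10 - 70451712 * t ^ 11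

theorem cL2eb4_nn0 {t : ℝ} (h0 : (0 : ℝ) ≤ 1 * t) (h1 : 1 * t ≤ 1) : 0 ≤ cL2eb4 t := by
  obtain ⟨r, hr⟩ : ∃ r, r = 1 * t - 0 := ⟨_, rfl⟩
  obtain ⟨s, hs⟩ : ∃ s, s = 1 - 1 * t := ⟨_, rfl⟩
  have hr0 : 0 ≤ r := by rw [hr]; linarith
  have hs0 : 0 ≤ s := by rw [hs]; linarith
  have e : (1 : ℝ) * cL2eb4 t = 2972944 * s ^ 11 + 19307312 * r ^ 1 * s ^ 10 + 38170172 * r ^ 2 * s ^ 9 + 12220437 * r ^ 3 * s ^ 8 + 92621124 * r ^ 4 * s ^ 7 + 1046715122 * r ^ 5 * s ^ 6 + 3742129212 * r ^ 6 * s ^ 5 + 7208736621 * r ^ 7 * s ^ 4 + 8381867492 * r ^ 8 * s ^ 3 + 5733173120 * r ^ 9 * s ^ 2 + 1950355304 * r ^ 10 * s ^ 1 + 117511924 * r ^ 11 := by rw [hr, hs]; unfold cL2eb4; ring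
  have e2 : 0 ≤ (1 : ℝ) * cL2eb4 t := by rw [e]; positivity
  exact (mul_nonneg_iff_of_pos_left (by norm_num)).mp e2

theorem cL2eb4_nn {t : ℝ} (h0 : 0 ≤ t) (h1 : t ≤ 1) : 0 ≤ cL2eb4 t := by
  exact cL2eb4_nn0 (by linarith) (by linarith)

def cL2eb5 (t : ℝ) : ℝ := 840896 - 3774720 * t + 2530760 * t ^ 2 + 14812110 * t ^ 3 + 8555080 * t ^ 4 + 63023324 * t ^ 5 + 9533368 * t ^ 6 + 21562958 * t ^ 7 - 9583560 * t ^ 8 - 44399552 * t ^ 9 - 12251136 * t ^ 10 - 20327936 * t ^ 11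

theorem cL2eb5_nn0 {t : ℝ} (h0 : (0 : ℝ) ≤ 1 * t) (h1 : 1 * t ≤ 1) : 0 ≤ cL2eb5 t := by
  obtain ⟨r, hr⟩ : ∃ r, r = 1 * t - 0 := ⟨_, rfl⟩
  obtain ⟨s, hs⟩ : ∃ s, s = 1 - 1 * t := ⟨_, rfl⟩
  have hr0 : 0 ≤ r := by rw [hr]; linarith
  have hs0 : 0 ≤ s := by rw [hs]; linarith
  have e : (1 : ℝ) * cL2eb5 t = 840896 * s ^ 11 + 5475136 * r ^ 1 * s ^ 10 + 11032840 * r ^ 2 * s ^ 9 + 6474390 * r ^ 3 * s ^ 8 + 42688600 * r ^ 4 * s ^ 7 + 346034556 * r ^ 5 * s ^ 6 + 1152948424 * r ^ 6 * s ^ 5 + 2154535398 * r ^ 7 * s ^ 4 + 2459739672 * r ^ 8 * s ^ 3 + 1658801056 * r ^ 9 * s ^ 2 + 554919632 * r ^ 10 * s ^ 1 + 30521592 * r ^ 11 := by rw [hr, hs]; unfold cL2eb5; ring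
  have e2 : 0 ≤ (1 : ℝ) * cL2eb5 t := by rw [e]; positivity
  exact (mul_nonneg_iff_of_pos_left (by norm_num)).mp e2

theorem cL2eb5_nn {t : ℝ} (h0 : 0 ≤ t) (h1 : t ≤ 1) : 0 ≤ cL2eb5 t := by
  exact cL2eb5_nn0 (by linarith) (by linarith)

def cL2eb6 (t : ℝ) : ℝ := 99776 - 441856 * t + 311456 * t ^ 2 + 1951175 * t ^ 3 + 909280 * t ^ 4 + 7662990 * t ^ 5 + 909856 * t ^ 6 + 2497479 * t ^ 7 - 1297184 * t ^ 8 - 5384192 * t ^ 9 - 1509376 * t ^ 10 - 2438656 * t ^ 11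

theorem cL2eb6_nn0 {t : ℝ} (h0 : (0 : ℝ) ≤ 1 * t) (h1 : 1 * t ≤ 1) : 0 ≤ cL2eb6 t := by
  obtain ⟨r, hr⟩ : ∃ r, r = 1 * t - 0 := ⟨_, rfl⟩
  obtain ⟨s, hs⟩ : ∃ s, s = 1 - 1 * t := ⟨_, rfl⟩
  have hr0 : 0 ≤ r := by rw [hr]; linarith
  have hs0 : 0 ≤ s := by rw [hs]; linarith
  have e : (1 : ℝ) * cL2eb6 t = 99776 * s ^ 11 + 655680 * r ^ 1 * s ^ 10 + 1380576 * r ^ 2 * s ^ 9 + 1333799 * r ^ 3 * s ^ 8 + 7634456 * r ^ 4 * s ^ 7 + 48129906 * r ^ 5 * s ^ 6 + 149240732 * r ^ 6 * s ^ 5 + 269778435 * r ^ 7 * s ^ 4 + 301744316 * r ^ 8 * s ^ 3 + 200296896 * r ^ 9 * s ^ 2 + 65804264 * r ^ 10 * s ^ 1 + 3270748 * r ^ 11 := by rw [hr, hs]; unfold cL2eb6; ring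
  have e2 : 0 ≤ (1 : ℝ) * cL2eb6 t := by rw [e]; positivity
  exact (mul_nonneg_iff_of_pos_left (by norm_num)).mp e2

theorem cL2eb6_nn {t : ℝ} (h0 : 0 ≤ t) (h1 : t ≤ 1) : 0 ≤ cL2eb6 t := by
  exact cL2eb6_nn0 (by linarith) (by linarith)

theorem pL2e_posb {d t : ℝ} (hd : 1 / 3 ≤ d) (hd3 : d ≤ 1 / 2) (h0 : 0 ≤ t) (h1 : t ≤ 1) : 0 < pL2e d t := by
  obtain ⟨u, hu⟩ : ∃ u, u = 3 * d - 1 := ⟨_, rfl⟩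
  obtain ⟨v, hv⟩ : ∃ v, v = 1 - 2 * d := ⟨_, rfl⟩
  have hu0 : 0 ≤ u := by rw [hu]; linarith
  have hv0 : 0 ≤ v := by rw [hv]; linarith
  have key : (1 : ℝ) * pL2e d t = 1 + (v ^ 6 * cL2eb0 t + (u ^ 1 * v ^ 5 * cL2eb1 t + (u ^ 2 * v ^ 4 * cL2eb2 t + (u ^ 3 * v ^ 3 * cL2eb3 t + (u ^ 4 * v ^ 2 * cL2eb4 t + (u ^ 5 * v ^ 1 * cL2eb5 t + (u ^ 6 * cL2eb6 t))))))) := by
    rw [hu, hv]; unfold pL2e cL2eb0 cL2eb1 cL2eb2 cL2eb3 cL2eb4 cL2eb5 cL2eb6; ring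
  have h3 : 0 < (1 : ℝ) * pL2e d t := by
    rw [key]; exact add_pos_of_pos_of_nonneg one_pos (add_nonneg (mul_nonneg (by positivity) (cL2eb0_nn h0 h1)) (add_nonneg (mul_nonneg (by positivity) (cL2eb1_nn h0 h1)) (add_nonneg (mul_nonneg (by positivity) (cL2eb2_nn h0 h1)) (add_nonneg (mul_nonneg (by positivity) (cL2eb3_nn h0 h1)) (add_nonneg (mul_nonneg (by positivity) (cL2eb4_nn h0 h1)) (add_nonneg (mul_nonneg (by positivity) (cL2eb5_nn h0 h1)) (mul_nonneg (by positivity) (cL2eb6_nn h0 h1))))))))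
  exact (mul_pos_iff_of_pos_left (by norm_num)).mp h3

theorem pL2e_pos {d t : ℝ} (hd : 0 ≤ d) (hd3 : d ≤ 1 / 2) (h0 : 0 ≤ t) (h1 : t ≤ 1) : 0 < pL2e d t := by
  rcases le_total d (1 / 3) with h | h
  · exact pL2e_posa hd h h0 h1
  · exact pL2e_posb h hd3 h0 h1


end Vale.Agent.Lib.P100.AB.V6
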