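import Vale.Agent.Lib.P100.AB.W5Poly
import Vale.Agent.Lib.P100.AB.V1Main

/-!
# P100: the unequal-exponent family for every real dimension at least `4`.

`a = 1 - 2 d / (1 + t^2)`, `b = 1 - 2 d t^2 / (1 + t^2)`, `d = 1/(n-2) ≤ 1/2`, `t` the ratio
`(q+1)/(p+1)`: the family of `V1` with changed coefficients.
-/

noncomputable section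

namespace Vale.Agent.Lib.P100.AB.W5

open Vale.Agent.Lib.P100 Vale.Agent.Lib.P100.AB Vale.Agent.Lib.P100.AB.V1

/-- the changed coefficient -/
def X2 (d t : ℝ) : ℝ := -((1 - (9/10) * d) * X d t)

def Y5 (d t : ℝ) : ℝ := -(d * sg t) + d ^ 2 * (sg t * (1 - sg t + (3/10)) / 2)

def fh5 (d t : ℝ) : ℝ :=
  (1 - t ^ 2) / (2 * t) + d ^ 2 * (1 + 2 * d) * (t * (1 - sg t + sg t * (3/10)) / 2)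

/-- upper endpoint value of the exponent -/
def eta1 (d : ℝ) : ℝ := d / (1 + (1/4) * d)

lemma e_r1 (d t : ℝ) (hd : 0 < d) :
    R1 (d / (1 + 2 * d)) (ab d t) (X d t) = (1*d*t^(2:ℕ) + 1*d*t^(4:ℕ) + 2*d^(2:ℕ)*t^(2:ℕ) + (-3)*d^(2:ℕ)*t^(4:ℕ) + (-1)*d^(3:ℕ)*t^(4:ℕ)) / ((1 + 2 * d) * (1 + t ^ 2) ^ 2) := by
  have h1 : (1 + 2 * d) ≠ 0 := by positivity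
  have h2 : (1 + t ^ 2) ≠ 0 := by positivity
  simp only [R1, ab, X]
  field_simp
  ring

lemma e_r6 (d t : ℝ) (hd : 0 < d) :
    R1 (d / (1 + 2 * d)) (bb d t) (X2 d t) = (1*d + 1*d*t^(2:ℕ) + (-3)*d^(2:ℕ) + 2*d^(2:ℕ)*t^(2:ℕ) + (13/5)*d^(3:ℕ) + (-18/5)*d^(3:ℕ)*t^(2:ℕ) + (99/100)*d^(4:ℕ) + (-9/50)*d^(4:ℕ)*t^(2:ℕ) + (-81/100)*d^(4:ℕ)*t^(4:ℕ) + (-81/100)*d^(5:ℕ) + (81/50)*d^(5:ℕ)*t^(2:ℕ) + (-81/100)*d^(5:ℕ)*t^(4:ℕ)) / ((1 + 2 * d) * (1 + t ^ 2) ^ 2) := by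
  have h1 : (1 + 2 * d) ≠ 0 := by positivity
  have h2 : (1 + t ^ 2) ≠ 0 := by positivity
  simp only [R1, bb, X2, X]
  field_simp
  ring

lemma e_r2 (d t : ℝ) (hd : 0 < d) :
    R2 (d / (1 + 2 * d)) (ab d t) (bb d t) (X d t) (Y5 d t) = ((-2)*d*t + (-4)*d*t^(3:ℕ) + (-2)*d*t^(5:ℕ) + (-27/10)*d^(2:ℕ)*t + (-2)*d^(2:ℕ)*t^(2:ℕ) + (13/5)*d^(2:ℕ)*t^(3:ℕ) + (53/10)*d^(2:ℕ)*t^(5:ℕ) + 2*d^(2:ℕ)*t^(6:ℕ) + (13/5)*d^(3:ℕ)*t + (-4)*d^(3:ℕ)*t^(2:ℕ) + 4*d^(3:ℕ)*t^(3:ℕ) + 2*d^(3:ℕ)*t^(4:ℕ) + (7/5)*d^(3:ℕ)*t^(5:ℕ) + (-2)*d^(3:ℕ)*t^(6:ℕ) + (-13/5)*d^(4:ℕ)*t^(3:ℕ) + 4*d^(4:ℕ)*t^(4:ℕ) + (-13/5)*d^(4:ℕ)*t^(5:ℕ)) / ((1 + 2 * d) * (1 + t ^ 2) ^ 3) := by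
  have h1 : (1 + 2 * d) ≠ 0 := by positivity
  have h2 : (1 + t ^ 2) ≠ 0 := by positivity
  simp only [R2, ab, bb, X, Y5, sg]
  field_simp
  ring

lemma e_r5 (d t : ℝ) (hd : 0 < d) :
    R2 (d / (1 + 2 * d)) (bb d t) (ab d t) (X2 d t) (Y5 d t) = ((-2)*d*t + (-4)*d*t^(3:ℕ) + (-2)*d*t^(5:ℕ) + (11/10)*d^(2:ℕ) + (53/10)*d^(2:ℕ)*t + (-9/10)*d^(2:ℕ)*t^(2:ℕ) + (13/5)*d^(2:ℕ)*t^(3:ℕ) + (-11/10)*d^(2:ℕ)*t^(4:ℕ) + (-27/10)*d^(2:ℕ)*t^(5:ℕ) + (9/10)*d^(2:ℕ)*t^(6:ℕ) + (-19/5)*d^(3:ℕ) + (-11/5)*d^(3:ℕ)*t + (1/5)*d^(3:ℕ)*t^(2:ℕ) + 4*d^(3:ℕ)*t^(3:ℕ) + (-11/5)*d^(3:ℕ)*t^(4:ℕ) + (31/5)*d^(3:ℕ)*t^(5:ℕ) + (9/5)*d^(3:ℕ)*t^(6:ℕ) + (9/5)*d^(4:ℕ) + (-193/50)*d^(4:ℕ)*t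 + (2/5)*d^(4:ℕ)*t^(2:ℕ) + (-13/5)*d^(4:ℕ)*t^(3:ℕ) + (9/5)*d^(4:ℕ)*t^(4:ℕ) + (63/50)*d^(4:ℕ)*t^(5:ℕ) + (117/50)*d^(5:ℕ)*t + (-18/5)*d^(5:ℕ)*t^(2:ℕ) + (18/5)*d^(5:ℕ)*t^(4:ℕ) + (-117/50)*d^(5:ℕ)*t^(5:ℕ)) / ((1 + 2 * d) * (1 + t ^ 2) ^ 3) := by
  have h1 : (1 + 2 * d) ≠ 0 := by positivity
  have h2 : (1 + t ^ 2) ≠ 0 := by positivity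
  simp only [R2, ab, bb, X2, X, Y5, sg]
  field_simp
  ring

lemma e_r3 (d t : ℝ) (hd : 0 < d) :
    R3 (ab d t) (bb d t) (Y5 d t) (Y5 d t) = (1*d + 4*d*t^(2:ℕ) + 6*d*t^(4:ℕ) + 4*d*t^(6:ℕ) + 1*d*t^(8:ℕ) + (-1/2)*d^(2:ℕ) + 2*d^(2:ℕ)*t + (-5)*d^(2:ℕ)*t^(2:ℕ) + 6*d^(2:ℕ)*t^(3:ℕ) + (-9)*d^(2:ℕ)*t^(4:ℕ) + 6*d^(2:ℕ)*t^(5:ℕ) + (-5)*d^(2:ℕ)*t^(6:ℕ) + 2*d^(2:ℕ)*t^(7:ℕ) + (-1/2)*d^(2:ℕ)*t^(8:ℕ) + (-13/10)*d^(3:ℕ)*t + (36/5)*d^(3:ℕ)*t^(2:ℕ) + (-119/10)*d^(3:ℕ)*t^(3:ℕ) + (72/5)*d^(3:ℕ)*t^(4:ℕ) + (-119/10)*d^(3:ℕ)*t^(5:ℕ) + (36/5)*d^(3:ℕ)*t^(6:ℕ) + (-13/10)*d^(3:ℕ)*t^(7:ℕ) + (-169/100)*d^(4:ℕ)*t^(2:ℕ) + (26/5)*d^(4:ℕ)*t^(3:ℕ) + (-369/50)*d^(4:ℕ)*t^(4:ℕ)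 + (26/5)*d^(4:ℕ)*t^(5:ℕ) + (-169/100)*d^(4:ℕ)*t^(6:ℕ)) / ((1 + t ^ 2) ^ 4) := by
  have h1 : (1 + 2 * d) ≠ 0 := by positivity
  have h2 : (1 + t ^ 2) ≠ 0 := by positivity
  simp only [R3, ab, bb, Y5, sg]
  field_simp
  ring

lemma e_r34 (d t : ℝ) (hd : 0 < d) :
    R3 (ab d t) (bb d t) (Y5 d t) (Y5 d t) + R4 (d / (1 + 2 * d)) (ab d t) (bb d t) (Y5 d t) (Y5 d t) = (1*d + 4*d*t^(2:ℕ) + 6*d*t^(4:ℕ) + 4*d*t^(6:ℕ) + 1*d*t^(8:ℕ) + 1*d^(2:ℕ) + (-2)*d^(2:ℕ)*t^(2:ℕ) + (-6)*d^(2:ℕ)*t^(4:ℕ) + (-2)*d^(2:ℕ)*t^(6:ℕ) + 1*d^(2:ℕ)*t^(8:ℕ) + (-1)*d^(3:ℕ) + 4*d^(3:ℕ)*t + (2/5)*d^(3:ℕ)*t^(2:ℕ) + (-4)*d^(3:ℕ)*t^(3:ℕ) + (14/5)*d^(3:ℕ)*t^(4:ℕ) + (-4)*d^(3:ℕ)*t^(5:ℕ)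 + (2/5)*d^(3:ℕ)*t^(6:ℕ) + 4*d^(3:ℕ)*t^(7:ℕ) + (-1)*d^(3:ℕ)*t^(8:ℕ) + (-13/5)*d^(4:ℕ)*t + (551/50)*d^(4:ℕ)*t^(2:ℕ) + (-67/5)*d^(4:ℕ)*t^(3:ℕ) + (351/25)*d^(4:ℕ)*t^(4:ℕ) + (-67/5)*d^(4:ℕ)*t^(5:ℕ) + (551/50)*d^(4:ℕ)*t^(6:ℕ) + (-13/5)*d^(4:ℕ)*t^(7:ℕ) + (-169/50)*d^(5:ℕ)*t^(2:ℕ) + (52/5)*d^(5:ℕ)*t^(3:ℕ) + (-369/25)*d^(5:ℕ)*t^(4:ℕ) + (52/5)*d^(5:ℕ)*t^(5:ℕ) + (-169/50)*d^(5:ℕ)*t^(6:ℕ)) / ((1 + 2 * d) * (1 + t ^ 2) ^ 4) := by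
  have h1 : (1 + 2 * d) ≠ 0 := by positivity
  have h2 : (1 + t ^ 2) ≠ 0 := by positivity
  simp only [R3, R4, ab, bb, Y5, sg]
  field_simp
  ring

lemma r1_pos (d t : ℝ) (hd : 0 < d) (hd1 : d ≤ (1/2)) (ht : 0 < t) (ht1 : t ≤ 1) :
    0 < R1 (d / (1 + 2 * d)) (ab d t) (X d t) := by
  rw [e_r1 d t hd]
  have hp := pos_r1 d t hd.le hd1 ht.le ht1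
  have id0 : 1*d*t^(2:ℕ) + 1*d*t^(4:ℕ) + 2*d^(2:ℕ)*t^(2:ℕ) + (-3)*d^(2:ℕ)*t^(4:ℕ) + (-1)*d^(3:ℕ)*t^(4:ℕ) = d^(1:ℕ)*t^(2:ℕ) * (1 + 1*t^(2:ℕ) + 2*d + (-3)*d*t^(2:ℕ) + (-1)*d^(2:ℕ)*t^(2:ℕ)) := by ring
  rw [id0]
  exact div_pos (mul_pos (by positivity) hp) (by positivity)

lemma r6_pos (d t : ℝ) (hd : 0 < d) (hd1 : d ≤ (1/2)) (ht : 0 < t) (ht1 : t ≤ 1) :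
    0 < R1 (d / (1 + 2 * d)) (bb d t) (X2 d t) := by
  rw [e_r6 d t hd]
  have hp := pos_r6 d t hd.le hd1 ht.le ht1
  have id0 : 1*d + 1*d*t^(2:ℕ) + (-3)*d^(2:ℕ) + 2*d^(2:ℕ)*t^(2:ℕ) + (13/5)*d^(3:ℕ) + (-18/5)*d^(3:ℕ)*t^(2:ℕ) + (99/100)*d^(4:ℕ) + (-9/50)*d^(4:ℕ)*t^(2:ℕ) + (-81/100)*d^(4:ℕ)*t^(4:ℕ) + (-81/100)*d^(5:ℕ) + (81/50)*d^(5:ℕ)*t^(2:ℕ) + (-81/100)*d^(5:ℕ)*t^(4:ℕ) = d^(1:ℕ)*t^(0:ℕ) * (1 + 1*t^(2:ℕ) + (-3)*d + 2*d*t^(2:ℕ) + (13/5)*d^(2:ℕ) + (-18/5)*d^(2:ℕ)*t^(2:ℕ) + (99/100)*d^(3:ℕ) + (-9/50)*d^(3:ℕ)*t^(2:ℕ) + (-81/100)*d^(3:ℕ)*t^(4:ℕ) + (-81/100)*d^(4:ℕ) + (81/50)*d^(4:ℕ)*t^(2:ℕ) + (-81/100)*d^(4:ℕ)*t^(4:ℕ)) := by ring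
  rw [id0]
  exact div_pos (mul_pos (by positivity) hp) (by positivity)

lemma r3_pos (d t : ℝ) (hd : 0 < d) (hd1 : d ≤ (1/2)) (ht : 0 < t) (ht1 : t ≤ 1) :
    0 ≤ R3 (ab d t) (bb d t) (Y5 d t) (Y5 d t) := by
  rw [e_r3 d t hd]
  have hp := pos_r3 d t hd.le hd1 ht.le ht1
  have id0 : 1*d + 4*d*t^(2:ℕ) + 6*d*t^(4:ℕ) + 4*d*t^(6:ℕ) + 1*d*t^(8:ℕ) + (-1/2)*d^(2:ℕ) + 2*d^(2:ℕ)*t + (-5)*d^(2:ℕ)*t^(2:ℕ) + 6*d^(2:ℕ)*t^(3:ℕ) + (-9)*d^(2:ℕ)*t^(4:ℕ) + 6*d^(2:ℕ)*t^(5:ℕ) + (-5)*d^(2:ℕ)*t^(6:ℕ) + 2*d^(2:ℕ)*t^(7:ℕ) + (-1/2)*d^(2:ℕ)*t^(8:ℕ) + (-13/10)*d^(3:ℕ)*t + (36/5)*d^(3:ℕ)*t^(2:ℕ) + (-119/10)*d^(3:ℕ)*t^(3:ℕ) + (72/5)*d^(3:ℕ)*t^(4:ℕ) + (-119/10)*d^(3:ℕ)*t^(5:ℕ)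 + (36/5)*d^(3:ℕ)*t^(6:ℕ) + (-13/10)*d^(3:ℕ)*t^(7:ℕ) + (-169/100)*d^(4:ℕ)*t^(2:ℕ) + (26/5)*d^(4:ℕ)*t^(3:ℕ) + (-369/50)*d^(4:ℕ)*t^(4:ℕ) + (26/5)*d^(4:ℕ)*t^(5:ℕ) + (-169/100)*d^(4:ℕ)*t^(6:ℕ) = d^(1:ℕ)*t^(0:ℕ) * (1 + 4*t^(2:ℕ) + 6*t^(4:ℕ) + 4*t^(6:ℕ) + 1*t^(8:ℕ) + (-1/2)*d + 2*d*t + (-5)*d*t^(2:ℕ) + 6*d*t^(3:ℕ) + (-9)*d*t^(4:ℕ) + 6*d*t^(5:ℕ) + (-5)*d*t^(6:ℕ) + 2*d*t^(7:ℕ) + (-1/2)*d*t^(8:ℕ) + (-13/10)*d^(2:ℕ)*t + (36/5)*d^(2:ℕ)*t^(2:ℕ) + (-119/10)*d^(2:ℕ)*t^(3:ℕ) + (72/5)*d^(2:ℕ)*t^(4:ℕ) + (-119/10)*d^(2:ℕ)*t^(5:ℕ) + (36/5)*d^(2:ℕ)*t^(6:ℕ) + (-13/10)*d^(2:ℕ)*t^(7:ℕ) + (-169/100)*d^(3:ℕ)*t^(2:ℕ) + (26/5)*d^(3:ℕ)*t^(3:ℕ) + (-369/50)*d^(3:ℕ)*t^(4:ℕ)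 + (26/5)*d^(3:ℕ)*t^(5:ℕ) + (-169/100)*d^(3:ℕ)*t^(6:ℕ)) := by ring
  rw [id0]
  exact (div_pos (mul_pos (by positivity) hp) (by positivity)).le

lemma hD_ok (d t : ℝ) (hd : 0 < d) (hd1 : d ≤ (1/2)) (ht : 0 < t) (ht1 : t ≤ 1) :
    R2 (d / (1 + 2 * d)) (ab d t) (bb d t) (X d t) (Y5 d t) ^ 2 * R1 (d / (1 + 2 * d)) (bb d t) (X2 d t)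
      + R2 (d / (1 + 2 * d)) (bb d t) (ab d t) (X2 d t) (Y5 d t) ^ 2 * R1 (d / (1 + 2 * d)) (ab d t) (X d t)
      < 4 * (R3 (ab d t) (bb d t) (Y5 d t) (Y5 d t) + R4 (d / (1 + 2 * d)) (ab d t) (bb d t) (Y5 d t) (Y5 d t))
        * R1 (d / (1 + 2 * d)) (ab d t) (X d t) * R1 (d / (1 + 2 * d)) (bb d t) (X2 d t) := by
  rw [e_r1 d t hd, e_r6 d t hd, e_r2 d t hd, e_r5 d t hd, e_r34 d t hd]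
  apply frac_hD (by positivity) (by positivity)
  have hp := pos_DP d t hd.le hd1 ht.le ht1
  have id0 : 4 * (1*d + 4*d*t^(2:ℕ) + 6*d*t^(4:ℕ) + 4*d*t^(6:ℕ) + 1*d*t^(8:ℕ) + 1*d^(2:ℕ) + (-2)*d^(2:ℕ)*t^(2:ℕ) + (-6)*d^(2:ℕ)*t^(4:ℕ) + (-2)*d^(2:ℕ)*t^(6:ℕ) + 1*d^(2:ℕ)*t^(8:ℕ) + (-1)*d^(3:ℕ) + 4*d^(3:ℕ)*t + (2/5)*d^(3:ℕ)*t^(2:ℕ) + (-4)*d^(3:ℕ)*t^(3:ℕ) + (14/5)*d^(3:ℕ)*t^(4:ℕ) + (-4)*d^(3:ℕ)*t^(5:ℕ) + (2/5)*d^(3:ℕ)*t^(6:ℕ) + 4*d^(3:ℕ)*t^(7:ℕ) + (-1)*d^(3:ℕ)*t^(8:ℕ) + (-13/5)*d^(4:ℕ)*t + (551/50)*d^(4:ℕ)*t^(2:ℕ) + (-67/5)*d^(4:ℕ)*t^(3:ℕ) + (351/25)*d^(4:ℕ)*t^(4:ℕ) + (-67/5)*d^(4:ℕ)*t^(5:ℕ) + (551/50)*d^(4:ℕ)*t^(6:ℕ) + (-13/5)*d^(4:ℕ)*t^(7:ℕ) +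 (-169/50)*d^(5:ℕ)*t^(2:ℕ) + (52/5)*d^(5:ℕ)*t^(3:ℕ) + (-369/25)*d^(5:ℕ)*t^(4:ℕ) + (52/5)*d^(5:ℕ)*t^(5:ℕ) + (-169/50)*d^(5:ℕ)*t^(6:ℕ)) * (1*d*t^(2:ℕ) + 1*d*t^(4:ℕ) + 2*d^(2:ℕ)*t^(2:ℕ) + (-3)*d^(2:ℕ)*t^(4:ℕ) + (-1)*d^(3:ℕ)*t^(4:ℕ)) * (1*d + 1*d*t^(2:ℕ) + (-3)*d^(2:ℕ) + 2*d^(2:ℕ)*t^(2:ℕ) + (13/5)*d^(3:ℕ) + (-18/5)*d^(3:ℕ)*t^(2:ℕ) + (99/100)*d^(4:ℕ) + (-9/50)*d^(4:ℕ)*t^(2:ℕ) + (-81/100)*d^(4:ℕ)*t^(4:ℕ) + (-81/100)*d^(5:ℕ) + (81/50)*d^(5:ℕ)*t^(2:ℕ) + (-81/100)*d^(5:ℕ)*t^(4:ℕ))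
      - (((-2)*d*t + (-4)*d*t^(3:ℕ) + (-2)*d*t^(5:ℕ) + (-27/10)*d^(2:ℕ)*t + (-2)*d^(2:ℕ)*t^(2:ℕ) + (13/5)*d^(2:ℕ)*t^(3:ℕ) + (53/10)*d^(2:ℕ)*t^(5:ℕ) + 2*d^(2:ℕ)*t^(6:ℕ) + (13/5)*d^(3:ℕ)*t + (-4)*d^(3:ℕ)*t^(2:ℕ) + 4*d^(3:ℕ)*t^(3:ℕ) + 2*d^(3:ℕ)*t^(4:ℕ) + (7/5)*d^(3:ℕ)*t^(5:ℕ) + (-2)*d^(3:ℕ)*t^(6:ℕ) + (-13/5)*d^(4:ℕ)*t^(3:ℕ) + 4*d^(4:ℕ)*t^(4:ℕ) + (-13/5)*d^(4:ℕ)*t^(5:ℕ)) ^ 2 * (1*d + 1*d*t^(2:ℕ) + (-3)*d^(2:ℕ) + 2*d^(2:ℕ)*t^(2:ℕ) + (13/5)*d^(3:ℕ) + (-18/5)*d^(3:ℕ)*t^(2:ℕ) + (99/100)*d^(4:ℕ) + (-9/50)*d^(4:ℕ)*t^(2:ℕ) + (-81/100)*d^(4:ℕ)*t^(4:ℕ) + (-81/100)*d^(5:ℕ) + (81/50)*d^(5:ℕ)*t^(2:ℕ) + (-81/100)*d^(5:ℕ)*t^(4:ℕ)) + ((-2)*d*t + (-4)*d*t^(3:ℕ)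 + (-2)*d*t^(5:ℕ) + (11/10)*d^(2:ℕ) + (53/10)*d^(2:ℕ)*t + (-9/10)*d^(2:ℕ)*t^(2:ℕ) + (13/5)*d^(2:ℕ)*t^(3:ℕ) + (-11/10)*d^(2:ℕ)*t^(4:ℕ) + (-27/10)*d^(2:ℕ)*t^(5:ℕ) + (9/10)*d^(2:ℕ)*t^(6:ℕ) + (-19/5)*d^(3:ℕ) + (-11/5)*d^(3:ℕ)*t + (1/5)*d^(3:ℕ)*t^(2:ℕ) + 4*d^(3:ℕ)*t^(3:ℕ) + (-11/5)*d^(3:ℕ)*t^(4:ℕ) + (31/5)*d^(3:ℕ)*t^(5:ℕ) + (9/5)*d^(3:ℕ)*t^(6:ℕ) + (9/5)*d^(4:ℕ) + (-193/50)*d^(4:ℕ)*t + (2/5)*d^(4:ℕ)*t^(2:ℕ) + (-13/5)*d^(4:ℕ)*t^(3:ℕ) + (9/5)*d^(4:ℕ)*t^(4:ℕ) + (63/50)*d^(4:ℕ)*t^(5:ℕ) + (117/50)*d^(5:ℕ)*t + (-18/5)*d^(5:ℕ)*t^(2:ℕ) + (18/5)*d^(5:ℕ)*t^(4:ℕ) + (-117/50)*d^(5:ℕ)*t^(5:ℕ)) ^ 2 * (1*d*t^(2:ℕ) + 1*d*t^(4:ℕ) + 2*d^(2:ℕ)*t^(2:ℕ) + (-3)*d^(2:ℕ)*t^(4:ℕ)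 + (-1)*d^(3:ℕ)*t^(4:ℕ)))
      = d^(4:ℕ)*t^(2:ℕ) * ((6/5) + (-18/5)*t + (36/5)*t^(2:ℕ) + (-72/5)*t^(3:ℕ) + 18*t^(4:ℕ) + (-18)*t^(5:ℕ) + 24*t^(6:ℕ) + 18*t^(8:ℕ) + 18*t^(9:ℕ) + (36/5)*t^(10:ℕ) + (72/5)*t^(11:ℕ) + (6/5)*t^(12:ℕ) + (18/5)*t^(13:ℕ) + (23/10)*d + (-243/50)*d*t + (2423/100)*d*t^(2:ℕ) + (-1196/25)*d*t^(3:ℕ) + (1946/25)*d*t^(4:ℕ) + (-219/2)*d*t^(5:ℕ) + (457/4)*d*t^(6:ℕ) + (-444/5)*d*t^(7:ℕ) + (827/10)*d*t^(8:ℕ) + (-149/10)*d*t^(9:ℕ) + (517/20)*d*t^(10:ℕ) + (216/25)*d*t^(11:ℕ) + (17/25)*d*t^(12:ℕ) + (63/50)*d*t^(13:ℕ) + (-81/100)*d*t^(14:ℕ) + (-623/100)*d^(2:ℕ) + (103/5)*d^(2:ℕ)*t + (-2521/100)*d^(2:ℕ)*t^(2:ℕ) + (1711/50)*d^(2:ℕ)*t^(3:ℕ)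 + (-5491/100)*d^(2:ℕ)*t^(4:ℕ) + (1603/50)*d^(2:ℕ)*t^(5:ℕ) + (-6259/100)*d^(2:ℕ)*t^(6:ℕ) + (1391/25)*d^(2:ℕ)*t^(7:ℕ) + (-4501/100)*d^(2:ℕ)*t^(8:ℕ) + (194/25)*d^(2:ℕ)*t^(9:ℕ) + (-3727/100)*d^(2:ℕ)*t^(10:ℕ) + (-3533/50)*d^(2:ℕ)*t^(11:ℕ) + (-2297/100)*d^(2:ℕ)*t^(12:ℕ) + (-2061/50)*d^(2:ℕ)*t^(13:ℕ) + (-81/20)*d^(2:ℕ)*t^(14:ℕ) + (-3443/500)*d^(3:ℕ) + (2533/250)*d^(3:ℕ)*t + (-6147/100)*d^(3:ℕ)*t^(2:ℕ) + (29981/250)*d^(3:ℕ)*t^(3:ℕ) + (-56559/500)*d^(3:ℕ)*t^(4:ℕ) + (11266/125)*d^(3:ℕ)*t^(5:ℕ) + (-74401/500)*d^(3:ℕ)*t^(6:ℕ) + (35269/125)*d^(3:ℕ)*t^(7:ℕ) + (-131889/500)*d^(3:ℕ)*t^(8:ℕ) + (91037/250)*d^(3:ℕ)*t^(9:ℕ) + (-128529/500)*d^(3:ℕ)*t^(10:ℕ)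 + (5881/250)*d^(3:ℕ)*t^(11:ℕ) + (-36509/500)*d^(3:ℕ)*t^(12:ℕ) + (-4851/125)*d^(3:ℕ)*t^(13:ℕ) + (1053/100)*d^(3:ℕ)*t^(14:ℕ) + (189309/10000)*d^(4:ℕ) + (-7294/125)*d^(4:ℕ)*t + (503039/5000)*d^(4:ℕ)*t^(2:ℕ) + (-6727/50)*d^(4:ℕ)*t^(3:ℕ) + (2838951/10000)*d^(4:ℕ)*t^(4:ℕ) + (-73431/250)*d^(4:ℕ)*t^(5:ℕ) + (551961/2500)*d^(4:ℕ)*t^(6:ℕ) + (-6111/25)*d^(4:ℕ)*t^(7:ℕ) + (1717371/10000)*d^(4:ℕ)*t^(8:ℕ) + (-5077/125)*d^(4:ℕ)*t^(9:ℕ) + (-357361/5000)*d^(4:ℕ)*t^(10:ℕ) + (3269/50)*d^(4:ℕ)*t^(11:ℕ) + (-257631/10000)*d^(4:ℕ)*t^(12:ℕ) + (19773/250)*d^(4:ℕ)*t^(13:ℕ) + (972/25)*d^(4:ℕ)*t^(14:ℕ) + (13529/2000)*d^(5:ℕ) + (-601/250)*d^(5:ℕ)*t + (258707/5000)*d^(5:ℕ)*t^(2:ℕ)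 + (-33081/250)*d^(5:ℕ)*t^(3:ℕ) + (-1243761/10000)*d^(5:ℕ)*t^(4:ℕ) + (58349/125)*d^(5:ℕ)*t^(5:ℕ) + (-1152007/2500)*d^(5:ℕ)*t^(6:ℕ) + (34751/125)*d^(5:ℕ)*t^(7:ℕ) + (2022987/10000)*d^(5:ℕ)*t^(8:ℕ) + (-157533/250)*d^(5:ℕ)*t^(9:ℕ) + (1911107/5000)*d^(5:ℕ)*t^(10:ℕ) + (-58021/250)*d^(5:ℕ)*t^(11:ℕ) + (1349929/10000)*d^(5:ℕ)*t^(12:ℕ) + (9918/125)*d^(5:ℕ)*t^(13:ℕ) + (243/25)*d^(5:ℕ)*t^(14:ℕ) + (-22581/1250)*d^(6:ℕ) + (5814/125)*d^(6:ℕ)*t + (-165771/2500)*d^(6:ℕ)*t^(2:ℕ) + (10566/125)*d^(6:ℕ)*t^(3:ℕ) + (-39616/625)*d^(6:ℕ)*t^(4:ℕ) + (-12586/125)*d^(6:ℕ)*t^(5:ℕ) + (258471/1250)*d^(6:ℕ)*t^(6:ℕ) + (4082/125)*d^(6:ℕ)*t^(7:ℕ) + (-275693/1250)*d^(6:ℕ)*t^(8:ℕ)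 + (19116/125)*d^(6:ℕ)*t^(9:ℕ) + (-318771/2500)*d^(6:ℕ)*t^(10:ℕ) + (-4248/125)*d^(6:ℕ)*t^(11:ℕ) + (81153/625)*d^(6:ℕ)*t^(12:ℕ) + (-1944/125)*d^(6:ℕ)*t^(13:ℕ) + (-324/25)*d^(6:ℕ)*t^(14:ℕ) + (13689/2500)*d^(7:ℕ) + (-2106/125)*d^(7:ℕ)*t + (324/25)*d^(7:ℕ)*t^(2:ℕ) + (2106/125)*d^(7:ℕ)*t^(3:ℕ) + (14283/1250)*d^(7:ℕ)*t^(4:ℕ) + (-14202/125)*d^(7:ℕ)*t^(5:ℕ) + (18504/125)*d^(7:ℕ)*t^(6:ℕ) + (-1746/25)*d^(7:ℕ)*t^(7:ℕ) + (-120519/2500)*d^(7:ℕ)*t^(8:ℕ) + (4104/25)*d^(7:ℕ)*t^(9:ℕ) + (-22644/125)*d^(7:ℕ)*t^(10:ℕ) + (6624/125)*d^(7:ℕ)*t^(11:ℕ) + (32166/625)*d^(7:ℕ)*t^(12:ℕ) + (-4212/125)*d^(7:ℕ)*t^(13:ℕ) + (-13689/1250)*d^(8:ℕ)*t^(4:ℕ) + (4212/125)*d^(8:ℕ)*t^(5:ℕ)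 + (-648/25)*d^(8:ℕ)*t^(6:ℕ) + (-4212/125)*d^(8:ℕ)*t^(7:ℕ) + (46089/625)*d^(8:ℕ)*t^(8:ℕ) + (-4212/125)*d^(8:ℕ)*t^(9:ℕ) + (-648/25)*d^(8:ℕ)*t^(10:ℕ) + (4212/125)*d^(8:ℕ)*t^(11:ℕ) + (-13689/1250)*d^(8:ℕ)*t^(12:ℕ)) := by
    ring
  have hq := mul_pos (show 0 < d^(4:ℕ)*t^(2:ℕ) by positivity) hp
  rw [← id0] at hq
  exact sub_pos.1 hq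

lemma L10_ok (d t : ℝ) (hd : 0 < d) (hd1 : d ≤ (1/2)) (ht : 0 < t) (ht1 : t ≤ 1) :
    (-2 * d * (1 / 2 - Y5 d t) + ab d t * fh5 d t + (1 + d) * (1 / t)) ^ 2
      < 4 * (1 + 4 * d) * (1 / 2 + X d t) * ((1 + 2 * d) * (1 / 2 - Y5 d t) - bb d t * fh5 d t)
        + 4 * (1 + 4 * d) * (1 / 2 + X d t) * fh5 d t * (1 / t) := by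
  have h2 : (1 + t ^ 2) ≠ 0 := by positivity
  have ht0 : t ≠ 0 := ht.ne'
  have hp := pos_L10 d t hd.le hd1 ht.le ht1
  have key : 4 * (1 + 4 * d) * (1 / 2 + X d t) * ((1 + 2 * d) * (1 / 2 - Y5 d t) - bb d t * fh5 d t)
        + 4 * (1 + 4 * d) * (1 / 2 + X d t) * fh5 d t * (1 / t)
        - (-2 * d * (1 / 2 - Y5 d t) + ab d t * fh5 d t + (1 + d) * (1 / t)) ^ 2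
      = d^(1:ℕ)*t^(0:ℕ) * (2 + 2*t + 10*t^(2:ℕ) + 10*t^(3:ℕ) + 20*t^(4:ℕ) + 20*t^(5:ℕ) + 20*t^(6:ℕ) + 20*t^(7:ℕ) + 10*t^(8:ℕ) + 10*t^(9:ℕ) + 2*t^(10:ℕ) + 2*t^(11:ℕ) + 4*d + 4*d*t + 28*d*t^(2:ℕ) + 28*d*t^(3:ℕ) + 64*d*t^(4:ℕ) + 64*d*t^(5:ℕ) + 64*d*t^(6:ℕ) + 64*d*t^(7:ℕ) + 28*d*t^(8:ℕ) + 28*d*t^(9:ℕ) + 4*d*t^(10:ℕ) + 4*d*t^(11:ℕ) + (164/5)*d^(2:ℕ)*t^(2:ℕ) + (174/5)*d^(2:ℕ)*t^(3:ℕ) + (512/5)*d^(2:ℕ)*t^(4:ℕ) + (298/5)*d^(2:ℕ)*t^(5:ℕ) + (406/5)*d^(2:ℕ)*t^(6:ℕ) + (-16/5)*d^(2:ℕ)*t^(7:ℕ) + (12/5)*d^(2:ℕ)*t^(8:ℕ) + (-46)*d^(2:ℕ)*t^(9:ℕ) + (-46/5)*d^(2:ℕ)*t^(10:ℕ) + (-18)*d^(2:ℕ)*t^(11:ℕ) + (8/5)*d^(3:ℕ)*t^(2:ℕ) + (92/5)*d^(3:ℕ)*t^(3:ℕ) + (342/5)*d^(3:ℕ)*t^(4:ℕ)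 + (-208/5)*d^(3:ℕ)*t^(5:ℕ) + (272/5)*d^(3:ℕ)*t^(6:ℕ) + (-624/5)*d^(3:ℕ)*t^(7:ℕ) + (-26/5)*d^(3:ℕ)*t^(8:ℕ) + (-364/5)*d^(3:ℕ)*t^(9:ℕ) + (36/5)*d^(3:ℕ)*t^(10:ℕ) + (-8)*d^(3:ℕ)*t^(11:ℕ) + 8*d^(4:ℕ)*t^(2:ℕ) + (-244/5)*d^(4:ℕ)*t^(3:ℕ) + (516/5)*d^(4:ℕ)*t^(4:ℕ) + (-124)*d^(4:ℕ)*t^(5:ℕ) + (472/5)*d^(4:ℕ)*t^(6:ℕ) + (-196/5)*d^(4:ℕ)*t^(7:ℕ) + (-28)*d^(4:ℕ)*t^(8:ℕ) + 44*d^(4:ℕ)*t^(9:ℕ) + (-136/5)*d^(4:ℕ)*t^(10:ℕ) + 8*d^(4:ℕ)*t^(11:ℕ) + (76/25)*d^(5:ℕ)*t^(4:ℕ) + (-388/25)*d^(5:ℕ)*t^(5:ℕ) + (543/25)*d^(5:ℕ)*t^(6:ℕ) + (-388/25)*d^(5:ℕ)*t^(7:ℕ) + (76/25)*d^(5:ℕ)*t^(8:ℕ) + 32*d^(5:ℕ)*t^(9:ℕ) + (-224/5)*d^(5:ℕ)*t^(10:ℕ) + 32*d^(5:ℕ)*t^(11:ℕ) + (-72/5)*d^(6:ℕ)*t^(4:ℕ)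 + (1044/25)*d^(6:ℕ)*t^(5:ℕ) + (-1476/25)*d^(6:ℕ)*t^(6:ℕ) + (1044/25)*d^(6:ℕ)*t^(7:ℕ) + (-72/5)*d^(6:ℕ)*t^(8:ℕ) + (-4)*d^(7:ℕ)*t^(4:ℕ) + (56/5)*d^(7:ℕ)*t^(5:ℕ) + (-396/25)*d^(7:ℕ)*t^(6:ℕ) + (56/5)*d^(7:ℕ)*t^(7:ℕ) + (-4)*d^(7:ℕ)*t^(8:ℕ)) / (t ^ 2 * (1 + t ^ 2) ^ 4) := by
    simp only [ab, bb, X, Y5, fh5, sg]
    field_simp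
    ring
  have hq := div_pos (mul_pos (show 0 < d^(1:ℕ)*t^(0:ℕ) by positivity) hp) (show 0 < t ^ 2 * (1 + t ^ 2) ^ 4 by positivity)
  rw [← key] at hq
  exact sub_pos.1 hq

lemma L1e_ok (d t : ℝ) (hd : 0 < d) (hd1 : d ≤ (1/2)) (ht : 0 < t) (ht1 : t ≤ 1) :
    (-2 * d * (1 / 2 - Y5 d t) + ab d t * fh5 d t + (1 + d) * ((1 + 2 * (1 + t) * eta1 d) / t)) ^ 2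
      < 4 * (1 + 4 * d) * (1 / 2 + X d t) * ((1 + 2 * d) * (1 / 2 - Y5 d t) - bb d t * fh5 d t)
        + 4 * (1 + 4 * d) * (1 / 2 + X d t) * fh5 d t * ((1 + 2 * (1 + t) * eta1 d) / t) := by
  have h2 : (1 + t ^ 2) ≠ 0 := by positivity
  have ht0 : t ≠ 0 := ht.ne'
  have hW : (1 + (1/4) * d) ≠ 0 := by positivity
  have hp := pos_L1e d t hd.le hd1 ht.le ht1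
  have key : 4 * (1 + 4 * d) * (1 / 2 + X d t) * ((1 + 2 * d) * (1 / 2 - Y5 d t) - bb d t * fh5 d t)
        + 4 * (1 + 4 * d) * (1 / 2 + X d t) * fh5 d t * ((1 + 2 * (1 + t) * eta1 d) / t)
        - (-2 * d * (1 / 2 - Y5 d t) + ab d t * fh5 d t + (1 + d) * ((1 + 2 * (1 + t) * eta1 d) / t)) ^ 2
      = d^(2:ℕ)*t^(0:ℕ) * ((1/2) + (1/2)*t + (5/2)*t^(2:ℕ) + (5/2)*t^(3:ℕ) + 5*t^(4:ℕ) + 5*t^(5:ℕ) + 5*t^(6:ℕ) + 5*t^(7:ℕ) + (5/2)*t^(8:ℕ) + (5/2)*t^(9:ℕ) + (1/2)*t^(10:ℕ) + (1/2)*t^(11:ℕ) + (17/8)*d + (-7/8)*d*t + (777/40)*d*t^(2:ℕ) + (77/8)*d*t^(3:ℕ) + (1257/20)*d*t^(4:ℕ) + (169/20)*d*t^(5:ℕ) + (1281/20)*d*t^(6:ℕ) + (-287/20)*d*t^(7:ℕ) + (181/8)*d*t^(8:ℕ)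 + (-447/40)*d*t^(9:ℕ) + (33/8)*d*t^(10:ℕ) + (9/8)*d*t^(11:ℕ) + (-7/4)*d^(2:ℕ) + (-19/4)*d^(2:ℕ)*t + (417/20)*d^(2:ℕ)*t^(2:ℕ) + (563/20)*d^(2:ℕ)*t^(3:ℕ) + (1469/10)*d^(2:ℕ)*t^(4:ℕ) + (-39/10)*d^(2:ℕ)*t^(5:ℕ) + (1319/10)*d^(2:ℕ)*t^(6:ℕ) + (-939/10)*d^(2:ℕ)*t^(7:ℕ) + (161/20)*d^(2:ℕ)*t^(8:ℕ) + (-1227/20)*d^(2:ℕ)*t^(9:ℕ) + (9/20)*d^(2:ℕ)*t^(10:ℕ) + (-17/4)*d^(2:ℕ)*t^(11:ℕ) + (657/20)*d^(3:ℕ)*t^(2:ℕ) + (-1553/40)*d^(3:ℕ)*t^(3:ℕ) + (902/5)*d^(3:ℕ)*t^(4:ℕ) + (-4779/40)*d^(3:ℕ)*t^(5:ℕ) + (5451/40)*d^(3:ℕ)*t^(6:ℕ) + (-302/5)*d^(3:ℕ)*t^(7:ℕ) + (-661/20)*d^(3:ℕ)*t^(8:ℕ) + (137/8)*d^(3:ℕ)*t^(9:ℕ) + (-871/40)*d^(3:ℕ)*t^(10:ℕ) + (-25/8)*d^(3:ℕ)*t^(11:ℕ)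 + (65/2)*d^(4:ℕ)*t^(2:ℕ) + (-137/4)*d^(4:ℕ)*t^(3:ℕ) + (14143/200)*d^(4:ℕ)*t^(4:ℕ) + (-1503/25)*d^(4:ℕ)*t^(5:ℕ) + (608/25)*d^(4:ℕ)*t^(6:ℕ) + (-98/25)*d^(4:ℕ)*t^(7:ℕ) + (-5817/200)*d^(4:ℕ)*t^(8:ℕ) + (469/20)*d^(4:ℕ)*t^(9:ℕ) + (-887/20)*d^(4:ℕ)*t^(10:ℕ) + (3/2)*d^(4:ℕ)*t^(11:ℕ) + (13/2)*d^(5:ℕ)*t^(2:ℕ) + (-109/20)*d^(5:ℕ)*t^(3:ℕ) + (-483/100)*d^(5:ℕ)*t^(4:ℕ) + (613/20)*d^(5:ℕ)*t^(5:ℕ) + (-1347/25)*d^(5:ℕ)*t^(6:ℕ) + (791/20)*d^(5:ℕ)*t^(7:ℕ) + (-1863/100)*d^(5:ℕ)*t^(8:ℕ) + (239/20)*d^(5:ℕ)*t^(9:ℕ) + (-209/10)*d^(5:ℕ)*t^(10:ℕ) + (17/2)*d^(5:ℕ)*t^(11:ℕ) + (-1101/100)*d^(6:ℕ)*t^(4:ℕ) + (3111/100)*d^(6:ℕ)*t^(5:ℕ) + (-17601/400)*d^(6:ℕ)*t^(6:ℕ)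 + (3111/100)*d^(6:ℕ)*t^(7:ℕ) + (-1101/100)*d^(6:ℕ)*t^(8:ℕ) + 2*d^(6:ℕ)*t^(9:ℕ) + (-14/5)*d^(6:ℕ)*t^(10:ℕ) + 2*d^(6:ℕ)*t^(11:ℕ) + (-29/10)*d^(7:ℕ)*t^(4:ℕ) + (821/100)*d^(7:ℕ)*t^(5:ℕ) + (-1161/100)*d^(7:ℕ)*t^(6:ℕ) + (821/100)*d^(7:ℕ)*t^(7:ℕ) + (-29/10)*d^(7:ℕ)*t^(8:ℕ) + (-1/4)*d^(8:ℕ)*t^(4:ℕ) + (7/10)*d^(8:ℕ)*t^(5:ℕ) + (-99/100)*d^(8:ℕ)*t^(6:ℕ) + (7/10)*d^(8:ℕ)*t^(7:ℕ) + (-1/4)*d^(8:ℕ)*t^(8:ℕ)) / (t ^ 2 * (1 + t ^ 2) ^ 4 * (1 + (1/4) * d) ^ 2) := by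
    simp only [ab, bb, X, Y5, fh5, sg, eta1]
    field_simp
    ring
  have hq := div_pos (mul_pos (show 0 < d^(2:ℕ)*t^(0:ℕ) by positivity) hp) (show 0 < t ^ 2 * (1 + t ^ 2) ^ 4 * (1 + (1/4) * d) ^ 2 by positivity)
  rw [← key] at hq
  exact sub_pos.1 hq

lemma L20_ok (d t : ℝ) (hd : 0 < d) (hd1 : d ≤ (1/2)) (ht : 0 < t) (ht1 : t ≤ 1) :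
    (-2 * d * (1 / 2 - Y5 d t) + bb d t * (-fh5 d t) + (1 + d) * (t)) ^ 2
      < 4 * (1 + 4 * d) * (1 / 2 + X2 d t) * ((1 + 2 * d) * (1 / 2 - Y5 d t) - ab d t * (-fh5 d t))
        + 4 * (1 + 4 * d) * (1 / 2 + X2 d t) * (-fh5 d t) * (t) := by
  have h2 : (1 + t ^ 2) ≠ 0 := by positivity
  have ht0 : t ≠ 0 := ht.ne'
  have hp := pos_L20 d t hd.le hd1 ht.le ht1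
  have key : 4 * (1 + 4 * d) * (1 / 2 + X2 d t) * ((1 + 2 * d) * (1 / 2 - Y5 d t) - ab d t * (-fh5 d t))
        + 4 * (1 + 4 * d) * (1 / 2 + X2 d t) * (-fh5 d t) * (t)
        - (-2 * d * (1 / 2 - Y5 d t) + bb d t * (-fh5 d t) + (1 + d) * (t)) ^ 2
      = d^(1:ℕ)*t^(0:ℕ) * (2 + 2*t + 10*t^(2:ℕ) + 10*t^(3:ℕ) + 20*t^(4:ℕ) + 20*t^(5:ℕ) + 20*t^(6:ℕ) + 20*t^(7:ℕ) + 10*t^(8:ℕ) + 10*t^(9:ℕ) + 2*t^(10:ℕ) + 2*t^(11:ℕ) + 4*d + 3*d*t + (147/5)*d*t^(2:ℕ) + (124/5)*d*t^(3:ℕ) + (348/5)*d*t^(4:ℕ) + (288/5)*d*t^(5:ℕ) + (362/5)*d*t^(6:ℕ) + 54*d*t^(7:ℕ) + (168/5)*d*t^(8:ℕ) + (97/5)*d*t^(9:ℕ) + (27/5)*d*t^(10:ℕ) + (6/5)*d*t^(11:ℕ) + (-62/5)*d^(2:ℕ) + (-62/5)*d^(2:ℕ)*t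 + (-126/5)*d^(2:ℕ)*t^(2:ℕ) + (-68/5)*d^(2:ℕ)*t^(3:ℕ) + 34*d^(2:ℕ)*t^(4:ℕ) + (196/5)*d^(2:ℕ)*t^(5:ℕ) + (512/5)*d^(2:ℕ)*t^(6:ℕ) + (202/5)*d^(2:ℕ)*t^(7:ℕ) + 64*d^(2:ℕ)*t^(8:ℕ) + (-66/5)*d^(2:ℕ)*t^(9:ℕ) + (42/5)*d^(2:ℕ)*t^(10:ℕ) + (-66/5)*d^(2:ℕ)*t^(11:ℕ) + (72/5)*d^(3:ℕ) + (72/5)*d^(3:ℕ)*t + (-47/25)*d^(3:ℕ)*t^(2:ℕ) + (-13)*d^(3:ℕ)*t^(3:ℕ) + (-1074/25)*d^(3:ℕ)*t^(4:ℕ) + (-164/5)*d^(3:ℕ)*t^(5:ℕ) + (56/5)*d^(3:ℕ)*t^(6:ℕ) + (-248/5)*d^(3:ℕ)*t^(7:ℕ) + (1254/25)*d^(3:ℕ)*t^(8:ℕ) + (-272/5)*d^(3:ℕ)*t^(9:ℕ) + (307/25)*d^(3:ℕ)*t^(10:ℕ) + (-51/5)*d^(3:ℕ)*t^(11:ℕ) + (1668/25)*d^(4:ℕ)*t^(2:ℕ) + (284/25)*d^(4:ℕ)*t^(3:ℕ) + (1386/25)*d^(4:ℕ)*t^(4:ℕ) + (24/5)*d^(4:ℕ)*t^(5:ℕ)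 + (-214/5)*d^(4:ℕ)*t^(6:ℕ) + (-154/25)*d^(4:ℕ)*t^(7:ℕ) + (-986/25)*d^(4:ℕ)*t^(8:ℕ) + (16/5)*d^(4:ℕ)*t^(9:ℕ) + (-198/25)*d^(4:ℕ)*t^(10:ℕ) + (14/5)*d^(4:ℕ)*t^(11:ℕ) + (-1196/25)*d^(5:ℕ)*t^(2:ℕ) + 51*d^(5:ℕ)*t^(3:ℕ) + (-172/25)*d^(5:ℕ)*t^(4:ℕ) + (-1728/25)*d^(5:ℕ)*t^(5:ℕ) + (2398/25)*d^(5:ℕ)*t^(6:ℕ) + (-2258/25)*d^(5:ℕ)*t^(7:ℕ) + (188/5)*d^(5:ℕ)*t^(8:ℕ) + (351/25)*d^(5:ℕ)*t^(9:ℕ) + (-434/25)*d^(5:ℕ)*t^(10:ℕ) + (67/5)*d^(5:ℕ)*t^(11:ℕ) + (144/5)*d^(6:ℕ)*t^(2:ℕ) + (-1008/25)*d^(6:ℕ)*t^(3:ℕ) + (144/5)*d^(6:ℕ)*t^(4:ℕ) + (52/5)*d^(6:ℕ)*t^(5:ℕ) + (-1484/25)*d^(6:ℕ)*t^(6:ℕ) + (1988/25)*d^(6:ℕ)*t^(7:ℕ) + (-1204/25)*d^(6:ℕ)*t^(8:ℕ) + (-136/25)*d^(6:ℕ)*t^(9:ℕ)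 + (56/5)*d^(6:ℕ)*t^(10:ℕ) + (-4)*d^(6:ℕ)*t^(11:ℕ) + (-4)*d^(7:ℕ)*t^(7:ℕ) + (56/5)*d^(7:ℕ)*t^(8:ℕ) + (-396/25)*d^(7:ℕ)*t^(9:ℕ) + (56/5)*d^(7:ℕ)*t^(10:ℕ) + (-4)*d^(7:ℕ)*t^(11:ℕ)) / (t * (1 + t ^ 2) ^ 4) := by
    simp only [ab, bb, X2, X, Y5, fh5, sg]
    field_simp
    ring
  have hq := div_pos (mul_pos (show 0 < d^(1:ℕ)*t^(0:ℕ) by positivity) hp) (show 0 < t * (1 + t ^ 2) ^ 4 by positivity)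
  rw [← key] at hq
  exact sub_pos.1 hq

lemma L2e_ok (d t : ℝ) (hd : 0 < d) (hd1 : d ≤ (1/2)) (ht : 0 < t) (ht1 : t ≤ 1) :
    (-2 * d * (1 / 2 - Y5 d t) + bb d t * (-fh5 d t) + (1 + d) * (t + 2 * (1 + t) * eta1 d)) ^ 2
      < 4 * (1 + 4 * d) * (1 / 2 + X2 d t) * ((1 + 2 * d) * (1 / 2 - Y5 d t) - ab d t * (-fh5 d t))
        + 4 * (1 + 4 * d) * (1 / 2 + X2 d t) * (-fh5 d t) * (t + 2 * (1 + t) * eta1 d) := by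
  have h2 : (1 + t ^ 2) ≠ 0 := by positivity
  have ht0 : t ≠ 0 := ht.ne'
  have hW : (1 + (1/4) * d) ≠ 0 := by positivity
  have hp := pos_L2e d t hd.le hd1 ht.le ht1
  have key : 4 * (1 + 4 * d) * (1 / 2 + X2 d t) * ((1 + 2 * d) * (1 / 2 - Y5 d t) - ab d t * (-fh5 d t))
        + 4 * (1 + 4 * d) * (1 / 2 + X2 d t) * (-fh5 d t) * (t + 2 * (1 + t) * eta1 d)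
        - (-2 * d * (1 / 2 - Y5 d t) + bb d t * (-fh5 d t) + (1 + d) * (t + 2 * (1 + t) * eta1 d)) ^ 2
      = d^(2:ℕ)*t^(0:ℕ) * ((1/2) + (-1/2)*t + (39/10)*t^(2:ℕ) + (-7/10)*t^(3:ℕ) + (53/5)*t^(4:ℕ) + (-7/5)*t^(5:ℕ) + (67/5)*t^(6:ℕ) + (-5)*t^(7:ℕ) + (81/10)*t^(8:ℕ) + (-61/10)*t^(9:ℕ) + (19/10)*t^(10:ℕ) + (-23/10)*t^(11:ℕ) + (9/8)*d + (-19/8)*d*t + (-19/40)*d*t^(2:ℕ) + (21/8)*d*t^(3:ℕ) + (481/20)*d*t^(4:ℕ) + (457/20)*d*t^(5:ℕ) + (1189/20)*d*t^(6:ℕ) + (-23/4)*d*t^(7:ℕ) + (1569/40)*d*t^(8:ℕ) + (-1667/40)*d*t^(9:ℕ) + (217/40)*d*t^(10:ℕ) + (-723/40)*d*t^(11:ℕ) + (-57/20)*d^(2:ℕ) + (-473/80)*d^(2:ℕ)*t + (-11937/400)*d^(2:ℕ)*t^(2:ℕ) + (-331/20)*d^(2:ℕ)*t^(3:ℕ)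 + (-1031/100)*d^(2:ℕ)*t^(4:ℕ) + (411/10)*d^(2:ℕ)*t^(5:ℕ) + (645/8)*d^(2:ℕ)*t^(6:ℕ) + (-669/40)*d^(2:ℕ)*t^(7:ℕ) + (3273/50)*d^(2:ℕ)*t^(8:ℕ) + (-9199/80)*d^(2:ℕ)*t^(9:ℕ) + (607/400)*d^(2:ℕ)*t^(10:ℕ) + (-1861/40)*d^(2:ℕ)*t^(11:ℕ) + (113/40)*d^(3:ℕ) + (113/40)*d^(3:ℕ)*t + (10801/200)*d^(3:ℕ)*t^(2:ℕ) + (209/20)*d^(3:ℕ)*t^(3:ℕ) + (509/40)*d^(3:ℕ)*t^(4:ℕ) + (2249/100)*d^(3:ℕ)*t^(5:ℕ) + (-1349/25)*d^(3:ℕ)*t^(6:ℕ) + (-239/8)*d^(3:ℕ)*t^(7:ℕ) + (-47/5)*d^(3:ℕ)*t^(8:ℕ) + (-15773/200)*d^(3:ℕ)*t^(9:ℕ) + (1221/200)*d^(3:ℕ)*t^(10:ℕ) + (-273/8)*d^(3:ℕ)*t^(11:ℕ) + (9/10)*d^(4:ℕ) + (9/10)*d^(4:ℕ)*t + (-2279/400)*d^(4:ℕ)*t^(2:ℕ) + (21067/400)*d^(4:ℕ)*t^(3:ℕ)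 + (4851/200)*d^(4:ℕ)*t^(4:ℕ) + (-6287/100)*d^(4:ℕ)*t^(5:ℕ) + (1603/25)*d^(4:ℕ)*t^(6:ℕ) + (-418/5)*d^(4:ℕ)*t^(7:ℕ) + (3223/200)*d^(4:ℕ)*t^(8:ℕ) + (377/50)*d^(4:ℕ)*t^(9:ℕ) + (-6861/400)*d^(4:ℕ)*t^(10:ℕ) + (453/80)*d^(4:ℕ)*t^(11:ℕ) + (-343/20)*d^(5:ℕ)*t^(2:ℕ) + (-363/100)*d^(5:ℕ)*t^(3:ℕ) + (3021/200)*d^(5:ℕ)*t^(4:ℕ) + (-2019/50)*d^(5:ℕ)*t^(5:ℕ) + (5161/200)*d^(5:ℕ)*t^(6:ℕ) + (-461/200)*d^(5:ℕ)*t^(7:ℕ) + (-3141/200)*d^(5:ℕ)*t^(8:ℕ) + (207/10)*d^(5:ℕ)*t^(9:ℕ) + (-1851/200)*d^(5:ℕ)*t^(10:ℕ) + (1243/40)*d^(5:ℕ)*t^(11:ℕ) + (421/100)*d^(6:ℕ)*t^(2:ℕ) + (-5637/400)*d^(6:ℕ)*t^(3:ℕ) + (193/20)*d^(6:ℕ)*t^(4:ℕ) + (-86/25)*d^(6:ℕ)*t^(5:ℕ) + (-2721/200)*d^(6:ℕ)*t^(6:ℕ)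 + (4007/200)*d^(6:ℕ)*t^(7:ℕ) + (-621/100)*d^(6:ℕ)*t^(8:ℕ) + (-1069/80)*d^(6:ℕ)*t^(9:ℕ) + (2567/200)*d^(6:ℕ)*t^(10:ℕ) + (163/80)*d^(6:ℕ)*t^(11:ℕ) + (9/5)*d^(7:ℕ)*t^(2:ℕ) + (-63/25)*d^(7:ℕ)*t^(3:ℕ) + (9/5)*d^(7:ℕ)*t^(4:ℕ) + (13/20)*d^(7:ℕ)*t^(5:ℕ) + (-371/100)*d^(7:ℕ)*t^(6:ℕ) + (297/100)*d^(7:ℕ)*t^(7:ℕ) + (259/100)*d^(7:ℕ)*t^(8:ℕ) + (-413/50)*d^(7:ℕ)*t^(9:ℕ) + (63/10)*d^(7:ℕ)*t^(10:ℕ) + (-9/4)*d^(7:ℕ)*t^(11:ℕ) + (-1/4)*d^(8:ℕ)*t^(7:ℕ) + (7/10)*d^(8:ℕ)*t^(8:ℕ) + (-99/100)*d^(8:ℕ)*t^(9:ℕ) + (7/10)*d^(8:ℕ)*t^(10:ℕ) + (-1/4)*d^(8:ℕ)*t^(11:ℕ)) / (t * (1 + t ^ 2) ^ 4 * (1 + (1/4) * d) ^ 2) := by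
    simp only [ab, bb, X2, X, Y5, fh5, sg, eta1]
    field_simp
    ring
  have hq := div_pos (mul_pos (show 0 < d^(2:ℕ)*t^(0:ℕ) by positivity) hp) (show 0 < t * (1 + t ^ 2) ^ 4 * (1 + (1/4) * d) ^ 2 by positivity)
  rw [← key] at hq
  exact sub_pos.1 hq

end Vale.Agent.Lib.P100.AB.W5
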