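import Vale.Agent.Lib.P100.AB.W5
import Vale.Agent.Lib.P100.LapForm
import Vale.Agent.Lib.P100.NABAlg
import Vale.Agent.Lib.P100.AB.V1Main

/-!
# P100: nonexistence at distance `1/4` from the critical hyperbola, all ratios of `p, q`, every dimension
`n ≥ 5`, and the same with equal negative weights in the effective dimension `m = 2 (n + A) / (2 + A) > 4`.
-/

open InnerProductSpace Laplacian

noncomputable section

namespace Vale.Agent.Lib.P100.AB.W5

open Vale.Agent.Lib.P100 Vale.Agent.Lib.P100.AB Vale.Agent.Lib.P100.AB.V1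

lemma X2_gt (d t : ℝ) (hd : 0 < d) (hd1 : d ≤ (1/2)) (ht : 0 < t) (ht1 : t ≤ 1) :
    0 < 1 / 2 + X2 d t := by
  have h1 := X_le d t hd
  have h2 := X_nonneg d t hd ht ht1
  unfold X2
  have h3 : (1 - (9/10) * d) * X d t ≤ (1 - (9/10) * d) * d :=
    mul_le_mul_of_nonneg_left h1 (by linarith)
  nlinarith [mul_pos hd hd]

/-- the certificate -/
theorem design_cert {d t p q : ℝ} (hd : 0 < d) (hd1 : d ≤ (1/2)) (ht : 0 < t) (ht1 : t ≤ 1)
    (hp0 : 1 / t ≤ p) (hp1 : p ≤ (1 + 2 * (1 + t) * eta1 d) / t)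
    (hq0 : t ≤ q) (hq1 : q ≤ t + 2 * (1 + t) * eta1 d) :
    ∃ (c : Fin 14 → ℝ) (c0 : ℝ), 0 < c0 ∧ Cert (2 + 1 / d) p q (1 - ab d t) (1 - bb d t) c c0 := by
  have hd0 : d ≠ 0 := hd.ne'
  have he : (1 + 2 * d) ≠ 0 := by positivity
  have hn : (2 : ℝ) ≤ 2 + 1 / d := by
    have : 0 < 1 / d := by positivity
    linarith
  have hh : 1 / (2 + 1 / d) = d / (1 + 2 * d) := by
    field_simp; ring
  have hE1 : 0 < 1 / 2 + X d t := by
    have := X_nonneg d t hd ht ht1
    linarith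
  have hE2 : 0 < 1 / 2 + X2 d t := X2_gt d t hd hd1 ht ht1
  apply cert_of_params (X1 := X d t) (X2 := X2 d t) (Y1 := Y5 d t) (Y2 := Y5 d t)
    (f := fh5 d t / (1 + 2 * d)) hn
  · rw [hh]; exact r1_pos d t hd hd1 ht ht1
  · rw [hh]; exact r6_pos d t hd hd1 ht ht1
  · exact r3_pos d t hd hd1 ht ht1
  · rw [hh]; exact hD_ok d t hd hd1 ht ht1
  · exact hE1
  · exact hE2
  · -- first discriminant
    have hq := quad_between (A := -2 * d * (1 / 2 - Y5 d t) + ab d t * fh5 d t) (B := 1 + d)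
      (C := 4 * (1 + 4 * d) * (1 / 2 + X d t) * ((1 + 2 * d) * (1 / 2 - Y5 d t) - bb d t * fh5 d t))
      (E := 4 * (1 + 4 * d) * (1 / 2 + X d t) * fh5 d t) hp0 hp1
      (L10_ok d t hd hd1 ht ht1) (L1e_ok d t hd hd1 ht ht1)
    exact L_scaled hd rfl hq
  · -- second discriminant
    have hq' := quad_between (A := -2 * d * (1 / 2 - Y5 d t) + bb d t * (-fh5 d t)) (B := 1 + d)
      (C := 4 * (1 + 4 * d) * (1 / 2 + X2 d t) * ((1 + 2 * d) * (1 / 2 - Y5 d t) - ab d t * (-fh5 d t)))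
      (E := 4 * (1 + 4 * d) * (1 / 2 + X2 d t) * (-fh5 d t)) hq0 hq1
      (L20_ok d t hd hd1 ht ht1) (L2e_ok d t hd hd1 ht ht1)
    have h := L_scaled (F := 1 / 2 - Y5 d t) (E := 1 / 2 + X2 d t) (a' := bb d t) (b' := ab d t)
      (fh := -fh5 d t) (p := q) hd rfl hq'
    have e1 : (2 / (2 + 1 / d) * (1 / 2 - Y5 d t) - (1 - 1 / (2 + 1 / d)) * q
          - (-fh5 d t / (1 + 2 * d)) * bb d t) / 2
        = (2 / (2 + 1 / d) * (1 / 2 - Y5 d t) - (1 - 1 / (2 + 1 / d)) * q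
          + (fh5 d t / (1 + 2 * d)) * bb d t) / 2 := by
      ring
    have e2 : (1 / 2 - Y5 d t) + (-fh5 d t / (1 + 2 * d)) * (q - ab d t)
        = (1 / 2 - Y5 d t) - (fh5 d t / (1 + 2 * d)) * (q - ab d t) := by
      ring
    rw [e1, e2] at h
    exact h

/-- the core case `q <= p` -/
theorem no_solution_core {n : ℕ} (hn : 5 ≤ n) {p q : ℝ} (hp : 0 < p) (hq : 0 < q) (hqp : q ≤ p)
    (hpq : 1 < p * q) (hsum : ((n : ℝ) - 2 + (1/4)) * (p * q - 1) ≤ 2 * (p + q + 2))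
    {u v : Eu n → ℝ} (hucont : Continuous u) (hvcont : Continuous v)
    (hupos : ∀ x, 0 < u x) (hvpos : ∀ x, 0 < v x)
    (hu : ContDiffOn ℝ 2 u {0}ᶜ) (hv : ContDiffOn ℝ 2 v {0}ᶜ)
    (hpdeU : ∀ x, x ≠ 0 → - Δ u x = v x ^ p)
    (hpdeV : ∀ x, x ≠ 0 → - Δ v x = u x ^ q) : False := by
  have hnR : ((5 : ℕ) : ℝ) ≤ n := by exact_mod_cast hn
  have hnR' : (5 : ℝ) ≤ n := by simpa using hnR
  have hm : 0 < (n : ℝ) - 2 := by linarith
  obtain ⟨d, hdd⟩ : ∃ d : ℝ, d = 1 / ((n : ℝ) - 2) := ⟨_, rfl⟩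
  have hd : 0 < d := by rw [hdd]; positivity
  have hd1 : d ≤ (1/2) := by
    rw [hdd, div_le_iff₀ hm]
    have : ((1/2) : ℝ) * ((5 : ℝ) - 2) = 3 / 2 := by norm_num
    nlinarith
  have hd2 : d < 1 / 2 := by
    rw [hdd, div_lt_iff₀ hm]
    linarith
  have hnd : (n : ℝ) = 2 + 1 / d := by
    rw [hdd]; field_simp; ring
  have hp1 : 0 < p + 1 := by linarith
  have hq1 : 0 < q + 1 := by linarith
  obtain ⟨t, htt⟩ : ∃ t : ℝ, t = (q + 1) / (p + 1) := ⟨_, rfl⟩
  have ht : 0 < t := by rw [htt]; positivity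
  have ht1 : t ≤ 1 := by
    rw [htt, div_le_one hp1]; linarith
  have hqt : q + 1 = t * (p + 1) := by
    rw [htt]; field_simp
  have hS : 0 < p + q + 2 := by linarith
  have hw : 0 < p * q - 1 := by linarith
  obtain ⟨η, hη⟩ : ∃ η : ℝ, η = (p * q - 1) / (2 * (p + q + 2)) := ⟨_, rfl⟩
  have hη0 : 0 < η := by rw [hη]; positivity
  have hηS : 2 * (p + q + 2) * η = p * q - 1 := by
    rw [hη]; field_simp
  have h1t : p + q + 2 = (p + 1) * (1 + t) := by
    have : q = t * (p + 1) - 1 := by linarith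
    rw [this]; ring
  -- the two formulas
  have hqf : q = t + 2 * (1 + t) * η := by
    have e : (p + 1) * q = (p + 1) * (t + 2 * (1 + t) * η) := by
      have h2 : (p + 1) * (2 * (1 + t) * η) = p * q - 1 := by
        rw [← hηS, h1t]; ring
      have h3 : (p + 1) * t = q + 1 := by linarith
      have : (p + 1) * (t + 2 * (1 + t) * η) = (p + 1) * t + (p + 1) * (2 * (1 + t) * η) := by ring
      rw [this, h2, h3]
      ring
    exact mul_left_cancel₀ hp1.ne' e
  have hpf : p = (1 + 2 * (1 + t) * η) / t := by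
    rw [eq_div_iff ht.ne']
    have : q = t + 2 * (1 + t) * η := hqf
    have e : (p + 1) * (p * t) = (p + 1) * (1 + 2 * (1 + t) * η) := by
      have h2 : (p + 1) * (2 * (1 + t) * η) = p * q - 1 := by
        rw [← hηS, h1t]; ring
      have h3 : (p + 1) * t = q + 1 := by linarith
      have e2 : (p + 1) * (1 + 2 * (1 + t) * η) = (p + 1) + (p + 1) * (2 * (1 + t) * η) := by ring
      rw [e2, h2]
      have e3 : (p + 1) * (p * t) = p * ((p + 1) * t) := by ring
      rw [e3, h3]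
      ring
    exact mul_left_cancel₀ hp1.ne' e
  have hηle : η ≤ eta1 d := by
    unfold eta1
    have hW : 0 < 1 + (1/4) * d := by positivity
    rw [le_div_iff₀ hW, hη, div_mul_eq_mul_div, div_le_iff₀ (by positivity)]
    have h5 : ((n : ℝ) - 2) * d = 1 := by
      rw [hdd]; field_simp
    have h6 : ((n : ℝ) - 2 + (1/4)) * d = 1 + (1/4) * d := by
      nlinarith
    have h7 := mul_le_mul_of_nonneg_right hsum hd.le
    nlinarith
  have hη2 : 2 * (1 + t) * η ≤ 2 * (1 + t) * eta1 d := by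
    apply mul_le_mul_of_nonneg_left hηle (by positivity)
  have hη3 : 0 ≤ 2 * (1 + t) * η := by positivity
  obtain ⟨c, c0, hc0, hc⟩ := design_cert (p := p) (q := q) hd hd1 ht ht1
    (by rw [hpf]; exact div_le_div_of_nonneg_right (by linarith) ht.le)
    (by rw [hpf]; exact div_le_div_of_nonneg_right (by linarith) ht.le)
    (by rw [hqf]; linarith)
    (by rw [hqf]; linarith)
  rw [← hnd] at hc
  have hab := ab_le d t hd
  have hbb := bb_le d t hd ht ht1
  have hab0 := ab_nonneg d t hd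
  have hbb0 := bb_nonneg d t hd
  have hd27 : 2 * d < 1 := by
    have : d < 1 / 2 := hd2
    linarith
  obtain ⟨a, ha⟩ : ∃ a : ℝ, a = 1 - ab d t := ⟨_, rfl⟩
  obtain ⟨b, hb⟩ : ∃ b : ℝ, b = 1 - bb d t := ⟨_, rfl⟩
  rw [← ha, ← hb] at hc
  have ha0 : 0 < a := by rw [ha]; linarith
  have hb0 : 0 < b := by rw [hb]; linarith
  have hn4 : 4 < n := by omega
  have hw' : p * q - 1 ≠ 0 := hw.ne'
  refine no_solution_of_cert_lap hn4 (a := a) (b := b)
    (lam := (a + q * b) / (p * q - 1)) (mu := (b + p * a) / (p * q - 1))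
    hc hc0 ?_ ?_ (by positivity) (by positivity) ?_ hucont hvcont hupos hvpos hu hv hpdeU hpdeV
  · have e : (b + p * a) / (p * q - 1) * q - (a + q * b) / (p * q - 1) = a := by
      rw [div_mul_eq_mul_div, ← sub_div, div_eq_iff hw']
      ring
    exact e.symm
  · have e : (a + q * b) / (p * q - 1) * p - (b + p * a) / (p * q - 1) = b := by
      rw [div_mul_eq_mul_div, ← sub_div, div_eq_iff hw']
      ring
    exact e.symm
  · -- the exponent condition
    have hA : (a + q * b) / (p * q - 1) * (p * q - 1) = a + q * b := div_mul_cancel₀ _ hw'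
    have hB : (b + p * a) / (p * q - 1) * (p * q - 1) = b + p * a := div_mul_cancel₀ _ hw'
    have e : 2 * ((a + q * b) / (p * q - 1) + (b + p * a) / (p * q - 1)) + 4
        = (2 * (a * (p + 1) + b * (q + 1)) + 4 * (p * q - 1)) / (p * q - 1) := by
      rw [eq_div_iff hw']
      linear_combination 2 * hA + 2 * hB
    rw [e, lt_div_iff₀ hw]
    -- (n-4)(pq-1) < 2(a(p+1)+b(q+1)); pq-1 = 2 (p+1)(1+t) eta, q+1 = t(p+1)
    have h2 : p * q - 1 = 2 * ((p + 1) * (1 + t)) * η := by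
      rw [← hηS, h1t]
    have h3 : a * (p + 1) + b * (q + 1) = (p + 1) * (a + b * t) := by
      rw [hqt]; ring
    have hlow : (1 - 2 * d) * (1 + t) ≤ a + b * t := by
      rw [ha, hb]
      exact low_bound d t hd ht
    have hηd : η < d := by
      have h8 : eta1 d < d := by
        unfold eta1
        have hWp : 0 < (1/4) * d := by positivity
        rw [div_lt_iff₀ (by positivity)]
        nlinarith
      linarith
    have hm1 : ((n : ℝ) - 4) * d = 1 - 2 * d := by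
      have h5 : ((n : ℝ) - 2) * d = 1 := by
        rw [hdd]; field_simp
      linarith
    have hm2 : 0 < (n : ℝ) - 4 := by linarith
    exact liouv hm2 hηd hm1 hlow h2 h3 hp1 ht

/-- **Every dimension `n ≥ 5`, all ratios.** -/
theorem no_solution5 {n : ℕ} (hn : 5 ≤ n) {p q : ℝ} (hp : 0 < p) (hq : 0 < q) (hpq : 1 < p * q)
    (hsum : (n : ℝ) - 2 + 1 / 4 ≤ 2 * (p + 1) / (p * q - 1) + 2 * (q + 1) / (p * q - 1))
    {u v : Eu n → ℝ} (hucont : Continuous u) (hvcont : Continuous v)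
    (hupos : ∀ x, 0 < u x) (hvpos : ∀ x, 0 < v x)
    (hu : ContDiffOn ℝ 2 u {0}ᶜ) (hv : ContDiffOn ℝ 2 v {0}ᶜ)
    (hpdeU : ∀ x, x ≠ 0 → - Δ u x = v x ^ p)
    (hpdeV : ∀ x, x ≠ 0 → - Δ v x = u x ^ q) : False := by
  have hw : 0 < p * q - 1 := by linarith
  have h3 : ((n : ℝ) - 2 + (1/4)) * (p * q - 1) ≤ 2 * (p + q + 2) := by
    have e : 2 * (p + 1) / (p * q - 1) + 2 * (q + 1) / (p * q - 1)
        = 2 * (p + q + 2) / (p * q - 1) := by
      rw [← add_div]; ring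
    rw [e, le_div_iff₀ hw] at hsum
    have e2 : (n : ℝ) - 2 + (1/4) = (n : ℝ) - 2 + 1 / 4 := by norm_num
    rw [e2]
    exact hsum
  rcases le_total q p with hqp | hpq'
  · exact no_solution_core hn hp hq hqp hpq h3 hucont hvcont hupos hvpos hu hv hpdeU hpdeV
  · refine no_solution_core hn hq hp hpq' (by linarith) ?_
      hvcont hucont hvpos hupos hv hu hpdeV hpdeU
    have e : q * p - 1 = p * q - 1 := by ring
    rw [e]
    linarith

/-- the certificate, lifted -/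
theorem design_cert_lift {n Aw d t p q : ℝ} (hn : 2 < n) (hnc : 0 < n - 4 + -Aw) (hA : Aw < 0)
    (hA2 : -2 < Aw) (hm : 2 + 1 / d = 2 * (n + Aw) / (2 + Aw))
    (hd : 0 < d) (hd1 : d ≤ (1/2)) (ht : 0 < t) (ht1 : t ≤ 1)
    (hp0 : 1 / t ≤ p) (hp1 : p ≤ (1 + 2 * (1 + t) * eta1 d) / t)
    (hq0 : t ≤ q) (hq1 : q ≤ t + 2 * (1 + t) * eta1 d)
    (ha0 : 0 ≤ 1 - ab d t) (hb0 : 0 ≤ 1 - bb d t) :
    ∃ (co : Fin 13 → ℝ) (c0 : ℝ), 0 < c0 ∧ ∀ A : NAtoms, A.Realizable n →
      c0 * A.EW ≤ ∑ k, co k * NAtoms.DB n p q (1 - ab d t) (1 - bb d t) (-Aw) Aw Aw A k := by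
  have hd0 : d ≠ 0 := hd.ne'
  have he : (1 + 2 * d) ≠ 0 := by positivity
  have hh : 1 / (2 + 1 / d) = d / (1 + 2 * d) := by
    field_simp; ring
  have hE1 : 0 < 1 / 2 + X d t := by
    have := X_nonneg d t hd ht ht1
    linarith
  have hE2 : 0 < 1 / 2 + X2 d t := X2_gt d t hd hd1 ht ht1
  apply nbcert_of_R (m := 2 + 1 / d) (X1 := X d t) (X2 := X2 d t) (Y1 := Y5 d t) (Y2 := Y5 d t)
    (f := fh5 d t / (1 + 2 * d)) hn hnc hA hA2 hm ha0 hb0
  · rw [hh]; exact r1_pos d t hd hd1 ht ht1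
  · rw [hh]; exact r6_pos d t hd hd1 ht ht1
  · rw [hh]; exact hD_ok d t hd hd1 ht ht1
  · exact hE1
  · exact hE2
  · -- first discriminant
    have hq := quad_between (A := -2 * d * (1 / 2 - Y5 d t) + ab d t * fh5 d t) (B := 1 + d)
      (C := 4 * (1 + 4 * d) * (1 / 2 + X d t) * ((1 + 2 * d) * (1 / 2 - Y5 d t) - bb d t * fh5 d t))
      (E := 4 * (1 + 4 * d) * (1 / 2 + X d t) * fh5 d t) hp0 hp1
      (L10_ok d t hd hd1 ht ht1) (L1e_ok d t hd hd1 ht ht1)
    exact L_scaled hd rfl hq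
  · -- second discriminant
    have hq' := quad_between (A := -2 * d * (1 / 2 - Y5 d t) + bb d t * (-fh5 d t)) (B := 1 + d)
      (C := 4 * (1 + 4 * d) * (1 / 2 + X2 d t) * ((1 + 2 * d) * (1 / 2 - Y5 d t) - ab d t * (-fh5 d t)))
      (E := 4 * (1 + 4 * d) * (1 / 2 + X2 d t) * (-fh5 d t)) hq0 hq1
      (L20_ok d t hd hd1 ht ht1) (L2e_ok d t hd hd1 ht ht1)
    have h := L_scaled (F := 1 / 2 - Y5 d t) (E := 1 / 2 + X2 d t) (a' := bb d t) (b' := ab d t)
      (fh := -fh5 d t) (p := q) hd rfl hq'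
    have e1 : (2 / (2 + 1 / d) * (1 / 2 - Y5 d t) - (1 - 1 / (2 + 1 / d)) * q
          - (-fh5 d t / (1 + 2 * d)) * bb d t) / 2
        = (2 / (2 + 1 / d) * (1 / 2 - Y5 d t) - (1 - 1 / (2 + 1 / d)) * q
          + (fh5 d t / (1 + 2 * d)) * bb d t) / 2 := by
      ring
    have e2 : (1 / 2 - Y5 d t) + (-fh5 d t / (1 + 2 * d)) * (q - ab d t)
        = (1 / 2 - Y5 d t) - (fh5 d t / (1 + 2 * d)) * (q - ab d t) := by
      ring
    rw [e1, e2] at h
    exact h

/-- the core case `q <= p` -/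
theorem no_solution_nab5_core {n : ℕ} (hn3 : 3 ≤ n) {Aw m p q : ℝ} (hA : Aw < 0) (hA2 : -2 < Aw)
    (hm : m = 2 * ((n : ℝ) + Aw) / (2 + Aw)) (hm9 : 4 < m)
    (hp : 0 < p) (hq : 0 < q) (hqp : q ≤ p) (hpq : 1 < p * q)
    (hsum : (m - 2 + (1/4)) * (p * q - 1) ≤ 2 * (p + q + 2))
    {u v : Eu n → ℝ} (hucont : Continuous u) (hvcont : Continuous v)
    (hupos : ∀ x, 0 < u x) (hvpos : ∀ x, 0 < v x)
    (hu : ContDiffOn ℝ 2 u {0}ᶜ) (hv : ContDiffOn ℝ 2 v {0}ᶜ)
    (hpdeU : ∀ x, x ≠ 0 → - Δ u x = ‖x‖ ^ Aw * v x ^ p)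
    (hpdeV : ∀ x, x ≠ 0 → - Δ v x = ‖x‖ ^ Aw * u x ^ q) : False := by
  have h2w : 0 < 2 + Aw := by linarith
  have hmw : (2 + Aw) * m = 2 * ((n : ℝ) + Aw) := by
    rw [hm]; field_simp
  have hnR3 : (3 : ℝ) ≤ n := by exact_mod_cast hn3
  have hm4 : 0 < m - 4 := by linarith
  have hm24 := mul_pos h2w hm4
  have hnc : 0 < (n : ℝ) - 4 + -Aw := by nlinarith
  have hm20 : 0 < m - 2 := by linarith
  obtain ⟨d, hdd⟩ : ∃ d : ℝ, d = 1 / (m - 2) := ⟨_, rfl⟩
  have hd : 0 < d := by rw [hdd]; positivity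
  have hd1 : d ≤ (1/2) := by
    rw [hdd, div_le_iff₀ hm20]
    linarith
  have hd2 : d < 1 / 2 := by
    rw [hdd, div_lt_iff₀ hm20]
    linarith
  have hnd : m = 2 + 1 / d := by
    rw [hdd]; field_simp; ring
  have hp1 : 0 < p + 1 := by linarith
  have hq1 : 0 < q + 1 := by linarith
  obtain ⟨t, htt⟩ : ∃ t : ℝ, t = (q + 1) / (p + 1) := ⟨_, rfl⟩
  have ht : 0 < t := by rw [htt]; positivity
  have ht1 : t ≤ 1 := by
    rw [htt, div_le_one hp1]; linarith
  have hqt : q + 1 = t * (p + 1) := by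
    rw [htt]; field_simp
  have hS : 0 < p + q + 2 := by linarith
  have hw : 0 < p * q - 1 := by linarith
  obtain ⟨η, hη⟩ : ∃ η : ℝ, η = (p * q - 1) / (2 * (p + q + 2)) := ⟨_, rfl⟩
  have hη0 : 0 < η := by rw [hη]; positivity
  have hηS : 2 * (p + q + 2) * η = p * q - 1 := by
    rw [hη]; field_simp
  have h1t : p + q + 2 = (p + 1) * (1 + t) := by
    have : q = t * (p + 1) - 1 := by linarith
    rw [this]; ring
  -- the two formulas
  have hqf : q = t + 2 * (1 + t) * η := by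
    have e : (p + 1) * q = (p + 1) * (t + 2 * (1 + t) * η) := by
      have h2 : (p + 1) * (2 * (1 + t) * η) = p * q - 1 := by
        rw [← hηS, h1t]; ring
      have h3 : (p + 1) * t = q + 1 := by linarith
      have : (p + 1) * (t + 2 * (1 + t) * η) = (p + 1) * t + (p + 1) * (2 * (1 + t) * η) := by ring
      rw [this, h2, h3]
      ring
    exact mul_left_cancel₀ hp1.ne' e
  have hpf : p = (1 + 2 * (1 + t) * η) / t := by
    rw [eq_div_iff ht.ne']
    have : q = t + 2 * (1 + t) * η := hqf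
    have e : (p + 1) * (p * t) = (p + 1) * (1 + 2 * (1 + t) * η) := by
      have h2 : (p + 1) * (2 * (1 + t) * η) = p * q - 1 := by
        rw [← hηS, h1t]; ring
      have h3 : (p + 1) * t = q + 1 := by linarith
      have e2 : (p + 1) * (1 + 2 * (1 + t) * η) = (p + 1) + (p + 1) * (2 * (1 + t) * η) := by ring
      rw [e2, h2]
      have e3 : (p + 1) * (p * t) = p * ((p + 1) * t) := by ring
      rw [e3, h3]
      ring
    exact mul_left_cancel₀ hp1.ne' e
  have hηle : η ≤ eta1 d := by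
    unfold eta1
    have hW : 0 < 1 + (1/4) * d := by positivity
    rw [le_div_iff₀ hW, hη, div_mul_eq_mul_div, div_le_iff₀ (by positivity)]
    have h5 : (m - 2) * d = 1 := by
      rw [hdd]; field_simp
    have h6 : (m - 2 + (1/4)) * d = 1 + (1/4) * d := by
      nlinarith
    have h7 := mul_le_mul_of_nonneg_right hsum hd.le
    nlinarith
  have hη2 : 2 * (1 + t) * η ≤ 2 * (1 + t) * eta1 d := by
    apply mul_le_mul_of_nonneg_left hηle (by positivity)
  have hη3 : 0 ≤ 2 * (1 + t) * η := by positivity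
  have hab := ab_le d t hd
  have hbb := bb_le d t hd ht ht1
  have hab0 := ab_nonneg d t hd
  have hbb0 := bb_nonneg d t hd
  have hd27 : 2 * d < 1 := by
    have : d < 1 / 2 := hd2
    linarith
  obtain ⟨co, c0, hc0, hc⟩ := design_cert_lift (n := (n : ℝ)) (Aw := Aw) (p := p) (q := q) (by linarith)
    hnc hA hA2 (by rw [← hnd]; exact hm) hd hd1 ht ht1
    (by rw [hpf]; exact div_le_div_of_nonneg_right (by linarith) ht.le)
    (by rw [hpf]; exact div_le_div_of_nonneg_right (by linarith) ht.le)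
    (by rw [hqf]; linarith)
    (by rw [hqf]; linarith)
    (by linarith) (by linarith)
  obtain ⟨a, ha⟩ : ∃ a : ℝ, a = 1 - ab d t := ⟨_, rfl⟩
  obtain ⟨b, hb⟩ : ∃ b : ℝ, b = 1 - bb d t := ⟨_, rfl⟩
  rw [← ha, ← hb] at hc
  have ha0 : 0 < a := by rw [ha]; linarith
  have hb0 : 0 < b := by rw [hb]; linarith
  have hw' : p * q - 1 ≠ 0 := hw.ne'
  obtain ⟨lam, hlamd⟩ : ∃ lam : ℝ, lam = (a + q * b) / (p * q - 1) := ⟨_, rfl⟩
  obtain ⟨mu, hmud⟩ : ∃ mu : ℝ, mu = (b + p * a) / (p * q - 1) := ⟨_, rfl⟩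
  have hlam0 : 0 < lam := by rw [hlamd]; positivity
  have hmu0 : 0 < mu := by rw [hmud]; positivity
  have hlamw : lam * (p * q - 1) = a + q * b := by rw [hlamd]; exact div_mul_cancel₀ _ hw'
  have hmuw : mu * (p * q - 1) = b + p * a := by rw [hmud]; exact div_mul_cancel₀ _ hw'
  -- the exponent condition
  have hmain : m * (p * q - 1) < 2 * (a * (p + 1) + b * (q + 1)) + 4 * (p * q - 1) := by
    have h2 : p * q - 1 = 2 * ((p + 1) * (1 + t)) * η := by
      rw [← hηS, h1t]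
    have h3 : a * (p + 1) + b * (q + 1) = (p + 1) * (a + b * t) := by
      rw [hqt]; ring
    have hlow : (1 - 2 * d) * (1 + t) ≤ a + b * t := by
      rw [ha, hb]
      exact low_bound d t hd ht
    have hηd : η < d := by
      have h8 : eta1 d < d := by
        unfold eta1
        have hWp : 0 < (1/4) * d := by positivity
        rw [div_lt_iff₀ (by positivity)]
        have h9 : 0 < d * ((1/4) * d) := mul_pos hd hWp
        have e9 : d * (1 + (1/4) * d) = d + d * ((1/4) * d) := by ring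
        rw [e9]
        linarith only [h9]
      linarith only [h8, hηle]
    have hm1 : (m - 4) * d = 1 - 2 * d := by
      have h5 : (m - 2) * d = 1 := by
        rw [hdd]; field_simp
      linarith only [h5]
    exact liouv hm4 hηd hm1 hlow h2 h3 hp1 ht
  have hsumL : m < 2 * (lam + mu) + 4 := by
    have e : (2 * (lam + mu) + 4) * (p * q - 1) = 2 * (a * (p + 1) + b * (q + 1)) + 4 * (p * q - 1) := by
      linear_combination 2 * hlamw + 2 * hmuw
    rw [← e] at hmain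
    exact lt_of_mul_lt_mul_right hmain hw.le
  have hfin : (n : ℝ) < 2 * (lam + mu) + 4 + (Aw * lam + Aw * mu - -Aw) := by
    have h4 := mul_lt_mul_of_pos_left hsumL h2w
    have e : (2 + Aw) * (2 * (lam + mu) + 4)
        = 2 * (2 * (lam + mu) + 4 + (Aw * lam + Aw * mu - -Aw)) + 2 * Aw := by ring
    linarith only [h4, hmw, e]
  refine no_solution_of_nbcert_lap hn3 (a := a) (b := b) (c := -Aw) (lam := lam) (mu := mu)
    hc hc0 (by linarith) ?_ ?_ hlam0.le hmu0.le hfin (by linarith) (by linarith)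
    hucont hvcont hupos hvpos hu hv hpdeU hpdeV
  · rw [hlamd, hmud]
    have e : (b + p * a) / (p * q - 1) * q - (a + q * b) / (p * q - 1) = a := by
      rw [div_mul_eq_mul_div, ← sub_div, div_eq_iff hw']
      ring
    exact e.symm
  · rw [hlamd, hmud]
    have e : (a + q * b) / (p * q - 1) * p - (b + p * a) / (p * q - 1) = b := by
      rw [div_mul_eq_mul_div, ← sub_div, div_eq_iff hw']
      ring
    exact e.symm

/-- **Equal negative weights, all ratios of `p, q`: nonexistence up to distance `1/4` from the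
critical hyperbola in the effective dimension `m = 2 (n + A) / (2 + A) > 4`.** -/
theorem no_solution_nab5 {n : ℕ} {Aw m p q : ℝ} (hA : Aw < 0) (hA2 : -2 < Aw)
    (hm : m = 2 * ((n : ℝ) + Aw) / (2 + Aw)) (hm9 : 4 < m)
    (hp : 0 < p) (hq : 0 < q) (hpq : 1 < p * q)
    (hsum : m - 2 + 1 / 4 ≤ 2 * (p + 1) / (p * q - 1) + 2 * (q + 1) / (p * q - 1))
    {u v : Eu n → ℝ} (hucont : Continuous u) (hvcont : Continuous v)
    (hupos : ∀ x, 0 < u x) (hvpos : ∀ x, 0 < v x)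
    (hu : ContDiffOn ℝ 2 u {0}ᶜ) (hv : ContDiffOn ℝ 2 v {0}ᶜ)
    (hpdeU : ∀ x, x ≠ 0 → - Δ u x = ‖x‖ ^ Aw * v x ^ p)
    (hpdeV : ∀ x, x ≠ 0 → - Δ v x = ‖x‖ ^ Aw * u x ^ q) : False := by
  have h2w : 0 < 2 + Aw := by linarith
  have hmw : (2 + Aw) * m = 2 * ((n : ℝ) + Aw) := by
    rw [hm]; field_simp
  have hn3 : 3 ≤ n := by
    by_contra hcon
    have h2 : n ≤ 2 := by omega
    have h2R : (n : ℝ) ≤ 2 := by exact_mod_cast h2
    nlinarith
  have hw : 0 < p * q - 1 := by linarith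
  have h3 : (m - 2 + (1/4)) * (p * q - 1) ≤ 2 * (p + q + 2) := by
    have e : 2 * (p + 1) / (p * q - 1) + 2 * (q + 1) / (p * q - 1)
        = 2 * (p + q + 2) / (p * q - 1) := by
      rw [← add_div]; ring
    rw [e, le_div_iff₀ hw] at hsum
    have e2 : m - 2 + (1/4) = m - 2 + 1 / 4 := by norm_num
    rw [e2]
    exact hsum
  rcases le_total q p with hqp | hpq'
  · exact no_solution_nab5_core hn3 hA hA2 hm hm9 hp hq hqp hpq h3
      hucont hvcont hupos hvpos hu hv hpdeU hpdeV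
  · refine no_solution_nab5_core hn3 hA hA2 hm hm9 hq hp hpq' (by linarith) ?_
      hvcont hucont hvpos hupos hv hu hpdeV hpdeU
    have e : q * p - 1 = p * q - 1 := by ring
    rw [e]
    linarith


end Vale.Agent.Lib.P100.AB.W5
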