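import Mathlib

/-!
# P100: polynomial inequalities of the family `V5` (Bernstein coefficients on `[0,1/2] × [0,1]`).
-/

namespace Vale.Agent.Lib.P100.AB.W5

lemma pos_r1_b0 (t : ℝ) (h3 : 0 ≤ t) (h4 : t ≤ 1) :
    0 ≤ (1/2) + 1*t^(2:ℕ) := by
  obtain ⟨t2, ht2⟩ : ∃ t2 : ℝ, t2 = 1 - t := ⟨_, rfl⟩
  have a4 : 0 ≤ t2 := by rw [ht2]; linarith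
  have e : (1/2) + 1*t^(2:ℕ) = (1/2)*t2^(2:ℕ) + 1*t^(1:ℕ)*t2^(1:ℕ) + (3/2)*t^(2:ℕ) := by
    rw [ht2]; ring
  rw [e]
  positivity

lemma pos_r1_b1 (t : ℝ) (h3 : 0 ≤ t) (h4 : t ≤ 1) :
    0 ≤ 1 + (1/4)*t^(2:ℕ) := by
  obtain ⟨t2, ht2⟩ : ∃ t2 : ℝ, t2 = 1 - t := ⟨_, rfl⟩
  have a4 : 0 ≤ t2 := by rw [ht2]; linarith
  have e : 1 + (1/4)*t^(2:ℕ) = 1*t2^(2:ℕ) + 2*t^(1:ℕ)*t2^(1:ℕ) + (5/4)*t^(2:ℕ) := by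
    rw [ht2]; ring
  rw [e]
  positivity

lemma pos_r1_b2 (t : ℝ) (h3 : 0 ≤ t) (h4 : t ≤ 1) :
    0 ≤ (3/2) + (-3/4)*t^(2:ℕ) := by
  obtain ⟨t2, ht2⟩ : ∃ t2 : ℝ, t2 = 1 - t := ⟨_, rfl⟩
  have a4 : 0 ≤ t2 := by rw [ht2]; linarith
  have e : (3/2) + (-3/4)*t^(2:ℕ) = (3/2)*t2^(2:ℕ) + 3*t^(1:ℕ)*t2^(1:ℕ) + (3/4)*t^(2:ℕ) := by
    rw [ht2]; ring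
  rw [e]
  positivity

lemma pos_r1_id (d C0 C1 C2 : ℝ) (h1 : 0 ≤ d) (h2 : d ≤ (1/2))
    (b0 : 0 ≤ 1*C0 - (1/2))
    (b1 : 0 ≤ 1*C0 + (1/4)*C1 - (1/2))
    (b2 : 0 ≤ 1*C0 + (1/2)*C1 + (1/4)*C2 - (1/2))
    : 0 < C0 + d*C1 + d^(2:ℕ)*C2 := by
  obtain ⟨d2, hd2⟩ : ∃ d2 : ℝ, d2 = (1/2) - d := ⟨_, rfl⟩
  have a2 : 0 ≤ d2 := by rw [hd2]; linarith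
  obtain ⟨B0, hB0⟩ : ∃ B : ℝ, B = 1*C0 - (1/2) := ⟨_, rfl⟩
  rw [← hB0] at b0
  obtain ⟨B1, hB1⟩ : ∃ B : ℝ, B = 1*C0 + (1/4)*C1 - (1/2) := ⟨_, rfl⟩
  rw [← hB1] at b1
  obtain ⟨B2, hB2⟩ : ∃ B : ℝ, B = 1*C0 + (1/2)*C1 + (1/4)*C2 - (1/2) := ⟨_, rfl⟩
  rw [← hB2] at b2
  have e : C0 + d*C1 + d^(2:ℕ)*C2 = (1/2) + (4*d2^(2:ℕ)*B0 + 8*d^(1:ℕ)*d2^(1:ℕ)*B1 + 4*d^(2:ℕ)*B2) := by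
    rw [hB0, hB1, hB2, hd2]; ring
  rw [e]
  positivity

lemma pos_r1 (d t : ℝ) (h1 : 0 ≤ d) (h2 : d ≤ (1/2)) (h3 : 0 ≤ t) (h4 : t ≤ 1) :
    0 < 1 + 1*t^(2:ℕ) + 2*d + (-3)*d*t^(2:ℕ) + (-1)*d^(2:ℕ)*t^(2:ℕ) := by
  have e0 : 1 + 1*t^(2:ℕ) + 2*d + (-3)*d*t^(2:ℕ) + (-1)*d^(2:ℕ)*t^(2:ℕ) = (1 + 1*t^(2:ℕ)) + d*(2 + (-3)*t^(2:ℕ)) + d^(2:ℕ)*((-1)*t^(2:ℕ)) := by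
    ring
  rw [e0]
  exact pos_r1_id d (1 + 1*t^(2:ℕ)) (2 + (-3)*t^(2:ℕ)) ((-1)*t^(2:ℕ)) h1 h2 ((pos_r1_b0 t h3 h4).trans_eq (by ring)) ((pos_r1_b1 t h3 h4).trans_eq (by ring)) ((pos_r1_b2 t h3 h4).trans_eq (by ring))

lemma pos_r6_b0 (t : ℝ) (h3 : 0 ≤ t) (h4 : t ≤ 1) :
    0 ≤ (7/8) + 1*t^(2:ℕ) := by
  obtain ⟨t2, ht2⟩ : ∃ t2 : ℝ, t2 = 1 - t := ⟨_, rfl⟩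
  have a4 : 0 ≤ t2 := by rw [ht2]; linarith
  have e : (7/8) + 1*t^(2:ℕ) = (7/8)*t2^(4:ℕ) + (7/2)*t^(1:ℕ)*t2^(3:ℕ) + (25/4)*t^(2:ℕ)*t2^(2:ℕ) + (11/2)*t^(3:ℕ)*t2^(1:ℕ) + (15/8)*t^(4:ℕ) := by
    rw [ht2]; ring
  rw [e]
  positivity

lemma pos_r6_b1 (t : ℝ) (h3 : 0 ≤ t) (h4 : t ≤ 1) :
    0 ≤ (1/2) + (5/4)*t^(2:ℕ) := by
  obtain ⟨t2, ht2⟩ : ∃ t2 : ℝ, t2 = 1 - t := ⟨_, rfl⟩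
  have a4 : 0 ≤ t2 := by rw [ht2]; linarith
  have e : (1/2) + (5/4)*t^(2:ℕ) = (1/2)*t2^(4:ℕ) + 2*t^(1:ℕ)*t2^(3:ℕ) + (17/4)*t^(2:ℕ)*t2^(2:ℕ) + (9/2)*t^(3:ℕ)*t2^(1:ℕ) + (7/4)*t^(4:ℕ) := by
    rw [ht2]; ring
  rw [e]
  positivity

lemma pos_r6_b2 (t : ℝ) (h3 : 0 ≤ t) (h4 : t ≤ 1) :
    0 ≤ (7/30) + (27/20)*t^(2:ℕ) := by
  obtain ⟨t2, ht2⟩ : ∃ t2 : ℝ, t2 = 1 - t := ⟨_, rfl⟩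
  have a4 : 0 ≤ t2 := by rw [ht2]; linarith
  have e : (7/30) + (27/20)*t^(2:ℕ) = (7/30)*t2^(4:ℕ) + (14/15)*t^(1:ℕ)*t2^(3:ℕ) + (11/4)*t^(2:ℕ)*t2^(2:ℕ) + (109/30)*t^(3:ℕ)*t2^(1:ℕ) + (19/12)*t^(4:ℕ) := by
    rw [ht2]; ring
  rw [e]
  positivity

lemma pos_r6_b3 (t : ℝ) (h3 : 0 ≤ t) (h4 : t ≤ 1) :
    0 ≤ (339/3200) + (2071/1600)*t^(2:ℕ) + (-81/3200)*t^(4:ℕ) := by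
  obtain ⟨t2, ht2⟩ : ∃ t2 : ℝ, t2 = 1 - t := ⟨_, rfl⟩
  have a4 : 0 ≤ t2 := by rw [ht2]; linarith
  have e : (339/3200) + (2071/1600)*t^(2:ℕ) + (-81/3200)*t^(4:ℕ) = (339/3200)*t2^(4:ℕ) + (339/800)*t^(1:ℕ)*t2^(3:ℕ) + (193/100)*t^(2:ℕ)*t2^(2:ℕ) + (241/80)*t^(3:ℕ)*t2^(1:ℕ) + (11/8)*t^(4:ℕ) := by
    rw [ht2]; ring
  rw [e]
  positivity

lemma pos_r6_b4 (t : ℝ) (h3 : 0 ≤ t) (h4 : t ≤ 1) :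
    0 ≤ (157/1600) + (943/800)*t^(2:ℕ) + (-243/1600)*t^(4:ℕ) := by
  obtain ⟨t2, ht2⟩ : ∃ t2 : ℝ, t2 = 1 - t := ⟨_, rfl⟩
  have a4 : 0 ≤ t2 := by rw [ht2]; linarith
  have e : (157/1600) + (943/800)*t^(2:ℕ) + (-243/1600)*t^(4:ℕ) = (157/1600)*t2^(4:ℕ) + (157/400)*t^(1:ℕ)*t2^(3:ℕ) + (707/400)*t^(2:ℕ)*t2^(2:ℕ) + (11/4)*t^(3:ℕ)*t2^(1:ℕ) + (9/8)*t^(4:ℕ) := by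
    rw [ht2]; ring
  rw [e]
  positivity

lemma pos_r6_id (d C0 C1 C2 C3 C4 : ℝ) (h1 : 0 ≤ d) (h2 : d ≤ (1/2))
    (b0 : 0 ≤ 1*C0 - (1/8))
    (b1 : 0 ≤ 1*C0 + (1/8)*C1 - (1/8))
    (b2 : 0 ≤ 1*C0 + (1/4)*C1 + (1/24)*C2 - (1/8))
    (b3 : 0 ≤ 1*C0 + (3/8)*C1 + (1/8)*C2 + (1/32)*C3 - (1/8))
    (b4 : 0 ≤ 1*C0 + (1/2)*C1 + (1/4)*C2 + (1/8)*C3 + (1/16)*C4 - (1/8))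
    : 0 < C0 + d*C1 + d^(2:ℕ)*C2 + d^(3:ℕ)*C3 + d^(4:ℕ)*C4 := by
  obtain ⟨d2, hd2⟩ : ∃ d2 : ℝ, d2 = (1/2) - d := ⟨_, rfl⟩
  have a2 : 0 ≤ d2 := by rw [hd2]; linarith
  obtain ⟨B0, hB0⟩ : ∃ B : ℝ, B = 1*C0 - (1/8) := ⟨_, rfl⟩
  rw [← hB0] at b0
  obtain ⟨B1, hB1⟩ : ∃ B : ℝ, B = 1*C0 + (1/8)*C1 - (1/8) := ⟨_, rfl⟩
  rw [← hB1] at b1
  obtain ⟨B2, hB2⟩ : ∃ B : ℝ, B = 1*C0 + (1/4)*C1 + (1/24)*C2 - (1/8) := ⟨_, rfl⟩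
  rw [← hB2] at b2
  obtain ⟨B3, hB3⟩ : ∃ B : ℝ, B = 1*C0 + (3/8)*C1 + (1/8)*C2 + (1/32)*C3 - (1/8) := ⟨_, rfl⟩
  rw [← hB3] at b3
  obtain ⟨B4, hB4⟩ : ∃ B : ℝ, B = 1*C0 + (1/2)*C1 + (1/4)*C2 + (1/8)*C3 + (1/16)*C4 - (1/8) := ⟨_, rfl⟩
  rw [← hB4] at b4
  have e : C0 + d*C1 + d^(2:ℕ)*C2 + d^(3:ℕ)*C3 + d^(4:ℕ)*C4 = (1/8) + (16*d2^(4:ℕ)*B0 + 64*d^(1:ℕ)*d2^(3:ℕ)*B1 + 96*d^(2:ℕ)*d2^(2:ℕ)*B2 + 64*d^(3:ℕ)*d2^(1:ℕ)*B3 + 16*d^(4:ℕ)*B4) := by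
    rw [hB0, hB1, hB2, hB3, hB4, hd2]; ring
  rw [e]
  positivity

lemma pos_r6 (d t : ℝ) (h1 : 0 ≤ d) (h2 : d ≤ (1/2)) (h3 : 0 ≤ t) (h4 : t ≤ 1) :
    0 < 1 + 1*t^(2:ℕ) + (-3)*d + 2*d*t^(2:ℕ) + (13/5)*d^(2:ℕ) + (-18/5)*d^(2:ℕ)*t^(2:ℕ) + (99/100)*d^(3:ℕ) + (-9/50)*d^(3:ℕ)*t^(2:ℕ) + (-81/100)*d^(3:ℕ)*t^(4:ℕ) + (-81/100)*d^(4:ℕ) + (81/50)*d^(4:ℕ)*t^(2:ℕ) + (-81/100)*d^(4:ℕ)*t^(4:ℕ) := by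
  have e0 : 1 + 1*t^(2:ℕ) + (-3)*d + 2*d*t^(2:ℕ) + (13/5)*d^(2:ℕ) + (-18/5)*d^(2:ℕ)*t^(2:ℕ) + (99/100)*d^(3:ℕ) + (-9/50)*d^(3:ℕ)*t^(2:ℕ) + (-81/100)*d^(3:ℕ)*t^(4:ℕ) + (-81/100)*d^(4:ℕ) + (81/50)*d^(4:ℕ)*t^(2:ℕ) + (-81/100)*d^(4:ℕ)*t^(4:ℕ) = (1 + 1*t^(2:ℕ)) + d*((-3) + 2*t^(2:ℕ)) + d^(2:ℕ)*((13/5) + (-18/5)*t^(2:ℕ)) + d^(3:ℕ)*((99/100) + (-9/50)*t^(2:ℕ) + (-81/100)*t^(4:ℕ)) + d^(4:ℕ)*((-81/100) + (81/50)*t^(2:ℕ) + (-81/100)*t^(4:ℕ)) := by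
    ring
  rw [e0]
  exact pos_r6_id d (1 + 1*t^(2:ℕ)) ((-3) + 2*t^(2:ℕ)) ((13/5) + (-18/5)*t^(2:ℕ)) ((99/100) + (-9/50)*t^(2:ℕ) + (-81/100)*t^(4:ℕ)) ((-81/100) + (81/50)*t^(2:ℕ) + (-81/100)*t^(4:ℕ)) h1 h2 ((pos_r6_b0 t h3 h4).trans_eq (by ring)) ((pos_r6_b1 t h3 h4).trans_eq (by ring)) ((pos_r6_b2 t h3 h4).trans_eq (by ring)) ((pos_r6_b3 t h3 h4).trans_eq (by ring)) ((pos_r6_b4 t h3 h4).trans_eq (by ring))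

lemma pos_r3_b0 (t : ℝ) (h3 : 0 ≤ t) (h4 : t ≤ 1) :
    0 ≤ (1/2) + 4*t^(2:ℕ) + 6*t^(4:ℕ) + 4*t^(6:ℕ) + 1*t^(8:ℕ) := by
  obtain ⟨t2, ht2⟩ : ∃ t2 : ℝ, t2 = 1 - t := ⟨_, rfl⟩
  have a4 : 0 ≤ t2 := by rw [ht2]; linarith
  have e : (1/2) + 4*t^(2:ℕ) + 6*t^(4:ℕ) + 4*t^(6:ℕ) + 1*t^(8:ℕ) = (1/2)*t2^(8:ℕ) + 4*t^(1:ℕ)*t2^(7:ℕ) + 18*t^(2:ℕ)*t2^(6:ℕ) + 52*t^(3:ℕ)*t2^(5:ℕ) + 101*t^(4:ℕ)*t2^(4:ℕ) + 132*t^(5:ℕ)*t2^(3:ℕ) + 114*t^(6:ℕ)*t2^(2:ℕ) + 60*t^(7:ℕ)*t2^(1:ℕ) + (31/2)*t^(8:ℕ) := by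
    rw [ht2]; ring
  rw [e]
  positivity

lemma pos_r3_b1 (t : ℝ) (h3 : 0 ≤ t) (h4 : t ≤ 1) :
    0 ≤ (5/12) + (1/3)*t + (19/6)*t^(2:ℕ) + 1*t^(3:ℕ) + (9/2)*t^(4:ℕ) + 1*t^(5:ℕ) + (19/6)*t^(6:ℕ) + (1/3)*t^(7:ℕ) + (11/12)*t^(8:ℕ) := by
  obtain ⟨t2, ht2⟩ : ∃ t2 : ℝ, t2 = 1 - t := ⟨_, rfl⟩
  have a4 : 0 ≤ t2 := by rw [ht2]; linarith
  have e : (5/12) + (1/3)*t + (19/6)*t^(2:ℕ) + 1*t^(3:ℕ) + (9/2)*t^(4:ℕ) + 1*t^(5:ℕ) + (19/6)*t^(6:ℕ) + (1/3)*t^(7:ℕ) + (11/12)*t^(8:ℕ) = (5/12)*t2^(8:ℕ) + (11/3)*t^(1:ℕ)*t2^(7:ℕ) + (103/6)*t^(2:ℕ)*t2^(6:ℕ) + (151/3)*t^(3:ℕ)*t2^(5:ℕ) + (587/6)*t^(4:ℕ)*t2^(4:ℕ) + (382/3)*t^(5:ℕ)*t2^(3:ℕ) + (328/3)*t^(6:ℕ)*t2^(2:ℕ) + (172/3)*t^(7:ℕ)*t2^(1:ℕ)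 + (89/6)*t^(8:ℕ) := by
    rw [ht2]; ring
  rw [e]
  positivity

lemma pos_r3_b2 (t : ℝ) (h3 : 0 ≤ t) (h4 : t ≤ 1) :
    0 ≤ (1/3) + (67/120)*t + (44/15)*t^(2:ℕ) + (121/120)*t^(3:ℕ) + (21/5)*t^(4:ℕ) + (121/120)*t^(5:ℕ) + (44/15)*t^(6:ℕ) + (67/120)*t^(7:ℕ) + (5/6)*t^(8:ℕ) := by
  obtain ⟨t2, ht2⟩ : ∃ t2 : ℝ, t2 = 1 - t := ⟨_, rfl⟩
  have a4 : 0 ≤ t2 := by rw [ht2]; linarith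
  have e : (1/3) + (67/120)*t + (44/15)*t^(2:ℕ) + (121/120)*t^(3:ℕ) + (21/5)*t^(4:ℕ) + (121/120)*t^(5:ℕ) + (44/15)*t^(6:ℕ) + (67/120)*t^(7:ℕ) + (5/6)*t^(8:ℕ) = (1/3)*t2^(8:ℕ) + (129/40)*t^(1:ℕ)*t2^(7:ℕ) + (647/40)*t^(2:ℕ)*t2^(6:ℕ) + 49*t^(3:ℕ)*t2^(5:ℕ) + (5767/60)*t^(4:ℕ)*t2^(4:ℕ) + (3743/30)*t^(5:ℕ)*t2^(3:ℕ) + (1063/10)*t^(6:ℕ)*t2^(2:ℕ) + (832/15)*t^(7:ℕ)*t2^(1:ℕ) + (431/30)*t^(8:ℕ) := by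
    rw [ht2]; ring
  rw [e]
  positivity

lemma pos_r3_b3 (t : ℝ) (h3 : 0 ≤ t) (h4 : t ≤ 1) :
    0 ≤ (1/4) + (27/40)*t + (2471/800)*t^(2:ℕ) + (27/40)*t^(3:ℕ) + (1671/400)*t^(4:ℕ) + (27/40)*t^(5:ℕ) + (2471/800)*t^(6:ℕ) + (27/40)*t^(7:ℕ) + (3/4)*t^(8:ℕ) := by
  obtain ⟨t2, ht2⟩ : ∃ t2 : ℝ, t2 = 1 - t := ⟨_, rfl⟩
  have a4 : 0 ≤ t2 := by rw [ht2]; linarith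
  have e : (1/4) + (27/40)*t + (2471/800)*t^(2:ℕ) + (27/40)*t^(3:ℕ) + (1671/400)*t^(4:ℕ) + (27/40)*t^(5:ℕ) + (2471/800)*t^(6:ℕ) + (27/40)*t^(7:ℕ) + (3/4)*t^(8:ℕ) = (1/4)*t2^(8:ℕ) + (107/40)*t^(1:ℕ)*t2^(7:ℕ) + (11851/800)*t^(2:ℕ)*t2^(6:ℕ) + (18953/400)*t^(3:ℕ)*t2^(5:ℕ) + (76007/800)*t^(4:ℕ)*t2^(4:ℕ) + (24707/200)*t^(5:ℕ)*t2^(3:ℕ) + (20887/200)*t^(6:ℕ)*t2^(2:ℕ) + (2711/50)*t^(7:ℕ)*t2^(1:ℕ) + (2811/200)*t^(8:ℕ) := by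
    rw [ht2]; ring
  rw [e]
  positivity

lemma pos_r3_id (d C0 C1 C2 C3 : ℝ) (h1 : 0 ≤ d) (h2 : d ≤ (1/2))
    (b0 : 0 ≤ 1*C0 - (1/2))
    (b1 : 0 ≤ 1*C0 + (1/6)*C1 - (1/2))
    (b2 : 0 ≤ 1*C0 + (1/3)*C1 + (1/12)*C2 - (1/2))
    (b3 : 0 ≤ 1*C0 + (1/2)*C1 + (1/4)*C2 + (1/8)*C3 - (1/2))
    : 0 < C0 + d*C1 + d^(2:ℕ)*C2 + d^(3:ℕ)*C3 := by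
  obtain ⟨d2, hd2⟩ : ∃ d2 : ℝ, d2 = (1/2) - d := ⟨_, rfl⟩
  have a2 : 0 ≤ d2 := by rw [hd2]; linarith
  obtain ⟨B0, hB0⟩ : ∃ B : ℝ, B = 1*C0 - (1/2) := ⟨_, rfl⟩
  rw [← hB0] at b0
  obtain ⟨B1, hB1⟩ : ∃ B : ℝ, B = 1*C0 + (1/6)*C1 - (1/2) := ⟨_, rfl⟩
  rw [← hB1] at b1
  obtain ⟨B2, hB2⟩ : ∃ B : ℝ, B = 1*C0 + (1/3)*C1 + (1/12)*C2 - (1/2) := ⟨_, rfl⟩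
  rw [← hB2] at b2
  obtain ⟨B3, hB3⟩ : ∃ B : ℝ, B = 1*C0 + (1/2)*C1 + (1/4)*C2 + (1/8)*C3 - (1/2) := ⟨_, rfl⟩
  rw [← hB3] at b3
  have e : C0 + d*C1 + d^(2:ℕ)*C2 + d^(3:ℕ)*C3 = (1/2) + (8*d2^(3:ℕ)*B0 + 24*d^(1:ℕ)*d2^(2:ℕ)*B1 + 24*d^(2:ℕ)*d2^(1:ℕ)*B2 + 8*d^(3:ℕ)*B3) := by
    rw [hB0, hB1, hB2, hB3, hd2]; ring
  rw [e]
  positivity

lemma pos_r3 (d t : ℝ) (h1 : 0 ≤ d) (h2 : d ≤ (1/2)) (h3 : 0 ≤ t) (h4 : t ≤ 1) :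
    0 < 1 + 4*t^(2:ℕ) + 6*t^(4:ℕ) + 4*t^(6:ℕ) + 1*t^(8:ℕ) + (-1/2)*d + 2*d*t + (-5)*d*t^(2:ℕ) + 6*d*t^(3:ℕ) + (-9)*d*t^(4:ℕ) + 6*d*t^(5:ℕ) + (-5)*d*t^(6:ℕ) + 2*d*t^(7:ℕ) + (-1/2)*d*t^(8:ℕ) + (-13/10)*d^(2:ℕ)*t + (36/5)*d^(2:ℕ)*t^(2:ℕ) + (-119/10)*d^(2:ℕ)*t^(3:ℕ) + (72/5)*d^(2:ℕ)*t^(4:ℕ) + (-119/10)*d^(2:ℕ)*t^(5:ℕ) + (36/5)*d^(2:ℕ)*t^(6:ℕ) + (-13/10)*d^(2:ℕ)*t^(7:ℕ) + (-169/100)*d^(3:ℕ)*t^(2:ℕ) + (26/5)*d^(3:ℕ)*t^(3:ℕ) + (-369/50)*d^(3:ℕ)*t^(4:ℕ) + (26/5)*d^(3:ℕ)*t^(5:ℕ) + (-169/100)*d^(3:ℕ)*t^(6:ℕ) := by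
  have e0 : 1 + 4*t^(2:ℕ) + 6*t^(4:ℕ) + 4*t^(6:ℕ) + 1*t^(8:ℕ) + (-1/2)*d + 2*d*t + (-5)*d*t^(2:ℕ) + 6*d*t^(3:ℕ) + (-9)*d*t^(4:ℕ) + 6*d*t^(5:ℕ) + (-5)*d*t^(6:ℕ) + 2*d*t^(7:ℕ) + (-1/2)*d*t^(8:ℕ) + (-13/10)*d^(2:ℕ)*t + (36/5)*d^(2:ℕ)*t^(2:ℕ) + (-119/10)*d^(2:ℕ)*t^(3:ℕ) + (72/5)*d^(2:ℕ)*t^(4:ℕ) + (-119/10)*d^(2:ℕ)*t^(5:ℕ) + (36/5)*d^(2:ℕ)*t^(6:ℕ) + (-13/10)*d^(2:ℕ)*t^(7:ℕ) + (-169/100)*d^(3:ℕ)*t^(2:ℕ) + (26/5)*d^(3:ℕ)*t^(3:ℕ) + (-369/50)*d^(3:ℕ)*t^(4:ℕ) + (26/5)*d^(3:ℕ)*t^(5:ℕ) + (-169/100)*d^(3:ℕ)*t^(6:ℕ) = (1 + 4*t^(2:ℕ) + 6*t^(4:ℕ) + 4*t^(6:ℕ) + 1*t^(8:ℕ)) + d*((-1/2) + 2*t + (-5)*t^(2:ℕ) + 6*t^(3:ℕ) + (-9)*t^(4:ℕ) + 6*t^(5:ℕ) + (-5)*t^(6:ℕ) + 2*t^(7:ℕ) + (-1/2)*t^(8:ℕ))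 + d^(2:ℕ)*((-13/10)*t + (36/5)*t^(2:ℕ) + (-119/10)*t^(3:ℕ) + (72/5)*t^(4:ℕ) + (-119/10)*t^(5:ℕ) + (36/5)*t^(6:ℕ) + (-13/10)*t^(7:ℕ)) + d^(3:ℕ)*((-169/100)*t^(2:ℕ) + (26/5)*t^(3:ℕ) + (-369/50)*t^(4:ℕ) + (26/5)*t^(5:ℕ) + (-169/100)*t^(6:ℕ)) := by
    ring
  rw [e0]
  exact pos_r3_id d (1 + 4*t^(2:ℕ) + 6*t^(4:ℕ) + 4*t^(6:ℕ) + 1*t^(8:ℕ)) ((-1/2) + 2*t + (-5)*t^(2:ℕ) + 6*t^(3:ℕ) + (-9)*t^(4:ℕ) + 6*t^(5:ℕ) + (-5)*t^(6:ℕ) + 2*t^(7:ℕ) + (-1/2)*t^(8:ℕ)) ((-13/10)*t + (36/5)*t^(2:ℕ) + (-119/10)*t^(3:ℕ) + (72/5)*t^(4:ℕ) + (-119/10)*t^(5:ℕ) + (36/5)*t^(6:ℕ) + (-13/10)*t^(7:ℕ)) ((-169/100)*t^(2:ℕ) + (26/5)*t^(3:ℕ) + (-369/50)*t^(4:ℕ) + (26/5)*t^(5:ℕ) + (-169/100)*t^(6:ℕ)) h1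 h2 ((pos_r3_b0 t h3 h4).trans_eq (by ring)) ((pos_r3_b1 t h3 h4).trans_eq (by ring)) ((pos_r3_b2 t h3 h4).trans_eq (by ring)) ((pos_r3_b3 t h3 h4).trans_eq (by ring))

lemma pos_DP_b0 (t : ℝ) (h3 : 0 ≤ t) (h4 : t ≤ 1) :
    0 ≤ (43/40) + (-18/5)*t + (36/5)*t^(2:ℕ) + (-72/5)*t^(3:ℕ) + 18*t^(4:ℕ) + (-18)*t^(5:ℕ) + 24*t^(6:ℕ) + 18*t^(8:ℕ) + 18*t^(9:ℕ) + (36/5)*t^(10:ℕ) + (72/5)*t^(11:ℕ) + (6/5)*t^(12:ℕ) + (18/5)*t^(13:ℕ) := by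
  obtain ⟨t2, ht2⟩ : ∃ t2 : ℝ, t2 = 1 - t := ⟨_, rfl⟩
  have a4 : 0 ≤ t2 := by rw [ht2]; linarith
  have e : (43/40) + (-18/5)*t + (36/5)*t^(2:ℕ) + (-72/5)*t^(3:ℕ) + 18*t^(4:ℕ) + (-18)*t^(5:ℕ) + 24*t^(6:ℕ) + 18*t^(8:ℕ) + 18*t^(9:ℕ) + (36/5)*t^(10:ℕ) + (72/5)*t^(11:ℕ) + (6/5)*t^(12:ℕ) + (18/5)*t^(13:ℕ) = (43/40)*t2^(14:ℕ) + (229/20)*t^(1:ℕ)*t2^(13:ℕ) + (2329/40)*t^(2:ℕ)*t2^(12:ℕ) + (365/2)*t^(3:ℕ)*t2^(11:ℕ) + (15251/40)*t^(4:ℕ)*t2^(10:ℕ) + (10643/20)*t^(5:ℕ)*t2^(9:ℕ) + (18201/40)*t^(6:ℕ)*t2^(8:ℕ) + (831/5)*t^(7:ℕ)*t2^(7:ℕ) + (69/8)*t^(8:ℕ)*t2^(6:ℕ) + (6131/20)*t^(9:ℕ)*t2^(5:ℕ) + (34931/40)*t^(10:ℕ)*t2^(4:ℕ) + (11449/10)*t^(11:ℕ)*t2^(3:ℕ) + (34873/40)*t^(12:ℕ)*t2^(2:ℕ)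 + (1529/4)*t^(13:ℕ)*t2^(1:ℕ) + (3067/40)*t^(14:ℕ) := by
    rw [ht2]; ring
  rw [e]
  positivity

lemma pos_DP_b1 (t : ℝ) (h3 : 0 ≤ t) (h4 : t ≤ 1) :
    0 ≤ (39/32) + (-3123/800)*t + (13943/1600)*t^(2:ℕ) + (-1739/100)*t^(3:ℕ) + (4573/200)*t^(4:ℕ) + (-795/32)*t^(5:ℕ) + (1993/64)*t^(6:ℕ) + (-111/20)*t^(7:ℕ) + (3707/160)*t^(8:ℕ) + (2731/160)*t^(9:ℕ) + (2821/320)*t^(10:ℕ) + (747/50)*t^(11:ℕ) + (497/400)*t^(12:ℕ) + (2943/800)*t^(13:ℕ) + (-81/1600)*t^(14:ℕ) := by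
  obtain ⟨t2, ht2⟩ : ∃ t2 : ℝ, t2 = 1 - t := ⟨_, rfl⟩
  have a4 : 0 ≤ t2 := by rw [ht2]; linarith
  have e : (39/32) + (-3123/800)*t + (13943/1600)*t^(2:ℕ) + (-1739/100)*t^(3:ℕ) + (4573/200)*t^(4:ℕ) + (-795/32)*t^(5:ℕ) + (1993/64)*t^(6:ℕ) + (-111/20)*t^(7:ℕ) + (3707/160)*t^(8:ℕ) + (2731/160)*t^(9:ℕ) + (2821/320)*t^(10:ℕ) + (747/50)*t^(11:ℕ) + (497/400)*t^(12:ℕ) + (2943/800)*t^(13:ℕ) + (-81/1600)*t^(14:ℕ) = (39/32)*t2^(14:ℕ) + (10527/800)*t^(1:ℕ)*t2^(13:ℕ) + (22039/320)*t^(2:ℕ)*t2^(12:ℕ) + (45263/200)*t^(3:ℕ)*t2^(11:ℕ) + (25511/50)*t^(4:ℕ)*t2^(10:ℕ) + (32531/40)*t^(5:ℕ)*t2^(9:ℕ) + (366607/400)*t^(6:ℕ)*t2^(8:ℕ) + 740*t^(7:ℕ)*t2^(7:ℕ) + (110001/200)*t^(8:ℕ)*t2^(6:ℕ)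 + (69849/100)*t^(9:ℕ)*t2^(5:ℕ) + (44093/40)*t^(10:ℕ)*t2^(4:ℕ) + (63289/50)*t^(11:ℕ)*t2^(3:ℕ) + (37289/40)*t^(12:ℕ)*t2^(2:ℕ) + (40553/100)*t^(13:ℕ)*t2^(1:ℕ) + (16223/200)*t^(14:ℕ) := by
    rw [ht2]; ring
  rw [e]
  positivity

lemma pos_DP_b2 (t : ℝ) (h3 : 0 ≤ t) (h4 : t ≤ 1) :
    0 ≤ (2091/1600) + (-5633/1400)*t + (112041/11200)*t^(2:ℕ) + (-112417/5600)*t^(3:ℕ) + (61017/2240)*t^(4:ℕ) + (-25121/800)*t^(5:ℕ) + (422491/11200)*t^(6:ℕ) + (-29689/2800)*t^(7:ℕ) + (44697/1600)*t^(8:ℕ) + (45379/2800)*t^(9:ℕ) + (113103/11200)*t^(10:ℕ) + (16631/1120)*t^(11:ℕ) + (2419/2240)*t^(12:ℕ) + (18981/5600)*t^(13:ℕ) + (-1539/11200)*t^(14:ℕ) := by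
  obtain ⟨t2, ht2⟩ : ∃ t2 : ℝ, t2 = 1 - t := ⟨_, rfl⟩
  have a4 : 0 ≤ t2 := by rw [ht2]; linarith
  have e : (2091/1600) + (-5633/1400)*t + (112041/11200)*t^(2:ℕ) + (-112417/5600)*t^(3:ℕ) + (61017/2240)*t^(4:ℕ) + (-25121/800)*t^(5:ℕ) + (422491/11200)*t^(6:ℕ) + (-29689/2800)*t^(7:ℕ) + (44697/1600)*t^(8:ℕ) + (45379/2800)*t^(9:ℕ) + (113103/11200)*t^(10:ℕ) + (16631/1120)*t^(11:ℕ) + (2419/2240)*t^(12:ℕ) + (18981/5600)*t^(13:ℕ) + (-1539/11200)*t^(14:ℕ) = (2091/1600)*t2^(14:ℕ) + (79927/5600)*t^(1:ℕ)*t2^(13:ℕ) + (13409/175)*t^(2:ℕ)*t2^(12:ℕ) + (1466267/5600)*t^(3:ℕ)*t2^(11:ℕ) + (139799/224)*t^(4:ℕ)*t2^(10:ℕ) + (603241/560)*t^(5:ℕ)*t2^(9:ℕ) + (1093307/800)*t^(6:ℕ)*t2^(8:ℕ)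 + (9160/7)*t^(7:ℕ)*t2^(7:ℕ) + (1514319/1400)*t^(8:ℕ)*t2^(6:ℕ) + (747591/700)*t^(9:ℕ)*t2^(5:ℕ) + (1822767/1400)*t^(10:ℕ)*t2^(4:ℕ) + (238334/175)*t^(11:ℕ)*t2^(3:ℕ) + (1368439/1400)*t^(12:ℕ)*t2^(2:ℕ) + (295187/700)*t^(13:ℕ)*t2^(1:ℕ) + (117029/1400)*t^(14:ℕ) := by
    rw [ht2]; ring
  rw [e]
  positivity

lemma pos_DP_b3 (t : ℝ) (h3 : 0 ≤ t) (h4 : t ≤ 1) :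
    0 ≤ (296577/224000) + (-440927/112000)*t + (489693/44800)*t^(2:ℕ) + (-2484799/112000)*t^(3:ℕ) + (6915261/224000)*t^(4:ℕ) + (-1049197/28000)*t^(5:ℕ) + (9724559/224000)*t^(6:ℕ) + (-813671/56000)*t^(7:ℕ) + (7103451/224000)*t^(8:ℕ) + (259631/16000)*t^(9:ℕ) + (335193/32000)*t^(10:ℕ) + (1588141/112000)*t^(11:ℕ) + (123031/224000)*t^(12:ℕ) + (148149/56000)*t^(13:ℕ) + (-10611/44800)*t^(14:ℕ) := by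
  obtain ⟨t2, ht2⟩ : ∃ t2 : ℝ, t2 = 1 - t := ⟨_, rfl⟩
  have a4 : 0 ≤ t2 := by rw [ht2]; linarith
  have e : (296577/224000) + (-440927/112000)*t + (489693/44800)*t^(2:ℕ) + (-2484799/112000)*t^(3:ℕ) + (6915261/224000)*t^(4:ℕ) + (-1049197/28000)*t^(5:ℕ) + (9724559/224000)*t^(6:ℕ) + (-813671/56000)*t^(7:ℕ) + (7103451/224000)*t^(8:ℕ) + (259631/16000)*t^(9:ℕ) + (335193/32000)*t^(10:ℕ) + (1588141/112000)*t^(11:ℕ) + (123031/224000)*t^(12:ℕ) + (148149/56000)*t^(13:ℕ) + (-10611/44800)*t^(14:ℕ) = (296577/224000)*t2^(14:ℕ) + (204389/14000)*t^(1:ℕ)*t2^(13:ℕ) + (1797287/22400)*t^(2:ℕ)*t2^(12:ℕ) + (31790699/112000)*t^(3:ℕ)*t2^(11:ℕ) + (79255853/112000)*t^(4:ℕ)*t2^(10:ℕ) + (72328747/56000)*t^(5:ℕ)*t2^(9:ℕ)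 + (196525129/112000)*t^(6:ℕ)*t2^(8:ℕ) + (25375757/14000)*t^(7:ℕ)*t2^(7:ℕ) + (5430303/3500)*t^(8:ℕ)*t2^(6:ℕ) + (9674023/7000)*t^(9:ℕ)*t2^(5:ℕ) + (20428907/14000)*t^(10:ℕ)*t2^(4:ℕ) + (2005211/1400)*t^(11:ℕ)*t2^(3:ℕ) + (176611/175)*t^(12:ℕ)*t2^(2:ℕ) + (754499/1750)*t^(13:ℕ)*t2^(1:ℕ) + (58777/700)*t^(14:ℕ) := by
    rw [ht2]; ring
  rw [e]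
  positivity

lemma pos_DP_b4 (t : ℝ) (h3 : 0 ≤ t) (h4 : t ≤ 1) :
    0 ≤ (14242709/11200000) + (-514229/140000)*t + (64108539/5600000)*t^(2:ℕ) + (-264053/11200)*t^(3:ℕ) + (378133151/11200000)*t^(4:ℕ) + (-12072211/280000)*t^(5:ℕ) + (134618411/2800000)*t^(6:ℕ) + (-473713/28000)*t^(7:ℕ) + (381493571/11200000)*t^(8:ℕ) + (313351/17500)*t^(9:ℕ) + (52118739/5600000)*t^(10:ℕ) + (730411/56000)*t^(11:ℕ) + (-5997431/11200000)*t^(12:ℕ) + (400653/280000)*t^(13:ℕ) + (-16281/56000)*t^(14:ℕ) := by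
  obtain ⟨t2, ht2⟩ : ∃ t2 : ℝ, t2 = 1 - t := ⟨_, rfl⟩
  have a4 : 0 ≤ t2 := by rw [ht2]; linarith
  have e : (14242709/11200000) + (-514229/140000)*t + (64108539/5600000)*t^(2:ℕ) + (-264053/11200)*t^(3:ℕ) + (378133151/11200000)*t^(4:ℕ) + (-12072211/280000)*t^(5:ℕ) + (134618411/2800000)*t^(6:ℕ) + (-473713/28000)*t^(7:ℕ) + (381493571/11200000)*t^(8:ℕ) + (313351/17500)*t^(9:ℕ) + (52118739/5600000)*t^(10:ℕ) + (730411/56000)*t^(11:ℕ) + (-5997431/11200000)*t^(12:ℕ) + (400653/280000)*t^(13:ℕ) + (-16281/56000)*t^(14:ℕ) = (14242709/11200000)*t2^(14:ℕ) + (79129803/5600000)*t^(1:ℕ)*t2^(13:ℕ) + (889505437/11200000)*t^(2:ℕ)*t2^(12:ℕ) + (812527263/2800000)*t^(3:ℕ)*t2^(11:ℕ) +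 (526704343/700000)*t^(4:ℕ)*t2^(10:ℕ) + (2010411231/1400000)*t^(5:ℕ)*t2^(9:ℕ) + (1433313461/700000)*t^(6:ℕ)*t2^(8:ℕ) + (193815267/87500)*t^(7:ℕ)*t2^(7:ℕ) + (338051313/175000)*t^(8:ℕ)*t2^(6:ℕ) + (40702627/25000)*t^(9:ℕ)*t2^(5:ℕ) + (1101723257/700000)*t^(10:ℕ)*t2^(4:ℕ) + (259250623/175000)*t^(11:ℕ)*t2^(3:ℕ) + (22543583/21875)*t^(12:ℕ)*t2^(2:ℕ) + (1520707/3500)*t^(13:ℕ)*t2^(1:ℕ) + (115079/1400)*t^(14:ℕ) := by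
    rw [ht2]; ring
  rw [e]
  positivity

lemma pos_DP_b5 (t : ℝ) (h3 : 0 ≤ t) (h4 : t ≤ 1) :
    0 ≤ (3000531/2560000) + (-297037/89600)*t + (104177019/8960000)*t^(2:ℕ) + (-1554703/64000)*t^(3:ℕ) + (646828647/17920000)*t^(4:ℕ) + (-2168107/44800)*t^(5:ℕ) + (230817481/4480000)*t^(6:ℕ) + (-557447/32000)*t^(7:ℕ) + (124782951/3584000)*t^(8:ℕ) + (276889/12800)*t^(9:ℕ) + (54716619/8960000)*t^(10:ℕ) + (5142379/448000)*t^(11:ℕ) + (-41358319/17920000)*t^(12:ℕ) + (-3483/22400)*t^(13:ℕ) + (-8991/44800)*t^(14:ℕ) := by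
  obtain ⟨t2, ht2⟩ : ∃ t2 : ℝ, t2 = 1 - t := ⟨_, rfl⟩
  have a4 : 0 ≤ t2 := by rw [ht2]; linarith
  have e : (3000531/2560000) + (-297037/89600)*t + (104177019/8960000)*t^(2:ℕ) + (-1554703/64000)*t^(3:ℕ) + (646828647/17920000)*t^(4:ℕ) + (-2168107/44800)*t^(5:ℕ) + (230817481/4480000)*t^(6:ℕ) + (-557447/32000)*t^(7:ℕ) + (124782951/3584000)*t^(8:ℕ) + (276889/12800)*t^(9:ℕ) + (54716619/8960000)*t^(10:ℕ) + (5142379/448000)*t^(11:ℕ) + (-41358319/17920000)*t^(12:ℕ) + (-3483/22400)*t^(13:ℕ) + (-8991/44800)*t^(14:ℕ) = (3000531/2560000)*t2^(14:ℕ) + (117322319/8960000)*t^(1:ℕ)*t2^(13:ℕ) + (38497031/512000)*t^(2:ℕ)*t2^(12:ℕ) + (1269126851/4480000)*t^(3:ℕ)*t2^(11:ℕ) + (1705489279/2240000)*t^(4:ℕ)*t2^(10:ℕ)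 + (483386719/320000)*t^(5:ℕ)*t2^(9:ℕ) + (3136733/1400)*t^(6:ℕ)*t2^(8:ℕ) + (702752893/280000)*t^(7:ℕ)*t2^(7:ℕ) + (62202681/28000)*t^(8:ℕ)*t2^(6:ℕ) + (507797407/280000)*t^(9:ℕ)*t2^(5:ℕ) + (371248193/224000)*t^(10:ℕ)*t2^(4:ℕ) + (60740653/40000)*t^(11:ℕ)*t2^(3:ℕ) + (292758199/280000)*t^(12:ℕ)*t2^(2:ℕ) + (1210721/2800)*t^(13:ℕ)*t2^(1:ℕ) + (438833/5600)*t^(14:ℕ) := by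
    rw [ht2]; ring
  rw [e]
  positivity

lemma pos_DP_b6 (t : ℝ) (h3 : 0 ≤ t) (h4 : t ≤ 1) :
    0 ≤ (9513919/8960000) + (-19039/6400)*t + (26094609/2240000)*t^(2:ℕ) + (-787231/32000)*t^(3:ℕ) + (341702401/8960000)*t^(4:ℕ) + (-212689/4000)*t^(5:ℕ) + (59749391/1120000)*t^(6:ℕ) + (-872303/56000)*t^(7:ℕ) + (305203441/8960000)*t^(8:ℕ) + (6079349/224000)*t^(9:ℕ) + (1518309/2240000)*t^(10:ℕ) + (2084629/224000)*t^(11:ℕ) + (-42126961/8960000)*t^(12:ℕ) + (-261/140)*t^(13:ℕ) + (3807/22400)*t^(14:ℕ) := by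
  obtain ⟨t2, ht2⟩ : ∃ t2 : ℝ, t2 = 1 - t := ⟨_, rfl⟩
  have a4 : 0 ≤ t2 := by rw [ht2]; linarith
  have e : (9513919/8960000) + (-19039/6400)*t + (26094609/2240000)*t^(2:ℕ) + (-787231/32000)*t^(3:ℕ) + (341702401/8960000)*t^(4:ℕ) + (-212689/4000)*t^(5:ℕ) + (59749391/1120000)*t^(6:ℕ) + (-872303/56000)*t^(7:ℕ) + (305203441/8960000)*t^(8:ℕ) + (6079349/224000)*t^(9:ℕ) + (1518309/2240000)*t^(10:ℕ) + (2084629/224000)*t^(11:ℕ) + (-42126961/8960000)*t^(12:ℕ) + (-261/140)*t^(13:ℕ) + (3807/22400)*t^(14:ℕ) = (9513919/8960000)*t2^(14:ℕ) + (7610019/640000)*t^(1:ℕ)*t2^(13:ℕ) + (124727053/1792000)*t^(2:ℕ)*t2^(12:ℕ) + (604031067/2240000)*t^(3:ℕ)*t2^(11:ℕ) + (838278127/1120000)*t^(4:ℕ)*t2^(10:ℕ)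 + (1721165751/1120000)*t^(5:ℕ)*t2^(9:ℕ) + (2112987511/896000)*t^(6:ℕ)*t2^(8:ℕ) + (761796657/280000)*t^(7:ℕ)*t2^(7:ℕ) + (2736313437/1120000)*t^(8:ℕ)*t2^(6:ℕ) + (1097797511/560000)*t^(9:ℕ)*t2^(5:ℕ) + (15495493/8960)*t^(10:ℕ)*t2^(4:ℕ) + (435752419/280000)*t^(11:ℕ)*t2^(3:ℕ) + (296402467/280000)*t^(12:ℕ)*t2^(2:ℕ) + (1191041/2800)*t^(13:ℕ)*t2^(1:ℕ) + (50863/700)*t^(14:ℕ) := by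
    rw [ht2]; ring
  rw [e]
  positivity

lemma pos_DP_b7 (t : ℝ) (h3 : 0 ≤ t) (h4 : t ≤ 1) :
    0 ≤ (613/625) + (-22069/8000)*t + (15072491/1280000)*t^(2:ℕ) + (-798499/32000)*t^(3:ℕ) + (20531087/512000)*t^(4:ℕ) + (-3652267/64000)*t^(5:ℕ) + (33968229/640000)*t^(6:ℕ) + (-136907/12800)*t^(7:ℕ) + (40912733/1280000)*t^(8:ℕ) + (2143321/64000)*t^(9:ℕ) + (-8948149/1280000)*t^(10:ℕ) + (384733/64000)*t^(11:ℕ) + (-18379749/2560000)*t^(12:ℕ) + (-105651/32000)*t^(13:ℕ) + (3159/3200)*t^(14:ℕ) := by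
  obtain ⟨t2, ht2⟩ : ∃ t2 : ℝ, t2 = 1 - t := ⟨_, rfl⟩
  have a4 : 0 ≤ t2 := by rw [ht2]; linarith
  have e : (613/625) + (-22069/8000)*t + (15072491/1280000)*t^(2:ℕ) + (-798499/32000)*t^(3:ℕ) + (20531087/512000)*t^(4:ℕ) + (-3652267/64000)*t^(5:ℕ) + (33968229/640000)*t^(6:ℕ) + (-136907/12800)*t^(7:ℕ) + (40912733/1280000)*t^(8:ℕ) + (2143321/64000)*t^(9:ℕ) + (-8948149/1280000)*t^(10:ℕ) + (384733/64000)*t^(11:ℕ) + (-18379749/2560000)*t^(12:ℕ) + (-105651/32000)*t^(13:ℕ) + (3159/3200)*t^(14:ℕ) = (613/625)*t2^(14:ℕ) + (438903/40000)*t^(1:ℕ)*t2^(13:ℕ) + (16682511/256000)*t^(2:ℕ)*t2^(12:ℕ) + (82620787/320000)*t^(3:ℕ)*t2^(11:ℕ) + (376629819/512000)*t^(4:ℕ)*t2^(10:ℕ) + (1988147303/1280000)*t^(5:ℕ)*t2^(9:ℕ)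 + (1254662049/512000)*t^(6:ℕ)*t2^(8:ℕ) + (28953683/10000)*t^(7:ℕ)*t2^(7:ℕ) + (421475571/160000)*t^(8:ℕ)*t2^(6:ℕ) + (167888341/80000)*t^(9:ℕ)*t2^(5:ℕ) + (232324241/128000)*t^(10:ℕ)*t2^(4:ℕ) + (257569641/160000)*t^(11:ℕ)*t2^(3:ℕ) + (171787581/160000)*t^(12:ℕ)*t2^(2:ℕ) + (1653821/4000)*t^(13:ℕ)*t2^(1:ℕ) + (52349/800)*t^(14:ℕ) := by
    rw [ht2]; ring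
  rw [e]
  positivity

lemma pos_DP_b8 (t : ℝ) (h3 : 0 ≤ t) (h4 : t ≤ 1) :
    0 ≤ (76947/80000) + (-5481/2000)*t + (983907/80000)*t^(2:ℕ) + (-12933/500)*t^(3:ℕ) + (1342897/32000)*t^(4:ℕ) + (-9531/160)*t^(5:ℕ) + (2022493/40000)*t^(6:ℕ) + (-7911/4000)*t^(7:ℕ) + (1145837/40000)*t^(8:ℕ) + (6291/160)*t^(9:ℕ) + (-1388493/80000)*t^(10:ℕ) + (27/32)*t^(11:ℕ) + (-1333327/160000)*t^(12:ℕ) + (-8019/2000)*t^(13:ℕ) + (243/100)*t^(14:ℕ) := by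
  obtain ⟨t2, ht2⟩ : ∃ t2 : ℝ, t2 = 1 - t := ⟨_, rfl⟩
  have a4 : 0 ≤ t2 := by rw [ht2]; linarith
  have e : (76947/80000) + (-5481/2000)*t + (983907/80000)*t^(2:ℕ) + (-12933/500)*t^(3:ℕ) + (1342897/32000)*t^(4:ℕ) + (-9531/160)*t^(5:ℕ) + (2022493/40000)*t^(6:ℕ) + (-7911/4000)*t^(7:ℕ) + (1145837/40000)*t^(8:ℕ) + (6291/160)*t^(9:ℕ) + (-1388493/80000)*t^(10:ℕ) + (27/32)*t^(11:ℕ) + (-1333327/160000)*t^(12:ℕ) + (-8019/2000)*t^(13:ℕ) + (243/100)*t^(14:ℕ) = (76947/80000)*t2^(14:ℕ) + (429009/40000)*t^(1:ℕ)*t2^(13:ℕ) + (1283991/20000)*t^(2:ℕ)*t2^(12:ℕ) + (2580699/10000)*t^(3:ℕ)*t2^(11:ℕ) + (119708663/160000)*t^(4:ℕ)*t2^(10:ℕ) + (128747359/80000)*t^(5:ℕ)*t2^(9:ℕ) + (413488249/160000)*t^(6:ℕ)*t2^(8:ℕ)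 + (7742843/2500)*t^(7:ℕ)*t2^(7:ℕ) + (1774542/625)*t^(8:ℕ)*t2^(6:ℕ) + (2824957/1250)*t^(9:ℕ)*t2^(5:ℕ) + (77666137/40000)*t^(10:ℕ)*t2^(4:ℕ) + (16960629/10000)*t^(11:ℕ)*t2^(3:ℕ) + (10939851/10000)*t^(12:ℕ)*t2^(2:ℕ) + (39599/100)*t^(13:ℕ)*t2^(1:ℕ) + (2287/40)*t^(14:ℕ) := by
    rw [ht2]; ring
  rw [e]
  positivity

lemma pos_DP_id (d C0 C1 C2 C3 C4 C5 C6 C7 C8 : ℝ) (h1 : 0 ≤ d) (h2 : d ≤ (1/2))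
    (b0 : 0 ≤ 1*C0 - (1/8))
    (b1 : 0 ≤ 1*C0 + (1/16)*C1 - (1/8))
    (b2 : 0 ≤ 1*C0 + (1/8)*C1 + (1/112)*C2 - (1/8))
    (b3 : 0 ≤ 1*C0 + (3/16)*C1 + (3/112)*C2 + (1/448)*C3 - (1/8))
    (b4 : 0 ≤ 1*C0 + (1/4)*C1 + (3/56)*C2 + (1/112)*C3 + (1/1120)*C4 - (1/8))
    (b5 : 0 ≤ 1*C0 + (5/16)*C1 + (5/56)*C2 + (5/224)*C3 + (1/224)*C4 + (1/1792)*C5 - (1/8))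
    (b6 : 0 ≤ 1*C0 + (3/8)*C1 + (15/112)*C2 + (5/112)*C3 + (3/224)*C4 + (3/896)*C5 + (1/1792)*C6 - (1/8))
    (b7 : 0 ≤ 1*C0 + (7/16)*C1 + (3/16)*C2 + (5/64)*C3 + (1/32)*C4 + (3/256)*C5 + (1/256)*C6 + (1/1024)*C7 - (1/8))
    (b8 : 0 ≤ 1*C0 + (1/2)*C1 + (1/4)*C2 + (1/8)*C3 + (1/16)*C4 + (1/32)*C5 + (1/64)*C6 + (1/128)*C7 + (1/256)*C8 - (1/8))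
    : 0 < C0 + d*C1 + d^(2:ℕ)*C2 + d^(3:ℕ)*C3 + d^(4:ℕ)*C4 + d^(5:ℕ)*C5 + d^(6:ℕ)*C6 + d^(7:ℕ)*C7 + d^(8:ℕ)*C8 := by
  obtain ⟨d2, hd2⟩ : ∃ d2 : ℝ, d2 = (1/2) - d := ⟨_, rfl⟩
  have a2 : 0 ≤ d2 := by rw [hd2]; linarith
  obtain ⟨B0, hB0⟩ : ∃ B : ℝ, B = 1*C0 - (1/8) := ⟨_, rfl⟩
  rw [← hB0] at b0
  obtain ⟨B1, hB1⟩ : ∃ B : ℝ, B = 1*C0 + (1/16)*C1 - (1/8) := ⟨_, rfl⟩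
  rw [← hB1] at b1
  obtain ⟨B2, hB2⟩ : ∃ B : ℝ, B = 1*C0 + (1/8)*C1 + (1/112)*C2 - (1/8) := ⟨_, rfl⟩
  rw [← hB2] at b2
  obtain ⟨B3, hB3⟩ : ∃ B : ℝ, B = 1*C0 + (3/16)*C1 + (3/112)*C2 + (1/448)*C3 - (1/8) := ⟨_, rfl⟩
  rw [← hB3] at b3
  obtain ⟨B4, hB4⟩ : ∃ B : ℝ, B = 1*C0 + (1/4)*C1 + (3/56)*C2 + (1/112)*C3 + (1/1120)*C4 - (1/8) := ⟨_, rfl⟩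
  rw [← hB4] at b4
  obtain ⟨B5, hB5⟩ : ∃ B : ℝ, B = 1*C0 + (5/16)*C1 + (5/56)*C2 + (5/224)*C3 + (1/224)*C4 + (1/1792)*C5 - (1/8) := ⟨_, rfl⟩
  rw [← hB5] at b5
  obtain ⟨B6, hB6⟩ : ∃ B : ℝ, B = 1*C0 + (3/8)*C1 + (15/112)*C2 + (5/112)*C3 + (3/224)*C4 + (3/896)*C5 + (1/1792)*C6 - (1/8) := ⟨_, rfl⟩
  rw [← hB6] at b6
  obtain ⟨B7, hB7⟩ : ∃ B : ℝ, B = 1*C0 + (7/16)*C1 + (3/16)*C2 + (5/64)*C3 + (1/32)*C4 + (3/256)*C5 + (1/256)*C6 + (1/1024)*C7 - (1/8) := ⟨_, rfl⟩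
  rw [← hB7] at b7
  obtain ⟨B8, hB8⟩ : ∃ B : ℝ, B = 1*C0 + (1/2)*C1 + (1/4)*C2 + (1/8)*C3 + (1/16)*C4 + (1/32)*C5 + (1/64)*C6 + (1/128)*C7 + (1/256)*C8 - (1/8) := ⟨_, rfl⟩
  rw [← hB8] at b8
  have e : C0 + d*C1 + d^(2:ℕ)*C2 + d^(3:ℕ)*C3 + d^(4:ℕ)*C4 + d^(5:ℕ)*C5 + d^(6:ℕ)*C6 + d^(7:ℕ)*C7 + d^(8:ℕ)*C8 = (1/8) + (256*d2^(8:ℕ)*B0 + 2048*d^(1:ℕ)*d2^(7:ℕ)*B1 + 7168*d^(2:ℕ)*d2^(6:ℕ)*B2 + 14336*d^(3:ℕ)*d2^(5:ℕ)*B3 + 17920*d^(4:ℕ)*d2^(4:ℕ)*B4 + 14336*d^(5:ℕ)*d2^(3:ℕ)*B5 + 7168*d^(6:ℕ)*d2^(2:ℕ)*B6 + 2048*d^(7:ℕ)*d2^(1:ℕ)*B7 + 256*d^(8:ℕ)*B8) := by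
    rw [hB0, hB1, hB2, hB3, hB4, hB5, hB6, hB7, hB8, hd2]; ring
  rw [e]
  positivity

lemma pos_DP (d t : ℝ) (h1 : 0 ≤ d) (h2 : d ≤ (1/2)) (h3 : 0 ≤ t) (h4 : t ≤ 1) :
    0 < (6/5) + (-18/5)*t + (36/5)*t^(2:ℕ) + (-72/5)*t^(3:ℕ) + 18*t^(4:ℕ) + (-18)*t^(5:ℕ) + 24*t^(6:ℕ) + 18*t^(8:ℕ) + 18*t^(9:ℕ) + (36/5)*t^(10:ℕ) + (72/5)*t^(11:ℕ) + (6/5)*t^(12:ℕ) + (18/5)*t^(13:ℕ) + (23/10)*d + (-243/50)*d*t + (2423/100)*d*t^(2:ℕ) + (-1196/25)*d*t^(3:ℕ) + (1946/25)*d*t^(4:ℕ) + (-219/2)*d*t^(5:ℕ) + (457/4)*d*t^(6:ℕ) + (-444/5)*d*t^(7:ℕ) + (827/10)*d*t^(8:ℕ) + (-149/10)*d*t^(9:ℕ) + (517/20)*d*t^(10:ℕ) + (216/25)*d*t^(11:ℕ) + (17/25)*d*t^(12:ℕ) + (63/50)*d*t^(13:ℕ) + (-81/100)*d*t^(14:ℕ)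 + (-623/100)*d^(2:ℕ) + (103/5)*d^(2:ℕ)*t + (-2521/100)*d^(2:ℕ)*t^(2:ℕ) + (1711/50)*d^(2:ℕ)*t^(3:ℕ) + (-5491/100)*d^(2:ℕ)*t^(4:ℕ) + (1603/50)*d^(2:ℕ)*t^(5:ℕ) + (-6259/100)*d^(2:ℕ)*t^(6:ℕ) + (1391/25)*d^(2:ℕ)*t^(7:ℕ) + (-4501/100)*d^(2:ℕ)*t^(8:ℕ) + (194/25)*d^(2:ℕ)*t^(9:ℕ) + (-3727/100)*d^(2:ℕ)*t^(10:ℕ) + (-3533/50)*d^(2:ℕ)*t^(11:ℕ) + (-2297/100)*d^(2:ℕ)*t^(12:ℕ) + (-2061/50)*d^(2:ℕ)*t^(13:ℕ) + (-81/20)*d^(2:ℕ)*t^(14:ℕ) + (-3443/500)*d^(3:ℕ) + (2533/250)*d^(3:ℕ)*t + (-6147/100)*d^(3:ℕ)*t^(2:ℕ) + (29981/250)*d^(3:ℕ)*t^(3:ℕ) + (-56559/500)*d^(3:ℕ)*t^(4:ℕ) + (11266/125)*d^(3:ℕ)*t^(5:ℕ) + (-74401/500)*d^(3:ℕ)*t^(6:ℕ) + (35269/125)*d^(3:ℕ)*t^(7:ℕ) + (-131889/500)*d^(3:ℕ)*t^(8:ℕ)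 + (91037/250)*d^(3:ℕ)*t^(9:ℕ) + (-128529/500)*d^(3:ℕ)*t^(10:ℕ) + (5881/250)*d^(3:ℕ)*t^(11:ℕ) + (-36509/500)*d^(3:ℕ)*t^(12:ℕ) + (-4851/125)*d^(3:ℕ)*t^(13:ℕ) + (1053/100)*d^(3:ℕ)*t^(14:ℕ) + (189309/10000)*d^(4:ℕ) + (-7294/125)*d^(4:ℕ)*t + (503039/5000)*d^(4:ℕ)*t^(2:ℕ) + (-6727/50)*d^(4:ℕ)*t^(3:ℕ) + (2838951/10000)*d^(4:ℕ)*t^(4:ℕ) + (-73431/250)*d^(4:ℕ)*t^(5:ℕ) + (551961/2500)*d^(4:ℕ)*t^(6:ℕ) + (-6111/25)*d^(4:ℕ)*t^(7:ℕ) + (1717371/10000)*d^(4:ℕ)*t^(8:ℕ) + (-5077/125)*d^(4:ℕ)*t^(9:ℕ) + (-357361/5000)*d^(4:ℕ)*t^(10:ℕ) + (3269/50)*d^(4:ℕ)*t^(11:ℕ) + (-257631/10000)*d^(4:ℕ)*t^(12:ℕ) + (19773/250)*d^(4:ℕ)*t^(13:ℕ) + (972/25)*d^(4:ℕ)*t^(14:ℕ) + (13529/2000)*d^(5:ℕ) + (-601/250)*d^(5:ℕ)*t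 + (258707/5000)*d^(5:ℕ)*t^(2:ℕ) + (-33081/250)*d^(5:ℕ)*t^(3:ℕ) + (-1243761/10000)*d^(5:ℕ)*t^(4:ℕ) + (58349/125)*d^(5:ℕ)*t^(5:ℕ) + (-1152007/2500)*d^(5:ℕ)*t^(6:ℕ) + (34751/125)*d^(5:ℕ)*t^(7:ℕ) + (2022987/10000)*d^(5:ℕ)*t^(8:ℕ) + (-157533/250)*d^(5:ℕ)*t^(9:ℕ) + (1911107/5000)*d^(5:ℕ)*t^(10:ℕ) + (-58021/250)*d^(5:ℕ)*t^(11:ℕ) + (1349929/10000)*d^(5:ℕ)*t^(12:ℕ) + (9918/125)*d^(5:ℕ)*t^(13:ℕ) + (243/25)*d^(5:ℕ)*t^(14:ℕ) + (-22581/1250)*d^(6:ℕ) + (5814/125)*d^(6:ℕ)*t + (-165771/2500)*d^(6:ℕ)*t^(2:ℕ) + (10566/125)*d^(6:ℕ)*t^(3:ℕ) + (-39616/625)*d^(6:ℕ)*t^(4:ℕ) + (-12586/125)*d^(6:ℕ)*t^(5:ℕ) + (258471/1250)*d^(6:ℕ)*t^(6:ℕ) + (4082/125)*d^(6:ℕ)*t^(7:ℕ) + (-275693/1250)*d^(6:ℕ)*t^(8:ℕ)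 + (19116/125)*d^(6:ℕ)*t^(9:ℕ) + (-318771/2500)*d^(6:ℕ)*t^(10:ℕ) + (-4248/125)*d^(6:ℕ)*t^(11:ℕ) + (81153/625)*d^(6:ℕ)*t^(12:ℕ) + (-1944/125)*d^(6:ℕ)*t^(13:ℕ) + (-324/25)*d^(6:ℕ)*t^(14:ℕ) + (13689/2500)*d^(7:ℕ) + (-2106/125)*d^(7:ℕ)*t + (324/25)*d^(7:ℕ)*t^(2:ℕ) + (2106/125)*d^(7:ℕ)*t^(3:ℕ) + (14283/1250)*d^(7:ℕ)*t^(4:ℕ) + (-14202/125)*d^(7:ℕ)*t^(5:ℕ) + (18504/125)*d^(7:ℕ)*t^(6:ℕ) + (-1746/25)*d^(7:ℕ)*t^(7:ℕ) + (-120519/2500)*d^(7:ℕ)*t^(8:ℕ) + (4104/25)*d^(7:ℕ)*t^(9:ℕ) + (-22644/125)*d^(7:ℕ)*t^(10:ℕ) + (6624/125)*d^(7:ℕ)*t^(11:ℕ) + (32166/625)*d^(7:ℕ)*t^(12:ℕ) + (-4212/125)*d^(7:ℕ)*t^(13:ℕ) + (-13689/1250)*d^(8:ℕ)*t^(4:ℕ) + (4212/125)*d^(8:ℕ)*t^(5:ℕ) + (-648/25)*d^(8:ℕ)*t^(6:ℕ)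 + (-4212/125)*d^(8:ℕ)*t^(7:ℕ) + (46089/625)*d^(8:ℕ)*t^(8:ℕ) + (-4212/125)*d^(8:ℕ)*t^(9:ℕ) + (-648/25)*d^(8:ℕ)*t^(10:ℕ) + (4212/125)*d^(8:ℕ)*t^(11:ℕ) + (-13689/1250)*d^(8:ℕ)*t^(12:ℕ) := by
  have e0 : (6/5) + (-18/5)*t + (36/5)*t^(2:ℕ) + (-72/5)*t^(3:ℕ) + 18*t^(4:ℕ) + (-18)*t^(5:ℕ) + 24*t^(6:ℕ) + 18*t^(8:ℕ) + 18*t^(9:ℕ) + (36/5)*t^(10:ℕ) + (72/5)*t^(11:ℕ) + (6/5)*t^(12:ℕ) + (18/5)*t^(13:ℕ) + (23/10)*d + (-243/50)*d*t + (2423/100)*d*t^(2:ℕ) + (-1196/25)*d*t^(3:ℕ) + (1946/25)*d*t^(4:ℕ) + (-219/2)*d*t^(5:ℕ) + (457/4)*d*t^(6:ℕ) + (-444/5)*d*t^(7:ℕ) + (827/10)*d*t^(8:ℕ) + (-149/10)*d*t^(9:ℕ) + (517/20)*d*t^(10:ℕ) + (216/25)*d*t^(11:ℕ) + (17/25)*d*t^(12:ℕ) + (63/50)*d*t^(13:ℕ)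 + (-81/100)*d*t^(14:ℕ) + (-623/100)*d^(2:ℕ) + (103/5)*d^(2:ℕ)*t + (-2521/100)*d^(2:ℕ)*t^(2:ℕ) + (1711/50)*d^(2:ℕ)*t^(3:ℕ) + (-5491/100)*d^(2:ℕ)*t^(4:ℕ) + (1603/50)*d^(2:ℕ)*t^(5:ℕ) + (-6259/100)*d^(2:ℕ)*t^(6:ℕ) + (1391/25)*d^(2:ℕ)*t^(7:ℕ) + (-4501/100)*d^(2:ℕ)*t^(8:ℕ) + (194/25)*d^(2:ℕ)*t^(9:ℕ) + (-3727/100)*d^(2:ℕ)*t^(10:ℕ) + (-3533/50)*d^(2:ℕ)*t^(11:ℕ) + (-2297/100)*d^(2:ℕ)*t^(12:ℕ) + (-2061/50)*d^(2:ℕ)*t^(13:ℕ) + (-81/20)*d^(2:ℕ)*t^(14:ℕ) + (-3443/500)*d^(3:ℕ) + (2533/250)*d^(3:ℕ)*t + (-6147/100)*d^(3:ℕ)*t^(2:ℕ) + (29981/250)*d^(3:ℕ)*t^(3:ℕ) + (-56559/500)*d^(3:ℕ)*t^(4:ℕ) + (11266/125)*d^(3:ℕ)*t^(5:ℕ) + (-74401/500)*d^(3:ℕ)*t^(6:ℕ) + (35269/125)*d^(3:ℕ)*t^(7:ℕ)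 + (-131889/500)*d^(3:ℕ)*t^(8:ℕ) + (91037/250)*d^(3:ℕ)*t^(9:ℕ) + (-128529/500)*d^(3:ℕ)*t^(10:ℕ) + (5881/250)*d^(3:ℕ)*t^(11:ℕ) + (-36509/500)*d^(3:ℕ)*t^(12:ℕ) + (-4851/125)*d^(3:ℕ)*t^(13:ℕ) + (1053/100)*d^(3:ℕ)*t^(14:ℕ) + (189309/10000)*d^(4:ℕ) + (-7294/125)*d^(4:ℕ)*t + (503039/5000)*d^(4:ℕ)*t^(2:ℕ) + (-6727/50)*d^(4:ℕ)*t^(3:ℕ) + (2838951/10000)*d^(4:ℕ)*t^(4:ℕ) + (-73431/250)*d^(4:ℕ)*t^(5:ℕ) + (551961/2500)*d^(4:ℕ)*t^(6:ℕ) + (-6111/25)*d^(4:ℕ)*t^(7:ℕ) + (1717371/10000)*d^(4:ℕ)*t^(8:ℕ) + (-5077/125)*d^(4:ℕ)*t^(9:ℕ) + (-357361/5000)*d^(4:ℕ)*t^(10:ℕ) + (3269/50)*d^(4:ℕ)*t^(11:ℕ) + (-257631/10000)*d^(4:ℕ)*t^(12:ℕ) + (19773/250)*d^(4:ℕ)*t^(13:ℕ) + (972/25)*d^(4:ℕ)*t^(14:ℕ)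 + (13529/2000)*d^(5:ℕ) + (-601/250)*d^(5:ℕ)*t + (258707/5000)*d^(5:ℕ)*t^(2:ℕ) + (-33081/250)*d^(5:ℕ)*t^(3:ℕ) + (-1243761/10000)*d^(5:ℕ)*t^(4:ℕ) + (58349/125)*d^(5:ℕ)*t^(5:ℕ) + (-1152007/2500)*d^(5:ℕ)*t^(6:ℕ) + (34751/125)*d^(5:ℕ)*t^(7:ℕ) + (2022987/10000)*d^(5:ℕ)*t^(8:ℕ) + (-157533/250)*d^(5:ℕ)*t^(9:ℕ) + (1911107/5000)*d^(5:ℕ)*t^(10:ℕ) + (-58021/250)*d^(5:ℕ)*t^(11:ℕ) + (1349929/10000)*d^(5:ℕ)*t^(12:ℕ) + (9918/125)*d^(5:ℕ)*t^(13:ℕ) + (243/25)*d^(5:ℕ)*t^(14:ℕ) + (-22581/1250)*d^(6:ℕ) + (5814/125)*d^(6:ℕ)*t + (-165771/2500)*d^(6:ℕ)*t^(2:ℕ) + (10566/125)*d^(6:ℕ)*t^(3:ℕ) + (-39616/625)*d^(6:ℕ)*t^(4:ℕ) + (-12586/125)*d^(6:ℕ)*t^(5:ℕ) + (258471/1250)*d^(6:ℕ)*t^(6:ℕ) + (4082/125)*d^(6:ℕ)*t^(7:ℕ)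 + (-275693/1250)*d^(6:ℕ)*t^(8:ℕ) + (19116/125)*d^(6:ℕ)*t^(9:ℕ) + (-318771/2500)*d^(6:ℕ)*t^(10:ℕ) + (-4248/125)*d^(6:ℕ)*t^(11:ℕ) + (81153/625)*d^(6:ℕ)*t^(12:ℕ) + (-1944/125)*d^(6:ℕ)*t^(13:ℕ) + (-324/25)*d^(6:ℕ)*t^(14:ℕ) + (13689/2500)*d^(7:ℕ) + (-2106/125)*d^(7:ℕ)*t + (324/25)*d^(7:ℕ)*t^(2:ℕ) + (2106/125)*d^(7:ℕ)*t^(3:ℕ) + (14283/1250)*d^(7:ℕ)*t^(4:ℕ) + (-14202/125)*d^(7:ℕ)*t^(5:ℕ) + (18504/125)*d^(7:ℕ)*t^(6:ℕ) + (-1746/25)*d^(7:ℕ)*t^(7:ℕ) + (-120519/2500)*d^(7:ℕ)*t^(8:ℕ) + (4104/25)*d^(7:ℕ)*t^(9:ℕ) + (-22644/125)*d^(7:ℕ)*t^(10:ℕ) + (6624/125)*d^(7:ℕ)*t^(11:ℕ) + (32166/625)*d^(7:ℕ)*t^(12:ℕ) + (-4212/125)*d^(7:ℕ)*t^(13:ℕ) + (-13689/1250)*d^(8:ℕ)*t^(4:ℕ) + (4212/125)*d^(8:ℕ)*t^(5:ℕ)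 + (-648/25)*d^(8:ℕ)*t^(6:ℕ) + (-4212/125)*d^(8:ℕ)*t^(7:ℕ) + (46089/625)*d^(8:ℕ)*t^(8:ℕ) + (-4212/125)*d^(8:ℕ)*t^(9:ℕ) + (-648/25)*d^(8:ℕ)*t^(10:ℕ) + (4212/125)*d^(8:ℕ)*t^(11:ℕ) + (-13689/1250)*d^(8:ℕ)*t^(12:ℕ) = ((6/5) + (-18/5)*t + (36/5)*t^(2:ℕ) + (-72/5)*t^(3:ℕ) + 18*t^(4:ℕ) + (-18)*t^(5:ℕ) + 24*t^(6:ℕ) + 18*t^(8:ℕ) + 18*t^(9:ℕ) + (36/5)*t^(10:ℕ) + (72/5)*t^(11:ℕ) + (6/5)*t^(12:ℕ) + (18/5)*t^(13:ℕ)) + d*((23/10) + (-243/50)*t + (2423/100)*t^(2:ℕ) + (-1196/25)*t^(3:ℕ) + (1946/25)*t^(4:ℕ) + (-219/2)*t^(5:ℕ) + (457/4)*t^(6:ℕ) + (-444/5)*t^(7:ℕ) + (827/10)*t^(8:ℕ) + (-149/10)*t^(9:ℕ) + (517/20)*t^(10:ℕ) + (216/25)*t^(11:ℕ) + (17/25)*t^(12:ℕ) + (63/50)*t^(13:ℕ) + (-81/100)*t^(14:ℕ))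 + d^(2:ℕ)*((-623/100) + (103/5)*t + (-2521/100)*t^(2:ℕ) + (1711/50)*t^(3:ℕ) + (-5491/100)*t^(4:ℕ) + (1603/50)*t^(5:ℕ) + (-6259/100)*t^(6:ℕ) + (1391/25)*t^(7:ℕ) + (-4501/100)*t^(8:ℕ) + (194/25)*t^(9:ℕ) + (-3727/100)*t^(10:ℕ) + (-3533/50)*t^(11:ℕ) + (-2297/100)*t^(12:ℕ) + (-2061/50)*t^(13:ℕ) + (-81/20)*t^(14:ℕ)) + d^(3:ℕ)*((-3443/500) + (2533/250)*t + (-6147/100)*t^(2:ℕ) + (29981/250)*t^(3:ℕ) + (-56559/500)*t^(4:ℕ) + (11266/125)*t^(5:ℕ) + (-74401/500)*t^(6:ℕ) + (35269/125)*t^(7:ℕ) + (-131889/500)*t^(8:ℕ) + (91037/250)*t^(9:ℕ) + (-128529/500)*t^(10:ℕ) + (5881/250)*t^(11:ℕ) + (-36509/500)*t^(12:ℕ) + (-4851/125)*t^(13:ℕ) + (1053/100)*t^(14:ℕ)) + d^(4:ℕ)*((189309/10000)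 + (-7294/125)*t + (503039/5000)*t^(2:ℕ) + (-6727/50)*t^(3:ℕ) + (2838951/10000)*t^(4:ℕ) + (-73431/250)*t^(5:ℕ) + (551961/2500)*t^(6:ℕ) + (-6111/25)*t^(7:ℕ) + (1717371/10000)*t^(8:ℕ) + (-5077/125)*t^(9:ℕ) + (-357361/5000)*t^(10:ℕ) + (3269/50)*t^(11:ℕ) + (-257631/10000)*t^(12:ℕ) + (19773/250)*t^(13:ℕ) + (972/25)*t^(14:ℕ)) + d^(5:ℕ)*((13529/2000) + (-601/250)*t + (258707/5000)*t^(2:ℕ) + (-33081/250)*t^(3:ℕ) + (-1243761/10000)*t^(4:ℕ) + (58349/125)*t^(5:ℕ) + (-1152007/2500)*t^(6:ℕ) + (34751/125)*t^(7:ℕ) + (2022987/10000)*t^(8:ℕ) + (-157533/250)*t^(9:ℕ) + (1911107/5000)*t^(10:ℕ) + (-58021/250)*t^(11:ℕ) + (1349929/10000)*t^(12:ℕ) + (9918/125)*t^(13:ℕ) + (243/25)*t^(14:ℕ))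 + d^(6:ℕ)*((-22581/1250) + (5814/125)*t + (-165771/2500)*t^(2:ℕ) + (10566/125)*t^(3:ℕ) + (-39616/625)*t^(4:ℕ) + (-12586/125)*t^(5:ℕ) + (258471/1250)*t^(6:ℕ) + (4082/125)*t^(7:ℕ) + (-275693/1250)*t^(8:ℕ) + (19116/125)*t^(9:ℕ) + (-318771/2500)*t^(10:ℕ) + (-4248/125)*t^(11:ℕ) + (81153/625)*t^(12:ℕ) + (-1944/125)*t^(13:ℕ) + (-324/25)*t^(14:ℕ)) + d^(7:ℕ)*((13689/2500) + (-2106/125)*t + (324/25)*t^(2:ℕ) + (2106/125)*t^(3:ℕ) + (14283/1250)*t^(4:ℕ) + (-14202/125)*t^(5:ℕ) + (18504/125)*t^(6:ℕ) + (-1746/25)*t^(7:ℕ) + (-120519/2500)*t^(8:ℕ) + (4104/25)*t^(9:ℕ) + (-22644/125)*t^(10:ℕ) + (6624/125)*t^(11:ℕ) + (32166/625)*t^(12:ℕ) + (-4212/125)*t^(13:ℕ)) + d^(8:ℕ)*((-13689/1250)*t^(4:ℕ)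 + (4212/125)*t^(5:ℕ) + (-648/25)*t^(6:ℕ) + (-4212/125)*t^(7:ℕ) + (46089/625)*t^(8:ℕ) + (-4212/125)*t^(9:ℕ) + (-648/25)*t^(10:ℕ) + (4212/125)*t^(11:ℕ) + (-13689/1250)*t^(12:ℕ)) := by
    ring
  rw [e0]
  exact pos_DP_id d ((6/5) + (-18/5)*t + (36/5)*t^(2:ℕ) + (-72/5)*t^(3:ℕ) + 18*t^(4:ℕ) + (-18)*t^(5:ℕ) + 24*t^(6:ℕ) + 18*t^(8:ℕ) + 18*t^(9:ℕ) + (36/5)*t^(10:ℕ) + (72/5)*t^(11:ℕ) + (6/5)*t^(12:ℕ) + (18/5)*t^(13:ℕ)) ((23/10) + (-243/50)*t + (2423/100)*t^(2:ℕ) + (-1196/25)*t^(3:ℕ) + (1946/25)*t^(4:ℕ) + (-219/2)*t^(5:ℕ) + (457/4)*t^(6:ℕ) + (-444/5)*t^(7:ℕ) + (827/10)*t^(8:ℕ) + (-149/10)*t^(9:ℕ) + (517/20)*t^(10:ℕ) + (216/25)*t^(11:ℕ) + (17/25)*t^(12:ℕ) + (63/50)*t^(13:ℕ)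 + (-81/100)*t^(14:ℕ)) ((-623/100) + (103/5)*t + (-2521/100)*t^(2:ℕ) + (1711/50)*t^(3:ℕ) + (-5491/100)*t^(4:ℕ) + (1603/50)*t^(5:ℕ) + (-6259/100)*t^(6:ℕ) + (1391/25)*t^(7:ℕ) + (-4501/100)*t^(8:ℕ) + (194/25)*t^(9:ℕ) + (-3727/100)*t^(10:ℕ) + (-3533/50)*t^(11:ℕ) + (-2297/100)*t^(12:ℕ) + (-2061/50)*t^(13:ℕ) + (-81/20)*t^(14:ℕ)) ((-3443/500) + (2533/250)*t + (-6147/100)*t^(2:ℕ) + (29981/250)*t^(3:ℕ) + (-56559/500)*t^(4:ℕ) + (11266/125)*t^(5:ℕ) + (-74401/500)*t^(6:ℕ) + (35269/125)*t^(7:ℕ) + (-131889/500)*t^(8:ℕ) + (91037/250)*t^(9:ℕ) + (-128529/500)*t^(10:ℕ) + (5881/250)*t^(11:ℕ) + (-36509/500)*t^(12:ℕ) + (-4851/125)*t^(13:ℕ) + (1053/100)*t^(14:ℕ)) ((189309/10000) + (-7294/125)*t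 + (503039/5000)*t^(2:ℕ) + (-6727/50)*t^(3:ℕ) + (2838951/10000)*t^(4:ℕ) + (-73431/250)*t^(5:ℕ) + (551961/2500)*t^(6:ℕ) + (-6111/25)*t^(7:ℕ) + (1717371/10000)*t^(8:ℕ) + (-5077/125)*t^(9:ℕ) + (-357361/5000)*t^(10:ℕ) + (3269/50)*t^(11:ℕ) + (-257631/10000)*t^(12:ℕ) + (19773/250)*t^(13:ℕ) + (972/25)*t^(14:ℕ)) ((13529/2000) + (-601/250)*t + (258707/5000)*t^(2:ℕ) + (-33081/250)*t^(3:ℕ) + (-1243761/10000)*t^(4:ℕ) + (58349/125)*t^(5:ℕ) + (-1152007/2500)*t^(6:ℕ) + (34751/125)*t^(7:ℕ) + (2022987/10000)*t^(8:ℕ) + (-157533/250)*t^(9:ℕ) + (1911107/5000)*t^(10:ℕ) + (-58021/250)*t^(11:ℕ) + (1349929/10000)*t^(12:ℕ) + (9918/125)*t^(13:ℕ) + (243/25)*t^(14:ℕ)) ((-22581/1250) + (5814/125)*t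 + (-165771/2500)*t^(2:ℕ) + (10566/125)*t^(3:ℕ) + (-39616/625)*t^(4:ℕ) + (-12586/125)*t^(5:ℕ) + (258471/1250)*t^(6:ℕ) + (4082/125)*t^(7:ℕ) + (-275693/1250)*t^(8:ℕ) + (19116/125)*t^(9:ℕ) + (-318771/2500)*t^(10:ℕ) + (-4248/125)*t^(11:ℕ) + (81153/625)*t^(12:ℕ) + (-1944/125)*t^(13:ℕ) + (-324/25)*t^(14:ℕ)) ((13689/2500) + (-2106/125)*t + (324/25)*t^(2:ℕ) + (2106/125)*t^(3:ℕ) + (14283/1250)*t^(4:ℕ) + (-14202/125)*t^(5:ℕ) + (18504/125)*t^(6:ℕ) + (-1746/25)*t^(7:ℕ) + (-120519/2500)*t^(8:ℕ) + (4104/25)*t^(9:ℕ) + (-22644/125)*t^(10:ℕ) + (6624/125)*t^(11:ℕ) + (32166/625)*t^(12:ℕ) + (-4212/125)*t^(13:ℕ)) ((-13689/1250)*t^(4:ℕ) + (4212/125)*t^(5:ℕ) + (-648/25)*t^(6:ℕ) + (-4212/125)*t^(7:ℕ)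 + (46089/625)*t^(8:ℕ) + (-4212/125)*t^(9:ℕ) + (-648/25)*t^(10:ℕ) + (4212/125)*t^(11:ℕ) + (-13689/1250)*t^(12:ℕ)) h1 h2 ((pos_DP_b0 t h3 h4).trans_eq (by ring)) ((pos_DP_b1 t h3 h4).trans_eq (by ring)) ((pos_DP_b2 t h3 h4).trans_eq (by ring)) ((pos_DP_b3 t h3 h4).trans_eq (by ring)) ((pos_DP_b4 t h3 h4).trans_eq (by ring)) ((pos_DP_b5 t h3 h4).trans_eq (by ring)) ((pos_DP_b6 t h3 h4).trans_eq (by ring)) ((pos_DP_b7 t h3 h4).trans_eq (by ring)) ((pos_DP_b8 t h3 h4).trans_eq (by ring))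

lemma pos_L10_b0 (t : ℝ) (h3 : 0 ≤ t) (h4 : t ≤ 1) :
    0 ≤ 1 + 2*t + 10*t^(2:ℕ) + 10*t^(3:ℕ) + 20*t^(4:ℕ) + 20*t^(5:ℕ) + 20*t^(6:ℕ) + 20*t^(7:ℕ) + 10*t^(8:ℕ) + 10*t^(9:ℕ) + 2*t^(10:ℕ) + 2*t^(11:ℕ) := by
  obtain ⟨t2, ht2⟩ : ∃ t2 : ℝ, t2 = 1 - t := ⟨_, rfl⟩
  have a4 : 0 ≤ t2 := by rw [ht2]; linarith
  have e : 1 + 2*t + 10*t^(2:ℕ) + 10*t^(3:ℕ) + 20*t^(4:ℕ) + 20*t^(5:ℕ) + 20*t^(6:ℕ) + 20*t^(7:ℕ) + 10*t^(8:ℕ) + 10*t^(9:ℕ) + 2*t^(10:ℕ) + 2*t^(11:ℕ) = 1*t2^(11:ℕ) + 13*t^(1:ℕ)*t2^(10:ℕ) + 85*t^(2:ℕ)*t2^(9:ℕ) + 355*t^(3:ℕ)*t2^(8:ℕ) + 1030*t^(4:ℕ)*t2^(7:ℕ) + 2162*t^(5:ℕ)*t2^(6:ℕ) + 3346*t^(6:ℕ)*t2^(5:ℕ) + 3830*t^(7:ℕ)*t2^(4:ℕ) + 3195*t^(8:ℕ)*t2^(3:ℕ) + 1865*t^(9:ℕ)*t2^(2:ℕ)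 + 693*t^(10:ℕ)*t2^(1:ℕ) + 127*t^(11:ℕ) := by
    rw [ht2]; ring
  rw [e]
  positivity

lemma pos_L10_b1 (t : ℝ) (h3 : 0 ≤ t) (h4 : t ≤ 1) :
    0 ≤ (9/7) + (16/7)*t + 12*t^(2:ℕ) + 12*t^(3:ℕ) + (172/7)*t^(4:ℕ) + (172/7)*t^(5:ℕ) + (172/7)*t^(6:ℕ) + (172/7)*t^(7:ℕ) + 12*t^(8:ℕ) + 12*t^(9:ℕ) + (16/7)*t^(10:ℕ) + (16/7)*t^(11:ℕ) := by
  obtain ⟨t2, ht2⟩ : ∃ t2 : ℝ, t2 = 1 - t := ⟨_, rfl⟩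
  have a4 : 0 ≤ t2 := by rw [ht2]; linarith
  have e : (9/7) + (16/7)*t + 12*t^(2:ℕ) + 12*t^(3:ℕ) + (172/7)*t^(4:ℕ) + (172/7)*t^(5:ℕ) + (172/7)*t^(6:ℕ) + (172/7)*t^(7:ℕ) + 12*t^(8:ℕ) + 12*t^(9:ℕ) + (16/7)*t^(10:ℕ) + (16/7)*t^(11:ℕ) = (9/7)*t2^(11:ℕ) + (115/7)*t^(1:ℕ)*t2^(10:ℕ) + (739/7)*t^(2:ℕ)*t2^(9:ℕ) + 435*t^(3:ℕ)*t2^(8:ℕ) + (8758/7)*t^(4:ℕ)*t2^(7:ℕ) + (18302/7)*t^(5:ℕ)*t2^(6:ℕ) + 4042*t^(6:ℕ)*t2^(5:ℕ) + (32426/7)*t^(7:ℕ)*t2^(4:ℕ) + (27117/7)*t^(8:ℕ)*t2^(3:ℕ) + (15871/7)*t^(9:ℕ)*t2^(2:ℕ) + (5907/7)*t^(10:ℕ)*t2^(1:ℕ) + (1081/7)*t^(11:ℕ) := by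
    rw [ht2]; ring
  rw [e]
  positivity

lemma pos_L10_b2 (t : ℝ) (h3 : 0 ≤ t) (h4 : t ≤ 1) :
    0 ≤ (11/7) + (18/7)*t + (1511/105)*t^(2:ℕ) + (1009/70)*t^(3:ℕ) + (3188/105)*t^(4:ℕ) + (6269/210)*t^(5:ℕ) + (6323/210)*t^(6:ℕ) + (3056/105)*t^(7:ℕ) + (491/35)*t^(8:ℕ) + (565/42)*t^(9:ℕ) + (517/210)*t^(10:ℕ) + (33/14)*t^(11:ℕ) := by
  obtain ⟨t2, ht2⟩ : ∃ t2 : ℝ, t2 = 1 - t := ⟨_, rfl⟩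
  have a4 : 0 ≤ t2 := by rw [ht2]; linarith
  have e : (11/7) + (18/7)*t + (1511/105)*t^(2:ℕ) + (1009/70)*t^(3:ℕ) + (3188/105)*t^(4:ℕ) + (6269/210)*t^(5:ℕ) + (6323/210)*t^(6:ℕ) + (3056/105)*t^(7:ℕ) + (491/35)*t^(8:ℕ) + (565/42)*t^(9:ℕ) + (517/210)*t^(10:ℕ) + (33/14)*t^(11:ℕ) = (11/7)*t2^(11:ℕ) + (139/7)*t^(1:ℕ)*t2^(10:ℕ) + (1898/15)*t^(2:ℕ)*t2^(9:ℕ) + (7265/14)*t^(3:ℕ)*t2^(8:ℕ) + (156542/105)*t^(4:ℕ)*t2^(7:ℕ) + (43691/14)*t^(5:ℕ)*t2^(6:ℕ) + (1016657/210)*t^(6:ℕ)*t2^(5:ℕ) + (584942/105)*t^(7:ℕ)*t2^(4:ℕ) + (163629/35)*t^(8:ℕ)*t2^(3:ℕ) + (287747/105)*t^(9:ℕ)*t2^(2:ℕ) + (106879/105)*t^(10:ℕ)*t2^(1:ℕ) + (19391/105)*t^(11:ℕ) := by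
    rw [ht2]; ring
  rw [e]
  positivity

lemma pos_L10_b3 (t : ℝ) (h3 : 0 ≤ t) (h4 : t ≤ 1) :
    0 ≤ (13/7) + (20/7)*t + (3006/175)*t^(2:ℕ) + (3029/175)*t^(3:ℕ) + (26331/700)*t^(4:ℕ) + (12493/350)*t^(5:ℕ) + (12883/350)*t^(6:ℕ) + (5802/175)*t^(7:ℕ) + (11247/700)*t^(8:ℕ) + (2467/175)*t^(9:ℕ) + (447/175)*t^(10:ℕ) + (153/70)*t^(11:ℕ) := by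
  obtain ⟨t2, ht2⟩ : ∃ t2 : ℝ, t2 = 1 - t := ⟨_, rfl⟩
  have a4 : 0 ≤ t2 := by rw [ht2]; linarith
  have e : (13/7) + (20/7)*t + (3006/175)*t^(2:ℕ) + (3029/175)*t^(3:ℕ) + (26331/700)*t^(4:ℕ) + (12493/350)*t^(5:ℕ) + (12883/350)*t^(6:ℕ) + (5802/175)*t^(7:ℕ) + (11247/700)*t^(8:ℕ) + (2467/175)*t^(9:ℕ) + (447/175)*t^(10:ℕ) + (153/70)*t^(11:ℕ) = (13/7)*t2^(11:ℕ) + (163/7)*t^(1:ℕ)*t2^(10:ℕ) + (25881/175)*t^(2:ℕ)*t2^(9:ℕ) + (106208/175)*t^(3:ℕ)*t2^(8:ℕ) + (1225123/700)*t^(4:ℕ)*t2^(7:ℕ) + (2579167/700)*t^(5:ℕ)*t2^(6:ℕ) + (4026753/700)*t^(6:ℕ)*t2^(5:ℕ) + (4660557/700)*t^(7:ℕ)*t2^(4:ℕ) + (981514/175)*t^(8:ℕ)*t2^(3:ℕ) + (230187/70)*t^(9:ℕ)*t2^(2:ℕ) + (212651/175)*t^(10:ℕ)*t2^(1:ℕ)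 + (38041/175)*t^(11:ℕ) := by
    rw [ht2]; ring
  rw [e]
  positivity

lemma pos_L10_b4 (t : ℝ) (h3 : 0 ≤ t) (h4 : t ≤ 1) :
    0 ≤ (15/7) + (22/7)*t + (1019/50)*t^(2:ℕ) + (14463/700)*t^(3:ℕ) + (32733/700)*t^(4:ℕ) + (29209/700)*t^(5:ℕ) + (15761/350)*t^(6:ℕ) + (25343/700)*t^(7:ℕ) + (12633/700)*t^(8:ℕ) + (9627/700)*t^(9:ℕ) + (127/50)*t^(10:ℕ) + (123/70)*t^(11:ℕ) := by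
  obtain ⟨t2, ht2⟩ : ∃ t2 : ℝ, t2 = 1 - t := ⟨_, rfl⟩
  have a4 : 0 ≤ t2 := by rw [ht2]; linarith
  have e : (15/7) + (22/7)*t + (1019/50)*t^(2:ℕ) + (14463/700)*t^(3:ℕ) + (32733/700)*t^(4:ℕ) + (29209/700)*t^(5:ℕ) + (15761/350)*t^(6:ℕ) + (25343/700)*t^(7:ℕ) + (12633/700)*t^(8:ℕ) + (9627/700)*t^(9:ℕ) + (127/50)*t^(10:ℕ) + (123/70)*t^(11:ℕ) = (15/7)*t2^(11:ℕ) + (187/7)*t^(1:ℕ)*t2^(10:ℕ) + (59383/350)*t^(2:ℕ)*t2^(9:ℕ) + (489357/700)*t^(3:ℕ)*t2^(8:ℕ) + (1421013/700)*t^(4:ℕ)*t2^(7:ℕ) + (754162/175)*t^(5:ℕ)*t2^(6:ℕ) + (4749013/700)*t^(6:ℕ)*t2^(5:ℕ) + (5533669/700)*t^(7:ℕ)*t2^(4:ℕ) + (1169708/175)*t^(8:ℕ)*t2^(3:ℕ) + (685093/175)*t^(9:ℕ)*t2^(2:ℕ) + (251224/175)*t^(10:ℕ)*t2^(1:ℕ)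 + (44126/175)*t^(11:ℕ) := by
    rw [ht2]; ring
  rw [e]
  positivity

lemma pos_L10_b5 (t : ℝ) (h3 : 0 ≤ t) (h4 : t ≤ 1) :
    0 ≤ (17/7) + (24/7)*t + (721/30)*t^(2:ℕ) + (3411/140)*t^(3:ℕ) + (81783/1400)*t^(4:ℕ) + (66271/1400)*t^(5:ℕ) + (929743/16800)*t^(6:ℕ) + (158113/4200)*t^(7:ℕ) + (83389/4200)*t^(8:ℕ) + (1731/140)*t^(9:ℕ) + (479/210)*t^(10:ℕ) + (47/42)*t^(11:ℕ) := by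
  obtain ⟨t2, ht2⟩ : ∃ t2 : ℝ, t2 = 1 - t := ⟨_, rfl⟩
  have a4 : 0 ≤ t2 := by rw [ht2]; linarith
  have e : (17/7) + (24/7)*t + (721/30)*t^(2:ℕ) + (3411/140)*t^(3:ℕ) + (81783/1400)*t^(4:ℕ) + (66271/1400)*t^(5:ℕ) + (929743/16800)*t^(6:ℕ) + (158113/4200)*t^(7:ℕ) + (83389/4200)*t^(8:ℕ) + (1731/140)*t^(9:ℕ) + (479/210)*t^(10:ℕ) + (47/42)*t^(11:ℕ) = (17/7)*t2^(11:ℕ) + (211/7)*t^(1:ℕ)*t2^(10:ℕ) + (40297/210)*t^(2:ℕ)*t2^(9:ℕ) + (111393/140)*t^(3:ℕ)*t2^(8:ℕ) + (3263943/1400)*t^(4:ℕ)*t2^(7:ℕ) + (874869/175)*t^(5:ℕ)*t2^(6:ℕ) + (19067293/2400)*t^(6:ℕ)*t2^(5:ℕ) + (52214989/5600)*t^(7:ℕ)*t2^(4:ℕ) + (22149409/2800)*t^(8:ℕ)*t2^(3:ℕ) + (38835473/8400)*t^(9:ℕ)*t2^(2:ℕ) + (5641487/3360)*t^(10:ℕ)*t2^(1:ℕ)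 + (4848719/16800)*t^(11:ℕ) := by
    rw [ht2]; ring
  rw [e]
  positivity

lemma pos_L10_b6 (t : ℝ) (h3 : 0 ≤ t) (h4 : t ≤ 1) :
    0 ≤ (19/7) + (26/7)*t + (1973/70)*t^(2:ℕ) + (3951/140)*t^(3:ℕ) + (102703/1400)*t^(4:ℕ) + (144853/2800)*t^(5:ℕ) + (13681/200)*t^(6:ℕ) + (14739/400)*t^(7:ℕ) + (29823/1400)*t^(8:ℕ) + (201/20)*t^(9:ℕ) + (51/35)*t^(10:ℕ) + (3/7)*t^(11:ℕ) := by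
  obtain ⟨t2, ht2⟩ : ∃ t2 : ℝ, t2 = 1 - t := ⟨_, rfl⟩
  have a4 : 0 ≤ t2 := by rw [ht2]; linarith
  have e : (19/7) + (26/7)*t + (1973/70)*t^(2:ℕ) + (3951/140)*t^(3:ℕ) + (102703/1400)*t^(4:ℕ) + (144853/2800)*t^(5:ℕ) + (13681/200)*t^(6:ℕ) + (14739/400)*t^(7:ℕ) + (29823/1400)*t^(8:ℕ) + (201/20)*t^(9:ℕ) + (51/35)*t^(10:ℕ) + (3/7)*t^(11:ℕ) = (19/7)*t2^(11:ℕ) + (235/7)*t^(1:ℕ)*t2^(10:ℕ) + (15023/70)*t^(2:ℕ)*t2^(9:ℕ) + (25113/28)*t^(3:ℕ)*t2^(8:ℕ) + (531049/200)*t^(4:ℕ)*t2^(7:ℕ) + (3223947/560)*t^(5:ℕ)*t2^(6:ℕ) + (12937609/1400)*t^(6:ℕ)*t2^(5:ℕ) + (546253/50)*t^(7:ℕ)*t2^(4:ℕ) + (6507587/700)*t^(8:ℕ)*t2^(3:ℕ) + (15167457/2800)*t^(9:ℕ)*t2^(2:ℕ) + (272333/140)*t^(10:ℕ)*t2^(1:ℕ)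 + (228493/700)*t^(11:ℕ) := by
    rw [ht2]; ring
  rw [e]
  positivity

lemma pos_L10_b7 (t : ℝ) (h3 : 0 ≤ t) (h4 : t ≤ 1) :
    0 ≤ 3 + 4*t + (329/10)*t^(2:ℕ) + (639/20)*t^(3:ℕ) + (73951/800)*t^(4:ℕ) + (10841/200)*t^(5:ℕ) + (33853/400)*t^(6:ℕ) + (6681/200)*t^(7:ℕ) + (17631/800)*t^(8:ℕ) + (143/20)*t^(9:ℕ) + (-1/2)*t^(10:ℕ) := by
  obtain ⟨t2, ht2⟩ : ∃ t2 : ℝ, t2 = 1 - t := ⟨_, rfl⟩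
  have a4 : 0 ≤ t2 := by rw [ht2]; linarith
  have e : 3 + 4*t + (329/10)*t^(2:ℕ) + (639/20)*t^(3:ℕ) + (73951/800)*t^(4:ℕ) + (10841/200)*t^(5:ℕ) + (33853/400)*t^(6:ℕ) + (6681/200)*t^(7:ℕ) + (17631/800)*t^(8:ℕ) + (143/20)*t^(9:ℕ) + (-1/2)*t^(10:ℕ) = 3*t2^(11:ℕ) + 37*t^(1:ℕ)*t2^(10:ℕ) + (2379/10)*t^(2:ℕ)*t2^(9:ℕ) + (20061/20)*t^(3:ℕ)*t2^(8:ℕ) + (2401951/800)*t^(4:ℕ)*t2^(7:ℕ) + (5268381/800)*t^(5:ℕ)*t2^(6:ℕ) + (8543741/800)*t^(6:ℕ)*t2^(5:ℕ) + (10173519/800)*t^(7:ℕ)*t2^(4:ℕ) + (271231/25)*t^(8:ℕ)*t2^(3:ℕ) + (629831/100)*t^(9:ℕ)*t2^(2:ℕ) + (22337/10)*t^(10:ℕ)*t2^(1:ℕ) + (18261/50)*t^(11:ℕ) := by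
    rw [ht2]; ring
  rw [e]
  positivity

lemma pos_L10_id (d C0 C1 C2 C3 C4 C5 C6 C7 : ℝ) (h1 : 0 ≤ d) (h2 : d ≤ (1/2))
    (b0 : 0 ≤ 1*C0 - 1)
    (b1 : 0 ≤ 1*C0 + (1/14)*C1 - 1)
    (b2 : 0 ≤ 1*C0 + (1/7)*C1 + (1/84)*C2 - 1)
    (b3 : 0 ≤ 1*C0 + (3/14)*C1 + (1/28)*C2 + (1/280)*C3 - 1)
    (b4 : 0 ≤ 1*C0 + (2/7)*C1 + (1/14)*C2 + (1/70)*C3 + (1/560)*C4 - 1)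
    (b5 : 0 ≤ 1*C0 + (5/14)*C1 + (5/42)*C2 + (1/28)*C3 + (1/112)*C4 + (1/672)*C5 - 1)
    (b6 : 0 ≤ 1*C0 + (3/7)*C1 + (5/28)*C2 + (1/14)*C3 + (3/112)*C4 + (1/112)*C5 + (1/448)*C6 - 1)
    (b7 : 0 ≤ 1*C0 + (1/2)*C1 + (1/4)*C2 + (1/8)*C3 + (1/16)*C4 + (1/32)*C5 + (1/64)*C6 + (1/128)*C7 - 1)
    : 0 < C0 + d*C1 + d^(2:ℕ)*C2 + d^(3:ℕ)*C3 + d^(4:ℕ)*C4 + d^(5:ℕ)*C5 + d^(6:ℕ)*C6 + d^(7:ℕ)*C7 := by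
  obtain ⟨d2, hd2⟩ : ∃ d2 : ℝ, d2 = (1/2) - d := ⟨_, rfl⟩
  have a2 : 0 ≤ d2 := by rw [hd2]; linarith
  obtain ⟨B0, hB0⟩ : ∃ B : ℝ, B = 1*C0 - 1 := ⟨_, rfl⟩
  rw [← hB0] at b0
  obtain ⟨B1, hB1⟩ : ∃ B : ℝ, B = 1*C0 + (1/14)*C1 - 1 := ⟨_, rfl⟩
  rw [← hB1] at b1
  obtain ⟨B2, hB2⟩ : ∃ B : ℝ, B = 1*C0 + (1/7)*C1 + (1/84)*C2 - 1 := ⟨_, rfl⟩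
  rw [← hB2] at b2
  obtain ⟨B3, hB3⟩ : ∃ B : ℝ, B = 1*C0 + (3/14)*C1 + (1/28)*C2 + (1/280)*C3 - 1 := ⟨_, rfl⟩
  rw [← hB3] at b3
  obtain ⟨B4, hB4⟩ : ∃ B : ℝ, B = 1*C0 + (2/7)*C1 + (1/14)*C2 + (1/70)*C3 + (1/560)*C4 - 1 := ⟨_, rfl⟩
  rw [← hB4] at b4
  obtain ⟨B5, hB5⟩ : ∃ B : ℝ, B = 1*C0 + (5/14)*C1 + (5/42)*C2 + (1/28)*C3 + (1/112)*C4 + (1/672)*C5 - 1 := ⟨_, rfl⟩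
  rw [← hB5] at b5
  obtain ⟨B6, hB6⟩ : ∃ B : ℝ, B = 1*C0 + (3/7)*C1 + (5/28)*C2 + (1/14)*C3 + (3/112)*C4 + (1/112)*C5 + (1/448)*C6 - 1 := ⟨_, rfl⟩
  rw [← hB6] at b6
  obtain ⟨B7, hB7⟩ : ∃ B : ℝ, B = 1*C0 + (1/2)*C1 + (1/4)*C2 + (1/8)*C3 + (1/16)*C4 + (1/32)*C5 + (1/64)*C6 + (1/128)*C7 - 1 := ⟨_, rfl⟩
  rw [← hB7] at b7
  have e : C0 + d*C1 + d^(2:ℕ)*C2 + d^(3:ℕ)*C3 + d^(4:ℕ)*C4 + d^(5:ℕ)*C5 + d^(6:ℕ)*C6 + d^(7:ℕ)*C7 = 1 + (128*d2^(7:ℕ)*B0 + 896*d^(1:ℕ)*d2^(6:ℕ)*B1 + 2688*d^(2:ℕ)*d2^(5:ℕ)*B2 + 4480*d^(3:ℕ)*d2^(4:ℕ)*B3 + 4480*d^(4:ℕ)*d2^(3:ℕ)*B4 + 2688*d^(5:ℕ)*d2^(2:ℕ)*B5 + 896*d^(6:ℕ)*d2^(1:ℕ)*B6 + 128*d^(7:ℕ)*B7) := by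
    rw [hB0, hB1, hB2, hB3, hB4, hB5, hB6, hB7, hd2]; ring
  rw [e]
  positivity

lemma pos_L10 (d t : ℝ) (h1 : 0 ≤ d) (h2 : d ≤ (1/2)) (h3 : 0 ≤ t) (h4 : t ≤ 1) :
    0 < 2 + 2*t + 10*t^(2:ℕ) + 10*t^(3:ℕ) + 20*t^(4:ℕ) + 20*t^(5:ℕ) + 20*t^(6:ℕ) + 20*t^(7:ℕ) + 10*t^(8:ℕ) + 10*t^(9:ℕ) + 2*t^(10:ℕ) + 2*t^(11:ℕ) + 4*d + 4*d*t + 28*d*t^(2:ℕ) + 28*d*t^(3:ℕ) + 64*d*t^(4:ℕ) + 64*d*t^(5:ℕ) + 64*d*t^(6:ℕ) + 64*d*t^(7:ℕ) + 28*d*t^(8:ℕ) + 28*d*t^(9:ℕ) + 4*d*t^(10:ℕ) + 4*d*t^(11:ℕ) + (164/5)*d^(2:ℕ)*t^(2:ℕ) + (174/5)*d^(2:ℕ)*t^(3:ℕ) + (512/5)*d^(2:ℕ)*t^(4:ℕ) + (298/5)*d^(2:ℕ)*t^(5:ℕ) + (406/5)*d^(2:ℕ)*t^(6:ℕ) + (-16/5)*d^(2:ℕ)*t^(7:ℕ) + (12/5)*d^(2:ℕ)*t^(8:ℕ) + (-46)*d^(2:ℕ)*t^(9:ℕ)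 + (-46/5)*d^(2:ℕ)*t^(10:ℕ) + (-18)*d^(2:ℕ)*t^(11:ℕ) + (8/5)*d^(3:ℕ)*t^(2:ℕ) + (92/5)*d^(3:ℕ)*t^(3:ℕ) + (342/5)*d^(3:ℕ)*t^(4:ℕ) + (-208/5)*d^(3:ℕ)*t^(5:ℕ) + (272/5)*d^(3:ℕ)*t^(6:ℕ) + (-624/5)*d^(3:ℕ)*t^(7:ℕ) + (-26/5)*d^(3:ℕ)*t^(8:ℕ) + (-364/5)*d^(3:ℕ)*t^(9:ℕ) + (36/5)*d^(3:ℕ)*t^(10:ℕ) + (-8)*d^(3:ℕ)*t^(11:ℕ) + 8*d^(4:ℕ)*t^(2:ℕ) + (-244/5)*d^(4:ℕ)*t^(3:ℕ) + (516/5)*d^(4:ℕ)*t^(4:ℕ) + (-124)*d^(4:ℕ)*t^(5:ℕ) + (472/5)*d^(4:ℕ)*t^(6:ℕ) + (-196/5)*d^(4:ℕ)*t^(7:ℕ) + (-28)*d^(4:ℕ)*t^(8:ℕ) + 44*d^(4:ℕ)*t^(9:ℕ) + (-136/5)*d^(4:ℕ)*t^(10:ℕ) + 8*d^(4:ℕ)*t^(11:ℕ) + (76/25)*d^(5:ℕ)*t^(4:ℕ) + (-388/25)*d^(5:ℕ)*t^(5:ℕ) + (543/25)*d^(5:ℕ)*t^(6:ℕ) + (-388/25)*d^(5:ℕ)*t^(7:ℕ) + (76/25)*d^(5:ℕ)*t^(8:ℕ)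 + 32*d^(5:ℕ)*t^(9:ℕ) + (-224/5)*d^(5:ℕ)*t^(10:ℕ) + 32*d^(5:ℕ)*t^(11:ℕ) + (-72/5)*d^(6:ℕ)*t^(4:ℕ) + (1044/25)*d^(6:ℕ)*t^(5:ℕ) + (-1476/25)*d^(6:ℕ)*t^(6:ℕ) + (1044/25)*d^(6:ℕ)*t^(7:ℕ) + (-72/5)*d^(6:ℕ)*t^(8:ℕ) + (-4)*d^(7:ℕ)*t^(4:ℕ) + (56/5)*d^(7:ℕ)*t^(5:ℕ) + (-396/25)*d^(7:ℕ)*t^(6:ℕ) + (56/5)*d^(7:ℕ)*t^(7:ℕ) + (-4)*d^(7:ℕ)*t^(8:ℕ) := by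
  have e0 : 2 + 2*t + 10*t^(2:ℕ) + 10*t^(3:ℕ) + 20*t^(4:ℕ) + 20*t^(5:ℕ) + 20*t^(6:ℕ) + 20*t^(7:ℕ) + 10*t^(8:ℕ) + 10*t^(9:ℕ) + 2*t^(10:ℕ) + 2*t^(11:ℕ) + 4*d + 4*d*t + 28*d*t^(2:ℕ) + 28*d*t^(3:ℕ) + 64*d*t^(4:ℕ) + 64*d*t^(5:ℕ) + 64*d*t^(6:ℕ) + 64*d*t^(7:ℕ) + 28*d*t^(8:ℕ) + 28*d*t^(9:ℕ) + 4*d*t^(10:ℕ) + 4*d*t^(11:ℕ) + (164/5)*d^(2:ℕ)*t^(2:ℕ) + (174/5)*d^(2:ℕ)*t^(3:ℕ) + (512/5)*d^(2:ℕ)*t^(4:ℕ) + (298/5)*d^(2:ℕ)*t^(5:ℕ) + (406/5)*d^(2:ℕ)*t^(6:ℕ) + (-16/5)*d^(2:ℕ)*t^(7:ℕ) + (12/5)*d^(2:ℕ)*t^(8:ℕ) + (-46)*d^(2:ℕ)*t^(9:ℕ) + (-46/5)*d^(2:ℕ)*t^(10:ℕ) + (-18)*d^(2:ℕ)*t^(11:ℕ) + (8/5)*d^(3:ℕ)*t^(2:ℕ) + (92/5)*d^(3:ℕ)*t^(3:ℕ) + (342/5)*d^(3:ℕ)*t^(4:ℕ) + (-208/5)*d^(3:ℕ)*t^(5:ℕ)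 + (272/5)*d^(3:ℕ)*t^(6:ℕ) + (-624/5)*d^(3:ℕ)*t^(7:ℕ) + (-26/5)*d^(3:ℕ)*t^(8:ℕ) + (-364/5)*d^(3:ℕ)*t^(9:ℕ) + (36/5)*d^(3:ℕ)*t^(10:ℕ) + (-8)*d^(3:ℕ)*t^(11:ℕ) + 8*d^(4:ℕ)*t^(2:ℕ) + (-244/5)*d^(4:ℕ)*t^(3:ℕ) + (516/5)*d^(4:ℕ)*t^(4:ℕ) + (-124)*d^(4:ℕ)*t^(5:ℕ) + (472/5)*d^(4:ℕ)*t^(6:ℕ) + (-196/5)*d^(4:ℕ)*t^(7:ℕ) + (-28)*d^(4:ℕ)*t^(8:ℕ) + 44*d^(4:ℕ)*t^(9:ℕ) + (-136/5)*d^(4:ℕ)*t^(10:ℕ) + 8*d^(4:ℕ)*t^(11:ℕ) + (76/25)*d^(5:ℕ)*t^(4:ℕ) + (-388/25)*d^(5:ℕ)*t^(5:ℕ) + (543/25)*d^(5:ℕ)*t^(6:ℕ) + (-388/25)*d^(5:ℕ)*t^(7:ℕ) + (76/25)*d^(5:ℕ)*t^(8:ℕ) + 32*d^(5:ℕ)*t^(9:ℕ) + (-224/5)*d^(5:ℕ)*t^(10:ℕ) + 32*d^(5:ℕ)*t^(11:ℕ) + (-72/5)*d^(6:ℕ)*t^(4:ℕ) + (1044/25)*d^(6:ℕ)*t^(5:ℕ) + (-1476/25)*d^(6:ℕ)*t^(6:ℕ)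 + (1044/25)*d^(6:ℕ)*t^(7:ℕ) + (-72/5)*d^(6:ℕ)*t^(8:ℕ) + (-4)*d^(7:ℕ)*t^(4:ℕ) + (56/5)*d^(7:ℕ)*t^(5:ℕ) + (-396/25)*d^(7:ℕ)*t^(6:ℕ) + (56/5)*d^(7:ℕ)*t^(7:ℕ) + (-4)*d^(7:ℕ)*t^(8:ℕ) = (2 + 2*t + 10*t^(2:ℕ) + 10*t^(3:ℕ) + 20*t^(4:ℕ) + 20*t^(5:ℕ) + 20*t^(6:ℕ) + 20*t^(7:ℕ) + 10*t^(8:ℕ) + 10*t^(9:ℕ) + 2*t^(10:ℕ) + 2*t^(11:ℕ)) + d*(4 + 4*t + 28*t^(2:ℕ) + 28*t^(3:ℕ) + 64*t^(4:ℕ) + 64*t^(5:ℕ) + 64*t^(6:ℕ) + 64*t^(7:ℕ) + 28*t^(8:ℕ) + 28*t^(9:ℕ) + 4*t^(10:ℕ) + 4*t^(11:ℕ)) + d^(2:ℕ)*((164/5)*t^(2:ℕ) + (174/5)*t^(3:ℕ) + (512/5)*t^(4:ℕ) + (298/5)*t^(5:ℕ) + (406/5)*t^(6:ℕ) + (-16/5)*t^(7:ℕ) + (12/5)*t^(8:ℕ) + (-46)*t^(9:ℕ) + (-46/5)*t^(10:ℕ) + (-18)*t^(11:ℕ)) + d^(3:ℕ)*((8/5)*t^(2:ℕ)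 + (92/5)*t^(3:ℕ) + (342/5)*t^(4:ℕ) + (-208/5)*t^(5:ℕ) + (272/5)*t^(6:ℕ) + (-624/5)*t^(7:ℕ) + (-26/5)*t^(8:ℕ) + (-364/5)*t^(9:ℕ) + (36/5)*t^(10:ℕ) + (-8)*t^(11:ℕ)) + d^(4:ℕ)*(8*t^(2:ℕ) + (-244/5)*t^(3:ℕ) + (516/5)*t^(4:ℕ) + (-124)*t^(5:ℕ) + (472/5)*t^(6:ℕ) + (-196/5)*t^(7:ℕ) + (-28)*t^(8:ℕ) + 44*t^(9:ℕ) + (-136/5)*t^(10:ℕ) + 8*t^(11:ℕ)) + d^(5:ℕ)*((76/25)*t^(4:ℕ) + (-388/25)*t^(5:ℕ) + (543/25)*t^(6:ℕ) + (-388/25)*t^(7:ℕ) + (76/25)*t^(8:ℕ) + 32*t^(9:ℕ) + (-224/5)*t^(10:ℕ) + 32*t^(11:ℕ)) + d^(6:ℕ)*((-72/5)*t^(4:ℕ) + (1044/25)*t^(5:ℕ) + (-1476/25)*t^(6:ℕ) + (1044/25)*t^(7:ℕ) + (-72/5)*t^(8:ℕ)) + d^(7:ℕ)*((-4)*t^(4:ℕ) + (56/5)*t^(5:ℕ) + (-396/25)*t^(6:ℕ) + (56/5)*t^(7:ℕ)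 + (-4)*t^(8:ℕ)) := by
    ring
  rw [e0]
  exact pos_L10_id d (2 + 2*t + 10*t^(2:ℕ) + 10*t^(3:ℕ) + 20*t^(4:ℕ) + 20*t^(5:ℕ) + 20*t^(6:ℕ) + 20*t^(7:ℕ) + 10*t^(8:ℕ) + 10*t^(9:ℕ) + 2*t^(10:ℕ) + 2*t^(11:ℕ)) (4 + 4*t + 28*t^(2:ℕ) + 28*t^(3:ℕ) + 64*t^(4:ℕ) + 64*t^(5:ℕ) + 64*t^(6:ℕ) + 64*t^(7:ℕ) + 28*t^(8:ℕ) + 28*t^(9:ℕ) + 4*t^(10:ℕ) + 4*t^(11:ℕ)) ((164/5)*t^(2:ℕ) + (174/5)*t^(3:ℕ) + (512/5)*t^(4:ℕ) + (298/5)*t^(5:ℕ) + (406/5)*t^(6:ℕ) + (-16/5)*t^(7:ℕ) + (12/5)*t^(8:ℕ) + (-46)*t^(9:ℕ) + (-46/5)*t^(10:ℕ) + (-18)*t^(11:ℕ)) ((8/5)*t^(2:ℕ) + (92/5)*t^(3:ℕ) + (342/5)*t^(4:ℕ) + (-208/5)*t^(5:ℕ) + (272/5)*t^(6:ℕ) + (-624/5)*t^(7:ℕ) + (-26/5)*t^(8:ℕ) + (-364/5)*t^(9:ℕ) + (36/5)*t^(10:ℕ)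 + (-8)*t^(11:ℕ)) (8*t^(2:ℕ) + (-244/5)*t^(3:ℕ) + (516/5)*t^(4:ℕ) + (-124)*t^(5:ℕ) + (472/5)*t^(6:ℕ) + (-196/5)*t^(7:ℕ) + (-28)*t^(8:ℕ) + 44*t^(9:ℕ) + (-136/5)*t^(10:ℕ) + 8*t^(11:ℕ)) ((76/25)*t^(4:ℕ) + (-388/25)*t^(5:ℕ) + (543/25)*t^(6:ℕ) + (-388/25)*t^(7:ℕ) + (76/25)*t^(8:ℕ) + 32*t^(9:ℕ) + (-224/5)*t^(10:ℕ) + 32*t^(11:ℕ)) ((-72/5)*t^(4:ℕ) + (1044/25)*t^(5:ℕ) + (-1476/25)*t^(6:ℕ) + (1044/25)*t^(7:ℕ) + (-72/5)*t^(8:ℕ)) ((-4)*t^(4:ℕ) + (56/5)*t^(5:ℕ) + (-396/25)*t^(6:ℕ) + (56/5)*t^(7:ℕ) + (-4)*t^(8:ℕ)) h1 h2 ((pos_L10_b0 t h3 h4).trans_eq (by ring)) ((pos_L10_b1 t h3 h4).trans_eq (by ring)) ((pos_L10_b2 t h3 h4).trans_eq (by ring)) ((pos_L10_b3 t h3 h4).trans_eq (by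 ring)) ((pos_L10_b4 t h3 h4).trans_eq (by ring)) ((pos_L10_b5 t h3 h4).trans_eq (by ring)) ((pos_L10_b6 t h3 h4).trans_eq (by ring)) ((pos_L10_b7 t h3 h4).trans_eq (by ring))

lemma pos_L1e_b0 (t : ℝ) (h3 : 0 ≤ t) (h4 : t ≤ 1) :
    0 ≤ (1/4) + (1/2)*t + (5/2)*t^(2:ℕ) + (5/2)*t^(3:ℕ) + 5*t^(4:ℕ) + 5*t^(5:ℕ) + 5*t^(6:ℕ) + 5*t^(7:ℕ) + (5/2)*t^(8:ℕ) + (5/2)*t^(9:ℕ) + (1/2)*t^(10:ℕ) + (1/2)*t^(11:ℕ) := by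
  obtain ⟨t2, ht2⟩ : ∃ t2 : ℝ, t2 = 1 - t := ⟨_, rfl⟩
  have a4 : 0 ≤ t2 := by rw [ht2]; linarith
  have e : (1/4) + (1/2)*t + (5/2)*t^(2:ℕ) + (5/2)*t^(3:ℕ) + 5*t^(4:ℕ) + 5*t^(5:ℕ) + 5*t^(6:ℕ) + 5*t^(7:ℕ) + (5/2)*t^(8:ℕ) + (5/2)*t^(9:ℕ) + (1/2)*t^(10:ℕ) + (1/2)*t^(11:ℕ) = (1/4)*t2^(11:ℕ) + (13/4)*t^(1:ℕ)*t2^(10:ℕ) + (85/4)*t^(2:ℕ)*t2^(9:ℕ) + (355/4)*t^(3:ℕ)*t2^(8:ℕ) + (515/2)*t^(4:ℕ)*t2^(7:ℕ) + (1081/2)*t^(5:ℕ)*t2^(6:ℕ) + (1673/2)*t^(6:ℕ)*t2^(5:ℕ) + (1915/2)*t^(7:ℕ)*t2^(4:ℕ) + (3195/4)*t^(8:ℕ)*t2^(3:ℕ) + (1865/4)*t^(9:ℕ)*t2^(2:ℕ) + (693/4)*t^(10:ℕ)*t2^(1:ℕ) + (127/4)*t^(11:ℕ) := by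
    rw [ht2]; ring
  rw [e]
  positivity

lemma pos_L1e_b1 (t : ℝ) (h3 : 0 ≤ t) (h4 : t ≤ 1) :
    0 ≤ (49/128) + (57/128)*t + (2377/640)*t^(2:ℕ) + (397/128)*t^(3:ℕ) + (2857/320)*t^(4:ℕ) + (1769/320)*t^(5:ℕ) + (2881/320)*t^(6:ℕ) + (1313/320)*t^(7:ℕ) + (501/128)*t^(8:ℕ) + (1153/640)*t^(9:ℕ) + (97/128)*t^(10:ℕ) + (73/128)*t^(11:ℕ) := by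
  obtain ⟨t2, ht2⟩ : ∃ t2 : ℝ, t2 = 1 - t := ⟨_, rfl⟩
  have a4 : 0 ≤ t2 := by rw [ht2]; linarith
  have e : (49/128) + (57/128)*t + (2377/640)*t^(2:ℕ) + (397/128)*t^(3:ℕ) + (2857/320)*t^(4:ℕ) + (1769/320)*t^(5:ℕ) + (2881/320)*t^(6:ℕ) + (1313/320)*t^(7:ℕ) + (501/128)*t^(8:ℕ) + (1153/640)*t^(9:ℕ) + (97/128)*t^(10:ℕ) + (73/128)*t^(11:ℕ) = (49/128)*t2^(11:ℕ) + (149/32)*t^(1:ℕ)*t2^(10:ℕ) + (9351/320)*t^(2:ℕ)*t2^(9:ℕ) + (19157/160)*t^(3:ℕ)*t2^(8:ℕ) + (27777/80)*t^(4:ℕ)*t2^(7:ℕ) + (29489/40)*t^(5:ℕ)*t2^(6:ℕ) + (5802/5)*t^(6:ℕ)*t2^(5:ℕ) + (26989/20)*t^(7:ℕ)*t2^(4:ℕ) + (45427/40)*t^(8:ℕ)*t2^(3:ℕ) + (2641/4)*t^(9:ℕ)*t2^(2:ℕ) + (2401/10)*t^(10:ℕ)*t2^(1:ℕ) + (169/4)*t^(11:ℕ)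 := by
    rw [ht2]; ring
  rw [e]
  positivity

lemma pos_L1e_b2 (t : ℝ) (h3 : 0 ≤ t) (h4 : t ≤ 1) :
    0 ≤ (1/2) + (39/112)*t + (179/35)*t^(2:ℕ) + (4429/1120)*t^(3:ℕ) + (3967/280)*t^(4:ℕ) + (843/140)*t^(5:ℕ) + (7943/560)*t^(6:ℕ) + (663/280)*t^(7:ℕ) + (27/5)*t^(8:ℕ) + (311/560)*t^(9:ℕ) + (571/560)*t^(10:ℕ) + (135/224)*t^(11:ℕ) := by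
  obtain ⟨t2, ht2⟩ : ∃ t2 : ℝ, t2 = 1 - t := ⟨_, rfl⟩
  have a4 : 0 ≤ t2 := by rw [ht2]; linarith
  have e : (1/2) + (39/112)*t + (179/35)*t^(2:ℕ) + (4429/1120)*t^(3:ℕ) + (3967/280)*t^(4:ℕ) + (843/140)*t^(5:ℕ) + (7943/560)*t^(6:ℕ) + (663/280)*t^(7:ℕ) + (27/5)*t^(8:ℕ) + (311/560)*t^(9:ℕ) + (571/560)*t^(10:ℕ) + (135/224)*t^(11:ℕ) = (1/2)*t2^(11:ℕ) + (655/112)*t^(1:ℕ)*t2^(10:ℕ) + (10107/280)*t^(2:ℕ)*t2^(9:ℕ) + (165931/1120)*t^(3:ℕ)*t2^(8:ℕ) + (122277/280)*t^(4:ℕ)*t2^(7:ℕ) + (265901/280)*t^(5:ℕ)*t2^(6:ℕ) + (24519/16)*t^(6:ℕ)*t2^(5:ℕ) + (50927/28)*t^(7:ℕ)*t2^(4:ℕ) + (30967/20)*t^(8:ℕ)*t2^(3:ℕ) + (31453/35)*t^(9:ℕ)*t2^(2:ℕ) + (22447/70)*t^(10:ℕ)*t2^(1:ℕ) + (7593/140)*t^(11:ℕ)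 := by
    rw [ht2]; ring
  rw [e]
  positivity

lemma pos_L1e_b3 (t : ℝ) (h3 : 0 ≤ t) (h4 : t ≤ 1) :
    0 ≤ (77/128) + (187/896)*t + (12139/1792)*t^(2:ℕ) + (89099/17920)*t^(3:ℕ) + (6759/320)*t^(4:ℕ) + (111341/17920)*t^(5:ℕ) + (373571/17920)*t^(6:ℕ) + (-109/320)*t^(7:ℕ) + (61681/8960)*t^(8:ℕ) + (-3073/2560)*t^(9:ℕ) + (4433/3584)*t^(10:ℕ) + (2115/3584)*t^(11:ℕ) := by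
  obtain ⟨t2, ht2⟩ : ∃ t2 : ℝ, t2 = 1 - t := ⟨_, rfl⟩
  have a4 : 0 ≤ t2 := by rw [ht2]; linarith
  have e : (77/128) + (187/896)*t + (12139/1792)*t^(2:ℕ) + (89099/17920)*t^(3:ℕ) + (6759/320)*t^(4:ℕ) + (111341/17920)*t^(5:ℕ) + (373571/17920)*t^(6:ℕ) + (-109/320)*t^(7:ℕ) + (61681/8960)*t^(8:ℕ) + (-3073/2560)*t^(9:ℕ) + (4433/3584)*t^(10:ℕ) + (2115/3584)*t^(11:ℕ) = (77/128)*t2^(11:ℕ) + (1529/224)*t^(1:ℕ)*t2^(10:ℕ) + (75169/1792)*t^(2:ℕ)*t2^(9:ℕ) + (3128609/17920)*t^(3:ℕ)*t2^(8:ℕ) + (591721/1120)*t^(4:ℕ)*t2^(7:ℕ) + (21218161/17920)*t^(5:ℕ)*t2^(6:ℕ) + (7039545/3584)*t^(6:ℕ)*t2^(5:ℕ) + (5331797/2240)*t^(7:ℕ)*t2^(4:ℕ) + (918073/448)*t^(8:ℕ)*t2^(3:ℕ) + (5323093/4480)*t^(9:ℕ)*t2^(2:ℕ)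 + (1867881/4480)*t^(10:ℕ)*t2^(1:ℕ) + (76057/1120)*t^(11:ℕ) := by
    rw [ht2]; ring
  rw [e]
  positivity

lemma pos_L1e_b4 (t : ℝ) (h3 : 0 ≤ t) (h4 : t ≤ 1) :
    0 ≤ (11/16) + (3/112)*t + (9851/1120)*t^(2:ℕ) + (13523/2240)*t^(3:ℕ) + (6777343/224000)*t^(4:ℕ) + (647713/112000)*t^(5:ℕ) + (3283507/112000)*t^(6:ℕ) + (-58249/14000)*t^(7:ℕ) + (1851683/224000)*t^(8:ℕ) + (-38153/11200)*t^(9:ℕ) + (14799/11200)*t^(10:ℕ) + (2361/4480)*t^(11:ℕ) := by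
  obtain ⟨t2, ht2⟩ : ∃ t2 : ℝ, t2 = 1 - t := ⟨_, rfl⟩
  have a4 : 0 ≤ t2 := by rw [ht2]; linarith
  have e : (11/16) + (3/112)*t + (9851/1120)*t^(2:ℕ) + (13523/2240)*t^(3:ℕ) + (6777343/224000)*t^(4:ℕ) + (647713/112000)*t^(5:ℕ) + (3283507/112000)*t^(6:ℕ) + (-58249/14000)*t^(7:ℕ) + (1851683/224000)*t^(8:ℕ) + (-38153/11200)*t^(9:ℕ) + (14799/11200)*t^(10:ℕ) + (2361/4480)*t^(11:ℕ) = (11/16)*t2^(11:ℕ) + (425/56)*t^(1:ℕ)*t2^(10:ℕ) + (52501/1120)*t^(2:ℕ)*t2^(9:ℕ) + (447641/2240)*t^(3:ℕ)*t2^(8:ℕ) + (140062943/224000)*t^(4:ℕ)*t2^(7:ℕ) + (324506027/224000)*t^(5:ℕ)*t2^(6:ℕ) + (79042539/32000)*t^(6:ℕ)*t2^(5:ℕ) + (683527681/224000)*t^(7:ℕ)*t2^(4:ℕ) + (148566253/56000)*t^(8:ℕ)*t2^(3:ℕ)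 + (172078709/112000)*t^(9:ℕ)*t2^(2:ℕ) + (594751/1120)*t^(10:ℕ)*t2^(1:ℕ) + (2336619/28000)*t^(11:ℕ) := by
    rw [ht2]; ring
  rw [e]
  positivity

lemma pos_L1e_b5 (t : ℝ) (h3 : 0 ≤ t) (h4 : t ≤ 1) :
    0 ≤ (97/128) + (-177/896)*t + (40549/3584)*t^(2:ℕ) + (35833/5120)*t^(3:ℕ) + (7543689/179200)*t^(4:ℕ) + (783869/179200)*t^(5:ℕ) + (447023/11200)*t^(6:ℕ) + (-1650781/179200)*t^(7:ℕ) + (1686469/179200)*t^(8:ℕ) + (-214189/35840)*t^(9:ℕ) + (20313/17920)*t^(10:ℕ) + (1483/3584)*t^(11:ℕ) := by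
  obtain ⟨t2, ht2⟩ : ∃ t2 : ℝ, t2 = 1 - t := ⟨_, rfl⟩
  have a4 : 0 ≤ t2 := by rw [ht2]; linarith
  have e : (97/128) + (-177/896)*t + (40549/3584)*t^(2:ℕ) + (35833/5120)*t^(3:ℕ) + (7543689/179200)*t^(4:ℕ) + (783869/179200)*t^(5:ℕ) + (447023/11200)*t^(6:ℕ) + (-1650781/179200)*t^(7:ℕ) + (1686469/179200)*t^(8:ℕ) + (-214189/35840)*t^(9:ℕ) + (20313/17920)*t^(10:ℕ) + (1483/3584)*t^(11:ℕ) = (97/128)*t2^(11:ℕ) + (1823/224)*t^(1:ℕ)*t2^(10:ℕ) + (182849/3584)*t^(2:ℕ)*t2^(9:ℕ) + (1151863/5120)*t^(3:ℕ)*t2^(8:ℕ) + (131131129/179200)*t^(4:ℕ)*t2^(7:ℕ) + (39289679/22400)*t^(5:ℕ)*t2^(6:ℕ) + (549783231/179200)*t^(6:ℕ)*t2^(5:ℕ) + (690527759/179200)*t^(7:ℕ)*t2^(4:ℕ) + (3025055/896)*t^(8:ℕ)*t2^(3:ℕ)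 + (3497635/1792)*t^(9:ℕ)*t2^(2:ℕ) + (11920849/17920)*t^(10:ℕ)*t2^(1:ℕ) + (9051977/89600)*t^(11:ℕ) := by
    rw [ht2]; ring
  rw [e]
  positivity

lemma pos_L1e_b6 (t : ℝ) (h3 : 0 ≤ t) (h4 : t ≤ 1) :
    0 ≤ (13/16) + (-13/28)*t + (129923/8960)*t^(2:ℕ) + (137433/17920)*t^(3:ℕ) + (10254037/179200)*t^(4:ℕ) + (291653/179200)*t^(5:ℕ) + (37910399/716800)*t^(6:ℕ) + (-398241/25600)*t^(7:ℕ) + (1815117/179200)*t^(8:ℕ) + (-157471/17920)*t^(9:ℕ) + (601/1280)*t^(10:ℕ) + (471/1792)*t^(11:ℕ) := by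
  obtain ⟨t2, ht2⟩ : ∃ t2 : ℝ, t2 = 1 - t := ⟨_, rfl⟩
  have a4 : 0 ≤ t2 := by rw [ht2]; linarith
  have e : (13/16) + (-13/28)*t + (129923/8960)*t^(2:ℕ) + (137433/17920)*t^(3:ℕ) + (10254037/179200)*t^(4:ℕ) + (291653/179200)*t^(5:ℕ) + (37910399/716800)*t^(6:ℕ) + (-398241/25600)*t^(7:ℕ) + (1815117/179200)*t^(8:ℕ) + (-157471/17920)*t^(9:ℕ) + (601/1280)*t^(10:ℕ) + (471/1792)*t^(11:ℕ) = (13/16)*t2^(11:ℕ) + (949/112)*t^(1:ℕ)*t2^(10:ℕ) + (488723/8960)*t^(2:ℕ)*t2^(9:ℕ) + (4504047/17920)*t^(3:ℕ)*t2^(8:ℕ) + (152857237/179200)*t^(4:ℕ)*t2^(7:ℕ) + (11831781/5600)*t^(5:ℕ)*t2^(6:ℕ) + (2708926139/716800)*t^(6:ℕ)*t2^(5:ℕ) + (3448205847/716800)*t^(7:ℕ)*t2^(4:ℕ) + (1518875683/358400)*t^(8:ℕ)*t2^(3:ℕ)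 + (875839777/358400)*t^(9:ℕ)*t2^(2:ℕ) + (117836703/143360)*t^(10:ℕ)*t2^(1:ℕ) + (86569759/716800)*t^(11:ℕ) := by
    rw [ht2]; ring
  rw [e]
  positivity

lemma pos_L1e_b7 (t : ℝ) (h3 : 0 ≤ t) (h4 : t ≤ 1) :
    0 ≤ (109/128) + (-99/128)*t + (47529/2560)*t^(2:ℕ) + (40047/5120)*t^(3:ℕ) + (3903579/51200)*t^(4:ℕ) + (-282459/102400)*t^(5:ℕ) + (3499263/51200)*t^(6:ℕ) + (-2368779/102400)*t^(7:ℕ) + (519819/51200)*t^(8:ℕ) + (-59769/5120)*t^(9:ℕ) + (-1221/1280)*t^(10:ℕ) + (27/256)*t^(11:ℕ) := by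
  obtain ⟨t2, ht2⟩ : ∃ t2 : ℝ, t2 = 1 - t := ⟨_, rfl⟩
  have a4 : 0 ≤ t2 := by rw [ht2]; linarith
  have e : (109/128) + (-99/128)*t + (47529/2560)*t^(2:ℕ) + (40047/5120)*t^(3:ℕ) + (3903579/51200)*t^(4:ℕ) + (-282459/102400)*t^(5:ℕ) + (3499263/51200)*t^(6:ℕ) + (-2368779/102400)*t^(7:ℕ) + (519819/51200)*t^(8:ℕ) + (-59769/5120)*t^(9:ℕ) + (-1221/1280)*t^(10:ℕ) + (27/256)*t^(11:ℕ) = (109/128)*t2^(11:ℕ) + (275/32)*t^(1:ℕ)*t2^(10:ℕ) + (147629/2560)*t^(2:ℕ)*t2^(9:ℕ) + (1436769/5120)*t^(3:ℕ)*t2^(8:ℕ) + (50964219/51200)*t^(4:ℕ)*t2^(7:ℕ) + (260145807/102400)*t^(5:ℕ)*t2^(6:ℕ) + (47398089/10240)*t^(6:ℕ)*t2^(5:ℕ) + (38087091/6400)*t^(7:ℕ)*t2^(4:ℕ) + (134646303/25600)*t^(8:ℕ)*t2^(3:ℕ)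 + (309509633/102400)*t^(9:ℕ)*t2^(2:ℕ) + (1027885/1024)*t^(10:ℕ)*t2^(1:ℕ) + (3655481/25600)*t^(11:ℕ) := by
    rw [ht2]; ring
  rw [e]
  positivity

lemma pos_L1e_b8 (t : ℝ) (h3 : 0 ≤ t) (h4 : t ≤ 1) :
    0 ≤ (7/8) + (-9/8)*t + (1521/64)*t^(2:ℕ) + (4599/640)*t^(3:ℕ) + (2554191/25600)*t^(4:ℕ) + (-57159/6400)*t^(5:ℕ) + (1101933/12800)*t^(6:ℕ) + (-202599/6400)*t^(7:ℕ) + (232911/25600)*t^(8:ℕ) + (-1845/128)*t^(9:ℕ) + (-225/64)*t^(10:ℕ) := by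
  obtain ⟨t2, ht2⟩ : ∃ t2 : ℝ, t2 = 1 - t := ⟨_, rfl⟩
  have a4 : 0 ≤ t2 := by rw [ht2]; linarith
  have e : (7/8) + (-9/8)*t + (1521/64)*t^(2:ℕ) + (4599/640)*t^(3:ℕ) + (2554191/25600)*t^(4:ℕ) + (-57159/6400)*t^(5:ℕ) + (1101933/12800)*t^(6:ℕ) + (-202599/6400)*t^(7:ℕ) + (232911/25600)*t^(8:ℕ) + (-1845/128)*t^(9:ℕ) + (-225/64)*t^(10:ℕ) = (7/8)*t2^(11:ℕ) + (17/2)*t^(1:ℕ)*t2^(10:ℕ) + (3881/64)*t^(2:ℕ)*t2^(9:ℕ) + (201489/640)*t^(3:ℕ)*t2^(8:ℕ) + (29864271/25600)*t^(4:ℕ)*t2^(7:ℕ) + (78207981/25600)*t^(5:ℕ)*t2^(6:ℕ) + (144521421/25600)*t^(6:ℕ)*t2^(5:ℕ) + (187055679/25600)*t^(7:ℕ)*t2^(4:ℕ) + (1292979/200)*t^(8:ℕ)*t2^(3:ℕ) + (11837971/3200)*t^(9:ℕ)*t2^(2:ℕ) + (388271/320)*t^(10:ℕ)*t2^(1:ℕ)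 + (267431/1600)*t^(11:ℕ) := by
    rw [ht2]; ring
  rw [e]
  positivity

lemma pos_L1e_id (d C0 C1 C2 C3 C4 C5 C6 C7 C8 : ℝ) (h1 : 0 ≤ d) (h2 : d ≤ (1/2))
    (b0 : 0 ≤ 1*C0 - (1/4))
    (b1 : 0 ≤ 1*C0 + (1/16)*C1 - (1/4))
    (b2 : 0 ≤ 1*C0 + (1/8)*C1 + (1/112)*C2 - (1/4))
    (b3 : 0 ≤ 1*C0 + (3/16)*C1 + (3/112)*C2 + (1/448)*C3 - (1/4))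
    (b4 : 0 ≤ 1*C0 + (1/4)*C1 + (3/56)*C2 + (1/112)*C3 + (1/1120)*C4 - (1/4))
    (b5 : 0 ≤ 1*C0 + (5/16)*C1 + (5/56)*C2 + (5/224)*C3 + (1/224)*C4 + (1/1792)*C5 - (1/4))
    (b6 : 0 ≤ 1*C0 + (3/8)*C1 + (15/112)*C2 + (5/112)*C3 + (3/224)*C4 + (3/896)*C5 + (1/1792)*C6 - (1/4))
    (b7 : 0 ≤ 1*C0 + (7/16)*C1 + (3/16)*C2 + (5/64)*C3 + (1/32)*C4 + (3/256)*C5 + (1/256)*C6 + (1/1024)*C7 - (1/4))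
    (b8 : 0 ≤ 1*C0 + (1/2)*C1 + (1/4)*C2 + (1/8)*C3 + (1/16)*C4 + (1/32)*C5 + (1/64)*C6 + (1/128)*C7 + (1/256)*C8 - (1/4))
    : 0 < C0 + d*C1 + d^(2:ℕ)*C2 + d^(3:ℕ)*C3 + d^(4:ℕ)*C4 + d^(5:ℕ)*C5 + d^(6:ℕ)*C6 + d^(7:ℕ)*C7 + d^(8:ℕ)*C8 := by
  obtain ⟨d2, hd2⟩ : ∃ d2 : ℝ, d2 = (1/2) - d := ⟨_, rfl⟩
  have a2 : 0 ≤ d2 := by rw [hd2]; linarith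
  obtain ⟨B0, hB0⟩ : ∃ B : ℝ, B = 1*C0 - (1/4) := ⟨_, rfl⟩
  rw [← hB0] at b0
  obtain ⟨B1, hB1⟩ : ∃ B : ℝ, B = 1*C0 + (1/16)*C1 - (1/4) := ⟨_, rfl⟩
  rw [← hB1] at b1
  obtain ⟨B2, hB2⟩ : ∃ B : ℝ, B = 1*C0 + (1/8)*C1 + (1/112)*C2 - (1/4) := ⟨_, rfl⟩
  rw [← hB2] at b2
  obtain ⟨B3, hB3⟩ : ∃ B : ℝ, B = 1*C0 + (3/16)*C1 + (3/112)*C2 + (1/448)*C3 - (1/4) := ⟨_, rfl⟩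
  rw [← hB3] at b3
  obtain ⟨B4, hB4⟩ : ∃ B : ℝ, B = 1*C0 + (1/4)*C1 + (3/56)*C2 + (1/112)*C3 + (1/1120)*C4 - (1/4) := ⟨_, rfl⟩
  rw [← hB4] at b4
  obtain ⟨B5, hB5⟩ : ∃ B : ℝ, B = 1*C0 + (5/16)*C1 + (5/56)*C2 + (5/224)*C3 + (1/224)*C4 + (1/1792)*C5 - (1/4) := ⟨_, rfl⟩
  rw [← hB5] at b5
  obtain ⟨B6, hB6⟩ : ∃ B : ℝ, B = 1*C0 + (3/8)*C1 + (15/112)*C2 + (5/112)*C3 + (3/224)*C4 + (3/896)*C5 + (1/1792)*C6 - (1/4) := ⟨_, rfl⟩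
  rw [← hB6] at b6
  obtain ⟨B7, hB7⟩ : ∃ B : ℝ, B = 1*C0 + (7/16)*C1 + (3/16)*C2 + (5/64)*C3 + (1/32)*C4 + (3/256)*C5 + (1/256)*C6 + (1/1024)*C7 - (1/4) := ⟨_, rfl⟩
  rw [← hB7] at b7
  obtain ⟨B8, hB8⟩ : ∃ B : ℝ, B = 1*C0 + (1/2)*C1 + (1/4)*C2 + (1/8)*C3 + (1/16)*C4 + (1/32)*C5 + (1/64)*C6 + (1/128)*C7 + (1/256)*C8 - (1/4) := ⟨_, rfl⟩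
  rw [← hB8] at b8
  have e : C0 + d*C1 + d^(2:ℕ)*C2 + d^(3:ℕ)*C3 + d^(4:ℕ)*C4 + d^(5:ℕ)*C5 + d^(6:ℕ)*C6 + d^(7:ℕ)*C7 + d^(8:ℕ)*C8 = (1/4) + (256*d2^(8:ℕ)*B0 + 2048*d^(1:ℕ)*d2^(7:ℕ)*B1 + 7168*d^(2:ℕ)*d2^(6:ℕ)*B2 + 14336*d^(3:ℕ)*d2^(5:ℕ)*B3 + 17920*d^(4:ℕ)*d2^(4:ℕ)*B4 + 14336*d^(5:ℕ)*d2^(3:ℕ)*B5 + 7168*d^(6:ℕ)*d2^(2:ℕ)*B6 + 2048*d^(7:ℕ)*d2^(1:ℕ)*B7 + 256*d^(8:ℕ)*B8) := by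
    rw [hB0, hB1, hB2, hB3, hB4, hB5, hB6, hB7, hB8, hd2]; ring
  rw [e]
  positivity

lemma pos_L1e (d t : ℝ) (h1 : 0 ≤ d) (h2 : d ≤ (1/2)) (h3 : 0 ≤ t) (h4 : t ≤ 1) :
    0 < (1/2) + (1/2)*t + (5/2)*t^(2:ℕ) + (5/2)*t^(3:ℕ) + 5*t^(4:ℕ) + 5*t^(5:ℕ) + 5*t^(6:ℕ) + 5*t^(7:ℕ) + (5/2)*t^(8:ℕ) + (5/2)*t^(9:ℕ) + (1/2)*t^(10:ℕ) + (1/2)*t^(11:ℕ) + (17/8)*d + (-7/8)*d*t + (777/40)*d*t^(2:ℕ) + (77/8)*d*t^(3:ℕ) + (1257/20)*d*t^(4:ℕ) + (169/20)*d*t^(5:ℕ) + (1281/20)*d*t^(6:ℕ) + (-287/20)*d*t^(7:ℕ) + (181/8)*d*t^(8:ℕ) + (-447/40)*d*t^(9:ℕ) + (33/8)*d*t^(10:ℕ) + (9/8)*d*t^(11:ℕ) + (-7/4)*d^(2:ℕ) + (-19/4)*d^(2:ℕ)*t + (417/20)*d^(2:ℕ)*t^(2:ℕ) + (563/20)*d^(2:ℕ)*t^(3:ℕ) + (1469/10)*d^(2:ℕ)*t^(4:ℕ)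 + (-39/10)*d^(2:ℕ)*t^(5:ℕ) + (1319/10)*d^(2:ℕ)*t^(6:ℕ) + (-939/10)*d^(2:ℕ)*t^(7:ℕ) + (161/20)*d^(2:ℕ)*t^(8:ℕ) + (-1227/20)*d^(2:ℕ)*t^(9:ℕ) + (9/20)*d^(2:ℕ)*t^(10:ℕ) + (-17/4)*d^(2:ℕ)*t^(11:ℕ) + (657/20)*d^(3:ℕ)*t^(2:ℕ) + (-1553/40)*d^(3:ℕ)*t^(3:ℕ) + (902/5)*d^(3:ℕ)*t^(4:ℕ) + (-4779/40)*d^(3:ℕ)*t^(5:ℕ) + (5451/40)*d^(3:ℕ)*t^(6:ℕ) + (-302/5)*d^(3:ℕ)*t^(7:ℕ) + (-661/20)*d^(3:ℕ)*t^(8:ℕ) + (137/8)*d^(3:ℕ)*t^(9:ℕ) + (-871/40)*d^(3:ℕ)*t^(10:ℕ) + (-25/8)*d^(3:ℕ)*t^(11:ℕ) + (65/2)*d^(4:ℕ)*t^(2:ℕ) + (-137/4)*d^(4:ℕ)*t^(3:ℕ) + (14143/200)*d^(4:ℕ)*t^(4:ℕ) + (-1503/25)*d^(4:ℕ)*t^(5:ℕ) + (608/25)*d^(4:ℕ)*t^(6:ℕ) + (-98/25)*d^(4:ℕ)*t^(7:ℕ) + (-5817/200)*d^(4:ℕ)*t^(8:ℕ) + (469/20)*d^(4:ℕ)*t^(9:ℕ)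 + (-887/20)*d^(4:ℕ)*t^(10:ℕ) + (3/2)*d^(4:ℕ)*t^(11:ℕ) + (13/2)*d^(5:ℕ)*t^(2:ℕ) + (-109/20)*d^(5:ℕ)*t^(3:ℕ) + (-483/100)*d^(5:ℕ)*t^(4:ℕ) + (613/20)*d^(5:ℕ)*t^(5:ℕ) + (-1347/25)*d^(5:ℕ)*t^(6:ℕ) + (791/20)*d^(5:ℕ)*t^(7:ℕ) + (-1863/100)*d^(5:ℕ)*t^(8:ℕ) + (239/20)*d^(5:ℕ)*t^(9:ℕ) + (-209/10)*d^(5:ℕ)*t^(10:ℕ) + (17/2)*d^(5:ℕ)*t^(11:ℕ) + (-1101/100)*d^(6:ℕ)*t^(4:ℕ) + (3111/100)*d^(6:ℕ)*t^(5:ℕ) + (-17601/400)*d^(6:ℕ)*t^(6:ℕ) + (3111/100)*d^(6:ℕ)*t^(7:ℕ) + (-1101/100)*d^(6:ℕ)*t^(8:ℕ) + 2*d^(6:ℕ)*t^(9:ℕ) + (-14/5)*d^(6:ℕ)*t^(10:ℕ) + 2*d^(6:ℕ)*t^(11:ℕ) + (-29/10)*d^(7:ℕ)*t^(4:ℕ) + (821/100)*d^(7:ℕ)*t^(5:ℕ) + (-1161/100)*d^(7:ℕ)*t^(6:ℕ) + (821/100)*d^(7:ℕ)*t^(7:ℕ) + (-29/10)*d^(7:ℕ)*t^(8:ℕ)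 + (-1/4)*d^(8:ℕ)*t^(4:ℕ) + (7/10)*d^(8:ℕ)*t^(5:ℕ) + (-99/100)*d^(8:ℕ)*t^(6:ℕ) + (7/10)*d^(8:ℕ)*t^(7:ℕ) + (-1/4)*d^(8:ℕ)*t^(8:ℕ) := by
  have e0 : (1/2) + (1/2)*t + (5/2)*t^(2:ℕ) + (5/2)*t^(3:ℕ) + 5*t^(4:ℕ) + 5*t^(5:ℕ) + 5*t^(6:ℕ) + 5*t^(7:ℕ) + (5/2)*t^(8:ℕ) + (5/2)*t^(9:ℕ) + (1/2)*t^(10:ℕ) + (1/2)*t^(11:ℕ) + (17/8)*d + (-7/8)*d*t + (777/40)*d*t^(2:ℕ) + (77/8)*d*t^(3:ℕ) + (1257/20)*d*t^(4:ℕ) + (169/20)*d*t^(5:ℕ) + (1281/20)*d*t^(6:ℕ) + (-287/20)*d*t^(7:ℕ) + (181/8)*d*t^(8:ℕ) + (-447/40)*d*t^(9:ℕ) + (33/8)*d*t^(10:ℕ) + (9/8)*d*t^(11:ℕ) + (-7/4)*d^(2:ℕ) + (-19/4)*d^(2:ℕ)*t + (417/20)*d^(2:ℕ)*t^(2:ℕ) + (563/20)*d^(2:ℕ)*t^(3:ℕ) + (1469/10)*d^(2:ℕ)*t^(4:ℕ) + (-39/10)*d^(2:ℕ)*t^(5:ℕ)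 + (1319/10)*d^(2:ℕ)*t^(6:ℕ) + (-939/10)*d^(2:ℕ)*t^(7:ℕ) + (161/20)*d^(2:ℕ)*t^(8:ℕ) + (-1227/20)*d^(2:ℕ)*t^(9:ℕ) + (9/20)*d^(2:ℕ)*t^(10:ℕ) + (-17/4)*d^(2:ℕ)*t^(11:ℕ) + (657/20)*d^(3:ℕ)*t^(2:ℕ) + (-1553/40)*d^(3:ℕ)*t^(3:ℕ) + (902/5)*d^(3:ℕ)*t^(4:ℕ) + (-4779/40)*d^(3:ℕ)*t^(5:ℕ) + (5451/40)*d^(3:ℕ)*t^(6:ℕ) + (-302/5)*d^(3:ℕ)*t^(7:ℕ) + (-661/20)*d^(3:ℕ)*t^(8:ℕ) + (137/8)*d^(3:ℕ)*t^(9:ℕ) + (-871/40)*d^(3:ℕ)*t^(10:ℕ) + (-25/8)*d^(3:ℕ)*t^(11:ℕ) + (65/2)*d^(4:ℕ)*t^(2:ℕ) + (-137/4)*d^(4:ℕ)*t^(3:ℕ) + (14143/200)*d^(4:ℕ)*t^(4:ℕ) + (-1503/25)*d^(4:ℕ)*t^(5:ℕ) + (608/25)*d^(4:ℕ)*t^(6:ℕ) + (-98/25)*d^(4:ℕ)*t^(7:ℕ) + (-5817/200)*d^(4:ℕ)*t^(8:ℕ) + (469/20)*d^(4:ℕ)*t^(9:ℕ) + (-887/20)*d^(4:ℕ)*t^(10:ℕ)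 + (3/2)*d^(4:ℕ)*t^(11:ℕ) + (13/2)*d^(5:ℕ)*t^(2:ℕ) + (-109/20)*d^(5:ℕ)*t^(3:ℕ) + (-483/100)*d^(5:ℕ)*t^(4:ℕ) + (613/20)*d^(5:ℕ)*t^(5:ℕ) + (-1347/25)*d^(5:ℕ)*t^(6:ℕ) + (791/20)*d^(5:ℕ)*t^(7:ℕ) + (-1863/100)*d^(5:ℕ)*t^(8:ℕ) + (239/20)*d^(5:ℕ)*t^(9:ℕ) + (-209/10)*d^(5:ℕ)*t^(10:ℕ) + (17/2)*d^(5:ℕ)*t^(11:ℕ) + (-1101/100)*d^(6:ℕ)*t^(4:ℕ) + (3111/100)*d^(6:ℕ)*t^(5:ℕ) + (-17601/400)*d^(6:ℕ)*t^(6:ℕ) + (3111/100)*d^(6:ℕ)*t^(7:ℕ) + (-1101/100)*d^(6:ℕ)*t^(8:ℕ) + 2*d^(6:ℕ)*t^(9:ℕ) + (-14/5)*d^(6:ℕ)*t^(10:ℕ) + 2*d^(6:ℕ)*t^(11:ℕ) + (-29/10)*d^(7:ℕ)*t^(4:ℕ) + (821/100)*d^(7:ℕ)*t^(5:ℕ) + (-1161/100)*d^(7:ℕ)*t^(6:ℕ) + (821/100)*d^(7:ℕ)*t^(7:ℕ) + (-29/10)*d^(7:ℕ)*t^(8:ℕ) + (-1/4)*d^(8:ℕ)*t^(4:ℕ)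 + (7/10)*d^(8:ℕ)*t^(5:ℕ) + (-99/100)*d^(8:ℕ)*t^(6:ℕ) + (7/10)*d^(8:ℕ)*t^(7:ℕ) + (-1/4)*d^(8:ℕ)*t^(8:ℕ) = ((1/2) + (1/2)*t + (5/2)*t^(2:ℕ) + (5/2)*t^(3:ℕ) + 5*t^(4:ℕ) + 5*t^(5:ℕ) + 5*t^(6:ℕ) + 5*t^(7:ℕ) + (5/2)*t^(8:ℕ) + (5/2)*t^(9:ℕ) + (1/2)*t^(10:ℕ) + (1/2)*t^(11:ℕ)) + d*((17/8) + (-7/8)*t + (777/40)*t^(2:ℕ) + (77/8)*t^(3:ℕ) + (1257/20)*t^(4:ℕ) + (169/20)*t^(5:ℕ) + (1281/20)*t^(6:ℕ) + (-287/20)*t^(7:ℕ) + (181/8)*t^(8:ℕ) + (-447/40)*t^(9:ℕ) + (33/8)*t^(10:ℕ) + (9/8)*t^(11:ℕ)) + d^(2:ℕ)*((-7/4) + (-19/4)*t + (417/20)*t^(2:ℕ) + (563/20)*t^(3:ℕ) + (1469/10)*t^(4:ℕ) + (-39/10)*t^(5:ℕ) + (1319/10)*t^(6:ℕ) + (-939/10)*t^(7:ℕ) + (161/20)*t^(8:ℕ) + (-1227/20)*t^(9:ℕ) + (9/20)*t^(10:ℕ)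 + (-17/4)*t^(11:ℕ)) + d^(3:ℕ)*((657/20)*t^(2:ℕ) + (-1553/40)*t^(3:ℕ) + (902/5)*t^(4:ℕ) + (-4779/40)*t^(5:ℕ) + (5451/40)*t^(6:ℕ) + (-302/5)*t^(7:ℕ) + (-661/20)*t^(8:ℕ) + (137/8)*t^(9:ℕ) + (-871/40)*t^(10:ℕ) + (-25/8)*t^(11:ℕ)) + d^(4:ℕ)*((65/2)*t^(2:ℕ) + (-137/4)*t^(3:ℕ) + (14143/200)*t^(4:ℕ) + (-1503/25)*t^(5:ℕ) + (608/25)*t^(6:ℕ) + (-98/25)*t^(7:ℕ) + (-5817/200)*t^(8:ℕ) + (469/20)*t^(9:ℕ) + (-887/20)*t^(10:ℕ) + (3/2)*t^(11:ℕ)) + d^(5:ℕ)*((13/2)*t^(2:ℕ) + (-109/20)*t^(3:ℕ) + (-483/100)*t^(4:ℕ) + (613/20)*t^(5:ℕ) + (-1347/25)*t^(6:ℕ) + (791/20)*t^(7:ℕ) + (-1863/100)*t^(8:ℕ) + (239/20)*t^(9:ℕ) + (-209/10)*t^(10:ℕ) + (17/2)*t^(11:ℕ)) + d^(6:ℕ)*((-1101/100)*t^(4:ℕ) +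 (3111/100)*t^(5:ℕ) + (-17601/400)*t^(6:ℕ) + (3111/100)*t^(7:ℕ) + (-1101/100)*t^(8:ℕ) + 2*t^(9:ℕ) + (-14/5)*t^(10:ℕ) + 2*t^(11:ℕ)) + d^(7:ℕ)*((-29/10)*t^(4:ℕ) + (821/100)*t^(5:ℕ) + (-1161/100)*t^(6:ℕ) + (821/100)*t^(7:ℕ) + (-29/10)*t^(8:ℕ)) + d^(8:ℕ)*((-1/4)*t^(4:ℕ) + (7/10)*t^(5:ℕ) + (-99/100)*t^(6:ℕ) + (7/10)*t^(7:ℕ) + (-1/4)*t^(8:ℕ)) := by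
    ring
  rw [e0]
  exact pos_L1e_id d ((1/2) + (1/2)*t + (5/2)*t^(2:ℕ) + (5/2)*t^(3:ℕ) + 5*t^(4:ℕ) + 5*t^(5:ℕ) + 5*t^(6:ℕ) + 5*t^(7:ℕ) + (5/2)*t^(8:ℕ) + (5/2)*t^(9:ℕ) + (1/2)*t^(10:ℕ) + (1/2)*t^(11:ℕ)) ((17/8) + (-7/8)*t + (777/40)*t^(2:ℕ) + (77/8)*t^(3:ℕ) + (1257/20)*t^(4:ℕ) + (169/20)*t^(5:ℕ) + (1281/20)*t^(6:ℕ) + (-287/20)*t^(7:ℕ) + (181/8)*t^(8:ℕ) + (-447/40)*t^(9:ℕ) + (33/8)*t^(10:ℕ) + (9/8)*t^(11:ℕ)) ((-7/4) + (-19/4)*t + (417/20)*t^(2:ℕ) + (563/20)*t^(3:ℕ) + (1469/10)*t^(4:ℕ) + (-39/10)*t^(5:ℕ) + (1319/10)*t^(6:ℕ) + (-939/10)*t^(7:ℕ) + (161/20)*t^(8:ℕ) + (-1227/20)*t^(9:ℕ) + (9/20)*t^(10:ℕ) + (-17/4)*t^(11:ℕ)) ((657/20)*t^(2:ℕ) + (-1553/40)*t^(3:ℕ) + (902/5)*t^(4:ℕ)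 + (-4779/40)*t^(5:ℕ) + (5451/40)*t^(6:ℕ) + (-302/5)*t^(7:ℕ) + (-661/20)*t^(8:ℕ) + (137/8)*t^(9:ℕ) + (-871/40)*t^(10:ℕ) + (-25/8)*t^(11:ℕ)) ((65/2)*t^(2:ℕ) + (-137/4)*t^(3:ℕ) + (14143/200)*t^(4:ℕ) + (-1503/25)*t^(5:ℕ) + (608/25)*t^(6:ℕ) + (-98/25)*t^(7:ℕ) + (-5817/200)*t^(8:ℕ) + (469/20)*t^(9:ℕ) + (-887/20)*t^(10:ℕ) + (3/2)*t^(11:ℕ)) ((13/2)*t^(2:ℕ) + (-109/20)*t^(3:ℕ) + (-483/100)*t^(4:ℕ) + (613/20)*t^(5:ℕ) + (-1347/25)*t^(6:ℕ) + (791/20)*t^(7:ℕ) + (-1863/100)*t^(8:ℕ) + (239/20)*t^(9:ℕ) + (-209/10)*t^(10:ℕ) + (17/2)*t^(11:ℕ)) ((-1101/100)*t^(4:ℕ) + (3111/100)*t^(5:ℕ) + (-17601/400)*t^(6:ℕ) + (3111/100)*t^(7:ℕ) + (-1101/100)*t^(8:ℕ) + 2*t^(9:ℕ) + (-14/5)*t^(10:ℕ)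 + 2*t^(11:ℕ)) ((-29/10)*t^(4:ℕ) + (821/100)*t^(5:ℕ) + (-1161/100)*t^(6:ℕ) + (821/100)*t^(7:ℕ) + (-29/10)*t^(8:ℕ)) ((-1/4)*t^(4:ℕ) + (7/10)*t^(5:ℕ) + (-99/100)*t^(6:ℕ) + (7/10)*t^(7:ℕ) + (-1/4)*t^(8:ℕ)) h1 h2 ((pos_L1e_b0 t h3 h4).trans_eq (by ring)) ((pos_L1e_b1 t h3 h4).trans_eq (by ring)) ((pos_L1e_b2 t h3 h4).trans_eq (by ring)) ((pos_L1e_b3 t h3 h4).trans_eq (by ring)) ((pos_L1e_b4 t h3 h4).trans_eq (by ring)) ((pos_L1e_b5 t h3 h4).trans_eq (by ring)) ((pos_L1e_b6 t h3 h4).trans_eq (by ring)) ((pos_L1e_b7 t h3 h4).trans_eq (by ring)) ((pos_L1e_b8 t h3 h4).trans_eq (by ring))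

lemma pos_L20_b0 (t : ℝ) (h3 : 0 ≤ t) (h4 : t ≤ 1) :
    0 ≤ 1 + 2*t + 10*t^(2:ℕ) + 10*t^(3:ℕ) + 20*t^(4:ℕ) + 20*t^(5:ℕ) + 20*t^(6:ℕ) + 20*t^(7:ℕ) + 10*t^(8:ℕ) + 10*t^(9:ℕ) + 2*t^(10:ℕ) + 2*t^(11:ℕ) := by
  obtain ⟨t2, ht2⟩ : ∃ t2 : ℝ, t2 = 1 - t := ⟨_, rfl⟩
  have a4 : 0 ≤ t2 := by rw [ht2]; linarith
  have e : 1 + 2*t + 10*t^(2:ℕ) + 10*t^(3:ℕ) + 20*t^(4:ℕ) + 20*t^(5:ℕ) + 20*t^(6:ℕ) + 20*t^(7:ℕ) + 10*t^(8:ℕ) + 10*t^(9:ℕ) + 2*t^(10:ℕ) + 2*t^(11:ℕ) = 1*t2^(11:ℕ) + 13*t^(1:ℕ)*t2^(10:ℕ) + 85*t^(2:ℕ)*t2^(9:ℕ) + 355*t^(3:ℕ)*t2^(8:ℕ) + 1030*t^(4:ℕ)*t2^(7:ℕ) + 2162*t^(5:ℕ)*t2^(6:ℕ) + 3346*t^(6:ℕ)*t2^(5:ℕ) + 3830*t^(7:ℕ)*t2^(4:ℕ) + 3195*t^(8:ℕ)*t2^(3:ℕ) + 1865*t^(9:ℕ)*t2^(2:ℕ)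 + 693*t^(10:ℕ)*t2^(1:ℕ) + 127*t^(11:ℕ) := by
    rw [ht2]; ring
  rw [e]
  positivity

lemma pos_L20_b1 (t : ℝ) (h3 : 0 ≤ t) (h4 : t ≤ 1) :
    0 ≤ (9/7) + (31/14)*t + (121/10)*t^(2:ℕ) + (412/35)*t^(3:ℕ) + (874/35)*t^(4:ℕ) + (844/35)*t^(5:ℕ) + (881/35)*t^(6:ℕ) + (167/7)*t^(7:ℕ) + (62/5)*t^(8:ℕ) + (797/70)*t^(9:ℕ) + (167/70)*t^(10:ℕ) + (73/35)*t^(11:ℕ) := by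
  obtain ⟨t2, ht2⟩ : ∃ t2 : ℝ, t2 = 1 - t := ⟨_, rfl⟩
  have a4 : 0 ≤ t2 := by rw [ht2]; linarith
  have e : (9/7) + (31/14)*t + (121/10)*t^(2:ℕ) + (412/35)*t^(3:ℕ) + (874/35)*t^(4:ℕ) + (844/35)*t^(5:ℕ) + (881/35)*t^(6:ℕ) + (167/7)*t^(7:ℕ) + (62/5)*t^(8:ℕ) + (797/70)*t^(9:ℕ) + (167/70)*t^(10:ℕ) + (73/35)*t^(11:ℕ) = (9/7)*t2^(11:ℕ) + (229/14)*t^(1:ℕ)*t2^(10:ℕ) + (7347/70)*t^(2:ℕ)*t2^(9:ℕ) + (15136/35)*t^(3:ℕ)*t2^(8:ℕ) + (43566/35)*t^(4:ℕ)*t2^(7:ℕ) + (91137/35)*t^(5:ℕ)*t2^(6:ℕ) + (141052/35)*t^(6:ℕ)*t2^(5:ℕ) + (161816/35)*t^(7:ℕ)*t2^(4:ℕ) + (27085/7)*t^(8:ℕ)*t2^(3:ℕ) + (79279/35)*t^(9:ℕ)*t2^(2:ℕ) + (29487/35)*t^(10:ℕ)*t2^(1:ℕ) + (5381/35)*t^(11:ℕ) := by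
    rw [ht2]; ring
  rw [e]
  positivity

lemma pos_L20_b2 (t : ℝ) (h3 : 0 ≤ t) (h4 : t ≤ 1) :
    0 ≤ (299/210) + (479/210)*t + (139/10)*t^(2:ℕ) + (281/21)*t^(3:ℕ) + (6373/210)*t^(4:ℕ) + (3013/105)*t^(5:ℕ) + (3314/105)*t^(6:ℕ) + (5921/210)*t^(7:ℕ) + (1634/105)*t^(8:ℕ) + (883/70)*t^(9:ℕ) + (201/70)*t^(10:ℕ) + (141/70)*t^(11:ℕ) := by
  obtain ⟨t2, ht2⟩ : ∃ t2 : ℝ, t2 = 1 - t := ⟨_, rfl⟩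
  have a4 : 0 ≤ t2 := by rw [ht2]; linarith
  have e : (299/210) + (479/210)*t + (139/10)*t^(2:ℕ) + (281/21)*t^(3:ℕ) + (6373/210)*t^(4:ℕ) + (3013/105)*t^(5:ℕ) + (3314/105)*t^(6:ℕ) + (5921/210)*t^(7:ℕ) + (1634/105)*t^(8:ℕ) + (883/70)*t^(9:ℕ) + (201/70)*t^(10:ℕ) + (141/70)*t^(11:ℕ) = (299/210)*t2^(11:ℕ) + (628/35)*t^(1:ℕ)*t2^(10:ℕ) + (12077/105)*t^(2:ℕ)*t2^(9:ℕ) + (99971/210)*t^(3:ℕ)*t2^(8:ℕ) + (41441/30)*t^(4:ℕ)*t2^(7:ℕ) + (613241/210)*t^(5:ℕ)*t2^(6:ℕ) + (137231/30)*t^(6:ℕ)*t2^(5:ℕ) + (111626/21)*t^(7:ℕ)*t2^(4:ℕ) + (473089/105)*t^(8:ℕ)*t2^(3:ℕ) + (280123/105)*t^(9:ℕ)*t2^(2:ℕ) + (5003/5)*t^(10:ℕ)*t2^(1:ℕ) + (19199/105)*t^(11:ℕ) := by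
    rw [ht2]; ring
  rw [e]
  positivity

lemma pos_L20_b3 (t : ℝ) (h3 : 0 ≤ t) (h4 : t ≤ 1) :
    0 ≤ (513/350) + (394/175)*t + (107753/7000)*t^(2:ℕ) + (4139/280)*t^(3:ℕ) + (125913/3500)*t^(4:ℕ) + (11769/350)*t^(5:ℕ) + (6862/175)*t^(6:ℕ) + (11493/350)*t^(7:ℕ) + (68827/3500)*t^(8:ℕ) + (2361/175)*t^(9:ℕ) + (3501/1000)*t^(10:ℕ) + (2449/1400)*t^(11:ℕ) := by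
  obtain ⟨t2, ht2⟩ : ∃ t2 : ℝ, t2 = 1 - t := ⟨_, rfl⟩
  have a4 : 0 ≤ t2 := by rw [ht2]; linarith
  have e : (513/350) + (394/175)*t + (107753/7000)*t^(2:ℕ) + (4139/280)*t^(3:ℕ) + (125913/3500)*t^(4:ℕ) + (11769/350)*t^(5:ℕ) + (6862/175)*t^(6:ℕ) + (11493/350)*t^(7:ℕ) + (68827/3500)*t^(8:ℕ) + (2361/175)*t^(9:ℕ) + (3501/1000)*t^(10:ℕ) + (2449/1400)*t^(11:ℕ) = (513/350)*t2^(11:ℕ) + (6431/350)*t^(1:ℕ)*t2^(10:ℕ) + (829653/7000)*t^(2:ℕ)*t2^(9:ℕ) + (434419/875)*t^(3:ℕ)*t2^(8:ℕ) + (5117867/3500)*t^(4:ℕ)*t2^(7:ℕ) + (10998217/3500)*t^(5:ℕ)*t2^(6:ℕ) + (4382278/875)*t^(6:ℕ)*t2^(5:ℕ) + (20731199/3500)*t^(7:ℕ)*t2^(4:ℕ) + (8938339/1750)*t^(8:ℕ)*t2^(3:ℕ) + (5375079/1750)*t^(9:ℕ)*t2^(2:ℕ)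 + (1020161/875)*t^(10:ℕ)*t2^(1:ℕ) + (37441/175)*t^(11:ℕ) := by
    rw [ht2]; ring
  rw [e]
  positivity

lemma pos_L20_b4 (t : ℝ) (h3 : 0 ≤ t) (h4 : t ≤ 1) :
    0 ≤ (256/175) + (381/175)*t + (58423/3500)*t^(2:ℕ) + (55821/3500)*t^(3:ℕ) + (292597/7000)*t^(4:ℕ) + (13579/350)*t^(5:ℕ) + (67317/1400)*t^(6:ℕ) + (263163/7000)*t^(7:ℕ) + (173723/7000)*t^(8:ℕ) + (484/35)*t^(9:ℕ) + (30129/7000)*t^(10:ℕ) + (1763/1400)*t^(11:ℕ) := by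
  obtain ⟨t2, ht2⟩ : ∃ t2 : ℝ, t2 = 1 - t := ⟨_, rfl⟩
  have a4 : 0 ≤ t2 := by rw [ht2]; linarith
  have e : (256/175) + (381/175)*t + (58423/3500)*t^(2:ℕ) + (55821/3500)*t^(3:ℕ) + (292597/7000)*t^(4:ℕ) + (13579/350)*t^(5:ℕ) + (67317/1400)*t^(6:ℕ) + (263163/7000)*t^(7:ℕ) + (173723/7000)*t^(8:ℕ) + (484/35)*t^(9:ℕ) + (30129/7000)*t^(10:ℕ) + (1763/1400)*t^(11:ℕ) = (256/175)*t2^(11:ℕ) + (3197/175)*t^(1:ℕ)*t2^(10:ℕ) + (416223/3500)*t^(2:ℕ)*t2^(9:ℕ) + (442332/875)*t^(3:ℕ)*t2^(8:ℕ) + (10600189/7000)*t^(4:ℕ)*t2^(7:ℕ) + (23192079/7000)*t^(5:ℕ)*t2^(6:ℕ) + (3765651/700)*t^(6:ℕ)*t2^(5:ℕ) + (45377819/7000)*t^(7:ℕ)*t2^(4:ℕ) + (4981267/875)*t^(8:ℕ)*t2^(3:ℕ) + (12181233/3500)*t^(9:ℕ)*t2^(2:ℕ)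 + (2341981/1750)*t^(10:ℕ)*t2^(1:ℕ) + (43184/175)*t^(11:ℕ) := by
    rw [ht2]; ring
  rw [e]
  positivity

lemma pos_L20_b5 (t : ℝ) (h3 : 0 ≤ t) (h4 : t ≤ 1) :
    0 ≤ (22/15) + (443/210)*t + (75421/4200)*t^(2:ℕ) + (284779/16800)*t^(3:ℕ) + (25124/525)*t^(4:ℕ) + (6601/150)*t^(5:ℕ) + (162983/2800)*t^(6:ℕ) + (353929/8400)*t^(7:ℕ) + (1089/35)*t^(8:ℕ) + (10771/800)*t^(9:ℕ) + (44273/8400)*t^(10:ℕ) + (1807/3360)*t^(11:ℕ) := by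
  obtain ⟨t2, ht2⟩ : ∃ t2 : ℝ, t2 = 1 - t := ⟨_, rfl⟩
  have a4 : 0 ≤ t2 := by rw [ht2]; linarith
  have e : (22/15) + (443/210)*t + (75421/4200)*t^(2:ℕ) + (284779/16800)*t^(3:ℕ) + (25124/525)*t^(4:ℕ) + (6601/150)*t^(5:ℕ) + (162983/2800)*t^(6:ℕ) + (353929/8400)*t^(7:ℕ) + (1089/35)*t^(8:ℕ) + (10771/800)*t^(9:ℕ) + (44273/8400)*t^(10:ℕ) + (1807/3360)*t^(11:ℕ) = (22/15)*t2^(11:ℕ) + (1277/70)*t^(1:ℕ)*t2^(10:ℕ) + (167607/1400)*t^(2:ℕ)*t2^(9:ℕ) + (1732067/3360)*t^(3:ℕ)*t2^(8:ℕ) + (1096951/700)*t^(4:ℕ)*t2^(7:ℕ) + (696529/200)*t^(5:ℕ)*t2^(6:ℕ) + (48285733/8400)*t^(6:ℕ)*t2^(5:ℕ) + (59173111/8400)*t^(7:ℕ)*t2^(4:ℕ) + (26416433/4200)*t^(8:ℕ)*t2^(3:ℕ) + (65577923/16800)*t^(9:ℕ)*t2^(2:ℕ)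 + (4252081/2800)*t^(10:ℕ)*t2^(1:ℕ) + (4722071/16800)*t^(11:ℕ) := by
    rw [ht2]; ring
  rw [e]
  positivity

lemma pos_L20_b6 (t : ℝ) (h3 : 0 ≤ t) (h4 : t ≤ 1) :
    0 ≤ (107/70) + (21/10)*t + (1939/100)*t^(2:ℕ) + (10047/560)*t^(3:ℕ) + (76047/1400)*t^(4:ℕ) + (19551/400)*t^(5:ℕ) + (195137/2800)*t^(6:ℕ) + (128857/2800)*t^(7:ℕ) + (108033/2800)*t^(8:ℕ) + (34357/2800)*t^(9:ℕ) + (8889/1400)*t^(10:ℕ) + (-27/70)*t^(11:ℕ) := by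
  obtain ⟨t2, ht2⟩ : ∃ t2 : ℝ, t2 = 1 - t := ⟨_, rfl⟩
  have a4 : 0 ≤ t2 := by rw [ht2]; linarith
  have e : (107/70) + (21/10)*t + (1939/100)*t^(2:ℕ) + (10047/560)*t^(3:ℕ) + (76047/1400)*t^(4:ℕ) + (19551/400)*t^(5:ℕ) + (195137/2800)*t^(6:ℕ) + (128857/2800)*t^(7:ℕ) + (108033/2800)*t^(8:ℕ) + (34357/2800)*t^(9:ℕ) + (8889/1400)*t^(10:ℕ) + (-27/70)*t^(11:ℕ) = (107/70)*t2^(11:ℕ) + (662/35)*t^(1:ℕ)*t2^(10:ℕ) + (87123/700)*t^(2:ℕ)*t2^(9:ℕ) + (1509663/2800)*t^(3:ℕ)*t2^(8:ℕ) + (2313243/1400)*t^(4:ℕ)*t2^(7:ℕ) + (1482969/400)*t^(5:ℕ)*t2^(6:ℕ) + (692933/112)*t^(6:ℕ)*t2^(5:ℕ) + (21485129/2800)*t^(7:ℕ)*t2^(4:ℕ) + (19420749/2800)*t^(8:ℕ)*t2^(3:ℕ) + (12190889/2800)*t^(9:ℕ)*t2^(2:ℕ)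 + (1195973/700)*t^(10:ℕ)*t2^(1:ℕ) + (11084/35)*t^(11:ℕ) := by
    rw [ht2]; ring
  rw [e]
  positivity

lemma pos_L20_b7 (t : ℝ) (h3 : 0 ≤ t) (h4 : t ≤ 1) :
    0 ≤ (17/10) + (11/5)*t + (2129/100)*t^(2:ℕ) + (15239/800)*t^(3:ℕ) + (6163/100)*t^(4:ℕ) + (21121/400)*t^(5:ℕ) + (16519/200)*t^(6:ℕ) + (39123/800)*t^(7:ℕ) + (9423/200)*t^(8:ℕ) + (1003/100)*t^(9:ℕ) + (189/25)*t^(10:ℕ) + (-59/40)*t^(11:ℕ) := by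
  obtain ⟨t2, ht2⟩ : ∃ t2 : ℝ, t2 = 1 - t := ⟨_, rfl⟩
  have a4 : 0 ≤ t2 := by rw [ht2]; linarith
  have e : (17/10) + (11/5)*t + (2129/100)*t^(2:ℕ) + (15239/800)*t^(3:ℕ) + (6163/100)*t^(4:ℕ) + (21121/400)*t^(5:ℕ) + (16519/200)*t^(6:ℕ) + (39123/800)*t^(7:ℕ) + (9423/200)*t^(8:ℕ) + (1003/100)*t^(9:ℕ) + (189/25)*t^(10:ℕ) + (-59/40)*t^(11:ℕ) = (17/10)*t2^(11:ℕ) + (209/10)*t^(1:ℕ)*t2^(10:ℕ) + (13679/100)*t^(2:ℕ)*t2^(9:ℕ) + (472127/800)*t^(3:ℕ)*t2^(8:ℕ) + (90273/50)*t^(4:ℕ)*t2^(7:ℕ) + (324267/80)*t^(5:ℕ)*t2^(6:ℕ) + (678271/100)*t^(6:ℕ)*t2^(5:ℕ) + (1351987/160)*t^(7:ℕ)*t2^(4:ℕ) + (768137/100)*t^(8:ℕ)*t2^(3:ℕ) + (121233/25)*t^(9:ℕ)*t2^(2:ℕ) + (47762/25)*t^(10:ℕ)*t2^(1:ℕ)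 + (1767/5)*t^(11:ℕ) := by
    rw [ht2]; ring
  rw [e]
  positivity

lemma pos_L20_id (d C0 C1 C2 C3 C4 C5 C6 C7 : ℝ) (h1 : 0 ≤ d) (h2 : d ≤ (1/2))
    (b0 : 0 ≤ 1*C0 - 1)
    (b1 : 0 ≤ 1*C0 + (1/14)*C1 - 1)
    (b2 : 0 ≤ 1*C0 + (1/7)*C1 + (1/84)*C2 - 1)
    (b3 : 0 ≤ 1*C0 + (3/14)*C1 + (1/28)*C2 + (1/280)*C3 - 1)
    (b4 : 0 ≤ 1*C0 + (2/7)*C1 + (1/14)*C2 + (1/70)*C3 + (1/560)*C4 - 1)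
    (b5 : 0 ≤ 1*C0 + (5/14)*C1 + (5/42)*C2 + (1/28)*C3 + (1/112)*C4 + (1/672)*C5 - 1)
    (b6 : 0 ≤ 1*C0 + (3/7)*C1 + (5/28)*C2 + (1/14)*C3 + (3/112)*C4 + (1/112)*C5 + (1/448)*C6 - 1)
    (b7 : 0 ≤ 1*C0 + (1/2)*C1 + (1/4)*C2 + (1/8)*C3 + (1/16)*C4 + (1/32)*C5 + (1/64)*C6 + (1/128)*C7 - 1)
    : 0 < C0 + d*C1 + d^(2:ℕ)*C2 + d^(3:ℕ)*C3 + d^(4:ℕ)*C4 + d^(5:ℕ)*C5 + d^(6:ℕ)*C6 + d^(7:ℕ)*C7 := by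
  obtain ⟨d2, hd2⟩ : ∃ d2 : ℝ, d2 = (1/2) - d := ⟨_, rfl⟩
  have a2 : 0 ≤ d2 := by rw [hd2]; linarith
  obtain ⟨B0, hB0⟩ : ∃ B : ℝ, B = 1*C0 - 1 := ⟨_, rfl⟩
  rw [← hB0] at b0
  obtain ⟨B1, hB1⟩ : ∃ B : ℝ, B = 1*C0 + (1/14)*C1 - 1 := ⟨_, rfl⟩
  rw [← hB1] at b1
  obtain ⟨B2, hB2⟩ : ∃ B : ℝ, B = 1*C0 + (1/7)*C1 + (1/84)*C2 - 1 := ⟨_, rfl⟩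
  rw [← hB2] at b2
  obtain ⟨B3, hB3⟩ : ∃ B : ℝ, B = 1*C0 + (3/14)*C1 + (1/28)*C2 + (1/280)*C3 - 1 := ⟨_, rfl⟩
  rw [← hB3] at b3
  obtain ⟨B4, hB4⟩ : ∃ B : ℝ, B = 1*C0 + (2/7)*C1 + (1/14)*C2 + (1/70)*C3 + (1/560)*C4 - 1 := ⟨_, rfl⟩
  rw [← hB4] at b4
  obtain ⟨B5, hB5⟩ : ∃ B : ℝ, B = 1*C0 + (5/14)*C1 + (5/42)*C2 + (1/28)*C3 + (1/112)*C4 + (1/672)*C5 - 1 := ⟨_, rfl⟩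
  rw [← hB5] at b5
  obtain ⟨B6, hB6⟩ : ∃ B : ℝ, B = 1*C0 + (3/7)*C1 + (5/28)*C2 + (1/14)*C3 + (3/112)*C4 + (1/112)*C5 + (1/448)*C6 - 1 := ⟨_, rfl⟩
  rw [← hB6] at b6
  obtain ⟨B7, hB7⟩ : ∃ B : ℝ, B = 1*C0 + (1/2)*C1 + (1/4)*C2 + (1/8)*C3 + (1/16)*C4 + (1/32)*C5 + (1/64)*C6 + (1/128)*C7 - 1 := ⟨_, rfl⟩
  rw [← hB7] at b7
  have e : C0 + d*C1 + d^(2:ℕ)*C2 + d^(3:ℕ)*C3 + d^(4:ℕ)*C4 + d^(5:ℕ)*C5 + d^(6:ℕ)*C6 + d^(7:ℕ)*C7 = 1 + (128*d2^(7:ℕ)*B0 + 896*d^(1:ℕ)*d2^(6:ℕ)*B1 + 2688*d^(2:ℕ)*d2^(5:ℕ)*B2 + 4480*d^(3:ℕ)*d2^(4:ℕ)*B3 + 4480*d^(4:ℕ)*d2^(3:ℕ)*B4 + 2688*d^(5:ℕ)*d2^(2:ℕ)*B5 + 896*d^(6:ℕ)*d2^(1:ℕ)*B6 + 128*d^(7:ℕ)*B7) := by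
    rw [hB0, hB1, hB2, hB3, hB4, hB5, hB6, hB7, hd2]; ring
  rw [e]
  positivity

lemma pos_L20 (d t : ℝ) (h1 : 0 ≤ d) (h2 : d ≤ (1/2)) (h3 : 0 ≤ t) (h4 : t ≤ 1) :
    0 < 2 + 2*t + 10*t^(2:ℕ) + 10*t^(3:ℕ) + 20*t^(4:ℕ) + 20*t^(5:ℕ) + 20*t^(6:ℕ) + 20*t^(7:ℕ) + 10*t^(8:ℕ) + 10*t^(9:ℕ) + 2*t^(10:ℕ) + 2*t^(11:ℕ) + 4*d + 3*d*t + (147/5)*d*t^(2:ℕ) + (124/5)*d*t^(3:ℕ) + (348/5)*d*t^(4:ℕ) + (288/5)*d*t^(5:ℕ) + (362/5)*d*t^(6:ℕ) + 54*d*t^(7:ℕ) + (168/5)*d*t^(8:ℕ) + (97/5)*d*t^(9:ℕ) + (27/5)*d*t^(10:ℕ) + (6/5)*d*t^(11:ℕ) + (-62/5)*d^(2:ℕ) + (-62/5)*d^(2:ℕ)*t + (-126/5)*d^(2:ℕ)*t^(2:ℕ) + (-68/5)*d^(2:ℕ)*t^(3:ℕ) + 34*d^(2:ℕ)*t^(4:ℕ) + (196/5)*d^(2:ℕ)*t^(5:ℕ) + (512/5)*d^(2:ℕ)*t^(6:ℕ)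 + (202/5)*d^(2:ℕ)*t^(7:ℕ) + 64*d^(2:ℕ)*t^(8:ℕ) + (-66/5)*d^(2:ℕ)*t^(9:ℕ) + (42/5)*d^(2:ℕ)*t^(10:ℕ) + (-66/5)*d^(2:ℕ)*t^(11:ℕ) + (72/5)*d^(3:ℕ) + (72/5)*d^(3:ℕ)*t + (-47/25)*d^(3:ℕ)*t^(2:ℕ) + (-13)*d^(3:ℕ)*t^(3:ℕ) + (-1074/25)*d^(3:ℕ)*t^(4:ℕ) + (-164/5)*d^(3:ℕ)*t^(5:ℕ) + (56/5)*d^(3:ℕ)*t^(6:ℕ) + (-248/5)*d^(3:ℕ)*t^(7:ℕ) + (1254/25)*d^(3:ℕ)*t^(8:ℕ) + (-272/5)*d^(3:ℕ)*t^(9:ℕ) + (307/25)*d^(3:ℕ)*t^(10:ℕ) + (-51/5)*d^(3:ℕ)*t^(11:ℕ) + (1668/25)*d^(4:ℕ)*t^(2:ℕ) + (284/25)*d^(4:ℕ)*t^(3:ℕ) + (1386/25)*d^(4:ℕ)*t^(4:ℕ) + (24/5)*d^(4:ℕ)*t^(5:ℕ) + (-214/5)*d^(4:ℕ)*t^(6:ℕ) + (-154/25)*d^(4:ℕ)*t^(7:ℕ) + (-986/25)*d^(4:ℕ)*t^(8:ℕ) + (16/5)*d^(4:ℕ)*t^(9:ℕ) + (-198/25)*d^(4:ℕ)*t^(10:ℕ)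 + (14/5)*d^(4:ℕ)*t^(11:ℕ) + (-1196/25)*d^(5:ℕ)*t^(2:ℕ) + 51*d^(5:ℕ)*t^(3:ℕ) + (-172/25)*d^(5:ℕ)*t^(4:ℕ) + (-1728/25)*d^(5:ℕ)*t^(5:ℕ) + (2398/25)*d^(5:ℕ)*t^(6:ℕ) + (-2258/25)*d^(5:ℕ)*t^(7:ℕ) + (188/5)*d^(5:ℕ)*t^(8:ℕ) + (351/25)*d^(5:ℕ)*t^(9:ℕ) + (-434/25)*d^(5:ℕ)*t^(10:ℕ) + (67/5)*d^(5:ℕ)*t^(11:ℕ) + (144/5)*d^(6:ℕ)*t^(2:ℕ) + (-1008/25)*d^(6:ℕ)*t^(3:ℕ) + (144/5)*d^(6:ℕ)*t^(4:ℕ) + (52/5)*d^(6:ℕ)*t^(5:ℕ) + (-1484/25)*d^(6:ℕ)*t^(6:ℕ) + (1988/25)*d^(6:ℕ)*t^(7:ℕ) + (-1204/25)*d^(6:ℕ)*t^(8:ℕ) + (-136/25)*d^(6:ℕ)*t^(9:ℕ) + (56/5)*d^(6:ℕ)*t^(10:ℕ) + (-4)*d^(6:ℕ)*t^(11:ℕ) + (-4)*d^(7:ℕ)*t^(7:ℕ) + (56/5)*d^(7:ℕ)*t^(8:ℕ) + (-396/25)*d^(7:ℕ)*t^(9:ℕ) + (56/5)*d^(7:ℕ)*t^(10:ℕ) +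 (-4)*d^(7:ℕ)*t^(11:ℕ) := by
  have e0 : 2 + 2*t + 10*t^(2:ℕ) + 10*t^(3:ℕ) + 20*t^(4:ℕ) + 20*t^(5:ℕ) + 20*t^(6:ℕ) + 20*t^(7:ℕ) + 10*t^(8:ℕ) + 10*t^(9:ℕ) + 2*t^(10:ℕ) + 2*t^(11:ℕ) + 4*d + 3*d*t + (147/5)*d*t^(2:ℕ) + (124/5)*d*t^(3:ℕ) + (348/5)*d*t^(4:ℕ) + (288/5)*d*t^(5:ℕ) + (362/5)*d*t^(6:ℕ) + 54*d*t^(7:ℕ) + (168/5)*d*t^(8:ℕ) + (97/5)*d*t^(9:ℕ) + (27/5)*d*t^(10:ℕ) + (6/5)*d*t^(11:ℕ) + (-62/5)*d^(2:ℕ) + (-62/5)*d^(2:ℕ)*t + (-126/5)*d^(2:ℕ)*t^(2:ℕ) + (-68/5)*d^(2:ℕ)*t^(3:ℕ) + 34*d^(2:ℕ)*t^(4:ℕ) + (196/5)*d^(2:ℕ)*t^(5:ℕ) + (512/5)*d^(2:ℕ)*t^(6:ℕ) + (202/5)*d^(2:ℕ)*t^(7:ℕ) + 64*d^(2:ℕ)*t^(8:ℕ) + (-66/5)*d^(2:ℕ)*t^(9:ℕ) + (42/5)*d^(2:ℕ)*t^(10:ℕ) + (-66/5)*d^(2:ℕ)*t^(11:ℕ)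 + (72/5)*d^(3:ℕ) + (72/5)*d^(3:ℕ)*t + (-47/25)*d^(3:ℕ)*t^(2:ℕ) + (-13)*d^(3:ℕ)*t^(3:ℕ) + (-1074/25)*d^(3:ℕ)*t^(4:ℕ) + (-164/5)*d^(3:ℕ)*t^(5:ℕ) + (56/5)*d^(3:ℕ)*t^(6:ℕ) + (-248/5)*d^(3:ℕ)*t^(7:ℕ) + (1254/25)*d^(3:ℕ)*t^(8:ℕ) + (-272/5)*d^(3:ℕ)*t^(9:ℕ) + (307/25)*d^(3:ℕ)*t^(10:ℕ) + (-51/5)*d^(3:ℕ)*t^(11:ℕ) + (1668/25)*d^(4:ℕ)*t^(2:ℕ) + (284/25)*d^(4:ℕ)*t^(3:ℕ) + (1386/25)*d^(4:ℕ)*t^(4:ℕ) + (24/5)*d^(4:ℕ)*t^(5:ℕ) + (-214/5)*d^(4:ℕ)*t^(6:ℕ) + (-154/25)*d^(4:ℕ)*t^(7:ℕ) + (-986/25)*d^(4:ℕ)*t^(8:ℕ) + (16/5)*d^(4:ℕ)*t^(9:ℕ) + (-198/25)*d^(4:ℕ)*t^(10:ℕ) + (14/5)*d^(4:ℕ)*t^(11:ℕ) + (-1196/25)*d^(5:ℕ)*t^(2:ℕ) + 51*d^(5:ℕ)*t^(3:ℕ) + (-172/25)*d^(5:ℕ)*t^(4:ℕ) + (-1728/25)*d^(5:ℕ)*t^(5:ℕ)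 + (2398/25)*d^(5:ℕ)*t^(6:ℕ) + (-2258/25)*d^(5:ℕ)*t^(7:ℕ) + (188/5)*d^(5:ℕ)*t^(8:ℕ) + (351/25)*d^(5:ℕ)*t^(9:ℕ) + (-434/25)*d^(5:ℕ)*t^(10:ℕ) + (67/5)*d^(5:ℕ)*t^(11:ℕ) + (144/5)*d^(6:ℕ)*t^(2:ℕ) + (-1008/25)*d^(6:ℕ)*t^(3:ℕ) + (144/5)*d^(6:ℕ)*t^(4:ℕ) + (52/5)*d^(6:ℕ)*t^(5:ℕ) + (-1484/25)*d^(6:ℕ)*t^(6:ℕ) + (1988/25)*d^(6:ℕ)*t^(7:ℕ) + (-1204/25)*d^(6:ℕ)*t^(8:ℕ) + (-136/25)*d^(6:ℕ)*t^(9:ℕ) + (56/5)*d^(6:ℕ)*t^(10:ℕ) + (-4)*d^(6:ℕ)*t^(11:ℕ) + (-4)*d^(7:ℕ)*t^(7:ℕ) + (56/5)*d^(7:ℕ)*t^(8:ℕ) + (-396/25)*d^(7:ℕ)*t^(9:ℕ) + (56/5)*d^(7:ℕ)*t^(10:ℕ) + (-4)*d^(7:ℕ)*t^(11:ℕ) = (2 + 2*t + 10*t^(2:ℕ) + 10*t^(3:ℕ) + 20*t^(4:ℕ) + 20*t^(5:ℕ) + 20*t^(6:ℕ) + 20*t^(7:ℕ) + 10*t^(8:ℕ) + 10*t^(9:ℕ)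 + 2*t^(10:ℕ) + 2*t^(11:ℕ)) + d*(4 + 3*t + (147/5)*t^(2:ℕ) + (124/5)*t^(3:ℕ) + (348/5)*t^(4:ℕ) + (288/5)*t^(5:ℕ) + (362/5)*t^(6:ℕ) + 54*t^(7:ℕ) + (168/5)*t^(8:ℕ) + (97/5)*t^(9:ℕ) + (27/5)*t^(10:ℕ) + (6/5)*t^(11:ℕ)) + d^(2:ℕ)*((-62/5) + (-62/5)*t + (-126/5)*t^(2:ℕ) + (-68/5)*t^(3:ℕ) + 34*t^(4:ℕ) + (196/5)*t^(5:ℕ) + (512/5)*t^(6:ℕ) + (202/5)*t^(7:ℕ) + 64*t^(8:ℕ) + (-66/5)*t^(9:ℕ) + (42/5)*t^(10:ℕ) + (-66/5)*t^(11:ℕ)) + d^(3:ℕ)*((72/5) + (72/5)*t + (-47/25)*t^(2:ℕ) + (-13)*t^(3:ℕ) + (-1074/25)*t^(4:ℕ) + (-164/5)*t^(5:ℕ) + (56/5)*t^(6:ℕ) + (-248/5)*t^(7:ℕ) + (1254/25)*t^(8:ℕ) + (-272/5)*t^(9:ℕ) + (307/25)*t^(10:ℕ) + (-51/5)*t^(11:ℕ)) + d^(4:ℕ)*((1668/25)*t^(2:ℕ) + (284/25)*t^(3:ℕ)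 + (1386/25)*t^(4:ℕ) + (24/5)*t^(5:ℕ) + (-214/5)*t^(6:ℕ) + (-154/25)*t^(7:ℕ) + (-986/25)*t^(8:ℕ) + (16/5)*t^(9:ℕ) + (-198/25)*t^(10:ℕ) + (14/5)*t^(11:ℕ)) + d^(5:ℕ)*((-1196/25)*t^(2:ℕ) + 51*t^(3:ℕ) + (-172/25)*t^(4:ℕ) + (-1728/25)*t^(5:ℕ) + (2398/25)*t^(6:ℕ) + (-2258/25)*t^(7:ℕ) + (188/5)*t^(8:ℕ) + (351/25)*t^(9:ℕ) + (-434/25)*t^(10:ℕ) + (67/5)*t^(11:ℕ)) + d^(6:ℕ)*((144/5)*t^(2:ℕ) + (-1008/25)*t^(3:ℕ) + (144/5)*t^(4:ℕ) + (52/5)*t^(5:ℕ) + (-1484/25)*t^(6:ℕ) + (1988/25)*t^(7:ℕ) + (-1204/25)*t^(8:ℕ) + (-136/25)*t^(9:ℕ) + (56/5)*t^(10:ℕ) + (-4)*t^(11:ℕ)) + d^(7:ℕ)*((-4)*t^(7:ℕ) + (56/5)*t^(8:ℕ) + (-396/25)*t^(9:ℕ) + (56/5)*t^(10:ℕ) + (-4)*t^(11:ℕ)) := by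
    ring
  rw [e0]
  exact pos_L20_id d (2 + 2*t + 10*t^(2:ℕ) + 10*t^(3:ℕ) + 20*t^(4:ℕ) + 20*t^(5:ℕ) + 20*t^(6:ℕ) + 20*t^(7:ℕ) + 10*t^(8:ℕ) + 10*t^(9:ℕ) + 2*t^(10:ℕ) + 2*t^(11:ℕ)) (4 + 3*t + (147/5)*t^(2:ℕ) + (124/5)*t^(3:ℕ) + (348/5)*t^(4:ℕ) + (288/5)*t^(5:ℕ) + (362/5)*t^(6:ℕ) + 54*t^(7:ℕ) + (168/5)*t^(8:ℕ) + (97/5)*t^(9:ℕ) + (27/5)*t^(10:ℕ) + (6/5)*t^(11:ℕ)) ((-62/5) + (-62/5)*t + (-126/5)*t^(2:ℕ) + (-68/5)*t^(3:ℕ) + 34*t^(4:ℕ) + (196/5)*t^(5:ℕ) + (512/5)*t^(6:ℕ) + (202/5)*t^(7:ℕ) + 64*t^(8:ℕ) + (-66/5)*t^(9:ℕ) + (42/5)*t^(10:ℕ) + (-66/5)*t^(11:ℕ)) ((72/5) + (72/5)*t + (-47/25)*t^(2:ℕ) + (-13)*t^(3:ℕ) + (-1074/25)*t^(4:ℕ) + (-164/5)*t^(5:ℕ) + (56/5)*t^(6:ℕ) + (-248/5)*t^(7:ℕ)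 + (1254/25)*t^(8:ℕ) + (-272/5)*t^(9:ℕ) + (307/25)*t^(10:ℕ) + (-51/5)*t^(11:ℕ)) ((1668/25)*t^(2:ℕ) + (284/25)*t^(3:ℕ) + (1386/25)*t^(4:ℕ) + (24/5)*t^(5:ℕ) + (-214/5)*t^(6:ℕ) + (-154/25)*t^(7:ℕ) + (-986/25)*t^(8:ℕ) + (16/5)*t^(9:ℕ) + (-198/25)*t^(10:ℕ) + (14/5)*t^(11:ℕ)) ((-1196/25)*t^(2:ℕ) + 51*t^(3:ℕ) + (-172/25)*t^(4:ℕ) + (-1728/25)*t^(5:ℕ) + (2398/25)*t^(6:ℕ) + (-2258/25)*t^(7:ℕ) + (188/5)*t^(8:ℕ) + (351/25)*t^(9:ℕ) + (-434/25)*t^(10:ℕ) + (67/5)*t^(11:ℕ)) ((144/5)*t^(2:ℕ) + (-1008/25)*t^(3:ℕ) + (144/5)*t^(4:ℕ) + (52/5)*t^(5:ℕ) + (-1484/25)*t^(6:ℕ) + (1988/25)*t^(7:ℕ) + (-1204/25)*t^(8:ℕ) + (-136/25)*t^(9:ℕ) + (56/5)*t^(10:ℕ) + (-4)*t^(11:ℕ)) ((-4)*t^(7:ℕ) + (56/5)*t^(8:ℕ)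 + (-396/25)*t^(9:ℕ) + (56/5)*t^(10:ℕ) + (-4)*t^(11:ℕ)) h1 h2 ((pos_L20_b0 t h3 h4).trans_eq (by ring)) ((pos_L20_b1 t h3 h4).trans_eq (by ring)) ((pos_L20_b2 t h3 h4).trans_eq (by ring)) ((pos_L20_b3 t h3 h4).trans_eq (by ring)) ((pos_L20_b4 t h3 h4).trans_eq (by ring)) ((pos_L20_b5 t h3 h4).trans_eq (by ring)) ((pos_L20_b6 t h3 h4).trans_eq (by ring)) ((pos_L20_b7 t h3 h4).trans_eq (by ring))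

lemma pos_L2e_b0 (t : ℝ) (h3 : 0 ≤ t) (h4 : t ≤ 1) :
    0 ≤ (7/16) + (-1/2)*t + (39/10)*t^(2:ℕ) + (-7/10)*t^(3:ℕ) + (53/5)*t^(4:ℕ) + (-7/5)*t^(5:ℕ) + (67/5)*t^(6:ℕ) + (-5)*t^(7:ℕ) + (81/10)*t^(8:ℕ) + (-61/10)*t^(9:ℕ) + (19/10)*t^(10:ℕ) + (-23/10)*t^(11:ℕ) := by
  obtain ⟨t2, ht2⟩ : ∃ t2 : ℝ, t2 = 1 - t := ⟨_, rfl⟩
  have a4 : 0 ≤ t2 := by rw [ht2]; linarith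
  have e : (7/16) + (-1/2)*t + (39/10)*t^(2:ℕ) + (-7/10)*t^(3:ℕ) + (53/5)*t^(4:ℕ) + (-7/5)*t^(5:ℕ) + (67/5)*t^(6:ℕ) + (-5)*t^(7:ℕ) + (81/10)*t^(8:ℕ) + (-61/10)*t^(9:ℕ) + (19/10)*t^(10:ℕ) + (-23/10)*t^(11:ℕ) = (7/16)*t2^(11:ℕ) + (69/16)*t^(1:ℕ)*t2^(10:ℕ) + (1837/80)*t^(2:ℕ)*t2^(9:ℕ) + (6727/80)*t^(3:ℕ)*t2^(8:ℕ) + (9191/40)*t^(4:ℕ)*t2^(7:ℕ) + (19117/40)*t^(5:ℕ)*t2^(6:ℕ) + (30237/40)*t^(6:ℕ)*t2^(5:ℕ) + (35751/40)*t^(7:ℕ)*t2^(4:ℕ) + (12251/16)*t^(8:ℕ)*t2^(3:ℕ) + (35693/80)*t^(9:ℕ)*t2^(2:ℕ) + (12489/80)*t^(10:ℕ)*t2^(1:ℕ) + (1787/80)*t^(11:ℕ) := by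
    rw [ht2]; ring
  rw [e]
  positivity

lemma pos_L2e_b1 (t : ℝ) (h3 : 0 ≤ t) (h4 : t ≤ 1) :
    0 ≤ (65/128) + (-83/128)*t + (2477/640)*t^(2:ℕ) + (-343/640)*t^(3:ℕ) + (3873/320)*t^(4:ℕ) + (9/320)*t^(5:ℕ) + (5477/320)*t^(6:ℕ) + (-343/64)*t^(7:ℕ) + (6753/640)*t^(8:ℕ) + (-5571/640)*t^(9:ℕ) + (1433/640)*t^(10:ℕ) + (-439/128)*t^(11:ℕ) := by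
  obtain ⟨t2, ht2⟩ : ∃ t2 : ℝ, t2 = 1 - t := ⟨_, rfl⟩
  have a4 : 0 ≤ t2 := by rw [ht2]; linarith
  have e : (65/128) + (-83/128)*t + (2477/640)*t^(2:ℕ) + (-343/640)*t^(3:ℕ) + (3873/320)*t^(4:ℕ) + (9/320)*t^(5:ℕ) + (5477/320)*t^(6:ℕ) + (-343/64)*t^(7:ℕ) + (6753/640)*t^(8:ℕ) + (-5571/640)*t^(9:ℕ) + (1433/640)*t^(10:ℕ) + (-439/128)*t^(11:ℕ) = (65/128)*t2^(11:ℕ) + (79/16)*t^(1:ℕ)*t2^(10:ℕ) + (8101/320)*t^(2:ℕ)*t2^(9:ℕ) + (2845/32)*t^(3:ℕ)*t2^(8:ℕ) + (18953/80)*t^(4:ℕ)*t2^(7:ℕ) + (39463/80)*t^(5:ℕ)*t2^(6:ℕ) + (8003/10)*t^(6:ℕ)*t2^(5:ℕ) + (4929/5)*t^(7:ℕ)*t2^(4:ℕ) + (70841/80)*t^(8:ℕ)*t2^(3:ℕ) + (43169/80)*t^(9:ℕ)*t2^(2:ℕ) + (15613/80)*t^(10:ℕ)*t2^(1:ℕ) + (2219/80)*t^(11:ℕ)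 := by
    rw [ht2]; ring
  rw [e]
  positivity

lemma pos_L2e_b2 (t : ℝ) (h3 : 0 ≤ t) (h4 : t ≤ 1) :
    0 ≤ (619/1120) + (-7613/8960)*t + (160123/44800)*t^(2:ℕ) + (-291/560)*t^(3:ℕ) + (151359/11200)*t^(4:ℕ) + (1021/560)*t^(5:ℕ) + (96549/4480)*t^(6:ℕ) + (-26289/4480)*t^(7:ℕ) + (152181/11200)*t^(8:ℕ) + (-110531/8960)*t^(9:ℕ) + (116107/44800)*t^(10:ℕ) + (-22287/4480)*t^(11:ℕ) := by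
  obtain ⟨t2, ht2⟩ : ∃ t2 : ℝ, t2 = 1 - t := ⟨_, rfl⟩
  have a4 : 0 ≤ t2 := by rw [ht2]; linarith
  have e : (619/1120) + (-7613/8960)*t + (160123/44800)*t^(2:ℕ) + (-291/560)*t^(3:ℕ) + (151359/11200)*t^(4:ℕ) + (1021/560)*t^(5:ℕ) + (96549/4480)*t^(6:ℕ) + (-26289/4480)*t^(7:ℕ) + (152181/11200)*t^(8:ℕ) + (-110531/8960)*t^(9:ℕ) + (116107/44800)*t^(10:ℕ) + (-22287/4480)*t^(11:ℕ) = (619/1120)*t2^(11:ℕ) + (46859/8960)*t^(1:ℕ)*t2^(10:ℕ) + (163039/6400)*t^(2:ℕ)*t2^(9:ℕ) + (1895151/22400)*t^(3:ℕ)*t2^(8:ℕ) + (38229/175)*t^(4:ℕ)*t2^(7:ℕ) + (10281847/22400)*t^(5:ℕ)*t2^(6:ℕ) + (8722071/11200)*t^(6:ℕ)*t2^(5:ℕ) + (11425767/11200)*t^(7:ℕ)*t2^(4:ℕ) + (2731261/2800)*t^(8:ℕ)*t2^(3:ℕ)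 + (3506487/5600)*t^(9:ℕ)*t2^(2:ℕ) + (93639/400)*t^(10:ℕ)*t2^(1:ℕ) + (9141/280)*t^(11:ℕ) := by
    rw [ht2]; ring
  rw [e]
  positivity

lemma pos_L2e_b3 (t : ℝ) (h3 : 0 ≤ t) (h4 : t ≤ 1) :
    0 ≤ (2073/3584) + (-3933/3584)*t + (280639/89600)*t^(2:ℕ) + (-1125/1792)*t^(3:ℕ) + (1331601/89600)*t^(4:ℕ) + (25827/6400)*t^(5:ℕ) + (595527/22400)*t^(6:ℕ) + (-118143/17920)*t^(7:ℕ) + (384991/22400)*t^(8:ℕ) + (-1538443/89600)*t^(9:ℕ) + (266243/89600)*t^(10:ℕ) + (-25129/3584)*t^(11:ℕ) := by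
  obtain ⟨t2, ht2⟩ : ∃ t2 : ℝ, t2 = 1 - t := ⟨_, rfl⟩
  have a4 : 0 ≤ t2 := by rw [ht2]; linarith
  have e : (2073/3584) + (-3933/3584)*t + (280639/89600)*t^(2:ℕ) + (-1125/1792)*t^(3:ℕ) + (1331601/89600)*t^(4:ℕ) + (25827/6400)*t^(5:ℕ) + (595527/22400)*t^(6:ℕ) + (-118143/17920)*t^(7:ℕ) + (384991/22400)*t^(8:ℕ) + (-1538443/89600)*t^(9:ℕ) + (266243/89600)*t^(10:ℕ) + (-25129/3584)*t^(11:ℕ) = (2073/3584)*t2^(11:ℕ) + (9435/1792)*t^(1:ℕ)*t2^(10:ℕ) + (536941/22400)*t^(2:ℕ)*t2^(9:ℕ) + (6596001/89600)*t^(3:ℕ)*t2^(8:ℕ) + (3257571/17920)*t^(4:ℕ)*t2^(7:ℕ) + (4996623/12800)*t^(5:ℕ)*t2^(6:ℕ) + (63890961/89600)*t^(6:ℕ)*t2^(5:ℕ) + (5701659/5600)*t^(7:ℕ)*t2^(4:ℕ) + (4700579/4480)*t^(8:ℕ)*t2^(3:ℕ)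 + (15924821/22400)*t^(9:ℕ)*t2^(2:ℕ) + (1225509/4480)*t^(10:ℕ)*t2^(1:ℕ) + (8255/224)*t^(11:ℕ) := by
    rw [ht2]; ring
  rw [e]
  positivity

lemma pos_L2e_b4 (t : ℝ) (h3 : 0 ≤ t) (h4 : t ≤ 1) :
    0 ≤ (13263/22400) + (-7753/5600)*t + (1191521/448000)*t^(2:ℕ) + (-353933/448000)*t^(3:ℕ) + (3627781/224000)*t^(4:ℕ) + (745803/112000)*t^(5:ℕ) + (1800801/56000)*t^(6:ℕ) + (-171917/22400)*t^(7:ℕ) + (4780943/224000)*t^(8:ℕ) + (-327267/14000)*t^(9:ℕ) + (1512779/448000)*t^(10:ℕ) + (-861127/89600)*t^(11:ℕ) := by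
  obtain ⟨t2, ht2⟩ : ∃ t2 : ℝ, t2 = 1 - t := ⟨_, rfl⟩
  have a4 : 0 ≤ t2 := by rw [ht2]; linarith
  have e : (13263/22400) + (-7753/5600)*t + (1191521/448000)*t^(2:ℕ) + (-353933/448000)*t^(3:ℕ) + (3627781/224000)*t^(4:ℕ) + (745803/112000)*t^(5:ℕ) + (1800801/56000)*t^(6:ℕ) + (-171917/22400)*t^(7:ℕ) + (4780943/224000)*t^(8:ℕ) + (-327267/14000)*t^(9:ℕ) + (1512779/448000)*t^(10:ℕ) + (-861127/89600)*t^(11:ℕ) = (13263/22400)*t2^(11:ℕ) + (114881/22400)*t^(1:ℕ)*t2^(10:ℕ) + (9578421/448000)*t^(2:ℕ)*t2^(9:ℕ) + (3278357/56000)*t^(3:ℕ)*t2^(8:ℕ) + (30212927/224000)*t^(4:ℕ)*t2^(7:ℕ) + (68124753/224000)*t^(5:ℕ)*t2^(6:ℕ) + (3515419/5600)*t^(6:ℕ)*t2^(5:ℕ) + (224964143/224000)*t^(7:ℕ)*t2^(4:ℕ)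 + (125772033/112000)*t^(8:ℕ)*t2^(3:ℕ) + (89606317/112000)*t^(9:ℕ)*t2^(2:ℕ) + (1760349/5600)*t^(10:ℕ)*t2^(1:ℕ) + (1124121/28000)*t^(11:ℕ) := by
    rw [ht2]; ring
  rw [e]
  positivity

lemma pos_L2e_b5 (t : ℝ) (h3 : 0 ≤ t) (h4 : t ≤ 1) :
    0 ≤ (5391/8960) + (-15259/8960)*t + (404547/179200)*t^(2:ℕ) + (-159669/179200)*t^(3:ℕ) + (900907/51200)*t^(4:ℕ) + (860973/89600)*t^(5:ℕ) + (13717033/358400)*t^(6:ℕ) + (-3344421/358400)*t^(7:ℕ) + (9338403/358400)*t^(8:ℕ) + (-2787039/89600)*t^(9:ℕ) + (271333/71680)*t^(10:ℕ) + (-919049/71680)*t^(11:ℕ) := by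
  obtain ⟨t2, ht2⟩ : ∃ t2 : ℝ, t2 = 1 - t := ⟨_, rfl⟩
  have a4 : 0 ≤ t2 := by rw [ht2]; linarith
  have e : (5391/8960) + (-15259/8960)*t + (404547/179200)*t^(2:ℕ) + (-159669/179200)*t^(3:ℕ) + (900907/51200)*t^(4:ℕ) + (860973/89600)*t^(5:ℕ) + (13717033/358400)*t^(6:ℕ) + (-3344421/358400)*t^(7:ℕ) + (9338403/358400)*t^(8:ℕ) + (-2787039/89600)*t^(9:ℕ) + (271333/71680)*t^(10:ℕ) + (-919049/71680)*t^(11:ℕ) = (5391/8960)*t2^(11:ℕ) + (22021/4480)*t^(1:ℕ)*t2^(10:ℕ) + (3282847/179200)*t^(2:ℕ)*t2^(9:ℕ) + (538461/12800)*t^(3:ℕ)*t2^(8:ℕ) + (30797029/358400)*t^(4:ℕ)*t2^(7:ℕ) + (78060847/358400)*t^(5:ℕ)*t2^(6:ℕ) + (19669159/35840)*t^(6:ℕ)*t2^(5:ℕ) + (360199123/358400)*t^(7:ℕ)*t2^(4:ℕ)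 + (13598421/11200)*t^(8:ℕ)*t2^(3:ℕ) + (161321243/179200)*t^(9:ℕ)*t2^(2:ℕ) + (914903/2560)*t^(10:ℕ)*t2^(1:ℕ) + (3792389/89600)*t^(11:ℕ) := by
    rw [ht2]; ring
  rw [e]
  positivity

lemma pos_L2e_b6 (t : ℝ) (h3 : 0 ≤ t) (h4 : t ≤ 1) :
    0 ≤ (2759/4480) + (-18317/8960)*t + (359237/179200)*t^(2:ℕ) + (-559301/716800)*t^(3:ℕ) + (85957/4480)*t^(4:ℕ) + (22755/1792)*t^(5:ℕ) + (2305043/51200)*t^(6:ℕ) + (-4245639/358400)*t^(7:ℕ) + (701489/22400)*t^(8:ℕ) + (-4145783/102400)*t^(9:ℕ) + (1489729/358400)*t^(10:ℕ) + (-2387169/143360)*t^(11:ℕ) := by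
  obtain ⟨t2, ht2⟩ : ∃ t2 : ℝ, t2 = 1 - t := ⟨_, rfl⟩
  have a4 : 0 ≤ t2 := by rw [ht2]; linarith
  have e : (2759/4480) + (-18317/8960)*t + (359237/179200)*t^(2:ℕ) + (-559301/716800)*t^(3:ℕ) + (85957/4480)*t^(4:ℕ) + (22755/1792)*t^(5:ℕ) + (2305043/51200)*t^(6:ℕ) + (-4245639/358400)*t^(7:ℕ) + (701489/22400)*t^(8:ℕ) + (-4145783/102400)*t^(9:ℕ) + (1489729/358400)*t^(10:ℕ) + (-2387169/143360)*t^(11:ℕ) = (2759/4480)*t2^(11:ℕ) + (42381/8960)*t^(1:ℕ)*t2^(10:ℕ) + (395091/25600)*t^(2:ℕ)*t2^(9:ℕ) + (19269631/716800)*t^(3:ℕ)*t2^(8:ℕ) + (771021/17920)*t^(4:ℕ)*t2^(7:ℕ) + (26659181/179200)*t^(5:ℕ)*t2^(6:ℕ) + (180053637/358400)*t^(6:ℕ)*t2^(5:ℕ) + (75060491/71680)*t^(7:ℕ)*t2^(4:ℕ)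 + (240241233/179200)*t^(8:ℕ)*t2^(3:ℕ) + (20852401/20480)*t^(9:ℕ)*t2^(2:ℕ) + (144606771/358400)*t^(10:ℕ)*t2^(1:ℕ) + (30958951/716800)*t^(11:ℕ) := by
    rw [ht2]; ring
  rw [e]
  positivity

lemma pos_L2e_b7 (t : ℝ) (h3 : 0 ≤ t) (h4 : t ≤ 1) :
    0 ≤ (1649/2560) + (-6141/2560)*t + (50049/25600)*t^(2:ℕ) + (-29949/102400)*t^(3:ℕ) + (216651/10240)*t^(4:ℕ) + (1598409/102400)*t^(5:ℕ) + (5382177/102400)*t^(6:ℕ) + (-318339/20480)*t^(7:ℕ) + (3798849/102400)*t^(8:ℕ) + (-5287563/102400)*t^(9:ℕ) + (227673/51200)*t^(10:ℕ) + (-53889/2560)*t^(11:ℕ) := by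
  obtain ⟨t2, ht2⟩ : ∃ t2 : ℝ, t2 = 1 - t := ⟨_, rfl⟩
  have a4 : 0 ≤ t2 := by rw [ht2]; linarith
  have e : (1649/2560) + (-6141/2560)*t + (50049/25600)*t^(2:ℕ) + (-29949/102400)*t^(3:ℕ) + (216651/10240)*t^(4:ℕ) + (1598409/102400)*t^(5:ℕ) + (5382177/102400)*t^(6:ℕ) + (-318339/20480)*t^(7:ℕ) + (3798849/102400)*t^(8:ℕ) + (-5287563/102400)*t^(9:ℕ) + (227673/51200)*t^(10:ℕ) + (-53889/2560)*t^(11:ℕ) = (1649/2560)*t2^(11:ℕ) + (5999/1280)*t^(1:ℕ)*t2^(10:ℕ) + (342899/25600)*t^(2:ℕ)*t2^(9:ℕ) + (320283/20480)*t^(3:ℕ)*t2^(8:ℕ) + (711987/51200)*t^(4:ℕ)*t2^(7:ℕ) + (11630991/102400)*t^(5:ℕ)*t2^(6:ℕ) + (52589133/102400)*t^(6:ℕ)*t2^(5:ℕ) + (118433841/102400)*t^(7:ℕ)*t2^(4:ℕ) +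 (155595789/102400)*t^(8:ℕ)*t2^(3:ℕ) + (118795913/102400)*t^(9:ℕ)*t2^(2:ℕ) + (11602057/25600)*t^(10:ℕ)*t2^(1:ℕ) + (54463/1280)*t^(11:ℕ) := by
    rw [ht2]; ring
  rw [e]
  positivity

lemma pos_L2e_b8 (t : ℝ) (h3 : 0 ≤ t) (h4 : t ≤ 1) :
    0 ≤ (223/320) + (-441/160)*t + (6849/3200)*t^(2:ℕ) + (18423/25600)*t^(3:ℕ) + (76131/3200)*t^(4:ℕ) + (228753/12800)*t^(5:ℕ) + (78219/1280)*t^(6:ℕ) + (-531261/25600)*t^(7:ℕ) + (277407/6400)*t^(8:ℕ) + (-41409/640)*t^(9:ℕ) + (3717/800)*t^(10:ℕ) + (-33147/1280)*t^(11:ℕ) := by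
  obtain ⟨t2, ht2⟩ : ∃ t2 : ℝ, t2 = 1 - t := ⟨_, rfl⟩
  have a4 : 0 ≤ t2 := by rw [ht2]; linarith
  have e : (223/320) + (-441/160)*t + (6849/3200)*t^(2:ℕ) + (18423/25600)*t^(3:ℕ) + (76131/3200)*t^(4:ℕ) + (228753/12800)*t^(5:ℕ) + (78219/1280)*t^(6:ℕ) + (-531261/25600)*t^(7:ℕ) + (277407/6400)*t^(8:ℕ) + (-41409/640)*t^(9:ℕ) + (3717/800)*t^(10:ℕ) + (-33147/1280)*t^(11:ℕ) = (223/320)*t2^(11:ℕ) + (1571/320)*t^(1:ℕ)*t2^(10:ℕ) + (41299/3200)*t^(2:ℕ)*t2^(9:ℕ) + (279951/25600)*t^(3:ℕ)*t2^(8:ℕ) + (9309/1600)*t^(4:ℕ)*t2^(7:ℕ) + (1631847/12800)*t^(5:ℕ)*t2^(6:ℕ) + (1936983/3200)*t^(6:ℕ)*t2^(5:ℕ) + (34732911/25600)*t^(7:ℕ)*t2^(4:ℕ) + (226029/128)*t^(8:ℕ)*t2^(3:ℕ) + (532433/400)*t^(9:ℕ)*t2^(2:ℕ)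 + (405359/800)*t^(10:ℕ)*t2^(1:ℕ) + (3217/80)*t^(11:ℕ) := by
    rw [ht2]; ring
  rw [e]
  positivity

lemma pos_L2e_id (d C0 C1 C2 C3 C4 C5 C6 C7 C8 : ℝ) (h1 : 0 ≤ d) (h2 : d ≤ (1/2))
    (b0 : 0 ≤ 1*C0 - (1/16))
    (b1 : 0 ≤ 1*C0 + (1/16)*C1 - (1/16))
    (b2 : 0 ≤ 1*C0 + (1/8)*C1 + (1/112)*C2 - (1/16))
    (b3 : 0 ≤ 1*C0 + (3/16)*C1 + (3/112)*C2 + (1/448)*C3 - (1/16))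
    (b4 : 0 ≤ 1*C0 + (1/4)*C1 + (3/56)*C2 + (1/112)*C3 + (1/1120)*C4 - (1/16))
    (b5 : 0 ≤ 1*C0 + (5/16)*C1 + (5/56)*C2 + (5/224)*C3 + (1/224)*C4 + (1/1792)*C5 - (1/16))
    (b6 : 0 ≤ 1*C0 + (3/8)*C1 + (15/112)*C2 + (5/112)*C3 + (3/224)*C4 + (3/896)*C5 + (1/1792)*C6 - (1/16))
    (b7 : 0 ≤ 1*C0 + (7/16)*C1 + (3/16)*C2 + (5/64)*C3 + (1/32)*C4 + (3/256)*C5 + (1/256)*C6 + (1/1024)*C7 - (1/16))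
    (b8 : 0 ≤ 1*C0 + (1/2)*C1 + (1/4)*C2 + (1/8)*C3 + (1/16)*C4 + (1/32)*C5 + (1/64)*C6 + (1/128)*C7 + (1/256)*C8 - (1/16))
    : 0 < C0 + d*C1 + d^(2:ℕ)*C2 + d^(3:ℕ)*C3 + d^(4:ℕ)*C4 + d^(5:ℕ)*C5 + d^(6:ℕ)*C6 + d^(7:ℕ)*C7 + d^(8:ℕ)*C8 := by
  obtain ⟨d2, hd2⟩ : ∃ d2 : ℝ, d2 = (1/2) - d := ⟨_, rfl⟩
  have a2 : 0 ≤ d2 := by rw [hd2]; linarith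
  obtain ⟨B0, hB0⟩ : ∃ B : ℝ, B = 1*C0 - (1/16) := ⟨_, rfl⟩
  rw [← hB0] at b0
  obtain ⟨B1, hB1⟩ : ∃ B : ℝ, B = 1*C0 + (1/16)*C1 - (1/16) := ⟨_, rfl⟩
  rw [← hB1] at b1
  obtain ⟨B2, hB2⟩ : ∃ B : ℝ, B = 1*C0 + (1/8)*C1 + (1/112)*C2 - (1/16) := ⟨_, rfl⟩
  rw [← hB2] at b2
  obtain ⟨B3, hB3⟩ : ∃ B : ℝ, B = 1*C0 + (3/16)*C1 + (3/112)*C2 + (1/448)*C3 - (1/16) := ⟨_, rfl⟩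
  rw [← hB3] at b3
  obtain ⟨B4, hB4⟩ : ∃ B : ℝ, B = 1*C0 + (1/4)*C1 + (3/56)*C2 + (1/112)*C3 + (1/1120)*C4 - (1/16) := ⟨_, rfl⟩
  rw [← hB4] at b4
  obtain ⟨B5, hB5⟩ : ∃ B : ℝ, B = 1*C0 + (5/16)*C1 + (5/56)*C2 + (5/224)*C3 + (1/224)*C4 + (1/1792)*C5 - (1/16) := ⟨_, rfl⟩
  rw [← hB5] at b5
  obtain ⟨B6, hB6⟩ : ∃ B : ℝ, B = 1*C0 + (3/8)*C1 + (15/112)*C2 + (5/112)*C3 + (3/224)*C4 + (3/896)*C5 + (1/1792)*C6 - (1/16) := ⟨_, rfl⟩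
  rw [← hB6] at b6
  obtain ⟨B7, hB7⟩ : ∃ B : ℝ, B = 1*C0 + (7/16)*C1 + (3/16)*C2 + (5/64)*C3 + (1/32)*C4 + (3/256)*C5 + (1/256)*C6 + (1/1024)*C7 - (1/16) := ⟨_, rfl⟩
  rw [← hB7] at b7
  obtain ⟨B8, hB8⟩ : ∃ B : ℝ, B = 1*C0 + (1/2)*C1 + (1/4)*C2 + (1/8)*C3 + (1/16)*C4 + (1/32)*C5 + (1/64)*C6 + (1/128)*C7 + (1/256)*C8 - (1/16) := ⟨_, rfl⟩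
  rw [← hB8] at b8
  have e : C0 + d*C1 + d^(2:ℕ)*C2 + d^(3:ℕ)*C3 + d^(4:ℕ)*C4 + d^(5:ℕ)*C5 + d^(6:ℕ)*C6 + d^(7:ℕ)*C7 + d^(8:ℕ)*C8 = (1/16) + (256*d2^(8:ℕ)*B0 + 2048*d^(1:ℕ)*d2^(7:ℕ)*B1 + 7168*d^(2:ℕ)*d2^(6:ℕ)*B2 + 14336*d^(3:ℕ)*d2^(5:ℕ)*B3 + 17920*d^(4:ℕ)*d2^(4:ℕ)*B4 + 14336*d^(5:ℕ)*d2^(3:ℕ)*B5 + 7168*d^(6:ℕ)*d2^(2:ℕ)*B6 + 2048*d^(7:ℕ)*d2^(1:ℕ)*B7 + 256*d^(8:ℕ)*B8) := by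
    rw [hB0, hB1, hB2, hB3, hB4, hB5, hB6, hB7, hB8, hd2]; ring
  rw [e]
  positivity

lemma pos_L2e (d t : ℝ) (h1 : 0 ≤ d) (h2 : d ≤ (1/2)) (h3 : 0 ≤ t) (h4 : t ≤ 1) :
    0 < (1/2) + (-1/2)*t + (39/10)*t^(2:ℕ) + (-7/10)*t^(3:ℕ) + (53/5)*t^(4:ℕ) + (-7/5)*t^(5:ℕ) + (67/5)*t^(6:ℕ) + (-5)*t^(7:ℕ) + (81/10)*t^(8:ℕ) + (-61/10)*t^(9:ℕ) + (19/10)*t^(10:ℕ) + (-23/10)*t^(11:ℕ) + (9/8)*d + (-19/8)*d*t + (-19/40)*d*t^(2:ℕ) + (21/8)*d*t^(3:ℕ) + (481/20)*d*t^(4:ℕ) + (457/20)*d*t^(5:ℕ) + (1189/20)*d*t^(6:ℕ) + (-23/4)*d*t^(7:ℕ) + (1569/40)*d*t^(8:ℕ) + (-1667/40)*d*t^(9:ℕ) + (217/40)*d*t^(10:ℕ) + (-723/40)*d*t^(11:ℕ) + (-57/20)*d^(2:ℕ) + (-473/80)*d^(2:ℕ)*t + (-11937/400)*d^(2:ℕ)*t^(2:ℕ)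 + (-331/20)*d^(2:ℕ)*t^(3:ℕ) + (-1031/100)*d^(2:ℕ)*t^(4:ℕ) + (411/10)*d^(2:ℕ)*t^(5:ℕ) + (645/8)*d^(2:ℕ)*t^(6:ℕ) + (-669/40)*d^(2:ℕ)*t^(7:ℕ) + (3273/50)*d^(2:ℕ)*t^(8:ℕ) + (-9199/80)*d^(2:ℕ)*t^(9:ℕ) + (607/400)*d^(2:ℕ)*t^(10:ℕ) + (-1861/40)*d^(2:ℕ)*t^(11:ℕ) + (113/40)*d^(3:ℕ) + (113/40)*d^(3:ℕ)*t + (10801/200)*d^(3:ℕ)*t^(2:ℕ) + (209/20)*d^(3:ℕ)*t^(3:ℕ) + (509/40)*d^(3:ℕ)*t^(4:ℕ) + (2249/100)*d^(3:ℕ)*t^(5:ℕ) + (-1349/25)*d^(3:ℕ)*t^(6:ℕ) + (-239/8)*d^(3:ℕ)*t^(7:ℕ) + (-47/5)*d^(3:ℕ)*t^(8:ℕ) + (-15773/200)*d^(3:ℕ)*t^(9:ℕ) + (1221/200)*d^(3:ℕ)*t^(10:ℕ) + (-273/8)*d^(3:ℕ)*t^(11:ℕ) + (9/10)*d^(4:ℕ) + (9/10)*d^(4:ℕ)*t + (-2279/400)*d^(4:ℕ)*t^(2:ℕ) + (21067/400)*d^(4:ℕ)*t^(3:ℕ)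 + (4851/200)*d^(4:ℕ)*t^(4:ℕ) + (-6287/100)*d^(4:ℕ)*t^(5:ℕ) + (1603/25)*d^(4:ℕ)*t^(6:ℕ) + (-418/5)*d^(4:ℕ)*t^(7:ℕ) + (3223/200)*d^(4:ℕ)*t^(8:ℕ) + (377/50)*d^(4:ℕ)*t^(9:ℕ) + (-6861/400)*d^(4:ℕ)*t^(10:ℕ) + (453/80)*d^(4:ℕ)*t^(11:ℕ) + (-343/20)*d^(5:ℕ)*t^(2:ℕ) + (-363/100)*d^(5:ℕ)*t^(3:ℕ) + (3021/200)*d^(5:ℕ)*t^(4:ℕ) + (-2019/50)*d^(5:ℕ)*t^(5:ℕ) + (5161/200)*d^(5:ℕ)*t^(6:ℕ) + (-461/200)*d^(5:ℕ)*t^(7:ℕ) + (-3141/200)*d^(5:ℕ)*t^(8:ℕ) + (207/10)*d^(5:ℕ)*t^(9:ℕ) + (-1851/200)*d^(5:ℕ)*t^(10:ℕ) + (1243/40)*d^(5:ℕ)*t^(11:ℕ) + (421/100)*d^(6:ℕ)*t^(2:ℕ) + (-5637/400)*d^(6:ℕ)*t^(3:ℕ) + (193/20)*d^(6:ℕ)*t^(4:ℕ) + (-86/25)*d^(6:ℕ)*t^(5:ℕ) + (-2721/200)*d^(6:ℕ)*t^(6:ℕ) + (4007/200)*d^(6:ℕ)*t^(7:ℕ)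 + (-621/100)*d^(6:ℕ)*t^(8:ℕ) + (-1069/80)*d^(6:ℕ)*t^(9:ℕ) + (2567/200)*d^(6:ℕ)*t^(10:ℕ) + (163/80)*d^(6:ℕ)*t^(11:ℕ) + (9/5)*d^(7:ℕ)*t^(2:ℕ) + (-63/25)*d^(7:ℕ)*t^(3:ℕ) + (9/5)*d^(7:ℕ)*t^(4:ℕ) + (13/20)*d^(7:ℕ)*t^(5:ℕ) + (-371/100)*d^(7:ℕ)*t^(6:ℕ) + (297/100)*d^(7:ℕ)*t^(7:ℕ) + (259/100)*d^(7:ℕ)*t^(8:ℕ) + (-413/50)*d^(7:ℕ)*t^(9:ℕ) + (63/10)*d^(7:ℕ)*t^(10:ℕ) + (-9/4)*d^(7:ℕ)*t^(11:ℕ) + (-1/4)*d^(8:ℕ)*t^(7:ℕ) + (7/10)*d^(8:ℕ)*t^(8:ℕ) + (-99/100)*d^(8:ℕ)*t^(9:ℕ) + (7/10)*d^(8:ℕ)*t^(10:ℕ) + (-1/4)*d^(8:ℕ)*t^(11:ℕ) := by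
  have e0 : (1/2) + (-1/2)*t + (39/10)*t^(2:ℕ) + (-7/10)*t^(3:ℕ) + (53/5)*t^(4:ℕ) + (-7/5)*t^(5:ℕ) + (67/5)*t^(6:ℕ) + (-5)*t^(7:ℕ) + (81/10)*t^(8:ℕ) + (-61/10)*t^(9:ℕ) + (19/10)*t^(10:ℕ) + (-23/10)*t^(11:ℕ) + (9/8)*d + (-19/8)*d*t + (-19/40)*d*t^(2:ℕ) + (21/8)*d*t^(3:ℕ) + (481/20)*d*t^(4:ℕ) + (457/20)*d*t^(5:ℕ) + (1189/20)*d*t^(6:ℕ) + (-23/4)*d*t^(7:ℕ) + (1569/40)*d*t^(8:ℕ) + (-1667/40)*d*t^(9:ℕ) + (217/40)*d*t^(10:ℕ) + (-723/40)*d*t^(11:ℕ) + (-57/20)*d^(2:ℕ) + (-473/80)*d^(2:ℕ)*t + (-11937/400)*d^(2:ℕ)*t^(2:ℕ) + (-331/20)*d^(2:ℕ)*t^(3:ℕ) + (-1031/100)*d^(2:ℕ)*t^(4:ℕ) + (411/10)*d^(2:ℕ)*t^(5:ℕ) + (645/8)*d^(2:ℕ)*t^(6:ℕ) + (-669/40)*d^(2:ℕ)*t^(7:ℕ) + (3273/50)*d^(2:ℕ)*t^(8:ℕ)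 + (-9199/80)*d^(2:ℕ)*t^(9:ℕ) + (607/400)*d^(2:ℕ)*t^(10:ℕ) + (-1861/40)*d^(2:ℕ)*t^(11:ℕ) + (113/40)*d^(3:ℕ) + (113/40)*d^(3:ℕ)*t + (10801/200)*d^(3:ℕ)*t^(2:ℕ) + (209/20)*d^(3:ℕ)*t^(3:ℕ) + (509/40)*d^(3:ℕ)*t^(4:ℕ) + (2249/100)*d^(3:ℕ)*t^(5:ℕ) + (-1349/25)*d^(3:ℕ)*t^(6:ℕ) + (-239/8)*d^(3:ℕ)*t^(7:ℕ) + (-47/5)*d^(3:ℕ)*t^(8:ℕ) + (-15773/200)*d^(3:ℕ)*t^(9:ℕ) + (1221/200)*d^(3:ℕ)*t^(10:ℕ) + (-273/8)*d^(3:ℕ)*t^(11:ℕ) + (9/10)*d^(4:ℕ) + (9/10)*d^(4:ℕ)*t + (-2279/400)*d^(4:ℕ)*t^(2:ℕ) + (21067/400)*d^(4:ℕ)*t^(3:ℕ) + (4851/200)*d^(4:ℕ)*t^(4:ℕ) + (-6287/100)*d^(4:ℕ)*t^(5:ℕ) + (1603/25)*d^(4:ℕ)*t^(6:ℕ) + (-418/5)*d^(4:ℕ)*t^(7:ℕ) + (3223/200)*d^(4:ℕ)*t^(8:ℕ) + (377/50)*d^(4:ℕ)*t^(9:ℕ)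 + (-6861/400)*d^(4:ℕ)*t^(10:ℕ) + (453/80)*d^(4:ℕ)*t^(11:ℕ) + (-343/20)*d^(5:ℕ)*t^(2:ℕ) + (-363/100)*d^(5:ℕ)*t^(3:ℕ) + (3021/200)*d^(5:ℕ)*t^(4:ℕ) + (-2019/50)*d^(5:ℕ)*t^(5:ℕ) + (5161/200)*d^(5:ℕ)*t^(6:ℕ) + (-461/200)*d^(5:ℕ)*t^(7:ℕ) + (-3141/200)*d^(5:ℕ)*t^(8:ℕ) + (207/10)*d^(5:ℕ)*t^(9:ℕ) + (-1851/200)*d^(5:ℕ)*t^(10:ℕ) + (1243/40)*d^(5:ℕ)*t^(11:ℕ) + (421/100)*d^(6:ℕ)*t^(2:ℕ) + (-5637/400)*d^(6:ℕ)*t^(3:ℕ) + (193/20)*d^(6:ℕ)*t^(4:ℕ) + (-86/25)*d^(6:ℕ)*t^(5:ℕ) + (-2721/200)*d^(6:ℕ)*t^(6:ℕ) + (4007/200)*d^(6:ℕ)*t^(7:ℕ) + (-621/100)*d^(6:ℕ)*t^(8:ℕ) + (-1069/80)*d^(6:ℕ)*t^(9:ℕ) + (2567/200)*d^(6:ℕ)*t^(10:ℕ) + (163/80)*d^(6:ℕ)*t^(11:ℕ) + (9/5)*d^(7:ℕ)*t^(2:ℕ) + (-63/25)*d^(7:ℕ)*t^(3:ℕ)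 + (9/5)*d^(7:ℕ)*t^(4:ℕ) + (13/20)*d^(7:ℕ)*t^(5:ℕ) + (-371/100)*d^(7:ℕ)*t^(6:ℕ) + (297/100)*d^(7:ℕ)*t^(7:ℕ) + (259/100)*d^(7:ℕ)*t^(8:ℕ) + (-413/50)*d^(7:ℕ)*t^(9:ℕ) + (63/10)*d^(7:ℕ)*t^(10:ℕ) + (-9/4)*d^(7:ℕ)*t^(11:ℕ) + (-1/4)*d^(8:ℕ)*t^(7:ℕ) + (7/10)*d^(8:ℕ)*t^(8:ℕ) + (-99/100)*d^(8:ℕ)*t^(9:ℕ) + (7/10)*d^(8:ℕ)*t^(10:ℕ) + (-1/4)*d^(8:ℕ)*t^(11:ℕ) = ((1/2) + (-1/2)*t + (39/10)*t^(2:ℕ) + (-7/10)*t^(3:ℕ) + (53/5)*t^(4:ℕ) + (-7/5)*t^(5:ℕ) + (67/5)*t^(6:ℕ) + (-5)*t^(7:ℕ) + (81/10)*t^(8:ℕ) + (-61/10)*t^(9:ℕ) + (19/10)*t^(10:ℕ) + (-23/10)*t^(11:ℕ)) + d*((9/8) + (-19/8)*t + (-19/40)*t^(2:ℕ) + (21/8)*t^(3:ℕ) + (481/20)*t^(4:ℕ) + (457/20)*t^(5:ℕ) + (1189/20)*t^(6:ℕ) + (-23/4)*t^(7:ℕ)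 + (1569/40)*t^(8:ℕ) + (-1667/40)*t^(9:ℕ) + (217/40)*t^(10:ℕ) + (-723/40)*t^(11:ℕ)) + d^(2:ℕ)*((-57/20) + (-473/80)*t + (-11937/400)*t^(2:ℕ) + (-331/20)*t^(3:ℕ) + (-1031/100)*t^(4:ℕ) + (411/10)*t^(5:ℕ) + (645/8)*t^(6:ℕ) + (-669/40)*t^(7:ℕ) + (3273/50)*t^(8:ℕ) + (-9199/80)*t^(9:ℕ) + (607/400)*t^(10:ℕ) + (-1861/40)*t^(11:ℕ)) + d^(3:ℕ)*((113/40) + (113/40)*t + (10801/200)*t^(2:ℕ) + (209/20)*t^(3:ℕ) + (509/40)*t^(4:ℕ) + (2249/100)*t^(5:ℕ) + (-1349/25)*t^(6:ℕ) + (-239/8)*t^(7:ℕ) + (-47/5)*t^(8:ℕ) + (-15773/200)*t^(9:ℕ) + (1221/200)*t^(10:ℕ) + (-273/8)*t^(11:ℕ)) + d^(4:ℕ)*((9/10) + (9/10)*t + (-2279/400)*t^(2:ℕ) + (21067/400)*t^(3:ℕ) + (4851/200)*t^(4:ℕ) + (-6287/100)*t^(5:ℕ)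 + (1603/25)*t^(6:ℕ) + (-418/5)*t^(7:ℕ) + (3223/200)*t^(8:ℕ) + (377/50)*t^(9:ℕ) + (-6861/400)*t^(10:ℕ) + (453/80)*t^(11:ℕ)) + d^(5:ℕ)*((-343/20)*t^(2:ℕ) + (-363/100)*t^(3:ℕ) + (3021/200)*t^(4:ℕ) + (-2019/50)*t^(5:ℕ) + (5161/200)*t^(6:ℕ) + (-461/200)*t^(7:ℕ) + (-3141/200)*t^(8:ℕ) + (207/10)*t^(9:ℕ) + (-1851/200)*t^(10:ℕ) + (1243/40)*t^(11:ℕ)) + d^(6:ℕ)*((421/100)*t^(2:ℕ) + (-5637/400)*t^(3:ℕ) + (193/20)*t^(4:ℕ) + (-86/25)*t^(5:ℕ) + (-2721/200)*t^(6:ℕ) + (4007/200)*t^(7:ℕ) + (-621/100)*t^(8:ℕ) + (-1069/80)*t^(9:ℕ) + (2567/200)*t^(10:ℕ) + (163/80)*t^(11:ℕ)) + d^(7:ℕ)*((9/5)*t^(2:ℕ) + (-63/25)*t^(3:ℕ) + (9/5)*t^(4:ℕ) + (13/20)*t^(5:ℕ) + (-371/100)*t^(6:ℕ) + (297/100)*t^(7:ℕ)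 + (259/100)*t^(8:ℕ) + (-413/50)*t^(9:ℕ) + (63/10)*t^(10:ℕ) + (-9/4)*t^(11:ℕ)) + d^(8:ℕ)*((-1/4)*t^(7:ℕ) + (7/10)*t^(8:ℕ) + (-99/100)*t^(9:ℕ) + (7/10)*t^(10:ℕ) + (-1/4)*t^(11:ℕ)) := by
    ring
  rw [e0]
  exact pos_L2e_id d ((1/2) + (-1/2)*t + (39/10)*t^(2:ℕ) + (-7/10)*t^(3:ℕ) + (53/5)*t^(4:ℕ) + (-7/5)*t^(5:ℕ) + (67/5)*t^(6:ℕ) + (-5)*t^(7:ℕ) + (81/10)*t^(8:ℕ) + (-61/10)*t^(9:ℕ) + (19/10)*t^(10:ℕ) + (-23/10)*t^(11:ℕ)) ((9/8) + (-19/8)*t + (-19/40)*t^(2:ℕ) + (21/8)*t^(3:ℕ) + (481/20)*t^(4:ℕ) + (457/20)*t^(5:ℕ) + (1189/20)*t^(6:ℕ) + (-23/4)*t^(7:ℕ) + (1569/40)*t^(8:ℕ) + (-1667/40)*t^(9:ℕ) + (217/40)*t^(10:ℕ) + (-723/40)*t^(11:ℕ)) ((-57/20) + (-473/80)*t + (-11937/400)*t^(2:ℕ)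 + (-331/20)*t^(3:ℕ) + (-1031/100)*t^(4:ℕ) + (411/10)*t^(5:ℕ) + (645/8)*t^(6:ℕ) + (-669/40)*t^(7:ℕ) + (3273/50)*t^(8:ℕ) + (-9199/80)*t^(9:ℕ) + (607/400)*t^(10:ℕ) + (-1861/40)*t^(11:ℕ)) ((113/40) + (113/40)*t + (10801/200)*t^(2:ℕ) + (209/20)*t^(3:ℕ) + (509/40)*t^(4:ℕ) + (2249/100)*t^(5:ℕ) + (-1349/25)*t^(6:ℕ) + (-239/8)*t^(7:ℕ) + (-47/5)*t^(8:ℕ) + (-15773/200)*t^(9:ℕ) + (1221/200)*t^(10:ℕ) + (-273/8)*t^(11:ℕ)) ((9/10) + (9/10)*t + (-2279/400)*t^(2:ℕ) + (21067/400)*t^(3:ℕ) + (4851/200)*t^(4:ℕ) + (-6287/100)*t^(5:ℕ) + (1603/25)*t^(6:ℕ) + (-418/5)*t^(7:ℕ) + (3223/200)*t^(8:ℕ) + (377/50)*t^(9:ℕ) + (-6861/400)*t^(10:ℕ) + (453/80)*t^(11:ℕ)) ((-343/20)*t^(2:ℕ) + (-363/100)*t^(3:ℕ)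 + (3021/200)*t^(4:ℕ) + (-2019/50)*t^(5:ℕ) + (5161/200)*t^(6:ℕ) + (-461/200)*t^(7:ℕ) + (-3141/200)*t^(8:ℕ) + (207/10)*t^(9:ℕ) + (-1851/200)*t^(10:ℕ) + (1243/40)*t^(11:ℕ)) ((421/100)*t^(2:ℕ) + (-5637/400)*t^(3:ℕ) + (193/20)*t^(4:ℕ) + (-86/25)*t^(5:ℕ) + (-2721/200)*t^(6:ℕ) + (4007/200)*t^(7:ℕ) + (-621/100)*t^(8:ℕ) + (-1069/80)*t^(9:ℕ) + (2567/200)*t^(10:ℕ) + (163/80)*t^(11:ℕ)) ((9/5)*t^(2:ℕ) + (-63/25)*t^(3:ℕ) + (9/5)*t^(4:ℕ) + (13/20)*t^(5:ℕ) + (-371/100)*t^(6:ℕ) + (297/100)*t^(7:ℕ) + (259/100)*t^(8:ℕ) + (-413/50)*t^(9:ℕ) + (63/10)*t^(10:ℕ) + (-9/4)*t^(11:ℕ)) ((-1/4)*t^(7:ℕ) + (7/10)*t^(8:ℕ) + (-99/100)*t^(9:ℕ) + (7/10)*t^(10:ℕ) + (-1/4)*t^(11:ℕ)) h1 h2 ((pos_L2e_b0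 t h3 h4).trans_eq (by ring)) ((pos_L2e_b1 t h3 h4).trans_eq (by ring)) ((pos_L2e_b2 t h3 h4).trans_eq (by ring)) ((pos_L2e_b3 t h3 h4).trans_eq (by ring)) ((pos_L2e_b4 t h3 h4).trans_eq (by ring)) ((pos_L2e_b5 t h3 h4).trans_eq (by ring)) ((pos_L2e_b6 t h3 h4).trans_eq (by ring)) ((pos_L2e_b7 t h3 h4).trans_eq (by ring)) ((pos_L2e_b8 t h3 h4).trans_eq (by ring))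

end Vale.Agent.Lib.P100.AB.W5
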